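import Crest.Agent.R185.ADef

/-!
# R185 TASK AB: basic facts on fillings and on the Alexandrov topology
-/

set_option autoImplicit false
set_option linter.unusedVariables false

namespace Crest.Agent.R185

open Set Metric Filter
open scoped _root_.Topology

section top

variable {Y Y' : Type*} [TopologicalSpace Y] [TopologicalSpace Y'] {n : ℕ} {A A' B B' : Set Y}
  {f g : (Fin n → ℝ) → Y}

theorem TFl.mono (h : TFl n B f) (hB : B ⊆ B') : TFl n B' f := by
  obtain ⟨F, h1, h2, h3⟩ := h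
  exact ⟨F, h1, h2.mono_right hB, h3⟩

theorem TFl.congr (h : TFl n B f) (hf : EqOn g f (Sph n)) : TFl n B g := by
  obtain ⟨F, h1, h2, h3⟩ := h
  exact ⟨F, h1, h2, h3.trans hf.symm⟩

theorem TFill.mono (h : TFill n A B) (hA : A' ⊆ A) (hB : B ⊆ B') : TFill n A' B' := by
  exact fun f h1 h2 => (h f h1 (h2.mono_right hA)).mono hB

theorem TFl.comp {C : Set Y'} {φ : Y → Y'} (h : TFl n B f) (hφ : ContinuousOn φ B)
    (hm : MapsTo φ B C) : TFl n C (φ ∘ f) := by
  obtain ⟨F, h1, h2, h3⟩ := h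
  exact ⟨φ ∘ F, hφ.comp h1 h2, hm.comp h2, fun x hx => congrArg φ (h3 hx)⟩

/-- Glue a collar: `F x = H (x / ‖x‖) (2 - 2 ‖x‖)` for `‖x‖ ≥ 1/2`, `F x = G (2 x)` for
`‖x‖ ≤ 1/2`. -/
theorem TFl.of_homotopy (H : (Fin n → ℝ) → ℝ → Y)
    (hH : ContinuousOn (Function.uncurry H) (Sph n ×ˢ Icc 0 1))
    (hB : ∀ x ∈ Sph n, ∀ t ∈ Icc (0 : ℝ) 1, H x t ∈ B) (h0 : ∀ x ∈ Sph n, H x 0 = f x)
    (h1 : ∀ x ∈ Sph n, H x 1 = g x) (hg : TFl n B g) : TFl n B f := by
  obtain ⟨G, hG1, hG2, hG3⟩ := hg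
  have hs : ∀ x : Fin n → ℝ, 1 / 2 ≤ ‖x‖ → ‖x‖⁻¹ • x ∈ Sph n := fun x hx => by
    rw [mem_sphere_zero_iff_norm, norm_smul, norm_inv, norm_norm, inv_mul_cancel₀ (by linarith)]
  have hb : ∀ x : Fin n → ℝ, ‖x‖ ≤ 1 / 2 → (2 : ℝ) • x ∈ Bal n := fun x hx => by
    rw [mem_closedBall_zero_iff, norm_smul, Real.norm_two]
    linarith
  have ht : ∀ x : Fin n → ℝ, 1 / 2 ≤ ‖x‖ → ‖x‖ ≤ 1 → 2 - 2 * ‖x‖ ∈ Icc (0 : ℝ) 1 :=
    fun x h1 h2 => ⟨by linarith, by linarith⟩
  refine ⟨fun x => if ‖x‖ ≤ 1 / 2 then G ((2 : ℝ) • x) else H (‖x‖⁻¹ • x) (2 - 2 * ‖x‖), ?_, ?_, ?_⟩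
  · have e : Bal n = {x | ‖x‖ ≤ 1 / 2} ∪ {x | 1 / 2 ≤ ‖x‖ ∧ ‖x‖ ≤ 1} := by
      ext x
      simp only [mem_closedBall_zero_iff, mem_union, mem_ofPred_eq]
      constructor
      · intro h
        rcases le_total ‖x‖ (1 / 2) with h' | h'
        · exact Or.inl h'
        · exact Or.inr ⟨h', h⟩
      · rintro (h | h)
        · linarith
        · exact h.2
    rw [e]
    refine ContinuousOn.union_of_isClosed ?_ ?_ (isClosed_le continuous_norm continuous_const)
      ((isClosed_le continuous_const continuous_norm).inter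
        (isClosed_le continuous_norm continuous_const))
    · refine ContinuousOn.congr (f := fun x => G ((2 : ℝ) • x)) ?_ fun x hx => if_pos hx
      exact hG1.comp (continuous_const_smul (2 : ℝ)).continuousOn hb
    · refine ContinuousOn.congr (f := fun x => H (‖x‖⁻¹ • x) (2 - 2 * ‖x‖)) ?_ fun x hx => ?_
      · refine hH.comp (f := fun x : Fin n → ℝ => (‖x‖⁻¹ • x, 2 - 2 * ‖x‖)) ?_
          fun x hx => ⟨hs x hx.1, ht x hx.1 hx.2⟩
        refine ContinuousOn.prodMk (ContinuousOn.smul (continuous_norm.continuousOn.inv₀ ?_)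
          continuousOn_id) (by fun_prop)
        intro x hx
        have := hx.1
        linarith
      · dsimp only
        split_ifs with h
        · have h2 : ‖x‖ = 1 / 2 := le_antisymm h hx.1
          have h3 := hs x hx.1
          rw [h2] at h3 ⊢
          rw [show (1 / 2 : ℝ)⁻¹ = 2 by norm_num] at h3 ⊢
          rw [show (2 : ℝ) - 2 * (1 / 2) = 1 by norm_num, h1 _ h3, hG3 h3]
        · rfl
  · intro x hx
    dsimp only
    split_ifs with h
    · exact hG2 (hb x h)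
    · exact hB _ (hs x (le_of_not_ge h)) _ (ht x (le_of_not_ge h) (mem_closedBall_zero_iff.1 hx))
  · intro x hx
    have h2 : ‖x‖ = 1 := mem_sphere_zero_iff_norm.1 hx
    dsimp only
    rw [h2, if_neg (by norm_num), inv_one, one_smul, mul_one, sub_self, h0 x hx]

theorem TFl.const {y : Y} (hy : y ∈ B) : TFl n B fun _ => y := by
  exact ⟨fun _ => y, continuousOn_const, fun _ _ => hy, fun _ _ => rfl⟩

end top

section poset

variable {P Q : Type*} [Preorder P] [Preorder Q] {X X' : Type*} [TopologicalSpace X]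
  [TopologicalSpace X'] {K K' : Set X}

theorem ab_nhds_alx (p : P) (s : Set P) : s ∈ @nhds (Alx P) _ p ↔ Iic p ⊆ s := by
  refine (_root_.mem_nhds_iff (X := Alx P)).trans ?_
  constructor
  · rintro ⟨t, hts, ht, hp⟩ b hb
    exact hts (ht hb hp)
  · intro h
    exact ⟨(Iic p : Set P), h, fun a b hab ha => le_trans hab ha, le_refl p⟩

theorem continuousOn_alx {f : X → P} : ContinuousOn (Y := Alx P) f K ↔ UC f K := by
  refine forall₂_congr fun z _ => ?_
  constructor
  · intro h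
    exact h ((ab_nhds_alx (f z) _).2 Subset.rfl)
  · intro h s hs
    exact mem_of_superset h fun x hx => (ab_nhds_alx (f z) s).1 hs hx

theorem pfl_iff {n : ℕ} {B : Set P} {f : (Fin n → ℝ) → P} :
    PFl n B f ↔ TFl (Y := Alx P) n B f := by
  exact exists_congr fun F => and_congr continuousOn_alx.symm Iff.rfl

theorem pfill_iff {n : ℕ} {A B : Set P} : PFill n A B ↔ TFill (Y := Alx P) n A B := by
  exact forall_congr' fun f => imp_congr continuousOn_alx.symm (imp_congr Iff.rfl pfl_iff)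

theorem alx_continuousConstSMul {Γ : Type*} [Group Γ] [MulAction Γ P]
    (h : ∀ (g : Γ) (a b : P), a ≤ b → g • a ≤ g • b) : ContinuousConstSMul Γ (Alx P) := by
  exact ⟨fun g => ⟨fun s hs a b hab ha => hs (h g b a hab) ha⟩⟩

theorem UC.mono {f : X → P} (h : UC f K) (hK : K' ⊆ K) : UC f K' := by
  exact fun z hz => (h z (hK hz)).filter_mono (nhdsWithin_mono z hK)

theorem UC.congr {f g : X → P} (h : UC f K) (hg : EqOn g f K) : UC g K := by
  intro z hz
  filter_upwards [h z hz, self_mem_nhdsWithin] with x h1 h2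
  rwa [hg hz, hg h2]

theorem UC.const (p : P) : UC (fun _ : X => p) K := by
  exact fun z _ => Eventually.of_forall fun _ => le_refl p

theorem UC.comp {f : X → P} {L : Set X'} {u : X' → X} (h : UC f K) (hu : ContinuousOn u L)
    (hm : MapsTo u L K) : UC (f ∘ u) L := by
  exact continuousOn_alx.1 (ContinuousOn.comp (continuousOn_alx.2 h) hu hm)

theorem UC.map {f : X → P} {A : Set P} {r : P → Q} (h : UC f K) (hm : MapsTo f K A)
    (hr : MonotoneOn r A) : UC (r ∘ f) K := by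
  intro z hz
  filter_upwards [h z hz, self_mem_nhdsWithin] with x h1 h2
  exact hr (hm h2) (hm hz) h1

theorem UC.union_closed {f : X → P} (h : UC f K) (h' : UC f K') (hK : IsClosed K)
    (hK' : IsClosed K') : UC f (K ∪ K') := by
  exact continuousOn_alx.1
    ((continuousOn_alx.2 h).union_of_isClosed (continuousOn_alx.2 h') hK hK')

theorem UC.iUnion_closed {ι : Type*} [Finite ι] {f : X → P} {L : ι → Set X}
    (h : ∀ i, UC f (L i)) (hL : ∀ i, IsClosed (L i)) : UC f (⋃ i, L i) := by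
  exact continuousOn_alx.1 ((locallyFinite_of_finite L).continuousOn_iUnion hL
    fun i => continuousOn_alx.2 (h i))

theorem UC.finset_union {V : Type*} [DecidableEq V] {f g : X → Finset V} (hf : UC f K)
    (hg : UC g K) : UC (fun x => f x ∪ g x) K := by
  intro z hz
  filter_upwards [hf z hz, hg z hz] with x h1 h2
  exact Finset.union_subset_union h1 h2

/-- compactness -/
theorem UC.exists_bound {f : X → P} (h : UC f K) (hK : IsCompact K) :
    ∃ S : Finset X, (S : Set X) ⊆ K ∧ ∀ x ∈ K, ∃ z ∈ S, f x ≤ f z := by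
  obtain ⟨S, h1, h2⟩ := hK.elim_nhdsWithin_subcover (fun z => {x | f x ≤ f z}) h
  refine ⟨S, h1, fun x hx => ?_⟩
  obtain ⟨z, hz, h3⟩ := mem_iUnion₂.1 (h2 hx)
  exact ⟨z, hz, h3⟩

theorem UC.exists_finset {V : Type*} {f : X → Finset V} (h : UC f K) (hK : IsCompact K) :
    ∃ U : Finset V, (∀ x ∈ K, f x ⊆ U) ∧ ∀ v ∈ U, ∃ x ∈ K, v ∈ f x := by
  classical
  obtain ⟨S, h1, h2⟩ := h.exists_bound hK
  refine ⟨S.biUnion f, fun x hx => ?_, fun v hv => ?_⟩
  · obtain ⟨z, hz, h3⟩ := h2 x hx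
    exact Finset.Subset.trans h3 (Finset.subset_biUnion_of_mem f hz)
  · obtain ⟨z, hz, h3⟩ := Finset.mem_biUnion.1 hv
    exact ⟨z, h1 hz, h3⟩

/-- the preimage of an upper set is relatively closed -/
theorem UC.isClosed_upper {f : X → P} (h : UC f K) (hK : IsClosed K) {U : Set P}
    (hU : ∀ x ∈ K, ∀ y ∈ K, f y ∈ U → f y ≤ f x → f x ∈ U) : IsClosed {x | x ∈ K ∧ f x ∈ U} := by
  refine isClosed_of_closure_subset fun z hz => ?_
  have hzK : z ∈ K := hK.closure_subset (closure_mono (fun x hx => hx.1) hz)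
  have h1 := (h z hzK).filter_mono
    (nhdsWithin_mono z (show {x | x ∈ K ∧ f x ∈ U} ⊆ K from fun x hx => hx.1))
  have := mem_closure_iff_nhdsWithin_neBot.1 hz
  obtain ⟨x, h2, h3⟩ := (h1.and self_mem_nhdsWithin).exists
  exact ⟨hzK, hU z hzK x h3.1 h3.2 h2⟩

open Classical in
theorem ab_uc_ite {f g : X → P} {O : Set X} (hO : IsOpen O) (hf : UC f K) (hg : UC g K)
    (hle : ∀ x ∈ K, f x ≤ g x) : UC (fun x => if x ∈ O then f x else g x) K := by
  intro z hz
  by_cases h : z ∈ O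
  · filter_upwards [hf z hz, mem_nhdsWithin_of_mem_nhds (hO.mem_nhds h)] with x h1 h2
    rwa [if_pos h, if_pos h2]
  · filter_upwards [hf z hz, hg z hz] with x h1 h2
    rw [if_neg h]
    split_ifs
    · exact h1.trans (hle z hz)
    · exact h2

variable {n d : ℕ} {A A' B B' : Set P} {f g : (Fin n → ℝ) → P}

theorem PFl.mono (h : PFl n B f) (hB : B ⊆ B') : PFl n B' f := by
  obtain ⟨F, h1, h2, h3⟩ := h
  exact ⟨F, h1, h2.mono_right hB, h3⟩

theorem PFl.congr (h : PFl n B f) (hf : EqOn g f (Sph n)) : PFl n B g := by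
  obtain ⟨F, h1, h2, h3⟩ := h
  exact ⟨F, h1, h2, h3.trans hf.symm⟩

theorem PFill.mono (h : PFill n A B) (hA : A' ⊆ A) (hB : B ⊆ B') : PFill n A' B' := by
  exact fun f h1 h2 => (h f h1 (h2.mono_right hA)).mono hB

theorem Conn.mono {d' : ℕ} (h : Conn d A) (hd : d' ≤ d) : Conn d' A := by
  exact fun n hn => h n (hn.trans hd)

theorem Conn.nonempty [Nonempty P] (h : Conn d A) : A.Nonempty := by
  have he : ∀ x, x ∉ Sph 0 := fun x hx => by
    have := mem_sphere_zero_iff_norm.1 hx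
    rw [Subsingleton.elim x 0, norm_zero] at this
    exact zero_ne_one this
  obtain ⟨F, -, h2, -⟩ := h 0 (Nat.zero_le d) (fun _ => Classical.arbitrary P) (UC.const _)
    fun x hx => absurd hx (he x)
  exact ⟨F 0, h2 (mem_closedBall_self zero_le_one)⟩

theorem PFl.const {p : P} (hp : p ∈ B) : PFl n B fun _ => p := by
  exact ⟨fun _ => p, UC.const p, fun _ _ => hp, fun _ _ => rfl⟩

theorem ab_uc_of_pfl (hg : PFl n B g) : UC g (Sph n) ∧ MapsTo g (Sph n) B := by
  obtain ⟨F, h1, h2, h3⟩ := hg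
  exact ⟨(h1.mono sphere_subset_closedBall).congr h3.symm,
    fun x hx => h3 hx ▸ h2 (sphere_subset_closedBall hx)⟩

theorem ab_uc_fst {f : (Fin n → ℝ) → P} (hf : UC f (Sph n)) :
    UC (fun z : (Fin n → ℝ) × ℝ => f z.1) (Sph n ×ˢ Icc 0 1) :=
  hf.comp continuous_fst.continuousOn fun _ hz => hz.1

/-- comparable maps are homotopic (`H x t = if t < 1 then f x else g x`) -/
theorem PFl.of_le (hf : UC f (Sph n)) (hm : MapsTo f (Sph n) B) (hle : ∀ x ∈ Sph n, f x ≤ g x)
    (hg : PFl n B g) : PFl n B f := by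
  classical
  obtain ⟨hg1, hg2⟩ := ab_uc_of_pfl hg
  have hu := ab_uc_ite (O := {z : (Fin n → ℝ) × ℝ | z.2 < 1})
    (isOpen_lt continuous_snd continuous_const) (ab_uc_fst hf) (ab_uc_fst hg1)
    fun z hz => hle _ hz.1
  refine pfl_iff.2 (TFl.of_homotopy (Y := Alx P) (fun x t => if t < 1 then f x else g x)
    ((continuousOn_alx (P := P)).2 (hu.congr fun z _ => ?_)) (fun x hx t _ => ?_) (fun x _ => ?_)
    (fun x _ => ?_) (pfl_iff.1 hg))
  · exact if_congr Iff.rfl rfl rfl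
  · change (if t < 1 then f x else g x) ∈ B
    split_ifs
    · exact hm hx
    · exact hg2 hx
  · exact if_pos zero_lt_one
  · exact if_neg (lt_irrefl _)

theorem PFl.of_ge (hf : UC f (Sph n)) (hm : MapsTo f (Sph n) B) (hle : ∀ x ∈ Sph n, g x ≤ f x)
    (hg : PFl n B g) : PFl n B f := by
  classical
  obtain ⟨hg1, hg2⟩ := ab_uc_of_pfl hg
  have hu := ab_uc_ite (O := {z : (Fin n → ℝ) × ℝ | 0 < z.2})
    (isOpen_lt continuous_const continuous_snd) (ab_uc_fst hg1) (ab_uc_fst hf)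
    fun z hz => hle _ hz.1
  refine pfl_iff.2 (TFl.of_homotopy (Y := Alx P) (fun x t => if 0 < t then g x else f x)
    ((continuousOn_alx (P := P)).2 (hu.congr fun z _ => ?_)) (fun x hx t _ => ?_) (fun x _ => ?_)
    (fun x _ => ?_) (pfl_iff.1 hg))
  · exact if_congr Iff.rfl rfl rfl
  · change (if 0 < t then g x else f x) ∈ B
    split_ifs
    · exact hg2 hx
    · exact hm hx
  · exact if_neg (lt_irrefl _)
  · exact if_pos zero_lt_one

theorem PFl.map {C : Set Q} {r : P → Q} (h : PFl n B f) (hr : MonotoneOn r B)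
    (hm : MapsTo r B C) : PFl n C (r ∘ f) := by
  obtain ⟨F, h1, h2, h3⟩ := h
  exact ⟨r ∘ F, h1.map h2 hr, hm.comp h2, fun x hx => congrArg r (h3 hx)⟩

theorem PFill.of_top {p : P} (hAB : A ⊆ B) (hp : p ∈ B) (h : ∀ a ∈ A, a ≤ p) : PFill n A B := by
  exact fun f h1 h2 => PFl.of_le h1 (h2.mono_right hAB) (fun x hx => h _ (h2 hx)) (PFl.const hp)

theorem PFill.of_bot {p : P} (hAB : A ⊆ B) (hp : p ∈ B) (h : ∀ a ∈ A, p ≤ a) : PFill n A B := by
  exact fun f h1 h2 => PFl.of_ge h1 (h2.mono_right hAB) (fun x hx => h _ (h2 hx)) (PFl.const hp)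

theorem Conn.of_top {p : P} (hp : p ∈ A) (h : ∀ a ∈ A, a ≤ p) : Conn d A := by
  exact fun n _ => PFill.of_top Subset.rfl hp h

theorem Conn.of_bot {p : P} (hp : p ∈ A) (h : ∀ a ∈ A, p ≤ a) : Conn d A := by
  exact fun n _ => PFill.of_bot Subset.rfl hp h

/-- transport along monotone maps `r`, `s` with `s ∘ r` comparable to the identity -/
theorem PFill.of_maps {C C' : Set Q} {r : P → Q} {s : Q → P} (h : PFill n C C') (hCC : C ⊆ C')
    (hAB : A ⊆ B) (hr : MonotoneOn r A) (hrm : MapsTo r A C) (hs : MonotoneOn s C')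
    (hsm : MapsTo s C' B) (hc : (∀ a ∈ A, a ≤ s (r a)) ∨ ∀ a ∈ A, s (r a) ≤ a) :
    PFill n A B := by
  intro f h1 h2
  have h3 := (h (r ∘ f) (h1.map h2 hr) (hrm.comp h2)).map hs hsm
  rcases hc with hc | hc
  · exact PFl.of_le h1 (h2.mono_right hAB) (fun x hx => hc _ (h2 hx)) h3
  · exact PFl.of_ge h1 (h2.mono_right hAB) (fun x hx => hc _ (h2 hx)) h3

theorem Conn.of_maps {C : Set Q} {r : P → Q} {s : Q → P} (h : Conn d C)
    (hr : MonotoneOn r A) (hrm : MapsTo r A C) (hs : MonotoneOn s C)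
    (hsm : MapsTo s C A) (hc : (∀ a ∈ A, a ≤ s (r a)) ∨ ∀ a ∈ A, s (r a) ≤ a) : Conn d A := by
  exact fun n hn => (h n hn).of_maps Subset.rfl Subset.rfl hr hrm hs hsm hc

end poset

end Crest.Agent.R185
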