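import Crest.Agent.R185.ASA

/-!
# R185 TASK ARips: coarse connectivity and Rips complexes
-/

set_option autoImplicit false

namespace Crest.Agent.R185

open Set Metric Filter
open scoped _root_.Topology

open scoped Pointwise

variable {G H : Type*} [Group G] [Group H] {d : ℕ}

theorem BC.mono {X : Type*} [TopologicalSpace X] {A B : Set G} {γ : X → G} {K K' : Set X}
    (h : BC A γ K) (hA : A ⊆ B) (hK : K' ⊆ K) : BC B γ K' := by
  intro z hz
  exact ((h z (hK hz)).filter_mono (nhdsWithin_mono _ hK)).mono fun _ h' => hA h'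

/-- `f z = {γ z} ∪ {a | ∃ᶠ z' in 𝓝[K] z, γ z' = a}` -/
theorem BC.exists_uc {X : Type*} [TopologicalSpace X] {A : Set G} (hA : A.Finite) {γ : X → G}
    {K : Set X} (h : BC A γ K) : ∃ f : X → Finset G, UC f K ∧
      ∀ x ∈ K, γ x ∈ f x ∧ ∀ a ∈ f x, a = γ x ∨ (γ x)⁻¹ * a ∈ A := by
  have hfin : ∀ z, {a | a = γ z ∨ ((γ z)⁻¹ * a ∈ A ∧ ∃ᶠ z' in 𝓝[K] z, γ z' = a)}.Finite := by
    intro z
    refine ((hA.image fun b => γ z * b).insert (γ z)).subset ?_
    rintro a (ha | ⟨ha, -⟩)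
    · exact Or.inl ha
    · exact Or.inr ⟨_, ha, by simp⟩
  have hmem : ∀ z a, a ∈ (hfin z).toFinset ↔
      a = γ z ∨ ((γ z)⁻¹ * a ∈ A ∧ ∃ᶠ z' in 𝓝[K] z, γ z' = a) := fun z a => by
    rw [Finite.mem_toFinset]; rfl
  refine ⟨fun z => (hfin z).toFinset, fun z hz => ?_, fun x _ =>
    ⟨(hmem x _).2 (Or.inl rfl), fun a ha => ((hmem x a).1 ha).imp id And.left⟩⟩
  have h1 : ∀ᶠ z' in 𝓝[K] z, ∀ b ∈ A, (¬∃ᶠ z' in 𝓝[K] z, γ z' = γ z * b) → γ z' ≠ γ z * b := by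
    rw [eventually_all_finite hA]
    intro b _
    by_cases hb : ∃ᶠ z' in 𝓝[K] z, γ z' = γ z * b
    · exact Eventually.of_forall fun _ h' => absurd hb h'
    · exact (not_frequently.1 hb).mono fun _ h' _ => h'
  have h2 : ∀ᶠ z' in 𝓝[K] z, γ z' ∈ (hfin z).toFinset := by
    filter_upwards [h1, h z hz] with z' h3 h4
    refine (hmem z _).2 (Or.inr ⟨h4, ?_⟩)
    by_contra h5
    exact h3 _ h4 (by simpa using h5) (by simp)
  filter_upwards [h2, eventually_eventually_nhdsWithin.2 h2] with z' h3 h4 a ha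
  rcases (hmem z' a).1 ha with rfl | ⟨-, h5⟩
  · exact h3
  · obtain ⟨z'', h6, h7⟩ := (h5.and_eventually h4).exists
    exact h6 ▸ h7

theorem UC.bc {X : Type*} [TopologicalSpace X] {T N : Set G} {f : X → Finset G} {K : Set X}
    (h : UC f K) (hm : MapsTo f K (Rp T N)) {γ : X → G} (hγ : ∀ x ∈ K, γ x ∈ f x) : BC T γ K := by
  intro z hz
  filter_upwards [h z hz, self_mem_nhdsWithin] with z' h1 h2
  exact (hm hz).2.2 _ (hγ z hz) _ (h1 (hγ z' h2))

theorem Rp.mono {T T' N N' : Set G} (hT : T ⊆ T') (hN : N ⊆ N') : Rp T N ⊆ Rp T' N' := by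
  rintro σ ⟨h1, h2, h3⟩
  exact ⟨h1, h2.trans hN, fun a ha b hb => hT (h3 a ha b hb)⟩

theorem arips_choose {X V : Type*} [Nonempty V] {f : X → Finset V} {K : Set X}
    (h : ∀ x ∈ K, (f x).Nonempty) : ∃ γ : X → V, ∀ x ∈ K, γ x ∈ f x := by
  classical
  refine ⟨fun x => if hx : x ∈ K then (h x hx).choose else Classical.arbitrary V, fun x hx => ?_⟩
  simp only [dif_pos hx]
  exact (h x hx).choose_spec

theorem arips_mem_rp {S N : Set G} {σ : Finset G} {c : G} (h1 : σ.Nonempty) (h2 : (σ : Set G) ⊆ N)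
    (h3 : ∀ a ∈ σ, c⁻¹ * a ∈ S) : σ ∈ Rp (S⁻¹ * S) N :=
  ⟨h1, h2, fun a ha b hb => ⟨(c⁻¹ * a)⁻¹, Set.inv_mem_inv.2 (h3 a ha), c⁻¹ * b, h3 b hb, by simp⟩⟩

/-- compare `f` with a map `F` of the ball through the union -/
theorem arips_fill {j : ℕ} {S N : Set G} {f F : (Fin j → ℝ) → Finset G} {Γ : (Fin j → ℝ) → G}
    (hf : UC f (Sph j)) (hF : UC F (Bal j))
    (h1 : ∀ x ∈ Sph j, (f x).Nonempty ∧ (f x : Set G) ⊆ N ∧ ∀ a ∈ f x, (Γ x)⁻¹ * a ∈ S)
    (h2 : ∀ x ∈ Bal j, (F x).Nonempty ∧ (F x : Set G) ⊆ N ∧ ∀ a ∈ F x, (Γ x)⁻¹ * a ∈ S) :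
    PFl j (Rp (S⁻¹ * S) N) f := by
  classical
  have hSB : Sph j ⊆ Bal j := sphere_subset_closedBall
  have h3 : PFl j (Rp (S⁻¹ * S) N) F :=
    ⟨F, hF, fun x hx => arips_mem_rp (h2 x hx).1 (h2 x hx).2.1 (h2 x hx).2.2, fun _ _ => rfl⟩
  have h4 : PFl j (Rp (S⁻¹ * S) N) fun x => f x ∪ F x := by
    refine PFl.of_ge (hf.finset_union (hF.mono hSB)) (fun x hx => ?_)
      (fun x _ => Finset.subset_union_right) h3
    refine arips_mem_rp (c := Γ x) ((h1 x hx).1.mono Finset.subset_union_left) ?_ fun a ha => ?_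
    · rw [Finset.coe_union]
      exact union_subset (h1 x hx).2.1 (h2 x (hSB hx)).2.1
    · rcases Finset.mem_union.1 ha with ha | ha
      · exact (h1 x hx).2.2 a ha
      · exact (h2 x (hSB hx)).2.2 a ha
  exact PFl.of_le hf (fun x hx => arips_mem_rp (h1 x hx).1 (h1 x hx).2.1 (h1 x hx).2.2)
    (fun x _ => Finset.subset_union_left) h4

theorem cc_iff_rips : CC G d ↔ ∀ T : Set G, T.Finite → ∃ T' : Set G, T'.Finite ∧
    ∀ j ≤ d, PFill j (Rp T univ) (Rp T' univ) := by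
  classical
  constructor
  · intro h T hT
    obtain ⟨B, hB, hfill⟩ := h T hT
    have hS : (insert 1 B ∪ T).Finite := (hB.insert 1).union hT
    refine ⟨(insert 1 B ∪ T)⁻¹ * (insert 1 B ∪ T), hS.inv.mul hS, fun j hj f hf hm => ?_⟩
    obtain ⟨γ, hγ⟩ := arips_choose (fun x hx => (hm hx).1)
    obtain ⟨Γ, hΓ, hΓγ⟩ := hfill j hj γ (hf.bc hm hγ)
    obtain ⟨F, hF, hF'⟩ := hΓ.exists_uc hB
    refine arips_fill (Γ := Γ) hf hF (fun x hx => ⟨(hm hx).1, subset_univ _, fun a ha => ?_⟩)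
      fun x hx => ⟨⟨_, (hF' x hx).1⟩, subset_univ _, fun a ha => ?_⟩
    · rw [hΓγ hx]
      exact Or.inr ((hm hx).2.2 _ (hγ x hx) _ ha)
    · rcases (hF' x hx).2 a ha with rfl | h1
      · exact Or.inl (Or.inl (by simp))
      · exact Or.inl (Or.inr h1)
  · intro h A hA
    have hS : (insert 1 A).Finite := hA.insert 1
    obtain ⟨T', hT', hfill⟩ := h _ (hS.inv.mul hS)
    refine ⟨T', hT', fun j hj γ hγ => ?_⟩
    obtain ⟨f, hf, hf'⟩ := hγ.exists_uc hA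
    obtain ⟨F, hF, hFm, hFf⟩ := hfill j hj f hf fun x hx =>
      arips_mem_rp (c := γ x) ⟨_, (hf' x hx).1⟩ (subset_univ _) fun a ha => by
        rcases (hf' x hx).2 a ha with rfl | h1
        · exact Or.inl (by simp)
        · exact Or.inr h1
    obtain ⟨Γ, hΓ⟩ := arips_choose (fun x hx => (hFm hx).1)
    refine ⟨fun x => if x ∈ Sph j then γ x else Γ x, hF.bc hFm fun x hx => ?_, fun x hx => if_pos hx⟩
    split_ifs with h1
    · rw [hFf h1]; exact (hf' x h1).1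
    · exact hΓ x hx

theorem CC.mono {d' : ℕ} (h : CC G d) (hd : d' ≤ d) : CC G d' := by
  intro A hA
  obtain ⟨B, hB, h1⟩ := h A hA
  exact ⟨B, hB, fun j hj => h1 j (hj.trans hd)⟩

theorem arips_bc_map {X : Type*} [TopologicalSpace X] {A : Set G} {γ : X → G} {K : Set X}
    (φ : G →* H) (h : BC A γ K) : BC (φ '' A) (φ ∘ γ) K := fun z hz =>
  (h z hz).mono fun z' h' => ⟨_, h', by simp⟩

theorem CC.of_equiv (e : G ≃* H) (h : CC G d) : CC H d := by
  intro A hA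
  obtain ⟨B, hB, h1⟩ := h (e.symm.toMonoidHom '' A) (hA.image _)
  refine ⟨e.toMonoidHom '' B, hB.image _, fun j hj γ hγ => ?_⟩
  obtain ⟨Γ, hΓ, h2⟩ := h1 j hj _ (arips_bc_map e.symm.toMonoidHom hγ)
  refine ⟨_, arips_bc_map e.toMonoidHom hΓ, fun x hx => ?_⟩
  simp [h2 hx]

theorem cc_of_finite [Finite G] : CC G d := by
  intro A _
  exact ⟨univ, finite_univ, fun j _ γ _ =>
    ⟨γ, fun z _ => Eventually.of_forall fun _ => mem_univ _, fun _ _ => rfl⟩⟩

theorem CC.prod (hG : CC G d) (hH : CC H d) : CC (G × H) d := by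
  intro A hA
  obtain ⟨B, hB, h1⟩ := hG (MonoidHom.fst G H '' A) (hA.image _)
  obtain ⟨B', hB', h2⟩ := hH (MonoidHom.snd G H '' A) (hA.image _)
  refine ⟨B ×ˢ B', hB.prod hB', fun j hj γ hγ => ?_⟩
  obtain ⟨Γ, hΓ, h3⟩ := h1 j hj _ (arips_bc_map (MonoidHom.fst G H) hγ)
  obtain ⟨Γ', hΓ', h4⟩ := h2 j hj _ (arips_bc_map (MonoidHom.snd G H) hγ)
  refine ⟨fun x => (Γ x, Γ' x), fun z hz => ?_, fun x hx => Prod.ext (h3 hx) (h4 hx)⟩
  filter_upwards [hΓ z hz, hΓ' z hz] with z' h5 h6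
  exact ⟨h5, h6⟩

theorem CC.pi {ι : Type*} [Finite ι] {K : ι → Type*} [∀ i, Group (K i)] (h : ∀ i, CC (K i) d) :
    CC (∀ i, K i) d := by
  intro A hA
  choose B hB h1 using fun i => h i (Pi.evalMonoidHom K i '' A) (hA.image _)
  refine ⟨Set.pi univ B, Finite.pi hB, fun j hj γ hγ => ?_⟩
  choose Γ hΓ h2 using fun i => h1 i j hj _ (arips_bc_map (Pi.evalMonoidHom K i) hγ)
  refine ⟨fun x i => Γ i x, fun z hz => ?_, fun x hx => funext fun i => h2 i hx⟩
  filter_upwards [eventually_all.2 fun i => hΓ i z hz] with z' h3 i _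
  exact h3 i

/-- Write `a = q a * f a` with `q a ∈ Q`, `f a ∈ F`; for `f` with values in `Rp T (Q * F)` choose
`γ x ∈ f x`; `q ∘ γ` is `BC` for the finite set `Q ∩ F T F⁻¹`, fill it in `Q`, multiply on the right
by a fixed `f₀ ∈ F`, use `BC.exists_uc` and compare on the sphere through the union. -/
theorem cc_coset (Q : Subgroup G) (hQ : CC Q d) {F : Set G} (hF : F.Finite) (hne : F.Nonempty)
    {T : Set G} (hT : T.Finite) : ∃ T' : Set G, T'.Finite ∧ T ⊆ T' ∧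
      ∀ j ≤ d, PFill j (Rp T ((Q : Set G) * F)) (Rp T' ((Q : Set G) * F)) := by
  obtain ⟨f₀, hf₀⟩ := hne
  have hA : ((Subtype.val : Q → G) ⁻¹' (F * T * F⁻¹)).Finite :=
    ((hF.mul hT).mul hF.inv).preimage Subtype.val_injective.injOn
  obtain ⟨B, hB, hfill⟩ := hQ _ hA
  have hB' : ((fun b : Q => f₀⁻¹ * (b : G) * f₀) '' B).Finite := hB.image _
  obtain ⟨S, hSdef⟩ : ∃ S : Set G,
    S = insert 1 ((fun b : Q => f₀⁻¹ * (b : G) * f₀) '' B) ∪ F⁻¹ * F * T := ⟨_, rfl⟩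
  have hS : S.Finite := by
    rw [hSdef]; exact (hB'.insert 1).union ((hF.inv.mul hF).mul hT)
  refine ⟨T ∪ S⁻¹ * S, hT.union (hS.inv.mul hS), subset_union_left, fun j hj f hf hm => ?_⟩
  refine PFl.mono ?_ (Rp.mono subset_union_right subset_rfl)
  obtain ⟨γ, hγ⟩ := arips_choose (fun x hx => (hm hx).1)
  have hq : ∀ x, ∃ q : Q, x ∈ Sph j → (q : G)⁻¹ * γ x ∈ F := by
    intro x
    by_cases hx : x ∈ Sph j
    · obtain ⟨q, hq, φ, hφ, h1⟩ := (hm hx).2.1 (hγ x hx)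
      exact ⟨⟨q, hq⟩, fun _ => by rw [← h1]; simpa using hφ⟩
    · exact ⟨1, fun h1 => absurd h1 hx⟩
  choose q hq using hq
  obtain ⟨Γ, hΓ, hΓq⟩ := hfill j hj q (fun z hz => by
    filter_upwards [hf.bc hm hγ z hz, self_mem_nhdsWithin] with z' h1 h2
    exact ⟨_, ⟨_, hq z hz, _, h1, rfl⟩, _, Set.inv_mem_inv.2 (hq z' h2), by simp [mul_assoc]⟩)
  have hΓ' : BC ((fun b : Q => f₀⁻¹ * (b : G) * f₀) '' B) (fun x => (Γ x : G) * f₀) (Bal j) :=
    fun z hz => (hΓ z hz).mono fun z' h1 => ⟨_, h1, by simp [mul_assoc]⟩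
  obtain ⟨F', hF1, hF2⟩ := hΓ'.exists_uc hB'
  refine arips_fill (Γ := fun x => (Γ x : G) * f₀) hf hF1
    (fun x hx => ⟨(hm hx).1, (hm hx).2.1, fun a ha => ?_⟩)
    fun x hx => ⟨⟨_, (hF2 x hx).1⟩, fun a ha => ?_, fun a ha => ?_⟩
  · rw [hSdef, hΓq hx]
    exact Or.inr ⟨_, ⟨_, Set.inv_mem_inv.2 hf₀, _, hq x hx, rfl⟩, _,
      (hm hx).2.2 _ (hγ x hx) _ ha, by simp [mul_assoc]⟩
  · rcases (hF2 x hx).2 a ha with rfl | ⟨b, -, h1⟩
    · exact ⟨_, (Γ x).2, _, hf₀, rfl⟩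
    · refine ⟨_, (Γ x * b).2, _, hf₀, ?_⟩
      rw [eq_inv_mul_iff_mul_eq] at h1
      rw [← h1]
      simp [mul_assoc]
  · rw [hSdef]
    rcases (hF2 x hx).2 a ha with rfl | h1
    · exact Or.inl (Or.inl (by simp))
    · exact Or.inl (Or.inr h1)

theorem CC.of_finiteIndex (Q : Subgroup G) [Q.FiniteIndex] (hQ : CC Q d) : CC G d := by
  have hF : (range fun c : G ⧸ Q => c.out⁻¹).Finite := finite_range _
  have hU : (Q : Set G) * (range fun c : G ⧸ Q => c.out⁻¹) = univ := by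
    refine eq_univ_of_forall fun g => ?_
    obtain ⟨h, hh⟩ := QuotientGroup.mk_out_eq_mul Q g⁻¹
    exact ⟨h, h.2, _, ⟨(g⁻¹ : G), rfl⟩, by simp [hh]⟩
  refine cc_iff_rips.2 fun T hT => ?_
  obtain ⟨T', h1, -, h2⟩ := cc_coset Q hQ hF (range_nonempty _) hT
  rw [hU] at h2
  exact ⟨T', h1, h2⟩

theorem CC.of_injective (f : H →* G) (hf : Function.Injective f) [f.range.FiniteIndex]
    (hH : CC H d) : CC G d := by
  exact CC.of_finiteIndex f.range (hH.of_equiv (MonoidHom.ofInjective hf))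

theorem arips_fsm_rp {T N : Set G} {σ : Finset G} (g : G) (h : σ ∈ Rp T N) :
    fsm g σ ∈ Rp T (g • N) := by
  refine ⟨fsm_nonempty.2 h.1, fun a ha => ?_, fun a ha b hb => ?_⟩
  · exact Set.mem_smul_set_iff_inv_smul_mem.2 (h.2.1 (mem_fsm.1 ha))
  · simpa [mul_assoc] using h.2.2 _ (mem_fsm.1 ha) _ (mem_fsm.1 hb)

/-- translation invariance -/
theorem PFill.rp_smul {j : ℕ} {T T' N N' : Set G} (h : PFill j (Rp T N) (Rp T' N')) (g : G) :
    PFill j (Rp T (g • N)) (Rp T' (g • N')) := by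
  intro f hf hm
  have h1 := h (fsm g⁻¹ ∘ f) (hf.map (A := univ) (mapsTo_univ _ _) fun _ _ _ _ h' => fsm_subset.2 h')
    fun x hx => by simpa using arips_fsm_rp g⁻¹ (hm hx)
  refine (h1.map (r := fsm g) (fun _ _ _ _ h' => fsm_subset.2 h')
    fun σ hσ => arips_fsm_rp g hσ).congr fun x _ => ?_
  simp only [Function.comp, ← fsm_mul, mul_inv_cancel, fsm_one]

theorem arips_ext_cont {A B : Type*} (e : A ↪ B) :
    Continuous fun y : A → ℝ => Function.extend e y (0 : B → ℝ) := by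
  refine continuous_pi fun b => ?_
  by_cases h : ∃ a, e a = b
  · obtain ⟨a, rfl⟩ := h
    simp only [e.injective.extend_apply]
    exact continuous_apply a
  · simp only [Function.extend_apply' _ _ _ h]
    exact continuous_const

theorem arips_ext_spx {A B : Type*} (e : A ↪ B) {σ : Finset A} {y : A → ℝ} (hy : y ∈ Spx σ) :
    Function.extend e y (0 : B → ℝ) ∈ Spx (σ.map e) := by
  refine ⟨fun b => ?_, fun b hb => ?_, ?_⟩
  · by_cases h : ∃ a, e a = b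
    · obtain ⟨a, rfl⟩ := h
      rw [e.injective.extend_apply]; exact hy.1 a
    · rw [Function.extend_apply' _ _ _ h]; exact le_rfl
  · by_cases h : ∃ a, e a = b
    · obtain ⟨a, rfl⟩ := h
      rw [e.injective.extend_apply]
      exact hy.2.1 a fun ha => hb (Finset.mem_map_of_mem e ha)
    · rw [Function.extend_apply' _ _ _ h]; rfl
  · rw [Finset.sum_map]
    simp only [e.injective.extend_apply]
    exact hy.2.2

theorem arips_ext_sp {A B : Type*} (e : A ↪ B) {σ : Finset A} {y : A → ℝ} (hy : y ∈ Spx σ) :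
    sp (Function.extend e y (0 : B → ℝ)) = (sp y).map e := by
  ext b
  rw [mem_sp (arips_ext_spx e hy)]
  by_cases h : ∃ a, e a = b
  · obtain ⟨a, rfl⟩ := h
    rw [e.injective.extend_apply, Finset.mem_map', mem_sp hy]
  · rw [Function.extend_apply' _ _ _ h]
    simp only [Pi.zero_apply, ne_eq, not_true_eq_false, Finset.mem_map, false_iff]
    rintro ⟨a, -, ha⟩
    exact h ⟨a, ha⟩

/-- From vertex functions to the coloured model: apply `sa` to the cover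
`U j a = {x | (γ x)⁻¹ * a ∈ A⁻¹ ∪ {1}}` (`a = γ z` works near `z`) and rename the colour `j` to
`o + n - j`; `T ⊇ A⁻¹ ∪ {1}` and `(A ∪ {1}) * (A⁻¹ ∪ {1})`. -/
theorem exists_J {A : Set G} (hA : A.Finite) : ∃ T : Set G, T.Finite ∧
    ∀ (n : ℕ) (X : Set (Fin n → ℝ)), IsCompact X → ∀ γ : (Fin n → ℝ) → G, BC A γ X → ∀ o : ℕ,
      ∃ g : (Fin n → ℝ) → JV G → ℝ, FS g X ∧ ∀ x ∈ X, sp (g x) ∈ JC (o + n + 1) T ∧
        ∀ p ∈ sp (g x), o ≤ p.c ∧ (γ x)⁻¹ * p.g ∈ T ∧ (x ∈ Sph n → p.c < o + n) := by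
  have hS : (insert 1 A⁻¹).Finite := hA.inv.insert 1
  refine ⟨insert 1 A⁻¹ ∪ (insert 1 A⁻¹)⁻¹ * insert 1 A⁻¹, hS.union (hS.inv.mul hS),
    fun n X hX γ hγ o => ?_⟩
  obtain ⟨g, hg, hg'⟩ := sa hX (fun (_ : Fin (n + 1)) (a : G) => {x | (γ x)⁻¹ * a ∈ insert 1 A⁻¹})
    fun _ z hz => ⟨γ z, (hγ z hz).mono fun x hx => Or.inr (by simpa using hx)⟩
  let e : Fin (n + 1) × G ↪ JV G := ⟨fun p => ⟨o + n - p.1, p.2⟩, fun p q h => by
    have h1 : o + n - p.1 = o + n - q.1 := congrArg JV.c h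
    have h2 : p.2 = q.2 := congrArg JV.g h
    exact Prod.ext (Fin.ext (by omega)) h2⟩
  refine ⟨fun x => Function.extend e (g x) 0, ⟨(arips_ext_cont e).comp_continuousOn hg.1, ?_⟩,
    fun x hx => ?_⟩
  · obtain ⟨U, hU⟩ := hg.2
    exact ⟨U.map e, fun x hx => arips_ext_spx e (hU hx)⟩
  · obtain ⟨h1, h2, h3⟩ := hg' x hx
    have h4 := hg.mem_spx_sp hx
    simp only [arips_ext_sp e h4]
    refine ⟨⟨Finset.map_nonempty.2 (sp_nonempty h4), ?_, ?_, ?_⟩, ?_⟩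
    · simp only [Finset.forall_mem_map]
      intro p _
      change o + n - p.1 < _
      omega
    · simp only [Finset.forall_mem_map]
      intro p hp q hq h
      have h5 : o + n - p.1 = o + n - q.1 := h
      rw [h1 p hp q hq (Fin.ext (by omega))]
    · simp only [Finset.forall_mem_map]
      intro p hp q hq
      change p.2⁻¹ * q.2 ∈ _
      exact Or.inr ⟨_, Set.inv_mem_inv.2 (h2 p hp), _, h2 q hq, by simp⟩
    · simp only [Finset.forall_mem_map]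
      intro p hp
      refine ⟨?_, Or.inl (h2 p hp), fun hs => ?_⟩
      · change o ≤ o + n - p.1
        omega
      · have h5 : (p.1 : ℕ) ≠ 0 := fun h => h3 hs p hp (Fin.ext h)
        change o + n - p.1 < _
        omega

/-- **Filling in skeleta of the coloured model.**  Let `γ x` be the group label of a vertex of
`thr (1/(m+1)) (f x)`; it is `BC T`.  Fill it by `Γ` (`CC`), take `g` from `exists_J` on the ball
with offset `o = m`; `fs_fill_of_line` (in `JC (2m+1) T'`) gives a filling `D` of `f`.  Apply `sa'`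
to the cover `U p = {x | 0 < D x p}` and glue once more with `fs_fill_of_line` (on the sphere both
points lie in `Spx (sp (f x))`, which has at most `m` vertices). -/
theorem jf {m : ℕ} (hG : CC G m) {T : Set G} (hT : T.Finite) :
    ∃ (c : ℕ) (T' : Set G), m ≤ c ∧ T'.Finite ∧ T ⊆ T' ∧
      ∀ f : (Fin m → ℝ) → JV G → ℝ, FS f (Sph m) → MapsTo f (Sph m) (Rl (JC m T)) →
        ∃ F, FS F (Bal m) ∧ MapsTo F (Bal m) (Rl (skel (m + 1) (JC c T'))) ∧
          EqOn F f (Sph m) := by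
  classical
  obtain ⟨B, hB, hfill⟩ := hG T hT
  obtain ⟨T₁, hT₁, hJ⟩ := exists_J hB
  have hS : (T ∪ T₁).Finite := hT.union hT₁
  obtain ⟨T', hT'⟩ : ∃ T', T' = (T ∪ T₁) ∪ (T ∪ T₁)⁻¹ * (T ∪ T₁) := ⟨_, rfl⟩
  have hTT : T ⊆ T' := by rw [hT']; exact subset_union_left.trans subset_union_left
  have hTT₁ : T₁ ⊆ T' := by rw [hT']; exact subset_union_right.trans subset_union_left
  refine ⟨m + m + 1, T', by omega, by rw [hT']; exact hS.union (hS.inv.mul hS), hTT,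
    fun f hf hm => ?_⟩
  have hSB : Sph m ⊆ Bal m := sphere_subset_closedBall
  have hsp : ∀ x ∈ Sph m, sp (f x) ∈ JC m T := fun x hx => sp_mem (isCx_jc m T) (hm hx)
  have hθ : (0 : ℝ) < 1 / (m + 1) := by positivity
  have : Nonempty (JV G) := ⟨⟨0, 1⟩⟩
  obtain ⟨v, hv⟩ := arips_choose (f := fun x => thr (1 / (m + 1 : ℝ)) (f x)) (K := Sph m)
    fun x hx => thr_nonempty (hf.mem_spx_sp hx) (by
      have h1 : ((sp (f x)).card : ℝ) ≤ m := by exact_mod_cast card_le_of_mem_jc (hsp x hx)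
      rw [one_div, inv_mul_le_iff₀ (by positivity)]
      linarith)
  obtain ⟨Γ, hΓ, hΓv⟩ := hfill m le_rfl (fun x => (v x).g) fun z hz => by
    filter_upwards [hf.uc_thr hθ z hz, self_mem_nhdsWithin] with z' h1 h2
    exact (hsp z hz).2.2.2 _ (thr_subset _ _ (hv z hz)) _ (thr_subset _ _ (h1 (hv z' h2)))
  obtain ⟨g, hg, hg'⟩ := hJ m (Bal m) (isCompact_closedBall _ _) Γ hΓ m
  obtain ⟨D, hD, hDm, hDf⟩ := fs_fill_of_line (K := JC (m + m + 1) T') (g := g) (G := g) hf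
    (fun x hx => by
      obtain ⟨h1, h2⟩ := hg' x (hSB hx)
      have h3 := hsp x hx
      refine ⟨sp (f x) ∪ sp (g x), ⟨h3.1.mono Finset.subset_union_left, fun p hp => ?_,
        fun p hp q hq h => ?_, fun p hp q hq => ?_⟩,
        Spx.mono Finset.subset_union_left (hf.mem_spx_sp hx),
        Spx.mono Finset.subset_union_right (hg.mem_spx_sp (hSB hx))⟩
      · rcases Finset.mem_union.1 hp with hp | hp
        · have := h3.2.1 p hp; omega
        · exact h1.2.1 p hp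
      · rcases Finset.mem_union.1 hp with hp | hp <;> rcases Finset.mem_union.1 hq with hq | hq
        · exact h3.2.2.1 p hp q hq h
        · have := h3.2.1 p hp; have := (h2 q hq).1; omega
        · have := h3.2.1 q hq; have := (h2 p hp).1; omega
        · exact h1.2.2.1 p hp q hq h
      · have h4 : ∀ p ∈ sp (f x) ∪ sp (g x), (Γ x)⁻¹ * p.g ∈ T ∪ T₁ := fun p hp => by
          rcases Finset.mem_union.1 hp with hp | hp
          · rw [hΓv hx]
            exact Or.inl (h3.2.2.2 _ (thr_subset _ _ (hv x hx)) _ hp)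
          · exact Or.inr (h2 p hp).2.1
        rw [hT']
        exact Or.inr ⟨_, Set.inv_mem_inv.2 (h4 p hp), _, h4 q hq, by simp⟩)
    hg (fun x hx => mem_rl.2 ⟨_, JC.mono le_rfl hTT₁ (hg' x hx).1, hg.mem_spx_sp hx⟩) fun _ _ => rfl
  obtain ⟨g', h1, h2⟩ := sa' (isCompact_closedBall (0 : Fin m → ℝ) 1) (fun p : JV G => {x | 0 < D x p})
    fun x hx => by
      obtain ⟨p, hp⟩ := sp_nonempty (hD.mem_spx_sp hx)
      exact ⟨p, (continuousOn_pi.1 hD.1 p x hx).eventually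
        (lt_mem_nhds ((mem_sp' (hD.mem_spx_sp hx)).1 hp))⟩
  have h3 : ∀ x ∈ Bal m, sp (g' x) ⊆ sp (D x) := fun x hx p hp =>
    (mem_sp' (hD.mem_spx_sp hx)).2 ((h2 x hx).1 p hp)
  refine fs_fill_of_line (g := g') (G := g') hf (fun x hx => ?_) h1 (fun x hx => ?_) fun _ _ => rfl
  · refine ⟨sp (f x), ⟨JC.mono (by omega) hTT (hsp x hx), (card_le_of_mem_jc (hsp x hx)).trans (by omega)⟩,
      hf.mem_spx_sp hx, mem_spx_of_sp_subset (h1.mem_spx_sp (hSB hx)) ?_⟩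
    rw [← hDf hx]
    exact h3 x (hSB hx)
  · exact mem_rl.2 ⟨sp (g' x), ⟨(isCx_jc _ _).down _ (sp_mem (isCx_jc _ _) (hDm hx)) _ (h3 x hx)
      (sp_nonempty (h1.mem_spx_sp hx)), (h2 x hx).2.1⟩, h1.mem_spx_sp hx⟩

end Crest.Agent.R185
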