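import Crest.Agent.R185.APos
import Crest.Agent.R185.ARips

/-!
# R185 TASK ABrown: Brown's criterion
-/

set_option autoImplicit false

namespace Crest.Agent.R185

open Set Metric Filter
open scoped _root_.Topology

open scoped Pointwise

variable {Γ P : Type*} [Group Γ] [PartialOrder P] [MulAction Γ P] {L : Set P} {d : ℕ}

theorem abrown_fsm_ch (hmono : ∀ (g : Γ) (a b : P), a ≤ b → g • a ≤ g • b)
    (hinv : ∀ (g : Γ), ∀ p ∈ L, g • p ∈ L) (g : Γ) {σ : Finset P} (h : σ ∈ Ch L) :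
    fsm g σ ∈ Ch L := by
  refine ⟨fsm_nonempty.2 h.1, fun a ha => ?_, fun a ha b hb _ => ?_⟩
  · simpa using hinv g _ (h.2.1 (mem_fsm.1 ha))
  · simpa using (h.2.2.total (mem_fsm.1 ha) (mem_fsm.1 hb)).imp (hmono g _ _) (hmono g _ _)

/-- `ext` with `K₀ = ∅`, target `Alx (Finset P)` with the action `fsm` (a local instance), constant
carrier `Ch L` (`conn_ch`); `B'` collects the values on the finitely many simplices of `jc_finite`
(`UC.exists_finset`, `isCompact_spx`). -/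
theorem brown_A [Nonempty P] (hmono : ∀ (g : Γ) (a b : P), a ≤ b → g • a ≤ g • b)
    (hinv : ∀ (g : Γ), ∀ p ∈ L, g • p ∈ L) (hconn : Conn d L) {T : Set Γ} (hT : T.Finite) :
    ∃ (F : (JV Γ → ℝ) → Finset P) (B' : Finset P),
      ∀ σ ∈ JC d T, UC F (Spx σ) ∧ MapsTo F (Spx σ) (Ch L) ∧
        ∀ y ∈ Spx σ, ∀ p ∈ σ, ∀ v ∈ F y, p.g⁻¹ • v ∈ B' := by
  classical
  let _ : MulAction Γ (Finset P) :=
    { smul := fsm, one_smul := fun _ => fsm_one, mul_smul := fun _ _ _ => fsm_mul }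
  have : ContinuousConstSMul Γ (Alx (Finset P)) :=
    alx_continuousConstSMul fun g a b h => fsm_subset.2 h
  obtain ⟨F, hF, -, hE⟩ := ext (Γ := Γ) (Y := Alx (Finset P)) (K₀ := ∅) (isCx_jc d T)
    ⟨fun _ h => h.elim, fun _ h => h.elim⟩ (empty_subset _) (fun g σ h => fsm_mem_jc g h)
    (fun _ _ h => h.elim) (fun g σ h => jc_free h) (fun _ _ => Ch L)
    (fun _ _ _ _ _ _ _ _ => subset_rfl) (fun g _ _ _ y hy => abrown_fsm_ch hmono hinv g hy)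
    (fun σ hσ _ k hk => pfill_iff.1 (conn_ch.2 hconn k (by have := card_le_of_mem_jc hσ; omega)))
    (F₀ := fun _ => (∅ : Finset P)) (fun _ h => h.elim) (fun g y hy => by simp [Rl] at hy)
  have hU : ∀ σ ∈ JC d T, UC (P := Finset P) F (Spx σ) := fun σ hσ => continuousOn_alx.1 (hF σ hσ).1
  choose! U hU1 hU2 using fun σ hσ => (hU σ hσ).exists_finset isCompact_spx
  refine ⟨F, (jc_finite (c := d) hT).toFinset.biUnion U, fun σ hσ => ⟨hU σ hσ, (hF σ hσ).2, ?_⟩⟩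
  intro y hy p hp v hv
  have h1 := fsm_mem_jc p.g⁻¹ hσ
  refine Finset.mem_biUnion.2 ⟨fsm p.g⁻¹ σ, (Finite.mem_toFinset _).2
    ⟨h1, p.g⁻¹ • p, smul_mem_fsm.2 hp, by simp⟩, hU1 _ h1 _ (act_mem_spx.2 hy) ?_⟩
  rw [hE _ y (mem_rl.2 ⟨σ, hσ, hy⟩)]
  exact smul_mem_fsm.2 hv

/-- the group elements moving `σ` into `B` -/
def NB (Γ : Type*) {P : Type*} [Group Γ] [MulAction Γ P] (B σ : Finset P) : Set Γ :=
  {g | ∀ p ∈ σ, g⁻¹ • p ∈ B}

theorem abrown_nb (B : Finset P) {σ : Finset P} (h : (NB Γ B σ).Nonempty) :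
    ∃ F : Set Γ, F.Finite ∧ F.Nonempty ∧ NB Γ B σ = (fixingSubgroup Γ (σ : Set P) : Set Γ) * F := by
  let φ : Γ → σ → P := fun g p => g⁻¹ • p.1
  have hfin : (φ '' NB Γ B σ).Finite := by
    refine (Finite.pi' fun _ : σ => B.finite_toSet).subset ?_
    rintro _ ⟨g, hg, rfl⟩ p
    exact hg p.1 p.2
  obtain ⟨F, hF, hF1, hF2⟩ := hfin.exists_subset_finite_image_eq subset_rfl
  refine ⟨F, hF1, (image_nonempty.1 (hF2 ▸ h.image φ)), Subset.antisymm (fun g hg => ?_) ?_⟩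
  · obtain ⟨f, hf, e⟩ : φ g ∈ φ '' F := hF2 ▸ mem_image_of_mem φ hg
    refine ⟨g * f⁻¹, (mem_fixingSubgroup_iff Γ).2 fun p hp => ?_, f, hf, by simp⟩
    rw [mul_smul, show f⁻¹ • p = g⁻¹ • p from congrFun e ⟨p, hp⟩, smul_inv_smul]
  · rintro _ ⟨q, hq, f, hf, rfl⟩ p hp
    simp only [mul_inv_rev, mul_smul]
    rw [(mem_fixingSubgroup_iff Γ).1 (inv_mem hq) p hp]
    exact hF hf p hp

/-- `NB B σ = Fix σ * F` with `F` finite (one element for each realised map `σ → B`); up to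
translation (`PFill.rp_smul`) only the finitely many `σ ⊆ B` matter; `cc_coset`. -/
theorem brown_N (hmono : ∀ (g : Γ) (a b : P), a ≤ b → g • a ≤ g • b)
    (hinv : ∀ (g : Γ), ∀ p ∈ L, g • p ∈ L) (B : Finset P)
    (hB : ∀ σ ∈ Ch L, (NB Γ B σ).Nonempty)
    (hst : ∀ σ ∈ Ch L, CC (fixingSubgroup Γ (σ : Set P)) d) {T : Set Γ} (hT : T.Finite) :
    ∃ T' : Set Γ, T'.Finite ∧ T ⊆ T' ∧
      ∀ σ ∈ Ch L, ∀ j ≤ d, PFill j (Rp T (NB Γ B σ)) (Rp T' (NB Γ B σ)) := by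
  have key : ∀ σ ∈ Ch L, ∃ T' : Set Γ, T'.Finite ∧
      ∀ j ≤ d, PFill j (Rp T (NB Γ B σ)) (Rp T' (NB Γ B σ)) := fun σ hσ => by
    obtain ⟨F, h1, h2, h3⟩ := abrown_nb B (hB σ hσ)
    obtain ⟨T', h4, -, h5⟩ := cc_coset _ (hst σ hσ) h1 h2 hT
    exact ⟨T', h4, h3 ▸ h5⟩
  choose! T' h1 h2 using key
  refine ⟨T ∪ ⋃ σ ∈ {σ | σ ∈ Ch L ∧ σ ⊆ B}, T' σ, hT.union (Finite.biUnion
    ((B.powerset.finite_toSet).subset fun σ hσ => by simpa using hσ.2) fun σ hσ => h1 σ hσ.1),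
    subset_union_left, fun σ hσ j hj => ?_⟩
  obtain ⟨g, hg⟩ := hB σ hσ
  have h3 := abrown_fsm_ch hmono hinv g⁻¹ hσ
  have h4 : fsm g⁻¹ σ ⊆ B := fun a ha => by simpa using hg _ (mem_fsm.1 ha)
  have h5 : NB Γ B σ = g • NB Γ B (fsm g⁻¹ σ) := by
    ext h
    rw [mem_smul_set_iff_inv_smul_mem]
    refine ⟨fun hh p hp => ?_, fun hh p hp => ?_⟩
    · simpa [mul_smul] using hh _ (mem_fsm.1 hp)
    · simpa [mul_smul] using hh _ (smul_mem_fsm.2 hp)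
  rw [h5]
  exact ((h2 _ h3 j hj).rp_smul g).mono subset_rfl (Rp.mono (subset_union_of_subset_right
    (subset_biUnion_of_mem (u := T') (show fsm g⁻¹ σ ∈ {σ | σ ∈ Ch L ∧ σ ⊆ B} from ⟨h3, h4⟩)) _)
    subset_rfl)

theorem abrown_seq (hmono : ∀ (g : Γ) (a b : P), a ≤ b → g • a ≤ g • b)
    (hinv : ∀ (g : Γ), ∀ p ∈ L, g • p ∈ L) (B : Finset P)
    (hB : ∀ σ ∈ Ch L, (NB Γ B σ).Nonempty)
    (hst : ∀ σ ∈ Ch L, CC (fixingSubgroup Γ (σ : Set P)) d) {T : Set Γ} (hT : T.Finite) :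
    ∃ S : ℕ → Set Γ, S 0 = T ∧ (∀ k, (S k).Finite) ∧ Monotone S ∧
      ∀ k, ∀ σ ∈ Ch L, ∀ j ≤ d, PFill j (Rp (S k) (NB Γ B σ)) (Rp (S (k + 1)) (NB Γ B σ)) := by
  choose! N h1 h2 h3 using fun (T : Set Γ) (hT : T.Finite) => brown_N hmono hinv B hB hst hT
  have hf : ∀ k, (N^[k] T).Finite := fun k => by
    induction k with
    | zero => exact hT
    | succ k ih => rw [Function.iterate_succ_apply']; exact h1 _ ih
  refine ⟨fun k => N^[k] T, rfl, hf, monotone_nat_of_le_succ fun k => ?_, fun k => ?_⟩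
  · rw [Function.iterate_succ_apply']
    exact h2 _ (hf k)
  · simp only [Function.iterate_succ_apply']
    exact h3 _ (hf k)

/-- the filling in the poset -/
theorem abrown_D [Nonempty P] (hmono : ∀ (g : Γ) (a b : P), a ≤ b → g • a ≤ g • b)
    (hinv : ∀ (g : Γ), ∀ p ∈ L, g • p ∈ L) (hconn : Conn d L) (B : Finset P) {A : Set Γ}
    (hA : A.Finite) : ∃ B'' : Finset P, B ⊆ B'' ∧ ∀ n ≤ d, ∀ γ : (Fin n → ℝ) → Γ, BC A γ (Sph n) →
      ∃ D : (Fin n → ℝ) → Finset P, UC D (Bal n) ∧ MapsTo D (Bal n) (Ch L) ∧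
        ∀ x ∈ Sph n, γ x ∈ NB Γ B'' (D x) := by
  classical
  obtain ⟨T, hT, hJ⟩ := exists_J hA
  obtain ⟨F, B', hF⟩ := brown_A hmono hinv hconn hT
  refine ⟨B ∪ (hT.toFinset ×ˢ B').image fun p => p.1 • p.2, Finset.subset_union_left,
    fun n hn γ hγ => ?_⟩
  obtain ⟨g, hg, hg'⟩ := hJ n _ (isCompact_sphere 0 1) γ hγ 0
  have h1 : ∀ x ∈ Sph n, sp (g x) ∈ JC d T := fun x hx =>
    ⟨(hg' x hx).1.1, fun p hp => by have := ((hg' x hx).2 p hp).2.2 hx; omega, (hg' x hx).1.2.2⟩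
  obtain ⟨D, hD, hD1, hD2⟩ := conn_ch.2 hconn n hn (F ∘ g)
    (hg.uc_comp (isCx_jc d T) (fun σ hσ => (hF σ hσ).1)
      fun x hx => mem_rl.2 ⟨_, h1 x hx, hg.mem_spx_sp hx⟩)
    fun x hx => (hF _ (h1 x hx)).2.1 (hg.mem_spx_sp hx)
  refine ⟨D, hD, hD1, fun x hx v hv => ?_⟩
  obtain ⟨p, hp⟩ := (h1 x hx).1
  rw [hD2 hx] at hv
  refine Finset.mem_union_right _ (Finset.mem_image.2 ⟨((γ x)⁻¹ * p.g, p.g⁻¹ • v),
    Finset.mem_product.2 ⟨hT.mem_toFinset.2 ((hg' x hx).2 p hp).2.1,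
      (hF _ (h1 x hx)).2.2 _ (hg.mem_spx_sp hx) p hp v hv⟩, by simp [mul_smul]⟩)

/-- **Brown's criterion.**  Let `A` be finite, `γ` be `BC A` on `Sph n`, `n ≤ d`.  With `g` from
`exists_J` (`o = 0`) and `F, B'` from `brown_A` the map `F ∘ g` fills by `D : Bal n → Ch L`, and
`D x ⊆ γ x • B''` on the sphere for a finite `B'' ⊇ B` independent of `γ`.  Let `f` be the `UC` map
of `BC.exists_uc` for `γ`, extended by `∅` to the open ball, and apply `psa` (`X = Bal n`,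
`E = Sph n`) to the map `x ↦ (D x, f x)` into the product order.  `K` = coloured finsets of labels
`(j, z)`, `z ∈ Bal n`, along which `(D z, f z)` decreases; `K₀` = those with all `z ∈ Sph n`.
Carriers `C k σ = Rp (T k) (NB B'' (D z))` for the label `z` of largest colour in `σ`
(equivalently `⋃` over the labels), `T (k+1)` from `brown_N`.  On `K₀` send `y` to
`{γ z | (j, z) ∈ thr (1/(n+1)) y}` (all these lie in `f z₀`, `z₀` the label of least colour, and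
`γ z ∈ NB B'' (D z)`).  Extend by `pext`, compose with the approximation, and choose `Γ x` in the
value (`Γ x = γ x` on the sphere; enlarge `T`). -/
theorem brown [Nonempty P] (hmono : ∀ (g : Γ) (a b : P), a ≤ b → g • a ≤ g • b)
    (hinv : ∀ (g : Γ), ∀ p ∈ L, g • p ∈ L) (hconn : Conn d L) (B : Finset P)
    (hB : ∀ σ ∈ Ch L, (NB Γ B σ).Nonempty)
    (hst : ∀ σ ∈ Ch L, CC (fixingSubgroup Γ (σ : Set P)) d) : CC Γ d := by
  classical
  intro A hA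
  obtain ⟨B'', hB'', hD⟩ := abrown_D hmono hinv hconn B hA
  have hT : ((insert 1 A)⁻¹ * insert 1 A).Finite := (hA.insert 1).inv.mul (hA.insert 1)
  obtain ⟨S, hS0, hS1, hS2, hS3⟩ := abrown_seq hmono hinv B''
    (fun σ hσ => (hB σ hσ).mono fun g (hg : g ∈ NB Γ B σ) p hp => hB'' (hg p hp)) hst hT
  refine ⟨(S 0)⁻¹ * S (d + 1) * S 0, ((hS1 _).inv.mul (hS1 _)).mul (hS1 _), fun n hn γ hγ => ?_⟩
  obtain ⟨D, hD1, hD2, hD3⟩ := hD n hn γ hγ
  obtain ⟨f, hf1, hf2⟩ := hγ.exists_uc hA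
  have hfT : ∀ z ∈ Sph n, ∀ a ∈ f z, ∀ b ∈ f z, a⁻¹ * b ∈ S 0 := fun z hz a ha b hb => by
    have h1 : ∀ c ∈ f z, (γ z)⁻¹ * c ∈ insert 1 A := fun c hc =>
      ((hf2 z hz).2 c hc).imp_left fun e => by simp [e]
    rw [hS0]
    exact ⟨_, inv_mem_inv.2 (h1 a ha), _, h1 b hb, by simp⟩
  set Φ : (Fin n → ℝ) → Finset P × Finset Γ := fun x => (D x, if x ∈ Sph n then f x else ∅) with hΦ
  have hΦu : UC Φ (Bal n) := fun z hz => by
    have h1 : ∀ᶠ z' in 𝓝[Bal n] z,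
        (if z' ∈ Sph n then f z' else ∅) ≤ if z ∈ Sph n then f z else ∅ := by
      refine eventually_nhdsWithin_of_eventually_nhds ?_
      by_cases h : z ∈ Sph n
      · refine (eventually_nhdsWithin_iff.1 (hf1 z h)).mono fun z' h' => ?_
        rw [if_pos h]
        split_ifs with h''
        · exact h' h''
        · exact Finset.empty_subset _
      · refine Eventually.mono (isClosed_sphere.isOpen_compl.mem_nhds h) fun z' h' => ?_
        rw [if_neg h']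
        exact Finset.empty_subset _
    exact ((hD1 z hz).and h1).mono fun z' h => h
  have hΦf : ∀ {z z'}, z ∈ Sph n → z' ∈ Sph n → Φ z ≤ Φ z' → γ z ∈ f z' := fun {z z'} hz hz' h => by
    have := h.2
    simp only [hΦ, if_pos hz, if_pos hz'] at this
    exact this (hf2 z hz).1
  obtain ⟨u, hu, hu'⟩ := psa (isCompact_closedBall 0 1) isClosed_sphere sphere_subset_closedBall hΦu
    one_pos
  let K : Set (Finset (Fin (n + 1) × (Fin n → ℝ))) := {σ | σ.Nonempty ∧ Col σ ∧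
    (∀ p ∈ σ, p.2 ∈ Bal n) ∧ ∀ p ∈ σ, ∀ q ∈ σ, p.1 < q.1 → Φ q.2 ≤ Φ p.2}
  let K₀ : Set (Finset (Fin (n + 1) × (Fin n → ℝ))) := {σ | σ ∈ K ∧ ∀ p ∈ σ, p.2 ∈ Sph n}
  have hK : IsCx K := ⟨fun σ h => h.1, fun σ h τ hτ hne => ⟨hne,
    fun p hp q hq => h.2.1 p (hτ hp) q (hτ hq), fun p hp => h.2.2.1 p (hτ hp),
    fun p hp q hq => h.2.2.2 p (hτ hp) q (hτ hq)⟩⟩
  have hK₀ : IsCx K₀ := ⟨fun σ h => h.1.1, fun σ h τ hτ hne =>
    ⟨hK.down σ h.1 τ hτ hne, fun p hp => h.2 p (hτ hp)⟩⟩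
  have hθ : (0 : ℝ) < 1 / (n + 1) := by positivity
  obtain ⟨G, hG, hG0⟩ := pext hK hK₀ (fun σ h => h.1)
    (fun k σ => Rp (S k) (⋃ p ∈ σ, NB Γ B'' (D p.2)))
    (fun σ _ τ hτ _ k k' hk => Rp.mono (hS2 hk) (biUnion_subset_biUnion_left hτ))
    (fun σ hσ _ k hk => by
      obtain ⟨q, hq, hmax⟩ := σ.exists_max_image (fun p => p.1) hσ.1
      have e : ⋃ p ∈ σ, NB Γ B'' (D p.2) = NB Γ B'' (D q.2) := by
        refine Subset.antisymm (iUnion₂_subset fun p hp g hg v hv => ?_)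
          (subset_biUnion_of_mem (u := fun p => NB Γ B'' (D p.2)) hq)
        rcases (hmax p hp).lt_or_eq with h | h
        · exact hg v ((hσ.2.2.2 p hp q hq h).1 hv)
        · exact hg v (hσ.2.1 p hp q hq h ▸ hv)
      simp only [e]
      exact hS3 k _ (hD2 (hσ.2.2.1 q hq)) k (by have := hσ.2.1.card_le; omega))
    (F₀ := fun y => (thr (1 / (n + 1)) y).image fun p => γ p.2) (fun σ hσ => by
      refine ⟨(uc_thr_spx hθ).map (mapsTo_univ _ _)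
        fun _ _ _ _ h => Finset.image_subset_image h, fun y hy => ?_⟩
      have h1 : thr (1 / (n + 1)) y ⊆ σ := (thr_subset _ _).trans (sp_subset hy)
      refine ⟨(thr_nonempty hy ?_).image _, ?_, ?_⟩
      · rw [one_div, inv_mul_le_iff₀ (by positivity), mul_one]
        exact_mod_cast hσ.1.2.1.card_le
      · intro a ha
        obtain ⟨p, hp, rfl⟩ := Finset.mem_image.1 ha
        exact mem_biUnion (h1 hp) (hD3 _ (hσ.2 p (h1 hp)))
      · simp only [Finset.forall_mem_image]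
        intro p hp q hq
        have hp' := hσ.2 p (h1 hp)
        have hq' := hσ.2 q (h1 hq)
        refine hS2 (Nat.zero_le _) ?_
        rcases lt_trichotomy p.1 q.1 with h | h | h
        · exact hfT _ hp' _ (hf2 _ hp').1 _ (hΦf hq' hp' (hσ.1.2.2.2 p (h1 hp) q (h1 hq) h))
        · exact hfT _ hp' _ (hf2 _ hp').1 _ (hσ.1.2.1 p (h1 hp) q (h1 hq) h ▸ (hf2 _ hp').1)
        · exact hfT _ hq' _ (hΦf hp' hq' (hσ.1.2.2.2 q (h1 hq) p (h1 hp) h)) _ (hf2 _ hq').1)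
  have huK : ∀ x ∈ Bal n, sp (u x) ∈ K := fun x hx => ⟨sp_nonempty (hu.mem_spx_sp hx), (hu' x hx).1,
    fun p hp => ((hu' x hx).2.2.1 p hp).1, (hu' x hx).2.2.2⟩
  have hH : UC (G ∘ u) (Bal n) := hu.uc_comp hK (fun σ hσ => (hG σ hσ).1)
    fun x hx => mem_rl.2 ⟨_, huK x hx, hu.mem_spx_sp hx⟩
  have hH' : MapsTo (G ∘ u) (Bal n) (Rp (S (d + 1)) univ) := fun x hx =>
    Rp.mono (hS2 (by have := (huK x hx).2.1.card_le; omega)) (subset_univ _)
      ((hG _ (huK x hx)).2 (hu.mem_spx_sp hx))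
  choose! γ' hγ' using fun x hx => (hH' (x := x) hx).1
  have hbc := hH.bc hH' hγ'
  have hs : ∀ x ∈ Bal n, (γ' x)⁻¹ * (if x ∈ Sph n then γ x else γ' x) ∈ S 0 := fun x hx => by
    split_ifs with h
    · have h1 := hγ' x hx
      have h2 : ∀ p ∈ sp (u x), p.2 ∈ Sph n := fun p hp => ((hu' x hx).2.2.1 p hp).2.2.2 h
      rw [Function.comp_apply, hG0 (mem_rl.2 ⟨_, ⟨huK x hx, h2⟩, hu.mem_spx_sp hx⟩)] at h1
      obtain ⟨p, hp, e⟩ := Finset.mem_image.1 h1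
      have hp' := thr_subset _ _ hp
      rw [← e]
      exact hfT _ (h2 p hp') _ (hf2 _ (h2 p hp')).1 _
        (hΦf h (h2 p hp') ((hu' x hx).2.2.1 p hp').2.2.1)
    · rw [hS0]
      exact ⟨1, by simp, 1, by simp, by simp⟩
  refine ⟨fun x => if x ∈ Sph n then γ x else γ' x, fun z hz => ?_, fun x hx => if_pos hx⟩
  refine ((hbc z hz).and self_mem_nhdsWithin).mono fun z' h => ?_
  exact ⟨_, ⟨_, inv_mem_inv.2 (hs z hz), _, h.1, rfl⟩, _, hs z' h.2, by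
    simp only [mul_inv_rev, inv_inv, mul_assoc, mul_inv_cancel_left]⟩

end Crest.Agent.R185
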