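import Crest.Agent.R185.Defs

/-!
# R185 part A: definitions of the homotopy toolkit

Targets are topological spaces, in particular preorders with the Alexandrov topology (`Alx P`, the
open sets are the lower sets; continuity is `UC`).  Simplicial complexes are sets of finsets
(ordered by inclusion).  Geometric simplices `Spx σ ⊆ (A → ℝ)` are only used as *domains*.
Spheres and balls live in `Fin n → ℝ` (sup norm).
-/

set_option autoImplicit false

namespace Crest.Agent.R185

open Set Metric Filter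
open scoped _root_.Topology

/-- the unit sphere of `ℝⁿ` (sup norm); it has dimension `n - 1` -/
abbrev Sph (n : ℕ) : Set (Fin n → ℝ) := sphere 0 1

/-- the closed unit ball of `ℝⁿ` (sup norm) -/
abbrev Bal (n : ℕ) : Set (Fin n → ℝ) := closedBall 0 1

section top

variable {Y : Type*} [TopologicalSpace Y]

/-- `f` restricted to the sphere extends to a continuous map of the ball into `B` -/
def TFl (n : ℕ) (B : Set Y) (f : (Fin n → ℝ) → Y) : Prop :=
  ∃ F : (Fin n → ℝ) → Y, ContinuousOn F (Bal n) ∧ MapsTo F (Bal n) B ∧ EqOn F f (Sph n)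

/-- spheres `S^{n-1}` in `A` bound balls in `B` -/
def TFill (n : ℕ) (A B : Set Y) : Prop :=
  ∀ f : (Fin n → ℝ) → Y, ContinuousOn f (Sph n) → MapsTo f (Sph n) A → TFl n B f

end top

/-- a preorder with the topology whose open sets are the lower sets -/
def Alx (P : Type*) : Type _ := P

instance {P : Type*} [Preorder P] : TopologicalSpace (Alx P) where
  IsOpen s := ∀ ⦃a b : P⦄, b ≤ a → (a : Alx P) ∈ s → (b : Alx P) ∈ s
  isOpen_univ := fun _ _ _ _ => trivial
  isOpen_inter := fun _ _ hs ht _ _ h ha => ⟨hs h ha.1, ht h ha.2⟩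
  isOpen_sUnion := fun _ hs _ _ h ⟨t, ht, ha⟩ => ⟨t, ht, hs t ht h ha⟩

instance {Γ P : Type*} [Monoid Γ] [h : MulAction Γ P] : MulAction Γ (Alx P) := h

section poset

variable {P : Type*} [Preorder P]

/-- continuity for the Alexandrov topology: nearby values are smaller -/
def UC {X : Type*} [TopologicalSpace X] (f : X → P) (K : Set X) : Prop :=
  ∀ z ∈ K, ∀ᶠ z' in 𝓝[K] z, f z' ≤ f z

/-- `f` restricted to the sphere extends to a `UC` map of the ball into `B` -/
def PFl (n : ℕ) (B : Set P) (f : (Fin n → ℝ) → P) : Prop :=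
  ∃ F : (Fin n → ℝ) → P, UC F (Bal n) ∧ MapsTo F (Bal n) B ∧ EqOn F f (Sph n)

/-- spheres `S^{n-1}` in the poset `A` bound balls in the poset `B` -/
def PFill (n : ℕ) (A B : Set P) : Prop :=
  ∀ f : (Fin n → ℝ) → P, UC f (Sph n) → MapsTo f (Sph n) A → PFl n B f

/-- the poset `A` is `(d-1)`-connected -/
def Conn (d : ℕ) (A : Set P) : Prop := ∀ n ≤ d, PFill n A A

/-- nonempty finite chains in `A` -/
def Ch (A : Set P) : Set (Finset P) :=
  {σ | σ.Nonempty ∧ (σ : Set P) ⊆ A ∧ IsChain (· ≤ ·) (σ : Set P)}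

end poset

section real

variable {A : Type*}

/-- abstract simplicial complexes -/
structure IsCx (K : Set (Finset A)) : Prop where
  ne : ∀ σ ∈ K, σ.Nonempty
  down : ∀ σ ∈ K, ∀ τ ⊆ σ, τ.Nonempty → τ ∈ K

/-- simplices with at most `m` vertices -/
def skel (m : ℕ) (K : Set (Finset A)) : Set (Finset A) := {σ | σ ∈ K ∧ σ.card ≤ m}

/-- the closed geometric simplex -/
def Spx (σ : Finset A) : Set (A → ℝ) :=
  {y | (∀ a, 0 ≤ y a) ∧ (∀ a, a ∉ σ → y a = 0) ∧ ∑ a ∈ σ, y a = 1}

/-- its boundary -/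
def Bd (σ : Finset A) : Set (A → ℝ) := {y | y ∈ Spx σ ∧ ∃ a ∈ σ, y a = 0}

/-- the geometric realisation (as a set) -/
def Rl (K : Set (Finset A)) : Set (A → ℝ) := ⋃ σ ∈ K, Spx σ

open Classical in
/-- the support as a finset -/
noncomputable def sp (y : A → ℝ) : Finset A :=
  if h : (Function.support y).Finite then h.toFinset else ∅

open Classical in
/-- the vertices with coordinate at least `θ` -/
noncomputable def thr (θ : ℝ) (y : A → ℝ) : Finset A := (sp y).filter fun a => θ ≤ y a

/-- continuous with uniformly finite support -/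
def FS {X : Type*} [TopologicalSpace X] (g : X → A → ℝ) (K : Set X) : Prop :=
  ContinuousOn g K ∧ ∃ U : Finset A, MapsTo g K (Spx U)

/-- the action on coordinates -/
def act {Γ : Type*} [Group Γ] [MulAction Γ A] (g : Γ) (y : A → ℝ) : A → ℝ :=
  fun a => y (g⁻¹ • a)

/-- the action on finsets -/
def fsm {Γ : Type*} [Group Γ] [MulAction Γ A] (g : Γ) (σ : Finset A) : Finset A :=
  σ.map (MulAction.toPerm g).toEmbedding

/-- at most one vertex of each colour -/
def Col {ι : Type*} (σ : Finset (ι × A)) : Prop := ∀ p ∈ σ, ∀ q ∈ σ, p.1 = q.1 → p = q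

end real

section rips

variable {G : Type*} [Group G]

/-- the Rips complex of `N ⊆ G` at scale `T` -/
def Rp (T N : Set G) : Set (Finset G) :=
  {σ | σ.Nonempty ∧ (σ : Set G) ⊆ N ∧ ∀ a ∈ σ, ∀ b ∈ σ, a⁻¹ * b ∈ T}

/-- vertices of the coloured join model: a colour and a group element -/
@[ext] structure JV (G : Type*) where
  c : ℕ
  g : G

instance : MulAction G (JV G) where
  smul g v := ⟨v.c, g * v.g⟩
  one_smul v := by cases v; exact congrArg _ (one_mul _)
  mul_smul a b v := by cases v; exact congrArg _ (mul_assoc _ _ _)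

@[simp] theorem JV.smul_c (g : G) (v : JV G) : (g • v).c = v.c := rfl
@[simp] theorem JV.smul_g (g : G) (v : JV G) : (g • v).g = g * v.g := rfl

/-- the coloured Rips complex with colours `< c`; `G` acts freely on its simplices -/
def JC (c : ℕ) (T : Set G) : Set (Finset (JV G)) :=
  {σ | σ.Nonempty ∧ (∀ p ∈ σ, p.c < c) ∧ (∀ p ∈ σ, ∀ q ∈ σ, p.c = q.c → p = q) ∧
    ∀ p ∈ σ, ∀ q ∈ σ, p.g⁻¹ * q.g ∈ T}

end rips

end Crest.Agent.R185
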