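import Crest.Agent.R185.AH

/-!
# R185 TASK AExt: the extension lemma with carriers
-/

set_option autoImplicit false

namespace Crest.Agent.R185

open Set Metric Filter
open scoped _root_.Topology

variable {Γ A Y : Type*} [Group Γ] [MulAction Γ A] [TopologicalSpace Y] [MulAction Γ Y]
  [ContinuousConstSMul Γ Y]

/-- orbit representatives -/
theorem aext_rep : ∃ (rep : Finset A → Finset A) (γ : Finset A → Γ),
    (∀ σ, fsm (γ σ) (rep σ) = σ) ∧ ∀ (g : Γ) σ, rep (fsm g σ) = rep σ := by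
  let s : Setoid (Finset A) := ⟨fun σ τ => ∃ g : Γ, fsm g σ = τ, fun _ => ⟨1, fsm_one⟩,
    fun ⟨g, h⟩ => ⟨g⁻¹, by rw [← h, ← fsm_mul, inv_mul_cancel, fsm_one]⟩,
    fun ⟨g, h⟩ ⟨g', h'⟩ => ⟨g' * g, by rw [fsm_mul, h, h']⟩⟩
  choose γ hγ using fun σ => Quotient.mk_out (s := s) σ
  exact ⟨fun σ => (Quotient.mk s σ).out, γ, hγ,
    fun g σ => congrArg Quotient.out (Quotient.sound (s := s) ⟨g, rfl⟩).symm⟩

/-- the action of the trivial group -/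
@[reducible] def aextTriv (X : Type*) : MulAction Unit X where
  smul _ x := x
  one_smul _ := rfl
  mul_smul _ _ _ := rfl

/-- One step.  Choose a representative `σ₀` in each orbit of `K \ K₀` (e.g. via
`Quotient.out` of the orbit relation `∃ g, fsm g σ = τ`) and for `σ = fsm g σ₀` (`g` is unique by
freeness) put `F y = g • F_{σ₀} (act g⁻¹ y)` if `sp y = σ`; `F = F₀` if `sp y ∉ K \ K₀`. -/
theorem ext1 {K K₀ : Set (Finset A)} (hK : IsCx K) (hK₀ : IsCx K₀) (hsub : K₀ ⊆ K)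
    (hinv : ∀ (g : Γ), ∀ σ ∈ K, fsm g σ ∈ K) (hinv₀ : ∀ (g : Γ), ∀ σ ∈ K₀, fsm g σ ∈ K₀)
    (hfree : ∀ (g : Γ), ∀ σ ∈ K, fsm g σ = σ → g = 1)
    (hface : ∀ σ ∈ K, ∀ τ ⊆ σ, τ ≠ σ → τ.Nonempty → τ ∈ K₀)
    (C : Finset A → Set Y) (hC : ∀ (g : Γ), ∀ σ ∈ K, ∀ y ∈ C σ, g • y ∈ C (fsm g σ))
    {F₀ : (A → ℝ) → Y} (hF₀ : ∀ σ ∈ K₀, ContinuousOn F₀ (Spx σ))
    (hE₀ : ∀ (g : Γ), ∀ y ∈ Rl K₀, F₀ (act g y) = g • F₀ y)
    (hfill : ∀ σ ∈ K, σ ∉ K₀ →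
      ∃ F', ContinuousOn F' (Spx σ) ∧ MapsTo F' (Spx σ) (C σ) ∧ EqOn F' F₀ (Bd σ)) :
    ∃ F : (A → ℝ) → Y, (∀ σ ∈ K, ContinuousOn F (Spx σ)) ∧
      (∀ σ ∈ K, σ ∉ K₀ → MapsTo F (Spx σ) (C σ)) ∧ EqOn F F₀ (Rl K₀) ∧
      ∀ (g : Γ), ∀ y ∈ Rl K, F (act g y) = g • F y := by
  classical
  obtain ⟨rep, γ, hγ, hrep⟩ := aext_rep (Γ := Γ) (A := A)
  have : Nonempty ((A → ℝ) → Y) := ⟨F₀⟩
  choose! F' hF' using hfill
  have hrK : ∀ σ ∈ K, rep σ ∈ K := fun σ hσ => by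
    have := hinv (γ σ)⁻¹ σ hσ
    rwa [← congrArg (fsm (γ σ)⁻¹) (hγ σ), ← fsm_mul, inv_mul_cancel, fsm_one] at this
  have hrK₀ : ∀ σ, σ ∉ K₀ → rep σ ∉ K₀ := fun σ hσ h => hσ (hγ σ ▸ hinv₀ (γ σ) _ h)
  have hγm : ∀ (g : Γ), ∀ σ ∈ K, γ (fsm g σ) = g * γ σ := fun g σ hσ => by
    have := hfree ((g * γ σ)⁻¹ * γ (fsm g σ)) _ (hrK σ hσ) (by
      rw [fsm_mul, ← congrArg (fsm (γ (fsm g σ))) (hrep g σ), hγ,
        ← congrArg (fun τ => fsm (g * γ σ)⁻¹ (fsm g τ)) (hγ σ), ← fsm_mul, ← fsm_mul, mul_assoc,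
        inv_mul_cancel, fsm_one])
    exact (inv_mul_eq_one.1 this).symm
  have hact : ∀ σ (y : A → ℝ), act (γ σ) (act (γ σ)⁻¹ y) = y := fun σ y => by
    rw [← act_mul, mul_inv_cancel, act_one]
  have hm : ∀ σ, MapsTo (act (γ σ)⁻¹) (Spx σ) (Spx (rep σ)) := fun σ y hy =>
    (act_mem_spx (g := γ σ)).1 (by rwa [hact, hγ])
  let G : Finset A → (A → ℝ) → Y := fun σ y => γ σ • F' (rep σ) (act (γ σ)⁻¹ y)
  let F : (A → ℝ) → Y := fun y => if sp y ∈ K₀ then F₀ y else G (sp y) y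
  have h0 : EqOn F F₀ (Rl K₀) := fun y hy => if_pos (sp_mem hK₀ hy)
  have h1 : ∀ σ ∈ K, σ ∉ K₀ → EqOn F (G σ) (Spx σ) := fun σ hσ hσ' y hy => by
    by_cases h : sp y = σ
    · simp only [F, h, if_neg hσ']
    have h2 : act (γ σ)⁻¹ y ∈ Bd (rep σ) :=
      (act_mem_bd (g := γ σ)).1 (by rw [hact, hγ]; exact mem_bd.2 ⟨hy, h⟩)
    have h3 := (continuousOn_bd hK₀ hF₀ (hface _ (hrK σ hσ))).2 h2
    simp only [F, G, if_pos (hface σ hσ _ (sp_subset hy) h (sp_nonempty hy))]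
    rw [(hF' _ (hrK σ hσ) (hrK₀ σ hσ')).2.2 h2, ← hE₀ _ _ h3, hact]
  refine ⟨F, fun σ hσ => ?_, fun σ hσ hσ' y hy => ?_, h0, fun g y hy => ?_⟩
  · by_cases hσ' : σ ∈ K₀
    · exact (hF₀ σ hσ').congr fun y hy => h0 (mem_rl.2 ⟨σ, hσ', hy⟩)
    · exact (((hF' _ (hrK σ hσ) (hrK₀ σ hσ')).1.comp (continuous_act _).continuousOn
        (hm σ)).const_smul (γ σ)).congr (h1 σ hσ hσ')
  · rw [h1 σ hσ hσ' hy]
    have := hC (γ σ) _ (hrK σ hσ) _ ((hF' _ (hrK σ hσ) (hrK₀ σ hσ')).2.1 (hm σ hy))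
    rwa [hγ] at this
  · have h2 := sp_mem hK hy
    obtain ⟨σ, -, hσ⟩ := mem_rl.1 hy
    by_cases h : sp y ∈ K₀
    · simp only [F, sp_act, if_pos h, if_pos (hinv₀ g _ h)]
      exact hE₀ g y (mem_rl.2 ⟨_, h, mem_spx_sp hσ⟩)
    · have h3 : fsm g (sp y) ∉ K₀ := fun h' => h (by
        have := hinv₀ g⁻¹ _ h'
        rwa [← fsm_mul, inv_mul_cancel, fsm_one] at this)
      simp only [F, G, sp_act, if_neg h, if_neg h3]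
      rw [hγm g _ h2, hrep, ← act_mul, mul_inv_rev, inv_mul_cancel_right, mul_smul]

/-- Iterate `ext1` along `K₀ ∪ skel k K` (`TFill.spx`, `continuousOn_bd`) and pass to the limit
`F y = F_{(sp y).card} y`. -/
theorem ext {K K₀ : Set (Finset A)} (hK : IsCx K) (hK₀ : IsCx K₀) (hsub : K₀ ⊆ K)
    (hinv : ∀ (g : Γ), ∀ σ ∈ K, fsm g σ ∈ K) (hinv₀ : ∀ (g : Γ), ∀ σ ∈ K₀, fsm g σ ∈ K₀)
    (hfree : ∀ (g : Γ), ∀ σ ∈ K, fsm g σ = σ → g = 1)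
    (C : ℕ → Finset A → Set Y)
    (hmono : ∀ σ ∈ K, ∀ τ ⊆ σ, τ.Nonempty → ∀ d d', d ≤ d' → C d τ ⊆ C d' σ)
    (hC : ∀ (g : Γ) (d : ℕ), ∀ σ ∈ K, ∀ y ∈ C d σ, g • y ∈ C d (fsm g σ))
    (hfill : ∀ σ ∈ K, σ ∉ K₀ → ∀ d, σ.card = d + 1 → TFill d (C d σ) (C (d + 1) σ))
    {F₀ : (A → ℝ) → Y}
    (hF₀ : ∀ σ ∈ K₀, ContinuousOn F₀ (Spx σ) ∧ MapsTo F₀ (Spx σ) (C σ.card σ))
    (hE₀ : ∀ (g : Γ), ∀ y ∈ Rl K₀, F₀ (act g y) = g • F₀ y) :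
    ∃ F : (A → ℝ) → Y, (∀ σ ∈ K, ContinuousOn F (Spx σ) ∧ MapsTo F (Spx σ) (C σ.card σ)) ∧
      EqOn F F₀ (Rl K₀) ∧ ∀ (g : Γ), ∀ y ∈ Rl K, F (act g y) = g • F y := by
  let L : ℕ → Set (Finset A) := fun k => K₀ ∪ skel k K
  have hL : ∀ k, IsCx (L k) := fun k => hK₀.union (hK.skel k)
  have hLK : ∀ k, L k ⊆ K := fun k => union_subset hsub fun _ h => h.1
  have hLm : Monotone L := fun k m h => union_subset_union_right _ fun _ h' => ⟨h'.1, h'.2.trans h⟩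
  have hLi : ∀ k (g : Γ), ∀ σ ∈ L k, fsm g σ ∈ L k := fun k g σ hσ =>
    hσ.imp (hinv₀ g σ) fun h => ⟨hinv g σ h.1, card_fsm.trans_le h.2⟩
  let P : ℕ → ((A → ℝ) → Y) → Prop := fun k F =>
    (∀ σ ∈ L k, ContinuousOn F (Spx σ) ∧ MapsTo F (Spx σ) (C σ.card σ)) ∧
      ∀ (g : Γ), ∀ y ∈ Rl (L k), F (act g y) = g • F y
  have hL0 : L 0 = K₀ := union_eq_left.2 fun σ hσ =>
    absurd (hK.ne σ hσ.1).card_pos (not_lt.2 hσ.2)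
  have hP0 : P 0 F₀ := by simp only [P, hL0]; exact ⟨hF₀, hE₀⟩
  have hstep : ∀ k F, P k F → ∃ F', P (k + 1) F' ∧ EqOn F' F (Rl (L k)) := by
    intro k F hF
    have hface : ∀ σ ∈ L (k + 1), ∀ τ ⊆ σ, τ ≠ σ → τ.Nonempty → τ ∈ L k :=
      fun σ hσ τ h1 h2 h3 => hσ.imp (fun h => hK₀.down σ h τ h1 h3) fun h =>
        ⟨hK.down σ h.1 τ h1 h3, Nat.lt_succ_iff.1
          ((Finset.card_lt_card (Finset.ssubset_iff_subset_ne.2 ⟨h1, h2⟩)).trans_le h.2)⟩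
    obtain ⟨F', h1, h2, h3, h4⟩ := ext1 (hL (k + 1)) (hL k) (hLm k.le_succ) (hLi _) (hLi _)
      (fun g σ hσ => hfree g σ (hLK _ hσ)) hface (fun σ => C σ.card σ)
      (fun g σ hσ y hy => by rw [card_fsm]; exact hC g _ σ (hLK _ hσ) y hy)
      (fun σ hσ => (hF.1 σ hσ).1) hF.2 fun σ hσ hσ' => by
        have h1 : σ ∉ K₀ := fun h => hσ' (Or.inl h)
        have h2 := hσ.resolve_left h1
        have h3 : σ.card = k + 1 := le_antisymm h2.2 (not_le.1 fun h => hσ' (Or.inr ⟨h2.1, h⟩))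
        rw [h3]
        refine (hfill σ h2.1 h1 k h3).spx h3
          (continuousOn_bd (hL k) (fun σ hσ => (hF.1 σ hσ).1) (hface σ hσ)).1 fun y hy => ?_
        obtain ⟨h4, h5⟩ := mem_bd.1 hy
        exact hmono σ h2.1 _ (sp_subset h4) (sp_nonempty h4) _ _ (Nat.lt_succ_iff.1
          ((Finset.card_lt_card (Finset.ssubset_iff_subset_ne.2 ⟨sp_subset h4, h5⟩)).trans_eq h3))
          ((hF.1 _ (hface σ hσ _ (sp_subset h4) h5 (sp_nonempty h4))).2 (mem_spx_sp h4))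
    refine ⟨F', ⟨fun σ hσ => ⟨h1 σ hσ, ?_⟩, h4⟩, h3⟩
    by_cases hσ' : σ ∈ L k
    · exact fun y hy => h3 (mem_rl.2 ⟨σ, hσ', hy⟩) ▸ (hF.1 σ hσ').2 hy
    · exact h2 σ hσ hσ'
  choose nx hnx using hstep
  let S : ∀ k, {F // P k F} := fun k =>
    Nat.rec ⟨F₀, hP0⟩ (fun k F => ⟨nx k F.1 F.2, (hnx k F.1 F.2).1⟩) k
  have hS : ∀ k m, k ≤ m → EqOn (S m).1 (S k).1 (Rl (L k)) := fun k m h => by
    induction m, h using Nat.le_induction with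
    | base => exact fun _ _ => rfl
    | succ m h ih => exact fun y hy => ((hnx m _ (S m).2).2 (Rl.mono (hLm h) hy)).trans (ih hy)
  have hsp : ∀ σ ∈ K, ∀ y ∈ Spx σ, y ∈ Rl (L (sp y).card) := fun σ hσ y hy =>
    mem_rl.2 ⟨_, Or.inr ⟨sp_mem hK (mem_rl.2 ⟨σ, hσ, hy⟩), le_rfl⟩, mem_spx_sp hy⟩
  refine ⟨fun y => (S (sp y).card).1 y, fun σ hσ => ?_,
    fun y hy => hS 0 _ (Nat.zero_le _) (hL0.symm ▸ hy), fun g y hy => ?_⟩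
  · have h1 : EqOn (fun y => (S (sp y).card).1 y) (S σ.card).1 (Spx σ) := fun y hy =>
      (hS _ _ (Finset.card_le_card (sp_subset hy)) (hsp σ hσ y hy)).symm
    have h2 := (S σ.card).2.1 σ (Or.inr ⟨hσ, le_rfl⟩)
    exact ⟨h2.1.congr h1, h2.2.congr h1.symm⟩
  · obtain ⟨σ, hσ, hy'⟩ := mem_rl.1 hy
    change (S (sp (act g y)).card).1 _ = _
    rw [sp_act, card_fsm]
    exact (S _).2.2 g y (hsp σ hσ y hy')

/-- the non-equivariant version for posets (`ext` with the trivial group and `Y = Alx P`) -/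
theorem pext {A P : Type*} [Preorder P] {K K₀ : Set (Finset A)} (hK : IsCx K) (hK₀ : IsCx K₀)
    (hsub : K₀ ⊆ K) (C : ℕ → Finset A → Set P)
    (hmono : ∀ σ ∈ K, ∀ τ ⊆ σ, τ.Nonempty → ∀ d d', d ≤ d' → C d τ ⊆ C d' σ)
    (hfill : ∀ σ ∈ K, σ ∉ K₀ → ∀ d, σ.card = d + 1 → PFill d (C d σ) (C (d + 1) σ))
    {F₀ : (A → ℝ) → P} (hF₀ : ∀ σ ∈ K₀, UC F₀ (Spx σ) ∧ MapsTo F₀ (Spx σ) (C σ.card σ)) :
    ∃ F : (A → ℝ) → P, (∀ σ ∈ K, UC F (Spx σ) ∧ MapsTo F (Spx σ) (C σ.card σ)) ∧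
      EqOn F F₀ (Rl K₀) := by
  let _ := aextTriv A
  let _ := aextTriv (Alx P)
  have : ContinuousConstSMul Unit (Alx P) := ⟨fun _ => continuous_id⟩
  have h1 : ∀ (g : Unit) (σ : Finset A), fsm g σ = σ := fun _ _ => fsm_one (Γ := Unit)
  obtain ⟨F, h2, h3, -⟩ := ext (Γ := Unit) (Y := Alx P) hK hK₀ hsub (fun g σ h => by rwa [h1])
    (fun g σ h => by rwa [h1]) (fun _ _ _ _ => rfl) C hmono (fun g d σ _ y h => by rwa [h1])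
    (fun σ h h' d hd => pfill_iff.1 (hfill σ h h' d hd)) (F₀ := F₀)
    (fun σ h => ⟨continuousOn_alx.2 (hF₀ σ h).1, (hF₀ σ h).2⟩) fun _ _ _ => rfl
  exact ⟨F, fun σ h => ⟨continuousOn_alx.1 (h2 σ h).1, (h2 σ h).2⟩, h3⟩

end Crest.Agent.R185
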