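import Crest.Agent.R185.ARips

/-!
# R185 TASK AFp1: coarsely simply connected groups are finitely presented
-/

set_option autoImplicit false

namespace Crest.Agent.R185

open Set Metric Filter
open scoped _root_.Topology

variable {G : Type*} [Group G]

/-- `j = 1`, `A = {1}`: the sphere is `{-1, 1}`; along the filling (Lebesgue number) consecutive
values differ by elements of `B⁻¹ * B`. -/
theorem CC.fg (h : CC G 1) : Group.FG G := by
  obtain ⟨B, hB, h⟩ := h {1} (finite_singleton _)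
  refine Group.fg_iff.2 ⟨B, eq_top_iff.2 fun g _ => ?_, hB⟩
  have hn : ∀ r : ℝ, ‖(fun _ => r : Fin 1 → ℝ)‖ = |r| := fun r => by
    rw [pi_norm_const, Real.norm_eq_abs]
  obtain ⟨Γ, h1, h2⟩ := h 1 le_rfl (fun x => if x 0 < 0 then 1 else g) fun z hz => by
    have hz0 : z 0 ≠ 0 := fun h0 => by
      have : z = fun _ => 0 := funext fun i => by rw [Subsingleton.elim i 0, h0]
      rw [mem_sphere_zero_iff_norm, this, hn] at hz
      simp at hz
    refine mem_nhdsWithin_of_mem_nhds ?_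
    rcases hz0.lt_or_gt with h0 | h0
    · filter_upwards [((continuous_apply 0).tendsto z).eventually (gt_mem_nhds h0)] with x hx
      simp [h0, hx]
    · filter_upwards [((continuous_apply 0).tendsto z).eventually (lt_mem_nhds h0)] with x hx
      simp [h0.not_gt, hx.not_gt]
  have m1 : (fun _ => -1 : Fin 1 → ℝ) ∈ sphere 0 1 := by simp [hn]
  have m2 : (fun _ => 1 : Fin 1 → ℝ) ∈ sphere 0 1 := by simp [hn]
  have := (convex_closedBall (0 : Fin 1 → ℝ) 1).isPreconnected.induction₂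
    (fun x y => (Γ x)⁻¹ * Γ y ∈ Subgroup.closure B)
    (fun z hz => (h1 z hz).mono fun _ h => Subgroup.subset_closure h)
    (fun x y z _ _ _ a b => by simpa using mul_mem a b)
    (fun x y _ _ a => by simpa using inv_mem a)
    (sphere_subset_closedBall m1) (sphere_subset_closedBall m2)
  rw [h2 m1, h2 m2] at this
  simpa [not_lt.2 (zero_le_one' ℝ)] using this

section lift

variable {Q X : Type*} [Group Q] [TopologicalSpace X] {σ : G → Q} {Γ : X → G} {L L' : X → Q}
  {U V : Set X}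

/-- `L` is a local lift of `Γ` along `σ` on `U`. -/
def afp1_Lift (σ : G → Q) (Γ : X → G) (L : X → Q) (U : Set X) : Prop :=
  ∀ z ∈ U, ∀ᶠ z' in 𝓝[U] z, L z' = L z * σ ((Γ z)⁻¹ * Γ z')

theorem afp1_Lift.mono (h : afp1_Lift σ Γ L U) (hV : V ⊆ U) : afp1_Lift σ Γ L V :=
  fun z hz => (h z (hV hz)).filter_mono (nhdsWithin_mono _ hV)

theorem afp1_Lift.uniq (h : afp1_Lift σ Γ L U) (h' : afp1_Lift σ Γ L' U) (hU : IsPreconnected U)
    {x y : X} (hx : x ∈ U) (hy : y ∈ U) : L' x * (L x)⁻¹ = L' y * (L y)⁻¹ :=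
  hU.induction₂ (fun x y => L' x * (L x)⁻¹ = L' y * (L y)⁻¹)
    (fun z hz => by
      filter_upwards [h z hz, h' z hz] with z' e e'
      rw [e, e']
      group)
    (fun _ _ _ _ _ _ => Eq.trans) (fun _ _ _ _ => Eq.symm) hx hy

theorem afp1_glue {ι : Type*} [Finite ι] (U : ι → Set X) (hc : ∀ i, IsClosed (U i))
    (hv : ∀ i j, IsPreconnected (U i ∩ U j)) {x₀ : X} (hx : ∀ i, x₀ ∈ U i)
    (h : ∀ i, ∃ L, afp1_Lift σ Γ L (U i)) : ∃ L, afp1_Lift σ Γ L (⋃ i, U i) := by
  classical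
  have h' : ∀ i, ∃ L, afp1_Lift σ Γ L (U i) ∧ L x₀ = 1 := fun i => by
    obtain ⟨L, hL⟩ := h i
    refine ⟨fun z => (L x₀)⁻¹ * L z, fun z hz => (hL z hz).mono fun z' e => ?_, by simp⟩
    simp only [e, mul_assoc]
  choose L hL hL1 using h'
  have hag : ∀ i j, ∀ z ∈ U i, z ∈ U j → L i z = L j z := fun i j z hi hj => by
    have := ((hL j).mono inter_subset_right).uniq ((hL i).mono inter_subset_left) (hv i j)
      ⟨hi, hj⟩ ⟨hx i, hx j⟩
    rwa [hL1, hL1, inv_one, mul_one, mul_inv_eq_one] at this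
  obtain ⟨M, hM⟩ : ∃ M : X → Q, ∀ i, ∀ z ∈ U i, M z = L i z :=
    ⟨fun z => if h : ∃ i, z ∈ U i then L h.choose z else 1, fun i z hz => by
      have h : ∃ i, z ∈ U i := ⟨i, hz⟩
      simp only [dif_pos h]
      exact hag _ _ z h.choose_spec hz⟩
  refine ⟨M, fun z _ => ?_⟩
  rw [nhdsWithin_iUnion, eventually_iSup]
  intro i
  by_cases hz : z ∈ U i
  · filter_upwards [hL i z hz, self_mem_nhdsWithin] with z' e hz'
    rw [hM i z hz, hM i z' hz', e]
  · rw [notMem_closure_iff_nhdsWithin_eq_bot.1 (by rwa [(hc i).closure_eq])]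
    exact eventually_bot

open BoxIntegral in
theorem afp1_box {ι : Type*} [Finite ι] {Γ : (ι → ℝ) → G} {B : Set G} (I : Box ι)
    (hσ : ∀ b ∈ B, ∀ b' ∈ B, b * b' ∈ B → σ (b * b') = σ b * σ b') (hΓ : BC B Γ (Box.Icc I)) :
    ∃ L, afp1_Lift σ Γ L (Box.Icc I) := by
  classical
  refine Box.subbox_induction_on' (p := fun J => ∃ L, afp1_Lift σ Γ L (Box.Icc J)) I
    (fun J _ h => ?_) fun z hz => ⟨_, hΓ z hz, fun J hJ _ _ hU _ =>
      ⟨fun x => σ ((Γ z)⁻¹ * Γ x), fun x hx => ?_⟩⟩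
  · have hc : ∀ s, (fun i => (J.lower i + J.upper i) / 2) ∈ Box.Icc (J.splitCenterBox s) :=
      fun s => by
        constructor <;> intro i <;> have := J.lower_lt_upper i <;>
          simp only [Box.splitCenterBox, piecewise] <;> split_ifs <;> linarith
    obtain ⟨L, hL⟩ := afp1_glue (fun s => Box.Icc (J.splitCenterBox s)) (fun _ => isClosed_Icc)
      (fun s t => ((convex_Icc (𝕜 := ℝ) _ _).inter (convex_Icc _ _)).isPreconnected) hc h
    refine ⟨L, hL.mono fun x hx => mem_iUnion.2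
      ⟨{i | (J.lower i + J.upper i) / 2 < x i}, fun i => ?_, fun i => ?_⟩⟩ <;>
      simp only [Box.splitCenterBox, piecewise, mem_ofPred_eq] <;> split_ifs with h1
    exacts [h1.le, hx.1 i, hx.2 i, not_lt.1 h1]
  · have hJ' := Box.le_iff_Icc.1 hJ
    filter_upwards [(hΓ x (hJ' hx)).filter_mono (nhdsWithin_mono _ hJ'), self_mem_nhdsWithin]
      with y hy hy'
    have e : (Γ z)⁻¹ * Γ x * ((Γ x)⁻¹ * Γ y) = (Γ z)⁻¹ * Γ y := by group
    rw [← hσ _ (hU hx) _ hy (e ▸ hU hy'), e]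

end lift

/-- a step path from `1` to `w` -/
theorem afp1_path {F : Type*} [Group F] {S : Set F} (hS : Subgroup.closure S = ⊤) (w : F) :
    ∃ c : ℝ → F, BC (S ∪ S⁻¹ ∪ {1}) c univ ∧ c (-1) = 1 ∧ c 1 = w := by
  have key : ∃ c : ℝ → F, BC (S ∪ S⁻¹ ∪ {1}) c univ ∧ c 0 = 1 ∧ ∃ b, 0 ≤ b ∧ ∀ t ≥ b, c t = w := by
    have step : ∀ (w : F) (s : F), s ∈ S ∪ S⁻¹ →
        (∃ c : ℝ → F, BC (S ∪ S⁻¹ ∪ {1}) c univ ∧ c 0 = 1 ∧ ∃ b, 0 ≤ b ∧ ∀ t ≥ b, c t = w) →
        ∃ c : ℝ → F, BC (S ∪ S⁻¹ ∪ {1}) c univ ∧ c 0 = 1 ∧ ∃ b, 0 ≤ b ∧ ∀ t ≥ b, c t = w * s := by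
      rintro w s hs ⟨c, h1, h2, b, h3, h4⟩
      refine ⟨fun t => if t ≤ b + 1 then c t else w * s, fun z _ => ?_,
        by simp only [show (0 : ℝ) ≤ b + 1 by linarith, if_true, h2],
        b + 2, by linarith, fun t ht => if_neg (by linarith)⟩
      have h5 := h1 z trivial
      rw [nhdsWithin_univ] at h5 ⊢
      by_cases hz : z < b + 1
      · filter_upwards [h5, gt_mem_nhds hz] with y hy hy'
        simpa only [hz.le, hy'.le, if_true] using hy
      · filter_upwards [lt_mem_nhds (show b < z by linarith)] with y hy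
        by_cases h6 : z ≤ b + 1 <;> by_cases h7 : y ≤ b + 1 <;>
          simp only [h6, h7, if_true, if_false, h4 z (by linarith), h4 y hy.le]
        · simp
        · exact Or.inl (by simpa using hs)
        · exact Or.inl (by simpa [or_comm] using hs)
        · simp
    have hw : w ∈ Subgroup.closure S := hS ▸ trivial
    induction hw using Subgroup.closure_induction_right with
    | one => exact ⟨fun _ => 1, fun _ _ => by simp, rfl, 0, le_rfl, fun _ _ => rfl⟩
    | mul_right x _ s hs ih => exact step x s (Or.inl hs) ih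
    | mul_inv_cancel x _ s hs ih => exact step x s⁻¹ (Or.inr (by simpa using hs)) ih
  obtain ⟨c, h1, h2, b, h3, h4⟩ := key
  refine ⟨fun t => c (b * (t + 1)), fun z _ => ?_, by simp [h2], h4 _ (by linarith)⟩
  have h5 := h1 (b * (z + 1)) trivial
  rw [nhdsWithin_univ] at h5 ⊢
  exact (show Continuous fun t : ℝ => b * (t + 1) by fun_prop).continuousAt.eventually h5

/-- Let `S` be a finite symmetric generating set containing `1`, `B ⊇ S` the bound for `A = S`,
`T = (B ∪ {1})⁻¹ * (B ∪ {1})`, and `Q` the group presented on the generators `[t]`, `t ∈ T`, by the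
relations `[t] [t'] = [t t']` (`t, t', t t' ∈ T`).  The map `Q → G` is onto.  Every element of `Q`
is a product of generators `[s]`, `s ∈ S`, after adding the finitely many relations
`[t] = word in S`.  If `s₁ ⋯ s_k = 1` in `G`, let `γ` run through the prefixes along the side
`x 1 = -1` of the square and be `1` on the other sides; fill by `Γ`; for a fine grid (Lebesgue
number) the four corners of every small square have values in `Γ z * B` for some `z`; in `Q` the
product along the bottom side equals the product along the other three sides (induction on rows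
and columns), and it telescopes to `[s₁] ⋯ [s_k]`. -/
theorem CC.fp (h : CC G 2) : Group.IsFinitelyPresented G := by
  classical
  obtain ⟨S, hS, hSf⟩ := Group.fg_iff.1 (h.mono one_le_two).fg
  have : Finite S := hSf
  set φ : FreeGroup S →* G := FreeGroup.lift Subtype.val
  have hφ : Function.Surjective φ := by
    rw [← MonoidHom.range_eq_top, FreeGroup.range_lift_eq_closure, Subtype.range_coe, hS]
  refine .of_surjective φ hφ ?_
  obtain ⟨τ, hτ⟩ := hφ.hasRightInverse
  set R : Set (FreeGroup S) := range FreeGroup.of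
  have hR : (R ∪ R⁻¹ ∪ {1}).Finite := ((finite_range _).union (finite_range _).inv).union (by simp)
  obtain ⟨B, hB, h⟩ := h _ (hR.image φ)
  refine ⟨image2 (fun b b' => (τ (b * b'))⁻¹ * (τ b * τ b')) B B ∪
    (fun s => s⁻¹ * τ (φ s)) '' (R ∪ R⁻¹ ∪ {1}), (hB.image2 _ hB).union (hR.image _),
    le_antisymm (Subgroup.normalClosure_le_normal ?_) fun w hw => ?_⟩
  · rintro _ (⟨b, -, b', -, rfl⟩ | ⟨s, -, rfl⟩) <;> simp [hτ _]
  generalize hN : Subgroup.normalClosure (G := FreeGroup S) _ = N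
  have : N.Normal := hN ▸ inferInstance
  have hσ : ∀ b ∈ B, ∀ b' ∈ B, b * b' ∈ B →
      (τ (b * b') : FreeGroup S ⧸ N) = τ b * τ b' := fun b hb b' hb' _ =>
    QuotientGroup.eq.2 (hN ▸ Subgroup.subset_normalClosure (Or.inl ⟨b, hb, b', hb', rfl⟩))
  have hσ' : ∀ s ∈ R ∪ R⁻¹ ∪ {1}, (s : FreeGroup S ⧸ N) = τ (φ s) := fun s hs =>
    QuotientGroup.eq.2 (hN ▸ Subgroup.subset_normalClosure (Or.inr ⟨s, hs, rfl⟩))
  obtain ⟨c, c1, c2, c3⟩ := afp1_path (FreeGroup.closure_range_of S) w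
  have c4 : ∀ t : ℝ, |t| = 1 → φ (c t) = 1 := fun t ht => by
    rcases (abs_eq zero_le_one).1 ht with rfl | rfl
    · rw [c3]; exact hw
    · rw [c2, map_one]
  have hsp : ∀ x : Fin 2 → ℝ, x ∈ sphere 0 1 ↔ max |x 0| |x 1| = 1 := fun x => by
    rw [mem_sphere_zero_iff_norm, Pi.norm_def, Fin.univ_succ]
    simp
  have one_mem : (1 : G) ∈ φ '' (R ∪ R⁻¹ ∪ {1}) := ⟨1, Or.inr rfl, map_one _⟩
  obtain ⟨Γ, h1, h2⟩ := h 2 le_rfl (fun x => if x 1 ≤ 0 then φ (c (x 0)) else 1) fun z hz => by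
    have t0 := (continuous_apply 0).tendsto z
    have t1 := (continuous_apply 1).tendsto z
    rcases lt_trichotomy (z 1) 0 with h0 | h0 | h0
    · refine mem_nhdsWithin_of_mem_nhds ?_
      have := c1 (z 0) trivial
      rw [nhdsWithin_univ] at this
      filter_upwards [t1.eventually (gt_mem_nhds h0), t0.eventually this] with x hx hx'
      simp only [h0.le, hx.le, if_true]
      exact ⟨_, hx', by simp⟩
    · have h3 : ∀ x : Fin 2 → ℝ, x ∈ sphere 0 1 → |x 1| < 1 →
          (if x 1 ≤ 0 then φ (c (x 0)) else 1) = 1 := fun x hx hx' => by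
        rw [c4 _ (by rw [hsp] at hx; grind), ite_self]
      filter_upwards [self_mem_nhdsWithin, mem_nhdsWithin_of_mem_nhds
        (t1.abs.eventually (gt_mem_nhds (show |z 1| < 1 by simp [h0])))] with x hx hx'
      rw [h3 x hx hx', h3 z hz (by simp [h0]), mul_one, inv_one]
      exact one_mem
    · refine mem_nhdsWithin_of_mem_nhds ?_
      filter_upwards [t1.eventually (lt_mem_nhds h0)] with x hx
      simpa only [h0.not_ge, hx.not_ge, if_false, mul_one, inv_one] using one_mem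
  have hI : BoxIntegral.Box.Icc ⟨fun _ => -1, fun _ => 1, fun _ => by norm_num⟩ =
      closedBall (0 : Fin 2 → ℝ) 1 := by
    ext x
    simp [BoxIntegral.Box.Icc_def, pi_norm_le_iff_of_nonneg, abs_le, Pi.le_def, forall_and]
  obtain ⟨L, hL⟩ := afp1_box (σ := fun g => (τ g : FreeGroup S ⧸ N)) _ hσ (hI ▸ h1)
  rw [hI] at hL
  have key : ∀ (p : ℝ → Fin 2 → ℝ) (e : ℝ → FreeGroup S), Continuous p →
      BC (R ∪ R⁻¹ ∪ {1}) e univ → (∀ t, |t| ≤ 1 → max |p t 0| |p t 1| = 1 ∧
        (if p t 1 ≤ 0 then φ (c (p t 0)) else 1) = φ (e t)) →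
      L (p 1) * (e 1 : FreeGroup S ⧸ N)⁻¹ = L (p (-1)) * (e (-1) : FreeGroup S ⧸ N)⁻¹ := by
    intro p e hp he hpe
    have m1 : ∀ t ∈ Icc (-1 : ℝ) 1, p t ∈ sphere 0 1 := fun t ht => (hsp _).2 (hpe t (abs_le.2 ht)).1
    refine afp1_Lift.uniq (σ := fun g => (τ g : FreeGroup S ⧸ N)) (Γ := Γ ∘ p)
      (L := fun t => (e t : FreeGroup S ⧸ N)) (L' := L ∘ p) (U := Icc (-1) 1)
      (fun z hz => ?_) (fun z hz => ?_) isPreconnected_Icc (by norm_num) (by norm_num)
    · filter_upwards [(he z trivial).filter_mono (nhdsWithin_mono _ (subset_univ _)),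
        self_mem_nhdsWithin] with t ht ht'
      simp only [Function.comp_apply, h2 (m1 z hz), h2 (m1 t ht'), (hpe z (abs_le.2 hz)).2,
        (hpe t (abs_le.2 ht')).2]
      rw [← map_inv, ← map_mul, ← hσ' _ ht]
      simp
    · exact (hp.continuousWithinAt.tendsto_nhdsWithin fun t ht =>
        sphere_subset_closedBall (m1 t ht)).eventually (hL _ (sphere_subset_closedBall (m1 z hz)))
  have b1 : BC (R ∪ R⁻¹ ∪ {1}) (fun _ : ℝ => 1) univ := fun _ _ => by simp
  have k1 := key (fun t => ![t, -1]) c (by fun_prop) c1 fun t ht => by simp [ht]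
  have k2 := key (fun t => ![t, 1]) _ (by fun_prop) b1 fun t ht => by simp [ht]
  have k3 := key (fun t => ![-1, t]) _ (by fun_prop) b1 fun t ht => by simp [ht, c4]
  have k4 := key (fun t => ![1, t]) _ (by fun_prop) b1 fun t ht => by simp [ht, c4]
  simp only [c2, c3, QuotientGroup.mk_one, inv_one, mul_one] at k1 k2 k3 k4
  rw [← k3, ← k2, k4, mul_eq_left, inv_eq_one] at k1
  exact (QuotientGroup.eq_one_iff _).1 k1

end Crest.Agent.R185
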