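import Crest.Agent.R185.ARips

/-!
# R185 / AFp2Aux1: discrete homotopies in finitely presented groups
-/

set_option autoImplicit false

namespace Crest.Agent.R185.AFp2

open scoped Pointwise

variable {G : Type*} [Group G] {α : Type*} (ι : α → G)

/-- value of a list of letters -/
def ev (w : List α) : G := (w.map ι).prod

/-- values of the prefixes -/
def sq (w : List α) (i : ℕ) : G := ev ι (w.take i)

/-- letters, their inverses and `1` -/
def gen : Set G := {1} ∪ (Set.range ι ∪ (Set.range ι)⁻¹)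

/-- the ball of radius `k` -/
def bl (k : ℕ) : Set G := gen ι ^ k

theorem ev_nil : ev ι [] = 1 := rfl

theorem ev_cons (a : α) (w : List α) : ev ι (a :: w) = ι a * ev ι w := rfl

theorem ev_append (u w : List α) : ev ι (u ++ w) = ev ι u * ev ι w := by
  simp [ev]

theorem bl_finite [Finite α] (k : ℕ) : (bl ι k).Finite := by
  have h : (gen ι).Finite := (Set.finite_singleton 1).union
    ((Set.finite_range ι).union (Set.finite_range ι).inv)
  induction k with
  | zero => rw [bl, pow_zero]; exact Set.finite_one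
  | succ k ih => rw [bl, pow_succ]; exact ih.mul h

variable {ι}

theorem bl_mono {k l : ℕ} (h : k ≤ l) : bl ι k ⊆ bl ι l :=
  Set.pow_subset_pow_right (Or.inl rfl) h

theorem one_mem_bl (k : ℕ) : (1 : G) ∈ bl ι k := Set.one_mem_pow (Or.inl rfl)

theorem mul_mem_bl {k l : ℕ} {x y : G} (hx : x ∈ bl ι k) (hy : y ∈ bl ι l) :
    x * y ∈ bl ι (k + l) := by
  rw [bl, pow_add]
  exact Set.mul_mem_mul hx hy

theorem inv_mem_bl {k : ℕ} {x : G} (hx : x ∈ bl ι k) : x⁻¹ ∈ bl ι k := by
  have h : (gen ι)⁻¹ = gen ι := by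
    simp only [gen, Set.union_inv, Set.inv_singleton, inv_one, inv_inv]
    rw [Set.union_comm (Set.range ι)⁻¹]
  rw [bl, ← h, inv_pow]
  exact Set.inv_mem_inv.2 hx

theorem ev_mem_bl (w : List α) : ev ι w ∈ bl ι w.length := by
  induction w with
  | nil => exact one_mem_bl 0
  | cons a w ih =>
    rw [List.length_cons, add_comm, ev_cons]
    refine mul_mem_bl ?_ ih
    rw [bl, pow_one]
    exact Or.inr (Or.inl ⟨a, rfl⟩)

theorem tri {k l : ℕ} {x y z : G} (h : x⁻¹ * y ∈ bl ι k) (h' : y⁻¹ * z ∈ bl ι l) :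
    x⁻¹ * z ∈ bl ι (k + l) := by
  have := mul_mem_bl h h'
  rwa [mul_assoc, mul_inv_cancel_left] at this

theorem sym {k : ℕ} {x y : G} (h : x⁻¹ * y ∈ bl ι k) : y⁻¹ * x ∈ bl ι k := by
  have := inv_mem_bl h
  rwa [mul_inv_rev, inv_inv] at this

theorem sq_close (w : List α) {i j k : ℕ} (h : i ≤ j + k) (h' : j ≤ i + k) :
    (sq ι w i)⁻¹ * sq ι w j ∈ bl ι k := by
  have aux : ∀ i j : ℕ, i ≤ j → j ≤ i + k → (sq ι w i)⁻¹ * sq ι w j ∈ bl ι k := by
    intro i j h1 h2
    obtain ⟨d, rfl⟩ := Nat.exists_eq_add_of_le h1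
    rw [sq, sq, List.take_add, ev_append, inv_mul_cancel_left]
    refine bl_mono ?_ (ev_mem_bl _)
    rw [List.length_take]
    omega
  rcases le_total i j with h1 | h1
  · exact aux i j h1 h'
  · exact sym (aux j i h1 h)

theorem sq_of_le {w : List α} {i : ℕ} (h : w.length ≤ i) : sq ι w i = ev ι w := by
  rw [sq, List.take_of_length_le h]

theorem sq_zero (w : List α) : sq ι w 0 = 1 := rfl

variable (ι) in
/-- close lists -/
def Cl (L : ℕ) (w w' : List α) : Prop :=
  ev ι w = ev ι w' ∧ ∀ i, (sq ι w i)⁻¹ * sq ι w' i ∈ bl ι (L + L)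

variable {L : ℕ}

theorem Cl.refl (w : List α) : Cl ι L w w :=
  ⟨rfl, fun _ => by rw [inv_mul_cancel]; exact one_mem_bl _⟩

theorem Cl.symm {w w' : List α} (h : Cl ι L w w') : Cl ι L w' w :=
  ⟨h.1.symm, fun i => sym (h.2 i)⟩

theorem Cl.cons {w w' : List α} (h : Cl ι L w w') (a : α) : Cl ι L (a :: w) (a :: w') := by
  refine ⟨by rw [ev_cons, ev_cons, h.1], fun i => ?_⟩
  cases i with
  | zero => rw [sq_zero, sq_zero, inv_mul_cancel]; exact one_mem_bl _
  | succ i =>
    have := h.2 i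
    rw [sq, sq] at this ⊢
    rw [List.take_succ_cons, List.take_succ_cons, ev_cons, ev_cons, mul_inv_rev, mul_assoc,
      inv_mul_cancel_left]
    exact this

theorem Cl.move {x x' : List α} (h : ev ι x = ev ι x') (hx : x.length ≤ L) (hx' : x'.length ≤ L)
    (u : List α) : Cl ι L (x ++ u) (x' ++ u) := by
  refine ⟨by rw [ev_append, ev_append, h], fun i => ?_⟩
  have h1 : sq ι (x ++ u) (x.length + (i - x.length)) =
      sq ι (x' ++ u) (x'.length + (i - x.length)) := by
    rw [sq, sq, List.take_length_add_append, List.take_length_add_append, ev_append, ev_append, h]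
  refine tri (y := sq ι (x ++ u) (x.length + (i - x.length))) (sq_close _ (by omega) (by omega)) ?_
  rw [h1]
  exact sq_close _ (by omega) (by omega)

variable (ι L) in
/-- discrete homotopy of lists -/
def st : Setoid (List α) where
  r := Relation.ReflTransGen (Cl ι L)
  iseqv := ⟨fun _ => .refl, fun h => by
    induction h with
    | refl => exact .refl
    | tail _ h ih => exact .head h.symm ih, .trans⟩

/-- prepending a letter -/
def cs (a : α) : Quotient (st ι L) → Quotient (st ι L) :=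
  Quotient.map (a :: ·) (fun w w' (h : Relation.ReflTransGen (Cl ι L) w w') =>
    show Relation.ReflTransGen (Cl ι L) (a :: w) (a :: w') by
      induction h with
      | refl => exact .refl
      | tail _ h ih => exact .tail ih (h.cons a))

theorem cs_mk (a : α) (w : List α) :
    cs a (Quotient.mk (st ι L) w) = Quotient.mk (st ι L) (a :: w) := rfl

theorem mk_move {x x' : List α} (h : ev ι x = ev ι x') (hx : x.length ≤ L) (hx' : x'.length ≤ L)
    (u : List α) : Quotient.mk (st ι L) (x ++ u) = Quotient.mk (st ι L) (x' ++ u) :=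
  Quotient.sound (Relation.ReflTransGen.single (Cl.move h hx hx' u))

/-- in a finitely presented group lists with the same value are homotopic -/
theorem exists_L [Finite α] {n : ℕ} (φ : FreeGroup (Fin n) →* G) (hφ : Function.Surjective φ)
    (hk : φ.ker.IsFinitelyNormallyGenerated) (e : Fin n × Bool → α)
    (he : ∀ p, ι (e p) = φ (FreeGroup.mk [p])) :
    ∃ L, ∀ w w' : List α, ev ι w = ev ι w' → Relation.ReflTransGen (Cl ι L) w w' := by
  obtain ⟨R, hR, hRk⟩ := hk
  have hev : ∀ l : List (Fin n × Bool), ev ι (l.map e) = φ (FreeGroup.mk l) := by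
    intro l
    induction l with
    | nil => rw [← FreeGroup.one_eq_mk, map_one]; rfl
    | cons p l ih =>
      rw [List.map_cons, ev_cons, ih, he, ← map_mul, FreeGroup.mul_mk]
      rfl
  choose z hz using fun a => hφ (ι a)
  obtain ⟨L1, hL1⟩ := (hR.image (fun r => r.toWord.length)).bddAbove
  obtain ⟨L2, hL2⟩ := (Set.finite_range (fun a => (z a).toWord.length)).bddAbove
  obtain ⟨L, h2, hL1', hL2'⟩ : ∃ L, 2 ≤ L ∧ L1 ≤ L ∧ L2 ≤ L :=
    ⟨2 + L1 + L2, by omega, by omega, by omega⟩
  refine ⟨L, ?_⟩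
  have hinv : ∀ (i : Fin n) (b : Bool) (q : Quotient (st ι L)),
      cs (e (i, !b)) (cs (e (i, b)) q) = q := by
    intro i b q
    obtain ⟨w, rfl⟩ := Quotient.exists_rep q
    refine mk_move (x := [e (i, !b), e (i, b)]) (x' := []) ?_ h2 (Nat.zero_le _) w
    have := hev [(i, !b), (i, b)]
    have h3 : FreeGroup.mk [(i, !b), (i, b)] = 1 :=
      Quot.sound (FreeGroup.Red.Step.not_rev (L₁ := []) (L₂ := []))
    rw [h3] at this
    exact this.trans (map_one φ)
  let π : Fin n → Equiv.Perm (Quotient (st ι L)) := fun i =>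
    ⟨cs (e (i, true)), cs (e (i, false)), hinv i true, hinv i false⟩
  let ψ : FreeGroup (Fin n) →* Equiv.Perm (Quotient (st ι L)) := FreeGroup.lift π
  have hψ : ∀ (l : List (Fin n × Bool)) (w : List α),
      ψ (FreeGroup.mk l) (Quotient.mk _ w) = Quotient.mk _ (l.map e ++ w) := by
    intro l w
    induction l with
    | nil => rw [← FreeGroup.one_eq_mk, map_one]; rfl
    | cons p l ih =>
      rw [show p :: l = [p] ++ l from rfl, ← FreeGroup.mul_mk, map_mul, Equiv.Perm.mul_apply, ih]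
      obtain ⟨i, b⟩ := p
      cases b
      · have : ψ (FreeGroup.mk [(i, false)]) = (π i)⁻¹ := by simp [ψ]
        rw [this]
        rfl
      · have : ψ (FreeGroup.mk [(i, true)]) = π i := by simp [ψ]
        rw [this]
        rfl
  have hker : φ.ker ≤ ψ.ker := by
    rw [← hRk]
    refine Subgroup.normalClosure_le_normal (fun r hr => ?_)
    have hr1 : φ r = 1 := by
      have : r ∈ φ.ker := hRk ▸ Subgroup.subset_normalClosure hr
      exact this
    refine Equiv.ext (fun q => ?_)
    obtain ⟨w, rfl⟩ := Quotient.exists_rep q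
    rw [← FreeGroup.mk_toWord (x := r), hψ]
    refine mk_move (x' := []) ?_ ?_ (Nat.zero_le _) w
    · rw [hev, FreeGroup.mk_toWord, hr1, ev_nil]
    · rw [List.length_map]
      exact (hL1 ⟨r, hr, rfl⟩).trans hL1'
  have hw : ∀ w : List α, ∃ y, φ y = ev ι w ∧ ψ y (Quotient.mk _ []) = Quotient.mk _ w := by
    intro w
    induction w with
    | nil => exact ⟨1, map_one _, by rw [map_one]; rfl⟩
    | cons a w ih =>
      obtain ⟨y, h1, h2'⟩ := ih
      refine ⟨z a * y, by rw [map_mul, hz, h1, ev_cons], ?_⟩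
      rw [map_mul, Equiv.Perm.mul_apply, h2', ← FreeGroup.mk_toWord (x := z a), hψ]
      refine mk_move (x' := [a]) ?_ ?_ (by simp; omega) w
      · rw [hev, FreeGroup.mk_toWord, hz, ev_cons, ev_nil, mul_one]
      · rw [List.length_map]
        exact (hL2 ⟨a, rfl⟩).trans hL2'
  intro w w' h
  obtain ⟨y, h1, h2'⟩ := hw w
  obtain ⟨y', h1', h3⟩ := hw w'
  have h4 : ψ y = ψ y' := by
    have : y⁻¹ * y' ∈ ψ.ker := hker (by
      rw [MonoidHom.mem_ker, map_mul, map_inv, h1, h1', h, inv_mul_cancel])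
    rw [MonoidHom.mem_ker, map_mul, map_inv, inv_mul_eq_one] at this
    exact this
  exact Quotient.exact (s := st ι L) (by rw [← h2', ← h3, h4])

theorem exists_chain {w w' : List α} (h : Relation.ReflTransGen (Cl ι L) w w') :
    ∃ (m N' : ℕ) (W : ℕ → List α), W 0 = w ∧ (∀ k, m ≤ k → W k = w') ∧
      (∀ k, Cl ι L (W k) (W (k + 1))) ∧ ∀ k, (W k).length ≤ N' := by
  induction h using Relation.ReflTransGen.head_induction_on with
  | refl => exact ⟨0, w'.length, fun _ => w', rfl, fun _ _ => rfl, fun _ => Cl.refl _, fun _ => le_rfl⟩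
  | @head a b hab _ ih =>
    obtain ⟨m, N', W, h1, h2, h3, h4⟩ := ih
    refine ⟨m + 1, N' + a.length, fun k => Nat.casesOn k a W, rfl, fun k hk => ?_, fun k => ?_,
      fun k => ?_⟩
    · cases k with
      | zero => omega
      | succ k => exact h2 k (by omega)
    · cases k with
      | zero => exact show Cl ι L a (W 0) from h1 ▸ hab
      | succ k => exact h3 k
    · cases k with
      | zero => exact Nat.le_add_left _ _
      | succ k => exact (h4 k).trans (Nat.le_add_right _ _)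

theorem exists_list (u : ℕ → G) (N : ℕ) (h : ∀ i < N, (u i)⁻¹ * u (i + 1) ∈ Set.range ι) :
    ∃ w : List α, w.length = N ∧ ∀ i ≤ N, u 0 * sq ι w i = u i := by
  induction N with
  | zero =>
    refine ⟨[], rfl, fun i hi => ?_⟩
    rw [Nat.le_zero.1 hi, sq_zero, mul_one]
  | succ N ih =>
    obtain ⟨w, h1, h2⟩ := ih (fun i hi => h i (by omega))
    obtain ⟨a, ha⟩ := h N (by omega)
    refine ⟨w ++ [a], by simp [h1], fun i hi => ?_⟩
    rcases Nat.lt_or_ge i (N + 1) with h3 | h3
    · rw [sq, List.take_append_of_le_length (by omega)]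
      exact h2 i (by omega)
    · have h4 := h2 N le_rfl
      rw [sq_of_le h1.le] at h4
      rw [le_antisymm hi h3, sq_of_le (by simp [h1]), ev_append, ← mul_assoc, h4, ev_cons, ev_nil,
        mul_one, ha, mul_inv_cancel_left]

/-- the discrete filling -/
theorem exists_grid [Group.IsFinitelyPresented G] {T : Set G} (hT : T.Finite) :
    ∃ B : Set G, B.Finite ∧ ∀ (N : ℕ) (u v : ℕ → G), u 0 = v 0 → u N = v N →
      (∀ i < N, (u i)⁻¹ * u (i + 1) ∈ T) → (∀ i < N, (v i)⁻¹ * v (i + 1) ∈ T) →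
      ∃ (m N' : ℕ) (V : ℕ → ℕ → G), (∀ i ≤ N, V 0 i = u i) ∧ (∀ k, m ≤ k → ∀ i ≤ N, V k i = v i) ∧
        (∀ k, V k 0 = u 0) ∧ (∀ k i, N' ≤ i ∨ (N ≤ i ∧ (k = 0 ∨ m ≤ k)) → V k i = u N) ∧
        ∀ k k' i i', k ≤ k' + 1 → k' ≤ k + 1 → i ≤ i' + 1 → i' ≤ i + 1 →
          (V k i)⁻¹ * V k' i' ∈ B := by
  obtain ⟨n, φ, hφ, hk⟩ := Group.IsFinitelyPresented.out (G := G)
  have := hT.to_subtype
  let ι : T ⊕ (Fin n × Bool) → G := Sum.elim Subtype.val (fun p => φ (FreeGroup.mk [p]))
  obtain ⟨L, hL⟩ := exists_L (ι := ι) φ hφ hk Sum.inr (fun _ => rfl)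
  refine ⟨bl ι (L + L + 1), bl_finite ι _, fun N u v h0 hN hu hv => ?_⟩
  obtain ⟨w, hw1, hw2⟩ := exists_list (ι := ι) u N (fun i hi => ⟨Sum.inl ⟨_, hu i hi⟩, rfl⟩)
  obtain ⟨w', hw1', hw2'⟩ := exists_list (ι := ι) v N (fun i hi => ⟨Sum.inl ⟨_, hv i hi⟩, rfl⟩)
  have he : u 0 * ev ι w = u N := by rw [← hw2 N le_rfl, sq_of_le hw1.le]
  have he' : u 0 * ev ι w' = u N := by rw [hN, ← hw2' N le_rfl, sq_of_le hw1'.le, h0]
  obtain ⟨m, N', W, h1, h2, h3, h4⟩ := exists_chain (hL w w' (mul_left_cancel (he.trans he'.symm)))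
  have h5 : ∀ k, ev ι (W k) = ev ι w := by
    intro k
    induction k with
    | zero => rw [h1]
    | succ k ih => rw [← (h3 k).1, ih]
  refine ⟨m, N', fun k i => u 0 * sq ι (W k) i, fun i hi => ?_, fun k hk i hi => ?_,
    fun k => mul_one _, fun k i h => ?_, fun k k' i i' j1 j2 j3 j4 => ?_⟩
  · simp only [h1]
    exact hw2 i hi
  · simp only [h2 k hk, h0]
    exact hw2' i hi
  · have : (W k).length ≤ i := by
      rcases h with h | ⟨h, rfl | h'⟩
      · exact (h4 k).trans h
      · rw [h1, hw1]; exact h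
      · rw [h2 k h', hw1']; exact h
    simp only [sq_of_le this, h5, he]
  · have h6 : Cl ι L (W k) (W k') := by
      rcases lt_trichotomy k k' with h | rfl | h
      · rw [show k' = k + 1 by omega]; exact h3 k
      · exact Cl.refl _
      · rw [show k = k' + 1 by omega]; exact (h3 k').symm
    simp only [mul_inv_rev, mul_assoc, inv_mul_cancel_left]
    exact tri (h6.2 i) (sq_close _ j3 j4)

end Crest.Agent.R185.AFp2
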