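import Crest.Agent.R185.ARips
import Crest.Agent.R185.AFp2Aux1

/-!
# R185 TASK AFp2: finitely presented groups are coarsely simply connected
-/

set_option autoImplicit false

namespace Crest.Agent.R185

open Set Metric Filter
open scoped _root_.Topology

variable {G : Type*} [Group G]

theorem afp2_floor {a a' : ℝ} (h : a < a' + 1) : ⌊a⌋₊ ≤ ⌊a'⌋₊ + 1 := by
  have h1 := Nat.lt_floor_add_one a'
  have h2 : ⌊a⌋₊ < ⌊a'⌋₊ + 2 := by
    rw [Nat.floor_lt' (by omega)]
    push_cast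
    linarith
  omega

theorem afp2_near {X : Type*} [TopologicalSpace X] {f : X → ℝ} {z : X} (hf : ContinuousAt f z) :
    ∀ᶠ z' in 𝓝 z, f z' < f z + 1 ∧ f z < f z' + 1 := by
  filter_upwards [hf.eventually (Ioo_mem_nhds (show f z - 1 < f z by linarith)
    (show f z < f z + 1 by linarith))] with z' h
  exact ⟨h.2, by linarith [h.1]⟩

theorem afp2_floor_near {X : Type*} [TopologicalSpace X] {f : X → ℝ} {z : X}
    (hf : ContinuousAt f z) : ∀ᶠ z' in 𝓝 z, ⌊f z⌋₊ ≤ ⌊f z'⌋₊ + 1 ∧ ⌊f z'⌋₊ ≤ ⌊f z⌋₊ + 1 :=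
  (afp2_near hf).mono fun _ h => ⟨afp2_floor h.2, afp2_floor h.1⟩

open scoped Pointwise in
theorem afp2_unif {A : Set G} {γ : ℝ → G} (h : BC A γ (Icc 0 1)) :
    ∃ δ > 0, ∀ s ∈ Icc (0 : ℝ) 1, ∀ t ∈ Icc (0 : ℝ) 1, |t - s| < δ → (γ s)⁻¹ * γ t ∈ A⁻¹ * A := by
  obtain ⟨V, hV, h1⟩ := lebesgue_number_lemma_nhdsWithin (K := Icc (0 : ℝ) 1)
    (U := fun z => {z' | (γ z)⁻¹ * γ z' ∈ A}) isCompact_Icc h
  obtain ⟨δ, hδ, h2⟩ := Metric.mem_uniformity_dist.1 hV
  refine ⟨δ, hδ, fun s hs t ht hst => ?_⟩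
  obtain ⟨y, hy⟩ := h1 s hs
  have h3 : (γ y)⁻¹ * γ s ∈ A := hy ⟨h2 (by simpa using hδ), hs⟩
  have h4 : (γ y)⁻¹ * γ t ∈ A := hy ⟨h2 (by rwa [Real.dist_eq, abs_sub_comm]), ht⟩
  refine ⟨_, Set.inv_mem_inv.2 h3, _, h4, ?_⟩
  simp only
  group

theorem afp2_bc_comp {X Y : Type*} [TopologicalSpace X] [TopologicalSpace Y] {A : Set G}
    {γ : X → G} {K : Set X} (h : BC A γ K) {c : Y → X} (hc : Continuous c) {L : Set Y}
    (hm : MapsTo c L K) : BC A (γ ∘ c) L :=
  fun z hz => (hc.continuousWithinAt.tendsto_nhdsWithin hm).eventually (h (c z) (hm hz))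

/-- the two arcs from `(-1, -1)` to `(1, 1)` -/
noncomputable def afp2_c (ε : ℝ) (s : ℝ) : Fin 2 → ℝ :=
  ![(4 * s - 2 - ε * (2 - |4 * s - 2|)) / 2, (4 * s - 2 + ε * (2 - |4 * s - 2|)) / 2]

/-- the coordinate along the arcs -/
noncomputable def afp2_s (x : Fin 2 → ℝ) : ℝ := (x 0 + x 1 + 2) / 4

/-- the half width -/
noncomputable def afp2_D (x : Fin 2 → ℝ) : ℝ := 2 - |x 0 + x 1|

/-- the transverse coordinate -/
noncomputable def afp2_t (x : Fin 2 → ℝ) : ℝ := (x 1 - x 0 + afp2_D x) / (2 * afp2_D x)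

theorem afp2_norm (x : Fin 2 → ℝ) : ‖x‖ = max |x 0| |x 1| := by
  apply le_antisymm
  · refine (pi_norm_le_iff_of_nonneg (le_max_of_le_left (abs_nonneg _))).2 (fun i => ?_)
    fin_cases i
    · exact le_max_left _ _
    · exact le_max_right _ _
  · exact max_le (norm_le_pi_norm x 0) (norm_le_pi_norm x 1)

theorem afp2_max (a b : ℝ) : 2 * max |a| |b| = |a + b| + |b - a| := by
  rcases le_total |a| |b| with h | h
  · rw [max_eq_right h]
    rcases abs_cases a with ha | ha <;> rcases abs_cases b with hb | hb <;>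
      rcases abs_cases (a + b) with hc | hc <;> rcases abs_cases (b - a) with hd | hd <;> linarith
  · rw [max_eq_left h]
    rcases abs_cases a with ha | ha <;> rcases abs_cases b with hb | hb <;>
      rcases abs_cases (a + b) with hc | hc <;> rcases abs_cases (b - a) with hd | hd <;> linarith

theorem afp2_mem_bal {x : Fin 2 → ℝ} : x ∈ closedBall (0 : Fin 2 → ℝ) 1 ↔
    |x 1 - x 0| ≤ afp2_D x := by
  have := afp2_max (x 0) (x 1)
  rw [mem_closedBall_zero_iff, afp2_norm, afp2_D]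
  constructor <;> intro h <;> linarith

theorem afp2_mem_sph {x : Fin 2 → ℝ} : x ∈ sphere (0 : Fin 2 → ℝ) 1 ↔
    |x 1 - x 0| = afp2_D x := by
  have := afp2_max (x 0) (x 1)
  rw [mem_sphere_zero_iff_norm, afp2_norm, afp2_D]
  constructor <;> intro h <;> linarith

theorem afp2_c_cont (ε : ℝ) : Continuous (afp2_c ε) := by
  refine continuous_pi (fun i => ?_)
  fin_cases i <;> simp only [afp2_c] <;> simp <;> fun_prop

theorem afp2_c_mem {ε : ℝ} (hε : |ε| = 1) : MapsTo (afp2_c ε) (Icc 0 1) (sphere 0 1) := by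
  intro s hs
  have h1 : |4 * s - 2| ≤ 2 := abs_le.2 ⟨by linarith [hs.1], by linarith [hs.2]⟩
  have h2 : afp2_c ε s 0 + afp2_c ε s 1 = 4 * s - 2 := by simp [afp2_c]; ring
  have h3 : afp2_c ε s 1 - afp2_c ε s 0 = ε * (2 - |4 * s - 2|) := by simp [afp2_c]; ring
  rw [afp2_mem_sph, afp2_D, h2, h3, abs_mul, hε, one_mul, abs_of_nonneg (by linarith)]

theorem afp2_c_eq {ε : ℝ} {x : Fin 2 → ℝ} (h : x 1 - x 0 = ε * afp2_D x) :
    afp2_c ε (afp2_s x) = x := by
  have h1 : 4 * afp2_s x - 2 = x 0 + x 1 := by unfold afp2_s; ring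
  unfold afp2_D at h
  funext i
  fin_cases i <;> simp [afp2_c, h1] <;> linarith

theorem afp2_s_cont : Continuous afp2_s := by unfold afp2_s; fun_prop

theorem afp2_D_cont : Continuous afp2_D := by unfold afp2_D; fun_prop

theorem afp2_t_cont {z : Fin 2 → ℝ} (h : afp2_D z ≠ 0) : ContinuousAt afp2_t z := by
  unfold afp2_t
  have := afp2_D_cont
  exact ContinuousAt.div (by fun_prop) (by fun_prop) (by simpa using h)

theorem afp2_s_mem {x : Fin 2 → ℝ} (h : x ∈ closedBall (0 : Fin 2 → ℝ) 1) :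
    afp2_s x ∈ Icc (0 : ℝ) 1 := by
  have h1 := (abs_nonneg _).trans (afp2_mem_bal.1 h)
  unfold afp2_D at h1
  have h2 := abs_le.1 (show |x 0 + x 1| ≤ 2 by linarith)
  unfold afp2_s
  constructor <;> linarith [h2.1, h2.2]

theorem afp2_t_mem {x : Fin 2 → ℝ} (h : x ∈ closedBall (0 : Fin 2 → ℝ) 1) :
    afp2_t x ∈ Icc (0 : ℝ) 1 := by
  have h1 := afp2_mem_bal.1 h
  have h2 := abs_le.1 h1
  have h3 := (abs_nonneg _).trans h1
  unfold afp2_t
  exact ⟨div_nonneg (by linarith [h2.1]) (by linarith),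
    div_le_one_of_le₀ (by linarith [h2.2]) (by linarith)⟩

theorem afp2_glue {n : ℕ} {A B : Set G} {γ W : (Fin n → ℝ) → G} (hAB : A ⊆ B)
    (hγ : BC A γ (sphere 0 1))
    (h1 : ∀ z ∈ sphere (0 : Fin n → ℝ) 1, ∀ᶠ z' in 𝓝 z, z' ∈ closedBall (0 : Fin n → ℝ) 1 →
      (γ z)⁻¹ * W z' ∈ B)
    (h2 : ∀ z ∈ closedBall (0 : Fin n → ℝ) 1, z ∉ sphere (0 : Fin n → ℝ) 1 →
      ∀ᶠ z' in 𝓝 z, (W z)⁻¹ * W z' ∈ B) :
    ∃ Γ : (Fin n → ℝ) → G, BC B Γ (closedBall 0 1) ∧ EqOn Γ γ (sphere 0 1) := by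
  classical
  refine ⟨fun x => if x ∈ sphere (0 : Fin n → ℝ) 1 then γ x else W x, fun z hz => ?_,
    fun x hx => if_pos hx⟩
  rw [eventually_nhdsWithin_iff]
  by_cases hs : z ∈ sphere (0 : Fin n → ℝ) 1
  · filter_upwards [h1 z hs, eventually_nhdsWithin_iff.1 (hγ z hs)] with z' k1 k2 hz'
    simp only [if_pos hs]
    split_ifs with h
    · exact hAB (k2 h)
    · exact k1 hz'
  · filter_upwards [h2 z hz hs, isClosed_sphere.isOpen_compl.mem_nhds hs] with z' k1 k2 _
    simp only [if_neg hs, if_neg (show z' ∉ sphere (0 : Fin n → ℝ) 1 from k2)]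
    exact k1

/-- `j = 0` is trivial; for `j = 1` join the two values by a word and let `Γ` be piecewise constant. -/
theorem cc_one_of_fg [Group.FG G] : CC G 1 := by
  intro A _
  obtain ⟨S, hS, hSf⟩ := Group.fg_iff.1 (inferInstance : Group.FG G)
  have := hSf.to_subtype
  let ι : S × Bool → G := fun p => if p.2 then p.1 else (p.1 : G)⁻¹
  refine ⟨AFp2.bl ι 1, AFp2.bl_finite ι 1, fun j hj γ _ => ?_⟩
  rcases Nat.le_one_iff_eq_zero_or_eq_one.1 hj with rfl | rfl
  · refine ⟨fun _ => 1, fun z _ => Eventually.of_forall (fun _ => ?_), fun x hx => ?_⟩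
    · rw [inv_mul_cancel]
      exact AFp2.one_mem_bl 1
    · rw [mem_sphere_zero_iff_norm, Subsingleton.elim x 0, norm_zero] at hx
      exact absurd hx zero_ne_one
  · have hw : ∀ g : G, ∃ w, AFp2.ev ι w = g := by
      intro g
      have hg : g ∈ Submonoid.closure (Set.range ι) := by
        have h1 : g ∈ (Subgroup.closure S).toSubmonoid := by rw [hS]; trivial
        rw [Subgroup.closure_toSubmonoid] at h1
        refine Submonoid.closure_mono ?_ h1
        rintro x (hx | hx)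
        · exact ⟨(⟨x, hx⟩, true), rfl⟩
        · exact ⟨(⟨x⁻¹, hx⟩, false), inv_inv x⟩
      induction hg using Submonoid.closure_induction with
      | mem x hx => obtain ⟨a, rfl⟩ := hx; exact ⟨[a], mul_one _⟩
      | one => exact ⟨[], rfl⟩
      | mul x y _ _ hx hy =>
        obtain ⟨u, rfl⟩ := hx
        obtain ⟨w, rfl⟩ := hy
        exact ⟨u ++ w, AFp2.ev_append ι u w⟩
    obtain ⟨w, hw⟩ := hw ((γ (fun _ => -1))⁻¹ * γ (fun _ => 1))
    refine ⟨fun x => γ (fun _ => -1) * AFp2.sq ι w ⌊w.length * ((x 0 + 1) / 2)⌋₊,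
      fun z _ => ?_, fun x hx => ?_⟩
    · refine ((afp2_floor_near (f := fun x : Fin 1 → ℝ => w.length * ((x 0 + 1) / 2))
        (z := z) (Continuous.continuousAt (by fun_prop))).mono fun z' h => ?_).filter_mono nhdsWithin_le_nhds
      simp only [mul_inv_rev, mul_assoc, inv_mul_cancel_left]
      exact AFp2.sq_close w h.1 h.2
    · have h1 : x = fun _ => x 0 := funext fun i => by rw [Subsingleton.elim i 0]
      rw [mem_sphere_zero_iff_norm, h1, pi_norm_const, Real.norm_eq_abs] at hx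
      rcases eq_or_eq_neg_of_abs_eq hx with h | h
      · have h2 : (w.length : ℝ) * ((x 0 + 1) / 2) = w.length := by rw [h]; ring
        simp only [h2, Nat.floor_natCast]
        rw [AFp2.sq_of_le le_rfl, hw, mul_inv_cancel_left, h1, h]
      · have h2 : (w.length : ℝ) * ((x 0 + 1) / 2) = 0 := by rw [h]; ring
        simp only [h2, Nat.floor_zero]
        rw [AFp2.sq_zero, mul_one, h1, h]

open scoped Pointwise in
theorem afp2_two [Group.IsFinitelyPresented G] {A : Set G} (hA : A.Finite) :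
    ∃ B : Set G, B.Finite ∧ ∀ γ : (Fin 2 → ℝ) → G, BC A γ (sphere 0 1) →
      ∃ Γ : (Fin 2 → ℝ) → G, BC B Γ (closedBall 0 1) ∧ EqOn Γ γ (sphere 0 1) := by
  have hT : (A⁻¹ * A).Finite := hA.inv.mul hA
  obtain ⟨B, hB, hgrid⟩ := AFp2.exists_grid hT
  refine ⟨A ∪ (A⁻¹ * A ∪ B), hA.union (hT.union hB), fun γ hγ => ?_⟩
  obtain ⟨δ₁, hδ₁, h₁⟩ := afp2_unif (afp2_bc_comp hγ (afp2_c_cont (-1)) (afp2_c_mem (by simp)))
  obtain ⟨δ₂, hδ₂, h₂⟩ := afp2_unif (afp2_bc_comp hγ (afp2_c_cont 1) (afp2_c_mem (by simp)))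
  obtain ⟨N, hN⟩ := exists_nat_gt (2 / min δ₁ δ₂)
  have hδ : 0 < min δ₁ δ₂ := lt_min hδ₁ hδ₂
  have hN0 : (0 : ℝ) < N := lt_trans (by positivity) hN
  have hNδ : 2 / (N : ℝ) < min δ₁ δ₂ := by
    rw [div_lt_iff₀ hδ] at hN
    rw [div_lt_iff₀ hN0]
    linarith
  have hc : ∀ ε : ℝ, ε = -1 ∨ ε = 1 → ∀ s ∈ Icc (0 : ℝ) 1, ∀ i : ℕ, i ≤ N → |i - s * N| < 2 →
      (γ (afp2_c ε s))⁻¹ * γ (afp2_c ε (i / N)) ∈ A⁻¹ * A := by
    intro ε hε s hs i hi h
    have h3 : (i : ℝ) / N ∈ Icc (0 : ℝ) 1 :=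
      ⟨by positivity, div_le_one_of_le₀ (by exact_mod_cast hi) hN0.le⟩
    have h4 : |i / N - s| < min δ₁ δ₂ := by
      refine lt_trans ?_ hNδ
      rw [show (i : ℝ) / N - s = (i - s * N) / N by field_simp, abs_div, abs_of_pos hN0]
      exact div_lt_div_of_pos_right h hN0
    rcases hε with rfl | rfl
    · exact h₁ s hs _ h3 (h4.trans_le (min_le_left _ _))
    · exact h₂ s hs _ h3 (h4.trans_le (min_le_right _ _))
  have hstep : ∀ ε : ℝ, ε = -1 ∨ ε = 1 → ∀ i < N,
      (γ (afp2_c ε ((i : ℕ) / N)))⁻¹ * γ (afp2_c ε ((i + 1 : ℕ) / N)) ∈ A⁻¹ * A := by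
    intro ε hε i hi
    refine hc ε hε _ ⟨by positivity, div_le_one_of_le₀ (by exact_mod_cast hi.le) hN0.le⟩ _ hi ?_
    rw [div_mul_cancel₀ _ hN0.ne']
    simp
  have hc0 : ∀ ε : ℝ, afp2_c ε 0 = afp2_c (-1) 0 := fun ε => by
    simp [afp2_c]
  have hc1 : ∀ ε : ℝ, afp2_c ε 1 = afp2_c (-1) 1 := fun ε => by
    simp [afp2_c]; norm_num
  obtain ⟨m, N', V, v1, v2, v3, v4, v5⟩ := hgrid N (fun i => γ (afp2_c (-1) (i / N)))
    (fun i => γ (afp2_c 1 (i / N))) (by simp only [Nat.cast_zero, zero_div, hc0 1])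
    (by simp only [div_self hN0.ne', hc1 1]) (hstep _ (Or.inl rfl)) (hstep _ (Or.inr rfl))
  simp only [Nat.cast_zero, zero_div, div_self hN0.ne'] at v3 v4
  let a : (Fin 2 → ℝ) → ℝ := fun x => (3 * afp2_t x - 1) * m
  let M : (Fin 2 → ℝ) → ℝ := fun x => N + 5 * N' * (afp2_t x * (1 - afp2_t x))
  let b : (Fin 2 → ℝ) → ℝ := fun x => afp2_s x * M x
  have ha : ∀ z, afp2_D z ≠ 0 → ContinuousAt a z := fun z hz => by
    have := afp2_t_cont hz
    fun_prop
  have hb : ∀ z, afp2_D z ≠ 0 → ContinuousAt b z := fun z hz => by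
    have := afp2_t_cont hz
    have := afp2_s_cont
    fun_prop
  have hm0 : (0 : ℝ) ≤ m := Nat.cast_nonneg m
  have hN'0 : (0 : ℝ) ≤ N' := Nat.cast_nonneg N'
  have ha0 : ∀ x, afp2_t x ≤ 1 / 3 → ⌊a x⌋₊ = 0 := fun x hx =>
    Nat.floor_of_nonpos (mul_nonpos_of_nonpos_of_nonneg (by linarith) hm0)
  have ha1 : ∀ x, 2 / 3 ≤ afp2_t x → m ≤ ⌊a x⌋₊ := fun x hx =>
    Nat.le_floor (le_mul_of_one_le_left hm0 (by linarith))
  have hM : ∀ x ∈ closedBall (0 : Fin 2 → ℝ) 1, N ≤ M x ∧ M x ≤ N + 5 * N' := by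
    intro x hx
    obtain ⟨t0, t1⟩ := afp2_t_mem hx
    have h3 : 0 ≤ afp2_t x * (1 - afp2_t x) := mul_nonneg t0 (by linarith)
    have h4 : afp2_t x * (1 - afp2_t x) ≤ 1 := by nlinarith
    have h5 := mul_nonneg hN'0 h3
    have h6 := mul_le_mul_of_nonneg_left h4 hN'0
    constructor <;> simp only [M] <;> linarith
  refine afp2_glue (W := fun x => V ⌊a x⌋₊ ⌊b x⌋₊) subset_union_left hγ (fun z hz => ?_)
    (fun z hz hz' => ?_)
  · have hz' := afp2_mem_sph.1 hz
    have hs := afp2_s_mem (sphere_subset_closedBall hz)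
    by_cases hD : afp2_D z = 0
    · have h3 : afp2_c (-1) (afp2_s z) = z :=
        afp2_c_eq (by rw [hD] at hz' ⊢; rw [abs_eq_zero.1 hz', mul_zero])
      have h4 : afp2_s z = 0 ∨ afp2_s z = 1 := by
        unfold afp2_D at hD
        unfold afp2_s
        rcases abs_cases (z 0 + z 1) with h | h
        · right; linarith [h.1]
        · left; linarith [h.1]
      rcases h4 with h4 | h4
      · have h5 : ContinuousAt (fun x => afp2_s x * (N + 5 * N')) z := by
          have := afp2_s_cont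
          fun_prop
        filter_upwards [h5.eventually_lt continuousAt_const
          (show afp2_s z * (N + 5 * N') < 1 by rw [h4]; simp)] with z' k1 k2
        have h6 : ⌊b z'⌋₊ = 0 := Nat.floor_eq_zero.2 (lt_of_le_of_lt
          (mul_le_mul_of_nonneg_left (hM z' k2).2 (afp2_s_mem k2).1) k1)
        rw [← h3, h4, ← v3 ⌊a z'⌋₊, h6]
        exact Or.inr (Or.inr (v5 _ _ _ _ (by omega) (by omega) (by omega) (by omega)))
      · have h5 : ContinuousAt (fun x => (1 - afp2_s x) * (N + 5 * N')) z := by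
          have := afp2_s_cont
          fun_prop
        filter_upwards [h5.eventually_lt continuousAt_const
          (show (1 - afp2_s z) * (N + 5 * N') < 1 by rw [h4]; simp)] with z' k1 k2
        have h6 : M z' < b z' + 1 := by
          have := mul_le_mul_of_nonneg_left (hM z' k2).2 (sub_nonneg.2 (afp2_s_mem k2).2)
          simp only [b]
          linarith
        have h7 := afp2_floor h6
        have h8 : N ≤ ⌊M z'⌋₊ := Nat.le_floor (hM z' k2).1
        have h9 : V ⌊a z'⌋₊ (⌊b z'⌋₊ + 1) = γ (afp2_c (-1) 1) := by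
          refine v4 _ _ ?_
          rcases le_total (afp2_t z') (1 / 3) with t1 | t1
          · exact Or.inr ⟨by omega, Or.inl (ha0 z' t1)⟩
          rcases le_total (2 / 3) (afp2_t z') with t2 | t2
          · exact Or.inr ⟨by omega, Or.inr (ha1 z' t2)⟩
          have k3 : 1 ≤ 5 * (afp2_t z' * (1 - afp2_t z')) := by nlinarith
          have k4 : N' ≤ ⌊M z'⌋₊ := Nat.le_floor (by
            have := mul_le_mul_of_nonneg_left k3 hN'0
            simp only [M]
            linarith)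
          exact Or.inl (by omega)
        rw [← h3, h4, ← h9]
        exact Or.inr (Or.inr (v5 _ _ _ _ (by omega) (by omega) (by omega) (by omega)))
    · have hD0 : 0 < afp2_D z := lt_of_le_of_ne (hz' ▸ abs_nonneg _) (Ne.symm hD)
      have hs1 : afp2_s z < 1 := by
        unfold afp2_D at hD0
        unfold afp2_s
        linarith [le_abs_self (z 0 + z 1)]
      have key : ∀ ε : ℝ, ε = -1 ∨ ε = 1 → z 1 - z 0 = ε * afp2_D z →
          afp2_t z * (1 - afp2_t z) = 0 → ∀ᶠ z' in 𝓝 z, z' ∈ closedBall (0 : Fin 2 → ℝ) 1 →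
            ⌊b z'⌋₊ ≤ N ∧ (γ z)⁻¹ * γ (afp2_c ε (⌊b z'⌋₊ / N)) ∈ A⁻¹ * A := by
        intro ε hε h3 h4
        have h5 : b z = afp2_s z * N := by simp only [b, M, h4, mul_zero, add_zero]
        filter_upwards [afp2_near (hb z hD), (hb z hD).eventually_lt continuousAt_const
          (show b z < N by rw [h5]; exact mul_lt_of_lt_one_left hN0 hs1)] with z' k1 k2 k3
        have k4 : ⌊b z'⌋₊ ≤ N := Nat.floor_le_of_le k2.le
        refine ⟨k4, ?_⟩
        refine (afp2_c_eq h3) ▸ hc ε hε _ hs _ k4 ?_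
        have k5 : 0 ≤ b z' := mul_nonneg (afp2_s_mem k3).1 (hN0.le.trans (hM z' k3).1)
        have k6 := Nat.floor_le k5
        have k7 := Nat.lt_floor_add_one (b z')
        rw [← h5, abs_lt]
        constructor <;> linarith [k1.1, k1.2]
      rcases eq_or_eq_neg_of_abs_eq hz' with h3 | h3
      · have h4 : afp2_t z = 1 := by
          unfold afp2_t
          rw [h3]
          field_simp
          ring
        filter_upwards [key 1 (Or.inr rfl) (by rw [h3, one_mul]) (by rw [h4]; ring),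
          continuousAt_const.eventually_lt (afp2_t_cont hD)
            (show 2 / 3 < afp2_t z by rw [h4]; norm_num)] with z' k1 k2 k3
        rw [v2 _ (ha1 z' k2.le) _ (k1 k3).1]
        exact Or.inr (Or.inl (k1 k3).2)
      · have h4 : afp2_t z = 0 := by
          unfold afp2_t
          rw [h3]
          simp
        filter_upwards [key (-1) (Or.inl rfl) (by rw [h3, neg_one_mul]) (by rw [h4]; ring),
          (afp2_t_cont hD).eventually_lt continuousAt_const
            (show afp2_t z < 1 / 3 by rw [h4]; norm_num)] with z' k1 k2 k3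
        rw [ha0 z' k2.le, v1 _ (k1 k3).1]
        exact Or.inr (Or.inl (k1 k3).2)
  · have hD : afp2_D z ≠ 0 := by
      intro h
      have h3 := afp2_mem_bal.1 hz
      exact hz' (afp2_mem_sph.2 (le_antisymm h3 (h ▸ abs_nonneg _)))
    filter_upwards [afp2_floor_near (ha z hD), afp2_floor_near (hb z hD)] with z' k1 k2
    exact Or.inr (Or.inr (v5 _ _ _ _ k1.1 k1.2 k2.1 k2.2))

/-- *Discrete homotopies.*  Call `v w : ℕ → G` `B`-close if all of `v i, v (i+1), w i, w (i+1)` are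
pairwise `B`-close.  With `S` a finite generating set, `R` a finite set of relators of length
`≤ L` and `B` the ball of radius `2 L + 2`: every eventually constant `v` with `v 0 = lim v` and
steps in `S ∪ S⁻¹ ∪ {1}` is joined to the constant sequence by a finite chain of `B`-close such
sequences (all with the same value at `0` and the same limit): a trivial word is a product of
conjugates of relators; free reductions, insertions and deletions of relators and shifts of a
pause are single moves.  Steps in a finite set `A'` are first replaced by words (padding).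
*Geometry.*  Parametrise the boundary of the square by a continuous `c : [0,1] → Sph 2`, onto,
`c 0 = c 1`, with a section `θ : Sph 2 → [0,1)` that is continuous off `c 0`.  By a Lebesgue number
argument there is `N` such that `v i = γ (c (i / N))` has steps in `A' = A⁻¹ A` and `γ x` is
`A'`-close to `v ⌊N θ x⌋`.  If `v = v⁰, …, v^m = const` is the chain (after padding, parametrised
by `i < N'`), put `Γ x = γ x` on the sphere, `Γ x = v^k ⌊N' θ (x/‖x‖)⌋` with
`k = min m ⌊2 m (1 - ‖x‖)⌋` in the open ball.  (Any other proof is fine, e.g. working directly with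
a fine grid on the four sides.) -/
theorem cc_two_of_fp [Group.IsFinitelyPresented G] : CC G 2 := by
  intro A hA
  have : Group.FG G := by
    obtain ⟨n, φ, hφ, -⟩ := Group.IsFinitelyPresented.out (G := G)
    exact Group.fg_of_surjective hφ
  obtain ⟨B₁, hB₁, h₁⟩ := cc_one_of_fg (G := G) A hA
  obtain ⟨B₂, hB₂, h₂⟩ := afp2_two hA
  refine ⟨B₁ ∪ B₂, hB₁.union hB₂, fun j hj γ hγ => ?_⟩
  rcases Nat.lt_or_ge j 2 with h | h
  · obtain ⟨Γ, k1, k2⟩ := h₁ j (by omega) γ hγ
    exact ⟨Γ, k1.mono subset_union_left subset_rfl, k2⟩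
  · obtain rfl : j = 2 := le_antisymm hj h
    obtain ⟨Γ, k1, k2⟩ := h₂ γ hγ
    exact ⟨Γ, k1.mono subset_union_right subset_rfl, k2⟩

end Crest.Agent.R185
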