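import Crest.Agent.R185.AR

/-!
# R185 TASK AH: simplices and cylinders are balls
-/

set_option autoImplicit false

namespace Crest.Agent.R185

open Set Metric Filter
open scoped _root_.Topology

/-- the corner simplex -/
def ah_S (k : ℕ) : Set (Fin k → ℝ) := {x | (∀ i, 0 ≤ x i) ∧ ∑ i, x i ≤ 1}

theorem ah_exists_pos {E : Type*} [TopologicalSpace E] {S : Set E} {x : E} (hx : x ∈ interior S)
    {γ : ℝ → E} (hγ : Continuous γ) (h0 : γ 0 = x) : ∃ t, 0 < t ∧ γ t ∈ S := by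
  have h1 : ∀ᶠ t in 𝓝 (0 : ℝ), γ t ∈ S :=
    hγ.continuousAt.preimage_mem_nhds (h0 ▸ mem_interior_iff_mem_nhds.1 hx)
  obtain ⟨t, h2, h3⟩ := ((h1.filter_mono (nhdsWithin_le_nhds (s := Ioi 0))).and
    self_mem_nhdsWithin).exists
  exact ⟨t, h3, h2⟩

theorem ah_interior (k : ℕ) : interior (ah_S k) = {x | (∀ i, 0 < x i) ∧ ∑ i, x i < 1} := by
  apply Subset.antisymm
  · intro x hx
    have hS := interior_subset hx
    refine ⟨fun i => ?_, ?_⟩
    · obtain ⟨t, h1, h2⟩ := ah_exists_pos hx (γ := fun t i => x i - t) (by fun_prop) (by simp)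
      have := h2.1 i
      linarith
    · obtain ⟨t, h1, h2⟩ := ah_exists_pos hx (γ := fun t i => (1 + t) * x i) (by fun_prop) (by simp)
      have h3 := h2.2
      rw [← Finset.mul_sum] at h3
      by_contra h4
      nlinarith
  · refine interior_maximal (fun x hx => ⟨fun i => (hx.1 i).le, hx.2.le⟩) ?_
    simp only [ofPred_and, ofPred_forall]
    exact (isOpen_iInter_of_finite fun i => isOpen_lt continuous_const (continuous_apply i)).inter
      (isOpen_lt (by fun_prop) continuous_const)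

theorem ah_closed (k : ℕ) : IsClosed (ah_S k) := by
  simp only [ah_S, ofPred_and, ofPred_forall]
  exact (isClosed_iInter fun i => isClosed_le continuous_const (continuous_apply i)).inter
    (isClosed_le (by fun_prop) continuous_const)

theorem ah_homeo (k : ℕ) : ∃ H : (Fin k → ℝ) ≃ₜ (Fin k → ℝ), (∀ x, H x ∈ Bal k ↔ x ∈ ah_S k) ∧
    ∀ x ∈ ah_S k, (H x ∈ Sph k ↔ (∃ i, x i = 0) ∨ ∑ i, x i = 1) := by
  have hc : Convex ℝ (ah_S k) := by
    intro x hx y hy a b ha hb hab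
    refine ⟨fun i => add_nonneg (mul_nonneg ha (hx.1 i)) (mul_nonneg hb (hy.1 i)), ?_⟩
    simp only [Pi.add_apply, Pi.smul_apply, smul_eq_mul, Finset.sum_add_distrib, ← Finset.mul_sum]
    nlinarith [mul_le_mul_of_nonneg_left hx.2 ha, mul_le_mul_of_nonneg_left hy.2 hb]
  have hne : (interior (ah_S k)).Nonempty := by
    rw [ah_interior]
    refine ⟨fun _ => 1 / ((k : ℝ) + 1), fun _ => by positivity, ?_⟩
    rw [Finset.sum_const, Finset.card_univ, Fintype.card_fin, nsmul_eq_mul, mul_one_div,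
      div_lt_one (by positivity)]
    linarith
  have hb : Bornology.IsBounded (ah_S k) := by
    refine (isBounded_closedBall (x := (0 : Fin k → ℝ)) (r := 1)).subset fun x hx => ?_
    rw [mem_closedBall_zero_iff, pi_norm_le_iff_of_nonneg zero_le_one]
    intro i
    rw [Real.norm_of_nonneg (hx.1 i)]
    exact (Finset.single_le_sum (fun j _ => hx.1 j) (Finset.mem_univ i)).trans hx.2
  obtain ⟨H, -, h2, h3⟩ := exists_homeomorph_image_interior_closure_frontier_eq_unitBall hc hne hb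
  rw [(ah_closed k).closure_eq] at h2
  rw [(ah_closed k).frontier_eq, ah_interior] at h3
  refine ⟨H, fun x => ?_, fun x hx => ?_⟩
  · rw [Bal, ← h2, H.injective.mem_set_image]
  · rw [Sph, ← h3, H.injective.mem_set_image, Set.mem_sdiff, and_iff_right hx, mem_ofPred_eq, not_and_or,
      not_forall]
    refine or_congr (exists_congr fun i => ?_) ?_
    · exact ⟨fun h => le_antisymm (not_lt.1 h) (hx.1 i), fun h => h ▸ lt_irrefl _⟩
    · exact ⟨fun h => le_antisymm hx.2 (not_lt.1 h), fun h => h ▸ lt_irrefl _⟩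

theorem ah_lin {A : Type*} (σ : Finset A) (k : ℕ) (hσ : σ.card = k + 1) :
    ∃ (φ : (Fin k → ℝ) → A → ℝ) (ψ : (A → ℝ) → Fin k → ℝ), Continuous φ ∧ Continuous ψ ∧
      MapsTo φ (ah_S k) (Spx σ) ∧ MapsTo ψ (Spx σ) (ah_S k) ∧ (∀ x, ψ (φ x) = x) ∧
      (∀ y ∈ Spx σ, φ (ψ y) = y) ∧
      ∀ x, ((∃ a ∈ σ, φ x a = 0) ↔ (∃ i, x i = 0) ∨ ∑ i, x i = 1) := by
  classical
  let e : σ ≃ Fin (k + 1) := σ.equivFinOfCardEq hσ
  let c : (Fin k → ℝ) → Fin (k + 1) → ℝ := fun x => Fin.cons (1 - ∑ i, x i) x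
  let φ : (Fin k → ℝ) → A → ℝ := fun x a => if h : a ∈ σ then c x (e ⟨a, h⟩) else 0
  have hφ : ∀ x (j : Fin (k + 1)), φ x (e.symm j) = c x j := fun x j => by
    simp only [φ, dif_pos (e.symm j).2, Subtype.coe_eta, Equiv.apply_symm_apply]
  have hsum : ∀ y : A → ℝ, ∑ a ∈ σ, y a = y (e.symm 0) + ∑ i : Fin k, y (e.symm i.succ) := by
    intro y
    rw [← Finset.sum_coe_sort σ, ← e.symm.sum_comp, Fin.sum_univ_succ]
  refine ⟨φ, fun y i => y (e.symm i.succ), ?_, by fun_prop, ?_, ?_, ?_, ?_, ?_⟩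
  · refine continuous_pi fun a => ?_
    by_cases h : a ∈ σ
    · simp only [φ, dif_pos h]
      refine Fin.cases (motive := fun j => Continuous fun x => c x j) ?_ (fun i => ?_) (e ⟨a, h⟩)
      · simp only [c, Fin.cons_zero]
        fun_prop
      · simp only [c, Fin.cons_succ]
        fun_prop
    · simp only [φ, dif_neg h]
      exact continuous_const
  · intro x hx
    refine ⟨fun a => ?_, fun a h => dif_neg h, ?_⟩
    · by_cases h : a ∈ σ
      · simp only [φ, dif_pos h]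
        refine Fin.cases (motive := fun j => 0 ≤ c x j) ?_ (fun i => ?_) (e ⟨a, h⟩)
        · exact sub_nonneg.2 hx.2
        · exact hx.1 i
      · simp only [φ, dif_neg h, le_refl]
    · rw [hsum]
      simp only [hφ, c, Fin.cons_zero, Fin.cons_succ, sub_add_cancel]
  · intro y hy
    refine ⟨fun i => hy.1 _, ?_⟩
    have h1 := hy.2.2
    have h2 := hy.1 (e.symm 0)
    rw [hsum] at h1
    linarith
  · intro x
    funext i
    simp only [hφ, c, Fin.cons_succ]
  · intro y hy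
    funext a
    by_cases h : a ∈ σ
    · obtain ⟨j, hj⟩ := e.symm.surjective ⟨a, h⟩
      rw [show a = e.symm j from (congrArg Subtype.val hj).symm, hφ]
      refine Fin.cases (motive := fun j => c (fun i => y (e.symm i.succ)) j = y (e.symm j))
        ?_ (fun i => rfl) j
      have h1 := hy.2.2
      rw [hsum] at h1
      simp only [c, Fin.cons_zero]
      linarith
    · rw [hy.2.1 a h]
      exact dif_neg h
  · intro x
    constructor
    · rintro ⟨a, h, h0⟩
      obtain ⟨j, hj⟩ := e.symm.surjective ⟨a, h⟩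
      rw [show a = e.symm j from (congrArg Subtype.val hj).symm, hφ] at h0
      revert h0
      refine Fin.cases (motive := fun j => c x j = 0 → (∃ i, x i = 0) ∨ ∑ i, x i = 1)
        (fun h0 => Or.inr ?_) (fun i h0 => Or.inl ⟨i, h0⟩) j
      simp only [c, Fin.cons_zero] at h0
      linarith
    · rintro (⟨i, hi⟩ | h)
      · exact ⟨e.symm i.succ, (e.symm i.succ).2, (hφ x _).trans hi⟩
      · refine ⟨e.symm 0, (e.symm 0).2, (hφ x _).trans ?_⟩
        simp only [c, Fin.cons_zero, h, sub_self]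

/-- Identify `Spx σ` with `{x : Fin k → ℝ | 0 ≤ x i, ∑ x i ≤ 1}` (drop one coordinate) and use
`exists_homeomorph_image_interior_closure_frontier_eq_unitBall` (for `k = 0` everything is a
point and the sphere is empty). -/
theorem exists_spx_param {A : Type*} (σ : Finset A) (k : ℕ) (hσ : σ.card = k + 1) :
    ∃ (h : (Fin k → ℝ) → A → ℝ) (h' : (A → ℝ) → Fin k → ℝ), ContinuousOn h (Bal k) ∧
      ContinuousOn h' (Spx σ) ∧ MapsTo h (Bal k) (Spx σ) ∧ MapsTo h' (Spx σ) (Bal k) ∧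
      (∀ x ∈ Bal k, h' (h x) = x) ∧ (∀ y ∈ Spx σ, h (h' y) = y) ∧
      ∀ x ∈ Bal k, (h x ∈ Bd σ ↔ x ∈ Sph k) := by
  obtain ⟨H, h1, h2⟩ := ah_homeo k
  obtain ⟨φ, ψ, c1, c2, m1, m2, e1, e2, e3⟩ := ah_lin σ k hσ
  have h3 : ∀ x ∈ Bal k, H.symm x ∈ ah_S k := fun x hx => (h1 _).1 (by rwa [H.apply_symm_apply])
  refine ⟨φ ∘ H.symm, H ∘ ψ, (c1.comp H.symm.continuous).continuousOn,
    (H.continuous.comp c2).continuousOn, fun x hx => m1 (h3 x hx), fun y hy => (h1 _).2 (m2 hy),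
    fun x _ => by simp [e1], fun y hy => by simp [e2 y hy], fun x hx => ?_⟩
  have h4 := h2 _ (h3 x hx)
  rw [H.apply_symm_apply] at h4
  rw [h4, ← e3]
  exact and_iff_right (m1 (h3 x hx))

theorem ah_ext {X Y : Type*} [TopologicalSpace X] [TopologicalSpace Y] {k : ℕ} {D D' : Set X}
    {h : (Fin k → ℝ) → X} {h' : X → Fin k → ℝ} (h1 : ContinuousOn h' D) (h2 : MapsTo h' D (Bal k))
    (h3 : ∀ y ∈ D', h (h' y) = y) (h4 : MapsTo h' D' (Sph k)) {B : Set Y} {F : X → Y}
    (hF : TFl k B (F ∘ h)) : ∃ F', ContinuousOn F' D ∧ MapsTo F' D B ∧ EqOn F' F D' := by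
  obtain ⟨G, hG1, hG2, hG3⟩ := hF
  refine ⟨G ∘ h', hG1.comp h1 h2, hG2.comp h2, fun y hy => ?_⟩
  rw [Function.comp_apply, hG3 (h4 hy), Function.comp_apply, h3 y hy]

/-- for every simplex there is a parametrisation `h` of the boundary such that a map on the
boundary extends as soon as its composition with `h` is fillable -/
theorem exists_bd_param {A : Type*} (σ : Finset A) (k : ℕ) (hσ : σ.card = k + 1) :
    ∃ h : (Fin k → ℝ) → A → ℝ, ContinuousOn h (Sph k) ∧ MapsTo h (Sph k) (Bd σ) ∧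
      ∀ (Y : Type) [TopologicalSpace Y] (B : Set Y) (F : (A → ℝ) → Y), TFl k B (F ∘ h) →
        ∃ F', ContinuousOn F' (Spx σ) ∧ MapsTo F' (Spx σ) B ∧ EqOn F' F (Bd σ) := by
  obtain ⟨h, h', c1, c2, m1, m2, e1, e2, e3⟩ := exists_spx_param σ k hσ
  refine ⟨h, c1.mono sphere_subset_closedBall,
    fun x hx => (e3 x (sphere_subset_closedBall hx)).2 hx, fun Y _ B F hF => ?_⟩
  exact ah_ext c2 m2 (fun y hy => e2 y hy.1)
    (fun y hy => (e3 _ (m2 hy.1)).1 (by rwa [e2 y hy.1])) hF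

theorem TFill.spx {A Y : Type*} [TopologicalSpace Y] {B C : Set Y} {k : ℕ} (h : TFill k B C)
    {σ : Finset A} (hσ : σ.card = k + 1) {F : (A → ℝ) → Y} (hF : ContinuousOn F (Bd σ))
    (hm : MapsTo F (Bd σ) B) :
    ∃ F', ContinuousOn F' (Spx σ) ∧ MapsTo F' (Spx σ) C ∧ EqOn F' F (Bd σ) := by
  obtain ⟨u, u', c1, c2, m1, m2, e1, e2, e3⟩ := exists_spx_param σ k hσ
  have m3 : MapsTo u (Sph k) (Bd σ) := fun x hx => (e3 x (sphere_subset_closedBall hx)).2 hx
  exact ah_ext c2 m2 (fun y hy => e2 y hy.1)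
    (fun y hy => (e3 _ (m2 hy.1)).1 (by rwa [e2 y hy.1]))
    (h (F ∘ u) (hF.comp (c1.mono sphere_subset_closedBall) m3) (hm.comp m3))

/-- the cylinder over a ball -/
def Cyl (d : ℕ) : Set ((Fin d → ℝ) × ℝ) := Bal d ×ˢ Icc 0 1

/-- its boundary -/
def CylBd (d : ℕ) : Set ((Fin d → ℝ) × ℝ) := (Sph d ×ˢ Icc 0 1) ∪ (Bal d ×ˢ {0, 1})

theorem ah_norm_succ {d : ℕ} (x : Fin (d + 1) → ℝ) : ‖x‖ = max |x 0| ‖Fin.tail x‖ := by
  apply le_antisymm
  · rw [pi_norm_le_iff_of_nonneg (le_max_of_le_left (abs_nonneg _))]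
    refine Fin.cases (le_max_left _ _) fun i => ?_
    exact le_max_of_le_right (norm_le_pi_norm (Fin.tail x) i)
  · refine max_le (norm_le_pi_norm x 0) ?_
    rw [pi_norm_le_iff_of_nonneg (norm_nonneg _)]
    exact fun i => norm_le_pi_norm x i.succ

/-- `h x = (Fin.tail x, (x 0 + 1) / 2)` -/
theorem exists_cyl_param (d : ℕ) :
    ∃ h : (Fin (d + 1) → ℝ) → (Fin d → ℝ) × ℝ, ContinuousOn h (Sph (d + 1)) ∧
      MapsTo h (Sph (d + 1)) (CylBd d) ∧
      ∀ (Y : Type) [TopologicalSpace Y] (B : Set Y) (F : (Fin d → ℝ) × ℝ → Y),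
        TFl (d + 1) B (F ∘ h) →
        ∃ F', ContinuousOn F' (Cyl d) ∧ MapsTo F' (Cyl d) B ∧ EqOn F' F (CylBd d) := by
  refine ⟨fun x => (Fin.tail x, (x 0 + 1) / 2), Continuous.continuousOn ?_, fun x hx => ?_,
    fun Y _ B F hF => ?_⟩
  · exact (continuous_pi fun i => continuous_apply _).prodMk (by fun_prop)
  · have h1 := mem_sphere_zero_iff_norm.1 hx
    rw [ah_norm_succ] at h1
    have h2 : |x 0| ≤ 1 := h1 ▸ le_max_left _ _
    have h3 : ‖Fin.tail x‖ ≤ 1 := h1 ▸ le_max_right _ _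
    rcases max_eq_iff.1 h1 with h | h
    · refine Or.inr ⟨mem_closedBall_zero_iff.2 h3, ?_⟩
      rcases eq_or_eq_neg_of_abs_eq h.1 with h4 | h4
      · exact Or.inr (by simp [h4])
      · exact Or.inl (by simp [h4])
    · rw [abs_le] at h2
      exact Or.inl ⟨mem_sphere_zero_iff_norm.2 h.1, by dsimp only; linarith [h2.1],
        by dsimp only; linarith [h2.2]⟩
  · have hn : ∀ z : (Fin d → ℝ) × ℝ, ‖(Fin.cons (2 * z.2 - 1) z.1 : Fin (d + 1) → ℝ)‖ =
        max |2 * z.2 - 1| ‖z.1‖ := fun z => by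
      rw [ah_norm_succ, Fin.cons_zero, Fin.tail_cons]
    refine ah_ext (h' := fun z : (Fin d → ℝ) × ℝ => (Fin.cons (2 * z.2 - 1) z.1 : Fin (d + 1) → ℝ))
      (Continuous.continuousOn ?_) (fun z hz => ?_) (fun z _ => ?_) (fun z hz => ?_) hF
    · refine continuous_pi (Fin.cases ?_ fun i => ?_)
      · simp only [Fin.cons_zero]
        fun_prop
      · simp only [Fin.cons_succ]
        fun_prop
    · rw [mem_closedBall_zero_iff, hn]
      exact max_le (abs_le.2 ⟨by linarith [hz.2.1], by linarith [hz.2.2]⟩)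
        (mem_closedBall_zero_iff.1 hz.1)
    · simp only [Fin.tail_cons, Fin.cons_zero]
      exact Prod.ext rfl (by dsimp only; ring)
    · rw [mem_sphere_zero_iff_norm, hn]
      rcases hz with hz | hz
      · rw [mem_sphere_zero_iff_norm.1 hz.1]
        exact max_eq_right (abs_le.2 ⟨by linarith [hz.2.1], by linarith [hz.2.2]⟩)
      · have h1 : |2 * z.2 - 1| = 1 := by
          rcases hz.2 with h | h
          · rw [h]; norm_num
          · rw [show z.2 = 1 from h]; norm_num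
        rw [h1]
        exact max_eq_left (mem_closedBall_zero_iff.1 hz.1)

end Crest.Agent.R185
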