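import Crest.Agent.R185.APos

/-!
# R185 TASK AMor: Morse lemmas and joins
-/

set_option autoImplicit false

namespace Crest.Agent.R185

open Set Metric Filter
open scoped _root_.Topology

variable {P : Type*} [PartialOrder P] {n d : ℕ}

/-- the elements of `K` comparable to `w` -/
def Lk (K : Set P) (w : P) : Set P := {p | p ∈ K ∧ (p ≤ w ∨ w ≤ p)}

theorem amor_ch_mono {A B : Set P} (h : A ⊆ B) : Ch A ⊆ Ch B :=
  fun _ hσ => ⟨hσ.1, hσ.2.1.trans h, hσ.2.2⟩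

theorem amor_sph : IsCompact (Sph n) := isCompact_sphere _ _

theorem amor_local {K W : Set P} {X : Set (Fin n → ℝ)} (hX : IsCompact X)
    (hd : n ≤ d ∨ (X ⊆ Sph n ∧ n ≤ d + 1)) {G : (Fin n → ℝ) → Finset P} (hG : UC G X)
    (hm : MapsTo G X (Ch (K ∪ W))) {w : P} (hL : Conn d (Lk K w)) :
    ∃ F : (Fin n → ℝ) → Finset P, UC F {x | x ∈ X ∧ w ∈ G x} ∧
      MapsTo F {x | x ∈ X ∧ w ∈ G x} (Ch (Lk K w)) ∧
      ∀ x ∈ X, w ∈ G x → ∀ p ∈ G x, p ∈ K → p ∈ F x := by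
  classical
  have : Nonempty P := ⟨w⟩
  have hC : IsClosed {x | x ∈ X ∧ G x ∈ {σ : Finset P | w ∈ σ}} :=
    hG.isClosed_upper hX.isClosed fun x _ y _ h1 h2 => h2 h1
  have hE : IsClosed {x | x ∈ X ∧ G x ∈ {σ : Finset P | w ∈ σ ∧ ∃ p ∈ σ, p ∈ K}} :=
    hG.isClosed_upper hX.isClosed fun x _ y _ ⟨h1, p, h3, h4⟩ h2 => ⟨h2 h1, p, h2 h3, h4⟩
  obtain ⟨F, h1, h2, h3⟩ := xt (hX.of_isClosed_subset hC fun x hx => hx.1) hE
    (fun x hx => ⟨hx.1, hx.2.1⟩) (hd.imp_right fun h => ⟨fun x hx => h.1 hx.1, h.2⟩)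
    (conn_ch.2 hL) (F := (fun σ : Finset P => σ.filter (· ∈ K)) ∘ G)
    ((hG.mono fun x hx => hx.1).map (mapsTo_univ _ _) fun _ _ _ _ h => Finset.filter_subset_filter _ h)
    (by
      rintro x ⟨hx, hw, p, hp, hK⟩
      refine ⟨⟨p, Finset.mem_filter.2 ⟨hp, hK⟩⟩, fun q hq => ?_,
        (hm hx).2.2.mono (Finset.coe_subset.2 (Finset.filter_subset _ _))⟩
      obtain ⟨hq, hqK⟩ := Finset.mem_filter.1 hq
      exact ⟨hqK, (hm hx).2.2.total hq hw⟩)
  exact ⟨F, h1, h2, fun x hx hw p hp hK =>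
    h3 x ⟨hx, hw, p, hp, hK⟩ (Finset.mem_filter.2 ⟨hp, hK⟩)⟩

/-- Pushing chains off the antichain `W`.  `E = {x | G x meets K}` and `C w = {x | w ∈ G x}` are
closed, the `C w` are pairwise disjoint and only finitely many are nonempty
(`UC.exists_finset`).  `G⁰ x = (G x).filter (· ∈ K)` is `UC` on `E`; by `xt` (with `conn_ch`) there
is `G_w ≥ G⁰` on `C w` with values in `Ch (Lk K w)`.  Put `G' = G_w` on `C w`, `G' = G` elsewhere. -/
theorem morse_push [DecidableEq P] {K W : Set P} (hW : IsAntichain (· ≤ ·) W) (hKW : Disjoint K W)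
    (hL : ∀ w ∈ W, Conn d (Lk K w)) {X : Set (Fin n → ℝ)} (hX : IsCompact X)
    (hd : n ≤ d ∨ (X ⊆ Sph n ∧ n ≤ d + 1)) {G : (Fin n → ℝ) → Finset P} (hG : UC G X)
    (hm : MapsTo G X (Ch (K ∪ W))) :
    ∃ G', UC G' X ∧ MapsTo G' X (Ch K) ∧ (∀ x ∈ X, G x ∪ G' x ∈ Ch (K ∪ W)) ∧
      ∀ x ∈ X, G x ∈ Ch K → G' x = G x := by
  classical
  choose! F h1 h2 h3 using fun w hw => amor_local hX hd hG hm (hL w hw)
  have uniq : ∀ x ∈ X, ∀ w ∈ W, ∀ w' ∈ W, w ∈ G x → w' ∈ G x → w = w' := by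
    intro x hx w hw w' hw' a b
    by_contra hne
    rcases (hm hx).2.2 a b hne with h | h
    exacts [hW hw hw' hne h, hW hw' hw (Ne.symm hne) h]
  let G' : (Fin n → ℝ) → Finset P := fun x =>
    if h : ∃ w ∈ W, w ∈ G x then F h.choose x else G x
  have e1 : ∀ x ∈ X, ∀ w ∈ W, w ∈ G x → G' x = F w x := by
    intro x hx w hw a
    have h : ∃ w ∈ W, w ∈ G x := ⟨w, hw, a⟩
    simp only [G', dif_pos h]
    rw [uniq x hx _ h.choose_spec.1 w hw h.choose_spec.2 a]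
  have e2 : ∀ x, (¬∃ w ∈ W, w ∈ G x) → G' x = G x := fun x h => dif_neg h
  have e3 : ∀ x ∈ X, (¬∃ w ∈ W, w ∈ G x) → ∀ p ∈ G x, p ∈ K := fun x hx h p hp =>
    ((hm hx).2.1 hp).resolve_right fun a => h ⟨p, a, hp⟩
  refine ⟨G', fun z hz => ?_, fun x hx => ?_, fun x hx => ?_, fun x hx h => e2 x ?_⟩
  · by_cases h : ∃ w ∈ W, w ∈ G z
    · obtain ⟨w, hw, a⟩ := h
      filter_upwards [hG z hz, self_mem_nhdsWithin, mem_nhdsWithin_of_mem_nhds
        (eventually_nhdsWithin_iff.1 (h1 w hw z ⟨hz, a⟩))] with y b hy c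
      rw [e1 z hz w hw a]
      by_cases h' : ∃ w ∈ W, w ∈ G y
      · obtain ⟨w', hw', a'⟩ := h'
        obtain rfl := uniq z hz w hw w' hw' a (b a')
        rw [e1 y hy w hw a']
        exact c ⟨hy, a'⟩
      · rw [e2 y h']
        exact fun p hp => h3 w hw z hz a p (b hp) (e3 y hy h' p hp)
    · filter_upwards [hG z hz] with y b
      rwa [e2 z h, e2 y fun ⟨w, hw, a⟩ => h ⟨w, hw, b a⟩]
  · by_cases h : ∃ w ∈ W, w ∈ G x
    · obtain ⟨w, hw, a⟩ := h
      rw [e1 x hx w hw a]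
      exact amor_ch_mono (fun p hp => hp.1) (h2 w hw ⟨hx, a⟩)
    · rw [e2 x h]
      exact ⟨(hm hx).1, e3 x hx h, (hm hx).2.2⟩
  · by_cases h : ∃ w ∈ W, w ∈ G x
    · obtain ⟨w, hw, a⟩ := h
      rw [e1 x hx w hw a]
      obtain ⟨-, b, c⟩ := h2 w hw ⟨hx, a⟩
      refine ⟨(hm hx).1.mono Finset.subset_union_left, ?_,
        (c.insert (a := w) fun p hp _ => (b hp).2.symm).mono fun p hp => ?_⟩
      · rw [Finset.coe_union]
        exact union_subset (hm hx).2.1 fun p hp => Or.inl (b hp).1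
      · rcases Finset.mem_union.1 hp with hp | hp
        · rcases (hm hx).2.1 hp with h | h
          exacts [Or.inr (h3 w hw x hx a p hp h), Or.inl (uniq x hx p h w hw hp a)]
        · exact Or.inr hp
    · rw [e2 x h, Finset.union_self]
      exact hm hx
  · rintro ⟨w, hw, a⟩
    exact disjoint_left.1 hKW (h.2.1 a) hw

theorem morse_down {K W A : Set P} (hW : IsAntichain (· ≤ ·) W) (hKW : Disjoint K W) (hA : A ⊆ K)
    (hL : ∀ w ∈ W, Conn n (Lk K w)) (h : PFill n A (K ∪ W)) : PFill n A K := by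
  classical
  rcases isEmpty_or_nonempty P with hP | hP
  · exact fun f => hP.elim (f 0)
  rw [← pfill_ch (hA.trans subset_union_left)] at h
  rw [← pfill_ch hA]
  intro f hf hm
  obtain ⟨G, h1, h2, h3⟩ := h f hf hm
  obtain ⟨G', a, b, -, c⟩ := morse_push hW hKW hL (isCompact_closedBall _ _) (Or.inl le_rfl) h1 h2
  refine ⟨G', a, b, fun x hx => ?_⟩
  rw [c x (sphere_subset_closedBall hx) (h3 hx ▸ amor_ch_mono hA (hm hx)), h3 hx]

theorem morse_up {K W : Set P} (hW : IsAntichain (· ≤ ·) W) (hKW : Disjoint K W)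
    (hL : ∀ w ∈ W, Conn d (Lk K w)) (hK : Conn d K) : Conn d (K ∪ W) := by
  classical
  rcases isEmpty_or_nonempty P with hP | hP
  · exact fun _ _ f => hP.elim (f 0)
  rw [← conn_ch] at hK ⊢
  intro n hn f hf hm
  obtain ⟨G', a, b, c, -⟩ := morse_push hW hKW hL amor_sph (Or.inl hn) hf hm
  exact PFl.of_le hf hm (fun _ _ => Finset.subset_union_left)
    (PFl.of_ge (hf.finset_union a) c (fun _ _ => Finset.subset_union_right)
      ((hK n hn G' a b).mono (amor_ch_mono subset_union_left)))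

/-- induction on `k` for `K ∪ {w ∈ L | h w < k}` -/
theorem morse_up_iter {K L : Set P} (hKL : K ⊆ L) (h : P → ℕ) (b : ℕ) (hb : ∀ w ∈ L, h w < b)
    (hanti : ∀ w ∈ L, w ∉ K → ∀ w' ∈ L, w' ∉ K → w < w' → h w ≠ h w')
    (hlk : ∀ w ∈ L, w ∉ K → Conn d {p | p ∈ L ∧ (p < w ∨ w < p) ∧ (p ∈ K ∨ h p < h w)})
    (hK : Conn d K) : Conn d L := by
  have key : ∀ k, Conn d {w | w ∈ L ∧ (w ∈ K ∨ h w < k)} := by
    intro k
    induction k with
    | zero =>
      convert hK using 1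
      ext w
      exact ⟨fun a => a.2.resolve_right (Nat.not_lt_zero _), fun a => ⟨hKL a, Or.inl a⟩⟩
    | succ k ih =>
      have := morse_up (W := {w | w ∈ L ∧ w ∉ K ∧ h w = k}) (fun a ha b hb hne hle =>
        hanti a ha.1 ha.2.1 b hb.1 hb.2.1 (lt_of_le_of_ne hle hne) (ha.2.2.trans hb.2.2.symm))
        (disjoint_left.2 fun w a b => a.2.elim b.2.1 b.2.2.not_lt) (fun w hw => ?_) ih
      · convert this using 1
        ext w
        by_cases a : w ∈ L <;> by_cases b : w ∈ K <;> simp [a, b]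
        omega
      · convert hlk w hw.1 hw.2.1 using 1
        ext p
        rw [hw.2.2]
        refine ⟨fun a => ⟨a.1.1, ?_, a.1.2⟩, fun a => ⟨⟨a.1, a.2.2⟩, a.2.1.imp le_of_lt le_of_lt⟩⟩
        have : p ≠ w := by
          rintro rfl
          exact a.1.2.elim hw.2.1 hw.2.2.not_lt
        exact a.2.imp (lt_of_le_of_ne · this) (lt_of_le_of_ne · this.symm)
  convert key b using 1
  ext w
  exact ⟨fun a => ⟨a, Or.inr (hb w a)⟩, fun a => a.1⟩

/-- A sphere in the sublevel set has an upper bound `q ∈ L` (`UC.exists_bound`); for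
`A = {p ∈ L | h p < m ∧ p ≤ q}` descend with `morse_down` from `{p ∈ L | h p < k}`, `k > h q`. -/
theorem conn_sublevel {L : Set P} (h : P → ℕ) (m : ℕ)
    (hmono : ∀ p ∈ L, ∀ q ∈ L, p < q → h p < h q) (hne : ∃ p ∈ L, h p < m)
    (hdir : ∀ p ∈ L, ∀ q ∈ L, ∃ r ∈ L, p ≤ r ∧ q ≤ r)
    (hlk : ∀ w ∈ L, m ≤ h w → Conn d {p | p ∈ L ∧ p < w}) : Conn d {p | p ∈ L ∧ h p < m} := by
  classical
  intro n hn f hf hm
  obtain ⟨q, hq, hfq⟩ : ∃ q ∈ L, ∀ x ∈ Sph n, f x ≤ q := by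
    obtain ⟨S, hS, h1⟩ := hf.exists_bound amor_sph
    suffices ∃ q ∈ L, ∀ z ∈ S, f z ≤ q by
      obtain ⟨q, hq, h2⟩ := this
      exact ⟨q, hq, fun x hx => let ⟨z, hz, e⟩ := h1 x hx; e.trans (h2 z hz)⟩
    clear h1
    induction S using Finset.induction_on with
    | empty => exact hne.imp fun p hp => ⟨hp.1, by simp⟩
    | insert a S _ ih =>
      rw [Finset.coe_insert, insert_subset_iff] at hS
      obtain ⟨q, hq, h2⟩ := ih hS.2
      obtain ⟨r, hr, h3, h4⟩ := hdir q hq _ (hm hS.1).1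
      exact ⟨r, hr, Finset.forall_mem_insert _ _ _ |>.2 ⟨h4, fun z hz => (h2 z hz).trans h3⟩⟩
  have key : ∀ j, PFill n {p | (p ∈ L ∧ h p < m) ∧ p ≤ q} {p | p ∈ L ∧ h p < m + j} →
      PFill n {p | (p ∈ L ∧ h p < m) ∧ p ≤ q} {p | p ∈ L ∧ h p < m} := by
    intro j
    induction j with
    | zero => exact id
    | succ j ih =>
      refine fun H => ih (morse_down (W := {w | w ∈ L ∧ h w = m + j}) (fun a ha b hb hne hle =>
        (hmono a ha.1 b hb.1 (lt_of_le_of_ne hle hne)).ne (ha.2.trans hb.2.symm))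
        (disjoint_left.2 fun w a b => b.2.not_lt a.2)
        (fun p hp => ⟨hp.1.1, hp.1.2.trans_le (Nat.le_add_right _ _)⟩) (fun w hw => ?_)
        (H.mono subset_rfl fun p hp => ?_))
      · convert (hlk w hw.1 (hw.2 ▸ Nat.le_add_right _ _)).mono hn using 1
        ext p
        refine ⟨fun a => ⟨a.1.1, ?_⟩,
          fun a => ⟨⟨a.1, hw.2 ▸ hmono p a.1 w hw.1 a.2⟩, Or.inl a.2.le⟩⟩
        have h1 : h p < h w := hw.2 ▸ a.1.2
        have : p ≠ w := by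
          rintro rfl
          exact lt_irrefl _ h1
        exact a.2.elim (lt_of_le_of_ne · this) fun b =>
          absurd (hmono w hw.1 p a.1.1 (lt_of_le_of_ne b this.symm)) h1.not_gt
      · exact (Nat.lt_succ_iff_lt_or_eq.1 hp.2).imp (fun a => ⟨hp.1, a⟩) fun a => ⟨hp.1, a⟩
  exact key (h q + 1) (PFill.of_top (fun p hp => ⟨hp.1.1, by have := hp.1.2; omega⟩)
    (p := q) ⟨hq, by omega⟩ fun a ha => ha.2) f hf fun x hx => ⟨hm hx, hfq x hx⟩

/-- `xt` from the closed set `{x | f x ∈ U}` gives `F' ≥ f` with values in `U` -/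
theorem conn_join_up {D U : Set P} (h : ∀ a ∈ D, ∀ b ∈ U, a ≤ b) (hU : Conn d U) :
    Conn d (D ∪ U) := by
  intro n hn f hf hm
  obtain ⟨F, h1, h2, h3⟩ := xt amor_sph (hf.isClosed_upper (U := U) amor_sph.isClosed
    fun x hx y _ a b => (hm hx).elim (fun c => le_antisymm b (h _ c _ a) ▸ a) id)
    (fun x hx => hx.1) (Or.inl hn) hU (hf.mono fun x hx => hx.1) fun x hx => hx.2
  refine PFl.of_le hf hm (fun x hx => ?_) ((hU n hn F h1 h2).mono subset_union_right)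
  exact (hm hx).elim (fun a => h _ a _ (h2 hx)) fun a => h3 x ⟨hx, a⟩

/-- by duality -/
theorem conn_join_down {D U : Set P} (h : ∀ a ∈ D, ∀ b ∈ U, a ≤ b) (hD : Conn d D) :
    Conn d (D ∪ U) := by
  rw [← conn_dual, union_comm, preimage_union]
  exact conn_join_up (fun a ha b hb => h _ hb _ ha) (conn_dual.2 hD)

end Crest.Agent.R185
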