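import Crest.Agent.R185.ASA

/-!
# R185 TASK APS: simplicial approximation for maps into posets
-/

set_option autoImplicit false

namespace Crest.Agent.R185

open Set Metric Filter
open scoped _root_.Topology

variable {n : ℕ} {X E : Set (Fin n → ℝ)} {P : Type*} [Preorder P] {F : (Fin n → ℝ) → P}

theorem aps_step (hX : IsCompact X) (hE : IsClosed E) (hEX : E ⊆ X) (hF : UC F X) (δ : ℝ) :
    ∃ (δ' : ℝ) (V : (Fin n → ℝ) → Set (Fin n → ℝ)), 0 < δ → 0 < δ' ∧ δ' ≤ δ ∧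
      (∀ x ∈ X, ∃ z, V z ∈ 𝓝 x) ∧ ∀ z x, x ∈ V z → z ∈ X ∧ dist x z < δ ∧ (x ∈ E → z ∈ E) ∧
        ∀ y ∈ X, dist y x < δ' → F y ≤ F z := by
  by_cases hδ : 0 < δ
  swap
  · exact ⟨0, fun _ => ∅, fun h => absurd h hδ⟩
  have h1 : ∀ z ∈ X, ∃ ρ, 0 < ρ ∧ ρ ≤ δ ∧ ∀ y ∈ X, dist y z < ρ → F y ≤ F z := fun z hz => by
    obtain ⟨ρ, h0, h⟩ := Metric.mem_nhdsWithin_iff.1 (hF z hz)
    exact ⟨min ρ δ, lt_min h0 hδ, min_le_right _ _, fun y hy hd =>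
      h ⟨hd.trans_le (min_le_left _ _), hy⟩⟩
  choose! ρ h0 h1 h2 using h1
  have h3 : ∀ Y, IsCompact Y → Y ⊆ X → ∃ η > 0, ∀ x ∈ Y, ∃ z : Y, ball x η ⊆ ball z (ρ z) :=
    fun Y hY hYX => lebesgue_number_lemma_of_metric hY (fun _ => isOpen_ball) fun x hx =>
      mem_iUnion.2 ⟨⟨x, hx⟩, mem_ball_self (h0 x (hYX hx))⟩
  obtain ⟨η₁, hη₁, h4⟩ := h3 X hX subset_rfl
  obtain ⟨η₂, hη₂, h5⟩ := h3 E (hX.of_isClosed_subset hE hEX) hEX
  obtain ⟨η, hη, e1, e2, e3⟩ : ∃ η, 0 < η ∧ η ≤ δ ∧ η + η ≤ η₁ ∧ η + η ≤ η₂ :=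
    ⟨min δ (min η₁ η₂ / 2), by positivity, min_le_left _ _,
      by linarith [min_le_right δ (min η₁ η₂ / 2), min_le_left η₁ η₂],
      by linarith [min_le_right δ (min η₁ η₂ / 2), min_le_right η₁ η₂]⟩
  refine ⟨η, fun z => {x | z ∈ X ∧ ball x η ⊆ ball z (ρ z) ∧ (x ∈ E → z ∈ E)},
    fun _ => ⟨hη, e1, fun x hx => ?_, fun z x ⟨hz, hb, hE⟩ => ⟨hz,
      (mem_ball.1 (hb (mem_ball_self hη))).trans_le (h1 z hz), hE, fun y hy hd => h2 z hz y hy (hb hd)⟩⟩⟩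
  by_cases hxE : x ∈ E
  · obtain ⟨z, hz⟩ := h5 x hxE
    refine ⟨z, mem_of_superset (ball_mem_nhds x hη) fun y hy => ⟨hEX z.2, Subset.trans ?_ hz,
      fun _ => z.2⟩⟩
    exact ball_subset (by linarith [mem_ball.1 hy])
  · obtain ⟨z, hz⟩ := h4 x hx
    refine ⟨z, mem_of_superset (inter_mem (ball_mem_nhds x hη) (hE.isOpen_compl.mem_nhds hxE))
      fun y hy => ⟨z.2, Subset.trans ?_ hz, fun h => absurd h hy.2⟩⟩
    exact ball_subset (by linarith [mem_ball.1 hy.1])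

/-- Nested Lebesgue numbers.  Define `δ (-1) = ε`, and recursively radii `ρ j z ≤ δ (j-1) / 2` with
`F ≤ F z` on `ball z (ρ j z) ∩ X`, and `δ j ≤ δ (j-1)` such that for every `x ∈ X` (resp. `x ∈ E`)
`ball x (δ j) ⊆ ball z (ρ j z)` for some `z ∈ X` (resp. `z ∈ E`).  Put
`V j z = {x | ball x (δ j / 2) ⊆ ball z (ρ j z)}` for `z ∈ E`, the same minus `E` for `z ∈ X \ E`,
and `∅` for `z ∉ X`. -/
theorem exists_nested_cover (hX : IsCompact X) (hE : IsClosed E) (hEX : E ⊆ X) (hF : UC F X)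
    {ε : ℝ} (hε : 0 < ε) : ∃ V : ℕ → (Fin n → ℝ) → Set (Fin n → ℝ),
      (∀ j, ∀ x ∈ X, ∃ z, V j z ∈ 𝓝 x) ∧
      (∀ j z x, x ∈ V j z → z ∈ X ∧ dist x z < ε ∧ (x ∈ X → F x ≤ F z) ∧ (x ∈ E → z ∈ E)) ∧
      ∀ i j z z' x, i < j → x ∈ V i z → x ∈ V j z' → F z' ≤ F z := by
  choose D V h using aps_step hX hE hEX hF
  have h0 : ∀ j, 0 < D^[j] ε := fun j => by
    induction j with
    | zero => exact hε
    | succ j ih =>
      rw [Function.iterate_succ_apply']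
      exact (h _ ih).1
  have h1 : Antitone fun j => D^[j] ε := antitone_nat_of_succ_le fun j => by
    rw [Function.iterate_succ_apply']
    exact (h _ (h0 j)).2.1
  refine ⟨fun j => V (D^[j] ε), fun j => (h _ (h0 j)).2.2.1, fun j z x hx => ?_,
    fun i j z z' x hij hx hx' => ?_⟩
  · obtain ⟨a, b, c, d⟩ := (h _ (h0 j)).2.2.2 z x hx
    exact ⟨a, b.trans_le (h1 (Nat.zero_le j)),
      fun hx => d x hx (by simpa using (h _ (h0 j)).1), c⟩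
  · obtain ⟨a, b, -, -⟩ := (h _ (h0 j)).2.2.2 z' x hx'
    refine ((h _ (h0 i)).2.2.2 z x hx).2.2.2 z' a ?_
    rw [dist_comm, ← Function.iterate_succ_apply' D]
    exact b.trans_le (h1 hij)

/-- `sa` applied to `exists_nested_cover` -/
theorem psa (hX : IsCompact X) (hE : IsClosed E) (hEX : E ⊆ X) (hF : UC F X)
    {ε : ℝ} (hε : 0 < ε) : ∃ g : (Fin n → ℝ) → Fin (n + 1) × (Fin n → ℝ) → ℝ, FS g X ∧
      ∀ x ∈ X, Col (sp (g x)) ∧ (x ∈ Sph n → ∀ p ∈ sp (g x), p.1 ≠ 0) ∧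
        (∀ p ∈ sp (g x), p.2 ∈ X ∧ dist x p.2 < ε ∧ F x ≤ F p.2 ∧ (x ∈ E → p.2 ∈ E)) ∧
        ∀ p ∈ sp (g x), ∀ q ∈ sp (g x), p.1 < q.1 → F q.2 ≤ F p.2 := by
  obtain ⟨V, h1, h2, h3⟩ := exists_nested_cover hX hE hEX hF hε
  obtain ⟨g, hg, h4⟩ := sa hX (fun j z => V j z) fun j x hx =>
    (h1 j x hx).imp fun z hz => mem_nhdsWithin_of_mem_nhds hz
  refine ⟨g, hg, fun x hx => ⟨(h4 x hx).1, (h4 x hx).2.2, fun p hp => ?_, fun p hp q hq hpq =>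
    h3 _ _ _ _ x hpq ((h4 x hx).2.1 p hp) ((h4 x hx).2.1 q hq)⟩⟩
  obtain ⟨a, b, c, d⟩ := h2 _ _ x ((h4 x hx).2.1 p hp)
  exact ⟨a, b, c hx, d⟩

/-- relative version: `F` is only given on `E`; `exists_nested_cover` for `E`, `∅` and the extra
label `none` with the set `Eᶜ`. -/
theorem psa_rel (hX : IsCompact X) (hE : IsClosed E) (hEX : E ⊆ X) (hF : UC F E) :
    ∃ g : (Fin n → ℝ) → Fin (n + 1) × Option (Fin n → ℝ) → ℝ, FS g X ∧
      ∀ x ∈ X, Col (sp (g x)) ∧ (x ∈ Sph n → ∀ p ∈ sp (g x), p.1 ≠ 0) ∧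
        (x ∈ E → ∀ p ∈ sp (g x), p.2 ≠ none) ∧
        (∀ j z, (j, some z) ∈ sp (g x) → z ∈ E ∧ (x ∈ E → F x ≤ F z)) ∧
        ∀ i z j z', (i, some z) ∈ sp (g x) → (j, some z') ∈ sp (g x) → i < j → F z' ≤ F z := by
  obtain ⟨V, h1, h2, h3⟩ := exists_nested_cover (hX.of_isClosed_subset hE hEX) isClosed_empty
    (empty_subset _) hF one_pos
  obtain ⟨g, hg, h4⟩ := sa hX (fun j (o : Option (Fin n → ℝ)) => o.elim Eᶜ (V j)) fun j x hx => by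
    by_cases hxE : x ∈ E
    · obtain ⟨z, hz⟩ := h1 j x hxE
      exact ⟨some z, mem_nhdsWithin_of_mem_nhds hz⟩
    · exact ⟨none, mem_nhdsWithin_of_mem_nhds (hE.isOpen_compl.mem_nhds hxE)⟩
  refine ⟨g, hg, fun x hx => ⟨(h4 x hx).1, (h4 x hx).2.2, fun hxE p hp e => ?_, fun j z hp => ?_,
    fun i z j z' hp hq hij => h3 _ _ _ _ x hij ((h4 x hx).2.1 _ hp) ((h4 x hx).2.1 _ hq)⟩⟩
  · have := (h4 x hx).2.1 p hp
    rw [e] at this
    exact this hxE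
  · obtain ⟨a, -, c, -⟩ := h2 _ _ x ((h4 x hx).2.1 _ hp)
    exact ⟨a, c⟩

theorem aps_thr_nonempty {A : Type*} {σ : Finset A} {y : A → ℝ} (hy : y ∈ Spx σ)
    (h : σ.card ≤ n + 1) : (thr (1 / (n + 1)) y).Nonempty :=
  thr_nonempty hy (by
    rw [one_div, inv_mul_le_iff₀ (by positivity), mul_one]
    exact_mod_cast h)

theorem aps_uc_image {A B : Type*} [DecidableEq B] {g : (Fin n → ℝ) → A → ℝ} (hg : FS g X)
    (φ : A → B) : UC (fun x => (thr (1 / (n + 1)) (g x)).image φ) X :=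
  (hg.uc_thr (θ := 1 / (n + 1)) (by positivity)).map (r := Finset.image φ) (mapsTo_univ _ _)
    fun _ _ _ _ => Finset.image_subset_image

/-- chains above `F`: `G x` is the image of `thr (1 / (n+1)) (g x)` under `p ↦ F p.2` -/
theorem exists_chain_above (hX : IsCompact X) (hE : IsClosed E) (hEX : E ⊆ X) (hF : UC F X) :
    ∃ G : (Fin n → ℝ) → Finset P, UC G X ∧ ∀ x ∈ X, G x ∈ Ch (F '' X) ∧ (∀ p ∈ G x, F x ≤ p) ∧
      (x ∈ E → G x ∈ Ch (F '' E)) := by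
  classical
  obtain ⟨g, hg, h⟩ := psa hX hE hEX hF one_pos
  refine ⟨fun x => (thr (1 / (n + 1)) (g x)).image fun p : Fin (n + 1) × (Fin n → ℝ) => F p.2,
    aps_uc_image hg _, fun x hx => ?_⟩
  obtain ⟨h1, -, h2, h3⟩ := h x hx
  have h4 : ∀ q ∈ (thr (1 / (n + 1)) (g x)).image fun p => F p.2, ∃ p ∈ sp (g x), q = F p.2 :=
    fun q hq => by
      obtain ⟨p, hp, rfl⟩ := Finset.mem_image.1 hq
      exact ⟨p, thr_subset _ _ hp, rfl⟩
  have h5 : ∀ Y : Set (Fin n → ℝ), (∀ p ∈ sp (g x), p.2 ∈ Y) →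
      ((thr (1 / (n + 1)) (g x)).image fun p => F p.2) ∈ Ch (F '' Y) := fun Y hY => by
    refine ⟨(aps_thr_nonempty (hg.mem_spx_sp hx) h1.card_le).image _, fun q hq => ?_,
      fun a ha b hb hab => ?_⟩
    · obtain ⟨p, hp, rfl⟩ := h4 q hq
      exact ⟨_, hY p hp, rfl⟩
    · obtain ⟨p, hp, rfl⟩ := h4 a ha
      obtain ⟨q, hq, rfl⟩ := h4 b hb
      rcases lt_trichotomy p.1 q.1 with e | e | e
      · exact Or.inr (h3 p hp q hq e)
      · exact absurd (by rw [h1 p hp q hq e]) hab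
      · exact Or.inl (h3 q hq p hp e)
  refine ⟨h5 X fun p hp => (h2 p hp).1, fun q hq => ?_, fun hxE => h5 E fun p hp =>
    (h2 p hp).2.2.2 hxE⟩
  obtain ⟨p, hp, rfl⟩ := h4 q hq
  exact (h2 p hp).2.2.1

/-- dimension reduction for maps into simplicial complexes: choose a vertex `a z ∈ F z` and let
`G x` be the image of `thr (1 / (n+1)) (g x)` under `p ↦ a p.2`; `z` is the label of least colour
in `sp (g x)`. -/
theorem cx_sa {V : Type*} {F : (Fin n → ℝ) → Finset V} (hX : IsCompact X) (hE : IsClosed E)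
    (hEX : E ⊆ X) (hF : UC F X) (hne : ∀ x ∈ X, (F x).Nonempty) :
    ∃ G : (Fin n → ℝ) → Finset V, UC G X ∧ ∀ x ∈ X, (G x).Nonempty ∧ (G x).card ≤ n + 1 ∧
      (x ∈ Sph n → (G x).card ≤ n) ∧
      ∃ z ∈ X, (x ∈ E → z ∈ E) ∧ F x ⊆ F z ∧ G x ⊆ F z := by
  classical
  rcases X.eq_empty_or_nonempty with rfl | ⟨x₀, hx₀⟩
  · exact ⟨F, hF, fun x hx => hx.elim⟩
  have : Nonempty V := ⟨(hne x₀ hx₀).choose⟩
  choose! a ha using hne
  obtain ⟨g, hg, h⟩ := psa hX hE hEX hF one_pos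
  refine ⟨fun x => (thr (1 / (n + 1)) (g x)).image fun p : Fin (n + 1) × (Fin n → ℝ) => a p.2,
    aps_uc_image hg _, fun x hx => ?_⟩
  obtain ⟨h1, h0, h2, h3⟩ := h x hx
  have h4 := (Finset.card_image_le (f := fun p : Fin (n + 1) × (Fin n → ℝ) => a p.2)).trans
    (Finset.card_le_card (thr_subset (1 / (n + 1)) (g x)))
  obtain ⟨q, hq, h5⟩ := Finset.exists_min_image _ Prod.fst (sp_nonempty (hg.mem_spx_sp hx))
  refine ⟨(aps_thr_nonempty (hg.mem_spx_sp hx) h1.card_le).image _, h4.trans h1.card_le,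
    fun hS => h4.trans (h1.card_le' (h0 hS)), q.2, (h2 q hq).1, (h2 q hq).2.2.2, (h2 q hq).2.2.1,
    fun v hv => ?_⟩
  obtain ⟨p, hp, rfl⟩ := Finset.mem_image.1 hv
  have hp := thr_subset _ _ hp
  rcases (h5 p hp).eq_or_lt with e | e
  · rw [h1 q hq p hp e]
    exact ha _ (h2 p hp).1
  · exact h3 q hq p hp e (ha _ (h2 p hp).1)

end Crest.Agent.R185
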