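import Crest.Agent.R185.APS
import Crest.Agent.R185.AExt

/-!
# R185 TASK APos: chains, duality, extension from closed subsets, connectivity of complexes
-/

set_option autoImplicit false

namespace Crest.Agent.R185

open Set Metric Filter
open scoped _root_.Topology

variable {n d : ℕ}

section chains

variable {P Q : Type*} [PartialOrder P] [PartialOrder Q] {A B : Set P}

theorem apos_top [Nonempty P] : ∃ top : Finset P → P, ∀ A : Set P, MonotoneOn top (Ch A) ∧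
    MapsTo top (Ch A) A ∧ ∀ σ ∈ Ch A, ∀ a ∈ σ, a ≤ top σ := by
  have h : ∀ σ ∈ Ch (univ : Set P), ∃ m, m ∈ σ ∧ ∀ a ∈ σ, a ≤ m := fun σ hσ => by
    obtain ⟨m, hm⟩ := σ.exists_maximal hσ.1
    exact ⟨m, hm.1, fun a ha => (hσ.2.2.total ha hm.1).elim id (hm.2 ha)⟩
  choose! top h1 h2 using h
  have h3 : ∀ {A : Set P} {σ}, σ ∈ Ch A → σ ∈ Ch univ := fun h => ⟨h.1, subset_univ _, h.2.2⟩
  exact ⟨top, fun A => ⟨fun σ hσ τ hτ h => h2 τ (h3 hτ) _ (h (h1 σ (h3 hσ))),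
    fun σ hσ => hσ.2.1 (h1 σ (h3 hσ)), fun σ hσ => h2 σ (h3 hσ)⟩⟩

theorem apos_ch_mono (h : A ⊆ B) : Ch A ⊆ Ch B := fun _ hσ => ⟨hσ.1, hσ.2.1.trans h, hσ.2.2⟩

/-- Let `top σ` be the largest element of a chain (monotone on `Ch univ`).  (→) `f ≤ top ∘ G` with
`G` from `exists_chain_above` on the sphere; fill `G`, apply `top`.  (←) fill `top ∘ f` by `F`, take
`G` above `F` on the ball; on the sphere `f ≤ f ∪ G ≥ G`. -/
theorem pfill_ch [Nonempty P] (hAB : A ⊆ B) : PFill n (Ch A) (Ch B) ↔ PFill n A B := by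
  classical
  obtain ⟨top, ht⟩ := apos_top (P := P)
  refine ⟨fun h f hf hm => ?_, fun h f hf hm => ?_⟩
  · obtain ⟨G, hG, h1⟩ := exists_chain_above (isCompact_sphere _ _) isClosed_empty
      (empty_subset _) hf
    refine PFl.of_le hf (hm.mono_right hAB) (fun x hx => ?_)
      ((h G hG fun x hx => apos_ch_mono hm.image_subset (h1 x hx).1).map (ht B).1 (ht B).2.1)
    exact (h1 x hx).2.1 _ ((ht (G x)).2.1 ⟨(h1 x hx).1.1, subset_rfl, (h1 x hx).1.2.2⟩)
  · obtain ⟨F, hF, h1, h2⟩ := h _ (hf.map hm (ht A).1) ((ht A).2.1.comp hm)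
    obtain ⟨G, hG, h3⟩ := exists_chain_above (isCompact_closedBall _ _) isClosed_empty
      (empty_subset _) hF
    have h4 : MapsTo G (Bal n) (Ch B) := fun x hx => apos_ch_mono h1.image_subset (h3 x hx).1
    refine PFl.of_le hf (hm.mono_right (apos_ch_mono hAB)) (fun _ _ => Finset.subset_union_left)
      (PFl.of_ge (hf.finset_union (hG.mono sphere_subset_closedBall)) (fun x hx => ?_)
        (fun _ _ => Finset.subset_union_right) ⟨G, hG, h4, fun _ _ => rfl⟩)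
    have hx' := sphere_subset_closedBall hx
    have h5 : ∀ a ∈ f x, ∀ b ∈ G x, a ≤ b := fun a ha b hb =>
      ((ht A).2.2 _ (hm hx) a ha).trans ((h2 hx).ge.trans ((h3 x hx').2.1 b hb))
    refine ⟨(hm hx).1.mono Finset.subset_union_left, ?_, fun a ha b hb hab => ?_⟩
    · rw [Finset.coe_union]
      exact union_subset ((hm hx).2.1.trans hAB) (h4 hx').2.1
    · rcases Finset.mem_union.1 ha with ha | ha <;> rcases Finset.mem_union.1 hb with hb | hb
      exacts [(hm hx).2.2 ha hb hab, Or.inl (h5 a ha b hb), Or.inr (h5 b hb a ha),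
        (h4 hx').2.2 ha hb hab]

theorem conn_ch [Nonempty P] : Conn d (Ch A) ↔ Conn d A :=
  forall₂_congr fun _ _ => pfill_ch subset_rfl

/-- chains for the dual order are the same finsets -/
theorem pfill_dual (hAB : A ⊆ B) :
    PFill n (OrderDual.ofDual ⁻¹' A) (OrderDual.ofDual ⁻¹' B) ↔ PFill n A B := by
  rcases isEmpty_or_nonempty P with hP | hP
  · exact iff_of_true (fun f => hP.elim (f 0)) fun f => hP.elim (f 0)
  have e : ∀ A : Set P, Ch (OrderDual.ofDual ⁻¹' A) = (Ch A : Set (Finset P)) := fun A =>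
    Set.ext fun σ => and_congr_right' (and_congr_right' ⟨IsChain.symm, IsChain.symm⟩)
  rw [← pfill_ch hAB, ← pfill_ch (preimage_mono hAB), e, e]
  rfl

theorem conn_dual : Conn d (OrderDual.ofDual ⁻¹' A) ↔ Conn d A :=
  forall₂_congr fun _ _ => pfill_dual subset_rfl

/-- transport along antitone maps -/
theorem Conn.of_anti {C : Set Q} {r : P → Q} {s : Q → P} (h : Conn d C)
    (hr : AntitoneOn r A) (hrm : MapsTo r A C) (hs : AntitoneOn s C)
    (hsm : MapsTo s C A) (hc : (∀ a ∈ A, a ≤ s (r a)) ∨ ∀ a ∈ A, s (r a) ≤ a) : Conn d A :=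
  conn_dual.1 (h.of_maps (r := r ∘ OrderDual.ofDual) (s := OrderDual.toDual ∘ s)
    (fun _ ha _ hb hab => hr hb ha hab) hrm (fun _ ha _ hb hab => hs ha hb hab) hsm hc.symm)

end chains

/-- **Extension from a closed subset** (up to `≤`).  Take `g` from `psa_rel`; `K` = coloured finsets
(without colour `0` in the second case) whose `some`-labels lie in `E` and are decreasing, `K₀` =
those without `none`; on `K₀` map `y` to `F z` where `z` is the label of least colour in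
`thr (1/(n+1)) y`; extend by `pext` with the constant carrier `Q`. -/
theorem xt {P : Type*} [Preorder P] {X E : Set (Fin n → ℝ)} (hX : IsCompact X) (hE : IsClosed E)
    (hEX : E ⊆ X) {Q : Set P} (hd : n ≤ d ∨ (X ⊆ Sph n ∧ n ≤ d + 1)) (hQ : Conn d Q)
    {F : (Fin n → ℝ) → P} (hF : UC F E) (hm : MapsTo F E Q) :
    ∃ F', UC F' X ∧ MapsTo F' X Q ∧ ∀ x ∈ E, F x ≤ F' x := by
  obtain ⟨g, hg, h⟩ := psa_rel hX hE hEX hF
  set K : Set (Finset (Fin (n + 1) × Option (Fin n → ℝ))) := {σ | σ.Nonempty ∧ Col σ ∧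
    σ.card ≤ d + 1 ∧ (∀ j z, (j, some z) ∈ σ → z ∈ E) ∧
    ∀ i z j z', (i, some z) ∈ σ → (j, some z') ∈ σ → i < j → F z' ≤ F z}
  set K₀ := {σ | σ ∈ K ∧ ∀ p ∈ σ, p.2 ≠ none}
  have hK : IsCx K := ⟨fun σ hσ => hσ.1, fun σ ⟨_, a, b, c, e⟩ τ hτ h0 => ⟨h0,
    fun p hp q hq => a p (hτ hp) q (hτ hq), (Finset.card_le_card hτ).trans b,
    fun j z hz => c j z (hτ hz), fun i z j z' hz hz' => e i z j z' (hτ hz) (hτ hz')⟩⟩
  have hK₀ : IsCx K₀ := ⟨fun σ hσ => hσ.1.1, fun σ hσ τ hτ h0 =>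
    ⟨hK.down σ hσ.1 τ hτ h0, fun p hp => hσ.2 p (hτ hp)⟩⟩
  have h1 : ∀ σ ∈ K₀, ∃ z, (∃ j, (j, some z) ∈ σ) ∧ ∀ j z', (j, some z') ∈ σ → F z' ≤ F z := by
    intro σ hσ
    obtain ⟨⟨i, o⟩, hp, h2⟩ := Finset.exists_min_image σ Prod.fst hσ.1.1
    obtain ⟨z, rfl⟩ := Option.ne_none_iff_exists'.1 (hσ.2 _ hp)
    refine ⟨z, ⟨i, hp⟩, fun j z' hq => ?_⟩
    rcases (h2 _ hq).eq_or_lt with e | e
    · obtain ⟨-, rfl⟩ : i = j ∧ z = z' := by simpa using hσ.1.2.1 _ hp _ hq e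
      exact le_rfl
    · exact hσ.1.2.2.2.2 i z j z' hp hq e
  choose! ζ h1 h2 using h1
  have h3 : ∀ σ ∈ K₀, MapsTo (thr (1 / (n + 1))) (Spx σ) K₀ := fun σ hσ y hy =>
    hK₀.down σ hσ _ ((thr_subset _ _).trans (sp_subset hy))
      (aps_thr_nonempty hy hσ.1.2.1.card_le)
  obtain ⟨F₁, h4, h5⟩ := pext hK hK₀ (fun _ hσ => hσ.1) (fun _ _ => Q)
    (fun _ _ _ _ _ _ _ _ => subset_rfl)
    (fun σ hσ _ k hk => hQ k (by have := hσ.2.2.1; omega))
    (F₀ := (fun σ => F (ζ σ)) ∘ thr (1 / (n + 1))) fun σ hσ =>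
      ⟨(uc_thr_spx (by positivity)).map (h3 σ hσ) fun τ hτ τ' hτ' hle =>
        (h1 τ hτ).elim fun j hj => h2 τ' hτ' j _ (hle hj),
      fun y hy => (h1 _ (h3 σ hσ hy)).elim fun j hj => hm ((h3 σ hσ hy).1.2.2.2.1 j _ hj)⟩
  have h6 : ∀ x ∈ X, sp (g x) ∈ K := fun x hx => by
    obtain ⟨a, b, -, c, e⟩ := h x hx
    refine ⟨sp_nonempty (hg.mem_spx_sp hx), a, ?_, fun j z hz => (c j z hz).1, e⟩
    rcases hd with hd | hd
    · exact a.card_le.trans (Nat.succ_le_succ hd)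
    · exact (a.card_le' (b (hd.1 hx))).trans hd.2
  refine ⟨F₁ ∘ g, hg.uc_comp hK (fun σ hσ => (h4 σ hσ).1) fun x hx =>
    mem_rl.2 ⟨_, h6 x hx, hg.mem_spx_sp hx⟩, fun x hx => (h4 _ (h6 x hx)).2 (hg.mem_spx_sp hx),
    fun x hx => ?_⟩
  have h7 : sp (g x) ∈ K₀ := ⟨h6 x (hEX hx), (h x (hEX hx)).2.2.1 hx⟩
  rw [Function.comp_apply, h5 (mem_rl.2 ⟨_, h7, hg.mem_spx_sp (hEX hx)⟩)]
  obtain ⟨j, hj⟩ := h1 _ (h3 _ h7 (hg.mem_spx_sp (hEX hx)))
  exact ((h x (hEX hx)).2.2.2.1 j _ (thr_subset _ _ hj)).2 hx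

section complexes

variable {V : Type*} [DecidableEq V]

/-- **Grounded complexes.**  Reduce to `G` with `(G x).card ≤ n` (`cx_sa` with `X = E = Sph n`;
`f ≤ f ∪ G ≥ G`).  The sets `U w = {x | w ∈ Gr (G x)}` are relatively open and cover the sphere;
with `g` from `sa'` put `h x = thr (1/(n+1)) (g x) ⊆ Gr (G x)`; then `G ≤ G ∪ h ≥ h ≤ W`. -/
theorem conn_grounded {K : Set (Finset V)} (hK : IsCx K) {W : Finset V} (hW : W ∈ K)
    (Gr : Finset V → Finset V) (hanti : ∀ σ τ, σ ⊆ τ → Gr τ ⊆ Gr σ) (hsub : ∀ σ, Gr σ ⊆ W)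
    (hmem : ∀ σ ∈ K, σ ∪ Gr σ ∈ K) (hne : ∀ σ ∈ K, σ.card ≤ d → (Gr σ).Nonempty) :
    Conn d K := by
  intro n hn f hf hm
  obtain ⟨G, hG, h1⟩ := cx_sa (isCompact_sphere _ _) isClosed_empty (empty_subset _) hf
    fun x hx => hK.ne _ (hm hx)
  have h2 : ∀ x ∈ Sph n, f x ∪ G x ∈ K := fun x hx => by
    obtain ⟨a, -, -, z, hz, -, b, c⟩ := h1 x hx
    exact hK.down _ (hm hz) _ (Finset.union_subset b c) (a.mono Finset.subset_union_right)
  have h3 : MapsTo G (Sph n) K := fun x hx =>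
    hK.down _ (h2 x hx) _ Finset.subset_union_right (h1 x hx).1
  obtain ⟨g, hg, h4⟩ := sa' (isCompact_sphere _ _) (fun w => {x | w ∈ Gr (G x)}) fun x hx => by
    obtain ⟨w, hw⟩ := hne _ (h3 hx) (((h1 x hx).2.2.1 hx).trans hn)
    exact ⟨w, (hG x hx).mono fun y hy => hanti _ _ hy hw⟩
  have h5 : ∀ x ∈ Sph n, thr (1 / (n + 1)) (g x) ⊆ Gr (G x) := fun x hx w hw =>
    (h4 x hx).1 w (thr_subset _ _ hw)
  have h6 := hg.uc_thr (θ := 1 / (n + 1)) (by positivity)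
  refine PFl.of_le hf hm (fun _ _ => Finset.subset_union_left)
    (PFl.of_ge (hf.finset_union hG) h2 (fun _ _ => Finset.subset_union_right)
      (PFl.of_le hG h3 (fun _ _ => Finset.subset_union_left)
        (PFl.of_ge (hG.finset_union h6) (fun x hx => ?_) (fun _ _ => Finset.subset_union_right)
          (PFl.of_le h6 (fun x hx => ?_) (fun x hx => (h5 x hx).trans (hsub _)) (PFl.const hW)))))
  · exact hK.down _ (hmem _ (h3 hx)) _ (Finset.union_subset_union_right (h5 x hx))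
      ((h1 x hx).1.mono Finset.subset_union_left)
  · exact hK.down _ hW _ ((h5 x hx).trans (hsub _))
      (aps_thr_nonempty (hg.mem_spx_sp hx) (h4 x hx).2.1)

/-- **Boundary of a simplex.**  Fill in the full simplex (`PFill.of_top`), apply `cx_sa` with
`E = Sph n`: the new filling has at most `n + 1 < T.card` vertices. -/
theorem conn_bool {T : Finset V} (h : d + 2 ≤ T.card) :
    Conn d {σ : Finset V | σ.Nonempty ∧ σ ⊆ T ∧ σ ≠ T} := by
  intro n hn f hf hm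
  obtain ⟨F, hF, h1, h2⟩ := PFill.of_top (B := {σ : Finset V | σ.Nonempty ∧ σ ⊆ T}) (p := T)
    (fun σ hσ => ⟨hσ.1, hσ.2.1⟩) ⟨Finset.card_pos.1 (by omega), subset_rfl⟩ (fun σ hσ => hσ.2.1)
    f hf hm
  obtain ⟨G, hG, h3⟩ := cx_sa (isCompact_closedBall _ _) isClosed_sphere sphere_subset_closedBall hF
    fun x hx => (h1 hx).1
  refine PFl.of_le hf hm (fun _ _ => Finset.subset_union_left)
    (PFl.of_ge (hf.finset_union (hG.mono sphere_subset_closedBall)) (fun x hx => ?_)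
      (fun _ _ => Finset.subset_union_right) ⟨G, hG, fun x hx => ?_, fun _ _ => rfl⟩)
  · obtain ⟨a, -, -, z, -, hz, b, c⟩ := h3 x (sphere_subset_closedBall hx)
    rw [h2 (hz hx)] at b c
    rw [h2 hx] at b
    have h4 := Finset.union_subset b c
    exact ⟨a.mono Finset.subset_union_right, h4.trans (hm (hz hx)).2.1, fun e =>
      (hm (hz hx)).2.2 ((hm (hz hx)).2.1.antisymm (e ▸ h4))⟩
  · obtain ⟨a, b, -, z, hz, -, -, c⟩ := h3 x hx
    exact ⟨a, c.trans (h1 hz).2, fun e => by rw [e] at b; omega⟩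

end complexes

end Crest.Agent.R185
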