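import Crest.Agent.R185.AB

/-!
# R185 TASK AR: geometric simplices
-/

set_option autoImplicit false
set_option linter.unusedVariables false

namespace Crest.Agent.R185

open Set Metric Filter
open scoped _root_.Topology

variable {A : Type*} {σ τ : Finset A} {y : A → ℝ} {K K' : Set (Finset A)}

theorem Spx.mono (h : σ ⊆ τ) : Spx σ ⊆ Spx τ := by
  rintro y ⟨h1, h2, h3⟩
  refine ⟨h1, fun a ha => h2 a fun h' => ha (h h'), ?_⟩
  rw [← Finset.sum_subset h fun a _ ha => h2 a ha, h3]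

theorem ar_mem_sp (h : (Function.support y).Finite) {a : A} : a ∈ sp y ↔ y a ≠ 0 := by
  unfold sp
  rw [dif_pos h, Set.Finite.mem_toFinset, Function.mem_support]

theorem ar_fin (hy : y ∈ Spx σ) : (Function.support y).Finite :=
  σ.finite_toSet.subset fun a ha => by
    by_contra h
    exact ha (hy.2.1 a h)

theorem mem_sp (hy : y ∈ Spx σ) {a : A} : a ∈ sp y ↔ y a ≠ 0 := by
  exact ar_mem_sp (ar_fin hy)

theorem mem_sp' (hy : y ∈ Spx σ) {a : A} : a ∈ sp y ↔ 0 < y a := by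
  rw [mem_sp hy]
  exact ⟨fun h => lt_of_le_of_ne (hy.1 a) h.symm, fun h => h.ne'⟩

theorem sp_subset (hy : y ∈ Spx σ) : sp y ⊆ σ := by
  intro a ha
  by_contra h
  exact (mem_sp hy).1 ha (hy.2.1 a h)

theorem mem_spx_sp (hy : y ∈ Spx σ) : y ∈ Spx (sp y) := by
  have h0 : ∀ a, a ∉ sp y → y a = 0 := fun a ha => by
    by_contra h
    exact ha ((mem_sp hy).2 h)
  refine ⟨hy.1, h0, ?_⟩
  rw [Finset.sum_subset (sp_subset hy) fun a _ ha => h0 a ha, hy.2.2]

theorem mem_spx_of_sp_subset (hy : y ∈ Spx σ) (h : sp y ⊆ τ) : y ∈ Spx τ := by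
  exact Spx.mono h (mem_spx_sp hy)

theorem sp_nonempty (hy : y ∈ Spx σ) : (sp y).Nonempty := by
  rw [Finset.nonempty_iff_ne_empty]
  intro h
  have := (mem_spx_sp hy).2.2
  rw [h, Finset.sum_empty] at this
  exact zero_ne_one this

theorem mem_bd : y ∈ Bd σ ↔ y ∈ Spx σ ∧ sp y ≠ σ := by
  refine and_congr_right fun hy => ⟨?_, fun h => ?_⟩
  · rintro ⟨a, ha, h0⟩ h
    exact (mem_sp hy).1 (h ▸ ha) h0
  · by_contra h'
    push Not at h'
    exact h (Finset.Subset.antisymm (sp_subset hy) fun a ha => (mem_sp hy).2 (h' a ha))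

theorem mem_rl : y ∈ Rl K ↔ ∃ σ ∈ K, y ∈ Spx σ := by
  simp only [Rl, mem_iUnion, exists_prop]

theorem Rl.mono (h : K ⊆ K') : Rl K ⊆ Rl K' := by
  exact biUnion_subset_biUnion_left h

theorem sp_mem (hK : IsCx K) (hy : y ∈ Rl K) : sp y ∈ K := by
  obtain ⟨σ, h1, h2⟩ := mem_rl.1 hy
  exact hK.down σ h1 _ (sp_subset h2) (sp_nonempty h2)

theorem IsCx.skel (hK : IsCx K) (m : ℕ) : IsCx (skel m K) := by
  exact ⟨fun σ h => hK.ne σ h.1, fun σ h τ hτ hne =>
    ⟨hK.down σ h.1 τ hτ hne, (Finset.card_le_card hτ).trans h.2⟩⟩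

theorem IsCx.union (hK : IsCx K) (hK' : IsCx K') : IsCx (K ∪ K') := by
  exact ⟨fun σ h => h.elim (hK.ne σ) (hK'.ne σ), fun σ h τ hτ hne =>
    h.imp (fun h => hK.down σ h τ hτ hne) fun h => hK'.down σ h τ hτ hne⟩

theorem isCx_ch {P : Type*} [Preorder P] (B : Set P) : IsCx (Ch B) := by
  exact ⟨fun σ h => h.1, fun σ h τ hτ hne => ⟨hne, (Finset.coe_subset.2 hτ).trans h.2.1,
    h.2.2.mono (Finset.coe_subset.2 hτ)⟩⟩

theorem isCx_rp {G : Type*} [Group G] (T N : Set G) : IsCx (Rp T N) := by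
  exact ⟨fun σ h => h.1, fun σ h τ hτ hne => ⟨hne, (Finset.coe_subset.2 hτ).trans h.2.1,
    fun a ha b hb => h.2.2 a (hτ ha) b (hτ hb)⟩⟩

theorem isCx_jc {G : Type*} [Group G] (c : ℕ) (T : Set G) : IsCx (JC c T) := by
  exact ⟨fun σ h => h.1, fun σ h τ hτ hne => ⟨hne, fun p hp => h.2.1 p (hτ hp),
    fun a ha b hb => h.2.2.1 a (hτ ha) b (hτ hb), fun a ha b hb => h.2.2.2 a (hτ ha) b (hτ hb)⟩⟩

theorem card_le_of_mem_jc {G : Type*} [Group G] {c : ℕ} {T : Set G} {σ : Finset (JV G)}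
    (h : σ ∈ JC c T) : σ.card ≤ c := by
  rw [← Finset.card_range c]
  exact Finset.card_le_card_of_injOn JV.c (fun p hp => Finset.mem_coe.2
    (Finset.mem_range.2 (h.2.1 p hp))) fun p hp q hq hpq => h.2.2.1 p hp q hq hpq

theorem JC.mono {G : Type*} [Group G] {c c' : ℕ} {T T' : Set G} (hc : c ≤ c') (hT : T ⊆ T') :
    JC c T ⊆ JC c' T' := by
  exact fun σ h => ⟨h.1, fun p hp => (h.2.1 p hp).trans_le hc, h.2.2.1,
    fun p hp q hq => hT (h.2.2.2 p hp q hq)⟩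

theorem isClosed_spx : IsClosed (Spx σ) := by
  simp only [Spx, ofPred_and, ofPred_forall]
  refine (isClosed_iInter fun a => isClosed_le continuous_const (continuous_apply a)).inter
    ((isClosed_iInter fun a => isClosed_iInter fun _ =>
      isClosed_eq (continuous_apply a) continuous_const).inter (isClosed_eq ?_ continuous_const))
  exact continuous_finsetSum _ fun a _ => continuous_apply a

theorem isClosed_bd : IsClosed (Bd σ) := by
  have e : Bd σ = Spx σ ∩ ⋃ a ∈ σ, {y : A → ℝ | y a = 0} := by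
    ext y
    simp only [Bd, mem_inter_iff, mem_iUnion, mem_ofPred_eq, exists_prop]
  rw [e]
  exact isClosed_spx.inter (isClosed_biUnion_finset fun a _ =>
    isClosed_eq (continuous_apply a) continuous_const)

theorem isCompact_spx : IsCompact (Spx σ) := by
  refine (isCompact_univ_pi fun _ : A => isCompact_Icc (a := (0 : ℝ)) (b := 1)).of_isClosed_subset
    isClosed_spx fun y hy a _ => ⟨hy.1 a, ?_⟩
  by_cases h : a ∈ σ
  · rw [← hy.2.2]
    exact Finset.single_le_sum (fun b _ => hy.1 b) h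
  · rw [hy.2.1 a h]
    exact zero_le_one

theorem convex_spx : Convex ℝ (Spx σ) := by
  intro x hx y hy a b ha hb hab
  refine ⟨fun c => add_nonneg (mul_nonneg ha (hx.1 c)) (mul_nonneg hb (hy.1 c)), fun c hc => ?_, ?_⟩
  · simp [hx.2.1 c hc, hy.2.1 c hc]
  · simp only [Pi.add_apply, Pi.smul_apply, smul_eq_mul, Finset.sum_add_distrib, ← Finset.mul_sum,
      hx.2.2, hy.2.2, mul_one, hab]

theorem ar_mem_thr {θ : ℝ} {a : A} : a ∈ thr θ y ↔ a ∈ sp y ∧ θ ≤ y a := by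
  unfold thr
  rw [Finset.mem_filter]

theorem thr_subset (θ : ℝ) (y : A → ℝ) : thr θ y ⊆ sp y := by
  exact fun a ha => (ar_mem_thr.1 ha).1

theorem thr_nonempty {θ : ℝ} (hy : y ∈ Spx σ) (h : θ * σ.card ≤ 1) : (thr θ y).Nonempty := by
  by_contra hne
  have h1 : ∀ a ∈ sp y, y a < θ := fun a ha => by
    by_contra h'
    exact hne ⟨a, ar_mem_thr.2 ⟨ha, le_of_not_gt h'⟩⟩
  have h2 := Finset.sum_lt_sum_of_nonempty (sp_nonempty hy) h1
  rw [(mem_spx_sp hy).2.2, Finset.sum_const, nsmul_eq_mul] at h2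
  obtain ⟨a, ha⟩ := sp_nonempty hy
  have h3 : 0 < θ := ((mem_sp' hy).1 ha).trans (h1 a ha)
  have h4 : ((sp y).card : ℝ) ≤ σ.card := by exact_mod_cast Finset.card_le_card (sp_subset hy)
  nlinarith

theorem uc_thr_spx {θ : ℝ} (hθ : 0 < θ) : UC (thr θ) (Spx σ) := by
  intro z hz
  have h1 : ∀ᶠ x in 𝓝 z, ∀ a ∈ σ, z a < θ → x a < θ := by
    refine (Finset.eventually_all σ).2 fun a _ => ?_
    by_cases h : z a < θ
    · exact ((continuous_apply a).continuousAt.eventually_lt continuousAt_const h).mono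
        fun x hx _ => hx
    · exact Eventually.of_forall fun x h' => absurd h' h
  filter_upwards [mem_nhdsWithin_of_mem_nhds h1, self_mem_nhdsWithin] with x h2 hx a ha
  rw [ar_mem_thr] at ha ⊢
  have h3 : θ ≤ z a := by
    by_contra h'
    exact absurd (h2 a (sp_subset hx ha.1) (lt_of_not_ge h')) (not_lt.2 ha.2)
  exact ⟨(mem_sp' hz).2 (hθ.trans_le h3), h3⟩

theorem ar_cont_faces {Y : Type*} [TopologicalSpace Y] {F : (A → ℝ) → Y}
    (hF : ∀ σ ∈ K, ContinuousOn F (Spx σ)) (U : Finset A) :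
    ContinuousOn F (⋃ τ : {τ // τ ∈ K ∧ τ ⊆ U}, Spx τ.1) := by
  have hfin : {τ | τ ∈ K ∧ τ ⊆ U}.Finite :=
    U.powerset.finite_toSet.subset fun τ hτ => Finset.mem_coe.2 (Finset.mem_powerset.2 hτ.2)
  have : Finite {τ // τ ∈ K ∧ τ ⊆ U} := hfin.to_subtype
  exact (locallyFinite_of_finite _).continuousOn_iUnion (fun _ => isClosed_spx)
    fun τ => hF τ.1 τ.2.1

section FS

variable {X : Type*} [TopologicalSpace X] {L L' : Set X} {g : X → A → ℝ}

theorem FS.mono (hg : FS g L) (h : L' ⊆ L) : FS g L' := by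
  obtain ⟨h1, U, h2⟩ := hg
  exact ⟨h1.mono h, U, h2.mono_left h⟩

theorem FS.mem_spx_sp (hg : FS g L) {x : X} (hx : x ∈ L) : g x ∈ Spx (sp (g x)) := by
  obtain ⟨-, U, h2⟩ := hg
  exact Crest.Agent.R185.mem_spx_sp (h2 hx)

theorem FS.uc_thr {θ : ℝ} (hθ : 0 < θ) (hg : FS g L) : UC (fun x => thr θ (g x)) L := by
  obtain ⟨h1, U, h2⟩ := hg
  exact (uc_thr_spx hθ).comp h1 h2

/-- `L` is covered by the finitely many relatively closed sets `g ⁻¹' Spx σ`, `σ ∈ K`, `σ ⊆ U`. -/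
theorem FS.comp {Y : Type*} [TopologicalSpace Y] {F : (A → ℝ) → Y} (hK : IsCx K)
    (hF : ∀ σ ∈ K, ContinuousOn F (Spx σ)) (hg : FS g L) (hm : MapsTo g L (Rl K)) :
    ContinuousOn (F ∘ g) L := by
  obtain ⟨h1, U, h2⟩ := hg
  exact (ar_cont_faces hF U).comp h1 fun x hx => mem_iUnion.2
    ⟨⟨sp (g x), sp_mem hK (hm hx), sp_subset (h2 hx)⟩, Crest.Agent.R185.mem_spx_sp (h2 hx)⟩

theorem FS.uc_comp {P : Type*} [Preorder P] {F : (A → ℝ) → P} (hK : IsCx K)
    (hF : ∀ σ ∈ K, UC F (Spx σ)) (hg : FS g L) (hm : MapsTo g L (Rl K)) : UC (F ∘ g) L := by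
  exact (continuousOn_alx (P := P)).1 (FS.comp (Y := Alx P) hK
    (fun σ hσ => (continuousOn_alx (P := P)).2 (hF σ hσ)) hg hm)

end FS

/-- continuity on the boundary of a simplex all of whose proper faces lie in `K` -/
theorem continuousOn_bd {Y : Type*} [TopologicalSpace Y] {F : (A → ℝ) → Y} (hK : IsCx K)
    (hF : ∀ τ ∈ K, ContinuousOn F (Spx τ)) (h : ∀ τ ⊆ σ, τ ≠ σ → τ.Nonempty → τ ∈ K) :
    ContinuousOn F (Bd σ) ∧ Bd σ ⊆ Rl K := by
  have h1 : Bd σ ⊆ Rl K := fun y hy => mem_rl.2 ⟨sp y,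
    h _ (sp_subset hy.1) (mem_bd.1 hy).2 (sp_nonempty hy.1), mem_spx_sp hy.1⟩
  exact ⟨FS.comp (g := id) hK hF ⟨continuousOn_id, σ, fun y hy => hy.1⟩ h1, h1⟩

/-- a filling with finite support after gluing the straight line homotopy as a collar -/
theorem fs_fill_of_line {n : ℕ} {f g G : (Fin n → ℝ) → A → ℝ} (hf : FS f (Sph n))
    (hl : ∀ x ∈ Sph n, ∃ σ ∈ K, f x ∈ Spx σ ∧ g x ∈ Spx σ) (hG : FS G (Bal n))
    (hGm : MapsTo G (Bal n) (Rl K)) (hGg : EqOn G g (Sph n)) :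
    ∃ F, FS F (Bal n) ∧ MapsTo F (Bal n) (Rl K) ∧ EqOn F f (Sph n) := by
  classical
  obtain ⟨hf1, U, hf2⟩ := hf
  obtain ⟨hG1, V, hG2⟩ := hG
  have hg1 : ContinuousOn g (Sph n) := (hG1.mono sphere_subset_closedBall).congr hGg.symm
  obtain ⟨F, h1, h2, h3⟩ := TFl.of_homotopy (B := Rl K ∩ Spx (U ∪ V)) (f := f) (g := g)
    (fun x t => (1 - t) • f x + t • g x) (by
      have e1 : ContinuousOn (fun z : (Fin n → ℝ) × ℝ => f z.1) (Sph n ×ˢ Icc 0 1) :=
        hf1.comp continuous_fst.continuousOn fun z hz => hz.1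
      have e2 : ContinuousOn (fun z : (Fin n → ℝ) × ℝ => g z.1) (Sph n ×ˢ Icc 0 1) :=
        hg1.comp continuous_fst.continuousOn fun z hz => hz.1
      exact ((continuous_const.sub continuous_snd).continuousOn.smul e1).add
        (continuous_snd.continuousOn.smul e2))
    (fun x hx t ht => by
      obtain ⟨σ, hσ, h4, h5⟩ := hl x hx
      refine ⟨mem_rl.2 ⟨σ, hσ, convex_spx h4 h5 (sub_nonneg.2 ht.2) ht.1 (sub_add_cancel _ _)⟩,
        convex_spx (Spx.mono Finset.subset_union_left (hf2 hx))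
          (Spx.mono Finset.subset_union_right ?_) (sub_nonneg.2 ht.2) ht.1 (sub_add_cancel _ _)⟩
      rw [← hGg hx]
      exact hG2 (sphere_subset_closedBall hx))
    (fun x _ => by simp) (fun x _ => by simp)
    ⟨G, hG1, fun x hx => ⟨hGm hx, Spx.mono Finset.subset_union_right (hG2 hx)⟩, hGg⟩
  exact ⟨F, ⟨h1, U ∪ V, fun x hx => (h2 hx).2⟩, fun x hx => (h2 hx).1, h3⟩

section act

variable {Γ : Type*} [Group Γ] [MulAction Γ A] {g h : Γ}

theorem mem_fsm {a : A} : a ∈ fsm g σ ↔ g⁻¹ • a ∈ σ := by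
  rw [fsm, Finset.mem_map_equiv, MulAction.toPerm_symm_apply]

theorem smul_mem_fsm {a : A} : g • a ∈ fsm g σ ↔ a ∈ σ := by
  rw [mem_fsm, inv_smul_smul]

theorem fsm_one : fsm (1 : Γ) σ = σ := by
  ext a
  rw [mem_fsm, inv_one, one_smul]

theorem fsm_mul : fsm (g * h) σ = fsm g (fsm h σ) := by
  ext a
  rw [mem_fsm, mem_fsm, mem_fsm, mul_inv_rev, mul_smul]

theorem card_fsm : (fsm g σ).card = σ.card := by
  exact Finset.card_map _

theorem fsm_subset : fsm g σ ⊆ fsm g τ ↔ σ ⊆ τ := by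
  exact Finset.map_subset_map

theorem fsm_nonempty : (fsm g σ).Nonempty ↔ σ.Nonempty := by
  exact Finset.map_nonempty

theorem act_one : act (1 : Γ) y = y := by
  funext a
  rw [act, inv_one, one_smul]

theorem act_mul : act (g * h) y = act g (act h y) := by
  funext a
  simp only [act, mul_inv_rev, mul_smul]

theorem continuous_act (g : Γ) : Continuous (act g : (A → ℝ) → A → ℝ) := by
  exact continuous_pi fun a => continuous_apply _

theorem act_mem_spx : act g y ∈ Spx (fsm g σ) ↔ y ∈ Spx σ := by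
  have h1 : ∑ a ∈ fsm g σ, act g y a = ∑ a ∈ σ, y a := by
    rw [fsm, Finset.sum_map]
    simp [act]
  constructor
  · rintro ⟨h2, h3, h4⟩
    refine ⟨fun a => ?_, fun a ha => ?_, h1 ▸ h4⟩
    · simpa [act] using h2 (g • a)
    · simpa [act] using h3 (g • a) fun h => ha (smul_mem_fsm.1 h)
  · rintro ⟨h2, h3, h4⟩
    exact ⟨fun a => h2 _, fun a ha => h3 _ fun h => ha (mem_fsm.2 h), h1.trans h4⟩

theorem act_mem_bd : act g y ∈ Bd (fsm g σ) ↔ y ∈ Bd σ := by
  refine and_congr act_mem_spx ⟨?_, ?_⟩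
  · rintro ⟨a, h1, h2⟩
    exact ⟨g⁻¹ • a, mem_fsm.1 h1, h2⟩
  · rintro ⟨a, h1, h2⟩
    exact ⟨g • a, smul_mem_fsm.2 h1, by simpa [act] using h2⟩

theorem sp_act : sp (act g y) = fsm g (sp y) := by
  have e : Function.support (act g y) = (fun a => g⁻¹ • a) ⁻¹' Function.support y := rfl
  by_cases h : (Function.support y).Finite
  · have h' : (Function.support (act g y)).Finite :=
      e ▸ h.preimage (MulAction.injective g⁻¹).injOn
    ext a
    rw [mem_fsm, ar_mem_sp h, ar_mem_sp h', act]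
  · have h' : ¬ (Function.support (act g y)).Finite := fun h' =>
      h (Set.Finite.of_preimage (e ▸ h') (MulAction.surjective g⁻¹))
    unfold sp
    rw [dif_neg h, dif_neg h', fsm, Finset.map_empty]

theorem thr_act (θ : ℝ) : thr θ (act g y) = fsm g (thr θ y) := by
  ext a
  rw [mem_fsm, ar_mem_thr, ar_mem_thr, sp_act, mem_fsm, act]

end act

section JC

variable {G : Type*} [Group G] {c : ℕ} {T : Set G}

theorem fsm_mem_jc {σ : Finset (JV G)} (g : G) (h : σ ∈ JC c T) : fsm g σ ∈ JC c T := by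
  refine ⟨fsm_nonempty.2 h.1, fun p hp => h.2.1 (g⁻¹ • p) (mem_fsm.1 hp), fun p hp q hq hpq => ?_,
    fun p hp q hq => ?_⟩
  · exact MulAction.injective g⁻¹ (h.2.2.1 _ (mem_fsm.1 hp) _ (mem_fsm.1 hq) hpq)
  · have := h.2.2.2 _ (mem_fsm.1 hp) _ (mem_fsm.1 hq)
    simpa [mul_assoc] using this

/-- the action on simplices is free -/
theorem jc_free {σ : Finset (JV G)} {g : G} (h : σ ∈ JC c T) (hg : fsm g σ = σ) : g = 1 := by
  obtain ⟨p, hp⟩ := h.1
  have h1 : g • p ∈ σ := hg ▸ smul_mem_fsm.2 hp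
  have h2 := congrArg JV.g (h.2.2.1 _ h1 p hp rfl)
  simpa using h2

theorem ar_jv_finite (hT : T.Finite) (g : G) : {q : JV G | q.c < c ∧ g⁻¹ * q.g ∈ T}.Finite := by
  refine (((Set.finite_Iio c).prod hT).image fun z => (⟨z.1, g * z.2⟩ : JV G)).subset ?_
  rintro q ⟨h1, h2⟩
  exact ⟨(q.c, g⁻¹ * q.g), ⟨h1, h2⟩, by simp⟩

/-- finitely many orbits -/
theorem jc_finite (hT : T.Finite) : {σ | σ ∈ JC c T ∧ ∃ p ∈ σ, p.g = 1}.Finite := by
  refine (ar_jv_finite (c := c) hT 1).toFinset.powerset.finite_toSet.subset ?_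
  rintro σ ⟨h, p, hp, h1⟩
  refine Finset.mem_coe.2 (Finset.mem_powerset.2 fun q hq => (Set.Finite.mem_toFinset _).2 ?_)
  exact ⟨h.2.1 q hq, h1 ▸ h.2.2.2 p hp q hq⟩

/-- local finiteness: cover the compact set by finitely many of the relatively open sets
`{x | f x p > 0}`. -/
theorem fs_of_jc {X : Type*} [TopologicalSpace X] {L : Set X} (hL : IsCompact L) (hT : T.Finite)
    {f : X → JV G → ℝ} (hf : ContinuousOn f L) (hm : MapsTo f L (Rl (JC c T))) : FS f L := by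
  classical
  have h0 : ∀ z : X, ∃ p : JV G, z ∈ L → 0 < f z p := fun z => by
    by_cases hz : z ∈ L
    · obtain ⟨σ, -, h1⟩ := mem_rl.1 (hm hz)
      obtain ⟨p, hp⟩ := sp_nonempty h1
      exact ⟨p, fun _ => (mem_sp' h1).1 hp⟩
    · exact ⟨⟨0, 1⟩, fun h => absurd h hz⟩
  choose p hp using h0
  obtain ⟨S, -, hS⟩ := hL.elim_nhdsWithin_subcover (fun z => {x | 0 < f x (p z)}) fun z hz =>
    continuousWithinAt_const.eventually_lt
      ((continuous_apply (p z)).continuousAt.comp_continuousWithinAt (hf z hz)) (hp z hz)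
  refine ⟨hf, S.biUnion fun z => (ar_jv_finite (c := c) hT (p z).g).toFinset, fun x hx => ?_⟩
  obtain ⟨σ, hσ, h1⟩ := mem_rl.1 (hm hx)
  obtain ⟨z, hz, h2⟩ := mem_iUnion₂.1 (hS hx)
  refine mem_spx_of_sp_subset h1 fun q hq => Finset.mem_biUnion.2 ⟨z, hz, ?_⟩
  exact (Set.Finite.mem_toFinset _).2 ⟨hσ.2.1 q (sp_subset h1 hq),
    hσ.2.2.2 _ (sp_subset h1 ((mem_sp' h1).2 h2)) q (sp_subset h1 hq)⟩

end JC

end Crest.Agent.R185
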