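import Crest.Agent.R185.AR

/-!
# R185 TASK ASA: partitions of unity of order `n + 1`
-/

set_option autoImplicit false

namespace Crest.Agent.R185

open Set Metric Filter
open scoped _root_.Topology

variable {n : ℕ} {X E : Set (Fin n → ℝ)} {A : Type*}

/-- the bump function vanishing near the integers -/
noncomputable def asa_psi (ε t : ℝ) : ℝ := max 0 (|t - round t| - ε)

theorem asa_psi_cont (ε : ℝ) : Continuous (asa_psi ε) := by
  have h : Continuous fun t : ℝ => |t - round t| := by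
    simp only [← UnitAddCircle.norm_eq]
    exact (AddCircle.continuous_mk' 1).norm
  exact continuous_const.max (h.sub continuous_const)

theorem asa_psi_nonneg (ε t : ℝ) : 0 ≤ asa_psi ε t := le_max_left _ _

theorem asa_psi_int {ε : ℝ} (hε : 0 ≤ ε) (m : ℤ) : asa_psi ε m = 0 := by
  simp [asa_psi, hε]

theorem asa_floor {ε t : ℝ} (hε : 0 ≤ ε) (h : asa_psi ε t ≠ 0) : ∀ᶠ s in 𝓝 t, ⌊s⌋ = ⌊t⌋ := by
  have h1 : (⌊t⌋ : ℝ) < t := (Int.floor_le t).lt_of_ne fun e => h (by rw [← e, asa_psi_int hε])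
  filter_upwards [Ioo_mem_nhds h1 (Int.lt_floor_add_one t)] with s hs
  exact Int.floor_eq_iff.2 ⟨hs.1.le, hs.2⟩

theorem asa_kill {t : ℝ} {j j' : Fin (n + 1)}
    (h : asa_psi (1 / (4 * (n + 1))) (t - (j : ℕ) / (n + 1)) = 0)
    (h' : asa_psi (1 / (4 * (n + 1))) (t - (j' : ℕ) / (n + 1)) = 0) : j = j' := by
  have a := abs_le.1 (sub_nonpos.1 (max_eq_left_iff.1 h))
  have b := abs_le.1 (sub_nonpos.1 (max_eq_left_iff.1 h'))
  set m := round (t - (j : ℕ) / (n + 1))
  set m' := round (t - (j' : ℕ) / (n + 1))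
  have hn : (0 : ℝ) < n + 1 := by positivity
  have e : ∀ x : ℝ, (n + 1) * (x / (n + 1)) = x := fun x => by field_simp
  have e4 : ((n : ℝ) + 1) * (1 / (4 * (n + 1))) = 1 / 4 := by field_simp
  have c1 : ((((j' : ℕ) : ℤ) - (j : ℕ) + (n + 1) * (m' - m) : ℤ) : ℝ) < 1 := by
    push_cast
    nlinarith [e (j : ℕ), e (j' : ℕ), mul_le_mul_of_nonneg_left a.2 hn.le,
      mul_le_mul_of_nonneg_left b.1 hn.le]
  have c2 : (-1 : ℝ) < ((((j' : ℕ) : ℤ) - (j : ℕ) + (n + 1) * (m' - m) : ℤ) : ℝ) := by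
    push_cast
    nlinarith [e (j : ℕ), e (j' : ℕ), mul_le_mul_of_nonneg_left a.1 hn.le,
      mul_le_mul_of_nonneg_left b.2 hn.le]
  have c3 : ((j' : ℕ) : ℤ) - (j : ℕ) + (n + 1) * (m' - m) < 1 := by exact_mod_cast c1
  have c4 : -1 < ((j' : ℕ) : ℤ) - (j : ℕ) + (n + 1) * (m' - m) := by exact_mod_cast c2
  have d1 := j.2
  have d2 := j'.2
  refine Fin.ext ?_
  rcases lt_trichotomy (m' - m) 0 with d | d | d
  · nlinarith
  · rw [d] at c3 c4; omega
  · nlinarith

theorem asa_lebesgue (hX : IsCompact X) (U : Fin (n + 1) → A → Set (Fin n → ℝ))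
    (hU : ∀ j, ∀ x ∈ X, ∃ a, U j a ∈ 𝓝[X] x) :
    ∃ N : ℕ, 0 < N ∧ ∀ j, ∀ x ∈ X, ∃ a, ∀ y ∈ X, dist x y ≤ 1 / N → y ∈ U j a := by
  choose a ha using hU
  have h1 := fun j => uniformity_basis_dist.lebesgue_number_lemma_nhdsWithin'
    (U := fun x hx => U j (a j x hx)) hX (ha j)
  choose δ hδ h2 using h1
  have h3 : ∀ᶠ N : ℕ in atTop, 0 < N ∧ ∀ j, 1 / (N : ℝ) < δ j :=
    (eventually_gt_atTop 0).and (eventually_all.2 fun j =>
      (tendsto_one_div_atTop_nhds_zero_nat (𝕜 := ℝ)).eventually (gt_mem_nhds (hδ j)))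
  obtain ⟨N, h4, h5⟩ := h3.exists
  refine ⟨N, h4, fun j x hx => ?_⟩
  obtain ⟨z, hz⟩ := h2 j x hx
  exact ⟨_, fun y hy hd => hz ⟨hd.trans_lt (h5 j), hy⟩⟩

/-- **Coloured partitions of unity.**  Let `δ` be a common Lebesgue number of the covers by the
interiors (relative to `X`) of the `U j a`; take `N ≥ 1` with `1 / N < δ`.  For a colour `j` let
`μ j x = max 0 (min_i dist (N * x i - j / (n+1), ℤ) - 1 / (4 (n+1)))` (for `n = 0`: `μ = 1`); every
coordinate kills at most one colour, so some `μ j x > 0`, and colour `0` is killed on the sphere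
(some `N * x i = ± N` is an integer).  On `{μ j > 0}` the cell `c j x = (⌊N * x i - j / (n+1)⌋)_i`
is locally constant; a cell meeting `X` has diameter `≤ 1 / N`, so its intersection with `X` lies in
some `U j (a j c)`.  Put `g x (j, a) = if a j (c j x) = a then μ j x / ∑ μ else 0`; only finitely
many cells meet the bounded set `X`. -/
theorem sa (hX : IsCompact X) (U : Fin (n + 1) → A → Set (Fin n → ℝ))
    (hU : ∀ j, ∀ x ∈ X, ∃ a, U j a ∈ 𝓝[X] x) :
    ∃ g : (Fin n → ℝ) → Fin (n + 1) × A → ℝ, FS g X ∧ ∀ x ∈ X, Col (sp (g x)) ∧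
      (∀ p ∈ sp (g x), x ∈ U p.1 p.2) ∧ (x ∈ Sph n → ∀ p ∈ sp (g x), p.1 ≠ 0) := by
  classical
  rcases X.eq_empty_or_nonempty with rfl | ⟨x₀, hx₀⟩
  · exact ⟨0, ⟨continuousOn_empty _, ∅, mapsTo_empty _ _⟩, fun x hx => hx.elim⟩
  have : Nonempty A := ⟨(hU 0 x₀ hx₀).choose⟩
  obtain ⟨N, hN, hL⟩ := asa_lebesgue hX U hU
  have hN' : (0 : ℝ) < N := by exact_mod_cast hN
  have hε : (0 : ℝ) ≤ 1 / (4 * (n + 1)) := by positivity
  let μ : Fin (n + 1) → (Fin n → ℝ) → ℝ := fun j x =>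
    ∏ i, asa_psi (1 / (4 * (n + 1))) (N * x i - (j : ℕ) / (n + 1))
  let c : Fin (n + 1) → (Fin n → ℝ) → Fin n → ℤ := fun j x i => ⌊N * x i - (j : ℕ) / (n + 1)⌋
  have hμc : ∀ j, Continuous (μ j) := fun j =>
    continuous_finsetProd _ fun i _ => (asa_psi_cont _).comp (by fun_prop)
  have hμ0 : ∀ j x, 0 ≤ μ j x := fun j x => Finset.prod_nonneg fun i _ => asa_psi_nonneg _ _
  have hS : ∀ x, 0 < ∑ j, μ j x := fun x => by
    refine (Finset.sum_nonneg fun j _ => hμ0 j x).lt_of_ne fun e => ?_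
    have h1 := (Finset.sum_eq_zero_iff_of_nonneg fun j _ => hμ0 j x).1 e.symm
    choose i _ hi using fun j => Finset.prod_eq_zero_iff.1 (h1 j (Finset.mem_univ _))
    have h2 := Fintype.card_le_of_injective i fun j j' e => asa_kill (hi j) (e ▸ hi j')
    simp at h2
  have hc : ∀ j x, μ j x ≠ 0 → ∀ᶠ y in 𝓝 x, c j y = c j x := fun j x h => by
    have h1 : ∀ i, ∀ᶠ y in 𝓝 x, c j y i = c j x i := fun i =>
      (show Continuous fun y : Fin n → ℝ => N * y i - (j : ℕ) / (n + 1) by fun_prop).tendsto x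
        |>.eventually (asa_floor hε (Finset.prod_ne_zero_iff.1 h i (Finset.mem_univ _)))
    filter_upwards [eventually_all.2 h1] with y hy using funext hy
  have hal : ∀ j z, ∃ a, ∀ x ∈ X, c j x = z → x ∈ U j a := fun j z => by
    by_cases h : ∃ x ∈ X, c j x = z
    · obtain ⟨x, hx, rfl⟩ := h
      obtain ⟨a, ha⟩ := hL j x hx
      refine ⟨a, fun y hy e => ha y hy ((dist_pi_le_iff (by positivity)).2 fun i => ?_)⟩
      have h1 := Int.abs_sub_lt_one_of_floor_eq_floor (congrFun e i)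
      rw [sub_sub_sub_cancel_right, ← mul_sub, abs_mul, abs_of_pos hN'] at h1
      rw [dist_comm, Real.dist_eq, le_div_iff₀ hN', mul_comm]
      exact h1.le
    · exact ⟨Classical.arbitrary A, fun x hx e => (h ⟨x, hx, e⟩).elim⟩
  choose al hal using hal
  let g : (Fin n → ℝ) → Fin (n + 1) × A → ℝ := fun x p =>
    (if al p.1 (c p.1 x) = p.2 then μ p.1 x else 0) / ∑ j, μ j x
  have hg : ∀ x, g x ∈ Spx (Finset.univ.image fun j => (j, al j (c j x))) := fun x => by
    refine ⟨fun p => div_nonneg (by split_ifs; exacts [hμ0 _ _, le_rfl]) (hS x).le,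
      fun p hp => ?_, ?_⟩
    · have : al p.1 (c p.1 x) ≠ p.2 := fun e =>
        hp (Finset.mem_image.2 ⟨p.1, Finset.mem_univ _, Prod.ext rfl e⟩)
      simp only [g, if_neg this, zero_div]
    · rw [Finset.sum_image fun a _ b _ e => congrArg Prod.fst e]
      simp only [g, if_true]
      rw [← Finset.sum_div, div_self (hS x).ne']
  have hsp : ∀ x, ∀ p ∈ sp (g x), al p.1 (c p.1 x) = p.2 := fun x p hp => by
    obtain ⟨j, -, rfl⟩ := Finset.mem_image.1 (sp_subset (hg x) hp)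
    rfl
  refine ⟨g, ⟨(continuous_pi fun p => Continuous.div ?_ (continuous_finsetSum _ fun j _ => hμc j)
    fun x => (hS x).ne').continuousOn, ?_⟩, fun x hx => ⟨fun p hp q hq e => ?_, fun p hp => ?_,
      fun hs p hp e => ?_⟩⟩
  · refine continuous_iff_continuousAt.2 fun x => ?_
    by_cases h : μ p.1 x = 0
    · have h1 := (hμc p.1).tendsto x
      rw [h] at h1
      unfold ContinuousAt
      simp only [h, ite_self]
      exact squeeze_zero (fun y => by split_ifs; exacts [hμ0 _ _, le_rfl])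
        (fun y => by split_ifs; exacts [le_rfl, hμ0 _ _]) h1
    · refine ContinuousAt.congr (f := fun y => if al p.1 (c p.1 x) = p.2 then μ p.1 y else 0) ?_ ?_
      · split_ifs
        exacts [(hμc _).continuousAt, continuousAt_const]
      · filter_upwards [hc p.1 x h] with y hy
        rw [hy]
  · obtain ⟨B, hB⟩ := hX.isBounded.exists_norm_le
    have hf : ∀ j, (c j '' X).Finite := fun j => by
      refine (finite_Icc (fun _ : Fin n => ⌊(N : ℝ) * -B - (j : ℕ) / (n + 1)⌋)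
        fun _ => ⌊(N : ℝ) * B - (j : ℕ) / (n + 1)⌋).subset ?_
      rintro _ ⟨x, hx, rfl⟩
      have h1 := fun i => abs_le.1 ((norm_le_pi_norm x i).trans (hB x hx))
      exact ⟨fun i => Int.floor_mono (by nlinarith [(h1 i).1]),
        fun i => Int.floor_mono (by nlinarith [(h1 i).2])⟩
    refine ⟨Finset.univ.biUnion fun j => (hf j).toFinset.image fun z => (j, al j z),
      fun x hx => Spx.mono (fun p hp => ?_) (hg x)⟩
    obtain ⟨j, -, rfl⟩ := Finset.mem_image.1 hp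
    exact Finset.mem_biUnion.2 ⟨j, Finset.mem_univ _, Finset.mem_image.2
      ⟨c j x, (hf j).mem_toFinset.2 ⟨x, hx, rfl⟩, rfl⟩⟩
  · exact Prod.ext e (by rw [← hsp x p hp, ← hsp x q hq, e])
  · rw [← hsp x p hp]
    exact hal _ _ x hx rfl
  · have h1 : ‖x‖ = 1 := by simpa using hs
    obtain ⟨i, hi⟩ : ∃ i, |x i| = 1 := by
      by_contra hn
      push Not at hn
      exact ((pi_norm_lt_iff one_pos).2 fun i =>
        ((norm_le_pi_norm x i).trans h1.le).lt_of_ne (hn i)).ne h1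
    have h2 : μ 0 x = 0 := Finset.prod_eq_zero (Finset.mem_univ i) (by
      rcases (abs_eq zero_le_one).1 hi with h | h
      · simpa [h] using asa_psi_int hε N
      · simpa [h] using asa_psi_int hε (-N))
    refine (mem_sp (hg x)).1 hp ?_
    simp only [g, e, h2, ite_self, zero_div]

theorem Col.card_le {σ : Finset (Fin (n + 1) × A)} (h : Col σ) : σ.card ≤ n + 1 := by
  simpa using Finset.card_le_card_of_injOn (t := Finset.univ) Prod.fst
    (fun _ _ => Finset.mem_univ _) fun p hp q hq e => h p hp q hq e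

theorem Col.card_le' {σ : Finset (Fin (n + 1) × A)} (h : Col σ) (h0 : ∀ p ∈ σ, p.1 ≠ 0) :
    σ.card ≤ n := by
  simpa using Finset.card_le_card_of_injOn (t := Finset.univ.erase 0) Prod.fst
    (fun p hp => Finset.mem_erase.2 ⟨h0 p hp, Finset.mem_univ _⟩)
    fun p hp q hq e => h p hp q hq e

/-- forget the colours: `g' x a = ∑ j, g x (j, a)` -/
theorem sa' (hX : IsCompact X) (U : A → Set (Fin n → ℝ)) (hU : ∀ x ∈ X, ∃ a, U a ∈ 𝓝[X] x) :
    ∃ g : (Fin n → ℝ) → A → ℝ, FS g X ∧ ∀ x ∈ X, (∀ a ∈ sp (g x), x ∈ U a) ∧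
      (sp (g x)).card ≤ n + 1 ∧ (x ∈ Sph n → (sp (g x)).card ≤ n) := by
  classical
  obtain ⟨g, ⟨h1, V, h2⟩, h3⟩ := sa hX (fun _ => U) fun _ => hU
  have key : ∀ (y : Fin (n + 1) × A → ℝ) (σ : Finset (Fin (n + 1) × A)), y ∈ Spx σ →
      (fun a => ∑ j, y (j, a)) ∈ Spx (σ.image Prod.snd) := fun y σ hy => by
    refine ⟨fun a => Finset.sum_nonneg fun j _ => hy.1 _, fun a ha =>
      Finset.sum_eq_zero fun j _ => hy.2.1 _ fun h => ha (Finset.mem_image.2 ⟨_, h, rfl⟩), ?_⟩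
    rw [Finset.sum_comm, ← Finset.sum_product']
    exact (Spx.mono (τ := Finset.univ ×ˢ σ.image Prod.snd) (fun p hp =>
      Finset.mem_product.2 ⟨Finset.mem_univ _, Finset.mem_image_of_mem _ hp⟩) hy).2.2
  refine ⟨fun x a => ∑ j, g x (j, a), ⟨continuousOn_pi.2 fun a =>
    continuousOn_finsetSum _ fun j _ => continuousOn_pi.1 h1 _, _, fun x hx => key _ _ (h2 hx)⟩,
    fun x hx => ?_⟩
  have h4 := sp_subset (key _ _ (mem_spx_sp (h2 hx)))
  obtain ⟨a1, a2, a3⟩ := h3 x hx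
  have h5 := (Finset.card_le_card h4).trans Finset.card_image_le
  refine ⟨fun a ha => ?_, h5.trans a1.card_le, fun hs => h5.trans (a1.card_le' (a3 hs))⟩
  obtain ⟨p, hp, rfl⟩ := Finset.mem_image.1 (h4 ha)
  exact a2 p hp

end Crest.Agent.R185
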