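import Crest.Agent.R185.ActDef

/-!
# R185 TASK Act1: the action is faithful and highly transitive
-/

set_option autoImplicit false

namespace Crest.Agent.R185.Act

variable {H E : Type} [Group H] [Group E] {φ : H →* H} {P : Subgroup H} {τ : H} {ι : H →* E}
  {t : E} {χ : E →* Multiplicative ℤ}

theorem jn_apply (n : ℕ) (x : H) : jn ι t n x = t ^ n * ι x * (t ^ n)⁻¹ := rfl

theorem smul_o_eq (g : E) : g • o P ι t = (g : E ⧸ Q P ι t) := by
  rw [o, MulAction.Quotient.smul_mk, smul_eq_mul, mul_one]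

theorem smul_o_iff {g : E} : g • o P ι t = o P ι t ↔ g ∈ Q P ι t := by
  rw [smul_o_eq, o, eq_comm, QuotientGroup.eq, inv_one, one_mul]

theorem t_mem_Q : t ∈ Q P ι t := Subgroup.subset_closure (Or.inr rfl)

theorem act1_iter (hT : Tower φ P τ) (n : ℕ) (x : H) : φ^[n] x ∈ P ↔ x ∈ P := by
  induction n with
  | zero => rfl
  | succ n ih => rw [Function.iterate_succ_apply', hT.comap, ih]

theorem act1_nfQ (hT : Tower φ P τ) (h : Asc φ ι t χ) {g : E} (hg : g ∈ Q P ι t) :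
    ∃ (a b : ℕ), ∃ x ∈ P, g = t ^ a * ι x * (t ^ b)⁻¹ := by
  induction hg using Subgroup.closure_induction with
  | mem g hg =>
    rcases hg with ⟨x, hx, rfl⟩ | rfl
    · exact ⟨0, 0, x, hx, by simp⟩
    · exact ⟨1, 0, 1, P.one_mem, by simp⟩
  | one => exact ⟨0, 0, 1, P.one_mem, by simp⟩
  | mul g g' _ _ hg hg' =>
    obtain ⟨a, b, x, hx, rfl⟩ := hg
    obtain ⟨c, d, y, hy, rfl⟩ := hg'
    refine ⟨a + c, b + d, φ^[c] x * φ^[b] y,
      P.mul_mem ((act1_iter hT _ _).2 hx) ((act1_iter hT _ _).2 hy), ?_⟩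
    rw [map_mul, ← h.conj_pow, ← h.conj_pow]
    group
  | inv g _ hg =>
    obtain ⟨a, b, x, hx, rfl⟩ := hg
    exact ⟨b, a, x⁻¹, P.inv_mem hx, by rw [map_inv]; group⟩


theorem t_smul_o : t • o P ι t = o P ι t := by
  exact smul_o_iff.2 t_mem_Q

/-- elements of `Q` have the form `t ^ a * ι p * (t ^ b)⁻¹`, `p ∈ P`; `Asc.conj_pow`,
`Tower.comap` -/
theorem jn_smul_o (hT : Tower φ P τ) (h : Asc φ ι t χ) (n : ℕ) (x : H) :
    jn ι t n x • o P ι t = o P ι t ↔ x ∈ P := by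
  have ht : t ^ n ∈ Q P ι t := Subgroup.pow_mem _ t_mem_Q n
  rw [smul_o_iff, jn_apply, Subgroup.mul_mem_cancel_right _ (Subgroup.inv_mem _ ht),
    Subgroup.mul_mem_cancel_left _ ht]
  refine ⟨fun hx => ?_, fun hx => Subgroup.subset_closure (Or.inl ⟨x, hx, rfl⟩)⟩
  obtain ⟨a, b, p, hp, e⟩ := act1_nfQ hT h hx
  obtain rfl : a = b := asc1_exp_eq h.chi_ι (by rw [h.chi_t]; decide) (e ▸ h.chi_ι x)
  have h1 : φ^[a] x = p := h.inj (by rw [← h.conj_pow, e]; group)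
  exact (act1_iter hT a x).1 (h1 ▸ hp)

theorem jn_succ (h : Asc φ ι t χ) (n : ℕ) (x : H) : jn ι t (n + 1) (φ x) = jn ι t n x := by
  rw [jn_apply, jn_apply, ← h.conj, pow_succ]
  group

theorem Hn_mono (h : Asc φ ι t χ) {m n : ℕ} (hmn : m ≤ n) : Hn ι t m ≤ Hn ι t n := by
  induction hmn with
  | refl => exact le_rfl
  | step _ ih =>
    refine ih.trans ?_
    rintro _ ⟨x, rfl⟩
    exact ⟨φ x, jn_succ h _ x⟩

theorem conj_mem_Hn {n : ℕ} {g : E} (k : ℕ) :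
    t ^ k * g * (t ^ k)⁻¹ ∈ Hn ι t (n + k) ↔ g ∈ Hn ι t n := by
  refine exists_congr fun x => ?_
  rw [jn_apply, jn_apply, add_comm, pow_add]
  constructor
  · intro e
    calc t ^ n * ι x * (t ^ n)⁻¹
        = (t ^ k)⁻¹ * (t ^ k * t ^ n * ι x * (t ^ k * t ^ n)⁻¹) * t ^ k := by group
      _ = g := by rw [e]; group
  · rintro rfl
    group

/-- `Asc.nf_ker` -/
theorem mem_ker_iff (h : Asc φ ι t χ) {g : E} : g ∈ χ.ker ↔ ∃ n, g ∈ Hn ι t n := by
  constructor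
  · intro hg
    obtain ⟨a, x, rfl⟩ := h.nf_ker hg
    exact ⟨a, x, rfl⟩
  · rintro ⟨n, x, rfl⟩
    simp [MonoidHom.mem_ker, jn_apply, h.chi_ι]

theorem Sn_mono (h : Asc φ ι t χ) {m n : ℕ} (hmn : m ≤ n) : Sn P ι t m ⊆ Sn P ι t n := by
  rintro _ ⟨g, hg, rfl⟩
  exact ⟨g, Hn_mono h hmn hg, rfl⟩

/-- `Asc.nf` -/
theorem exists_mem_Sn (h : Asc φ ι t χ) (s : S P ι t) : ∃ n, s ∈ Sn P ι t n := by
  obtain ⟨g, rfl⟩ := QuotientGroup.mk_surjective s
  obtain ⟨a, b, x, rfl⟩ := h.nf g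
  refine ⟨a, _, ⟨x, rfl⟩, ?_⟩
  rw [smul_o_eq, QuotientGroup.eq, jn_apply]
  have : (t ^ a * ι x * (t ^ a)⁻¹)⁻¹ * (t ^ a * ι x * (t ^ b)⁻¹) = t ^ a * (t ^ b)⁻¹ := by group
  rw [this]
  exact Subgroup.mul_mem _ (Subgroup.pow_mem _ t_mem_Q _)
    (Subgroup.inv_mem _ (Subgroup.pow_mem _ t_mem_Q _))

theorem t_smul_f (n : ℕ) : t • f P τ ι t n = f P τ ι t (n + 1) := by
  have : t * jn ι t (n + 1) τ = jn ι t (n + 1 + 1) τ * t := by
    rw [jn_apply, jn_apply, pow_succ' t (n + 1)]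
    group
  rw [f, f, smul_smul, this, mul_smul, t_smul_o]

theorem f_mem (n : ℕ) : f P τ ι t n ∈ Sn P ι t (n + 1) := by
  exact ⟨_, ⟨τ, rfl⟩, rfl⟩

/-- `Tower.conj_mem` -/
theorem smul_f (hT : Tower φ P τ) (h : Asc φ ι t χ) {m n : ℕ} (hmn : m ≤ n) {g : E}
    (hg : g ∈ Hn ι t m) : g • f P τ ι t n = f P τ ι t n := by
  obtain ⟨x, rfl⟩ := Hn_mono h hmn hg
  have h1 := (jn_smul_o hT h (n + 1) _).2 (hT.conj_mem x)
  rw [map_mul, map_mul, map_inv, mul_smul, mul_smul, inv_smul_eq_iff, jn_succ h] at h1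
  exact h1

/-- otherwise `f n = o` (`smul_f`), `τ ∈ P`, and `conj_mem`, `comap` give `P = ⊤` -/
theorem f_not_mem (hT : Tower φ P τ) (h : Asc φ ι t χ) {m n : ℕ} (hmn : m ≤ n) :
    f P τ ι t n ∉ Sn P ι t m := by
  rintro ⟨g, hg, e⟩
  have h1 := smul_f hT h hmn (Subgroup.inv_mem _ hg)
  rw [inv_smul_eq_iff, ← e, smul_left_cancel_iff, e, eq_comm, f, jn_smul_o hT h] at h1
  refine hT.ne_top (eq_top_iff.2 fun x _ => (hT.comap x).1 ?_)
  have h2 := hT.conj_mem x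
  rwa [Subgroup.mul_mem_cancel_right _ h1, Subgroup.mul_mem_cancel_left _ (P.inv_mem h1)] at h2

theorem f_injective (hT : Tower φ P τ) (h : Asc φ ι t χ) :
    Function.Injective (f P τ ι t) := by
  intro a b hab
  by_contra hne
  rcases lt_or_gt_of_ne hne with hl | hl
  · exact f_not_mem hT h hl (hab ▸ f_mem a)
  · exact f_not_mem hT h hl (hab ▸ f_mem b)

/-- `σ = g * jn (n + 1) τ * g⁻¹` where `s = g • o`; `Tower.fix`, `Tower.comm` -/
theorem exists_swap (hT : Tower φ P τ) (h : Asc φ ι t χ) {n : ℕ} {s : S P ι t}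
    (hs : s ∈ Sn P ι t n) : ∃ σ ∈ Hn ι t (n + 1), σ • s = f P τ ι t n ∧
      (∀ s' ∈ Sn P ι t n, s' ≠ s → σ • s' = s') ∧
      ∀ g ∈ Hn ι t n, g • s = s → Commute g σ := by
  obtain ⟨g, hg, rfl⟩ := hs
  have hg' := Hn_mono h (Nat.le_succ n) hg
  refine ⟨g * jn ι t (n + 1) τ * g⁻¹,
    Subgroup.mul_mem _ (Subgroup.mul_mem _ hg' ⟨τ, rfl⟩) (Subgroup.inv_mem _ hg'), ?_, ?_, ?_⟩
  · rw [mul_smul, inv_smul_smul, mul_smul]
    exact smul_f hT h le_rfl hg
  · rintro _ ⟨g', hg₁, rfl⟩ hne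
    obtain ⟨x, hx⟩ := Subgroup.mul_mem _ (Subgroup.inv_mem _ hg) hg₁
    have hx' : x⁻¹ ∉ P := fun hx' => hne (by
      have h1 := (jn_smul_o hT h n x).2 (by simpa using hx')
      rwa [hx, mul_smul, inv_smul_eq_iff] at h1)
    have h2 := (jn_smul_o hT h (n + 1) _).2 (hT.fix _ hx')
    rw [map_mul, map_mul, map_inv (jn ι t (n + 1)), jn_succ h, map_inv, inv_inv, hx, mul_smul,
      mul_smul, inv_smul_eq_iff] at h2
    rw [mul_smul, mul_smul, smul_smul g⁻¹, h2, smul_smul, mul_inv_cancel_left]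
  · intro g₁ hg₁ e
    obtain ⟨x, hx⟩ := Subgroup.mul_mem _ (Subgroup.mul_mem _ (Subgroup.inv_mem _ hg) hg₁) hg
    have h1 : x ∈ P := by
      rw [← jn_smul_o hT h n, hx, mul_smul, mul_smul, e, inv_smul_smul]
    have h2 := ((hT.comm x h1).map (jn ι t (n + 1))).eq
    rw [jn_succ h, hx] at h2
    change _ * _ = _ * _
    calc g₁ * (g * jn ι t (n + 1) τ * g⁻¹) = g * (g⁻¹ * g₁ * g * jn ι t (n + 1) τ) * g⁻¹ := by group
      _ = _ := by rw [← h2]; group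

/-- induction on `k`: multiply on the left by the swap of `a (last k)` in the floor `n + k` -/
theorem exists_move (hT : Tower φ P τ) (h : Asc φ ι t χ) {n k : ℕ} (a : Fin k ↪ S P ι t)
    (ha : ∀ i, a i ∈ Sn P ι t n) : ∃ c ∈ Hn ι t (n + k),
      (∀ i, c • a i = f P τ ι t (n + i)) ∧ (∀ s ∈ Sn P ι t n, (∀ i, s ≠ a i) → c • s = s) ∧
      ∀ g ∈ Hn ι t n, (∀ i, g • a i = a i) → Commute g c := by
  induction k with
  | zero => exact ⟨1, Subgroup.one_mem _, fun i => i.elim0, fun s _ _ => one_smul _ _,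
      fun g _ _ => Commute.one_right g⟩
  | succ k ih =>
    obtain ⟨c, c1, c2, c3, c4⟩ := ih (Fin.castSuccEmb.trans a) fun i => ha _
    have hle : n ≤ n + k := Nat.le_add_right _ _
    obtain ⟨σ, s1, s2, s3, s4⟩ := exists_swap hT h (Sn_mono h hle (ha (Fin.last k)))
    refine ⟨σ * c, Subgroup.mul_mem _ s1 (Hn_mono h (Nat.le_succ _) c1), fun i => ?_,
      fun s hs hne => ?_, fun g hg hga => ?_⟩
    · rw [mul_smul]
      induction i using Fin.lastCases with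
      | last =>
        rw [c3 _ (ha _) fun i e => (Fin.castSucc_lt_last i).ne' (a.injective e)]
        exact s2
      | cast i =>
        have h1 : c • a i.castSucc = f P τ ι t (n + i) := c2 i
        rw [h1]
        refine s3 _ (Sn_mono h (by have := i.2; omega) (f_mem _)) fun e => ?_
        exact f_not_mem hT h (Nat.le_add_right n i) (e ▸ ha _)
    · rw [mul_smul, c3 s hs fun i => hne _, s3 s (Sn_mono h hle hs) (hne _)]
    · exact (s4 g (Hn_mono h hle hg) (hga _)).mul_right (c4 g hg fun i => hga _)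

theorem trans (hT : Tower φ P τ) (h : Asc φ ι t χ) (k : ℕ) (a b : Fin k ↪ S P ι t) :
    ∃ g ∈ χ.ker, ∀ i, g • a i = b i := by
  choose m hm using exists_mem_Sn (P := P) h
  set n := ∑ i, m (a i) + ∑ i, m (b i) with hn
  have h1 : ∀ i, m (a i) ≤ n := fun i => (Finset.single_le_sum (f := fun i => m (a i))
    (fun _ _ => Nat.zero_le _) (Finset.mem_univ i)).trans (Nat.le_add_right _ _)
  have h2 : ∀ i, m (b i) ≤ n := fun i => (Finset.single_le_sum (f := fun i => m (b i))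
    (fun _ _ => Nat.zero_le _) (Finset.mem_univ i)).trans (Nat.le_add_left _ _)
  obtain ⟨c, c1, c2, -⟩ := exists_move hT h a fun i => Sn_mono h (h1 i) (hm _)
  obtain ⟨d, d1, d2, -⟩ := exists_move hT h b fun i => Sn_mono h (h2 i) (hm _)
  refine ⟨d⁻¹ * c, (mem_ker_iff h).2 ⟨_, Subgroup.mul_mem _ (Subgroup.inv_mem _ d1) c1⟩, fun i => ?_⟩
  rw [mul_smul, c2, inv_smul_eq_iff, d2]

theorem t_pow_smul_f (k n : ℕ) : t ^ k • f P τ ι t n = f P τ ι t (n + k) := by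
  induction k with
  | zero => simp
  | succ k ih => rw [pow_succ', mul_smul, ih, t_smul_f, add_assoc]

theorem act1_faithful (hT : Tower φ P τ) (h : Asc φ ι t χ) (b k : ℕ) (x : H)
    (hg : ∀ s : S P ι t, (t ^ (b + k) * ι x * (t ^ b)⁻¹) • s = s) :
    t ^ (b + k) * ι x * (t ^ b)⁻¹ = 1 := by
  have e : t ^ (b + k) * ι x * (t ^ b)⁻¹ = jn ι t (b + k) x * t ^ k := by
    rw [jn_apply, pow_add]
    group
  have h1 := hg (f P τ ι t (b + k))
  rw [e, mul_smul, t_pow_smul_f, smul_f hT h (Nat.le_add_right _ _) ⟨x, rfl⟩] at h1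
  obtain rfl : k = 0 := by have := f_injective hT h h1; omega
  obtain ⟨u, hu⟩ := hT.free
  have h3 := hg (jn ι t (b + 1) u • o P ι t)
  rw [e, pow_zero, mul_one, add_zero, ← jn_succ h, ← inv_smul_eq_iff, smul_smul, smul_smul,
    ← map_inv, ← map_mul, ← map_mul, jn_smul_o hT h] at h3
  rw [hu x h3]
  simp


/-- If `χ g = 1`, `g = jn n x = jn (n + 1) (φ x)` fixes `jn (n + 1) u • o`: `Tower.free`.
Otherwise (replace `g` by `g⁻¹`) `g = x * t ^ k`, `k > 0`, `x ∈ Hn m`, and `g • f m = f (m + k)`. -/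
theorem faithful (hT : Tower φ P τ) (h : Asc φ ι t χ) (g : E) (hg : ∀ s : S P ι t, g • s = s) :
    g = 1 := by
  obtain ⟨a, b, x, rfl⟩ := h.nf g
  rcases le_total b a with hab | hab
  · obtain ⟨k, rfl⟩ := Nat.exists_eq_add_of_le hab
    exact act1_faithful hT h b k x hg
  · obtain ⟨k, rfl⟩ := Nat.exists_eq_add_of_le hab
    have e : (t ^ a * ι x * (t ^ (a + k))⁻¹)⁻¹ = t ^ (a + k) * ι x⁻¹ * (t ^ a)⁻¹ := by
      rw [map_inv]
      group
    rw [← inv_eq_one, e]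
    refine act1_faithful hT h a k x⁻¹ fun s => ?_
    rw [← e, inv_smul_eq_iff, hg]

/-- `Magic.mem_commutator`, `jn_succ` -/
theorem perfect (hT : Tower φ P τ) (h : Asc φ ι t χ) : ⁅χ.ker, χ.ker⁆ = χ.ker := by
  refine le_antisymm (Subgroup.commutator_le_left _ _) fun g hg => ?_
  obtain ⟨n, x, rfl⟩ := (mem_ker_iff h).1 hg
  have h1 : Hn ι t (n + 1) ≤ χ.ker := fun g hg => (mem_ker_iff h).2 ⟨_, hg⟩
  have h2 := Subgroup.mem_map_of_mem (jn ι t (n + 1)) (hT.magic.mem_commutator x)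
  rw [jn_succ h, commutator_def, Subgroup.map_commutator, ← MonoidHom.range_eq_map] at h2
  exact Subgroup.commutator_mono h1 h1 h2

end Crest.Agent.R185.Act
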