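import Crest.Agent.R185.Defs

/-!
# R185 TASK CCB: invariance properties of coarse connectedness
-/

set_option autoImplicit false

namespace Crest.Agent.R185

open Set
open scoped Pointwise

/-- coarse retracts: `f : G → K`, `r : K → G` coarsely Lipschitz with `r ∘ f` close to the
identity.  (Fill `f ∘ γ` by `Γ`, use `r ∘ Γ` in the open ball and `γ` on the sphere.) -/
theorem CC.of_retract {G K : Type*} [Group G] [Group K] {d : ℕ} (h : CC K d) (f : G → K)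
    (r : K → G)
    (hf : ∀ A : Set G, A.Finite → ∃ B : Set K, B.Finite ∧ ∀ x y, x⁻¹ * y ∈ A → (f x)⁻¹ * f y ∈ B)
    (hr : ∀ A : Set K, A.Finite → ∃ B : Set G, B.Finite ∧ ∀ x y, x⁻¹ * y ∈ A → (r x)⁻¹ * r y ∈ B)
    (hrf : ∃ C : Set G, C.Finite ∧ ∀ x, x⁻¹ * r (f x) ∈ C) : CC G d := by
  classical
  intro A hA
  obtain ⟨B₁, hB₁, h1⟩ := hf A hA
  obtain ⟨B₂, hB₂, h2⟩ := h B₁ hB₁
  obtain ⟨B₃, hB₃, h3⟩ := hr B₂ hB₂
  obtain ⟨C, hC, h4⟩ := hrf
  refine ⟨insert 1 C * B₃ * (insert 1 C)⁻¹, ((hC.insert 1).mul hB₃).mul (hC.insert 1).inv,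
    fun j hj γ hγ => ?_⟩
  obtain ⟨Γ, hΓ, hb⟩ := h2 j hj (fun z => f (γ z)) fun z hz => (hγ z hz).mono fun z' h' => h1 _ _ h'
  refine ⟨fun z => if z ∈ Metric.sphere 0 1 then γ z else r (Γ z), fun z hz => ?_,
    fun z hz => if_pos hz⟩
  have h5 : ∀ z, (if z ∈ Metric.sphere 0 1 then γ z else r (Γ z))⁻¹ * r (Γ z) ∈ insert 1 C := by
    intro z
    split_ifs with h
    · rw [hb h]
      exact mem_insert_of_mem _ (h4 _)
    · rw [inv_mul_cancel]
      exact mem_insert _ _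
  filter_upwards [hΓ z hz] with z' h'
  refine ⟨_, mul_mem_mul (h5 z) (h3 _ _ h'), _, inv_mem_inv.2 (h5 z'), ?_⟩
  simp only
  group

theorem CC.of_equiv' {G K : Type*} [Group G] [Group K] {d : ℕ} (h : CC K d) (e : G ≃* K) :
    CC G d := by
  refine h.of_retract e e.symm (fun A hA => ⟨e '' A, hA.image _, fun x y h => ⟨_, h, by simp⟩⟩)
    (fun A hA => ⟨e.symm '' A, hA.image _, fun x y h => ⟨_, h, by simp⟩⟩)
    ⟨{1}, finite_singleton _, fun x => by simp⟩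

/-- `r g = g * (rep g)⁻¹` for a finite set of representatives of the right cosets -/
theorem cc_finiteIndex_iff {G : Type*} [Group G] (K : Subgroup G) [K.FiniteIndex] {d : ℕ} :
    CC K d ↔ CC G d := by
  obtain ⟨C, hC, ρ, hρ⟩ : ∃ C : Set G, C.Finite ∧ ∃ ρ : G → K, ∀ x, x⁻¹ * ρ x ∈ C := by
    choose k hk using fun x : G => QuotientGroup.mk_out_eq_mul K x⁻¹
    exact ⟨range (Quotient.out : G ⧸ K → G), @finite_range _ (G ⧸ K) _ _, k,
      fun x => ⟨_, hk x⟩⟩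
  have h1 : ∀ A : Set K, A.Finite → ∃ B : Set G, B.Finite ∧
      ∀ x y : K, x⁻¹ * y ∈ A → (x : G)⁻¹ * y ∈ B :=
    fun A hA => ⟨Subtype.val '' A, hA.image _, fun x y h => ⟨_, h, rfl⟩⟩
  have h2 : ∀ A : Set G, A.Finite → ∃ B : Set K, B.Finite ∧
      ∀ x y : G, x⁻¹ * y ∈ A → (ρ x)⁻¹ * ρ y ∈ B := fun A hA =>
    ⟨Subtype.val ⁻¹' (C⁻¹ * A * C),
      ((hC.inv.mul hA).mul hC).preimage Subtype.val_injective.injOn, fun x y h =>
      ⟨_, mul_mem_mul (inv_mem_inv.2 (hρ x)) h, _, hρ y, by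
        simp only [Subgroup.coe_mul, Subgroup.coe_inv]; group⟩⟩
  exact ⟨fun h => h.of_retract ρ Subtype.val h2 h1 ⟨C, hC, hρ⟩, fun h =>
    h.of_retract Subtype.val ρ h1 h2
      ⟨Subtype.val ⁻¹' C, hC.preimage Subtype.val_injective.injOn, fun x => hρ x⟩⟩

end Crest.Agent.R185
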