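import Crest.Agent.R185.Act1
import Crest.Agent.R185.CCB

/-!
# R185 TASK Act2: point stabilisers
-/

set_option autoImplicit false

namespace Crest.Agent.R185.Act

variable {H E : Type} [Group H] [Group E] {φ : H →* H} {P : Subgroup H} {τ : H} {ι : H →* E}
  {t : E} {χ : E →* Multiplicative ℤ}

theorem act2_fi {Γ : Type} [Group Γ] (χ : Γ →* Multiplicative ℤ) {L : Subgroup Γ} (h : χ.ker ≤ L)
    {s : Γ} (hs : s ∈ L) (h1 : χ s ≠ 1) : L.FiniteIndex := by
  have hk : (Multiplicative.toAdd (χ s)).natAbs ≠ 0 := Int.natAbs_ne_zero.2 h1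
  have : NeZero (Multiplicative.toAdd (χ s)).natAbs := ⟨hk⟩
  let ρ : Γ →* Multiplicative (ZMod (Multiplicative.toAdd (χ s)).natAbs) :=
    (AddMonoidHom.toMultiplicative (Int.castAddHom _)).comp χ
  refine Subgroup.finiteIndex_of_le (H := ρ.ker) fun g hg => ?_
  have h2 : ((Multiplicative.toAdd (χ g) : ℤ) : ZMod (Multiplicative.toAdd (χ s)).natAbs) = 0 := hg
  rw [ZMod.intCast_zmod_eq_zero_iff_dvd, Int.natAbs_dvd] at h2
  obtain ⟨z, hz⟩ := h2
  have h3 : g * (s ^ z)⁻¹ ∈ χ.ker := by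
    rw [MonoidHom.mem_ker, map_mul, map_inv, map_zpow, mul_inv_eq_one]
    apply Multiplicative.toAdd.injective
    rw [hz, toAdd_zpow, smul_eq_mul, mul_comm]
  simpa using L.mul_mem (h h3) (L.zpow_mem hs z)

theorem act2_conj (h : Asc φ ι t χ) {n k i : ℕ} {x g : E} (hx : x ∈ Hn ι t (n + k)) (hi : n ≤ i)
    (hg : g ∈ Hn ι t (i + k)) : (x * t ^ k)⁻¹ * g * (x * t ^ k) ∈ Hn ι t i := by
  have hx' : x ∈ Hn ι t (i + k) := Hn_mono h (by omega) hx
  rw [← conj_mem_Hn k]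
  convert (Hn ι t (i + k)).mul_mem ((Hn ι t (i + k)).mul_mem ((Hn ι t (i + k)).inv_mem hx') hg) hx'
    using 1
  group

theorem act2_chi (h : Asc φ ι t χ) {n k : ℕ} (hk : 0 < k) {x : E} (hx : x ∈ Hn ι t n) :
    χ (x * t ^ k) ≠ 1 := by
  rw [map_mul, MonoidHom.mem_ker.1 ((mem_ker_iff h).2 ⟨n, hx⟩), one_mul, map_pow, h.chi_t]
  intro h1
  have h2 := congrArg Multiplicative.toAdd h1
  simp at h2
  omega

theorem act2_index (h : Asc φ ι t χ) {n k : ℕ} (hk : 0 < k) {x : E} (hx : x ∈ Hn ι t (n + k))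
    {L M : Subgroup E} (hL : x * t ^ k ∈ L) (hM : x * t ^ k ∈ M)
    (h0 : ∀ g ∈ Hn ι t n, g ∈ M → g ∈ L) : (L.subgroupOf M).FiniteIndex := by
  have h1 : ∀ l : ℕ, ∀ g ∈ Hn ι t (n + l * k), g ∈ M → g ∈ L := by
    intro l
    induction l with
    | zero => simpa using h0
    | succ l ih =>
      intro g hg hgM
      rw [add_mul, one_mul, ← add_assoc] at hg
      have h2 := ih _ (act2_conj h hx (Nat.le_add_right _ _) hg)
        (M.mul_mem (M.mul_mem (M.inv_mem hM) hgM) hM)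
      convert L.mul_mem (L.mul_mem hL h2) (L.inv_mem hL) using 1
      group
  refine act2_fi (χ.comp M.subtype) (s := ⟨_, hM⟩) (fun g hg => ?_) hL (act2_chi h hk hx)
  obtain ⟨i, hi⟩ := (mem_ker_iff h (g := g)).1 hg
  exact h1 i g (Hn_mono h (by nlinarith) hi) g.2

theorem act2_pow (h : Asc φ ι t χ) {n : ℕ} {x : E} (hx : x ∈ Hn ι t n) (l : ℕ) :
    ∃ y ∈ Hn ι t (n + l), (x * t) ^ l = y * t ^ l := by
  induction l with
  | zero => exact ⟨1, one_mem _, by simp⟩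
  | succ l ih =>
    obtain ⟨y, hy, hl⟩ := ih
    refine ⟨x * (t ^ 1 * y * (t ^ 1)⁻¹),
      mul_mem (Hn_mono h (by omega) hx) ((conj_mem_Hn 1).2 hy), ?_⟩
    rw [pow_succ', hl]
    group

/-- `⟨Hn n, t ^ k⟩ = χ⁻¹ (k ℤ)` has finite index -/
theorem finiteIndex_closure (h : Asc φ ι t χ) (n : ℕ) {k : ℕ} (hk : 0 < k) {x : E}
    (hx : x ∈ Hn ι t (n + k)) :
    (Subgroup.closure (Set.range (jn ι t n) ∪ {x * t ^ k})).FiniteIndex := by
  have h1 := act2_index h hk hx (L := Subgroup.closure (Set.range (jn ι t n) ∪ {x * t ^ k})) (M := ⊤)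
    (Subgroup.subset_closure (Or.inr rfl)) trivial fun g hg _ => Subgroup.subset_closure (Or.inl hg)
  exact ⟨by rw [← Subgroup.relIndex_top_right]; exact h1.index_ne_zero⟩

/-- Let `k = |T| > 0`, `E_T` the fixing subgroup.  By `trans` there is `t' = x * t ∈ E_T`,
`x ∈ Hn m`; take `n ≥ m` with `T ⊆ Sn n`, and `c` from `exists_move`.  Then `t'` conjugates
`Hn i ⊓ E_T` to `Hn (i + 1) ⊓ E_T` for `i ≥ n`, and with `j = c⁻¹ * jn n · * c`,
`Hn n ⊓ E_T ≤ range j ≤ Hn (n + k) ⊓ E_T` (`smul_f`).  So with `s = t' ^ k`,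
`s⁻¹ * j y * s ∈ Hn n ⊓ E_T` commutes with `c`, hence equals both `jn n (ψ y)` and `j (ψ y)` for an
endomorphism `ψ`; `s' = c * s = x' * t ^ k` with `x' ∈ Hn (n + k)` satisfies
`s'⁻¹ * jn n y * s' = jn n (ψ y)`.  `asc_subgroup_equiv` gives `⟨j H, s⟩ ≅ ⟨Hn n, s'⟩`; the right side
has finite index in `E`, the left side contains `ker χ ⊓ E_T` and `t' ^ k`, so it has finite index
in `E_T`. -/
theorem exists_finiteIndex (hT : Tower φ P τ) (h : Asc φ ι t χ) (T : Finset (S P ι t)) :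
    ∃ (K : Subgroup (fixingSubgroup E (T : Set (S P ι t)))) (L : Subgroup E),
      K.FiniteIndex ∧ L.FiniteIndex ∧ Nonempty (K ≃* L) := by
  rcases T.eq_empty_or_nonempty with rfl | hne
  · refine ⟨⊤, _, inferInstance, ?_, ⟨Subgroup.topEquiv⟩⟩
    refine Subgroup.finiteIndex_of_le (H := ⊤) fun g _ => ?_
    simp
  have hk : 0 < T.card := hne.card_pos
  let a : Fin T.card ↪ S P ι t := T.equivFin.symm.toEmbedding.trans (Function.Embedding.subtype _)
  have hfix : ∀ g : E, g ∈ fixingSubgroup E (T : Set (S P ι t)) ↔ ∀ i, g • a i = a i := by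
    intro g
    rw [mem_fixingSubgroup_iff]
    refine ⟨fun hg i => hg _ (T.equivFin.symm i).2, fun hg y hy => ?_⟩
    simpa [a] using hg (T.equivFin ⟨y, hy⟩)
  obtain ⟨x, hx, hxt⟩ := trans hT h _ (a.trans (MulAction.toPerm t).toEmbedding) a
  obtain ⟨m, hm⟩ := (mem_ker_iff h).1 hx
  choose b hb using fun i => exists_mem_Sn h (a i)
  obtain ⟨n, hmn, hn⟩ : ∃ n, m ≤ n ∧ ∀ i, a i ∈ Sn P ι t n :=
    ⟨max m (Finset.univ.sup b), le_max_left _ _, fun i =>
      Sn_mono h (le_max_of_le_right (Finset.le_sup (Finset.mem_univ i))) (hb i)⟩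
  obtain ⟨c, hc, hca, -, hcomm⟩ := exists_move hT h a hn
  obtain ⟨y, hy, hyt⟩ := act2_pow h (Hn_mono h hmn hm) T.card
  have hs : y * t ^ T.card ∈ fixingSubgroup E (T : Set (S P ι t)) := by
    rw [← hyt]
    exact pow_mem ((hfix _).2 fun i => by rw [mul_smul]; exact hxt i) _
  let j : H →* E := (MulAut.conj c⁻¹).toMonoidHom.comp (jn ι t n)
  have hj : ∀ z, j z = c⁻¹ * jn ι t n z * c := fun z => by simp [j]
  have hinj : Function.Injective (jn ι t n) := (MulAut.conj (t ^ n)).injective.comp h.inj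
  have hjE : ∀ z, j z ∈ fixingSubgroup E (T : Set (S P ι t)) := fun z => (hfix _).2 fun i => by
    rw [hj, mul_smul, mul_smul, hca, smul_f hT h (Nat.le_add_right _ _) ⟨z, rfl⟩, ← hca,
      inv_smul_smul]
  have hjH : ∀ z, j z ∈ Hn ι t (n + T.card) := fun z => by
    rw [hj]
    exact mul_mem (mul_mem (inv_mem hc) (Hn_mono h (Nat.le_add_right _ _) ⟨z, rfl⟩)) hc
  have hjeq : ∀ z, jn ι t n z ∈ fixingSubgroup E (T : Set (S P ι t)) → j z = jn ι t n z := by
    intro z hz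
    rw [hj, mul_assoc, (hcomm _ ⟨z, rfl⟩ ((hfix _).1 hz)).eq, inv_mul_cancel_left]
  let u : H →* E := (MulAut.conj (y * t ^ T.card)⁻¹).toMonoidHom.comp j
  have hu : ∀ z, u z = (y * t ^ T.card)⁻¹ * j z * (y * t ^ T.card) := fun z => by
    simp only [u, MonoidHom.comp_apply, MulEquiv.coe_toMonoidHom, MulAut.conj_apply, inv_inv]
  have huH : ∀ z, u z ∈ (jn ι t n).range := fun z => by
    rw [hu]
    exact act2_conj h hy le_rfl (hjH z)
  let ψ : H →* H := (MonoidHom.ofInjective hinj).symm.toMonoidHom.comp (u.codRestrict _ huH)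
  have hψ : ∀ z, jn ι t n (ψ z) = u z := fun z =>
    MonoidHom.apply_ofInjective_symm hinj ⟨u z, huH z⟩
  have hker : ∀ {i g}, g ∈ Hn ι t i → χ g = 1 := fun hg => (mem_ker_iff h).2 ⟨_, hg⟩
  obtain ⟨e⟩ := asc_subgroup_equiv (ψ := ψ) (χ := χ) (j := j) (j' := jn ι t n)
    (s := y * t ^ T.card) (s' := c * y * t ^ T.card) ((MulAut.conj c⁻¹).injective.comp hinj) hinj
    (fun z => hker (hjH z)) (fun z => hker (i := n) ⟨z, rfl⟩) (act2_chi h hk hy)
    (act2_chi h hk (mul_mem hc hy))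
    (fun z => by
      rw [hjeq (ψ z), hψ, hu]
      rw [hψ, hu]
      exact mul_mem (mul_mem (inv_mem hs) (hjE z)) hs)
    (fun z => by rw [hψ, hu, hj]; group)
  have hle : Subgroup.closure (Set.range j ∪ {y * t ^ T.card}) ≤
      fixingSubgroup E (T : Set (S P ι t)) := by
    rw [Subgroup.closure_le]
    rintro _ (⟨z, rfl⟩ | rfl)
    exacts [hjE z, hs]
  refine ⟨_, _, act2_index h hk hy (Subgroup.subset_closure (Or.inr rfl)) hs ?_,
    finiteIndex_closure h n hk (mul_mem hc hy), ⟨(Subgroup.subgroupOfEquivOfLe hle).trans e⟩⟩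
  rintro _ ⟨z, rfl⟩ hz
  exact Subgroup.subset_closure (Or.inl ⟨z, hjeq z hz⟩)

theorem oligo (hT : Tower φ P τ) (h : Asc φ ι t χ) (hE : CCinf E) : Oligo E (S P ι t) χ := by
  refine ⟨Infinite.of_injective _ (f_injective hT h), faithful hT h, fun z => ?_, perfect hT h,
    trans hT h, fun T d => ?_⟩
  · exact ⟨t ^ Multiplicative.toAdd z, by
      rw [map_zpow, h.chi_t, ← ofAdd_zsmul, smul_eq_mul, mul_one, ofAdd_toAdd]⟩
  · obtain ⟨K, L, hK, hL, ⟨e⟩⟩ := exists_finiteIndex hT h T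
    exact (cc_finiteIndex_iff K).1 (((cc_finiteIndex_iff L).2 (hE d)).of_equiv' e)

end Crest.Agent.R185.Act
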