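import Crest.Agent.R185.Asc1

/-!
# R185: the action of the ascending HNN extension of a tower (definitions)
-/

set_option autoImplicit false

namespace Crest.Agent.R185.Act

variable {H E : Type} [Group H] [Group E]

/-- the point stabiliser -/
def Q (P : Subgroup H) (ι : H →* E) (t : E) : Subgroup E :=
  Subgroup.closure (ι '' (P : Set H) ∪ {t})

/-- the set acted on -/
abbrev S (P : Subgroup H) (ι : H →* E) (t : E) : Type := E ⧸ Q P ι t

/-- base point -/
def o (P : Subgroup H) (ι : H →* E) (t : E) : S P ι t := ((1 : E) : E ⧸ Q P ι t)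

/-- the `n`-th copy of `H` -/
def jn (ι : H →* E) (t : E) (n : ℕ) : H →* E := (MulAut.conj (t ^ n)).toMonoidHom.comp ι

/-- the `n`-th floor of the tower -/
def Hn (ι : H →* E) (t : E) (n : ℕ) : Subgroup E := (jn ι t n).range

/-- the orbit of the base point under the `n`-th floor -/
def Sn (P : Subgroup H) (ι : H →* E) (t : E) (n : ℕ) : Set (S P ι t) :=
  {s | ∃ g ∈ Hn ι t n, g • o P ι t = s}

/-- the new point of the floor `n + 1` -/
def f (P : Subgroup H) (τ : H) (ι : H →* E) (t : E) (n : ℕ) : S P ι t :=
  jn ι t (n + 1) τ • o P ι t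

end Crest.Agent.R185.Act
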