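import Crest.Agent.R185.Nrm

/-!
# R185 TASK Asc1: ascending HNN extensions
-/

set_option autoImplicit false

namespace Crest.Agent.R185

variable {H E : Type} [Group H] [Group E] {φ : H →* H} {ι : H →* E} {t : E}
  {χ : E →* Multiplicative ℤ}

theorem asc1_conj_pow (h : ∀ x, t⁻¹ * ι x * t = ι (φ x)) (n : ℕ) (x : H) :
    (t ^ n)⁻¹ * ι x * t ^ n = ι (φ^[n] x) := by
  induction n with
  | zero => simp
  | succ n ih => rw [Function.iterate_succ_apply', ← h, ← ih, pow_succ]; group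

theorem asc1_nf (h : ∀ x, t⁻¹ * ι x * t = ι (φ x)) {g : E}
    (hg : g ∈ Subgroup.closure (Set.range ι ∪ {t})) :
    ∃ (a b : ℕ) (x : H), g = t ^ a * ι x * (t ^ b)⁻¹ := by
  induction hg using Subgroup.closure_induction with
  | mem g hg =>
    rcases hg with ⟨x, rfl⟩ | rfl
    · exact ⟨0, 0, x, by simp⟩
    · exact ⟨1, 0, 1, by simp⟩
  | one => exact ⟨0, 0, 1, by simp⟩
  | mul g g' _ _ hg hg' =>
    obtain ⟨a, b, x, rfl⟩ := hg
    obtain ⟨c, d, y, rfl⟩ := hg'
    refine ⟨a + c, b + d, φ^[c] x * φ^[b] y, ?_⟩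
    rw [map_mul, ← asc1_conj_pow h, ← asc1_conj_pow h]
    group
  | inv g _ hg =>
    obtain ⟨a, b, x, rfl⟩ := hg
    exact ⟨b, a, x⁻¹, by rw [map_inv]; group⟩

theorem asc1_exp_eq (h₁ : ∀ x, χ (ι x) = 1) (h₂ : χ t ≠ 1) {a b : ℕ} {x : H}
    (h : χ (t ^ a * ι x * (t ^ b)⁻¹) = 1) : a = b := by
  rw [map_mul, map_mul, h₁, mul_one, map_inv, map_pow, map_pow, mul_inv_eq_one] at h
  have h3 := congrArg Multiplicative.toAdd h
  rw [toAdd_pow, toAdd_pow, nsmul_eq_mul, nsmul_eq_mul] at h3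
  exact_mod_cast mul_right_cancel₀ (b := Multiplicative.toAdd (χ t)) h₂ h3

/-- a homomorphism onto an ascending HNN extension from a group with the same relations is
injective -/
theorem asc1_equiv {G : Type} [Group G] {ι₀ : H →* G} {t₀ : G}
    (h₀ : ∀ x, t₀⁻¹ * ι₀ x * t₀ = ι₀ (φ x)) (π : G →* E) (hι : ∀ x, π (ι₀ x) = ι x)
    (ht : π t₀ = t) (hinj : Function.Injective ι) (h₁ : ∀ x, χ (ι x) = 1) (h₂ : χ t ≠ 1) :
    ∃ e : Subgroup.closure (Set.range ι₀ ∪ {t₀}) ≃* Subgroup.closure (Set.range ι ∪ {t}),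
      ∀ g, (e g : E) = π g := by
  have hmap : (Subgroup.closure (Set.range ι₀ ∪ {t₀})).map π =
      Subgroup.closure (Set.range ι ∪ {t}) := by
    rw [MonoidHom.map_closure, Set.image_union, Set.image_singleton, ht, ← Set.range_comp,
      show π ∘ ι₀ = ι from funext hι]
  let p : Subgroup.closure (Set.range ι₀ ∪ {t₀}) →* Subgroup.closure (Set.range ι ∪ {t}) :=
    (π.comp (Subgroup.subtype _)).codRestrict _ fun g => hmap ▸ Subgroup.mem_map_of_mem π g.2
  have hp : Function.Bijective p := by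
    constructor
    · rw [injective_iff_map_eq_one]
      rintro ⟨g, hg⟩ h1
      have h3 : π g = 1 := congrArg Subtype.val h1
      obtain ⟨a, b, x, rfl⟩ := asc1_nf h₀ hg
      rw [map_mul, map_mul, map_inv, map_pow, map_pow, hι, ht] at h3
      obtain rfl : a = b := asc1_exp_eq h₁ h₂ (by rw [h3, map_one])
      have h4 : x = 1 := hinj (by rw [map_one]; exact conj_eq_one_iff.1 h3)
      ext
      simp [h4]
    · rintro ⟨g, hg⟩
      rw [← hmap] at hg
      obtain ⟨g', hg', rfl⟩ := hg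
      exact ⟨⟨g', hg'⟩, rfl⟩
  exact ⟨MulEquiv.ofBijective p hp, fun _ => rfl⟩

/-- Mathlib's `HNNExtension H ⊤ φ.range _` (or `HD.MH`) -/
theorem exists_asc (hφ : Function.Injective φ) : ∃ (E : Type) (_ : Group E) (ι : H →* E) (t : E)
    (χ : E →* Multiplicative ℤ), Asc φ ι t χ := by
  let θ : (⊤ : Subgroup H) ≃* φ.range := Subgroup.topEquiv.trans (MonoidHom.ofInjective hφ)
  refine ⟨HNNExtension H ⊤ φ.range θ, inferInstance, HNNExtension.of, HNNExtension.t⁻¹,
    HNNExtension.lift 1 (Multiplicative.ofAdd (-1)) (by simp), HNNExtension.of_injective θ,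
    fun x => ?_, fun x => by simp, by simp, ?_⟩
  · rw [inv_inv]
    exact (HNNExtension.equiv_eq_conj (φ := θ) ⟨x, trivial⟩).symm
  · rw [eq_top_iff]
    intro g _
    induction g using HNNExtension.induction_on with
    | of g => exact Subgroup.subset_closure (Or.inl ⟨g, rfl⟩)
    | t => exact (Subgroup.inv_mem_iff _).1 (Subgroup.subset_closure (Or.inr rfl))
    | mul x y hx hy => exact Subgroup.mul_mem _ (hx trivial) (hy trivial)
    | inv x hx => exact Subgroup.inv_mem _ (hx trivial)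

namespace Asc

theorem phi_inj (h : Asc φ ι t χ) : Function.Injective φ := by
  intro x y hxy
  have h1 := h.conj x
  rw [hxy, ← h.conj y] at h1
  exact h.inj (by simpa using h1)

theorem conj_pow (h : Asc φ ι t χ) (n : ℕ) (x : H) :
    (t ^ n)⁻¹ * ι x * t ^ n = ι (φ^[n] x) :=
  asc1_conj_pow h.conj n x

/-- normal form -/
theorem nf (h : Asc φ ι t χ) (g : E) : ∃ (a b : ℕ) (x : H), g = t ^ a * ι x * (t ^ b)⁻¹ :=
  asc1_nf h.conj (by rw [h.gen]; trivial)

theorem nf_ker (h : Asc φ ι t χ) {g : E} (hg : χ g = 1) :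
    ∃ (a : ℕ) (x : H), g = t ^ a * ι x * (t ^ a)⁻¹ := by
  obtain ⟨a, b, x, rfl⟩ := h.nf g
  obtain rfl : a = b := asc1_exp_eq h.chi_ι (by rw [h.chi_t]; decide) hg
  exact ⟨a, x, rfl⟩

/-- universal property (compare with the HNN extension: the canonical map `HNN → E` is onto, and
injective by `nf` and `χ`). -/
theorem exists_lift (h : Asc φ ι t χ) {Λ : Type} [Group Λ] (f : H →* Λ) (s : Λ)
    (hs : ∀ x, s⁻¹ * f x * s = f (φ x)) : ∃ F : E →* Λ, (∀ x, F (ι x) = f x) ∧ F t = s := by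
  obtain ⟨e, he⟩ := asc1_equiv (ι₀ := ι.prod f) (t₀ := (t, s)) (φ := φ) (χ := χ) (t := t)
    (fun x => Prod.ext (h.conj x) (hs x)) (MonoidHom.fst E Λ) (fun _ => rfl) rfl h.inj h.chi_ι
    (by rw [h.chi_t]; decide)
  let F : E →* Λ := (MonoidHom.snd E Λ).comp ((Subgroup.subtype _).comp (e.symm.toMonoidHom.comp
    ((MonoidHom.id E).codRestrict _ fun g => by rw [h.gen]; trivial)))
  have hF : ∀ g : Subgroup.closure (Set.range (ι.prod f) ∪ {(t, s)}), F g.1.1 = g.1.2 := by
    intro g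
    have h1 : ∀ hg, e.symm ⟨g.1.1, hg⟩ = g := fun hg => by
      rw [MulEquiv.symm_apply_eq]
      exact Subtype.ext (he g).symm
    exact congrArg (fun y => y.1.2) (h1 (by rw [h.gen]; trivial))
  exact ⟨F, fun x => hF ⟨(ι x, f x), Subgroup.subset_closure (Or.inl ⟨x, rfl⟩)⟩,
    hF ⟨(t, s), Subgroup.subset_closure (Or.inr rfl)⟩⟩

theorem hom_ext (h : Asc φ ι t χ) {Λ : Type} [Group Λ] {F F' : E →* Λ}
    (h₁ : ∀ x, F (ι x) = F' (ι x)) (h₂ : F t = F' t) : F = F' := by
  refine MonoidHom.eq_of_eqOn_dense h.gen ?_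
  rintro _ (⟨x, rfl⟩ | rfl)
  · exact h₁ x
  · exact h₂

theorem asc1_fp (h : Asc φ ι t χ) {Y : Type} [Finite Y] {κ : Y → H} (hκ : Gens κ)
    (Φ : FreeGroup Y →* FreeGroup Y)
    (hΦ : ∀ w, FreeGroup.lift κ (Φ w) = φ (FreeGroup.lift κ w))
    (r : Set (FreeGroup Y)) (hr : r.Finite) (hr' : ∀ w ∈ r, FreeGroup.lift κ w = 1)
    (hmin : ∀ M : Subgroup (FreeGroup Y), M.Normal → r ⊆ M → (∀ w ∈ M, Φ w ∈ M) →
      (FreeGroup.lift κ).ker ≤ M) : Group.IsFinitelyPresented E := by
  let f : FreeGroup (Option Y) →* E := FreeGroup.lift fun o => o.elim t fun y => ι (κ y)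
  let m : FreeGroup Y →* FreeGroup (Option Y) := FreeGroup.map some
  have hft : f (FreeGroup.of none) = t := by simp [f]
  have hfm : ∀ w, f (m w) = ι (FreeGroup.lift κ w) := by
    intro w
    have : f.comp m = ι.comp (FreeGroup.lift κ) := by
      ext y; simp [f, m]
    exact DFunLike.congr_fun this w
  have hsurj : Function.Surjective (FreeGroup.lift κ) := by
    rw [← MonoidHom.range_eq_top, FreeGroup.range_lift_eq_closure]
    exact hκ
  let R : Set (FreeGroup (Option Y)) := m '' r ∪ Set.range fun y : Y =>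
    (FreeGroup.of none)⁻¹ * m (FreeGroup.of y) * FreeGroup.of none * (m (Φ (FreeGroup.of y)))⁻¹
  refine Group.IsFinitelyPresented.of_surjective f ?_
    ⟨R, (hr.image _).union (Set.finite_range _), le_antisymm ?_ ?_⟩
  · rw [← MonoidHom.range_eq_top, eq_top_iff, ← h.gen, Subgroup.closure_le]
    rintro _ (⟨x, rfl⟩ | rfl)
    · obtain ⟨w, rfl⟩ := hsurj x
      exact ⟨m w, hfm w⟩
    · exact ⟨_, hft⟩
  · refine Subgroup.normalClosure_le_normal ?_
    rintro _ (⟨w, hw, rfl⟩ | ⟨y, rfl⟩)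
    · simp [MonoidHom.mem_ker, hfm, hr' w hw]
    · simp only [SetLike.mem_coe, MonoidHom.mem_ker, map_mul, map_inv, hfm, hft, hΦ, h.conj,
        mul_inv_cancel]
  · let q := QuotientGroup.mk' (Subgroup.normalClosure R)
    have hq : ∀ x ∈ R, q x = 1 := fun x hx =>
      (QuotientGroup.eq_one_iff _).2 (Subgroup.subset_normalClosure hx)
    let s := q (FreeGroup.of none)
    have hj : ∀ w, s⁻¹ * q (m w) * s = q (m (Φ w)) := by
      intro w
      have : (MulAut.conj s⁻¹).toMonoidHom.comp (q.comp m) = (q.comp m).comp Φ := by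
        ext y
        have h1 := hq _ (Or.inr ⟨y, rfl⟩)
        rw [map_mul, map_mul, map_mul, map_inv, map_inv, mul_inv_eq_one] at h1
        simpa using h1
      simpa using DFunLike.congr_fun this w
    have hker : (FreeGroup.lift κ).ker ≤ (q.comp m).ker := by
      refine hmin _ inferInstance (fun w hw => hq _ (Or.inl ⟨w, hw, rfl⟩)) fun w hw => ?_
      have h1 : q (m w) = 1 := hw
      change q (m (Φ w)) = 1
      rw [← hj, h1, mul_one, inv_mul_cancel]
    let f' := (FreeGroup.lift κ).liftOfRightInverse _ (Function.rightInverse_surjInv hsurj)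
      ⟨q.comp m, hker⟩
    have hf' : ∀ w, f' (FreeGroup.lift κ w) = q (m w) := fun w =>
      (FreeGroup.lift κ).liftOfRightInverse_comp_apply _ _ ⟨q.comp m, hker⟩ w
    obtain ⟨F, hF1, hF2⟩ := h.exists_lift f' s fun x => by
      obtain ⟨w, rfl⟩ := hsurj x
      rw [← hΦ, hf', hf', hj]
    have hFf : F.comp f = q := by
      ext o
      cases o with
      | none => exact (congrArg F hft).trans hF2
      | some y =>
        change F (f (m (FreeGroup.of y))) = q (m (FreeGroup.of y))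
        rw [hfm, hF1, hf']
    intro x hx
    have h1 : q x = 1 := by
      rw [← hFf, MonoidHom.comp_apply, MonoidHom.mem_ker.1 hx, map_one]
    exact (QuotientGroup.eq_one_iff _).1 h1

/-- finitely presented base -/
theorem fp_of_fp (h : Asc φ ι t χ) [Group.IsFinitelyPresented H] :
    Group.IsFinitelyPresented E := by
  obtain ⟨n, ψ, hψ, S, hS, hS'⟩ := Group.IsFinitelyPresented.out (G := H)
  have hκ : FreeGroup.lift (fun y => ψ (FreeGroup.of y)) = ψ := by
    ext y; simp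
  choose w hw using fun y : Fin n => hψ (φ (ψ (FreeGroup.of y)))
  refine h.asc1_fp (κ := fun y => ψ (FreeGroup.of y)) ?_ (FreeGroup.lift w) (fun u => ?_) S hS
    (fun u hu => ?_) fun M hM h1 _ => ?_
  · rw [Gens, ← FreeGroup.range_lift_eq_closure, hκ]
    exact MonoidHom.range_eq_top.2 hψ
  · rw [hκ]
    have : ψ.comp (FreeGroup.lift w) = φ.comp ψ := by
      ext y; simp [hw]
    exact DFunLike.congr_fun this u
  · rw [hκ, ← MonoidHom.mem_ker, ← hS']
    exact Subgroup.subset_normalClosure hu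
  · rw [hκ, ← hS']
    exact Subgroup.normalClosure_le_normal h1

/-- finitely `L`-presented base: `E = ⟨Y, t | r, t⁻¹ y t = Φ y⟩`.  In the group `E'` so presented
the kernel `M` of `F(Y) → E'` is normal, contains `r` and is `Φ`-invariant, hence contains `ker κ`
(`hmin`); `exists_lift` gives the inverse of `E' → E`. -/
theorem fp_of_L (h : Asc φ ι t χ) {Y : Type} [Finite Y] {κ : Y → H} (hκ : Gens κ)
    (Φ : FreeGroup Y →* FreeGroup Y)
    (hΦ : ∀ w, FreeGroup.lift κ (Φ w) = φ (FreeGroup.lift κ w))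
    (r : Set (FreeGroup Y)) (hr : r.Finite) (hr' : ∀ w ∈ r, FreeGroup.lift κ w = 1)
    (hmin : ∀ M : Subgroup (FreeGroup Y), M.Normal → r ⊆ M → (∀ w ∈ M, Φ w ∈ M) →
      (FreeGroup.lift κ).ker ≤ M) : Group.IsFinitelyPresented E :=
  h.asc1_fp hκ Φ hΦ r hr hr' hmin

end Asc

/-- Two subgroups `⟨j H, s⟩`, `⟨j' H, s'⟩` of a group with a character killing `j H`, `j' H` but
not `s`, `s'`, where `s`, `s'` induce the same endomorphism `ψ`, are isomorphic (both are ascending
HNN extensions: on `⟨j H, s⟩` the character takes values in `(χ s) ℤ`; rescale it). -/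
theorem asc_subgroup_equiv {ψ : H →* H} {χ : E →* Multiplicative ℤ} {j j' : H →* E} {s s' : E}
    (hj : Function.Injective j) (hj' : Function.Injective j') (h₁ : ∀ x, χ (j x) = 1)
    (h₁' : ∀ x, χ (j' x) = 1) (h₂ : χ s ≠ 1) (h₂' : χ s' ≠ 1)
    (h₃ : ∀ x, s⁻¹ * j x * s = j (ψ x)) (h₃' : ∀ x, s'⁻¹ * j' x * s' = j' (ψ x)) :
    Nonempty (Subgroup.closure (Set.range j ∪ {s}) ≃* Subgroup.closure (Set.range j' ∪ {s'})) := by
  have h₀ : ∀ x, ((s, s') : E × E)⁻¹ * (j.prod j') x * (s, s') = (j.prod j') (ψ x) :=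
    fun x => Prod.ext (h₃ x) (h₃' x)
  obtain ⟨e, -⟩ := asc1_equiv h₀ (MonoidHom.fst E E) (t := s) (fun _ => rfl) rfl hj h₁ h₂
  obtain ⟨e', -⟩ := asc1_equiv h₀ (MonoidHom.snd E E) (t := s') (fun _ => rfl) rfl hj' h₁' h₂'
  exact ⟨e.symm.trans e'⟩

theorem asc1_magic {A : Type} [CommGroup A] (a x00 x01 x02 x10 x11 x12 x20 x21 x22 x30 x31 x32 : A)
    (r0 : x00 * x01 * x02 = a) (r1 : x10 * x11 * x12 = a) (r2 : x20 * x21 * x22 = a)
    (r3 : x30 * x31 * x32 = a) (c0 : x00 * x10 * x20 * x30 = a) (c1 : x01 * x11 * x21 * x31 = a)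
    (c2 : x02 * x12 * x22 * x32 = a) : a = 1 := by
  have h1 : a * a * a * a = x00 * x01 * x02 * (x10 * x11 * x12) * (x20 * x21 * x22) *
    (x30 * x31 * x32) := by rw [r0, r1, r2, r3]
  have h2 : a * a * a * 1 = x00 * x10 * x20 * x30 * (x01 * x11 * x21 * x31) *
    (x02 * x12 * x22 * x32) := by rw [c0, c1, c2, mul_one]
  refine mul_left_cancel (h1.trans (Eq.trans ?_ h2.symm))
  ac_rfl

/-- in the abelianisation all diagonals agree, and the sum of the 4 rows is the sum of the 3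
columns. -/
theorem Magic.mem_commutator {K : Type} [Group K] {φ : H →* K} (h : Magic φ) (x : H) :
    φ x ∈ commutator K := by
  obtain ⟨v, -, -, hu⟩ := h
  have h1 : ∀ p, Abelianization.of (diagS φ v (some p) x) = Abelianization.of (φ x) := by
    intro p
    obtain ⟨u, hu⟩ := hu p
    have h2 := congrArg Abelianization.of (hu none x)
    rw [Equiv.swap_apply_left, map_mul, map_mul, map_inv, mul_comm, mul_inv_cancel_left] at h2
    exact h2.symm
  have r0 := h1 (Sum.inl 0)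
  have r1 := h1 (Sum.inl 1)
  have r2 := h1 (Sum.inl 2)
  have r3 := h1 (Sum.inl 3)
  have c0 := h1 (Sum.inr 0)
  have c1 := h1 (Sum.inr 1)
  have c2 := h1 (Sum.inr 2)
  simp only [diagS, map_mul] at r0 r1 r2 r3 c0 c1 c2
  rw [← Abelianization.ker_of, MonoidHom.mem_ker]
  exact asc1_magic _ _ _ _ _ _ _ _ _ _ _ _ _ r0 r1 r2 r3 c0 c1 c2

end Crest.Agent.R185
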