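import Crest.Agent.R185.Nrm

/-!
# R185 TASK RE: r.e. predicates, computability with words
-/

set_option autoImplicit false

namespace Crest.Agent.R185

/-- the word problem of a free group is decidable (`FreeGroup.reduce` is a `foldr`, hence
primitive recursive; use `Primcodable.decEq`/`Primrec.eq`). -/
theorem computable_free_eq {𝔄 : Type} [Primcodable 𝔄] :
    ComputablePred fun w : Wd 𝔄 => FreeGroup.mk w = 1 := by
  classical
  have h1 : Primrec (FreeGroup.reduce : Wd 𝔄 → Wd 𝔄) := by
    have h2 : Primrec₂ fun (_ : Wd 𝔄) (x : (𝔄 × Bool) × Wd 𝔄) =>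
        (List.casesOn x.2 [x.1] fun hd tl =>
          if x.1.1 = hd.1 ∧ x.1.2 = not hd.2 then tl else x.1 :: hd :: tl : Wd 𝔄) := by
      refine Primrec.comp (g := (Prod.snd : Wd 𝔄 × ((𝔄 × Bool) × Wd 𝔄) → _)) (f := fun x : (𝔄 × Bool) × Wd 𝔄 =>
        (List.casesOn x.2 [x.1] fun hd tl =>
          if x.1.1 = hd.1 ∧ x.1.2 = not hd.2 then tl else x.1 :: hd :: tl : Wd 𝔄)) ?_ Primrec.snd
      refine Primrec.list_casesOn (h := fun (x : (𝔄 × Bool) × Wd 𝔄) (y : (𝔄 × Bool) × Wd 𝔄) =>
        if x.1.1 = y.1.1 ∧ x.1.2 = not y.1.2 then y.2 else x.1 :: y.1 :: y.2) Primrec.snd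
        (Primrec.list_cons.comp Primrec.fst (Primrec.const [])) ?_
      exact Primrec.ite (PrimrecPred.and
        (Primrec.eq.comp (Primrec.fst.comp (Primrec.fst.comp Primrec.fst))
          (Primrec.fst.comp (Primrec.fst.comp Primrec.snd)))
        (Primrec.eq.comp (Primrec.snd.comp (Primrec.fst.comp Primrec.fst))
          (Primrec.not.comp (Primrec.snd.comp (Primrec.fst.comp Primrec.snd)))))
        (Primrec.snd.comp Primrec.snd)
        (Primrec.list_cons.comp (Primrec.fst.comp Primrec.fst)
          (Primrec.list_cons.comp (Primrec.fst.comp Primrec.snd) (Primrec.snd.comp Primrec.snd)))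
    refine (Primrec.list_foldr Primrec.id (Primrec.const []) h2).of_eq fun w => ?_
    induction w with
    | nil => rfl
    | cons x w ih => rw [FreeGroup.reduce.cons, ← ih]; rfl
  refine (Primrec.eq.comp h1 (Primrec.const [])).computablePred.of_eq fun w => ?_
  rw [← FreeGroup.toWord_eq_nil_iff, FreeGroup.toWord_mk]

theorem primrec_winv {𝔄 : Type} [Primcodable 𝔄] : Primrec (winv : Wd 𝔄 → Wd 𝔄) :=
  Primrec.list_reverse.comp (Primrec.list_map Primrec.id
    ((Primrec.fst.comp Primrec.snd).pair (Primrec.not.comp (Primrec.snd.comp Primrec.snd))).to₂)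

theorem re_computable_flatMap {α β σ : Type} [Primcodable α] [Primcodable β] [Primcodable σ]
    {f : α → List β} {g : α → β → List σ} (hf : Computable f) (hg : Computable₂ g) :
    Computable fun a => (f a).flatMap (g a) := by
  have h1 : Computable₂ fun (a : α) (y : ℕ × List σ) =>
      y.2 ++ (((f a)[y.1]?).map (g a)).getD [] :=
    Computable.list_append.comp (Computable.snd.comp Computable.snd)
      (Primrec.option_getD.to_comp.comp (Computable.option_map
        (Computable.list_getElem?.comp (hf.comp Computable.fst)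
          (Computable.fst.comp Computable.snd))
        (hg.comp (Computable.fst.comp Computable.fst) Computable.snd).to₂) (Computable.const []))
  refine (Computable.nat_rec (Computable.list_length.comp hf) (Computable.const []) h1).of_eq
    fun a => ?_
  have h2 : ∀ n : ℕ, Nat.rec (motive := fun _ => List σ) []
      (fun y IH => IH ++ (((f a)[y]?).map (g a)).getD []) n = ((f a).take n).flatMap (g a) := by
    intro n
    induction n with
    | zero => rfl
    | succ n ih =>
      rw [List.take_add_one, List.flatMap_append, ← ih]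
      dsimp only
      cases (f a)[n]? <;> simp
  rw [h2, List.take_length]

theorem computable_wsub {𝔄 𝔅 α : Type} [Primcodable 𝔄] [Primcodable 𝔅] [Primcodable α]
    {s : α → 𝔄 → Wd 𝔅} (hs : Computable fun p : α × 𝔄 => s p.1 p.2) :
    Computable fun p : α × Wd 𝔄 => wsub (s p.1) p.2 := by
  have h1 : Computable fun x : (α × Wd 𝔄) × 𝔄 × Bool => s x.1.1 x.2.1 :=
    hs.comp ((Computable.fst.comp Computable.fst).pair (Computable.fst.comp Computable.snd))
  refine re_computable_flatMap Computable.snd
    ((Computable.cond (Computable.snd.comp Computable.snd) h1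
      (primrec_winv.to_comp.comp h1)).of_eq fun x => ?_)
  obtain ⟨_, _, b⟩ := x
  cases b <;> rfl

theorem primrec_wmap {𝔄 𝔅 : Type} [Primcodable 𝔄] [Primcodable 𝔅] {f : 𝔄 → 𝔅}
    (hf : Primrec f) : Primrec (wmap f) :=
  Primrec.list_map Primrec.id
    ((hf.comp (Primrec.fst.comp Primrec.snd)).pair (Primrec.snd.comp Primrec.snd)).to₂

/-- normal form of r.e. predicates -/
theorem re_normal_form {α : Type} [Primcodable α] {p : α → Prop} (hp : REPred p) :
    ∃ q : α → ℕ → Prop, PrimrecRel q ∧ (∀ a m n, m ≤ n → q a m → q a n) ∧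
      ∀ a, p a ↔ ∃ n, q a n := by
  obtain ⟨c, hc⟩ := Nat.Partrec.Code.exists_code.1 hp
  refine ⟨fun a n => (Nat.Partrec.Code.evaln n c (Encodable.encode a)).isSome = true,
    Primrec.eq.comp (Primrec.option_isSome.comp (Nat.Partrec.Code.primrec_evaln.comp
      ((Primrec.snd.pair (Primrec.const c)).pair (Primrec.encode.comp Primrec.fst))))
      (Primrec.const true), fun a m n h h1 => ?_, fun a => ?_⟩
  · obtain ⟨x, hx⟩ := Option.isSome_iff_exists.1 h1
    exact Option.isSome_iff_exists.2 ⟨x, Nat.Partrec.Code.evaln_mono h hx⟩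
  · have h1 : p a ↔ ∃ x, x ∈ c.eval (Encodable.encode a) := by simp [hc]
    simp only [h1, Nat.Partrec.Code.evaln_complete, Option.isSome_iff_exists]
    exact exists_comm

theorem re_of_exists {α : Type} [Primcodable α] {q : α → ℕ → Prop} (hq : PrimrecRel q) :
    REPred fun a => ∃ n, q a n := by
  classical
  refine (Partrec.rfind (p := fun a n => Part.some (decide (q a n)))
    hq.computablePred.decide.partrec).dom_re.of_eq fun a => ?_
  exact Nat.rfind_dom.trans (by simp)

/-- r.e. predicates are closed under `∧`, `∨`, `∃`, `∀` over lists, computable preimages -/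
theorem re_and {α : Type} [Primcodable α] {p q : α → Prop} (hp : REPred p) (hq : REPred q) :
    REPred fun a => p a ∧ q a :=
  (hp.bind (hq.comp Computable.fst).to₂).dom_re.of_eq fun a => by simp [Part.dom_iff_mem]

theorem re_or {α : Type} [Primcodable α] {p q : α → Prop} (hp : REPred p) (hq : REPred q) :
    REPred fun a => p a ∨ q a := by
  obtain ⟨P, h1, -, h2⟩ := re_normal_form hp
  obtain ⟨Q, h3, -, h4⟩ := re_normal_form hq
  refine (re_of_exists (q := fun a n => P a n ∨ Q a n) (PrimrecPred.or h1 h3)).of_eq fun a => ?_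
  rw [h2, h4, exists_or]

theorem re_exists {α β : Type} [Primcodable α] [Primcodable β] {p : α × β → Prop}
    (hp : REPred p) : REPred fun a => ∃ b, p (a, b) := by
  classical
  obtain ⟨P, h1, -, h2⟩ := re_normal_form hp
  refine (re_of_exists (q := fun a n => ((Encodable.decode (α := β × ℕ) n).map
    fun y => decide (P (a, y.1) y.2)) = some true) (Primrec.eq.comp (Primrec.option_map
      (Primrec.decode.comp Primrec.snd) (PrimrecPred.decide (h1.comp
        ((Primrec.fst.comp Primrec.fst).pair (Primrec.fst.comp Primrec.snd))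
        (Primrec.snd.comp Primrec.snd))).to₂) (Primrec.const _))).of_eq fun a => ?_
  simp only [h2, Option.map_eq_some_iff, decide_eq_true_eq]
  exact ⟨fun ⟨_, y, _, h⟩ => ⟨y.1, y.2, h⟩,
    fun ⟨b, n, h⟩ => ⟨Encodable.encode (b, n), (b, n), Encodable.encodek _, h⟩⟩

theorem re_comp {α β : Type} [Primcodable α] [Primcodable β] {p : β → Prop} (hp : REPred p)
    {f : α → β} (hf : Computable f) : REPred fun a => p (f a) :=
  Partrec.comp hp hf

theorem re_forall_list {α β : Type} [Primcodable α] [Primcodable β] {p : α × β → Prop}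
    (hp : REPred p) : REPred fun x : α × List β => ∀ b ∈ x.2, p (x.1, b) := by
  obtain ⟨P, h1, h3, h2⟩ := re_normal_form hp
  have h4 : PrimrecRel fun (b : β) (y : α × ℕ) => P (y.1, b) y.2 :=
    h1.comp ((Primrec.fst.comp Primrec.snd).pair Primrec.fst) (Primrec.snd.comp Primrec.snd)
  refine (re_of_exists (q := fun (x : α × List β) n => ∀ b ∈ x.2, P (x.1, b) n)
    (h4.forall_mem_list.comp (Primrec.snd.comp Primrec.fst)
      ((Primrec.fst.comp Primrec.fst).pair Primrec.snd))).of_eq fun ⟨a, l⟩ => ?_
  refine ⟨fun ⟨n, h⟩ b hb => (h2 _).2 ⟨n, h b hb⟩, fun h => ?_⟩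
  induction l with
  | nil => exact ⟨0, by simp⟩
  | cons b l ih =>
    obtain ⟨n, hn⟩ := ih fun b' hb' => h b' (List.mem_cons_of_mem _ hb')
    obtain ⟨m, hm⟩ := (h2 _).1 (h b List.mem_cons_self)
    refine ⟨max m n, fun b' hb' => ?_⟩
    rcases List.mem_cons.1 hb' with rfl | hb'
    · exact h3 _ _ _ (le_max_left _ _) hm
    · exact h3 _ _ _ (le_max_right _ _) (hn b' hb')

theorem re_computablePred_eq {α β : Type} [Primcodable α] [Primcodable β] {f g : α → β}
    (hf : Computable f) (hg : Computable g) : ComputablePred fun a => f a = g a := by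
  classical
  exact Computable.computablePred ((Primrec.eq (α := β)).computablePred.decide.comp (hf.pair hg))

theorem re_eq {α β : Type} [Primcodable α] [Primcodable β] {f g : α → β} (hf : Computable f)
    (hg : Computable g) : REPred fun a => f a = g a :=
  (re_computablePred_eq hf hg).to_re

theorem re_ne {α β : Type} [Primcodable α] [Primcodable β] {f g : α → β} (hf : Computable f)
    (hg : Computable g) : REPred fun a => f a ≠ g a :=
  (re_computablePred_eq hf hg).not.to_re

/-- every predicate on a finite type is r.e. -/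
theorem re_finite {α : Type} [Primcodable α] [Finite α] (p : α → Prop) : REPred p := by
  classical
  exact (Computable.computablePred (Primrec.dom_finite _).to_comp).to_re

/-- product of conjugates -/
def reConj {𝔄 : Type} (l : List (Wd 𝔄 × Wd 𝔄 × Bool)) : Wd 𝔄 :=
  l.flatMap fun t => t.1 ++ (cond t.2.2 t.2.1 (winv t.2.1) ++ winv t.1)

theorem re_mem_normalClosure {𝔄 : Type} (R : Wd 𝔄 → Prop) (x : FreeGroup 𝔄) :
    x ∈ Subgroup.normalClosure {y | ∃ r, R r ∧ y = FreeGroup.mk r} ↔
      ∃ l : List (Wd 𝔄 × Wd 𝔄 × Bool), (∀ t ∈ l, R t.2.1) ∧ x = FreeGroup.mk (reConj l) := by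
  constructor
  · intro h
    have key : ∀ y ∈ Group.conjugatesOfSet {y | ∃ r, R r ∧ y = FreeGroup.mk r},
        ∃ u r, R r ∧ y = FreeGroup.mk u * FreeGroup.mk r * (FreeGroup.mk u)⁻¹ := by
      intro y hy
      obtain ⟨_, ⟨r, hr, rfl⟩, h1⟩ := Group.mem_conjugatesOfSet_iff.1 hy
      obtain ⟨c, rfl⟩ := isConj_iff.1 h1
      obtain ⟨u, rfl⟩ := Quot.exists_rep c
      exact ⟨u, r, hr, rfl⟩
    induction h using Subgroup.closure_induction'' with
    | one => exact ⟨[], by simp, rfl⟩
    | mem y hy =>
      obtain ⟨u, r, hr, rfl⟩ := key y hy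
      exact ⟨[(u, r, true)], by simpa, by
        simp [reConj, winv, ← FreeGroup.mul_mk, ← FreeGroup.inv_mk, mul_assoc]⟩
    | inv_mem y hy =>
      obtain ⟨u, r, hr, rfl⟩ := key y hy
      exact ⟨[(u, r, false)], by simpa, by
        simp [reConj, winv, ← FreeGroup.mul_mk, ← FreeGroup.inv_mk, mul_assoc]⟩
    | mul y z _ _ hy hz =>
      obtain ⟨l, h1, rfl⟩ := hy
      obtain ⟨l', h2, rfl⟩ := hz
      exact ⟨l ++ l', fun t ht => (List.mem_append.1 ht).elim (h1 t) (h2 t), by
        rw [FreeGroup.mul_mk, reConj, reConj, reConj, List.flatMap_append]⟩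
  · rintro ⟨l, h, rfl⟩
    induction l with
    | nil => exact Subgroup.one_mem _
    | cons t l ih =>
      obtain ⟨u, r, b⟩ := t
      have h1 : FreeGroup.mk r ∈ Subgroup.normalClosure {y | ∃ r, R r ∧ y = FreeGroup.mk r} :=
        Subgroup.subset_normalClosure ⟨r, h _ List.mem_cons_self, rfl⟩
      rw [reConj, List.flatMap_cons, ← FreeGroup.mul_mk, ← FreeGroup.mul_mk, ← FreeGroup.mul_mk,
        ← mul_assoc]
      refine Subgroup.mul_mem _ ?_ (ih fun t ht => h t (List.mem_cons_of_mem _ ht))
      simp only [winv, ← FreeGroup.inv_mk]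
      refine Subgroup.normalClosure_normal.conj_mem _ ?_ _
      cases b
      · rw [cond_false, ← FreeGroup.inv_mk]
        exact Subgroup.inv_mem _ h1
      · exact h1

theorem primrec_reConj {𝔄 : Type} [Primcodable 𝔄] : Primrec (reConj : _ → Wd 𝔄) := by
  have h1 : Primrec fun t : Wd 𝔄 × Wd 𝔄 × Bool =>
      t.1 ++ (cond t.2.2 t.2.1 (winv t.2.1) ++ winv t.1) :=
    Primrec.list_append.comp Primrec.fst (Primrec.list_append.comp
      (Primrec.cond (Primrec.snd.comp Primrec.snd) (Primrec.fst.comp Primrec.snd)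
        (primrec_winv.comp (Primrec.fst.comp Primrec.snd))) (primrec_winv.comp Primrec.fst))
  exact Primrec.list_flatMap Primrec.id (h1.comp Primrec.snd).to₂

/-- the normal closure of an r.e. set of words is r.e.: `mk w` is a product of conjugates
`mk u * (mk r)^{±1} * (mk u)⁻¹` (search over lists of triples). -/
theorem re_normalClosure {𝔄 α : Type} [Primcodable 𝔄] [Primcodable α] {R : α × Wd 𝔄 → Prop}
    (hR : REPred R) : REPred fun x : α × Wd 𝔄 =>
      FreeGroup.mk x.2 ∈ Subgroup.normalClosure {y | ∃ r, R (x.1, r) ∧ y = FreeGroup.mk r} := by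
  have h1 : REPred fun z : α × (Wd 𝔄 × Wd 𝔄 × Bool) => R (z.1, z.2.2.1) :=
    re_comp hR (Computable.fst.pair (Computable.fst.comp (Computable.snd.comp Computable.snd)))
  have h2 : REPred fun z : (α × Wd 𝔄) × List (Wd 𝔄 × Wd 𝔄 × Bool) =>
      ∀ t ∈ z.2, R (z.1.1, t.2.1) :=
    re_comp (re_forall_list h1) ((Computable.fst.comp Computable.fst).pair Computable.snd)
  have h3 : REPred fun z : (α × Wd 𝔄) × List (Wd 𝔄 × Wd 𝔄 × Bool) =>
      FreeGroup.mk (z.1.2 ++ winv (reConj z.2)) = 1 :=
    re_comp computable_free_eq.to_re (Primrec.list_append.comp (Primrec.snd.comp Primrec.fst)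
      (primrec_winv.comp (primrec_reConj.comp Primrec.snd))).to_comp
  refine (re_exists (re_and h2 h3)).of_eq fun x => ?_
  rw [re_mem_normalClosure fun r => R (x.1, r)]
  simp only [← FreeGroup.mul_mk, winv, ← FreeGroup.inv_mk, mul_inv_eq_one]

/-- in a finitely presented group the word problem is r.e. for every finite generating family -/
theorem re_wp_of_fp {𝔄 G : Type} [Primcodable 𝔄] [Finite 𝔄] [Group G]
    [Group.IsFinitelyPresented G] {g : 𝔄 → G} (hg : Gens g) :
    REPred fun w : Wd 𝔄 => wev g w = 1 := by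
  have _ := hg
  obtain ⟨n, φ, hφ, S, hS, hker⟩ := Group.IsFinitelyPresented.out (G := G)
  have h1 : ∀ a, ∃ u : Wd (Fin n), φ (FreeGroup.mk u) = g a := fun a => by
    obtain ⟨x, hx⟩ := hφ (g a)
    obtain ⟨u, rfl⟩ := Quot.exists_rep x
    exact ⟨u, hx⟩
  choose s hs using h1
  have h2 : ∀ u : Wd (Fin n), wev (φ ∘ FreeGroup.of) u = φ (FreeGroup.mk u) := fun u => by
    rw [← map_wev, wev, FreeGroup.lift_of_eq_id]
    rfl
  have h3 : ∀ L : List (Wd (Fin n)), REPred fun z : Unit × Wd (Fin n) => z.2 ∈ L := by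
    intro L
    induction L with
    | nil => exact (re_ne Computable.fst Computable.fst).of_eq fun z => by simp
    | cons r L ih =>
      exact (re_or (re_eq Computable.snd (Computable.const r)) ih).of_eq fun z => by simp
  have h4 : {y | ∃ r, r ∈ hS.toFinset.toList.map FreeGroup.toWord ∧ y = FreeGroup.mk r} = S := by
    ext y
    simp [FreeGroup.mk_toWord]
  have h5 : Computable fun w : Wd 𝔄 => ((), wsub s w) :=
    (Computable.const ()).pair ((computable_wsub (α := Unit) (s := fun _ => s)
      ((Primrec.dom_finite s).to_comp.comp Computable.snd)).comp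
        ((Computable.const ()).pair Computable.id))
  refine (re_comp (re_normalClosure (h3 (hS.toFinset.toList.map FreeGroup.toWord))) h5).of_eq
    fun w => ?_
  simp only [h4, hker, MonoidHom.mem_ker]
  simp only [← h2, wev_wsub]
  simp only [h2, hs]

end Crest.Agent.R185
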