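import Crest.Agent.R185.CertDef
import Crest.Agent.R185.RE

/-!
# R185 TASK Cert1: the calculus of certificates
-/

set_option autoImplicit false

namespace Crest.Agent.R185

open scoped Pointwise

variable {Sit E F : Type} [Primcodable E] [Primcodable F] {X : Ctx Sit E F}

theorem cert1_re_mem {γ : Type} [Primcodable γ] : REPred fun x : List γ × γ => x.2 ∈ x.1 :=
  (re_exists (p := fun z : (List γ × γ) × ℕ => z.1.1[z.2]? = some z.1.2)
    (re_eq (Computable.list_getElem?.comp (Computable.fst.comp Computable.fst) Computable.snd)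
      (Computable.option_some.comp (Computable.snd.comp Computable.fst)))).of_eq
    fun x => (List.mem_iff_getElem? (a := x.2) (l := x.1)).symm

theorem cert1_re_subset {α γ : Type} [Primcodable α] [Primcodable γ] {f g : α → List γ}
    (hf : Computable f) (hg : Computable g) : REPred fun a => f a ⊆ g a :=
  re_comp (re_forall_list cert1_re_mem) (hg.pair hf)

theorem cert1_re_index {α β : Type} [Primcodable α] [Primcodable β] [Finite β] {p : β → α → Prop}
    (h : ∀ b, REPred (p b)) : REPred fun x : β × α => p x.1 x.2 := by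
  have key : ∀ L : List β, REPred fun x : β × α => x.1 ∈ L ∧ p x.1 x.2 := by
    intro L
    induction L with
    | nil => exact (re_ne Computable.fst Computable.fst).of_eq fun z => by simp
    | cons b L ih =>
      refine (re_or (re_and (re_eq Computable.fst (Computable.const b))
        (re_comp (h b) Computable.snd)) ih).of_eq fun z => ?_
      rw [List.mem_cons, or_and_right]
      exact or_congr_left (and_congr_right fun e => by rw [e])
  have := Fintype.ofFinite β
  exact (key (Finset.univ : Finset β).toList).of_eq fun z => by simp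

theorem cert1_primrec_zip {β : Type} [Primcodable β] : Primrec fun l : List β => l.zip l.tail := by
  have h1 : Primrec₂ fun (_ : List β) (y : β × List β × List (β × β)) =>
      (y.2.1.head?.map fun b => (y.1, b)).toList ++ y.2.2 :=
    Primrec.list_append.comp (Primrec.optionToList.comp (Primrec.option_map
      (Primrec.list_head?.comp (Primrec.fst.comp (Primrec.snd.comp Primrec.snd)))
      ((Primrec.fst.comp (Primrec.snd.comp Primrec.fst)).pair Primrec.snd).to₂))
      (Primrec.snd.comp (Primrec.snd.comp Primrec.snd))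
  refine (Primrec.list_rec Primrec.id (Primrec.const []) h1).of_eq fun l => ?_
  induction l with
  | nil => rfl
  | cons a l ih =>
    dsimp only [id] at ih ⊢
    rw [ih]
    cases l <;> rfl

theorem cert1_isChain_iff {β : Type} {R : β → β → Prop} (l : List β) :
    l.IsChain R ↔ ∀ b ∈ l.zip l.tail, R b.1 b.2 := by
  induction l with
  | nil => simp
  | cons a l ih =>
    cases l with
    | nil => simp
    | cons b l =>
      rw [List.isChain_cons_cons, ih]
      simp only [List.tail_cons, List.zip_cons_cons, List.forall_mem_cons]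

theorem cert1_foldr_le {t : ℕ} {l : List ℕ} (h : ∀ n ∈ l, n ≤ t) : l.foldr max 0 ≤ t := by
  induction l with
  | nil => exact Nat.zero_le _
  | cons a l ih =>
    exact max_le (h a List.mem_cons_self) (ih fun n hn => h n (List.mem_cons_of_mem _ hn))

namespace Cert

variable {α β : Type} [Primcodable α] [Primcodable β]

/-- certificate systems may be taken monotone in the lists of atoms -/
theorem cert1_mono {J : Sit → α → Prop} {s : Sit → α → ℕ} (h : Cert X J s) :
    ∃ W : ℕ × α × List E × List F → Prop, REPred W ∧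
      (∀ σ a es fs, W (X.c σ, a, es, fs) → (∀ e ∈ es, X.Eq σ e) → (∀ f ∈ fs, X.LF σ f) → J σ a) ∧
      ∀ σ a, J σ a → ∃ es fs, (∀ es' fs', es ⊆ es' → fs ⊆ fs' → W (X.c σ, a, es', fs')) ∧
        (∀ e ∈ es, X.Eq σ e) ∧ ∀ f ∈ fs, X.LF σ f ∧ X.sz f ≤ s σ a := by
  obtain ⟨W, hW, h1, h2⟩ := h
  refine ⟨fun x => ∃ y : List E × List F, W (x.1, x.2.1, y) ∧ y.1 ⊆ x.2.2.1 ∧ y.2 ⊆ x.2.2.2,
    re_exists (p := fun z : (ℕ × α × List E × List F) × List E × List F =>
      W (z.1.1, z.1.2.1, z.2) ∧ z.2.1 ⊆ z.1.2.2.1 ∧ z.2.2 ⊆ z.1.2.2.2) (re_and ?_ (re_and ?_ ?_)),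
    ?_, fun σ a ha => ?_⟩
  · exact re_comp hW ((Computable.fst.comp Computable.fst).pair
      ((Computable.fst.comp (Computable.snd.comp Computable.fst)).pair Computable.snd))
  · exact cert1_re_subset (Computable.fst.comp Computable.snd)
      (Computable.fst.comp (Computable.snd.comp (Computable.snd.comp Computable.fst)))
  · exact cert1_re_subset (Computable.snd.comp Computable.snd)
      (Computable.snd.comp (Computable.snd.comp (Computable.snd.comp Computable.fst)))
  · rintro σ a es fs ⟨⟨es', fs'⟩, a1, a2, a3⟩ he hf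
    exact h1 σ a es' fs' a1 (fun e h => he e (a2 h)) fun f h => hf f (a3 h)
  · obtain ⟨es, fs, a1, a2, a3⟩ := h2 σ a ha
    exact ⟨es, fs, fun es' fs' b1 b2 => ⟨(es, fs), a1, b1, b2⟩, a2, a3⟩

theorem congr {J J' : Sit → α → Prop} {s s' : Sit → α → ℕ} (h : Cert X J s)
    (hJ : ∀ σ a, J σ a ↔ J' σ a) (hs : ∀ σ a, J σ a → s σ a ≤ s' σ a) : Cert X J' s' := by
  obtain ⟨W, hW, h1, h2⟩ := h
  refine ⟨W, hW, fun σ a es fs a1 a2 a3 => (hJ σ a).1 (h1 σ a es fs a1 a2 a3), fun σ a ha => ?_⟩
  obtain ⟨es, fs, a1, a2, a3⟩ := h2 σ a ((hJ σ a).2 ha)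
  exact ⟨es, fs, a1, a2, fun f hf => ⟨(a3 f hf).1, (a3 f hf).2.trans (hs σ a ((hJ σ a).2 ha))⟩⟩

theorem of_re {p : ℕ × α → Prop} (hp : REPred p) (s : Sit → α → ℕ) :
    Cert X (fun σ a => p (X.c σ, a)) s :=
  ⟨fun x => p (x.1, x.2.1), re_comp hp (Computable.fst.pair (Computable.fst.comp Computable.snd)),
    fun _ _ _ _ h _ _ => h, fun _ _ h => ⟨[], [], h, by simp, by simp⟩⟩

theorem of_re' {p : α → Prop} (hp : REPred p) (s : Sit → α → ℕ) : Cert X (fun _ a => p a) s :=
  of_re (p := fun x : ℕ × α => p x.2) (re_comp hp Computable.snd) s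

theorem eq : Cert X (fun σ (e : E) => X.Eq σ e) (fun _ _ => 0) :=
  ⟨fun x => x.2.1 ∈ x.2.2.1, re_comp cert1_re_mem
      ((Computable.fst.comp (Computable.snd.comp Computable.snd)).pair
        (Computable.fst.comp Computable.snd)),
    fun _ e _ _ h he _ => he e h, fun _ e h => ⟨[e], [], by simp, by simpa using h, by simp⟩⟩

theorem lf : Cert X (fun σ (f : F) => X.LF σ f) (fun _ f => X.sz f) :=
  ⟨fun x => x.2.1 ∈ x.2.2.2, re_comp cert1_re_mem
      ((Computable.snd.comp (Computable.snd.comp Computable.snd)).pair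
        (Computable.fst.comp Computable.snd)),
    fun _ f _ _ h _ hf => hf f h, fun _ f h => ⟨[], [f], by simp, by simp, by simpa using h⟩⟩

theorem comp {J : Sit → α → Prop} {s : Sit → α → ℕ} (h : Cert X J s) {f : ℕ × β → α}
    (hf : Computable f) :
    Cert X (fun σ b => J σ (f (X.c σ, b))) (fun σ b => s σ (f (X.c σ, b))) := by
  obtain ⟨W, hW, h1, h2⟩ := h
  exact ⟨fun x => W (x.1, f (x.1, x.2.1), x.2.2), re_comp hW (Computable.fst.pair
      ((hf.comp (Computable.fst.pair (Computable.fst.comp Computable.snd))).pair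
        (Computable.snd.comp Computable.snd))),
    fun σ b es fs => h1 σ _ es fs, fun σ b => h2 σ _⟩

theorem comp' {J : Sit → α → Prop} {s : Sit → α → ℕ} (h : Cert X J s) {f : β → α}
    (hf : Computable f) : Cert X (fun σ b => J σ (f b)) (fun σ b => s σ (f b)) :=
  h.comp (f := fun x : ℕ × β => f x.2) (hf.comp Computable.snd)

theorem and {J J' : Sit → α → Prop} {s s' : Sit → α → ℕ} (h : Cert X J s) (h' : Cert X J' s') :
    Cert X (fun σ a => J σ a ∧ J' σ a) (fun σ a => max (s σ a) (s' σ a)) := by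
  obtain ⟨W, hW, h1, h2⟩ := h.cert1_mono
  obtain ⟨W', hW', h1', h2'⟩ := h'.cert1_mono
  refine ⟨fun x => W x ∧ W' x, re_and hW hW', fun σ a es fs w he hf =>
    ⟨h1 σ a es fs w.1 he hf, h1' σ a es fs w.2 he hf⟩, fun σ a ha => ?_⟩
  obtain ⟨es, fs, a1, a2, a3⟩ := h2 σ a ha.1
  obtain ⟨es', fs', b1, b2, b3⟩ := h2' σ a ha.2
  refine ⟨es ++ es', fs ++ fs',
    ⟨a1 _ _ (List.subset_append_left _ _) (List.subset_append_left _ _),
      b1 _ _ (List.subset_append_right _ _) (List.subset_append_right _ _)⟩,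
    fun e he => (List.mem_append.1 he).elim (a2 e) (b2 e), fun f hf => ?_⟩
  rcases List.mem_append.1 hf with hf | hf
  · exact ⟨(a3 f hf).1, (a3 f hf).2.trans (le_max_left _ _)⟩
  · exact ⟨(b3 f hf).1, (b3 f hf).2.trans (le_max_right _ _)⟩

theorem or {J J' : Sit → α → Prop} {s s' t : Sit → α → ℕ} (h : Cert X J s) (h' : Cert X J' s')
    (ht : ∀ σ a, J σ a ∨ J' σ a → (J σ a ∧ s σ a ≤ t σ a) ∨ (J' σ a ∧ s' σ a ≤ t σ a)) :
    Cert X (fun σ a => J σ a ∨ J' σ a) t := by
  obtain ⟨W, hW, h1, h2⟩ := h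
  obtain ⟨W', hW', h1', h2'⟩ := h'
  refine ⟨fun x => W x ∨ W' x, re_or hW hW', fun σ a es fs w he hf =>
    w.imp (fun w => h1 σ a es fs w he hf) fun w => h1' σ a es fs w he hf, fun σ a ha => ?_⟩
  rcases ht σ a ha with ⟨b1, b2⟩ | ⟨b1, b2⟩
  · obtain ⟨es, fs, a1, a2, a3⟩ := h2 σ a b1
    exact ⟨es, fs, Or.inl a1, a2, fun f hf => ⟨(a3 f hf).1, (a3 f hf).2.trans b2⟩⟩
  · obtain ⟨es, fs, a1, a2, a3⟩ := h2' σ a b1
    exact ⟨es, fs, Or.inr a1, a2, fun f hf => ⟨(a3 f hf).1, (a3 f hf).2.trans b2⟩⟩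

theorem ex {J : Sit → α × β → Prop} {s : Sit → α × β → ℕ} (h : Cert X J s) {t : Sit → α → ℕ}
    (ht : ∀ σ a, (∃ b, J σ (a, b)) → ∃ b, J σ (a, b) ∧ s σ (a, b) ≤ t σ a) :
    Cert X (fun σ a => ∃ b, J σ (a, b)) t := by
  obtain ⟨W, hW, h1, h2⟩ := h
  refine ⟨fun x => ∃ b, W (x.1, (x.2.1, b), x.2.2),
    re_exists (p := fun z : (ℕ × α × List E × List F) × β => W (z.1.1, (z.1.2.1, z.2), z.1.2.2))
      (re_comp hW ((Computable.fst.comp Computable.fst).pair
        (((Computable.fst.comp (Computable.snd.comp Computable.fst)).pair Computable.snd).pair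
          (Computable.snd.comp (Computable.snd.comp Computable.fst))))),
    fun σ a es fs ⟨b, w⟩ he hf => ⟨b, h1 σ _ es fs w he hf⟩, fun σ a ha => ?_⟩
  obtain ⟨b, b1, b2⟩ := ht σ a ha
  obtain ⟨es, fs, a1, a2, a3⟩ := h2 σ _ b1
  exact ⟨es, fs, ⟨b, a1⟩, a2, fun f hf => ⟨(a3 f hf).1, (a3 f hf).2.trans b2⟩⟩

theorem all {J : Sit → α × β → Prop} {s : Sit → α × β → ℕ} (h : Cert X J s) :
    Cert X (fun σ (x : α × List β) => ∀ b ∈ x.2, J σ (x.1, b))
      (fun σ x => (x.2.map fun b => s σ (x.1, b)).foldr max 0) := by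
  obtain ⟨W, hW, h1, h2⟩ := h.cert1_mono
  have hre : REPred fun z : (ℕ × α × List E × List F) × β => W (z.1.1, (z.1.2.1, z.2), z.1.2.2) :=
    re_comp hW ((Computable.fst.comp Computable.fst).pair
      (((Computable.fst.comp (Computable.snd.comp Computable.fst)).pair Computable.snd).pair
        (Computable.snd.comp (Computable.snd.comp Computable.fst))))
  refine ⟨fun x => ∀ b ∈ x.2.1.2, W (x.1, (x.2.1.1, b), x.2.2),
    re_comp (f := fun x : ℕ × (α × List β) × List E × List F => ((x.1, x.2.1.1, x.2.2), x.2.1.2))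
      (re_forall_list hre) ((Computable.fst.pair
        ((Computable.fst.comp (Computable.fst.comp Computable.snd)).pair
          (Computable.snd.comp Computable.snd))).pair
        (Computable.snd.comp (Computable.fst.comp Computable.snd))),
    fun σ x es fs w he hf b hb => h1 σ _ es fs (w b hb) he hf, fun σ ⟨a, l⟩ hl => ?_⟩
  suffices H : ∃ es fs, (∀ es' fs', es ⊆ es' → fs ⊆ fs' → ∀ b ∈ l, W (X.c σ, (a, b), es', fs')) ∧
      (∀ e ∈ es, X.Eq σ e) ∧
      ∀ f ∈ fs, X.LF σ f ∧ X.sz f ≤ (l.map fun b => s σ (a, b)).foldr max 0 by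
    obtain ⟨es, fs, a1, a2, a3⟩ := H
    exact ⟨es, fs, a1 es fs (List.Subset.refl _) (List.Subset.refl _), a2, a3⟩
  induction l with
  | nil => exact ⟨[], [], by simp, by simp, by simp⟩
  | cons b l ih =>
    obtain ⟨es, fs, a1, a2, a3⟩ := h2 σ _ (hl b List.mem_cons_self)
    obtain ⟨es', fs', b1, b2, b3⟩ := ih fun b' hb' => hl b' (List.mem_cons_of_mem _ hb')
    refine ⟨es ++ es', fs ++ fs', fun es'' fs'' c1 c2 b' hb' => ?_,
      fun e he => (List.mem_append.1 he).elim (a2 e) (b2 e), fun f hf => ?_⟩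
    · obtain ⟨c3, c4⟩ := List.append_subset.1 c1
      obtain ⟨c5, c6⟩ := List.append_subset.1 c2
      rcases List.mem_cons.1 hb' with rfl | hb'
      · exact a1 _ _ c3 c5
      · exact b1 _ _ c4 c6 b' hb'
    · rcases List.mem_append.1 hf with hf | hf
      · exact ⟨(a3 f hf).1, (a3 f hf).2.trans (le_max_left _ _)⟩
      · exact ⟨(b3 f hf).1, (b3 f hf).2.trans (le_max_right _ _)⟩

theorem chain {J : Sit → α × β × β → Prop} {s : Sit → α × β × β → ℕ} (h : Cert X J s) :
    Cert X (fun σ (x : α × List β) => x.2.IsChain fun b b' => J σ (x.1, b, b'))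
      (fun σ x => ((x.2.zip x.2.tail).map fun b => s σ (x.1, b)).foldr max 0) :=
  (h.all.comp' (f := fun x : α × List β => (x.1, x.2.zip x.2.tail))
    (Computable.fst.pair (cert1_primrec_zip.to_comp.comp Computable.snd))).congr
    (fun σ x => (cert1_isChain_iff (R := fun b b' => J σ (x.1, b, b')) x.2).symm) fun _ _ _ => le_rfl

theorem forall_fin [Finite β] {J : Sit → α × β → Prop} {s : Sit → α × β → ℕ} (h : Cert X J s)
    {t : Sit → α → ℕ} (ht : ∀ σ a b, s σ (a, b) ≤ t σ a) :
    Cert X (fun σ a => ∀ b, J σ (a, b)) t := by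
  have := Fintype.ofFinite β
  refine (h.all.comp' (f := fun a : α => (a, (Finset.univ : Finset β).toList))
    (Computable.id.pair (Computable.const _))).congr (fun σ a => by simp) fun σ a _ => ?_
  refine cert1_foldr_le fun n hn => ?_
  obtain ⟨b, -, rfl⟩ := List.mem_map.1 hn
  exact ht σ a b

/-- finitely many certificate systems, indexed by a finite type -/
theorem finite_index [Finite β] {J : β → Sit → α → Prop} {s : β → Sit → α → ℕ}
    (h : ∀ b, Cert X (J b) (s b)) :
    Cert X (fun σ (x : β × α) => J x.1 σ x.2) (fun σ x => s x.1 σ x.2) := by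
  choose W hW h1 h2 using h
  exact ⟨fun x => W x.2.1.1 (x.1, x.2.1.2, x.2.2),
    re_comp (f := fun x : ℕ × (β × α) × List E × List F => (x.2.1.1, x.1, x.2.1.2, x.2.2))
      (cert1_re_index hW) ((Computable.fst.comp (Computable.fst.comp Computable.snd)).pair
        (Computable.fst.pair ((Computable.snd.comp (Computable.fst.comp Computable.snd)).pair
          (Computable.snd.comp Computable.snd)))),
    fun σ x => h1 x.1 σ x.2, fun σ x => h2 x.1 σ x.2⟩

end Cert

end Crest.Agent.R185
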