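import Crest.Agent.R185.Cert1

/-!
# R185 TASK Cert2: certificates in marked groups
-/

set_option autoImplicit false

namespace Crest.Agent.R185

open scoped Pointwise

variable {Sit E F : Type} [Primcodable E] [Primcodable F] {X : Ctx Sit E F}

theorem c2_map_wev {𝔄 𝔅 G H : Type} [Group G] [Group H] (f : G →* H) {g : 𝔄 → G} {h : 𝔅 → H}
    {s : 𝔄 → Wd 𝔅} (hs : ∀ a, f (g a) = wev h (s a)) (w : Wd 𝔄) :
    f (wev g w) = wev h (wsub s w) := by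
  rw [map_wev, wev_wsub]
  congr 1
  funext a
  exact hs a

theorem c2_mem_closure {𝔄 G : Type} [Group G] (g : 𝔄 → G) (L : List (Wd 𝔄)) (x : G) :
    x ∈ (Subgroup.closure {x | ∃ w ∈ L, x = wev g w} : Set G) ↔
      ∃ u : Wd ℕ, x = wev g (wsub (fun n => L.getD n []) u) := by
  have h1 : Subgroup.closure {x | ∃ w ∈ L, x = wev g w} =
      Subgroup.closure (Set.range fun n => wev g (L.getD n [])) := by
    apply le_antisymm
    · refine Subgroup.closure_mono ?_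
      rintro _ ⟨w, hw, rfl⟩
      obtain ⟨n, hn, rfl⟩ := List.getElem_of_mem hw
      exact ⟨n, by simp [hn]⟩
    · refine (Subgroup.closure_le _).2 ?_
      rintro _ ⟨n, rfl⟩
      by_cases hn : n < L.length
      · exact Subgroup.subset_closure ⟨L[n], List.getElem_mem hn, by simp [hn]⟩
      · have h2 : L.getD n [] = [] := List.getD_eq_default _ _ (by omega)
        simp only [h2, wev_nil, SetLike.mem_coe]
        exact Subgroup.one_mem _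
  rw [h1]
  constructor
  · intro hx
    obtain ⟨u, hu⟩ := exists_wev_of_mem hx
    exact ⟨u, by rw [wev_wsub, hu]⟩
  · rintro ⟨u, rfl⟩
    rw [wev_wsub]
    exact wev_mem_closure _ _

theorem c2_graph_aux {Γ G H : Type} [Group Γ] [Group G] [Group H] (α : Γ →* G) (β : Γ →* H)
    {Q₁ : Subgroup G} {Q₂ : Subgroup H} (hQ : ∀ γ, β γ ∈ Q₂ → α γ ∈ Q₁) {x : G} {y : H}
    {γ δ : Γ} (h₁ : y * (β γ)⁻¹ ∈ Q₂) (h₂ : y * (β δ)⁻¹ ∈ Q₂) (h₃ : x * (α γ)⁻¹ ∈ Q₁) :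
    x * (α δ)⁻¹ ∈ Q₁ := by
  have h4 : β (γ * δ⁻¹) ∈ Q₂ := by
    have h5 := Q₂.mul_mem (Q₂.inv_mem h₁) h₂
    have h6 : (y * (β γ)⁻¹)⁻¹ * (y * (β δ)⁻¹) = β (γ * δ⁻¹) := by
      rw [map_mul, map_inv]; group
    rwa [h6] at h5
  have h7 := Q₁.mul_mem h₃ (hQ _ h4)
  have h8 : x * (α γ)⁻¹ * α (γ * δ⁻¹) = x * (α δ)⁻¹ := by
    rw [map_mul, map_inv]; group
  rwa [h8] at h7

theorem c2_wsub {𝔄 𝔅 α β : Type} [Primcodable 𝔄] [Primcodable 𝔅] [Primcodable α] [Primcodable β]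
    {s : α → 𝔄 → Wd 𝔅} (hs : Computable fun p : α × 𝔄 => s p.1 p.2) {a : β → α} {w : β → Wd 𝔄}
    (ha : Computable a) (hw : Computable w) : Computable fun b => wsub (s (a b)) (w b) :=
  ((computable_wsub hs).comp (ha.pair hw)).of_eq fun _ => rfl

theorem c2_div {𝔄 β : Type} [Primcodable 𝔄] [Primcodable β] {u w : β → Wd 𝔄}
    (hu : Computable u) (hw : Computable w) : Computable fun b => u b ++ winv (w b) :=
  Primrec.list_append.to_comp.comp hu (primrec_winv.to_comp.comp hw)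

/-- first projection on letters -/
def c2S₁ {𝔄 𝔅 : Type} : 𝔄 ⊕ 𝔅 → Wd 𝔄 := Sum.elim (fun a => [(a, true)]) fun _ => []

/-- second projection on letters -/
def c2S₂ {𝔄 𝔅 : Type} : 𝔄 ⊕ 𝔅 → Wd 𝔅 := Sum.elim (fun _ => []) fun b => [(b, true)]

theorem c2_computable_S₁ {𝔄 𝔅 : Type} [Primcodable 𝔄] [Primcodable 𝔅] :
    Computable (c2S₁ : 𝔄 ⊕ 𝔅 → Wd 𝔄) := by
  have h1 : Primrec fun x : 𝔄 ⊕ 𝔅 =>
      (Sum.casesOn x (fun a => [(a, true)]) (fun _ => []) : Wd 𝔄) :=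
    Primrec.sumCasesOn Primrec.id
      (Primrec.list_cons.comp (Primrec.snd.pair (Primrec.const true)) (Primrec.const [])).to₂
      (Primrec.const []).to₂
  exact (h1.of_eq fun x => by cases x <;> rfl).to_comp

theorem c2_computable_S₂ {𝔄 𝔅 : Type} [Primcodable 𝔄] [Primcodable 𝔅] :
    Computable (c2S₂ : 𝔄 ⊕ 𝔅 → Wd 𝔅) := by
  have h1 : Primrec fun x : 𝔄 ⊕ 𝔅 =>
      (Sum.casesOn x (fun _ => []) (fun b => [(b, true)]) : Wd 𝔅) :=
    Primrec.sumCasesOn Primrec.id (Primrec.const []).to₂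
      (Primrec.list_cons.comp (Primrec.snd.pair (Primrec.const true)) (Primrec.const [])).to₂
  exact (h1.of_eq fun x => by cases x <;> rfl).to_comp

section Groups

variable {𝔄 𝔅 : Type} [Primcodable 𝔄] [Primcodable 𝔅] {G H : Sit → Type} [∀ σ, Group (G σ)]
  [∀ σ, Group (H σ)] {g : ∀ σ, 𝔄 → G σ} {h : ∀ σ, 𝔅 → H σ} {N : ∀ σ, Nrm (G σ)}
  {M : ∀ σ, Nrm (H σ)} {D : ℕ → ℕ}

/-- equality of two words -/
theorem CertEq.eq₂ (hg : CertEq X g) :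
    Cert X (fun σ (w : Wd 𝔄 × Wd 𝔄) => wev (g σ) w.1 = wev (g σ) w.2) (fun _ _ => 0) := by
  have h1 : Computable fun w : Wd 𝔄 × Wd 𝔄 => w.1 ++ winv w.2 :=
    (Primrec.list_append.comp Primrec.fst (primrec_winv.comp Primrec.snd)).to_comp
  refine (Cert.comp' hg h1).congr (fun σ a => ?_) (fun _ _ _ => le_rfl)
  simp only [wev_append, wev_winv, mul_inv_eq_one]

/-- equality in a subgroup -/
theorem CertEq.of_embed (hh : CertEq X h) (j : ∀ σ, G σ →* H σ)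
    (hj : ∀ σ, Function.Injective (j σ)) {s : ℕ → 𝔄 → Wd 𝔅}
    (hs : Computable fun p : ℕ × 𝔄 => s p.1 p.2)
    (hjs : ∀ σ a, j σ (g σ a) = wev (h σ) (s (X.c σ) a)) : CertEq X g := by
  refine (Cert.comp hh (computable_wsub hs)).congr (fun σ w => ?_) (fun _ _ _ => le_rfl)
  rw [← c2_map_wev (j σ) (hjs σ) w]
  exact map_eq_one_iff (j σ) (hj σ)

theorem CertEq.certS (hg : CertEq X g) : CertS X g N D fun _ => {1} := by
  exact Cert.congr hg (fun _ _ => Iff.rfl) (fun _ _ _ => Nat.zero_le _)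

/-- change of the norm -/
theorem CertS.mono_nrm {S : ∀ σ, Set (G σ)} (hS : CertS X g N D S) {N' : ∀ σ, Nrm (G σ)}
    {D' : ℕ → ℕ} (h : ∀ σ x, D (N σ x) ≤ D' (N' σ x)) : CertS X g N' D' S := by
  exact Cert.congr hS (fun _ _ => Iff.rfl) (fun _ _ _ => h _ _)

/-- an r.e. set of words in a constant group -/
theorem certS_of_re {G₀ : Type} [Group G₀] {g₀ : 𝔄 → G₀} {S : Set G₀} {N₀ : Sit → Nrm G₀}
    (hS : REPred fun w : Wd 𝔄 => wev g₀ w ∈ S) :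
    CertS X (G := fun _ => G₀) (fun _ => g₀) N₀ D fun _ => S := by
  exact Cert.of_re' hS _

theorem CertS.mono {S : ∀ σ, Set (G σ)} (hS : CertS X g N D S) {D' : ℕ → ℕ} (hD : ∀ n, D n ≤ D' n) :
    CertS X g N D' S := by
  exact Cert.congr hS (fun _ _ => Iff.rfl) (fun _ _ _ => hD _)

theorem CertS.congr {S S' : ∀ σ, Set (G σ)} (hS : CertS X g N D S) (h : ∀ σ, S σ = S' σ) :
    CertS X g N D S' := by
  exact Cert.congr hS (fun σ _ => by rw [h σ]) (fun _ _ _ => le_rfl)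

theorem CertS.union {S S' : ∀ σ, Set (G σ)} (hS : CertS X g N D S) (hS' : CertS X g N D S') :
    CertS X g N D fun σ => S σ ∪ S' σ := by
  exact Cert.or hS hS' (fun _ _ h => h.imp (fun h => ⟨h, le_rfl⟩) (fun h => ⟨h, le_rfl⟩))

theorem CertS.inter {S S' : ∀ σ, Set (G σ)} (hS : CertS X g N D S) (hS' : CertS X g N D S') :
    CertS X g N D fun σ => S σ ∩ S' σ := by
  exact (Cert.and hS hS').congr (fun _ _ => Iff.rfl) (fun _ _ _ => (max_self _).le)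

theorem CertS.empty : CertS X g N D fun _ => ∅ := by
  refine (Cert.of_re' (p := fun _ : Wd 𝔄 => (0 : ℕ) ≠ 0)
    (re_ne (Computable.const 0) (Computable.const 0)) _).congr (fun _ _ => by simp)
    (fun _ _ _ => le_rfl)

theorem CertS.univ : CertS X g N D fun _ => Set.univ := by
  refine (Cert.of_re' (p := fun _ : Wd 𝔄 => (0 : ℕ) = 0)
    (re_eq (Computable.const 0) (Computable.const 0)) _).congr (fun _ _ => by simp)
    (fun _ _ _ => le_rfl)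

/-- preimage under a norm-controlled homomorphism given on generators by words -/
theorem CertS.comap {S : ∀ σ, Set (H σ)} (hS : CertS X h M D S) (f : ∀ σ, G σ →* H σ)
    {s : ℕ → 𝔄 → Wd 𝔅} (hs : Computable fun p : ℕ × 𝔄 => s p.1 p.2)
    (hfs : ∀ σ a, f σ (g σ a) = wev (h σ) (s (X.c σ) a)) {D' : ℕ → ℕ}
    (hN : ∀ σ x, D (M σ (f σ x)) ≤ D' (N σ x)) : CertS X g N D' fun σ => f σ ⁻¹' S σ := by
  refine (Cert.comp hS (computable_wsub hs)).congr (fun σ w => ?_) (fun σ w _ => ?_)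
  · rw [← c2_map_wev (f σ) (hfs σ) w]; rfl
  · rw [← c2_map_wev (f σ) (hfs σ) w]; exact hN _ _

/-- membership in a subgroup generated by computably given words -/
theorem certS_closure (hg : CertEq X g) {L : ℕ → List (Wd 𝔄)} (hL : Computable L) :
    CertS X g N D fun σ =>
      (Subgroup.closure {x | ∃ w ∈ L (X.c σ), x = wev (g σ) w} : Set (G σ)) := by
  have h1 : Computable fun p : ℕ × ℕ => (L p.1).getD p.2 [] :=
    (Primrec.list_getD ([] : Wd 𝔄)).to_comp.comp (hL.comp Computable.fst) Computable.snd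
  have h2 : Computable fun p : ℕ × Wd 𝔄 × Wd ℕ =>
      (p.2.1, wsub (fun n => (L p.1).getD n []) p.2.2) :=
    (Computable.fst.comp Computable.snd).pair
      (c2_wsub (s := fun c n => (L c).getD n []) h1 Computable.fst
        (Computable.snd.comp Computable.snd))
  have h3 := Cert.ex (Cert.comp hg.eq₂ h2) (t := fun σ w => D (N σ (wev (g σ) w)))
    (fun _ _ ⟨b, hb⟩ => ⟨b, hb, Nat.zero_le _⟩)
  refine h3.congr (fun σ w => ?_) (fun _ _ _ => le_rfl)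
  exact (c2_mem_closure (g σ) (L (X.c σ)) (wev (g σ) w)).symm

/-- non-membership in the set of fixed points of an endomorphism given by words (retracts):
`x ≠ f x` iff `x⁻¹ * f x ≠ 1`. -/
theorem certS_not_fixed (hD : Monotone D) (hne : CertS X g N D fun _ => {1}ᶜ) (f : ∀ σ, G σ →* G σ)
    {s : ℕ → 𝔄 → Wd 𝔄} (hs : Computable fun p : ℕ × 𝔄 => s p.1 p.2)
    (hfs : ∀ σ a, f σ (g σ a) = wev (g σ) (s (X.c σ) a)) (hN : ∀ σ x, N σ (f σ x) ≤ N σ x) :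
    CertS X g N (fun n => D (2 * n)) fun σ => {x | f σ x = x}ᶜ := by
  have h1 : Computable fun p : ℕ × Wd 𝔄 => winv p.2 ++ wsub (s p.1) p.2 :=
    Primrec.list_append.to_comp.comp (primrec_winv.to_comp.comp Computable.snd)
      (computable_wsub hs)
  refine (Cert.comp hne h1).congr (fun σ w => ?_) (fun σ w _ => ?_)
  · simp only [wev_append, wev_winv, ← c2_map_wev (f σ) (hfs σ) w, Set.mem_compl_iff,
      Set.mem_singleton_iff, Set.mem_ofPred_eq, inv_mul_eq_one]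
    exact not_congr eq_comm
  · simp only [wev_append, wev_winv, ← c2_map_wev (f σ) (hfs σ) w]
    refine hD ?_
    have h2 := (N σ).mul (wev (g σ) w)⁻¹ (f σ (wev (g σ) w))
    have h3 := (N σ).inv (wev (g σ) w)
    have h4 := hN σ (wev (g σ) w)
    omega

/-- generators of a product -/
def prodGens {𝔄 𝔅 G H : Type} [Group G] [Group H] (g : 𝔄 → G) (h : 𝔅 → H) : 𝔄 ⊕ 𝔅 → G × H :=
  Sum.elim (fun a => (g a, 1)) (fun b => (1, h b))

theorem c2_fst_gen {𝔄 𝔅 G H : Type} [Group G] [Group H] (g : 𝔄 → G) (h : 𝔅 → H) (a : 𝔄 ⊕ 𝔅) :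
    MonoidHom.fst G H (prodGens g h a) = wev g (c2S₁ a) := by
  cases a <;> simp [prodGens, c2S₁]

theorem c2_snd_gen {𝔄 𝔅 G H : Type} [Group G] [Group H] (g : 𝔄 → G) (h : 𝔅 → H) (a : 𝔄 ⊕ 𝔅) :
    MonoidHom.snd G H (prodGens g h a) = wev h (c2S₂ a) := by
  cases a <;> simp [prodGens, c2S₂]

theorem prodGens_gens {𝔄 𝔅 G H : Type} [Group G] [Group H] {g : 𝔄 → G} {h : 𝔅 → H}
    (hg : Gens g) (hh : Gens h) : Gens (prodGens g h) := by
  refine eq_top_iff.2 fun x _ => ?_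
  obtain ⟨u, hu⟩ := hg.exists_wev x.1
  obtain ⟨w, hw⟩ := hh.exists_wev x.2
  have h1 : wev (prodGens g h) (wmap Sum.inl u) = (x.1, 1) := by
    rw [wev_wmap, ← hu]
    exact (map_wev (MonoidHom.inl G H) g u).symm
  have h2 : wev (prodGens g h) (wmap Sum.inr w) = (1, x.2) := by
    rw [wev_wmap, ← hw]
    exact (map_wev (MonoidHom.inr G H) h w).symm
  have h3 : x = wev (prodGens g h) (wmap Sum.inl u ++ wmap Sum.inr w) := by
    rw [wev_append, h1, h2]; simp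
  rw [h3]
  exact wev_mem_closure _ _

theorem CertS.fst {S : ∀ σ, Set (G σ)} (hS : CertS X g N D S) {P : ∀ σ, Nrm (G σ × H σ)}
    {D' : ℕ → ℕ} (hP : ∀ σ x, D (N σ x.1) ≤ D' (P σ x)) :
    CertS X (fun σ => prodGens (g σ) (h σ)) P D' fun σ => Prod.fst ⁻¹' S σ := by
  exact hS.comap (fun σ => MonoidHom.fst (G σ) (H σ)) (s := fun _ => c2S₁)
    (c2_computable_S₁.comp Computable.snd) (fun σ a => c2_fst_gen _ _ a) hP

theorem CertS.snd {S : ∀ σ, Set (H σ)} (hS : CertS X h M D S) {P : ∀ σ, Nrm (G σ × H σ)}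
    {D' : ℕ → ℕ} (hP : ∀ σ x, D (M σ x.2) ≤ D' (P σ x)) :
    CertS X (fun σ => prodGens (g σ) (h σ)) P D' fun σ => Prod.snd ⁻¹' S σ := by
  exact hS.comap (fun σ => MonoidHom.snd (G σ) (H σ)) (s := fun _ => c2S₂)
    (c2_computable_S₂.comp Computable.snd) (fun σ a => c2_snd_gen _ _ a) hP

/-- The graph lemma.  `Γ σ` is a marked group (generators `k`), `α : Γ → G`, `β : Γ → H`
homomorphisms given by words, `Q₁ ≤ G`, `Q₂ ≤ H` subgroups with `β γ ∈ Q₂ → α γ ∈ Q₁`.  Then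
`(x, y) ∉ (Q₁ × Q₂) * range (α, β)` iff `y ∉ Q₂ * range β` or there is `γ` with `y * (β γ)⁻¹ ∈ Q₂`
and `x * (α γ)⁻¹ ∉ Q₁`. -/
theorem certS_graph {ℭ : Type} [Primcodable ℭ] {Γ : Sit → Type} [∀ σ, Group (Γ σ)]
    {k : ∀ σ, ℭ → Γ σ} (hk : ∀ σ, Gens (k σ)) (α : ∀ σ, Γ σ →* G σ) (β : ∀ σ, Γ σ →* H σ)
    {sα : ℕ → ℭ → Wd 𝔄} {sβ : ℕ → ℭ → Wd 𝔅} (hsα : Computable fun p : ℕ × ℭ => sα p.1 p.2)
    (hsβ : Computable fun p : ℕ × ℭ => sβ p.1 p.2)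
    (hα : ∀ σ a, α σ (k σ a) = wev (g σ) (sα (X.c σ) a))
    (hβ : ∀ σ a, β σ (k σ a) = wev (h σ) (sβ (X.c σ) a))
    {Q₁ : ∀ σ, Subgroup (G σ)} {Q₂ : ∀ σ, Subgroup (H σ)}
    (hQ : ∀ σ γ, β σ γ ∈ Q₂ σ → α σ γ ∈ Q₁ σ) {P : ∀ σ, Nrm (G σ × H σ)} {D₁ D₂ D' : ℕ → ℕ}
    (h₁ : CertS X g N D₁ fun σ => (Q₁ σ : Set (G σ))ᶜ)
    (h₂ : Cert X (fun σ (w : Wd 𝔅) => wev (h σ) w ∈ Q₂ σ) fun _ _ => 0)
    (h₃ : CertS X h M D₂ fun σ => ((Q₂ σ : Set (H σ)) * ((β σ).range : Set (H σ)))ᶜ)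
    (hP₂ : ∀ σ x, D₂ (M σ x.2) ≤ D' (P σ x))
    (hP₁ : ∀ σ (x : G σ × H σ), x.2 ∈ (Q₂ σ : Set (H σ)) * ((β σ).range : Set (H σ)) →
      ∃ γ, x.2 * (β σ γ)⁻¹ ∈ Q₂ σ ∧ D₁ (N σ (x.1 * (α σ γ)⁻¹)) ≤ D' (P σ x)) :
    CertS X (fun σ => prodGens (g σ) (h σ)) P D' fun σ =>
      ((((Q₁ σ).prod (Q₂ σ) : Subgroup (G σ × H σ)) : Set (G σ × H σ)) *
        (((α σ).prod (β σ)).range : Set (G σ × H σ)))ᶜ := by
  have hA := CertS.snd (g := g) h₃ hP₂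
  have c₁ : Computable fun p : ℕ × Wd (𝔄 ⊕ 𝔅) × Wd ℭ =>
      wsub c2S₁ p.2.1 ++ winv (wsub (sα p.1) p.2.2) :=
    c2_div (c2_wsub (s := fun _ : ℕ => c2S₁) (c2_computable_S₁.comp Computable.snd)
        Computable.fst (Computable.fst.comp Computable.snd))
      (c2_wsub hsα Computable.fst (Computable.snd.comp Computable.snd))
  have c₂ : Computable fun p : ℕ × Wd (𝔄 ⊕ 𝔅) × Wd ℭ =>
      wsub c2S₂ p.2.1 ++ winv (wsub (sβ p.1) p.2.2) :=
    c2_div (c2_wsub (s := fun _ : ℕ => c2S₂) (c2_computable_S₂.comp Computable.snd)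
        Computable.fst (Computable.fst.comp Computable.snd))
      (c2_wsub hsβ Computable.fst (Computable.snd.comp Computable.snd))
  have e₁ : ∀ σ (w : Wd (𝔄 ⊕ 𝔅)) (u : Wd ℭ),
      wev (g σ) (wsub c2S₁ w ++ winv (wsub (sα (X.c σ)) u)) =
        (wev (prodGens (g σ) (h σ)) w).1 * (α σ (wev (k σ) u))⁻¹ := by
    intro σ w u
    rw [wev_append, wev_winv, ← c2_map_wev (α σ) (hα σ) u,
      ← c2_map_wev (MonoidHom.fst (G σ) (H σ)) (c2_fst_gen (g σ) (h σ)) w]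
    rfl
  have e₂ : ∀ σ (w : Wd (𝔄 ⊕ 𝔅)) (u : Wd ℭ),
      wev (h σ) (wsub c2S₂ w ++ winv (wsub (sβ (X.c σ)) u)) =
        (wev (prodGens (g σ) (h σ)) w).2 * (β σ (wev (k σ) u))⁻¹ := by
    intro σ w u
    rw [wev_append, wev_winv, ← c2_map_wev (β σ) (hβ σ) u,
      ← c2_map_wev (MonoidHom.snd (G σ) (H σ)) (c2_snd_gen (g σ) (h σ)) w]
    rfl
  have hB : Cert X (fun σ (p : Wd (𝔄 ⊕ 𝔅) × Wd ℭ) =>
      (wev (prodGens (g σ) (h σ)) p.1).2 * (β σ (wev (k σ) p.2))⁻¹ ∈ Q₂ σ ∧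
      (wev (prodGens (g σ) (h σ)) p.1).1 * (α σ (wev (k σ) p.2))⁻¹ ∉ Q₁ σ)
      (fun σ p => D₁ (N σ ((wev (prodGens (g σ) (h σ)) p.1).1 * (α σ (wev (k σ) p.2))⁻¹))) := by
    refine ((Cert.comp h₂ c₂).and (Cert.comp h₁ c₁)).congr (fun σ p => ?_) (fun σ p _ => ?_)
    · simp only [e₁, e₂, Set.mem_compl_iff, SetLike.mem_coe]
    · simp only [e₁, Nat.zero_max, le_refl]
  have hC := hB.ex (t := fun σ w => D' (P σ (wev (prodGens (g σ) (h σ)) w))) (by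
    rintro σ w ⟨u, hu₂, hu₁⟩
    obtain ⟨γ, hγ, hγ'⟩ := hP₁ σ (wev (prodGens (g σ) (h σ)) w)
      ⟨_, hu₂, _, ⟨wev (k σ) u, rfl⟩, by simp⟩
    obtain ⟨v, rfl⟩ := (hk σ).exists_wev γ
    refine ⟨v, ⟨hγ, fun hv => hu₁ ?_⟩, hγ'⟩
    exact c2_graph_aux (α σ) (β σ) (hQ σ) hγ hu₂ hv)
  refine (Cert.or hA hC (fun _ _ h => h.imp (fun h => ⟨h, le_rfl⟩) (fun h => ⟨h, le_rfl⟩))).congr
    (fun σ w => ?_) (fun _ _ _ => le_rfl)
  simp only [Set.mem_preimage, Set.mem_compl_iff]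
  generalize wev (prodGens (g σ) (h σ)) w = x
  constructor
  · rintro hx ⟨q, ⟨hq₁, hq₂⟩, _, ⟨δ, rfl⟩, rfl⟩
    rcases hx with hx | ⟨u, hu₂, hu₁⟩
    · exact hx ⟨q.2, hq₂, β σ δ, ⟨δ, rfl⟩, rfl⟩
    · refine hu₁ (c2_graph_aux (α σ) (β σ) (hQ σ) (γ := δ) ?_ hu₂ ?_)
      · simpa using hq₂
      · simpa using hq₁
  · intro hx
    by_cases hy : x.2 ∈ (Q₂ σ : Set (H σ)) * ((β σ).range : Set (H σ))
    · obtain ⟨γ, hγ, -⟩ := hP₁ σ x hy
      obtain ⟨v, rfl⟩ := (hk σ).exists_wev γ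
      refine Or.inr ⟨v, hγ, fun hv => hx ?_⟩
      refine ⟨(x.1 * (α σ (wev (k σ) v))⁻¹, x.2 * (β σ (wev (k σ) v))⁻¹), ⟨hv, hγ⟩,
        _, ⟨wev (k σ) v, rfl⟩, ?_⟩
      ext <;> simp
    · exact Or.inl hy

end Groups

end Crest.Agent.R185
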