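import Crest.Agent.R185.Nrm

/-!
# R185: certificates (definitions)

`Sit` is a type of situations.  A situation has a numerical parameter `c`, a set of true
*equations* (free atoms) and a set of true *lower facts* (atoms whose size is controlled).
-/

set_option autoImplicit false

namespace Crest.Agent.R185

/-- a context of certificates -/
structure Ctx (Sit E F : Type) where
  c : Sit → ℕ
  Eq : Sit → E → Prop
  LF : Sit → F → Prop
  sz : F → ℕ

variable {Sit E F : Type} [Primcodable E] [Primcodable F]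

/-- `J` has an r.e. system of certificates, sound in every situation, and complete with lower facts
of size at most `s`. -/
def Cert (X : Ctx Sit E F) {α : Type} [Primcodable α] (J : Sit → α → Prop) (s : Sit → α → ℕ) :
    Prop :=
  ∃ W : ℕ × α × List E × List F → Prop, REPred W ∧
    (∀ σ a es fs, W (X.c σ, a, es, fs) → (∀ e ∈ es, X.Eq σ e) → (∀ f ∈ fs, X.LF σ f) → J σ a) ∧
    (∀ σ a, J σ a → ∃ es fs, W (X.c σ, a, es, fs) ∧ (∀ e ∈ es, X.Eq σ e) ∧
      ∀ f ∈ fs, X.LF σ f ∧ X.sz f ≤ s σ a)

variable {𝔄 : Type} [Primcodable 𝔄] {G : Sit → Type} [∀ σ, Group (G σ)]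

/-- equality of words in the marked groups `(G σ, g σ)` is certified without lower facts -/
def CertEq (X : Ctx Sit E F) (g : ∀ σ, 𝔄 → G σ) : Prop :=
  Cert X (fun σ (w : Wd 𝔄) => wev (g σ) w = 1) (fun _ _ => 0)

/-- membership in the sets `S σ` is certified with facts of size `≤ f (norm)` -/
def CertS (X : Ctx Sit E F) (g : ∀ σ, 𝔄 → G σ) (N : ∀ σ, Nrm (G σ)) (f : ℕ → ℕ)
    (S : ∀ σ, Set (G σ)) : Prop :=
  Cert X (fun σ (w : Wd 𝔄) => wev (g σ) w ∈ S σ) (fun σ w => f (N σ (wev (g σ) w)))

end Crest.Agent.R185
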