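import Crest.Agent.R185.GP0

/-!
# R185 / GP1Aux: the heap model of the graph product
-/

set_option autoImplicit false

namespace Crest.Agent.R185.GP.Heap

variable {X : Type} [Group X]

/-! ## finite facts -/

theorem pairwise_stE : ∀ p : Pt, (stE p).Pairwise adj := by decide +kernel

theorem adj_of_mem {p : Pt} {e e' : Ed} (h : e ∈ stE p) (h' : e' ∈ stE p) (hne : e ≠ e') :
    adj e e' := ⟨hne, p, h, h'⟩

theorem exists_two : ∀ (p : Pt) (e₀ : Ed), ∃ e₁ ∈ stE p, ∃ e₂ ∈ stE p,
    e₁ ≠ e₂ ∧ e₁ ≠ e₀ ∧ e₂ ≠ e₀ := by decide +kernel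

theorem exists_out : ∀ (p p' : Pt), p ≠ p' → ∃ e₀ : Ed, ∀ e ∈ stE p, e ≠ e₀ → e ∉ stE p' := by
  decide +kernel

/-! ## heaps -/

/-- heaps -/
abbrev Om (X : Type) : Type := Ed → ℕ → X

/-- height of a column -/
noncomputable def ht (N : Nrm X) (c : ℕ → X) : ℕ := sSup {m | ∃ n, c n ≠ 1 ∧ m = n + N (c n)}

/-- the active slot of column `e` -/
noncomputable def slot (N : Nrm X) (ω : Om X) (e : Ed) : ℕ :=
  (Finset.univ.filter (fun e' => e' ≠ e ∧ ¬ adj e e')).sup (fun e' => ht N (ω e'))

/-- the entry at the active slot -/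
noncomputable def top (N : Nrm X) (ω : Om X) (e : Ed) : X := ω e (slot N ω e)

/-- all heights are at most `B` -/
def Bd (N : Nrm X) (ω : Om X) (B : ℕ) : Prop := ∀ e n, ω e n ≠ 1 → n + N (ω e n) ≤ B

variable {N : Nrm X}

theorem ht_le {ω : Om X} {B : ℕ} (h : Bd N ω B) (e : Ed) : ht N (ω e) ≤ B := by
  refine csSup_le' ?_
  rintro m ⟨n, hn, rfl⟩
  exact h e n hn

theorem le_ht {ω : Om X} {B : ℕ} (h : Bd N ω B) {e : Ed} {n : ℕ} (hn : ω e n ≠ 1) :
    n + N (ω e n) ≤ ht N (ω e) := by
  refine le_csSup ⟨B, ?_⟩ ⟨n, hn, rfl⟩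
  rintro m ⟨n, hn, rfl⟩
  exact h e n hn

theorem slot_le {ω : Om X} {B : ℕ} (h : Bd N ω B) (e : Ed) : slot N ω e ≤ B :=
  Finset.sup_le (fun e' _ => ht_le h e')

theorem ht_le_slot (ω : Om X) {e e' : Ed} (hne : e' ≠ e) (hna : ¬ adj e e') :
    ht N (ω e') ≤ slot N ω e :=
  Finset.le_sup (f := fun e' => ht N (ω e')) (Finset.mem_filter.2 ⟨Finset.mem_univ _, hne, hna⟩)

theorem slot_congr {ω ω' : Om X} {e : Ed} (h : ∀ e', e' ≠ e → ¬ adj e e' → ω e' = ω' e') :
    slot N ω e = slot N ω' e := by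
  refine Finset.sup_congr rfl (fun e' he' => ?_)
  obtain ⟨-, h1, h2⟩ := Finset.mem_filter.1 he'
  rw [h e' h1 h2]

theorem slot_add_le {ω : Om X} {B : ℕ} (h : Bd N ω B) {e : Ed} (he : top N ω e ≠ 1) :
    slot N ω e + N (top N ω e) ≤ ht N (ω e) := le_ht h he

/-- (a) two different top columns are adjacent -/
theorem adj_of_top (hN : ∀ x, x ≠ 1 → 0 < N x) {ω : Om X} {B : ℕ} (h : Bd N ω B) {e e' : Ed}
    (he : top N ω e ≠ 1) (he' : top N ω e' ≠ 1) (hne : e ≠ e') : adj e e' := by
  by_contra hna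
  have h1 := ht_le_slot (N := N) ω hne.symm hna
  have h2 := ht_le_slot (N := N) ω hne (fun h => hna (adj_symm _ _ h))
  have h3 := slot_add_le h he
  have h4 := slot_add_le h he'
  have h5 := hN _ he
  have h6 := hN _ he'
  omega

open Classical in
/-- multiply the active entries of the columns in `es` -/
noncomputable def bact (N : Nrm X) (es : List Ed) (y : Ed → X) (ω : Om X) : Om X :=
  fun e => if e ∈ es then Function.update (ω e) (slot N ω e) (y e * top N ω e) else ω e

theorem bact_of_mem {es : List Ed} {y : Ed → X} {ω : Om X} {e : Ed} (h : e ∈ es) :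
    bact N es y ω e = Function.update (ω e) (slot N ω e) (y e * top N ω e) := if_pos h

theorem bact_of_notMem {es : List Ed} {y : Ed → X} {ω : Om X} {e : Ed} (h : e ∉ es) :
    bact N es y ω e = ω e := if_neg h

theorem slot_bact {es : List Ed} {y : Ed → X} {ω : Om X} {e : Ed}
    (h : ∀ e' ∈ es, e' ≠ e → adj e e') : slot N (bact N es y ω) e = slot N ω e :=
  slot_congr (fun e' h1 h2 => bact_of_notMem (fun h3 => h2 (h e' h3 h1)))

theorem top_bact_of_mem {es : List Ed} {y : Ed → X} {ω : Om X} {e : Ed}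
    (h : ∀ e' ∈ es, e' ≠ e → adj e e') (he : e ∈ es) :
    top N (bact N es y ω) e = y e * top N ω e := by
  rw [top, slot_bact h, bact_of_mem he, Function.update_self]

theorem top_bact_of_notMem {es : List Ed} {y : Ed → X} {ω : Om X} {e : Ed}
    (h : ∀ e' ∈ es, e' ≠ e → adj e e') (he : e ∉ es) :
    top N (bact N es y ω) e = top N ω e := by
  rw [top, slot_bact h, bact_of_notMem he, top]

theorem Bd.bact {ω : Om X} {B C : ℕ} (h : Bd N ω B) {es : List Ed} {y : Ed → X}
    (hy : ∀ e ∈ es, N (y e) ≤ C) : Bd N (bact N es y ω) (B + C) := by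
  intro e n hn
  by_cases he : e ∈ es
  · rw [bact_of_mem he] at hn ⊢
    by_cases hs : n = slot N ω e
    · subst hs
      rw [Function.update_self]
      have h1 := N.mul (y e) (top N ω e)
      have h2 := hy e he
      by_cases h3 : top N ω e = 1
      · have h4 := slot_le h e
        rw [h3, N.one] at h1
        rw [h3]
        omega
      · have h4 := h e _ h3
        change slot N ω e + N (top N ω e) ≤ B at h4
        omega
    · rw [Function.update_of_ne hs] at hn ⊢
      have := h e n hn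
      omega
  · rw [bact_of_notMem he] at hn ⊢
    have := h e n hn
    omega

/-- action of one factor -/
noncomputable def act (N : Nrm X) (e : Ed) (x : X) (ω : Om X) : Om X := bact N [e] (fun _ => x) ω

theorem act_self (e : Ed) (x : X) (ω : Om X) :
    act N e x ω e = Function.update (ω e) (slot N ω e) (x * top N ω e) :=
  bact_of_mem (List.mem_singleton_self e)

theorem act_ne {e e' : Ed} (h : e' ≠ e) (x : X) (ω : Om X) : act N e x ω e' = ω e' :=
  bact_of_notMem (by simpa using h)

theorem slot_act {e e' : Ed} (h : e ≠ e' → adj e' e) (x : X) (ω : Om X) :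
    slot N (act N e x ω) e' = slot N ω e' :=
  slot_bact (fun e'' h1 h2 => by
    rw [List.mem_singleton] at h1
    subst h1
    exact h h2)

theorem top_act_self (e : Ed) (x : X) (ω : Om X) : top N (act N e x ω) e = x * top N ω e :=
  top_bact_of_mem (by simp) (List.mem_singleton_self e)

theorem top_act_adj {e e' : Ed} (h : adj e' e) (x : X) (ω : Om X) :
    top N (act N e x ω) e' = top N ω e' :=
  top_bact_of_notMem (by simpa using fun _ => h) (by simpa using h.1)

theorem act_one (e : Ed) (ω : Om X) : act N e 1 ω = ω := by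
  funext e'
  by_cases h : e' = e
  · subst h
    rw [act_self, one_mul, top, Function.update_eq_self]
  · exact act_ne h _ _

theorem act_mul (e : Ed) (x y : X) (ω : Om X) :
    act N e (x * y) ω = act N e x (act N e y ω) := by
  funext e'
  by_cases h : e' = e
  · subst h
    rw [act_self, act_self, act_self, slot_act (fun h => absurd rfl h), top_act_self,
      Function.update_idem, mul_assoc]
  · rw [act_ne h, act_ne h, act_ne h]

theorem act_comm {e e' : Ed} (h : adj e e') (x y : X) (ω : Om X) :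
    act N e x (act N e' y ω) = act N e' y (act N e x ω) := by
  have h' := adj_symm _ _ h
  funext e''
  by_cases h1 : e'' = e
  · subst h1
    rw [act_self, act_ne h.1, act_ne h.1, act_self, slot_act (fun _ => h), top_act_adj h]
  · by_cases h2 : e'' = e'
    · subst h2
      rw [act_ne h1, act_self, act_self, act_ne h1, slot_act (fun _ => h'), top_act_adj h']
    · rw [act_ne h1, act_ne h2, act_ne h2, act_ne h1]

/-- the action of a factor as a homomorphism -/
noncomputable def actHom (N : Nrm X) (e : Ed) : X →* Equiv.Perm (Om X) :=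
  MonoidHom.toHomPerm
    { toFun := fun x => act N e x
      map_one' := funext (fun ω => act_one e ω)
      map_mul' := fun x y => funext (fun ω => act_mul e x y ω) }

theorem actHom_apply (e : Ed) (x : X) (ω : Om X) : actHom N e x ω = act N e x ω := rfl

/-- the action of the graph product on heaps -/
noncomputable def rho (N : Nrm X) : GP X →* Equiv.Perm (Om X) :=
  lift (actHom N) (fun _ _ h x y => Equiv.ext (fun ω => act_comm (N := N) h x y ω))

theorem rho_v (e : Ed) (x : X) (ω : Om X) : rho N (v e x) ω = act N e x ω := by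
  have : rho N (v e x) = actHom N e x := lift_v _ _ e x
  rw [this, actHom_apply]

theorem rho_prod {es : List Ed} (h : es.Pairwise adj) (y : Ed → X) (ω : Om X) :
    rho N (es.map (fun e => v e (y e))).prod ω = bact N es y ω := by
  induction es with
  | nil => funext e; simp [bact]
  | cons e es ih =>
    obtain ⟨h1, h2⟩ := List.pairwise_cons.1 h
    have he : e ∉ es := fun h => (h1 e h).1 rfl
    rw [List.map_cons, List.prod_cons, map_mul, Equiv.Perm.mul_apply, ih h2, rho_v]
    funext e'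
    by_cases h3 : e' = e
    · subst h3
      rw [act_self, bact_of_mem (List.mem_cons_self), bact_of_notMem he,
        slot_bact (fun e'' h _ => h1 e'' h), top_bact_of_notMem (fun e'' h _ => h1 e'' h) he]
    · rw [act_ne h3]
      by_cases h4 : e' ∈ es
      · rw [bact_of_mem h4, bact_of_mem (List.mem_cons_of_mem _ h4)]
      · rw [bact_of_notMem h4, bact_of_notMem (by simp [h3, h4])]

/-- the heap of a group element -/
noncomputable def om (N : Nrm X) (g : GP X) : Om X := rho N g (fun _ _ => 1)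

theorem om_one : om N (1 : GP X) = fun _ _ => 1 := by simp [om]

theorem om_mul (g h : GP X) : om N (g * h) = rho N g (om N h) := by
  rw [om, map_mul, Equiv.Perm.mul_apply, om]

theorem le_foldr_max {l : List ℕ} {a : ℕ} (h : a ∈ l) : a ≤ l.foldr max 0 := by
  induction l with
  | nil => simp at h
  | cons b l ih =>
    rw [List.foldr_cons]
    rcases List.mem_cons.1 h with rfl | h
    · exact le_max_left _ _
    · exact (ih h).trans (le_max_right _ _)

/-- (c) -/
theorem bd_blocks (L : List (Pt × (Ed → X))) :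
    Bd N (om N (L.map blk).prod) (L.map (blkCost N)).sum := by
  induction L with
  | nil =>
    intro e n hn
    simp [om_one] at hn
  | cons b L ih =>
    rw [List.map_cons, List.prod_cons, om_mul, List.map_cons, List.sum_cons, add_comm, blk,
      rho_prod (pairwise_stE _)]
    exact ih.bact (fun e he => le_foldr_max (List.mem_map.2 ⟨e, he, rfl⟩))

theorem v_eq_blk {p : Pt} {e : Ed} (he : e ∈ stE p) (x : X) :
    blk (p, fun e' => if e' = e then x else 1) = v e x := by
  have key : ∀ es : List Ed, es.Nodup → (es.map fun e' => v e' (if e' = e then x else 1)).prod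
      = if e ∈ es.toFinset then v e x else 1 := by
    intro es hes
    induction es with
    | nil => simp
    | cons a es ih =>
      obtain ⟨h1, h2⟩ := List.nodup_cons.1 hes
      rw [List.map_cons, List.prod_cons, ih h2]
      by_cases h : a = e
      · subst h
        simp [h1]
      · rw [if_neg h, map_one, one_mul]
        exact if_congr (by simp [Ne.symm h]) rfl rfl
  exact (key _ (stE_nodup p)).trans (if_pos (List.mem_toFinset.2 he))

theorem exists_blocks (g : GP X) : ∃ L : List (Pt × (Ed → X)), (L.map blk).prod = g := by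
  obtain ⟨l, -, rfl⟩ := exists_prd g
  induction l with
  | nil => exact ⟨[], rfl⟩
  | cons a l ih =>
    obtain ⟨L, hL⟩ := ih
    obtain ⟨p, hp⟩ := exists_stE a.1
    refine ⟨(p, fun e' => if e' = a.1 then a.2 else 1) :: L, ?_⟩
    rw [List.map_cons, List.prod_cons, hL, v_eq_blk hp]
    rfl

theorem bd_om (N : Nrm X) (g : GP X) : Bd N (om N g) (mu N g) := by
  obtain ⟨L0, hL0⟩ := exists_blocks g
  obtain ⟨L, h1, h2⟩ := Nat.sInf_mem (s := {n | ∃ L : List (Pt × (Ed → X)),
    (L.map blk).prod = g ∧ (L.map (blkCost N)).sum = n}) ⟨_, L0, hL0, rfl⟩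
  have h3 : mu N g = (L.map (blkCost N)).sum := h2.symm
  rw [h3, ← h1]
  exact bd_blocks L

/-! ## reduced lists -/

theorem prd_cons (a : Ed × X) (l : List (Ed × X)) : prd (a :: l) = v a.1 a.2 * prd l := rfl

theorem prdS_cons (a : Pt × X) (L : List (Pt × X)) : prdS (a :: L) = sF a.1 a.2 * prdS L := rfl

omit [Group X] in
theorem front_nil (b : Ed × X) : ¬ Front [] b := by
  rintro ⟨l₁, l₂, h, -⟩
  simp at h

omit [Group X] in
theorem front_cons {a b : Ed × X} {l : List (Ed × X)} :
    Front (a :: l) b ↔ b = a ∨ (adj a.1 b.1 ∧ Front l b) := by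
  constructor
  · rintro ⟨l₁, l₂, h, h'⟩
    cases l₁ with
    | nil =>
      left
      exact (List.cons.inj h).1.symm
    | cons c l₁ =>
      obtain ⟨rfl, rfl⟩ := List.cons.inj h
      exact Or.inr ⟨h' a List.mem_cons_self, l₁, l₂, rfl,
        fun d hd => h' d (List.mem_cons_of_mem _ hd)⟩
  · rintro (rfl | ⟨h, l₁, l₂, rfl, h'⟩)
    · exact ⟨[], l, rfl, by simp⟩
    · refine ⟨a :: l₁, l₂, rfl, fun d hd => ?_⟩
      rcases List.mem_cons.1 hd with rfl | hd
      · exact h
      · exact h' d hd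

omit [Group X] in
theorem mem_of_front {l : List (Ed × X)} {b : Ed × X} (h : Front l b) : b ∈ l := by
  obtain ⟨l₁, l₂, rfl, -⟩ := h
  simp

/-- (d) -/
theorem red_spec (hN : ∀ x, x ≠ 1 → 0 < N x) {l : List (Ed × X)} (hl : Red l) :
    (∀ e, top N (om N (prd l)) e ≠ 1 → Front l (e, top N (om N (prd l)) e)) ∧
    (∀ b, Front l b → top N (om N (prd l)) b.1 = b.2) ∧
    (∀ b ∈ l, ∃ n, om N (prd l) b.1 n = b.2) := by
  induction l with
  | nil =>
    refine ⟨fun e he => ?_, fun b hb => absurd hb (front_nil b), by simp⟩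
    exact absurd (by rw [show prd ([] : List (Ed × X)) = 1 from rfl, om_one]; rfl) he
  | cons a l ih =>
    obtain ⟨⟨hm1, hm2⟩, h1⟩ := hl
    obtain ⟨i1, i2, i3⟩ := ih ⟨hm2, fun b hb => h1 b (List.mem_cons_of_mem _ hb)⟩
    have ha : a.2 ≠ 1 := h1 a List.mem_cons_self
    have hB := bd_om N (prd (a :: l))
    have hω : om N (prd (a :: l)) = act N a.1 a.2 (om N (prd l)) := by
      rw [prd_cons, om_mul, rho_v]
    set ω := om N (prd l) with hωdef
    have hnt : top N ω a.1 = 1 := by
      by_contra h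
      exact hm1 _ (i1 _ h) rfl
    rw [hω] at hB ⊢
    have hta : top N (act N a.1 a.2 ω) a.1 = a.2 := by rw [top_act_self, hnt, mul_one]
    refine ⟨fun e he => ?_, fun b hb => ?_, fun b hb => ?_⟩
    · by_cases h : e = a.1
      · subst h
        rw [hta]
        exact front_cons.2 (Or.inl rfl)
      · have hadj : adj e a.1 := adj_of_top hN hB he (by rw [hta]; exact ha) h
        rw [top_act_adj hadj] at he ⊢
        exact front_cons.2 (Or.inr ⟨adj_symm _ _ hadj, i1 e he⟩)
    · rcases front_cons.1 hb with rfl | ⟨h, hb⟩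
      · exact hta
      · rw [top_act_adj (adj_symm _ _ h), i2 b hb]
    · rcases List.mem_cons.1 hb with rfl | hb
      · exact ⟨_, hta⟩
      · obtain ⟨n, hn⟩ := i3 b hb
        refine ⟨n, ?_⟩
        by_cases h : b.1 = a.1
        · rw [h] at hn ⊢
          rw [act_self, Function.update_of_ne, hn]
          rintro rfl
          exact h1 b (List.mem_cons_of_mem _ hb) (hn.symm.trans hnt)
        · rw [act_ne h, hn]

/-! ## diagonals -/

/-- at least two columns of the star are top and have height `≥ s` -/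
def Lead (N : Nrm X) (ω : Om X) (p : Pt) (s : ℕ) : Prop :=
  ∃ e₁ ∈ stE p, ∃ e₂ ∈ stE p, e₁ ≠ e₂ ∧ top N ω e₁ ≠ 1 ∧ top N ω e₂ ≠ 1 ∧
    s ≤ ht N (ω e₁) ∧ s ≤ ht N (ω e₂)

/-- all columns of the star but one are top with entry `x` and height `≥ s` -/
def Full (N : Nrm X) (ω : Om X) (p : Pt) (x : X) (s : ℕ) : Prop :=
  ∃ e₀, ∀ e ∈ stE p, e ≠ e₀ → top N ω e = x ∧ s ≤ ht N (ω e)

theorem Full.lead {ω : Om X} {p : Pt} {x : X} {s : ℕ} (h : Full N ω p x s) (hx : x ≠ 1) :
    Lead N ω p s := by
  obtain ⟨e₀, h⟩ := h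
  obtain ⟨e₁, h1, e₂, h2, h3, h4, h5⟩ := exists_two p e₀
  exact ⟨e₁, h1, e₂, h2, h3, by rw [(h e₁ h1 h4).1]; exact hx, by rw [(h e₂ h2 h5).1]; exact hx,
    (h e₁ h1 h4).2, (h e₂ h2 h5).2⟩

theorem Lead.le_mu {g : GP X} {p : Pt} {s : ℕ} (h : Lead N (om N g) p s) : s ≤ mu N g := by
  obtain ⟨e₁, -, -, -, -, -, -, h, -⟩ := h
  exact h.trans (ht_le (bd_om N g) e₁)

theorem om_sF_mul (p : Pt) (x : X) (g : GP X) :
    om N (sF p x * g) = bact N (stE p) (fun _ => x) (om N g) := by
  rw [om_mul, sF, rho_prod (pairwise_stE p)]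

theorem top_sF_mul {p : Pt} {e : Ed} (he : e ∈ stE p) (x : X) (g : GP X) :
    top N (om N (sF p x * g)) e = x * top N (om N g) e := by
  rw [om_sF_mul, top_bact_of_mem (fun e' h hne => adj_of_mem he h hne.symm) he]

theorem slot_sF_mul {p : Pt} {e : Ed} (he : e ∈ stE p) (x : X) (g : GP X) :
    slot N (om N (sF p x * g)) e = slot N (om N g) e := by
  rw [om_sF_mul, slot_bact (fun e' h hne => adj_of_mem he h hne.symm)]

/-- the key step -/
theorem Lead.step (hN : ∀ x, x ≠ 1 → 0 < N x) {g : GP X} {p p' : Pt} {s : ℕ}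
    (h : Lead N (om N g) p' s) (hne : p ≠ p') {x : X} (hx : x ≠ 1) :
    Full N (om N (sF p x * g)) p x (s + N x) := by
  obtain ⟨e₀, h0⟩ := exists_out p p' hne
  refine ⟨e₀, fun e he hee => ?_⟩
  have he' := h0 e he hee
  have key : ∃ e₁ ∈ stE p', ¬ adj e e₁ ∧ top N (om N g) e₁ ≠ 1 ∧ s ≤ ht N (om N g e₁) := by
    obtain ⟨e₁, h1, e₂, h2, h3, h4, h5, h6, h7⟩ := h
    by_cases ha : adj e e₁
    · exact ⟨e₂, h2, fun hb => h3 (adj_unique p' e he' e₁ h1 e₂ h2 ha hb), h5, h7⟩
    · exact ⟨e₁, h1, ha, h4, h6⟩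
  obtain ⟨e₁, h1, h2, h3, h4⟩ := key
  have hne1 : e ≠ e₁ := fun h => he' (h ▸ h1)
  have hnt : top N (om N g) e = 1 := by
    by_contra h
    exact h2 (adj_of_top hN (bd_om N g) h h3 hne1)
  have ht1 : top N (om N (sF p x * g)) e = x := by rw [top_sF_mul he, hnt, mul_one]
  refine ⟨ht1, ?_⟩
  have h5 := slot_add_le (bd_om N (sF p x * g)) (e := e) (by rw [ht1]; exact hx)
  rw [ht1, slot_sF_mul he] at h5
  have h6 := ht_le_slot (N := N) (om N g) hne1.symm h2
  omega

theorem full_of_top {g : GP X} {p : Pt} {x : X} (hx : x ≠ 1) {e₀ : Ed}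
    (h : ∀ e ∈ stE p, e ≠ e₀ → top N (om N g) e = x) : Full N (om N g) p x (N x) := by
  refine ⟨e₀, fun e he hne => ⟨h e he hne, ?_⟩⟩
  have h5 := slot_add_le (bd_om N g) (e := e) (by rw [h e he hne]; exact hx)
  rw [h e he hne] at h5
  omega

theorem full_prdS (hN : ∀ x, x ≠ 1 → 0 < N x) (a : Pt × X) {L : List (Pt × X)}
    (h1 : ∀ b ∈ a :: L, b.2 ≠ 1) (h2 : (a :: L).IsChain fun a b => a.1 ≠ b.1) :
    Full N (om N (prdS (a :: L))) a.1 a.2 (((a :: L).map fun a => N a.2).sum) := by
  induction L generalizing a with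
  | nil =>
    have ha := h1 a List.mem_cons_self
    have : ((([a] : List (Pt × X)).map fun a => N a.2).sum) = N a.2 := by simp
    rw [this]
    refine full_of_top ha (e₀ := Sum.inr 0) (fun e he _ => ?_)
    rw [prdS_cons, top_sF_mul he, show prdS ([] : List (Pt × X)) = 1 from rfl, om_one]
    exact mul_one _
  | cons b L ih =>
    obtain ⟨h3, h4⟩ := List.isChain_cons_cons.1 h2
    have h5 := ih b (fun c hc => h1 c (List.mem_cons_of_mem _ hc)) h4
    have h6 := (h5.lead (h1 b (by simp))).step hN h3 (h1 a List.mem_cons_self)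
    rw [prdS_cons, List.map_cons, List.sum_cons, add_comm]
    exact h6

theorem mu_prdS_le (N : Nrm X) (L : List (Pt × X)) :
    mu N (prdS L) ≤ (L.map fun a => N a.2).sum := by
  induction L with
  | nil => exact ((mu N).one).le
  | cons a L ih =>
    rw [prdS_cons, List.map_cons, List.sum_cons]
    exact ((mu N).mul _ _).trans (add_le_add (mu_sF_le N _ _) ih)

/-! ## peeling -/

theorem remove_front {l : List (Ed × X)} {a : Ed × X} (h : Front l a) :
    ∃ l', prd l = v a.1 a.2 * prd l' ∧ l'.length + 1 = l.length ∧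
      ∀ b, Front l b → b.1 ≠ a.1 → Front l' b := by
  induction l with
  | nil => exact absurd h (front_nil a)
  | cons c l ih =>
    rcases front_cons.1 h with rfl | ⟨h1, h2⟩
    · refine ⟨l, rfl, rfl, fun b hb hne => ?_⟩
      rcases front_cons.1 hb with rfl | ⟨-, hb⟩
      · exact absurd rfl hne
      · exact hb
    · obtain ⟨l₀, i1, i2, i3⟩ := ih h2
      refine ⟨c :: l₀, ?_, by simp [i2], fun b hb hne => ?_⟩
      · rw [prd_cons, prd_cons, i1, ← mul_assoc, (v_comm h1 c.2 a.2).eq, mul_assoc]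
      · rcases front_cons.1 hb with rfl | ⟨h3, hb⟩
        · exact front_cons.2 (Or.inl rfl)
        · exact front_cons.2 (Or.inr ⟨h3, i3 b hb hne⟩)

theorem remove_fronts {es : List Ed} (hes : es.Nodup) {x : X} {l : List (Ed × X)}
    (h : ∀ e ∈ es, Front l (e, x)) :
    ∃ l', prd l = (es.map fun e => v e x).prod * prd l' ∧ l'.length + es.length = l.length := by
  induction es generalizing l with
  | nil => exact ⟨l, by simp, by simp⟩
  | cons e es ih =>
    obtain ⟨h1, h2⟩ := List.nodup_cons.1 hes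
    obtain ⟨l₁, i1, i2, i3⟩ := remove_front (h e List.mem_cons_self)
    obtain ⟨l', j1, j2⟩ := ih h2 (l := l₁) (fun e' he' =>
      i3 _ (h e' (List.mem_cons_of_mem _ he')) (fun h => h1 (by
        have h' : e' = e := h
        exact h' ▸ he')))
    refine ⟨l', ?_, ?_⟩
    · rw [i1, j1, List.map_cons, List.prod_cons, mul_assoc]
    · rw [List.length_cons]; omega

theorem peel {l : List (Ed × X)} {p : Pt} {e₀ : Ed} {x : X}
    (h : ∀ e ∈ stE p, e ≠ e₀ → Front l (e, x)) :
    ∃ l', prd l = sF p x * prd l' ∧ l'.length < l.length := by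
  have h3 := three_le_stE p
  by_cases h0 : e₀ ∈ stE p
  · obtain ⟨l', h1, h2⟩ := remove_fronts (stE_nodup p) (x := x)
      (l := (e₀, x) :: (e₀, x⁻¹) :: l) (fun e he => by
        by_cases hne : e = e₀
        · exact front_cons.2 (Or.inl (by rw [hne]))
        · have hadj : adj e₀ e := adj_of_mem h0 he (Ne.symm hne)
          exact front_cons.2 (Or.inr ⟨hadj, front_cons.2 (Or.inr ⟨hadj, h e he hne⟩)⟩))
    refine ⟨l', ?_, ?_⟩
    · rw [prd_cons, prd_cons, ← mul_assoc, ← map_mul, mul_inv_cancel, map_one, one_mul] at h1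
      exact h1
    · simp only [List.length_cons] at h2
      omega
  · obtain ⟨l', h1, h2⟩ := remove_fronts (stE_nodup p) (x := x) (l := l)
      (fun e he => h e he (fun h => h0 (h ▸ he)))
    exact ⟨l', h1, by omega⟩

omit [Group X] in
theorem not_stuck {l : List (Ed × X)} (h : ¬ Stuck l) :
    ∃ (p : Pt) (e₀ : Ed) (x : X), ∀ e ∈ stE p, e ≠ e₀ → Front l (e, x) := by
  unfold Stuck at h
  push Not at h
  obtain ⟨p, e₀, h1, h2⟩ := h
  obtain ⟨e₁, i1, -, -, -, i2, -⟩ := exists_two p e₀
  obtain ⟨a, ha, rfl⟩ := h1 e₁ i1 i2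
  refine ⟨p, e₀, a.2, fun e he hne => ?_⟩
  obtain ⟨b, hb, rfl⟩ := h1 e he hne
  rw [h2 a b ha hb i1 he i2 hne]
  exact hb

theorem dec_aux (hN : ∀ x, x ≠ 1 → 0 < N x) (n : ℕ) : ∀ l₀ : List (Ed × X), Red l₀ →
    l₀.length = n → ∃ (L : List (Pt × X)) (l : List (Ed × X)),
      prd l₀ = prdS L * prd l ∧ Red l ∧ Stuck l ∧
      (L = [] ∨ ∃ p, Lead N (om N (prd l₀)) p (L.map fun a => N a.2).sum) := by
  induction n using Nat.strong_induction_on with
  | _ n ih =>
    intro l₀ hl hn
    by_cases hs : Stuck l₀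
    · exact ⟨[], l₀, (one_mul _).symm, hl, hs, Or.inl rfl⟩
    obtain ⟨p, e₀, x, h⟩ := not_stuck hs
    have hx : x ≠ 1 := by
      obtain ⟨e₁, i1, -, -, -, i2, -⟩ := exists_two p e₀
      exact hl.2 _ (mem_of_front (h e₁ i1 i2))
    have htop : ∀ e ∈ stE p, e ≠ e₀ → top N (om N (prd l₀)) e = x :=
      fun e he hne => (red_spec hN hl).2.1 _ (h e he hne)
    obtain ⟨l₁, h1, h2⟩ := peel h
    obtain ⟨l₂, h3, h4, h5⟩ := exists_red l₁
    obtain ⟨L, l, j1, j2, j3, j4⟩ := ih l₂.length (by omega) l₂ h3 rfl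
    rw [← h4] at h1
    refine ⟨(p, x) :: L, l, by rw [h1, j1, prdS_cons, mul_assoc], j2, j3, Or.inr ⟨p, ?_⟩⟩
    rcases j4 with rfl | ⟨p', j4⟩
    · have : ((([(p, x)] : List (Pt × X)).map fun a => N a.2).sum) = N x := by simp
      rw [this]
      exact (full_of_top hx htop).lead hx
    · have hne : p ≠ p' := by
        rintro rfl
        have hnt : ∀ e ∈ stE p, e ≠ e₀ → top N (om N (prd l₂)) e = 1 := by
          intro e he hne
          have := htop e he hne
          rw [h1, top_sF_mul he] at this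
          exact mul_eq_left.1 this
        obtain ⟨e₁, i1, e₂, i2, i3, i4, i5, -, -⟩ := j4
        by_cases h0 : e₁ = e₀
        · exact i5 (hnt e₂ i2 (fun h => i3 (h0.trans h.symm)))
        · exact i4 (hnt e₁ i1 h0)
      rw [h1, List.map_cons, List.sum_cons, add_comm]
      exact (j4.step hN hne hx).lead hx

end Crest.Agent.R185.GP.Heap
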