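import Crest.Agent.R185.GP0
import Crest.Agent.R185.GP1Aux

/-!
# R185 TASK GP1: normal forms and the norm `μ` of the graph product

Heap model.  Fix a definite norm `N` (`0 < N x` for `x ≠ 1`; use `(Nrm.zero X).defn` for the
statements without a norm).  `Ω = Ed × ℕ →₀ X`-like: functions `ω : Ed → ℕ → X` with finitely many
entries `≠ 1`.  `ht ω e = sup {n + N (ω e n) | ω e n ≠ 1}`, `slot ω e = sup {ht ω e' | e' ≠ e, ¬ adj e e'}`,
`v e x` multiplies the entry `ω e (slot ω e)` by `x` on the left.  It changes only column `e`, and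
`slot ω e` depends only on the columns `e' ≠ e` not adjacent to `e`; hence this is an action of `X`
for each `e`, adjacent factors commute, and `GP.lift` gives `GP X →* Equiv.Perm Ω`.
`Top ω e := ω e (slot ω e) ≠ 1`.  Facts: (a) two different top columns are adjacent
(`slot e ≥ ht e' > slot e'`); (b) if `e` is not top and `x ≠ 1`, the top columns of `v e x • ω` are
`e` (entry `x`, height `≥ slot + N x`) and the old top columns adjacent to `e` (same entries);
(c) `H (blk b • ω) ≤ H ω + blkCost b` for `H ω = sup_e ht ω e`, so `H (g • 0) ≤ μ g`;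
(d) for a reduced list `l` the top entries of `prd l • 0` are exactly the front syllables and all
syllables of `l` occur as entries.
Finite facts by `decide`: stars have no duplicates, length `≥ 3`, two stars share at most one edge,
an edge outside a star is adjacent to at most one edge of it, every edge lies in a star.
`Lead ω p s`: at least two edges of `stE p` are top with `ht ≥ s`.  Key step: `Lead ω p' s`,
`p ≠ p'`, `x ≠ 1` imply that all `e ∈ stE p \ stE p'` are top in `sF p x • ω` with entry `x` and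
`ht ≥ s + N x`.
-/

set_option autoImplicit false

namespace Crest.Agent.R185.GP

variable {X : Type} [Group X]

theorem prd_ne_one {l : List (Ed × X)} (hl : Red l) (hne : l ≠ []) : prd l ≠ 1 := by
  intro h
  obtain ⟨a, ha⟩ := List.exists_mem_of_ne_nil l hne
  obtain ⟨n, hn⟩ := (Heap.red_spec (N := (Nrm.zero X).defn)
    (fun _ hx => Nrm.defn_pos _ hx) hl).2.2 a ha
  rw [h, Heap.om_one] at hn
  exact hl.2 a ha hn.symm

theorem le_mu {N : Nrm X} (hN : ∀ x, x ≠ 1 → 0 < N x) {l : List (Ed × X)} (hl : Red l) :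
    ∀ a ∈ l, N a.2 ≤ mu N (prd l) := by
  intro a ha
  obtain ⟨n, hn⟩ := (Heap.red_spec hN hl).2.2 a ha
  have := Heap.bd_om N (prd l) a.1 n (by rw [hn]; exact hl.2 a ha)
  rw [hn] at this
  omega

theorem mu_v {N : Nrm X} (hN : ∀ x, x ≠ 1 → 0 < N x) (e : Ed) (x : X) : mu N (v e x) = N x := by
  refine le_antisymm (mu_v_le N e x) ?_
  have := ret_le_mu N e (v e x)
  rwa [ret_v, if_pos rfl] at this

/-- the diagonals generate their free product, isometrically -/
theorem mu_prdS {N : Nrm X} (hN : ∀ x, x ≠ 1 → 0 < N x) {L : List (Pt × X)}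
    (h1 : ∀ a ∈ L, a.2 ≠ 1) (h2 : L.IsChain fun a b => a.1 ≠ b.1) :
    mu N (prdS L) = (L.map fun a => N a.2).sum := by
  refine le_antisymm (Heap.mu_prdS_le N L) ?_
  cases L with
  | nil => simp
  | cons a L => exact ((Heap.full_prdS hN a h1 h2).lead (h1 a List.mem_cons_self)).le_mu

theorem mu_sF {N : Nrm X} (hN : ∀ x, x ≠ 1 → 0 < N x) (p : Pt) (x : X) :
    mu N (sF p x) = N x := by
  refine le_antisymm (mu_sF_le N p x) ?_
  obtain ⟨e, he, -⟩ := Heap.exists_two p (Sum.inr 0)
  have := ret_le_mu N e (sF p x)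
  rwa [ret_sF he] at this

/-- permutations of the free factors of `D` (`D ≃* CoprodI (fun _ : Pt => X)` by `mu_prdS`) -/
theorem exists_dperm (π : Equiv.Perm Pt) : ∃ θ : D X ≃* D X,
    (∀ p x, (θ ⟨sF p x, sF_mem p x⟩ : GP X) = sF (π p) x) ∧
    ∀ (N : Nrm X), (∀ x, x ≠ 1 → 0 < N x) → ∀ d : D X, mu N (θ d : GP X) = mu N d := by
  classical
  let Φ : Monoid.CoprodI (fun _ : Pt => X) →* GP X := Monoid.CoprodI.lift (fun p => S p)
  let pr : List (Pt × X) → Monoid.CoprodI (fun _ : Pt => X) := fun L =>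
    (L.map fun a => Monoid.CoprodI.of (M := fun _ : Pt => X) (i := a.1) a.2).prod
  have hΦ : ∀ L, Φ (pr L) = prdS L := by
    intro L
    simp only [pr, prdS, map_list_prod, List.map_map]
    congr 1
  have hpr : ∀ w, ∃ L : List (Pt × X), (∀ a ∈ L, a.2 ≠ 1) ∧
      (L.IsChain fun a b => a.1 ≠ b.1) ∧ pr L = w := by
    intro w
    obtain ⟨u, rfl⟩ := (Monoid.CoprodI.Word.equiv (M := fun _ : Pt => X)).symm.surjective w
    refine ⟨u.toList.map (fun a => (a.1, a.2)), ?_, ?_, ?_⟩
    · intro a ha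
      obtain ⟨b, hb, rfl⟩ := List.mem_map.1 ha
      exact u.ne_one b hb
    · rw [List.isChain_map]
      exact u.chain_ne
    · simp only [pr, List.map_map]
      rfl
  have hmem : ∀ w, Φ w ∈ D X := by
    intro w
    obtain ⟨L, -, -, rfl⟩ := hpr w
    rw [hΦ]
    exact prdS_mem L
  have hinj : Function.Injective Φ := by
    rw [injective_iff_map_eq_one]
    intro w hw
    obtain ⟨L, h1, h2, rfl⟩ := hpr w
    have h3 := mu_prdS (N := (Nrm.zero X).defn) (fun _ hx => Nrm.defn_pos _ hx) h1 h2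
    rw [← hΦ, hw, (mu _).one] at h3
    cases L with
    | nil => rfl
    | cons a L =>
      have := Nrm.defn_pos (Nrm.zero X) (h1 a List.mem_cons_self)
      rw [List.map_cons, List.sum_cons] at h3
      omega
  have hbij : Function.Bijective (Φ.codRestrict (D X) hmem) := by
    refine ⟨fun a b h => hinj (congrArg Subtype.val h), fun d => ?_⟩
    obtain ⟨L, -, -, h⟩ := exists_prdS d.2
    exact ⟨pr L, Subtype.ext ((hΦ L).trans h)⟩
  let E : Monoid.CoprodI (fun _ : Pt => X) ≃* D X := MulEquiv.ofBijective _ hbij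
  have hE : ∀ w, (E w : GP X) = Φ w := fun _ => rfl
  let f : Equiv.Perm Pt → (Monoid.CoprodI (fun _ : Pt => X) →* Monoid.CoprodI (fun _ : Pt => X)) :=
    fun σ => Monoid.CoprodI.lift (fun p => Monoid.CoprodI.of (M := fun _ : Pt => X) (i := σ p))
  have hf : ∀ σ p (x : X), f σ (Monoid.CoprodI.of (M := fun _ : Pt => X) (i := p) x)
      = Monoid.CoprodI.of (M := fun _ : Pt => X) (i := σ p) x :=
    fun σ p x => Monoid.CoprodI.lift_of _ _
  have hff : ∀ σ : Equiv.Perm Pt, (f σ.symm).comp (f σ) = MonoidHom.id _ := by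
    intro σ
    apply Monoid.CoprodI.ext_hom
    intro p
    ext x
    simp only [MonoidHom.comp_apply, MonoidHom.id_apply, hf]
    rw [Equiv.symm_apply_apply]
  let P : Monoid.CoprodI (fun _ : Pt => X) ≃* Monoid.CoprodI (fun _ : Pt => X) :=
    MonoidHom.toMulEquiv (f π) (f π.symm) (hff π) (hff π.symm)
  have hP : ∀ L, P (pr L) = pr (L.map fun a => (π a.1, a.2)) := by
    intro L
    show f π (pr L) = _
    simp only [pr, map_list_prod, List.map_map]
    congr 1
  have key : ∀ (L : List (Pt × X)) (d : D X), prdS L = d →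
      ((E.symm.trans (P.trans E)) d : GP X) = prdS (L.map fun a => (π a.1, a.2)) := by
    intro L d h
    have h1 : E.symm d = pr L := by
      rw [MulEquiv.symm_apply_eq]
      exact Subtype.ext (by rw [hE, hΦ, h])
    rw [MulEquiv.trans_apply, MulEquiv.trans_apply, h1, hP, hE, hΦ]
  refine ⟨E.symm.trans (P.trans E), fun p x => ?_, fun N hN d => ?_⟩
  · rw [key [(p, x)] _ (by simp [prdS])]
    simp [prdS]
  · obtain ⟨L, h1, h2, h3⟩ := exists_prdS d.2
    rw [key L d h3, ← h3, mu_prdS hN h1 h2, mu_prdS hN, List.map_map]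
    · rfl
    · intro a ha
      obtain ⟨b, hb, rfl⟩ := List.mem_map.1 ha
      exact h1 b hb
    · rw [List.isChain_map]
      exact h2.imp (fun a b h h' => h (π.injective h'))

/-- a nontrivial element of `D` has, for some `p, e₀, x`, all edges of `stE p` other than `e₀` on
top with entry `x`. -/
theorem notMem_D {l : List (Ed × X)} (hl : Red l) (hne : l ≠ []) (hs : Stuck l) : prd l ∉ D X := by
  intro hD
  have hN : ∀ x : X, x ≠ 1 → 0 < (Nrm.zero X).defn x := fun _ hx => Nrm.defn_pos _ hx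
  obtain ⟨L, h1, h2, h3⟩ := exists_prdS hD
  cases L with
  | nil => exact prd_ne_one hl hne h3.symm
  | cons a L =>
    obtain ⟨e₀, h⟩ := Heap.full_prdS hN a h1 h2
    rw [h3] at h
    have ha := h1 a List.mem_cons_self
    obtain ⟨i1, i2, -⟩ := Heap.red_spec hN hl
    rcases hs a.1 e₀ with ⟨e, he, hne, h4⟩ | ⟨b, c, hb, hc, j1, j2, j3, j4, j5⟩
    · exact h4 _ (i1 e (by rw [(h e he hne).1]; exact ha)) rfl
    · exact j5 (((i2 b hb).symm.trans (h _ j1 j3).1).trans ((i2 c hc).symm.trans (h _ j2 j4).1).symm)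

/-- peel off diagonals as long as possible (induction on the length of a reduced list; invariant:
either the list is stuck, or `Lead (prd l • 0) p s` with `s ≥ μ` of the part peeled off, so that
this part has norm `≤ H ≤ μ g`). -/
theorem exists_dec_D {N : Nrm X} (hN : ∀ x, x ≠ 1 → 0 < N x) (g : GP X) :
    ∃ (L : List (Pt × X)) (l : List (Ed × X)), g = prdS L * prd l ∧ Red l ∧ Stuck l ∧
      mu N (prd l) ≤ 2 * mu N g := by
  obtain ⟨l₀, hl₀, rfl⟩ := exists_prd g
  obtain ⟨L, l, h1, h2, h3, h4⟩ := Heap.dec_aux hN _ l₀ hl₀ rfl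
  refine ⟨L, l, h1, h2, h3, ?_⟩
  have h5 : mu N (prdS L) ≤ mu N (prd l₀) := by
    rcases h4 with rfl | ⟨p, h4⟩
    · exact ((mu N).one).le.trans (Nat.zero_le _)
    · exact (Heap.mu_prdS_le N L).trans h4.le_mu
  have h6 : prd l = (prdS L)⁻¹ * prd l₀ := by rw [h1, inv_mul_cancel_left]
  have h7 := (mu N).mul (prdS L)⁻¹ (prd l₀)
  rw [← h6, (mu N).inv] at h7
  omega

end Crest.Agent.R185.GP
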