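import Crest.Agent.R185.Cert2
import Crest.Agent.R185.GP1

/-!
# R185 TASK CertGP: certificates for the graph product
-/

set_option autoImplicit false

namespace Crest.Agent.R185

variable {Sit E F : Type} [Primcodable E] [Primcodable F] {X : Ctx Sit E F}
  {𝔄 : Type} [Primcodable 𝔄] {G : Sit → Type} [∀ σ, Group (G σ)] {g : ∀ σ, 𝔄 → G σ}
  {N : ∀ σ, Nrm (G σ)} {f : ℕ → ℕ}

/-- the word of a list of syllables -/
def certGP_xw {𝔄 : Type} (l : List (Ed × Wd 𝔄)) : Wd (Ed × 𝔄) :=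
  l.flatMap fun a => wmap (fun x => (a.1, x)) a.2

/-- the word of a list of diagonal elements -/
def certGP_xS {𝔄 : Type} (L : List (Pt × Wd 𝔄)) : Wd (Ed × 𝔄) :=
  L.flatMap fun a => certGP_xw ((stE a.1).map fun e => (e, a.2))

/-- the values of the labels -/
def certGP_ev {𝔄 ι G : Type} [Group G] (g : 𝔄 → G) (l : List (ι × Wd 𝔄)) : List (ι × G) :=
  l.map fun a => (a.1, wev g a.2)

theorem certGP_wev_xw {𝔄 G : Type} [Group G] (g : 𝔄 → G) (l : List (Ed × Wd 𝔄)) :
    wev (GP.gens g) (certGP_xw l) = GP.prd (certGP_ev g l) := by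
  induction l with
  | nil => simp [certGP_xw, certGP_ev, GP.prd]
  | cons a l ih =>
    simp only [certGP_xw, certGP_ev, GP.prd, List.flatMap_cons, wev_append, List.map_cons,
      List.prod_cons] at ih ⊢
    rw [ih, wev_wmap, map_wev]
    rfl

theorem certGP_wev_xS {𝔄 G : Type} [Group G] (g : 𝔄 → G) (L : List (Pt × Wd 𝔄)) :
    wev (GP.gens g) (certGP_xS L) = GP.prdS (certGP_ev g L) := by
  induction L with
  | nil => simp [certGP_xS, certGP_ev, GP.prdS]
  | cons a L ih =>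
    simp only [certGP_xS, certGP_ev, GP.prdS, List.flatMap_cons, wev_append, List.map_cons,
      List.prod_cons] at ih ⊢
    rw [ih, certGP_wev_xw]
    simp only [certGP_ev, GP.prd, GP.sF, List.map_map]
    rfl

theorem certGP_exists_ev {𝔄 ι G : Type} [Group G] {g : 𝔄 → G} (hg : Gens g)
    (l : List (ι × G)) : ∃ m, certGP_ev g m = l := by
  choose w hw using hg.exists_wev
  exact ⟨l.map fun p => (p.1, w p.2), by simp [certGP_ev, Function.comp_def, hw]⟩

theorem certGP_primrec_xw : Primrec (certGP_xw : List (Ed × Wd 𝔄) → Wd (Ed × 𝔄)) :=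
  Primrec.list_flatMap Primrec.id (Primrec.list_map (Primrec.snd.comp Primrec.snd)
    ((((Primrec.fst.comp (Primrec.snd.comp Primrec.fst)).pair
      (Primrec.fst.comp Primrec.snd)).pair (Primrec.snd.comp Primrec.snd)).to₂)).to₂

theorem certGP_primrec_xS : Primrec (certGP_xS : List (Pt × Wd 𝔄) → Wd (Ed × 𝔄)) :=
  Primrec.list_flatMap Primrec.id (certGP_primrec_xw.comp (Primrec.list_map
    ((Primrec.dom_finite stE).comp (Primrec.fst.comp Primrec.snd))
    (Primrec.snd.pair (Primrec.snd.comp (Primrec.snd.comp Primrec.fst))).to₂)).to₂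

theorem certGP_front_nil {Y : Type} (a : Ed × Y) : ¬ GP.Front [] a := by
  rintro ⟨l₁, l₂, h, -⟩
  simp at h

theorem certGP_front_cons {Y : Type} (b a : Ed × Y) (l : List (Ed × Y)) :
    GP.Front (b :: l) a ↔ a = b ∨ (adj b.1 a.1 ∧ GP.Front l a) := by
  constructor
  · rintro ⟨l₁, l₂, h, h'⟩
    cases l₁ with
    | nil => exact Or.inl (List.cons.inj h).1.symm
    | cons c l₁ =>
      obtain ⟨rfl, h2⟩ := List.cons.inj h
      exact Or.inr ⟨h' _ List.mem_cons_self, l₁, l₂, h2, fun x hx => h' x (List.mem_cons_of_mem _ hx)⟩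
  · rintro (rfl | ⟨h, l₁, l₂, rfl, h'⟩)
    · exact ⟨[], l, rfl, by simp⟩
    · exact ⟨b :: l₁, l₂, rfl, by simpa using ⟨h, by simpa using h'⟩⟩

theorem certGP_front_mem {Y : Type} {a : Ed × Y} {l : List (Ed × Y)} (h : GP.Front l a) :
    a ∈ l := by
  obtain ⟨l₁, l₂, rfl, -⟩ := h
  simp

theorem certGP_front_ev {𝔄 G : Type} [Group G] (g : 𝔄 → G) (l : List (Ed × Wd 𝔄)) (a : Ed × G) :
    GP.Front (certGP_ev g l) a ↔ ∃ b, GP.Front l b ∧ a = (b.1, wev g b.2) := by
  induction l with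
  | nil => simp [certGP_ev, certGP_front_nil]
  | cons c l ih =>
    have : certGP_ev g (c :: l) = (c.1, wev g c.2) :: certGP_ev g l := rfl
    rw [this, certGP_front_cons, ih]
    simp only [certGP_front_cons]
    constructor
    · rintro (h | ⟨h, b, hb, rfl⟩)
      · exact ⟨c, Or.inl rfl, h⟩
      · exact ⟨b, Or.inr ⟨h, hb⟩, rfl⟩
    · rintro ⟨b, rfl | ⟨h, hb⟩, rfl⟩
      · exact Or.inl rfl
      · exact Or.inr ⟨h, b, hb, rfl⟩

/-- `e` is the edge of a front syllable -/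
def certGP_fe {Y : Type} (l : List (Ed × Y)) (e : Ed) : Bool :=
  l.foldr (fun b r => decide (b.1 = e) || (decide (adj b.1 e) && r)) false

theorem certGP_fe_iff {Y : Type} (l : List (Ed × Y)) (e : Ed) :
    certGP_fe l e = false ↔ ∀ a, GP.Front l a → a.1 ≠ e := by
  induction l with
  | nil => simp [certGP_fe, certGP_front_nil]
  | cons c l ih =>
    have : certGP_fe (c :: l) e = (decide (c.1 = e) || (decide (adj c.1 e) && certGP_fe l e)) := rfl
    rw [this]
    simp only [certGP_front_cons, Bool.or_eq_false_iff, Bool.and_eq_false_iff, decide_eq_false_iff_not,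
      ih]
    constructor
    · rintro ⟨h1, h2⟩ a (rfl | ⟨h3, h4⟩)
      · exact h1
      · rintro rfl
        exact h2.elim (fun h => h h3) fun h => h a h4 rfl
    · intro h
      refine ⟨h c (Or.inl rfl), ?_⟩
      by_cases h1 : adj c.1 e
      · refine Or.inr fun a ha he => h a (Or.inr ⟨by rw [he]; exact h1, ha⟩) he
      · exact Or.inl h1

theorem certGP_primrec_fe {Y : Type} [Primcodable Y] :
    Primrec₂ (certGP_fe : List (Ed × Y) → Ed → Bool) := by
  have h1 : Primrec fun x : Ed × Ed × Bool => decide (x.1 = x.2.1) || (decide (adj x.1 x.2.1) && x.2.2) :=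
    Primrec.dom_finite _
  exact Primrec.list_foldr (f := fun x : List (Ed × Y) × Ed => x.1) (g := fun _ => false)
    (h := fun x (y : (Ed × Y) × Bool) => decide (y.1.1 = x.2) || (decide (adj y.1.1 x.2) && y.2))
    Primrec.fst (Primrec.const _)
    (h1.comp ((Primrec.fst.comp (Primrec.fst.comp Primrec.snd)).pair
      ((Primrec.snd.comp Primrec.fst).pair (Primrec.snd.comp Primrec.snd)))).to₂

/-- decision procedure for `NoMerge` -/
def certGP_nm {Y : Type} (l : List (Ed × Y)) : Bool :=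
  List.recOn l true fun b l r => !certGP_fe l b.1 && r

theorem certGP_nm_iff {Y : Type} (l : List (Ed × Y)) : certGP_nm l = true ↔ GP.NoMerge l := by
  induction l with
  | nil => simp [certGP_nm, GP.NoMerge]
  | cons c l ih =>
    have : certGP_nm (c :: l) = (!certGP_fe l c.1 && certGP_nm l) := rfl
    rw [this, Bool.and_eq_true, ih, Bool.not_eq_true', certGP_fe_iff]
    rfl

theorem certGP_primrec_nm {Y : Type} [Primcodable Y] :
    Primrec (certGP_nm : List (Ed × Y) → Bool) :=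
  Primrec.list_rec (f := fun l : List (Ed × Y) => l) (g := fun _ => true)
    (h := fun _ (y : (Ed × Y) × List (Ed × Y) × Bool) => !certGP_fe y.2.1 y.1.1 && y.2.2)
    Primrec.id (Primrec.const _)
    (Primrec.and.comp (Primrec.not.comp (certGP_primrec_fe.comp
      (Primrec.fst.comp (Primrec.snd.comp Primrec.snd))
      (Primrec.fst.comp (Primrec.fst.comp Primrec.snd))))
      (Primrec.snd.comp (Primrec.snd.comp Primrec.snd))).to₂

theorem certGP_fe_ev {𝔄 G : Type} [Group G] (g : 𝔄 → G) (l : List (Ed × Wd 𝔄)) (e : Ed) :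
    certGP_fe (certGP_ev g l) e = certGP_fe l e := by
  simp only [certGP_fe, certGP_ev, List.foldr_map]

theorem certGP_nm_ev {𝔄 G : Type} [Group G] (g : 𝔄 → G) (l : List (Ed × Wd 𝔄)) :
    certGP_nm (certGP_ev g l) = certGP_nm l := by
  induction l with
  | nil => rfl
  | cons c l ih =>
    have h1 : certGP_nm (c :: l) = (!certGP_fe l c.1 && certGP_nm l) := rfl
    have h2 : certGP_nm (certGP_ev g (c :: l)) =
      (!certGP_fe (certGP_ev g l) c.1 && certGP_nm (certGP_ev g l)) := rfl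
    rw [h1, h2, ih, certGP_fe_ev]

theorem certGP_re_front {Y : Type} [Primcodable Y] :
    REPred fun x : List (Ed × Y) × (Ed × Y) => GP.Front x.1 x.2 := by
  have h1 : REPred fun x : (List (Ed × Y) × (Ed × Y)) × List (Ed × Y) × List (Ed × Y) =>
      x.1.1 = x.2.1 ++ x.1.2 :: x.2.2 :=
    re_eq (Computable.fst.comp Computable.fst) (Primrec.list_append.comp
      (Primrec.fst.comp Primrec.snd) (Primrec.list_cons.comp (Primrec.snd.comp Primrec.fst)
        (Primrec.snd.comp Primrec.snd))).to_comp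
  have h2 : REPred fun x : Ed × (Ed × Y) => adj x.2.1 x.1 :=
    re_comp (re_finite fun x : Ed × Ed => adj x.2 x.1)
      (Computable.fst.pair (Computable.fst.comp Computable.snd))
  have h3 : REPred fun x : (List (Ed × Y) × (Ed × Y)) × List (Ed × Y) × List (Ed × Y) =>
      ∀ b ∈ x.2.1, adj b.1 x.1.2.1 :=
    re_comp (re_forall_list h2) (f := fun x : (List (Ed × Y) × (Ed × Y)) × List (Ed × Y) ×
      List (Ed × Y) => (x.1.2.1, x.2.1))
      ((Computable.fst.comp (Computable.snd.comp Computable.fst)).pair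
        (Computable.fst.comp Computable.snd))
  exact (re_exists (re_and h1 h3)).of_eq fun x => by simp [GP.Front]

theorem certGP_foldr_le {l : List ℕ} {t : ℕ} (h : ∀ x ∈ l, x ≤ t) : l.foldr max 0 ≤ t := by
  induction l with
  | nil => simp
  | cons a l ih =>
    exact max_le (h a (by simp)) (ih fun x hx => h x (by simp [hx]))

theorem certGP_le_foldr {l : List ℕ} {x : ℕ} (h : x ∈ l) : x ≤ l.foldr max 0 := by
  induction l with
  | nil => simp at h
  | cons a l ih =>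
    rcases List.mem_cons.1 h with rfl | h
    · exact le_max_left _ _
    · exact (ih h).trans (le_max_right _ _)

/-- the largest norm of a label -/
def certGP_mx {𝔄 G : Type} [Group G] (N : Nrm G) (g : 𝔄 → G) (l : List (Ed × Wd 𝔄)) : ℕ :=
  (l.map fun a => N (wev g a.2)).foldr max 0

theorem certGP_le_mx {𝔄 G : Type} [Group G] (N : Nrm G) (g : 𝔄 → G) {l : List (Ed × Wd 𝔄)}
    {a : Ed × Wd 𝔄} (h : a ∈ l) : N (wev g a.2) ≤ certGP_mx N g l :=
  certGP_le_foldr (List.mem_map_of_mem (f := fun a : Ed × Wd 𝔄 => N (wev g a.2)) h)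

theorem certGP_mx_le {𝔄 G : Type} [Group G] {N : Nrm G} (hN : ∀ x, x ≠ 1 → 0 < N x) (g : 𝔄 → G)
    {l : List (Ed × Wd 𝔄)} (h : GP.Red (certGP_ev g l)) :
    certGP_mx N g l ≤ GP.mu N (GP.prd (certGP_ev g l)) := by
  refine certGP_foldr_le fun x hx => ?_
  obtain ⟨a, ha, rfl⟩ := List.mem_map.1 hx
  exact GP.le_mu hN h _ (List.mem_map_of_mem (f := fun a : Ed × Wd 𝔄 => (a.1, wev g a.2)) ha)

/-- nonempty reduced lists -/
theorem certGP_red (hf : Monotone f) (hne : CertS X g N f fun _ => {1}ᶜ) :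
    Cert X (fun σ (l : List (Ed × Wd 𝔄)) =>
      certGP_ev (g σ) l ≠ [] ∧ GP.Red (certGP_ev (g σ) l))
      fun σ l => f (certGP_mx (N σ) (g σ) l) := by
  have h1 := Cert.of_re' (X := X) (re_and
    (re_ne (f := fun l : List (Ed × Wd 𝔄) => l) (g := fun _ => []) Computable.id
      (Computable.const _))
    (re_eq (f := fun l : List (Ed × Wd 𝔄) => certGP_nm l) (g := fun _ => true)
      certGP_primrec_nm.to_comp (Computable.const _))) fun _ _ => 0
  have h2 := (Cert.comp' hne (f := fun x : List (Ed × Wd 𝔄) × (Ed × Wd 𝔄) => x.2.2)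
    (Computable.snd.comp Computable.snd)).all.comp' (f := fun l : List (Ed × Wd 𝔄) => (l, l))
    (Computable.id.pair Computable.id)
  refine (h1.and h2).congr (fun σ l => ?_) fun σ l _ => ?_
  · rw [GP.Red, ← certGP_nm_iff, certGP_nm_ev]
    simp only [certGP_ev, List.forall_mem_map, ne_eq, List.map_eq_nil_iff, Set.mem_compl_iff,
      Set.mem_singleton_iff, and_assoc]
  · refine max_le (Nat.zero_le _) (certGP_foldr_le fun x hx => ?_)
    obtain ⟨a, ha, rfl⟩ := List.mem_map.1 hx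
    exact hf (certGP_le_mx _ _ ha)

/-- stuck lists -/
theorem certGP_stuck (hf : Monotone f) (hne : CertS X g N f fun _ => {1}ᶜ) :
    Cert X (fun σ (l : List (Ed × Wd 𝔄)) => GP.Stuck (certGP_ev (g σ) l))
      fun σ l => f (2 * certGP_mx (N σ) (g σ) l) := by
  have h1 : REPred fun x : List (Ed × Wd 𝔄) × Pt × Ed =>
      ∃ e : Ed, (e ∈ stE x.2.1 ∧ e ≠ x.2.2) ∧ certGP_fe x.1 e = false :=
    re_exists (p := fun y : (List (Ed × Wd 𝔄) × Pt × Ed) × Ed =>
      (y.2 ∈ stE y.1.2.1 ∧ y.2 ≠ y.1.2.2) ∧ certGP_fe y.1.1 y.2 = false)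
      (re_and (re_comp (re_finite fun z : (Pt × Ed) × Ed => z.2 ∈ stE z.1.1 ∧ z.2 ≠ z.1.2)
        ((Computable.snd.comp Computable.fst).pair Computable.snd))
        (re_eq (certGP_primrec_fe.comp (Primrec.fst.comp Primrec.fst) Primrec.snd).to_comp
          (Computable.const _)))
  have h2 : REPred fun y : (List (Ed × Wd 𝔄) × Pt × Ed) × (Ed × Wd 𝔄) × (Ed × Wd 𝔄) =>
      (GP.Front y.1.1 y.2.1 ∧ GP.Front y.1.1 y.2.2) ∧
        (y.2.1.1 ∈ stE y.1.2.1 ∧ y.2.2.1 ∈ stE y.1.2.1 ∧ y.2.1.1 ≠ y.1.2.2 ∧ y.2.2.1 ≠ y.1.2.2) :=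
    re_and (re_and
      (re_comp certGP_re_front ((Computable.fst.comp Computable.fst).pair
        (Computable.fst.comp Computable.snd)))
      (re_comp certGP_re_front ((Computable.fst.comp Computable.fst).pair
        (Computable.snd.comp Computable.snd))))
      (re_comp (re_finite fun z : (Pt × Ed) × Ed × Ed =>
          z.2.1 ∈ stE z.1.1 ∧ z.2.2 ∈ stE z.1.1 ∧ z.2.1 ≠ z.1.2 ∧ z.2.2 ≠ z.1.2)
        ((Computable.snd.comp Computable.fst).pair
          ((Computable.fst.comp (Computable.fst.comp Computable.snd)).pair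
            (Computable.fst.comp (Computable.snd.comp Computable.snd)))))
  have h3 := Cert.comp' hne
    (f := fun y : (List (Ed × Wd 𝔄) × Pt × Ed) × (Ed × Wd 𝔄) × (Ed × Wd 𝔄) =>
      y.2.1.2 ++ winv y.2.2.2)
    (Primrec.list_append.comp (Primrec.snd.comp (Primrec.fst.comp Primrec.snd))
      (primrec_winv.comp (Primrec.snd.comp (Primrec.snd.comp Primrec.snd)))).to_comp
  have h4 := ((Cert.of_re' (X := X) h2 fun _ _ => 0).and h3).ex
    (t := fun σ x => f (2 * certGP_mx (N σ) (g σ) x.1)) (by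
      rintro σ x ⟨b, hb⟩
      refine ⟨b, hb, max_le (Nat.zero_le _) (hf ?_)⟩
      have i1 := certGP_le_mx (N σ) (g σ) (certGP_front_mem hb.1.1.1)
      have i2 := certGP_le_mx (N σ) (g σ) (certGP_front_mem hb.1.1.2)
      have i3 := (N σ).mul (wev (g σ) b.1.2) (wev (g σ) b.2.2)⁻¹
      rw [(N σ).inv] at i3
      simp only [wev_append, wev_winv] at i1 i2 ⊢
      omega)
  have h5 := ((Cert.of_re' (X := X) h1 fun _ _ => 0).or h4
    (t := fun σ x => f (2 * certGP_mx (N σ) (g σ) x.1)) fun σ x h =>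
      h.imp (fun h => ⟨h, Nat.zero_le _⟩) fun h => ⟨h, le_rfl⟩).forall_fin
    (t := fun σ l => f (2 * certGP_mx (N σ) (g σ) l)) fun _ _ _ => le_rfl
  refine h5.congr (fun σ l => ?_) fun _ _ _ => le_rfl
  rw [GP.Stuck, Prod.forall]
  refine forall_congr' fun p => forall_congr' fun e₀ => or_congr ?_ ?_
  · refine exists_congr fun e => ?_
    rw [← certGP_fe_iff, certGP_fe_ev, and_assoc]
  · simp only [wev_append, wev_winv, Set.mem_compl_iff, Set.mem_singleton_iff, mul_inv_eq_one,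
      certGP_front_ev]
    constructor
    · rintro ⟨b, ⟨⟨i1, i2⟩, i3, i4, i5, i6⟩, i7⟩
      exact ⟨_, _, ⟨_, i1, rfl⟩, ⟨_, i2, rfl⟩, i3, i4, i5, i6, i7⟩
    · rintro ⟨_, _, ⟨a, i1, rfl⟩, ⟨b, i2, rfl⟩, i3, i4, i5, i6, i7⟩
      exact ⟨(a, b), ⟨⟨i1, i2⟩, i3, i4, i5, i6⟩, i7⟩

theorem CertEq.gp_base (hEq : CertEq X fun σ => GP.gens (g σ)) : CertEq X g :=
  hEq.of_embed (fun _ => GP.v (Sum.inr 0)) (fun _ => GP.v_injective _)
    (s := fun _ a => [((Sum.inr 0, a), true)])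
    (Primrec.list_cons.comp (((Primrec.const _).pair Primrec.snd).pair (Primrec.const true))
      (Primrec.const [])).to_comp fun σ a => by rw [wev_single_true]; rfl

/-- certificate: a nonempty list of syllables `(e, word)`; `NoMerge` depends only on the list of
edges and is primitive recursive (compute the finite set of front edges by a `foldr`), the labels
are nontrivial (`hne`, sizes by `GP.le_mu`). -/
theorem certS_GP_ne (hf : Monotone f) (hg : ∀ σ, Gens (g σ)) (hN : ∀ σ x, x ≠ 1 → 0 < N σ x)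
    (hEq : CertEq X fun σ => GP.gens (g σ)) (hne : CertS X g N f fun _ => {1}ᶜ) :
    CertS X (fun σ => GP.gens (g σ)) (fun σ => GP.mu (N σ)) f fun _ => {1}ᶜ := by
  have h1 := hEq.eq₂.comp'
    (f := fun x : Wd (Ed × 𝔄) × List (Ed × Wd 𝔄) => (x.1, certGP_xw x.2))
    (Primrec.fst.pair (certGP_primrec_xw.comp Primrec.snd)).to_comp
  have h2 := (certGP_red hf hne).comp'
    (f := fun x : Wd (Ed × 𝔄) × List (Ed × Wd 𝔄) => x.2) Computable.snd
  refine ((h1.and h2).ex
    (t := fun σ w => f (GP.mu (N σ) (wev (GP.gens (g σ)) w))) ?_).congr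
    (fun σ w => ⟨?_, fun h => ?_⟩) fun _ _ _ => le_rfl
  · rintro σ w ⟨l, hl⟩
    refine ⟨l, hl, max_le (Nat.zero_le _) (hf ?_)⟩
    have := hl.1
    simp only [certGP_wev_xw] at this
    rw [this]
    exact certGP_mx_le (hN σ) _ hl.2.2
  · rintro ⟨l, i1, i2, i3⟩
    simp only [certGP_wev_xw] at i1
    rw [i1]
    exact GP.prd_ne_one i3 i2
  · obtain ⟨l, i1, i2⟩ := GP.exists_prd (wev (GP.gens (g σ)) w)
    obtain ⟨m, rfl⟩ := certGP_exists_ev (hg σ) l
    refine ⟨m, by simp only [certGP_wev_xw, i2], fun h0 => h ?_, i1⟩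
    simp only at h0
    rw [← i2, h0]
    rfl

/-- certificate: the lists `L`, `l` of `GP.exists_dec_D` (`l ≠ []` because `prdS L ∈ D`);
`Stuck` is a finite conjunction (`Cert.forall_fin`) of a decidable condition on the edges or an
inequality of two labels; soundness `GP.notMem_D`. -/
theorem certS_GP_D (hf : Monotone f) (hg : ∀ σ, Gens (g σ)) (hN : ∀ σ x, x ≠ 1 → 0 < N σ x)
    (hEq : CertEq X fun σ => GP.gens (g σ)) (hne : CertS X g N f fun _ => {1}ᶜ) :
    CertS X (fun σ => GP.gens (g σ)) (fun σ => GP.mu (N σ)) (fun n => f (4 * n))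
      fun σ => (GP.D (G σ) : Set (GP (G σ)))ᶜ := by
  have h1 := hEq.eq₂.comp'
    (f := fun x : Wd (Ed × 𝔄) × List (Pt × Wd 𝔄) × List (Ed × Wd 𝔄) =>
      (x.1, certGP_xS x.2.1 ++ certGP_xw x.2.2))
    (Primrec.fst.pair (Primrec.list_append.comp
      (certGP_primrec_xS.comp (Primrec.fst.comp Primrec.snd))
      (certGP_primrec_xw.comp (Primrec.snd.comp Primrec.snd)))).to_comp
  have h2 := ((certGP_red hf hne).and (certGP_stuck hf hne)).comp'
    (f := fun x : Wd (Ed × 𝔄) × List (Pt × Wd 𝔄) × List (Ed × Wd 𝔄) => x.2.2)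
    (Computable.snd.comp Computable.snd)
  have snd : ∀ σ (w : Wd (Ed × 𝔄)) (A : List (Pt × Wd 𝔄)) (B : List (Ed × Wd 𝔄)),
      (wev (GP.gens (g σ)) w = wev (GP.gens (g σ)) (certGP_xS A ++ certGP_xw B) ∧
        (certGP_ev (g σ) B ≠ [] ∧ GP.Red (certGP_ev (g σ) B)) ∧ GP.Stuck (certGP_ev (g σ) B)) →
      wev (GP.gens (g σ)) w ∉ GP.D (G σ) := by
    rintro σ w A B ⟨i1, ⟨i2, i3⟩, i4⟩ h
    rw [i1, wev_append, certGP_wev_xS, certGP_wev_xw,
      Subgroup.mul_mem_cancel_left _ (GP.prdS_mem _)] at h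
    exact GP.notMem_D i3 i2 i4 h
  have compl : ∀ σ (w : Wd (Ed × 𝔄)), wev (GP.gens (g σ)) w ∉ GP.D (G σ) →
      ∃ (A : List (Pt × Wd 𝔄)) (B : List (Ed × Wd 𝔄)),
      (wev (GP.gens (g σ)) w = wev (GP.gens (g σ)) (certGP_xS A ++ certGP_xw B) ∧
        (certGP_ev (g σ) B ≠ [] ∧ GP.Red (certGP_ev (g σ) B)) ∧ GP.Stuck (certGP_ev (g σ) B)) ∧
      certGP_mx (N σ) (g σ) B ≤ 2 * GP.mu (N σ) (wev (GP.gens (g σ)) w) := by
    intro σ w h
    obtain ⟨L, l, i1, i2, i3, i4⟩ := GP.exists_dec_D (hN σ) (wev (GP.gens (g σ)) w)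
    obtain ⟨A, rfl⟩ := certGP_exists_ev (hg σ) L
    obtain ⟨B, rfl⟩ := certGP_exists_ev (hg σ) l
    refine ⟨A, B, ⟨by rw [wev_append, certGP_wev_xS, certGP_wev_xw, ← i1], ⟨fun h0 => h ?_, i2⟩,
      i3⟩, (certGP_mx_le (hN σ) _ i2).trans i4⟩
    rw [i1, h0]
    exact mul_mem (GP.prdS_mem _) (one_mem _)
  refine ((h1.and h2).ex
    (t := fun σ w => f (4 * GP.mu (N σ) (wev (GP.gens (g σ)) w))) ?_).congr
    (fun σ w => ⟨fun ⟨b, hb⟩ => snd σ w b.1 b.2 hb, fun h => ?_⟩) fun _ _ _ => le_rfl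
  · rintro σ w ⟨b, hb⟩
    obtain ⟨A, B, h, hs⟩ := compl σ w (snd σ w b.1 b.2 hb)
    exact ⟨(A, B), h, max_le (Nat.zero_le _) (max_le (hf (by simp only; omega))
      (hf (by simp only; omega)))⟩
  · obtain ⟨A, B, h, -⟩ := compl σ w h
    exact ⟨(A, B), h⟩

/-- images under a section of `ret e` -/
theorem certGP_section (hf : Monotone f) (hg : ∀ σ, Gens (g σ))
    (hN : ∀ σ x, x ≠ 1 → 0 < N σ x) [Finite 𝔄] (hEq : CertEq X fun σ => GP.gens (g σ))
    (hne : CertS X g N f fun _ => {1}ᶜ) {T : ∀ σ, Set (G σ)}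
    (hT : CertS X g N f fun σ => (T σ)ᶜ) (e : Ed) (j : ∀ σ, G σ →* GP (G σ))
    (hj : ∀ σ x, GP.ret e (j σ x) = x) (hjN : ∀ σ x, GP.mu (N σ) (j σ x) ≤ N σ x)
    (u : 𝔄 → Wd (Ed × 𝔄)) (hu : ∀ σ a, j σ (g σ a) = wev (GP.gens (g σ)) (u a)) :
    CertS X (fun σ => GP.gens (g σ)) (fun σ => GP.mu (N σ)) (fun n => f (2 * n))
      fun σ => (j σ '' T σ)ᶜ := by
  have h1 := certS_not_fixed hf (certS_GP_ne hf hg hN hEq hne)
    (fun σ => (j σ).comp (GP.ret e)) (s := fun _ a => if a.1 = e then u a.2 else [])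
    ((Primrec.dom_finite fun a : Ed × 𝔄 => if a.1 = e then u a.2 else []).to_comp.comp
      Computable.snd)
    (fun σ a => by
      rw [MonoidHom.comp_apply, GP.gens, GP.ret_v]
      split_ifs
      · exact hu σ _
      · simp)
    (fun σ x => (hjN σ _).trans (GP.ret_le_mu _ _ _))
  have h2 := hT.comap (g := fun σ => GP.gens (g σ)) (N := fun σ => GP.mu (N σ))
    (fun σ => GP.ret e) (s := fun _ a => if a.1 = e then [(a.2, true)] else [])
    ((Primrec.dom_finite fun a : Ed × 𝔄 =>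
      if a.1 = e then ([(a.2, true)] : Wd 𝔄) else []).to_comp.comp Computable.snd)
    (fun σ a => by
      rw [GP.gens, GP.ret_v]
      split_ifs <;> simp)
    (D' := fun n => f (2 * n))
    (fun σ x => hf ((GP.ret_le_mu _ _ _).trans (by omega)))
  refine (h1.union h2).congr fun σ => ?_
  ext x
  simp only [Set.mem_union, Set.mem_compl_iff, Set.mem_ofPred_eq, MonoidHom.comp_apply,
    Set.mem_preimage, Set.mem_image, ← not_and_or]
  refine not_congr ⟨fun h => ⟨_, h.2, h.1⟩, ?_⟩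
  rintro ⟨y, hy, rfl⟩
  rw [hj]
  exact ⟨rfl, hy⟩

/-- images of subsets under a factor: `x ∈ v e '' T` iff `x` is fixed by `v e ∘ ret e` and
`ret e x ∈ T` (`certS_not_fixed`, `CertS.comap`, `GP.ret_le_mu`, `GP.mu_v`). -/
theorem certS_GP_v (hf : Monotone f) (hg : ∀ σ, Gens (g σ)) (hN : ∀ σ x, x ≠ 1 → 0 < N σ x)
    [Finite 𝔄] (hEq : CertEq X fun σ => GP.gens (g σ)) (hne : CertS X g N f fun _ => {1}ᶜ)
    {T : ∀ σ, Set (G σ)} (hT : CertS X g N f fun σ => (T σ)ᶜ) (e : Ed) :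
    CertS X (fun σ => GP.gens (g σ)) (fun σ => GP.mu (N σ)) (fun n => f (2 * n))
      fun σ => (GP.v e '' T σ)ᶜ :=
  certGP_section hf hg hN hEq hne hT e (fun _ => GP.v e)
    (fun σ x => by rw [GP.ret_v, if_pos rfl]) (fun _ _ => GP.mu_v_le _ _ _)
    (fun a => [((e, a), true)]) fun σ a => by rw [wev_single_true]; rfl

/-- the same for a diagonal (use `ret e` for some `e ∈ stE p`) -/
theorem certS_GP_S (hf : Monotone f) (hg : ∀ σ, Gens (g σ)) (hN : ∀ σ x, x ≠ 1 → 0 < N σ x)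
    [Finite 𝔄] (hEq : CertEq X fun σ => GP.gens (g σ)) (hne : CertS X g N f fun _ => {1}ᶜ)
    {T : ∀ σ, Set (G σ)} (hT : CertS X g N f fun σ => (T σ)ᶜ) (p : Pt) :
    CertS X (fun σ => GP.gens (g σ)) (fun σ => GP.mu (N σ)) (fun n => f (2 * n))
      fun σ => (GP.S p '' T σ)ᶜ := by
  obtain ⟨e, he⟩ := List.exists_mem_of_length_pos (l := stE p)
    (lt_of_lt_of_le (by norm_num) (three_le_stE p))
  refine certGP_section hf hg hN hEq hne hT e (fun _ => GP.S p)
    (fun σ x => GP.ret_sF he x) (fun _ _ => GP.mu_sF_le _ _ _)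
    (fun a => certGP_xS [(p, [(a, true)])]) fun σ a => ?_
  rw [certGP_wev_xS]
  simp [certGP_ev, GP.prdS]

end Crest.Agent.R185
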