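import Crest.Agent.R185.MH1

/-!
# R185 TASK MH2: norms on HNN extensions, good subgroups
-/

set_option autoImplicit false

namespace Crest.Agent.R185.HD

open scoped Pointwise

variable {G ι : Type} [Group G] (D : HD G ι)

theorem cost_nil (N : Nrm G) (wt : ℕ) (g₀ : G) : cost (ι := ι) N wt g₀ [] = N g₀ := by
  simp [cost]

theorem cost_cons (N : Nrm G) (wt : ℕ) (g₀ : G) (p : (ι × Bool) × G)
    (L : List ((ι × Bool) × G)) : cost N wt g₀ (p :: L) = N g₀ + wt + cost N wt p.2 L := by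
  simp only [cost, List.map_cons, List.sum_cons]; omega

theorem cost_mul_le (N : Nrm G) (wt : ℕ) (a g₀ : G) (L : List ((ι × Bool) × G)) :
    cost N wt (a * g₀) L ≤ N a + cost N wt g₀ L := by
  have := N.mul a g₀
  simp only [cost]; omega

theorem le_cost (N : Nrm G) (wt : ℕ) (g₀ : G) (L : List ((ι × Bool) × G)) :
    N g₀ ≤ cost N wt g₀ L := by
  simp only [cost]; omega

theorem exists_prd_mul (N : Nrm G) (wt : ℕ) (g₀ : G) (L : List ((ι × Bool) × G)) (h₀ : G)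
    (M : List ((ι × Bool) × G)) :
    ∃ k₀ K, D.prd k₀ K = D.prd g₀ L * D.prd h₀ M ∧
      cost N wt k₀ K ≤ cost N wt g₀ L + cost N wt h₀ M := by
  induction L generalizing g₀ with
  | nil =>
    refine ⟨g₀ * h₀, M, by rw [prd_nil, of_mul_prd], ?_⟩
    rw [cost_nil]; exact cost_mul_le N wt _ _ _
  | cons p L ih =>
    obtain ⟨k₀, K, h1, h2⟩ := ih p.2
    refine ⟨g₀, (p.1, k₀) :: K, ?_, ?_⟩
    · rw [prd_cons, prd_cons, h1]; simp only [mul_assoc]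
    · rw [cost_cons, cost_cons]; simp only; omega

theorem exists_prd_inv (N : Nrm G) (wt : ℕ) (g₀ : G) (L : List ((ι × Bool) × G)) :
    ∃ k₀ K, D.prd k₀ K = (D.prd g₀ L)⁻¹ ∧ cost N wt k₀ K ≤ cost N wt g₀ L := by
  induction L generalizing g₀ with
  | nil => exact ⟨g₀⁻¹, [], by simp, by rw [cost_nil, cost_nil, N.inv]⟩
  | cons p L ih =>
    obtain ⟨k₀, K, h1, h2⟩ := ih p.2
    obtain ⟨m₀, M, h3, h4⟩ := D.exists_prd_mul N wt k₀ K 1 [(opp p.1, g₀⁻¹)]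
    refine ⟨m₀, M, ?_, ?_⟩
    · rw [h3, h1, prd_cons, prd_cons]; simp [mul_assoc]
    · rw [cost_cons, cost_nil, N.one] at h4
      simp only [N.inv] at h4
      rw [cost_cons]; omega

theorem nrmF_le (N : Nrm G) (wt : ℕ) (g₀ : G) (L : List ((ι × Bool) × G)) :
    D.nrmF N wt (D.prd g₀ L) ≤ cost N wt g₀ L :=
  Nat.sInf_le ⟨g₀, L, rfl, rfl⟩

theorem exists_nrmF (N : Nrm G) (wt : ℕ) (x : D.MH) :
    ∃ g₀ L, D.prd g₀ L = x ∧ cost N wt g₀ L = D.nrmF N wt x :=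
  Nat.sInf_mem (s := {n | ∃ g₀ L, D.prd g₀ L = x ∧ cost N wt g₀ L = n})
    (let ⟨g₀, L, h⟩ := D.exists_prd x; ⟨_, g₀, L, h, rfl⟩)

theorem nrmF_inv_le (N : Nrm G) (wt : ℕ) (x : D.MH) : D.nrmF N wt x⁻¹ ≤ D.nrmF N wt x := by
  obtain ⟨g₀, L, rfl, h⟩ := D.exists_nrmF N wt x
  obtain ⟨k₀, K, h1, h2⟩ := D.exists_prd_inv N wt g₀ L
  rw [← h1, ← h]
  exact (D.nrmF_le N wt _ _).trans h2

/-- the norm on the extension (concatenate / invert expressions; `exists_prd` for nonemptiness). -/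
noncomputable def nrm (N : Nrm G) (wt : ℕ) : Nrm D.MH where
  f := D.nrmF N wt
  one := by
    have := D.nrmF_le N wt 1 []
    rw [prd_nil, map_one, cost_nil, N.one] at this
    omega
  mul x y := by
    obtain ⟨g₀, L, rfl, h⟩ := D.exists_nrmF N wt x
    obtain ⟨h₀, M, rfl, h'⟩ := D.exists_nrmF N wt y
    obtain ⟨k₀, K, h1, h2⟩ := D.exists_prd_mul N wt g₀ L h₀ M
    rw [← h1, ← h, ← h']
    exact (D.nrmF_le N wt _ _).trans h2
  inv x := by
    refine le_antisymm (D.nrmF_inv_le N wt x) ?_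
    have := D.nrmF_inv_le N wt x⁻¹
    rwa [inv_inv] at this

theorem nrm_prd_le (N : Nrm G) (wt : ℕ) (g₀ : G) (L : List ((ι × Bool) × G)) :
    D.nrm N wt (D.prd g₀ L) ≤ cost N wt g₀ L := D.nrmF_le N wt g₀ L


theorem nrm_st_le (N : Nrm G) (wt : ℕ) (i : ι) : D.nrm N wt (D.st i) ≤ wt := by
  have := D.nrm_prd_le N wt 1 [((i, true), 1)]
  rw [prd_cons, cost_cons, cost_nil] at this
  simpa [sl, N.one] using this


theorem nrm_hom_le {Λ : Type} [Group Λ] (N : Nrm G) (wt : ℕ) (M : Nrm Λ) (F : D.MH →* Λ)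
    (h₁ : ∀ g, M (F (D.of g)) ≤ N g) (h₂ : ∀ i, M (F (D.st i)) ≤ wt) (x : D.MH) :
    M (F x) ≤ D.nrm N wt x := by
  obtain ⟨g₀, L, rfl, h⟩ := D.exists_nrmF N wt x
  show _ ≤ D.nrmF N wt _
  rw [← h]
  clear h
  induction L generalizing g₀ with
  | nil => rw [prd_nil, cost_nil]; exact h₁ _
  | cons p L ih =>
    rw [prd_cons, cost_cons, map_mul, map_mul]
    have a1 := M.mul (F (D.of g₀) * F (D.sl p.1)) (F (D.prd p.2 L))
    have a2 := M.mul (F (D.of g₀)) (F (D.sl p.1))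
    have a3 := h₁ g₀
    have a4 := ih p.2
    have a5 : M (F (D.sl p.1)) ≤ wt := by
      unfold sl
      split_ifs
      · exact h₂ _
      · rw [map_inv, M.inv]; exact h₂ _
    omega


theorem nrm_of_le (N : Nrm G) (wt : ℕ) (g : G) : D.nrm N wt (D.of g) ≤ N g := by
  have := D.nrm_prd_le N wt g []
  rwa [prd_nil, cost_nil] at this


theorem pinch_eq (g₀ h₀ : G) (l : ι × Bool) (q : (ι × Bool) × G) (M : List ((ι × Bool) × G))
    (h1 : q.1 = opp l) (h2 : h₀ ∈ D.dom q.1) :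
    D.prd (g₀ * (D.tr q.1 h₀ * q.2)) M = D.of g₀ * D.sl l * D.prd h₀ (q :: M) := by
  have hl : D.sl l = (D.sl q.1)⁻¹ := by rw [h1, sl_opp, inv_inv]
  rw [← of_mul_prd, ← of_mul_prd, ← D.sl_conj h2, prd_cons, hl]
  simp only [mul_assoc]

theorem red_cons {l : ι × Bool} {h₀ : G} {M : List ((ι × Bool) × G)} (hM : D.Red M)
    (h : ¬ ∃ q M', M = q :: M' ∧ q.1 = opp l ∧ h₀ ∈ D.dom q.1) : D.Red ((l, h₀) :: M) := by
  cases M with
  | nil => simp [Red]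
  | cons q M' =>
    unfold Red
    rw [List.isChain_cons_cons]
    exact ⟨fun h1 h2 => h ⟨q, M', rfl, h1, h2⟩, hM⟩

theorem exists_red_aux {N : Nrm G} {wt : ℕ} (hL : D.Lip N wt) (g₀ : G)
    (L : List ((ι × Bool) × G)) :
    ∃ h₀ M, D.Red M ∧ D.prd h₀ M = D.prd g₀ L ∧ cost N wt h₀ M ≤ cost N wt g₀ L := by
  induction L generalizing g₀ with
  | nil => exact ⟨g₀, [], by simp [Red], rfl, le_rfl⟩
  | cons p L ih =>
    obtain ⟨h₀, M, hM, h1, h2⟩ := ih p.2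
    by_cases h : ∃ q M', M = q :: M' ∧ q.1 = opp p.1 ∧ h₀ ∈ D.dom q.1
    · obtain ⟨q, M', rfl, h3, h4⟩ := h
      refine ⟨g₀ * (D.tr q.1 h₀ * q.2), M', hM.tail, ?_, ?_⟩
      · rw [D.pinch_eq g₀ h₀ p.1 q M' h3 h4, h1, prd_cons]
      · have a1 := cost_mul_le N wt g₀ (D.tr q.1 h₀ * q.2) M'
        have a2 := cost_mul_le N wt (D.tr q.1 h₀) q.2 M'
        have a3 := hL q.1 h₀ h4
        rw [cost_cons] at h2 ⊢
        omega
    · refine ⟨g₀, (p.1, h₀) :: M, D.red_cons hM h, ?_, ?_⟩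
      · rw [prd_cons, prd_cons, h1]
      · rw [cost_cons, cost_cons]; simp only; omega

/-- removing a pinch `s⁻¹ a s = tr a` shortens the list and does not increase the cost. -/
theorem exists_red {N : Nrm G} {wt : ℕ} (hL : D.Lip N wt) (x : D.MH) :
    ∃ g₀ L, D.Red L ∧ D.prd g₀ L = x ∧ cost N wt g₀ L ≤ D.nrm N wt x := by
  obtain ⟨g₀, L, rfl, h⟩ := D.exists_nrmF N wt x
  obtain ⟨h₀, M, h1, h2, h3⟩ := D.exists_red_aux hL g₀ L
  exact ⟨h₀, M, h1, h2, h3.trans (le_of_eq h)⟩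


/-- the base group is isometrically embedded (`exists_red` + `britton`). -/
theorem nrm_of {N : Nrm G} {wt : ℕ} (hL : D.Lip N wt) (g : G) : D.nrm N wt (D.of g) = N g := by
  refine le_antisymm (D.nrm_of_le N wt g) ?_
  obtain ⟨g₀, L, h1, h2, h3⟩ := D.exists_red hL (D.of g)
  have := D.britton h1 (g₀ := g₀) ⟨g, h2.symm⟩
  subst this
  rw [prd_nil] at h2
  rw [cost_nil, D.of_injective h2] at h3
  exact h3


theorem Good.tr_mem {Q : Subgroup G} {I : Set ι} (hG : D.Good Q I) {l : ι × Bool} (hl : l.1 ∈ I)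
    {a : G} (ha : a ∈ D.dom l) : D.tr l a ∈ Q ↔ a ∈ Q := by
  obtain ⟨i, b⟩ := l
  cases b
  · simp only [dom, Bool.false_eq_true, if_false] at ha
    have h1 := D.tr_false i ⟨a, ha⟩
    simp only at h1
    rw [h1, hG i hl ((D.θ i).symm ⟨a, ha⟩), MulEquiv.apply_symm_apply]
  · simp only [dom, if_true] at ha
    have h1 := D.tr_true i ⟨a, ha⟩
    simp only at h1
    rw [h1, ← hG i hl ⟨a, ha⟩]


theorem exists_red_good_aux {Q : Subgroup G} {I : Set ι} (hG : D.Good Q I) (g₀ : G)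
    (L : List ((ι × Bool) × G)) (h0 : g₀ ∈ Q) (hL : ∀ p ∈ L, p.1.1 ∈ I ∧ p.2 ∈ Q) :
    ∃ h₀ M, D.Red M ∧ D.prd h₀ M = D.prd g₀ L ∧ h₀ ∈ Q ∧ ∀ p ∈ M, p.1.1 ∈ I ∧ p.2 ∈ Q := by
  induction L generalizing g₀ with
  | nil => exact ⟨g₀, [], by simp [Red], rfl, h0, hL⟩
  | cons p L ih =>
    obtain ⟨h₀, M, hM, h1, h2, h2'⟩ := ih p.2 (hL p (by simp)).2
      (fun q hq => hL q (List.mem_cons_of_mem _ hq))
    by_cases h : ∃ q M', M = q :: M' ∧ q.1 = opp p.1 ∧ h₀ ∈ D.dom q.1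
    · obtain ⟨q, M', rfl, h3, h4⟩ := h
      refine ⟨g₀ * (D.tr q.1 h₀ * q.2), M', hM.tail, ?_, ?_,
        fun r hr => h2' r (List.mem_cons_of_mem _ hr)⟩
      · rw [D.pinch_eq g₀ h₀ p.1 q M' h3 h4, h1, prd_cons]
      · have hq := h2' q (by simp)
        exact Q.mul_mem h0 (Q.mul_mem ((Good.tr_mem D hG hq.1 h4).2 h2) hq.2)
    · refine ⟨g₀, (p.1, h₀) :: M, D.red_cons hM h, ?_, h0, ?_⟩
      · rw [prd_cons, prd_cons, h1]
      · intro r hr
        rcases List.mem_cons.1 hr with rfl | hr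
        · exact ⟨(hL p (by simp)).1, h2⟩
        · exact h2' r hr

/-- elements of `gen Q I` have reduced expressions with entries in `Q` and letters in `I`
(take any such expression and remove pinches). -/
theorem exists_red_good {Q : Subgroup G} {I : Set ι} (hG : D.Good Q I) {x : D.MH}
    (hx : x ∈ D.gen Q I) :
    ∃ g₀ L, D.Red L ∧ D.prd g₀ L = x ∧ g₀ ∈ Q ∧ ∀ p ∈ L, p.1.1 ∈ I ∧ p.2 ∈ Q := by
  have : ∃ g₀ L, D.prd g₀ L = x ∧ g₀ ∈ Q ∧ ∀ p ∈ L, p.1.1 ∈ I ∧ p.2 ∈ Q := by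
    unfold gen at hx
    induction hx using Subgroup.closure_induction_left with
    | one => exact ⟨1, [], by simp, Q.one_mem, by simp⟩
    | mul_left a ha y _ ih =>
      obtain ⟨g₀, L, rfl, h1, h2⟩ := ih
      rcases ha with ⟨q, hq, rfl⟩ | ⟨i, hi, rfl⟩
      · exact ⟨q * g₀, L, (D.of_mul_prd _ _ _).symm, Q.mul_mem hq h1, h2⟩
      · refine ⟨1, ((i, true), g₀) :: L, by rw [prd_cons]; simp [sl], Q.one_mem, ?_⟩
        intro r hr
        rcases List.mem_cons.1 hr with rfl | hr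
        · exact ⟨hi, h1⟩
        · exact h2 r hr
    | inv_mul_cancel a ha y _ ih =>
      obtain ⟨g₀, L, rfl, h1, h2⟩ := ih
      rcases ha with ⟨q, hq, rfl⟩ | ⟨i, hi, rfl⟩
      · exact ⟨q⁻¹ * g₀, L, by rw [← map_inv, of_mul_prd], Q.mul_mem (Q.inv_mem hq) h1, h2⟩
      · refine ⟨1, ((i, false), g₀) :: L, by rw [prd_cons]; simp [sl], Q.one_mem, ?_⟩
        intro r hr
        rcases List.mem_cons.1 hr with rfl | hr
        · exact ⟨hi, h1⟩
        · exact h2 r hr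
  obtain ⟨g₀, L, rfl, h1, h2⟩ := this
  exact D.exists_red_good_aux hG g₀ L h1 h2


theorem of_mem_gen {Q : Subgroup G} {I : Set ι} (hG : D.Good Q I) {g : G} :
    D.of g ∈ D.gen Q I ↔ g ∈ Q := by
  refine ⟨fun h => ?_, fun h => Subgroup.subset_closure (Or.inl ⟨g, h, rfl⟩)⟩
  obtain ⟨g₀, L, h1, h2, h3, -⟩ := D.exists_red_good hG h
  have := D.britton h1 (g₀ := g₀) ⟨g, h2.symm⟩
  subst this
  rw [prd_nil] at h2
  rwa [← D.of_injective h2]


theorem gen_empty (Q : Subgroup G) : D.gen Q ∅ = Q.map D.of := by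
  unfold gen
  rw [Set.image_empty, Set.union_empty, ← Subgroup.coe_map, Subgroup.closure_eq]


theorem exists_red_mul (t : G) (L : List ((ι × Bool) × G)) (p : (ι × Bool) × G)
    (hL : D.Red (p :: L)) :
    ∃ g' L', D.Red ((p.1, g') :: L') ∧ D.prd g' L' = D.prd p.2 L * D.of t := by
  induction L generalizing p with
  | nil => exact ⟨p.2 * t, [], by simp [Red], by simp⟩
  | cons q L ih =>
    obtain ⟨g', L', h1, h2⟩ := ih q hL.tail
    refine ⟨p.2, (q.1, g') :: L', ?_, ?_⟩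
    · unfold Red at hL ⊢
      rw [List.isChain_cons_cons] at hL ⊢
      exact ⟨hL.1, h1⟩
    · rw [prd_cons, prd_cons, h2]; simp only [mul_assoc]

/-- soundness of `Stuck`: if `prd g₀ L = q * of t` then `prd g₀ L * of t⁻¹` is a reduced expression
(change the last entry) of `q`; compare it with `exists_red_good` through `head_eq`. -/
theorem notMem_of_stuck {Q : Subgroup G} {I : Set ι} (hG : D.Good Q I) {T : Set G} {g₀ : G}
    {L : List ((ι × Bool) × G)} (hL : D.Red L) (hS : D.Stuck Q I T g₀ L) :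
    D.prd g₀ L ∉ (D.gen Q I : Set D.MH) * (D.of '' T) := by
  rintro ⟨q, hq, _, ⟨t, ht, rfl⟩, h⟩
  simp only at h
  have hq' : q = D.prd g₀ L * D.of t⁻¹ := by rw [← h, map_inv, mul_inv_cancel_right]
  cases L with
  | nil =>
    rw [prd_nil, ← map_mul] at hq'
    rw [hq'] at hq
    exact hS ⟨_, (D.of_mem_gen hG).1 hq, t, ht, by simp⟩
  | cons p L =>
    obtain ⟨g', L', h1, h2⟩ := D.exists_red_mul t⁻¹ L p hL
    obtain ⟨h₀, M, h3, h4, h5, h6⟩ := D.exists_red_good hG hq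
    have h7 : D.prd g₀ ((p.1, g') :: L') = D.prd h₀ M := by
      rw [h4, hq', prd_cons, prd_cons, h2]; simp only [mul_assoc]
    rcases D.head_eq h1 h3 h7 with ⟨h8, -⟩ | ⟨p', L'', r, M', h8, rfl, h9, h10⟩
    · simp at h8
    · simp only [List.cons.injEq] at h8
      obtain ⟨rfl, -⟩ := h8
      simp only at h9 h10
      refine hS ?_ ⟨h₀, h5, _, h10, by simp⟩
      rw [h9]; exact (h6 r (by simp)).1


theorem exists_dec_aux {N : Nrm G} {wt : ℕ} (hL : D.Lip N wt) {Q : Subgroup G} {I : Set ι}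
    (hD : D.DecCtl N Q I) (c : ℕ) (L : List ((ι × Bool) × G)) (g : G) (hR : D.Red L)
    (hc : cost N wt g L ≤ c) :
    ∃ q₀ Lq g₀ L₁, D.prd g L = D.prd q₀ Lq * D.prd g₀ L₁ ∧ D.Red L₁ ∧ cost N wt g₀ L₁ ≤ c ∧
      (q₀ ∈ Q ∧ N q₀ ≤ 2 * c) ∧ (∀ p ∈ Lq, p.1.1 ∈ I ∧ p.2 ∈ Q ∧ N p.2 ≤ 2 * c) ∧
      ∀ p ∈ L₁.head?, p.1.1 ∈ I → g₀ ∉ (Q : Set G) * (D.dom p.1 : Set G) := by
  induction L generalizing g with
  | nil => exact ⟨1, [], g, [], by simp, hR, hc, ⟨Q.one_mem, by simp [N.one]⟩, by simp, by simp⟩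
  | cons p L ih =>
    by_cases h : p.1.1 ∈ I ∧ g ∈ (Q : Set G) * (D.dom p.1 : Set G)
    · obtain ⟨a, ha, hq, hN⟩ := hD p.1 h.1 g h.2
      have a1 := cost_mul_le N wt (D.tr p.1 a) p.2 L
      have a2 := hL p.1 a ha
      have a3 := N.mul g a⁻¹
      rw [N.inv] at a3
      rw [cost_cons] at hc
      obtain ⟨q₀, Lq, g₀, L₁, h1, h2, h3, h4, h5, h6⟩ := ih (D.tr p.1 a * p.2) hR.tail (by omega)
      refine ⟨g * a⁻¹, (p.1, q₀) :: Lq, g₀, L₁, ?_, h2, h3, ⟨hq, by omega⟩, ?_, h6⟩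
      · rw [prd_cons, prd_cons, mul_assoc _ (D.prd _ Lq), ← h1, ← of_mul_prd, ← D.sl_conj ha]
        simp [mul_assoc]
      · intro r hr
        rcases List.mem_cons.1 hr with rfl | hr
        · exact ⟨h.1, h4⟩
        · exact h5 r hr
    · refine ⟨1, [], g, p :: L, by simp, hR, hc, ⟨Q.one_mem, by simp [N.one]⟩, by simp, ?_⟩
      intro q hq h1 h2
      simp only [List.head?_cons, Option.mem_def, Option.some.injEq] at hq
      subst hq
      exact h ⟨h1, h2⟩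

/-- completeness of `Stuck`.  Start from `exists_red`; while `L = p :: L'`, `p.1.1 ∈ I` and
`g₀ = q₀ * a` with `q₀ ∈ Q`, `a ∈ dom p.1`, `N a ≤ N g₀` (`DecCtl`), move `of q₀ * sl p.1` to the
left factor and continue with `(tr p.1 a * p.2, L')` (still reduced, cost not larger by `Lip`,
`N q₀ ≤ 2 * N g₀`).  The left factor is returned as an expression `prd q₀ Lq`. -/
theorem exists_dec {N : Nrm G} {wt : ℕ} (hL : D.Lip N wt) {Q : Subgroup G} {I : Set ι}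
    (hD : D.DecCtl N Q I) (x : D.MH) :
    ∃ q₀ Lq g₀ L, x = D.prd q₀ Lq * D.prd g₀ L ∧ D.Red L ∧ cost N wt g₀ L ≤ D.nrm N wt x ∧
      (q₀ ∈ Q ∧ N q₀ ≤ 2 * D.nrm N wt x) ∧
      (∀ p ∈ Lq, p.1.1 ∈ I ∧ p.2 ∈ Q ∧ N p.2 ≤ 2 * D.nrm N wt x) ∧
      ∀ p ∈ L.head?, p.1.1 ∈ I → g₀ ∉ (Q : Set G) * (D.dom p.1 : Set G) := by
  obtain ⟨g, L, h1, h2, h3⟩ := D.exists_red hL x
  obtain ⟨q₀, Lq, g₀, L₁, h⟩ := D.exists_dec_aux hL hD _ L g h1 h3
  rw [h2] at h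
  exact ⟨q₀, Lq, g₀, L₁, h⟩


theorem prd_mem {S : Subgroup D.MH} (g₀ : G) (L : List ((ι × Bool) × G)) (h0 : D.of g₀ ∈ S)
    (hL : ∀ p ∈ L, D.st p.1.1 ∈ S ∧ D.of p.2 ∈ S) : D.prd g₀ L ∈ S := by
  induction L generalizing g₀ with
  | nil => simpa using h0
  | cons p L ih =>
    rw [prd_cons]
    refine S.mul_mem (S.mul_mem h0 ?_)
      (ih p.2 (hL p (by simp)).2 fun q hq => hL q (List.mem_cons_of_mem _ hq))
    unfold sl
    split_ifs
    · exact (hL p (by simp)).1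
    · exact S.inv_mem (hL p (by simp)).1

/-- an element of `gen Q I * T` is `q * of g₀` with `g₀ ∈ Q * T` of small norm
(`exists_dec`, `notMem_of_stuck`, `of_mem_gen`). -/
theorem exists_dec_mem {N : Nrm G} {wt : ℕ} (hL : D.Lip N wt) {Q : Subgroup G} {I : Set ι}
    (hG : D.Good Q I) (hD : D.DecCtl N Q I) {T : Set G} {x : D.MH}
    (hx : x ∈ (D.gen Q I : Set D.MH) * (D.of '' T)) :
    ∃ q g₀, x = q * D.of g₀ ∧ g₀ ∈ (Q : Set G) * T ∧ N g₀ ≤ D.nrm N wt x ∧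
      q ∈ Subgroup.closure (D.of '' {y | y ∈ Q ∧ N y ≤ 2 * D.nrm N wt x} ∪ D.st '' I) := by
  obtain ⟨q₀, Lq, g₀, L, h1, h2, h3, h4, h5, h6⟩ := D.exists_dec hL hD x
  have hq : D.prd q₀ Lq ∈
      Subgroup.closure (D.of '' {y | y ∈ Q ∧ N y ≤ 2 * D.nrm N wt x} ∪ D.st '' I) :=
    D.prd_mem _ _ (Subgroup.subset_closure (Or.inl ⟨q₀, h4, rfl⟩)) fun p hp =>
      ⟨Subgroup.subset_closure (Or.inr ⟨_, (h5 p hp).1, rfl⟩),
        Subgroup.subset_closure (Or.inl ⟨_, (h5 p hp).2, rfl⟩)⟩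
  have hq' : D.prd q₀ Lq ∈ D.gen Q I := by
    refine Subgroup.closure_mono ?_ hq
    exact Set.union_subset_union_left _ (Set.image_mono fun y hy => hy.1)
  have hm : D.prd g₀ L ∈ (D.gen Q I : Set D.MH) * (D.of '' T) := by
    obtain ⟨q, hq1, t, ht, h⟩ := hx
    simp only at h
    refine ⟨(D.prd q₀ Lq)⁻¹ * q, (D.gen Q I).mul_mem ((D.gen Q I).inv_mem hq') hq1, t, ht, ?_⟩
    simp only
    rw [mul_assoc, h, inv_mul_eq_iff_eq_mul]
    exact h1
  have hn : ¬ D.Stuck Q I T g₀ L := fun hS => D.notMem_of_stuck hG h2 hS hm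
  cases L with
  | nil =>
    refine ⟨D.prd q₀ Lq, g₀, by rw [← prd_nil]; exact h1, not_not.1 hn, ?_, hq⟩
    rwa [cost_nil] at h3
  | cons p L => exact absurd (h6 p (by simp)) hn


theorem decCtl_empty (N : Nrm G) (Q : Subgroup G) : D.DecCtl N Q ∅ := fun _ hl => absurd hl (Set.notMem_empty _)


theorem good_empty (Q : Subgroup G) : D.Good Q ∅ := fun _ hl => absurd hl (Set.notMem_empty _)


end Crest.Agent.R185.HD
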