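import Crest.Agent.R185.SD1

/-!
# R185 TASK SD2: `FreeGroup Z ⋊ R`: isomorphisms of subgroups, radius norm
-/

set_option autoImplicit false

namespace Crest.Agent.R185.SD

open scoped Pointwise

variable {R Z : Type} [Group R] [MulAction R Z]

theorem sd2_act (r : R) (x : FreeGroup Z) : sdAct R Z r x = FreeGroup.map (r • ·) x := rfl

theorem sd2_hom_fr {Z' : Type} {A : Set Z} {B : Set Z'} (φ : FreeGroup Z →* FreeGroup Z')
    (h : ∀ z ∈ A, φ (FreeGroup.of z) ∈ fr B) {x : FreeGroup Z} (hx : x ∈ fr A) : φ x ∈ fr B := by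
  have : fr A ≤ (fr B).comap φ := by
    rw [fr, Subgroup.closure_le]
    rintro _ ⟨z, hz, rfl⟩
    exact h z hz
  exact this hx

theorem sd2_of_mem {A : Set Z} {z : Z} (hz : z ∈ A) : FreeGroup.of z ∈ fr A :=
  Subgroup.subset_closure ⟨z, hz, rfl⟩

theorem sd2_map_fr {Z' : Type} {A : Set Z} {B : Set Z'} {f : Z → Z'} (h : ∀ z ∈ A, f z ∈ B)
    {x : FreeGroup Z} (hx : x ∈ fr A) : FreeGroup.map f x ∈ fr B :=
  sd2_hom_fr _ (fun z hz => by rw [FreeGroup.map.of]; exact sd2_of_mem (h z hz)) hx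

theorem sd2_fr_mono {A B : Set Z} (h : ∀ z ∈ A, z ∈ B) {x : FreeGroup Z} (hx : x ∈ fr A) :
    x ∈ fr B := Subgroup.closure_mono (Set.image_mono h) hx

theorem sd2_map_congr {Z' : Type} {A : Set Z} {f f' : Z → Z'} (h : ∀ z ∈ A, f z = f' z)
    {x : FreeGroup Z} (hx : x ∈ fr A) : FreeGroup.map f x = FreeGroup.map f' x := by
  refine MonoidHom.eqOn_closure (f := FreeGroup.map f) (g := FreeGroup.map f') ?_ hx
  rintro _ ⟨z, hz, rfl⟩
  rw [FreeGroup.map.of, FreeGroup.map.of, h z hz]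

theorem sd2_mk_mem {A : Set Z} {l : List (Z × Bool)} (h : ∀ p ∈ l, p.1 ∈ A) :
    FreeGroup.mk l ∈ fr A := by
  induction l with
  | nil => exact one_mem _
  | cons p l ih =>
    rw [show p :: l = [p] ++ l from rfl, ← FreeGroup.mul_mk]
    refine mul_mem ?_ (ih fun q hq => h q (List.mem_cons_of_mem _ hq))
    have h1 := sd2_of_mem (h p List.mem_cons_self)
    obtain ⟨z, b⟩ := p
    cases b
    · exact inv_mem h1
    · exact h1

theorem sd2_wd_map {R' Z' : Type} [Group R'] [MulAction R' Z'] {f : Z → Z'} {g : SD R Z}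
    {g' : SD R' Z'} (hi : ∀ p ∈ wd g, ∀ q ∈ wd g, f p.1 = f q.1 → p.1 = q.1)
    (h : g'.left = FreeGroup.map f g.left) : wd g' = (wd g).map (fun p => (f p.1, p.2)) := by
  classical
  have h1 : FreeGroup.IsReduced ((wd g).map (fun p => (f p.1, p.2))) := by
    have h2 := wd_isReduced g
    unfold FreeGroup.IsReduced at h2 ⊢
    rw [List.isChain_map]
    exact h2.imp_of_mem_imp fun a b ha hb hab e => hab (hi a ha b hb e)
  have h3 : g.left = FreeGroup.mk (wd g) := FreeGroup.mk_toWord.symm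
  rw [wd, h, h3, FreeGroup.map.mk, FreeGroup.toWord_mk, h1.reduce_eq]

theorem sd2_foldr (l : List ℕ) (n : ℕ) : l.foldr max 0 ≤ n ↔ ∀ a ∈ l, a ≤ n := by
  induction l with
  | nil => simp
  | cons a l ih => simp [ih]

theorem sd2_radF_le (N : Nrm R) (ν : Z → ℕ) {g : SD R Z} {n : ℕ} :
    radF N ν g ≤ n ↔ N g.right ≤ n ∧ ∀ p ∈ wd g, ν p.1 ≤ n ∧ ν (g.right⁻¹ • p.1) ≤ n := by
  rw [radF, max_le_iff, sd2_foldr, List.forall_mem_map]
  simp only [max_le_iff]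

theorem sd2_radF_le' (N : Nrm R) (ν : Z → ℕ) {g : SD R Z} {n : ℕ} :
    radF N ν g ≤ n ↔ N g.right ≤ n ∧ g.left ∈ fr {z | ν z ≤ n ∧ ν (g.right⁻¹ • z) ≤ n} := by
  rw [sd2_radF_le, left_mem_fr]; rfl

theorem sd2_radF_mul {N : Nrm R} {ν : Z → ℕ} (h : Sz N ν) (g k : SD R Z) :
    radF N ν (g * k) ≤ radF N ν g + radF N ν k := by
  obtain ⟨a1, a2⟩ := (sd2_radF_le' N ν (g := g)).1 le_rfl
  obtain ⟨b1, b2⟩ := (sd2_radF_le' N ν (g := k)).1 le_rfl
  rw [sd2_radF_le', SemidirectProduct.mul_left, SemidirectProduct.mul_right, sd2_act]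
  refine ⟨(N.mul _ _).trans (Nat.add_le_add a1 b1), mul_mem (sd2_fr_mono ?_ a2) (sd2_map_fr ?_ b2)⟩
  · rintro z ⟨c1, c2⟩
    have c3 := h k.right⁻¹ (g.right⁻¹ • z)
    rw [N.inv] at c3
    refine ⟨by omega, ?_⟩
    rw [mul_inv_rev, mul_smul]
    omega
  · rintro z ⟨c1, c2⟩
    have c3 := h g.right z
    refine ⟨by omega, ?_⟩
    rw [mul_inv_rev, mul_smul, inv_smul_smul]
    omega

theorem sd2_radF_inv (N : Nrm R) (ν : Z → ℕ) (g : SD R Z) : radF N ν g⁻¹ ≤ radF N ν g := by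
  obtain ⟨a1, a2⟩ := (sd2_radF_le' N ν (g := g)).1 le_rfl
  rw [sd2_radF_le', SemidirectProduct.inv_left, SemidirectProduct.inv_right, sd2_act, N.inv]
  refine ⟨a1, sd2_map_fr ?_ (inv_mem a2)⟩
  rintro z ⟨c1, c2⟩
  refine ⟨c2, ?_⟩
  rwa [inv_smul_smul]

theorem sd2_hom_left {R' Z' : Type} [Group R'] [MulAction R' Z'] (F : SD R Z →* SD R' Z')
    (f : R → R') (φ : FreeGroup Z →* FreeGroup Z') (hreg : ∀ r, F (reg r) = reg (f r))
    (hlt : ∀ z, F (lt z) = SemidirectProduct.inl (φ (FreeGroup.of z))) (g : SD R Z) :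
    (F g).left = φ g.left ∧ (F g).right = f g.right := by
  have h1 : F.comp SemidirectProduct.inl = SemidirectProduct.inl.comp φ :=
    FreeGroup.ext_hom _ _ hlt
  have h2 : F g = SemidirectProduct.inl (φ g.left) * SemidirectProduct.inr (f g.right) := by
    conv_lhs => rw [← SemidirectProduct.inl_left_mul_inr_right g]
    rw [map_mul]
    exact congrArg₂ (· * ·) (DFunLike.congr_fun h1 g.left) (hreg g.right)
  rw [h2]
  simp

theorem sd2_mapZ {Z' : Type} [MulAction R Z'] {f : Z → Z'} (hf : ∀ (r : R) z, f (r • z) = r • f z)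
    (g : SD R Z) :
    (mapZ f hf g).left = FreeGroup.map f g.left ∧ (mapZ f hf g).right = g.right :=
  sd2_hom_left (mapZ f hf) id (FreeGroup.map f) (fun r => lift_reg _ _ _ r)
    (fun z => lift_lt _ _ _ z) g

/-- an equivariant bijection `Z₁ ≃ Z₂` over `R₁ ≃* R₂` induces an isomorphism of subgroups. -/
theorem exists_subEquiv {Z₁ Z₂ : Set Z} {R₁ R₂ : Subgroup R} (h₁ : Inv Z₁ R₁) (h₂ : Inv Z₂ R₂)
    (ρ : R₁ ≃* R₂) (σ : Z → Z) (hσ : Set.BijOn σ Z₁ Z₂)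
    (he : ∀ (r : R₁), ∀ z ∈ Z₁, σ ((r : R) • z) = (ρ r : R) • σ z) :
    ∃ θ : sub Z₁ R₁ ≃* sub Z₂ R₂, ∀ g : sub Z₁ R₁,
      wd (θ g : SD R Z) = (wd (g : SD R Z)).map (fun p => (σ p.1, p.2)) ∧
      ∀ hr : (g : SD R Z).right ∈ R₁, (θ g : SD R Z).right = ρ ⟨_, hr⟩ := by
  classical
  have hl : ∀ g : sub Z₁ R₁, (g : SD R Z).left ∈ fr Z₁ := fun g => ((mem_sub h₁).1 g.2).1
  have hr : ∀ g : sub Z₁ R₁, (g : SD R Z).right ∈ R₁ := fun g => ((mem_sub h₁).1 g.2).2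
  let θ : sub Z₁ R₁ →* sub Z₂ R₂ := MonoidHom.mk'
    (fun g => ⟨⟨FreeGroup.map σ (g : SD R Z).left, ρ ⟨_, hr g⟩⟩,
      (mem_sub h₂).2 ⟨sd2_map_fr hσ.mapsTo (hl g), (ρ ⟨_, hr g⟩).2⟩⟩) (by
      intro g k
      refine Subtype.ext (SemidirectProduct.ext ?_ ?_)
      · change FreeGroup.map σ ((g : SD R Z) * k).left = FreeGroup.map σ (g : SD R Z).left *
          sdAct R Z (ρ ⟨_, hr g⟩) (FreeGroup.map σ (k : SD R Z).left)
        rw [SemidirectProduct.mul_left, map_mul, sd2_act, sd2_act, FreeGroup.map.comp,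
          FreeGroup.map.comp]
        congr 1
        exact sd2_map_congr (fun z hz => he ⟨_, hr g⟩ z hz) (hl k)
      · change ((ρ ⟨_, hr (g * k)⟩ : R₂) : R) = (ρ ⟨_, hr g⟩ : R₂) * (ρ ⟨_, hr k⟩ : R₂)
        rw [← Subgroup.coe_mul, ← map_mul]
        rfl)
  let σ' : Z → Z := fun z => if h : z ∈ Z₂ then (hσ.surjOn h).choose else z
  have s1 : ∀ z ∈ Z₂, σ' z ∈ Z₁ ∧ σ (σ' z) = z := fun z hz => by
    simp only [σ', dif_pos hz]
    exact (hσ.surjOn hz).choose_spec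
  have s2 : ∀ z ∈ Z₁, σ' (σ z) = z := fun z hz =>
    hσ.injOn (s1 _ (hσ.mapsTo hz)).1 hz (s1 _ (hσ.mapsTo hz)).2
  have hback : ∀ x ∈ fr Z₁, FreeGroup.map σ' (FreeGroup.map σ x) = x := fun x hx => by
    rw [FreeGroup.map.comp, sd2_map_congr (f := σ' ∘ σ) (f' := id) s2 hx, FreeGroup.map.id]
  have hbij : Function.Bijective θ := by
    constructor
    · intro g k hgk
      have e1 : FreeGroup.map σ (g : SD R Z).left = FreeGroup.map σ (k : SD R Z).left :=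
        congrArg (fun x : sub Z₂ R₂ => (x : SD R Z).left) hgk
      have e2 : ((ρ ⟨_, hr g⟩ : R₂) : R) = (ρ ⟨_, hr k⟩ : R₂) :=
        congrArg (fun x : sub Z₂ R₂ => (x : SD R Z).right) hgk
      refine Subtype.ext (SemidirectProduct.ext ?_ ?_)
      · rw [← hback _ (hl g), e1, hback _ (hl k)]
      · exact congrArg Subtype.val (ρ.injective (Subtype.ext e2))
    · intro k
      obtain ⟨k1, k2⟩ := (mem_sub h₂).1 k.2
      refine ⟨⟨⟨FreeGroup.map σ' (k : SD R Z).left, ρ.symm ⟨_, k2⟩⟩,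
        (mem_sub h₁).2 ⟨sd2_map_fr (fun z hz => (s1 z hz).1) k1, (ρ.symm ⟨_, k2⟩).2⟩⟩,
        Subtype.ext (SemidirectProduct.ext ?_ ?_)⟩
      · change FreeGroup.map σ (FreeGroup.map σ' (k : SD R Z).left) = _
        rw [FreeGroup.map.comp,
          sd2_map_congr (f := σ ∘ σ') (f' := id) (fun z hz => (s1 z hz).2) k1, FreeGroup.map.id]
      · change ((ρ (ρ.symm ⟨_, k2⟩) : R₂) : R) = _
        rw [ρ.apply_symm_apply]
  refine ⟨MulEquiv.ofBijective θ hbij, fun g => ⟨sd2_wd_map (fun p hp q hq e => ?_) rfl, fun _ => rfl⟩⟩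
  exact hσ.injOn (left_mem_fr.1 (hl g) p hp) (left_mem_fr.1 (hl g) q hq) e

/-- the radius norm.  The letters of `wd (g * h)` are letters of `wd g` or of the form
`g.right • z` with `z` a letter of `wd h`; the letters of `wd g⁻¹` are the `g.right⁻¹ • z`. -/
noncomputable def rad (N : Nrm R) (ν : Z → ℕ) (h : Sz N ν) : Nrm (SD R Z) where
  f := radF N ν
  one := Nat.eq_zero_of_le_zero ((sd2_radF_le' N ν).2 ⟨N.one.le, one_mem _⟩)
  mul := sd2_radF_mul h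
  inv := fun g => le_antisymm (sd2_radF_inv N ν g) (by simpa using sd2_radF_inv N ν g⁻¹)

theorem rad_le_iff {N : Nrm R} {ν : Z → ℕ} (h : Sz N ν) {g : SD R Z} {n : ℕ} :
    rad N ν h g ≤ n ↔ N g.right ≤ n ∧ ∀ p ∈ wd g, ν p.1 ≤ n ∧ ν (g.right⁻¹ • p.1) ≤ n := by
  exact sd2_radF_le N ν

theorem rad_reg {N : Nrm R} {ν : Z → ℕ} (h : Sz N ν) (r : R) : rad N ν h (reg r) = N r := by
  exact le_antisymm ((sd2_radF_le' N ν).2 ⟨le_rfl, one_mem _⟩)
    ((sd2_radF_le' N ν (g := reg r)).1 le_rfl).1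

theorem rad_lt {N : Nrm R} {ν : Z → ℕ} (h : Sz N ν) (z : Z) : rad N ν h (lt z) = ν z := by
  classical
  have hr : (lt z : SD R Z).right = 1 := rfl
  refine le_antisymm ((sd2_radF_le' N ν).2 ⟨?_, sd2_of_mem ⟨le_rfl, ?_⟩⟩) ?_
  · rw [hr, N.one]; exact Nat.zero_le _
  · rw [hr, inv_one, one_smul]
  · refine (((sd2_radF_le N ν (g := lt z)).1 le_rfl).2 (z, true) ?_).1
    have : wd (lt z : SD R Z) = [(z, true)] := FreeGroup.toWord_of z
    rw [this]
    exact List.mem_singleton_self _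

/-- splitting off the `F(Z')` part does not increase the radius (`mem_W`, take `a = l₂ * right`). -/
theorem dec_W {N : Nrm R} {ν : Z → ℕ} (h : Sz N ν) {Z' Z'' : Set Z} {R' : Subgroup R}
    (hI : Inv Z'' R') {g : SD R Z} (hg : g ∈ W Z' Z'' R') :
    ∃ a ∈ sub Z'' R', g * a⁻¹ ∈ sub Z' (⊥ : Subgroup R) ∧ rad N ν h a ≤ rad N ν h g := by
  obtain ⟨hr, l₁, l₂, hl, h1, h2⟩ := mem_W.1 hg
  refine ⟨wev lt l₂ * reg g.right, (mem_sub hI).2 ⟨?_, ?_⟩, ?_, ?_⟩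
  · rw [left_eq]; exact sd2_mk_mem h2
  · rw [right_eq]; exact hr
  · have e : g * (wev lt l₂ * reg g.right)⁻¹ = wev lt l₁ * reg 1 := by
      have := eq_wd g
      rw [hl, wev_append, mul_assoc] at this
      rw [map_one, mul_one, mul_inv_eq_iff_eq_mul]
      exact this
    have hI' : Inv Z' (⊥ : Subgroup R) := fun r hr z hz => by
      rw [Subgroup.mem_bot.1 hr, one_smul]; exact hz
    rw [e, mem_sub hI', left_eq, right_eq]
    exact ⟨sd2_mk_mem h1, one_mem _⟩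
  · obtain ⟨a1, a2⟩ := (sd2_radF_le N ν (g := g)).1 le_rfl
    refine (sd2_radF_le' N ν).2 ?_
    rw [left_eq, right_eq]
    exact ⟨a1, sd2_mk_mem fun p hp => a2 p (by rw [hl]; exact List.mem_append_right _ hp)⟩

/-- a homomorphism between two such semidirect products which sends letters to letters or to `1`
does not increase the radius. -/
theorem rad_map_le {R' Z' : Type} [Group R'] [MulAction R' Z'] {N : Nrm R} {ν : Z → ℕ}
    (h : Sz N ν) {N' : Nrm R'} {ν' : Z' → ℕ} (h' : Sz N' ν') (f : R →* R') (π : Z → Option Z')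
    (F : SD R Z →* SD R' Z') (hreg : ∀ r, F (reg r) = reg (f r))
    (hlt : ∀ z, F (lt z) = (π z).elim 1 lt) (hπ : ∀ r z, π (r • z) = (π z).map (f r • ·))
    (hN : ∀ r, N' (f r) ≤ N r) (hν : ∀ z, ∀ z' ∈ π z, ν' z' ≤ ν z) (g : SD R Z) :
    rad N' ν' h' (F g) ≤ rad N ν h g := by
  obtain ⟨e1, e2⟩ := sd2_hom_left F f (FreeGroup.lift fun z => (π z).elim 1 FreeGroup.of) hreg
    (fun z => by
      rw [hlt, FreeGroup.lift_apply_of]
      cases π z
      · exact (map_one _).symm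
      · rfl) g
  obtain ⟨a1, a2⟩ := (sd2_radF_le' N ν (g := g)).1 le_rfl
  refine (sd2_radF_le' N' ν').2 ?_
  rw [e1, e2]
  refine ⟨(hN _).trans a1, sd2_hom_fr _ ?_ a2⟩
  rintro z ⟨c1, c2⟩
  rw [FreeGroup.lift_apply_of]
  rcases hz : π z with _ | z'
  · exact one_mem _
  · refine sd2_of_mem ⟨(hν z z' hz).trans c1, (hν (g.right⁻¹ • z) _ ?_).trans c2⟩
    rw [Option.mem_def, hπ, hz, map_inv]
    rfl

theorem wd_mapZ {Z' : Type} [MulAction R Z'] {f : Z → Z'} (hf : ∀ (r : R) z, f (r • z) = r • f z)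
    (hi : Function.Injective f) (g : SD R Z) :
    wd (mapZ f hf g) = (wd g).map (fun p => (f p.1, p.2)) ∧ (mapZ f hf g).right = g.right := by
  exact ⟨sd2_wd_map (fun _ _ _ _ e => hi e) (sd2_mapZ hf g).1, (sd2_mapZ hf g).2⟩

theorem mapZ_injective {Z' : Type} [MulAction R Z'] {f : Z → Z'}
    (hf : ∀ (r : R) z, f (r • z) = r • f z) (hi : Function.Injective f) :
    Function.Injective (mapZ f hf : SD R Z → SD R Z') := by
  intro g k hgk
  refine SemidirectProduct.ext (FreeGroup.map_injective hi ?_) ?_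
  · rw [← (sd2_mapZ hf g).1, ← (sd2_mapZ hf k).1, hgk]
  · rw [← (sd2_mapZ hf g).2, ← (sd2_mapZ hf k).2, hgk]

theorem range_mapZ {Z' : Type} [MulAction R Z'] {f : Z → Z'}
    (hf : ∀ (r : R) z, f (r • z) = r • f z) :
    (mapZ f hf : SD R Z →* SD R Z').range = sub (Set.range f) ⊤ := by
  have hI : Inv (Set.range f) (⊤ : Subgroup R) := by
    rintro r - _ ⟨z, rfl⟩
    exact ⟨r • z, hf r z⟩
  refine le_antisymm ?_ ?_
  · rintro _ ⟨g, rfl⟩
    rw [mem_sub hI, (sd2_mapZ hf g).1]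
    refine ⟨sd2_map_fr (A := Set.univ) (fun z _ => Set.mem_range_self z) ?_, trivial⟩
    exact left_mem_fr.2 fun _ _ => trivial
  · rw [sub, Subgroup.closure_le]
    rintro _ (⟨_, ⟨z, rfl⟩, rfl⟩ | ⟨r, -, rfl⟩)
    · exact ⟨lt z, lift_lt _ _ _ z⟩
    · exact ⟨reg r, lift_reg _ _ _ r⟩

end Crest.Agent.R185.SD
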