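import Crest.Agent.R185.Cert2
import Crest.Agent.R185.MH2
import Crest.Agent.R185.SD2

/-!
# R185 TASK CertL: certificates for HNN extensions and for `FreeGroup Z ⋊ R`
-/

set_option autoImplicit false

namespace Crest.Agent.R185

open scoped Pointwise

variable {Sit E F : Type} [Primcodable E] [Primcodable F] {X : Ctx Sit E F}
  {𝔄 : Type} [Primcodable 𝔄] {G : Sit → Type} [∀ σ, Group (G σ)] {g : ∀ σ, 𝔄 → G σ}
  {N : ∀ σ, Nrm (G σ)} {f : ℕ → ℕ}

/-- words for an expression `g₀ s₁ g₁ ⋯` -/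
abbrev certL_Ex (𝔄 ι : Type) : Type := Wd 𝔄 × List ((ι × Bool) × Wd 𝔄)

/-- the word of an expression -/
def certL_xw {𝔄 ι : Type} (e : certL_Ex 𝔄 ι) : Wd (𝔄 ⊕ ι) :=
  wmap Sum.inl e.1 ++ e.2.flatMap fun p => (Sum.inr p.1.1, p.1.2) :: wmap Sum.inl p.2

/-- the values of the entries -/
def certL_ev {𝔄 ι G : Type} [Group G] (g : 𝔄 → G) (L : List ((ι × Bool) × Wd 𝔄)) :
    List ((ι × Bool) × G) := L.map fun p => (p.1, wev g p.2)

theorem certL_wev_inl {𝔄 ι G : Type} [Group G] (D : HD G ι) (g : 𝔄 → G) (w : Wd 𝔄) :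
    wev (D.gens g) (wmap Sum.inl w) = D.of (wev g w) := by
  rw [wev_wmap, map_wev]; rfl

theorem certL_wev_xw {𝔄 ι G : Type} [Group G] (D : HD G ι) (g : 𝔄 → G) (e : certL_Ex 𝔄 ι) :
    wev (D.gens g) (certL_xw e) = D.prd (wev g e.1) (certL_ev g e.2) := by
  obtain ⟨w, L⟩ := e
  simp only [certL_xw, wev_append, certL_wev_inl, HD.prd, certL_ev]
  congr 1
  induction L with
  | nil => simp
  | cons p L ih =>
    simp only [List.flatMap_cons, wev_append, List.map_cons, List.prod_cons, ih, wev_cons,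
      certL_wev_inl]
    rfl

theorem certL_primrec_xw {ι : Type} [Primcodable ι] :
    Primrec (certL_xw : certL_Ex 𝔄 ι → Wd (𝔄 ⊕ ι)) :=
  Primrec.list_append.comp ((primrec_wmap Primrec.sumInl).comp Primrec.fst)
    (Primrec.list_flatMap Primrec.snd (Primrec.list_cons.comp
      ((Primrec.sumInr.comp (Primrec.fst.comp (Primrec.fst.comp Primrec.snd))).pair
        (Primrec.snd.comp (Primrec.fst.comp Primrec.snd)))
      ((primrec_wmap Primrec.sumInl).comp (Primrec.snd.comp Primrec.snd))).to₂)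

theorem certL_exists_ev {𝔄 ι G : Type} [Group G] {g : 𝔄 → G} (hg : Gens g)
    (L : List ((ι × Bool) × G)) : ∃ M, certL_ev g M = L := by
  choose w hw using hg.exists_wev
  exact ⟨L.map fun p => (p.1, w p.2), by simp [certL_ev, Function.comp_def, hw]⟩

theorem certL_foldr_le {l : List ℕ} {t : ℕ} (h : ∀ x ∈ l, x ≤ t) : l.foldr max 0 ≤ t := by
  induction l with
  | nil => simp
  | cons a l ih =>
    exact max_le (h a (by simp)) (ih fun x hx => h x (by simp [hx]))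

theorem certL_prd_mem {ι G : Type} [Group G] (D : HD G ι) {Q : Subgroup G} {I : Set ι} {q : G}
    {L : List ((ι × Bool) × G)} (hq : q ∈ Q) (hL : ∀ p ∈ L, p.1.1 ∈ I ∧ p.2 ∈ Q) :
    D.prd q L ∈ D.gen Q I := by
  have h1 : ∀ x ∈ Q, D.of x ∈ D.gen Q I := fun x hx =>
    Subgroup.subset_closure (Or.inl ⟨x, hx, rfl⟩)
  refine mul_mem (h1 q hq) (list_prod_mem ?_)
  intro y hy
  obtain ⟨p, hp, rfl⟩ := List.mem_map.1 hy
  have h2 : D.st p.1.1 ∈ D.gen Q I := Subgroup.subset_closure (Or.inr ⟨_, (hL p hp).1, rfl⟩)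
  refine mul_mem ?_ (h1 _ (hL p hp).2)
  unfold HD.sl
  split_ifs
  exacts [h2, inv_mem h2]

theorem certL_le_cost {ι G : Type} [Group G] (N : Nrm G) (wt : ℕ) (g₀ : G)
    {L : List ((ι × Bool) × G)} {p : (ι × Bool) × G} (hp : p ∈ L) : N p.2 ≤ HD.cost N wt g₀ L := by
  have := List.single_le_sum (l := L.map fun p => N p.2 + wt) (fun _ _ => Nat.zero_le _) _
    (List.mem_map_of_mem hp)
  unfold HD.cost
  omega

theorem certL_good {ι : Type} [Primcodable ι] [Finite ι] {Q : ∀ σ, Subgroup (G σ)} (I : Set ι)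
    (hQ : CertS X g N f fun σ => (Q σ : Set (G σ))) :
    Cert X (fun σ (e : certL_Ex 𝔄 ι) => wev (g σ) e.1 ∈ Q σ ∧
        ∀ p ∈ certL_ev (g σ) e.2, p.1.1 ∈ I ∧ p.2 ∈ Q σ)
      fun σ e => max (f (N σ (wev (g σ) e.1)))
        ((e.2.map fun p => f (N σ (wev (g σ) p.2))).foldr max 0) := by
  have h1 := (Cert.of_re' (X := X) (re_finite (· ∈ I)) fun _ _ => 0).comp'
    (f := fun x : certL_Ex 𝔄 ι × (ι × Bool) × Wd 𝔄 => x.2.1.1)
    (Computable.fst.comp (Computable.fst.comp Computable.snd))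
  have h2 := Cert.comp' hQ (f := fun x : certL_Ex 𝔄 ι × (ι × Bool) × Wd 𝔄 => x.2.2)
    (Computable.snd.comp Computable.snd)
  have h3 := (h1.and h2).all.comp' (f := fun e : certL_Ex 𝔄 ι => (e, e.2))
    (Computable.id.pair Computable.snd)
  refine ((Cert.comp' hQ (f := fun e : certL_Ex 𝔄 ι => e.1) Computable.fst).and h3).congr
    (fun σ e => ?_) fun σ e _ => ?_
  · simp only [certL_ev, List.forall_mem_map, SetLike.mem_coe]
  · simp

theorem certL_red {ι : Type} [Primcodable ι] [Finite ι] {D : ∀ σ, HD (G σ) ι}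
    (hdom : ∀ l, CertS X g N f fun σ => ((D σ).dom l : Set (G σ))ᶜ) :
    Cert X (fun σ (e : certL_Ex 𝔄 ι) => (D σ).Red (certL_ev (g σ) e.2))
      fun σ e => ((e.2.zip e.2.tail).map fun p => f (N σ (wev (g σ) p.1.2))).foldr max 0 := by
  have h1 := (Cert.of_re' (X := X)
    (re_finite fun x : (ι × Bool) × (ι × Bool) => x.2 ≠ HD.opp x.1) fun _ _ => 0).comp'
    (f := fun x : certL_Ex 𝔄 ι × ((ι × Bool) × Wd 𝔄) × ((ι × Bool) × Wd 𝔄) => (x.2.1.1, x.2.2.1))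
    ((Computable.fst.comp (Computable.fst.comp Computable.snd)).pair
      (Computable.fst.comp (Computable.snd.comp Computable.snd)))
  have h2 := (Cert.finite_index hdom).comp'
    (f := fun x : certL_Ex 𝔄 ι × ((ι × Bool) × Wd 𝔄) × ((ι × Bool) × Wd 𝔄) => (x.2.2.1, x.2.1.2))
    ((Computable.fst.comp (Computable.snd.comp Computable.snd)).pair
      (Computable.snd.comp (Computable.fst.comp Computable.snd)))
  have h3 := (h1.or h2 (t := fun σ x => f (N σ (wev (g σ) x.2.1.2))) fun σ x h =>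
    h.imp (fun h => ⟨h, Nat.zero_le _⟩) fun h => ⟨h, le_rfl⟩).chain.comp'
    (f := fun e : certL_Ex 𝔄 ι => (e, e.2)) (Computable.id.pair Computable.snd)
  refine h3.congr (fun σ e => ?_) fun σ e _ => le_rfl
  simp only [HD.Red, certL_ev, List.isChain_map, imp_iff_not_or, Set.mem_compl_iff,
    SetLike.mem_coe]

theorem certL_stuck {ι : Type} [Primcodable ι] [Finite ι] {D : ∀ σ, HD (G σ) ι}
    {Q : ∀ σ, Subgroup (G σ)} {I : Set ι} {T : ∀ σ, Set (G σ)}
    (hQdom : ∀ l : ι × Bool, l.1 ∈ I →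
      CertS X g N f fun σ => ((Q σ : Set (G σ)) * ((D σ).dom l : Set (G σ)))ᶜ)
    (hT : CertS X g N f fun σ => ((Q σ : Set (G σ)) * T σ)ᶜ) :
    Cert X (fun σ (e : certL_Ex 𝔄 ι) => (D σ).Stuck (Q σ) I (T σ) (wev (g σ) e.1)
      (certL_ev (g σ) e.2)) fun σ e => f (N σ (wev (g σ) e.1)) := by
  have h0 : ∀ l : ι × Bool, CertS X g N f fun σ =>
      {x | l.1 ∈ I → x ∉ (Q σ : Set (G σ)) * ((D σ).dom l : Set (G σ))} := by
    intro l
    by_cases hl : l.1 ∈ I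
    · exact (hQdom l hl).congr fun σ => by ext x; simp [hl]
    · exact CertS.univ.congr fun σ => by ext x; simp [hl]
  have h1 := (Cert.of_re' (X := X) (re_eq (f := fun e : certL_Ex 𝔄 ι => e.2) (g := fun _ => [])
    Computable.snd (Computable.const _)) fun _ _ => 0).and
    (Cert.comp' hT (f := fun e : certL_Ex 𝔄 ι => e.1) Computable.fst)
  have h2 := ((Cert.of_re' (X := X)
    (re_eq (f := fun x : certL_Ex 𝔄 ι × (ι × Bool) × Wd 𝔄 => x.1.2.head?) (g := fun x => some x.2)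
      (Primrec.list_head?.comp (Primrec.snd.comp Primrec.fst)).to_comp
      (Primrec.option_some.comp Primrec.snd).to_comp) fun _ _ => 0).and
    ((Cert.finite_index h0).comp' (f := fun x : certL_Ex 𝔄 ι × (ι × Bool) × Wd 𝔄 => (x.2.1, x.1.1))
      ((Computable.fst.comp Computable.snd).pair (Computable.fst.comp Computable.fst)))).ex
    (t := fun σ e => f (N σ (wev (g σ) e.1))) fun σ e ⟨b, hb⟩ => ⟨b, hb, by simp⟩
  refine (h1.or h2 (t := fun σ e => f (N σ (wev (g σ) e.1))) fun σ x h =>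
    h.imp (fun h => ⟨h, by simp⟩) fun h => ⟨h, le_rfl⟩).congr (fun σ e => ?_) fun _ _ _ => le_rfl
  obtain ⟨w, _ | ⟨p, L⟩⟩ := e
  · simp [certL_ev, HD.Stuck]
  · simp [certL_ev, HD.Stuck]

/-- Non-membership in `gen Q I * T`.  The certificate consists of words for `q₀, Lq, g₀, L` of
`HD.exists_dec` (lists of pairs (signed letter, word)); check the equation
`w = prd q₀ Lq * prd g₀ L` (`CertEq.eq₂`, the right side is the value of a computable word), the
entries of `q₀, Lq` (`hQ`, `Cert.all`; letters in `I`: `re_finite`), reducedness (`hdom`,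
`Cert.chain`, `Cert.or` with the r.e. condition `q.1 ≠ opp p.1`) and `Stuck` (`hT`, `hQdom`).
Soundness: `notMem_of_stuck`. -/
theorem certS_MH {ι : Type} [Primcodable ι] [Finite ι] (hf : Monotone f) (hg : ∀ σ, Gens (g σ))
    {D : ∀ σ, HD (G σ) ι} {wt : ℕ} (hL : ∀ σ, (D σ).Lip (N σ) wt)
    {Q : ∀ σ, Subgroup (G σ)} {I : Set ι} {T : ∀ σ, Set (G σ)} (hG : ∀ σ, (D σ).Good (Q σ) I)
    (hD : ∀ σ, (D σ).DecCtl (N σ) (Q σ) I) (hEq : CertEq X fun σ => (D σ).gens (g σ))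
    (hdom : ∀ l, CertS X g N f fun σ => ((D σ).dom l : Set (G σ))ᶜ)
    (hQ : CertS X g N f fun σ => (Q σ : Set (G σ)))
    (hQdom : ∀ l : ι × Bool, l.1 ∈ I →
      CertS X g N f fun σ => ((Q σ : Set (G σ)) * ((D σ).dom l : Set (G σ)))ᶜ)
    (hT : CertS X g N f fun σ => ((Q σ : Set (G σ)) * T σ)ᶜ) :
    CertS X (fun σ => (D σ).gens (g σ)) (fun σ => (D σ).nrm (N σ) wt) (fun n => f (2 * n))
      fun σ => (((D σ).gen (Q σ) I : Set (D σ).MH) * ((D σ).of '' T σ))ᶜ := by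
  have h1 := hEq.eq₂.comp'
    (f := fun x : Wd (𝔄 ⊕ ι) × certL_Ex 𝔄 ι × certL_Ex 𝔄 ι => (x.1, certL_xw x.2.1 ++ certL_xw x.2.2))
    (Primrec.fst.pair (Primrec.list_append.comp
      (certL_primrec_xw.comp (Primrec.fst.comp Primrec.snd))
      (certL_primrec_xw.comp (Primrec.snd.comp Primrec.snd)))).to_comp
  have h2 := (certL_good I hQ).comp'
    (f := fun x : Wd (𝔄 ⊕ ι) × certL_Ex 𝔄 ι × certL_Ex 𝔄 ι => x.2.1)
    (Computable.fst.comp Computable.snd)
  have h3 := ((certL_red hdom).and (certL_stuck hQdom hT)).comp'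
    (f := fun x : Wd (𝔄 ⊕ ι) × certL_Ex 𝔄 ι × certL_Ex 𝔄 ι => x.2.2)
    (Computable.snd.comp Computable.snd)
  have sound : ∀ σ (x : (D σ).MH) q₀ Lq g₀ L, x = (D σ).prd q₀ Lq * (D σ).prd g₀ L →
      (q₀ ∈ Q σ ∧ ∀ p ∈ Lq, p.1.1 ∈ I ∧ p.2 ∈ Q σ) → (D σ).Red L →
      (D σ).Stuck (Q σ) I (T σ) g₀ L →
      x ∉ ((D σ).gen (Q σ) I : Set (D σ).MH) * ((D σ).of '' T σ) := by
    rintro σ x q₀ Lq g₀ L rfl hq hr hs ⟨a, ha, b, hb, e⟩
    refine (D σ).notMem_of_stuck (hG σ) hr hs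
      ⟨_, mul_mem (inv_mem (certL_prd_mem (D σ) hq.1 hq.2)) ha, b, hb, ?_⟩
    simp only at e ⊢
    rw [mul_assoc, e, inv_mul_cancel_left]
  have compl : ∀ σ (w : Wd (𝔄 ⊕ ι)), wev ((D σ).gens (g σ)) w ∉
      ((D σ).gen (Q σ) I : Set (D σ).MH) * ((D σ).of '' T σ) →
      ∃ A B : certL_Ex 𝔄 ι, (wev ((D σ).gens (g σ)) w =
        wev ((D σ).gens (g σ)) (certL_xw A ++ certL_xw B) ∧
        (wev (g σ) A.1 ∈ Q σ ∧ ∀ p ∈ certL_ev (g σ) A.2, p.1.1 ∈ I ∧ p.2 ∈ Q σ) ∧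
        (D σ).Red (certL_ev (g σ) B.2) ∧
        (D σ).Stuck (Q σ) I (T σ) (wev (g σ) B.1) (certL_ev (g σ) B.2)) ∧
        ∀ v, v = A.1 ∨ v = B.1 ∨ (∃ p ∈ A.2, v = p.2) ∨ (∃ p ∈ B.2, v = p.2) →
          f (N σ (wev (g σ) v)) ≤ f (2 * (D σ).nrm (N σ) wt (wev ((D σ).gens (g σ)) w)) := by
    intro σ w hw
    obtain ⟨q₀, Lq, g₀, L, e, hr, hc, hq, hLq, hh⟩ :=
      (D σ).exists_dec (hL σ) (hD σ) (wev ((D σ).gens (g σ)) w)
    obtain ⟨a, rfl⟩ := (hg σ).exists_wev q₀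
    obtain ⟨b, rfl⟩ := (hg σ).exists_wev g₀
    obtain ⟨A, rfl⟩ := certL_exists_ev (hg σ) Lq
    obtain ⟨B, rfl⟩ := certL_exists_ev (hg σ) L
    have hq' : ∀ p ∈ certL_ev (g σ) A, p.1.1 ∈ I ∧ p.2 ∈ Q σ := fun p hp =>
      ⟨(hLq p hp).1, (hLq p hp).2.1⟩
    refine ⟨(a, A), (b, B), ⟨by rw [wev_append, certL_wev_xw, certL_wev_xw, ← e], ⟨hq.1, hq'⟩, hr,
      ?_⟩, fun v hv => hf ?_⟩
    · cases B with
      | nil =>
        rintro ⟨q, hq₁, t, ht, e'⟩
        refine hw ⟨_, mul_mem (certL_prd_mem (D σ) hq.1 hq') (((D σ).of_mem_gen (hG σ)).2 hq₁),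
          _, ⟨t, ht, rfl⟩, ?_⟩
        simp only at e' ⊢
        rw [e, mul_assoc, ← map_mul, e']
        simp [certL_ev]
      | cons p B => exact hh (p.1, wev (g σ) p.2) (by simp [certL_ev])
    · rcases hv with rfl | rfl | ⟨p, hp, rfl⟩ | ⟨p, hp, rfl⟩
      · exact hq.2
      · unfold HD.cost at hc
        omega
      · exact (hLq _ (List.mem_map_of_mem hp)).2.2
      · have := certL_le_cost (N σ) wt (wev (g σ) b) (L := certL_ev (g σ) B)
          (List.mem_map_of_mem hp)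
        simp only at this
        omega
  have snd : ∀ σ (w : Wd (𝔄 ⊕ ι)) (A B : certL_Ex 𝔄 ι), (wev ((D σ).gens (g σ)) w =
        wev ((D σ).gens (g σ)) (certL_xw A ++ certL_xw B) ∧
        (wev (g σ) A.1 ∈ Q σ ∧ ∀ p ∈ certL_ev (g σ) A.2, p.1.1 ∈ I ∧ p.2 ∈ Q σ) ∧
        (D σ).Red (certL_ev (g σ) B.2) ∧
        (D σ).Stuck (Q σ) I (T σ) (wev (g σ) B.1) (certL_ev (g σ) B.2)) →
      wev ((D σ).gens (g σ)) w ∉ ((D σ).gen (Q σ) I : Set (D σ).MH) * ((D σ).of '' T σ) :=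
    fun σ w A B h => sound σ _ _ _ _ _ (by rw [h.1, wev_append, certL_wev_xw, certL_wev_xw])
      h.2.1 h.2.2.1 h.2.2.2
  refine ((h1.and (h2.and h3)).ex
    (t := fun σ w => f (2 * (D σ).nrm (N σ) wt (wev ((D σ).gens (g σ)) w))) ?_).congr
    (fun σ w => ⟨fun ⟨b, hb⟩ => snd σ w b.1 b.2 hb, fun h => ?_⟩) fun _ _ _ => le_rfl
  · rintro σ w ⟨b, hb⟩
    obtain ⟨A, B, h, hs⟩ := compl σ w (snd σ w b.1 b.2 hb)
    refine ⟨(A, B), h, max_le (Nat.zero_le _) (max_le (max_le (hs _ (Or.inl rfl))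
      (certL_foldr_le ?_)) (max_le (certL_foldr_le ?_) (hs _ (Or.inr (Or.inl rfl)))))⟩
    · intro x hx
      obtain ⟨p, hp, rfl⟩ := List.mem_map.1 hx
      exact hs _ (Or.inr (Or.inr (Or.inl ⟨p, hp, rfl⟩)))
    · intro x hx
      obtain ⟨p, hp, rfl⟩ := List.mem_map.1 hx
      exact hs _ (Or.inr (Or.inr (Or.inr ⟨p.1, (List.of_mem_zip hp).1, rfl⟩)))
  · obtain ⟨A, B, h, -⟩ := compl σ w h
    exact ⟨(A, B), h⟩

/-- the case `Q = ⊥`, `I = ∅` (`gen_empty`; `CertEq.of_embed` gives `hQ`) -/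
theorem certS_MH_base {ι : Type} [Primcodable ι] [Finite ι] (hf : Monotone f)
    (hg : ∀ σ, Gens (g σ)) {D : ∀ σ, HD (G σ) ι} {wt : ℕ} (hL : ∀ σ, (D σ).Lip (N σ) wt)
    {T : ∀ σ, Set (G σ)} (hEq : CertEq X fun σ => (D σ).gens (g σ))
    (hdom : ∀ l, CertS X g N f fun σ => ((D σ).dom l : Set (G σ))ᶜ)
    (hT : CertS X g N f fun σ => (T σ)ᶜ) :
    CertS X (fun σ => (D σ).gens (g σ)) (fun σ => (D σ).nrm (N σ) wt) (fun n => f (2 * n))
      fun σ => ((D σ).of '' T σ)ᶜ := by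
  have hb : CertEq X g := hEq.of_embed (fun σ => (D σ).of) (fun σ => (D σ).of_injective)
    (s := fun _ a => [(Sum.inl a, true)])
    (Primrec.list_cons.comp ((Primrec.sumInl.comp Primrec.snd).pair (Primrec.const true))
      (Primrec.const [])).to_comp fun σ a => by rw [wev_single_true]; rfl
  refine (certS_MH (Q := fun _ => ⊥) (I := ∅) (T := T) hf hg hL (fun σ => (D σ).good_empty _)
    (fun σ => (D σ).decCtl_empty _ _) hEq hdom (hb.certS.congr fun σ => by simp)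
    (fun l hl => absurd hl (Set.notMem_empty _)) (hT.congr fun σ => by simp)).congr fun σ => ?_
  simp [HD.gen_empty]

theorem CertEq.mh_base {ι : Type} [Primcodable ι] {D : ∀ σ, HD (G σ) ι}
    (hEq : CertEq X fun σ => (D σ).gens (g σ)) : CertEq X g :=
  hEq.of_embed (fun σ => (D σ).of) (fun σ => (D σ).of_injective)
    (s := fun _ a => [(Sum.inl a, true)])
    (Primrec.list_cons.comp ((Primrec.sumInl.comp Primrec.snd).pair (Primrec.const true))
      (Primrec.const [])).to_comp fun σ a => by rw [wev_single_true]; rfl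

theorem CertEq.sd_base {Q : Type} [Primcodable Q] {Z : Sit → Type} [∀ σ, MulAction (G σ) (Z σ)]
    {b : ∀ σ, Q → Z σ} (hEq : CertEq X fun σ => SD.gens (g σ) (b σ)) : CertEq X g :=
  hEq.of_embed (fun _ => SD.reg) (fun _ => SD.reg_injective)
    (s := fun _ a => [(Sum.inl a, true)])
    (Primrec.list_cons.comp ((Primrec.sumInl.comp Primrec.snd).pair (Primrec.const true))
      (Primrec.const [])).to_comp fun σ a => by rw [wev_single_true]; rfl

theorem CertEq.prod_fst {𝔅 : Type} [Primcodable 𝔅] {H : Sit → Type} [∀ σ, Group (H σ)]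
    {h : ∀ σ, 𝔅 → H σ} (hEq : CertEq X fun σ => prodGens (g σ) (h σ)) : CertEq X g :=
  hEq.of_embed (fun _ => MonoidHom.inl _ _) (fun _ _ _ e => congrArg Prod.fst e)
    (s := fun _ a => [(Sum.inl a, true)])
    (Primrec.list_cons.comp ((Primrec.sumInl.comp Primrec.snd).pair (Primrec.const true))
      (Primrec.const [])).to_comp fun σ a => by rw [wev_single_true]; rfl

theorem CertEq.prod_snd {𝔅 : Type} [Primcodable 𝔅] {H : Sit → Type} [∀ σ, Group (H σ)]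
    {h : ∀ σ, 𝔅 → H σ} (hEq : CertEq X fun σ => prodGens (g σ) (h σ)) : CertEq X h :=
  hEq.of_embed (fun _ => MonoidHom.inr _ _) (fun _ _ _ e => congrArg Prod.snd e)
    (s := fun _ a => [(Sum.inr a, true)])
    (Primrec.list_cons.comp ((Primrec.sumInr.comp Primrec.snd).pair (Primrec.const true))
      (Primrec.const [])).to_comp fun σ a => by rw [wev_single_true]; rfl

end Crest.Agent.R185
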