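import Crest.Agent.R185.Mach2
import Crest.Agent.R185.CertL

/-!
# R185: auxiliary computability lemmas for CertMach (integer arithmetic, register words)
-/

set_option autoImplicit false

namespace Crest.Agent.R185

theorem cm_enc_nat (n : ℕ) : Encodable.encode (n : ℤ) = 2 * n := rfl

theorem cm_enc_neg (n : ℕ) : Encodable.encode (Int.negSucc n) = 2 * n + 1 := rfl

theorem cm_toNat : Primrec Int.toNat := by
  refine (Primrec.cond (Primrec.nat_bodd.comp Primrec.encode) (Primrec.const 0)
    (Primrec.nat_div2.comp Primrec.encode)).of_eq fun z => ?_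
  rcases z with n | n
  · show cond (Nat.bodd (2 * n)) 0 (Nat.div2 (2 * n)) = n
    simp [Nat.div2_val]
  · show cond (Nat.bodd (2 * n + 1)) 0 (Nat.div2 (2 * n + 1)) = 0
    simp

theorem cm_negToNat : Primrec fun z : ℤ => (-z).toNat := by
  refine (Primrec.cond (Primrec.nat_bodd.comp Primrec.encode)
    (Primrec.succ.comp (Primrec.nat_div2.comp Primrec.encode)) (Primrec.const 0)).of_eq fun z => ?_
  rcases z with n | n
  · show cond (Nat.bodd (2 * n)) (Nat.div2 (2 * n) + 1) 0 = (-(n : ℤ)).toNat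
    simp
  · show cond (Nat.bodd (2 * n + 1)) (Nat.div2 (2 * n + 1) + 1) 0 = n + 1
    simp [Nat.div2_val]

theorem cm_subNat : Primrec₂ fun a b : ℕ => (a : ℤ) - b := by
  refine Primrec₂.encode_iff.1 ?_
  refine (Primrec.ite (Primrec.nat_le.comp Primrec.snd Primrec.fst)
    (Primrec.nat_double.comp (Primrec.nat_sub.comp Primrec.fst Primrec.snd))
    (Primrec.nat_double_succ.comp (Primrec.pred.comp
      (Primrec.nat_sub.comp Primrec.snd Primrec.fst)))).of_eq fun p => ?_
  obtain ⟨a, b⟩ := p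
  dsimp only
  split_ifs with h
  · rw [show (a : ℤ) - b = ((a - b : ℕ) : ℤ) by omega]; rfl
  · rw [show (a : ℤ) - b = Int.negSucc (b - a).pred by
      rw [Int.negSucc_eq, Nat.pred_eq_sub_one]; omega]; rfl

theorem cm_add : Primrec₂ fun a b : ℤ => a + b :=
  (cm_subNat.comp (Primrec.nat_add.comp (cm_toNat.comp Primrec.fst) (cm_toNat.comp Primrec.snd))
    (Primrec.nat_add.comp (cm_negToNat.comp Primrec.fst) (cm_negToNat.comp Primrec.snd))).of_eq
    fun p => by dsimp only; push_cast; omega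

theorem cm_neg : Primrec fun a : ℤ => -a :=
  (cm_subNat.comp cm_negToNat cm_toNat).of_eq fun p => by omega

theorem cm_mul : Primrec₂ fun a b : ℤ => a * b :=
  (cm_subNat.comp
    (Primrec.nat_add.comp
      (Primrec.nat_mul.comp (cm_toNat.comp Primrec.fst) (cm_toNat.comp Primrec.snd))
      (Primrec.nat_mul.comp (cm_negToNat.comp Primrec.fst) (cm_negToNat.comp Primrec.snd)))
    (Primrec.nat_add.comp
      (Primrec.nat_mul.comp (cm_toNat.comp Primrec.fst) (cm_negToNat.comp Primrec.snd))
      (Primrec.nat_mul.comp (cm_negToNat.comp Primrec.fst) (cm_toNat.comp Primrec.snd)))).of_eq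
    fun p => by
      obtain ⟨a, b⟩ := p
      dsimp only
      push_cast
      have ha := Int.toNat_sub_toNat_neg a
      have hb := Int.toNat_sub_toNat_neg b
      linear_combination (b.toNat - (-b).toNat : ℤ) * ha + a * hb

theorem cm_natAbs : Primrec Int.natAbs :=
  (Primrec.nat_add.comp cm_toNat cm_negToNat).of_eq fun p => by omega

theorem cm_dvd : PrimrecRel fun a b : ℤ => a ∣ b := by
  refine (Primrec.eq.comp (Primrec.nat_mod.comp (cm_natAbs.comp Primrec.snd)
    (cm_natAbs.comp Primrec.fst)) (Primrec.const 0)).of_eq fun p => ?_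
  rw [← Nat.dvd_iff_mod_eq_zero, Int.natAbs_dvd_natAbs]

/-- the vector of a register word -/
def cmVec {k j : ℕ} (w : Wd (Fin k ⊕ Fin j)) : Fin j → ℤ :=
  (wev (Sum.elim (fun _ => 1) (zGens j)) w).toAdd

/-- the group part of a register word -/
def cmGrp {k j : ℕ} (w : Wd (Fin k ⊕ Fin j)) : Wd (Fin k) :=
  wsub (Sum.elim (fun y => [(y, true)]) fun _ => []) w

theorem cm_vec {k j : ℕ} : Primrec fun x : Wd (Fin k ⊕ Fin j) × Fin j => cmVec x.1 x.2 := by
  refine (Primrec.list_foldr (f := fun x : Wd (Fin k ⊕ Fin j) × Fin j => x.1)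
    (g := fun _ => (0 : ℤ)) (h := fun x p => cmVec [p.1] x.2 + p.2) Primrec.fst (Primrec.const 0)
    (cm_add.comp ((Primrec.dom_finite
      (fun y : ((Fin k ⊕ Fin j) × Bool) × Fin j => cmVec [y.1] y.2)).comp
      ((Primrec.fst.comp Primrec.snd).pair (Primrec.snd.comp Primrec.fst)))
      (Primrec.snd.comp Primrec.snd)).to₂).of_eq fun x => ?_
  obtain ⟨w, l⟩ := x
  dsimp only
  induction w with
  | nil => simp [cmVec]
  | cons p w ih =>
    rw [List.foldr_cons, ih, show p :: w = [p] ++ w from rfl]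
    simp only [cmVec, wev_append, toAdd_mul, Pi.add_apply]

theorem cm_grp {k j : ℕ} : Computable (cmGrp : Wd (Fin k ⊕ Fin j) → Wd (Fin k)) :=
  (computable_wsub (α := Unit)
    (s := fun _ => (Sum.elim (fun y => [(y, true)]) fun _ => [] : Fin k ⊕ Fin j → Wd (Fin k)))
    (Primrec.dom_finite _).to_comp).comp ((Computable.const ()).pair Computable.id)

theorem cm_fst {k j : ℕ} {K : Type} [Group K] (κ : Fin k → K) (w : Wd (Fin k ⊕ Fin j)) :
    (wev (prodGens κ (zGens j)) w).1 = wev κ (cmGrp w) := by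
  rw [cmGrp, wev_wsub]
  refine (map_wev (MonoidHom.fst K (Multiplicative (Fin j → ℤ))) _ w).trans ?_
  congr 1
  funext a
  rcases a with a | a <;> simp [prodGens]

theorem cm_snd {k j : ℕ} {K : Type} [Group K] (κ : Fin k → K) (w : Wd (Fin k ⊕ Fin j)) :
    (wev (prodGens κ (zGens j)) w).2.toAdd = cmVec w := by
  rw [cmVec]
  congr 1
  refine (map_wev (MonoidHom.snd K (Multiplicative (Fin j → ℤ))) _ w).trans ?_
  congr 1
  funext a
  rcases a with a | a <;> simp [prodGens]

attribute [irreducible] cmVec cmGrp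

theorem cm_lat_iff {j : ℕ} (ξ A m : Fin j → ℤ) :
    (¬ ∃ n, ξ = A + m * n) ↔ ∃ l, ¬ m l ∣ ξ l + -A l := by
  rw [← not_forall, not_iff_not]
  constructor
  · rintro ⟨n, rfl⟩ l
    exact ⟨n l, by simp⟩
  · intro h
    choose n hn using h
    exact ⟨n, funext fun l => by have := hn l; simp only [Pi.add_apply, Pi.mul_apply]; omega⟩

theorem cm_vec' {α : Type} [Primcodable α] {k j : ℕ} {w : α → Wd (Fin k ⊕ Fin j)} {l : α → Fin j}
    (hw : Computable w) (hl : Computable l) : Computable fun a => cmVec (w a) (l a) :=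
  (cm_vec.to_comp.comp (hw.pair hl)).of_eq fun _ => rfl

theorem cm_add' {α : Type} [Primcodable α] {f g : α → ℤ} (hf : Computable f) (hg : Computable g) :
    Computable fun a => f a + g a :=
  (cm_add.to_comp.comp hf hg).of_eq fun _ => rfl

theorem cm_mul' {α : Type} [Primcodable α] {f g : α → ℤ} (hf : Computable f) (hg : Computable g) :
    Computable fun a => f a * g a :=
  (cm_mul.to_comp.comp hf hg).of_eq fun _ => rfl

theorem cm_fin₂ {α β γ δ : Type} [Primcodable α] [Primcodable β] [Primcodable γ] [Primcodable δ]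
    [Finite β] [Finite γ] (φ : β → γ → δ) {f : α → β} {g : α → γ} (hf : Computable f)
    (hg : Computable g) : Computable fun a => φ (f a) (g a) :=
  ((Primrec.dom_finite fun z : β × γ => φ z.1 z.2).to_comp.comp (hf.pair hg)).of_eq fun _ => rfl

theorem cm_re_lat {k j : ℕ} {A : ℕ → Fin j → ℤ} (hA : Computable fun p : ℕ × Fin j => A p.1 p.2)
    (m : Fin j → ℤ) :
    REPred fun x : ℕ × Wd (Fin k ⊕ Fin j) => ¬ ∃ n, cmVec x.2 = A x.1 + m * n := by
  have h1 : REPred fun p : ℤ × ℤ => ¬ p.1 ∣ p.2 := (PrimrecPred.not cm_dvd).computablePred.to_re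
  have h3 : Computable fun y : (ℕ × Wd (Fin k ⊕ Fin j)) × Fin j => A y.1.1 y.2 :=
    (hA.comp ((Computable.fst.comp Computable.fst).pair Computable.snd)).of_eq fun _ => rfl
  have h2 : Computable fun y : (ℕ × Wd (Fin k ⊕ Fin j)) × Fin j =>
      (m y.2, cmVec y.1.2 y.2 + -A y.1.1 y.2) :=
    ((Primrec.dom_finite m).to_comp.comp Computable.snd).pair (cm_add'
      (cm_vec' (Computable.snd.comp Computable.fst) Computable.snd) (cm_neg.to_comp.comp h3))
  exact (re_exists (re_comp h1 h2)).of_eq fun x => (cm_lat_iff _ _ _).symm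

theorem cm_re_forall {α β : Type} [Primcodable α] [Primcodable β] [Finite β] {p : α × β → Prop}
    (hp : REPred p) : REPred fun a => ∀ b, p (a, b) := by
  have := Fintype.ofFinite β
  exact (re_comp (re_forall_list hp) (Computable.id.pair
    (Computable.const (Finset.univ : Finset β).toList))).of_eq fun a => by simp

theorem cm_re_step {k : ℕ} {M : MM k} (hM : M.Good) :
    REPred fun x : ℕ × Fin M.nR × Wd M.AR × Wd M.AR =>
      M.NStep x.1 x.2.1 (cmVec x.2.2.1) (cmVec x.2.2.2) := by
  have hx : Computable fun y : ((ℕ × Fin M.nR × Wd M.AR × Wd M.AR) × Fin M.j) × ℤ => y.1.1.2 :=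
    Computable.snd.comp (Computable.fst.comp Computable.fst)
  have hi : Computable fun y : ((ℕ × Fin M.nR × Wd M.AR × Wd M.AR) × Fin M.j) × ℤ => y.1.1.2.1 :=
    Computable.fst.comp hx
  have hl : Computable fun y : ((ℕ × Fin M.nR × Wd M.AR × Wd M.AR) × Fin M.j) × ℤ => y.1.2 :=
    Computable.snd.comp Computable.fst
  have ha : Computable fun y : ((ℕ × Fin M.nR × Wd M.AR × Wd M.AR) × Fin M.j) × ℤ =>
      M.a' y.1.1.1 y.1.1.2.1 y.1.2 :=
    (hM.comp.comp ((Computable.fst.comp (Computable.fst.comp Computable.fst)).pair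
      (hi.pair hl))).of_eq fun _ => rfl
  have h1 : REPred fun y : ((ℕ × Fin M.nR × Wd M.AR × Wd M.AR) × Fin M.j) × ℤ =>
      cmVec y.1.1.2.2.1 y.1.2 = M.a y.1.1.2.1 y.1.2 + M.m y.1.1.2.1 y.1.2 * y.2 :=
    re_eq (cm_vec' (Computable.fst.comp (Computable.snd.comp hx)) hl)
      (cm_add' (cm_fin₂ M.a hi hl) (cm_mul' (cm_fin₂ M.m hi hl) Computable.snd))
  have h2 : REPred fun y : ((ℕ × Fin M.nR × Wd M.AR × Wd M.AR) × Fin M.j) × ℤ =>
      cmVec y.1.1.2.2.2 y.1.2 = M.a' y.1.1.1 y.1.1.2.1 y.1.2 + M.m' y.1.1.2.1 y.1.2 * y.2 :=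
    re_eq (cm_vec' (Computable.snd.comp (Computable.snd.comp hx)) hl)
      (cm_add' ha (cm_mul' (cm_fin₂ M.m' hi hl) Computable.snd))
  refine (cm_re_forall (re_exists (re_and h1 h2))).of_eq fun x => ?_
  constructor
  · intro h
    choose n hn using h
    exact ⟨n, funext fun l => (hn l).1, funext fun l => (hn l).2⟩
  · rintro ⟨n, h, h'⟩ l
    exact ⟨n l, congrFun h l, congrFun h' l⟩

section
variable {Sit E F : Type} [Primcodable E] [Primcodable F] {X : Ctx Sit E F}

/-- certificates for the reflexive transitive closure -/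
theorem cm_rtg {β : Type} [Primcodable β] {J : Sit → β × β → Prop} (h : Cert X J fun _ _ => 0) :
    Cert X (fun σ (x : β × β) => Relation.ReflTransGen (fun a b => J σ (a, b)) x.1 x.2)
      fun _ _ => 0 := by
  have h1 := (h.comp' (f := fun x : Unit × β × β => x.2) Computable.snd).chain.comp'
    (f := fun y : (β × β) × List β => ((), y.1.1 :: y.2))
    ((Computable.const ()).pair
      (Computable.list_cons.comp (Computable.fst.comp Computable.fst) Computable.snd))
  have h2 := Cert.of_re' (X := X) (re_eq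
    (f := fun y : (β × β) × List β => (y.1.1 :: y.2).reverse.head?) (g := fun y => some y.1.2)
    (Primrec.list_head?.comp (Primrec.list_reverse.comp (Primrec.list_cons.comp
      (Primrec.fst.comp Primrec.fst) Primrec.snd))).to_comp
    (Primrec.option_some.comp (Primrec.snd.comp Primrec.fst)).to_comp) fun _ _ => 0
  refine ((h1.and h2).ex (t := fun _ _ => 0) fun σ a ⟨b, hb⟩ => ⟨b, hb, ?_⟩).congr
    (fun σ x => ?_) fun _ _ _ => le_rfl
  · exact max_le (certL_foldr_le (by simp)) le_rfl
  · simp only [List.head?_reverse, List.getLast?_eq_some_getLast (List.cons_ne_nil _ _),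
      Option.some.injEq]
    exact ⟨fun ⟨l, h3, h4⟩ => List.relationReflTransGen_of_exists_isChain_cons l h3 h4,
      List.exists_isChain_cons_of_relationReflTransGen⟩

end

end Crest.Agent.R185
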