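import Crest.Agent.R185.Cert2
import Crest.Agent.R185.SD2

/-!
# R185 TASK CertSD: certificates for `FreeGroup Z ⋊ R`
-/

set_option autoImplicit false

namespace Crest.Agent.R185

open scoped Pointwise

variable {Sit E F : Type} [Primcodable E] [Primcodable F] {X : Ctx Sit E F}
  {𝔄 : Type} [Primcodable 𝔄] {G : Sit → Type} [∀ σ, Group (G σ)] {g : ∀ σ, 𝔄 → G σ}
  {N : ∀ σ, Nrm (G σ)} {f : ℕ → ℕ}

theorem csd_foldr_le {β : Type} (s : β → ℕ) (L : List β) (n : ℕ) :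
    (L.map s).foldr max 0 ≤ n ↔ ∀ t ∈ L, s t ≤ n := by
  induction L with
  | nil => simp
  | cons a L ih => simp [ih]

theorem csd_le_foldr {β : Type} (s : β → ℕ) {L : List β} {t : β} (ht : t ∈ L) :
    s t ≤ (L.map s).foldr max 0 := (csd_foldr_le s L _).1 le_rfl t ht

theorem csd_exmem {β : Type} [Primcodable β] {A : Sit → β → Prop} {s : Sit → β → ℕ}
    (h : Cert X A s) :
    Cert X (fun σ (L : List β) => ∃ t ∈ L, A σ t) (fun σ L => (L.map (s σ)).foldr max 0) := by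
  have p1 : Primrec fun y : List β × List β × β × List β => y.2.1 ++ y.2.2.1 :: y.2.2.2 :=
    Primrec.list_append.comp (Primrec.fst.comp Primrec.snd)
      (Primrec.list_cons.comp (Primrec.fst.comp (Primrec.snd.comp Primrec.snd))
        (Primrec.snd.comp (Primrec.snd.comp Primrec.snd)))
  have p2 : Primrec fun y : List β × List β × β × List β => y.2.2.1 :=
    Primrec.fst.comp (Primrec.snd.comp Primrec.snd)
  have h1 := (Cert.of_re' (X := X) (re_eq Computable.fst p1.to_comp) (fun _ _ => 0)).and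
    (h.comp' p2.to_comp)
  refine (h1.ex (t := fun σ L => (L.map (s σ)).foldr max 0) ?_).congr (fun σ L => ?_)
    (fun _ _ _ => le_rfl)
  · rintro σ L ⟨y, hy⟩
    refine ⟨y, hy, max_le (Nat.zero_le _) (csd_le_foldr (s σ) ?_)⟩
    have := hy.1
    simp only at this
    rw [this]
    simp
  · constructor
    · rintro ⟨y, hy, hA⟩
      simp only at hy
      exact ⟨y.2.1, by rw [hy]; simp, hA⟩
    · rintro ⟨t, ht, hA⟩
      obtain ⟨l₁, l₂, rfl⟩ := List.append_of_mem ht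
      exact ⟨(l₁, t, l₂), rfl, hA⟩

theorem csd_pos {β : Type} [Primcodable β] {A B : Sit → β → Prop} {s : Sit → β → ℕ}
    (hA : Cert X A s) (hB : Cert X B s) :
    Cert X (fun σ (L : List β) => ∃ l₁ p l₂, L = l₁ ++ p :: l₂ ∧ A σ p ∧ ∃ t ∈ p :: l₂, B σ t)
      (fun σ L => (L.map (s σ)).foldr max 0) := by
  have p0 : Primrec fun y : List β × List β × β × List β => y.2.2.1 :: y.2.2.2 :=
    Primrec.list_cons.comp (Primrec.fst.comp (Primrec.snd.comp Primrec.snd))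
      (Primrec.snd.comp (Primrec.snd.comp Primrec.snd))
  have p1 : Primrec fun y : List β × List β × β × List β => y.2.1 ++ y.2.2.1 :: y.2.2.2 :=
    Primrec.list_append.comp (Primrec.fst.comp Primrec.snd) p0
  have p2 : Primrec fun y : List β × List β × β × List β => y.2.2.1 :=
    Primrec.fst.comp (Primrec.snd.comp Primrec.snd)
  have h1 := (Cert.of_re' (X := X) (re_eq Computable.fst p1.to_comp) (fun _ _ => 0)).and
    ((hA.comp' p2.to_comp).and ((csd_exmem hB).comp' p0.to_comp))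
  refine (h1.ex (t := fun σ L => (L.map (s σ)).foldr max 0) ?_).congr (fun σ L => ?_)
    (fun _ _ _ => le_rfl)
  · rintro σ L ⟨y, hy⟩
    have h2 := hy.1
    simp only at h2
    refine ⟨y, hy, max_le (Nat.zero_le _) (max_le (csd_le_foldr (s σ) ?_) ?_)⟩
    · rw [h2]
      simp
    · refine (csd_foldr_le _ _ _).2 fun t ht => csd_le_foldr (s σ) ?_
      rw [h2]
      exact List.mem_append_right _ ht
  · constructor
    · rintro ⟨y, hy, h2, h3⟩
      exact ⟨y.1, y.2.1, y.2.2, hy, h2, h3⟩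
    · rintro ⟨l₁, p, l₂, hy, h2, h3⟩
      exact ⟨(l₁, p, l₂), hy, h2, h3⟩

/-- the word of a triple -/
def csd_tw {𝔄 Q : Type} (t : Q × Wd 𝔄 × Bool) : Wd (𝔄 ⊕ Q) :=
  wmap Sum.inl t.2.1 ++ ((Sum.inr t.1, t.2.2) :: winv (wmap Sum.inl t.2.1))

theorem csd_tw_primrec {Q : Type} [Primcodable Q] :
    Primrec (csd_tw : Q × Wd 𝔄 × Bool → Wd (𝔄 ⊕ Q)) := by
  have p1 : Primrec fun t : Q × Wd 𝔄 × Bool => (wmap Sum.inl t.2.1 : Wd (𝔄 ⊕ Q)) :=
    (primrec_wmap Primrec.sumInl).comp (Primrec.fst.comp Primrec.snd)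
  exact Primrec.list_append.comp p1 (Primrec.list_cons.comp
    ((Primrec.sumInr.comp Primrec.fst).pair (Primrec.snd.comp Primrec.snd)) (primrec_winv.comp p1))

/-- the letter of a triple -/
def csd_lz {𝔄 Q R Z : Type} [Group R] [MulAction R Z] (g : 𝔄 → R) (b : Q → Z)
    (t : Q × Wd 𝔄 × Bool) : Z × Bool := (wev g t.2.1 • b t.1, t.2.2)

theorem csd_wev_inl {𝔄 Q R Z : Type} [Group R] [MulAction R Z] (g : 𝔄 → R) (b : Q → Z)
    (u : Wd 𝔄) : wev (SD.gens g b) (wmap Sum.inl u) = SD.reg (wev g u) := by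
  rw [wev_wmap, map_wev]
  rfl

theorem csd_wev_tw {𝔄 Q R Z : Type} [Group R] [MulAction R Z] (g : 𝔄 → R) (b : Q → Z)
    (L : List (Q × Wd 𝔄 × Bool)) :
    wev (SD.gens g b) (L.flatMap csd_tw) = wev SD.lt (L.map (csd_lz g b)) := by
  induction L with
  | nil => simp
  | cons t L ih =>
    rw [List.flatMap_cons, wev_append, ih, List.map_cons, wev_cons]
    congr 1
    rw [csd_tw, wev_append, wev_cons, wev_winv, csd_wev_inl]
    simp only [csd_lz, ← SD.reg_mul_lt, SD.gens, Sum.elim_inr]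
    split_ifs
    · group
    · group

/-- Non-membership in `F(Z') F(Z'') R'`.  The certificate is a list of triples `(q, r, ε)`
(the letter `(r • b q)^ε`, `r` a word with `N r ≤ ν`) and a word for the `R`-part; check the
equation, reducedness of the list (`FreeGroup.IsReduced`; different letters: `q ≠ q'` or
`r⁻¹ r' ∉ C q`) and the criterion `SD.notMem_W` (`SD.wd_eq`, `SD.right_eq`, `SD.rad_le_iff`). -/
theorem certS_SD {Q : Type} [Primcodable Q] (hf : Monotone f) (hg : ∀ σ, Gens (g σ))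
    {Z : Sit → Type} [∀ σ, MulAction (G σ) (Z σ)] {b : ∀ σ, Q → Z σ}
    {C : ∀ σ, Q → Subgroup (G σ)} (hb : ∀ σ, SD.Based (b σ) (C σ)) {ν : ∀ σ, Z σ → ℕ}
    (hν : ∀ σ, SD.Sz (N σ) (ν σ)) (hν' : ∀ σ z, ∃ q r, z = r • b σ q ∧ N σ r ≤ ν σ z)
    {Z' Z'' : ∀ σ, Set (Z σ)} {R' : ∀ σ, Subgroup (G σ)}
    (hEq : CertEq X fun σ => SD.gens (g σ) (b σ))
    (hC : Cert X (fun σ (x : Q × Wd 𝔄) => wev (g σ) x.2 ∉ C σ x.1)
      fun σ x => f (N σ (wev (g σ) x.2)))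
    (h' : Cert X (fun σ (x : Q × Wd 𝔄) => wev (g σ) x.2 • b σ x.1 ∉ Z' σ)
      fun σ x => f (N σ (wev (g σ) x.2)))
    (h'' : Cert X (fun σ (x : Q × Wd 𝔄) => wev (g σ) x.2 • b σ x.1 ∉ Z'' σ)
      fun σ x => f (N σ (wev (g σ) x.2)))
    (hR : CertS X g N f fun σ => (R' σ : Set (G σ))ᶜ) :
    CertS X (fun σ => SD.gens (g σ) (b σ)) (fun σ => SD.rad (N σ) (ν σ) (hν σ))
      (fun n => f (2 * n)) fun σ => (SD.W (Z' σ) (Z'' σ) (R' σ))ᶜ := by
  -- the `R`-part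
  have hA : CertS X (fun σ => SD.gens (g σ) (b σ)) (fun σ => SD.rad (N σ) (ν σ) (hν σ))
      (fun n => f (2 * n))
      fun σ => (SemidirectProduct.rightHom : SD (G σ) (Z σ) →* G σ) ⁻¹' (R' σ : Set (G σ))ᶜ := by
    refine hR.comap (fun σ => SemidirectProduct.rightHom)
      (s := fun _ a => Sum.casesOn a (fun a => [(a, true)]) (fun _ => [])) ?_ ?_ ?_
    · refine Primrec.to_comp (Primrec.sumCasesOn Primrec.snd ?_ (Primrec.const []).to₂)
      exact (Primrec.list_cons.comp (Primrec.snd.pair (Primrec.const true)) (Primrec.const [])).to₂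
    · rintro σ (a | q)
      · simp [SD.gens, SD.reg]
      · simp [SD.gens, SD.lt]
    · intro σ x
      have := ((SD.rad_le_iff (hν σ)).1 (le_refl (SD.rad (N σ) (ν σ) (hν σ) x))).1
      exact hf (le_trans this (by omega))
  -- different letters
  have pq : Primrec fun t : Q × Wd 𝔄 × Bool => (t.1, t.2.1) :=
    Primrec.fst.pair (Primrec.fst.comp Primrec.snd)
  have a1 : Primrec fun y : Unit × (Q × Wd 𝔄 × Bool) × (Q × Wd 𝔄 × Bool) => y.2.1 :=
    Primrec.fst.comp Primrec.snd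
  have a2 : Primrec fun y : Unit × (Q × Wd 𝔄 × Bool) × (Q × Wd 𝔄 × Bool) => y.2.2 :=
    Primrec.snd.comp Primrec.snd
  have a3 : Primrec fun y : Unit × (Q × Wd 𝔄 × Bool) × (Q × Wd 𝔄 × Bool) =>
      (y.2.1.1, winv y.2.1.2.1 ++ y.2.2.2.1) :=
    (Primrec.fst.comp a1).pair (Primrec.list_append.comp
      (primrec_winv.comp (Primrec.fst.comp (Primrec.snd.comp a1)))
      (Primrec.fst.comp (Primrec.snd.comp a2)))
  have hpair : Cert X (fun σ (y : Unit × (Q × Wd 𝔄 × Bool) × (Q × Wd 𝔄 × Bool)) =>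
      (csd_lz (g σ) (b σ) y.2.1).1 = (csd_lz (g σ) (b σ) y.2.2).1 →
        (csd_lz (g σ) (b σ) y.2.1).2 = (csd_lz (g σ) (b σ) y.2.2).2)
      (fun σ y => f (N σ (wev (g σ) (winv y.2.1.2.1 ++ y.2.2.2.1)))) := by
    have h1 := Cert.of_re' (X := X) (re_or
      (re_eq (Primrec.snd.comp (Primrec.snd.comp a1)).to_comp
        (Primrec.snd.comp (Primrec.snd.comp a2)).to_comp)
      (re_ne (Primrec.fst.comp a1).to_comp (Primrec.fst.comp a2).to_comp))
      (fun σ y => f (N σ (wev (g σ) (winv y.2.1.2.1 ++ y.2.2.2.1))))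
    refine (h1.or (hC.comp' a3.to_comp)
      (t := fun σ y => f (N σ (wev (g σ) (winv y.2.1.2.1 ++ y.2.2.2.1)))) ?_).congr
      (fun σ y => ?_) (fun _ _ _ => le_rfl)
    · rintro σ y (h | h)
      · exact Or.inl ⟨h, le_rfl⟩
      · exact Or.inr ⟨h, le_rfl⟩
    · simp only [csd_lz, (hb σ).eq_iff, wev_append, wev_winv]
      tauto
  have hred : Cert X (fun σ (L : List (Q × Wd 𝔄 × Bool)) =>
      FreeGroup.IsReduced (L.map (csd_lz (g σ) (b σ))))
      (fun σ L => f (2 * (L.map fun t => N σ (wev (g σ) t.2.1)).foldr max 0)) := by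
    refine (hpair.chain.comp' (f := fun L : List (Q × Wd 𝔄 × Bool) => ((), L))
      ((Primrec.const ()).pair Primrec.id).to_comp).congr (fun σ L => ?_) (fun σ L _ => ?_)
    · rw [FreeGroup.IsReduced, List.isChain_map]
    · refine (csd_foldr_le _ _ _).2 fun y hy => hf ?_
      have h1 := List.of_mem_zip (a := y.1) (b := y.2) hy
      have h2 := csd_le_foldr (fun t : Q × Wd 𝔄 × Bool => N σ (wev (g σ) t.2.1)) h1.1
      have h3 := csd_le_foldr (fun t : Q × Wd 𝔄 × Bool => N σ (wev (g σ) t.2.1))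
        (List.mem_of_mem_tail h1.2)
      simp only [wev_append, wev_winv]
      refine ((N σ).mul _ _).trans ?_
      rw [(N σ).inv]
      simp only at h2 h3
      omega
  have hpos := csd_pos (h'.comp' pq.to_comp) (h''.comp' pq.to_comp)
  have b1 : Primrec fun y : Wd (𝔄 ⊕ Q) × List (Q × Wd 𝔄 × Bool) × Wd 𝔄 => y.2.1 :=
    Primrec.fst.comp Primrec.snd
  have b2 : Primrec fun y : Wd (𝔄 ⊕ Q) × List (Q × Wd 𝔄 × Bool) × Wd 𝔄 =>
      (y.1, y.2.1.flatMap csd_tw ++ wmap Sum.inl y.2.2) :=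
    Primrec.fst.pair (Primrec.list_append.comp
      (Primrec.list_flatMap b1 (csd_tw_primrec.comp Primrec.snd).to₂)
      ((primrec_wmap Primrec.sumInl).comp (Primrec.snd.comp Primrec.snd)))
  have hall := (hEq.eq₂.comp' b2.to_comp).and
    ((hred.comp' b1.to_comp).and (hpos.comp' b1.to_comp))
  -- soundness and completeness
  have hsound : ∀ σ (w : Wd (𝔄 ⊕ Q)) (L : List (Q × Wd 𝔄 × Bool)) (u : Wd 𝔄),
      wev (SD.gens (g σ) (b σ)) w =
        wev (SD.gens (g σ) (b σ)) (L.flatMap csd_tw ++ wmap Sum.inl u) →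
      FreeGroup.IsReduced (L.map (csd_lz (g σ) (b σ))) →
      SD.wd (wev (SD.gens (g σ) (b σ)) w) = L.map (csd_lz (g σ) (b σ)) := by
    intro σ w L u h1 h2
    rw [h1, wev_append, csd_wev_tw, csd_wev_inl, SD.wd_eq h2]
  have hsec : ∀ σ, ∃ sec : Z σ × Bool → Q × Wd 𝔄 × Bool, ∀ p, csd_lz (g σ) (b σ) (sec p) = p ∧
      N σ (wev (g σ) (sec p).2.1) ≤ ν σ p.1 := by
    intro σ
    have : ∀ p : Z σ × Bool, ∃ t : Q × Wd 𝔄 × Bool, csd_lz (g σ) (b σ) t = p ∧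
        N σ (wev (g σ) t.2.1) ≤ ν σ p.1 := by
      intro p
      obtain ⟨q, r, h1, h2⟩ := hν' σ p.1
      obtain ⟨u, rfl⟩ := (hg σ).exists_wev r
      exact ⟨(q, u, p.2), Prod.ext h1.symm rfl, h2⟩
    exact ⟨fun p => (this p).choose, fun p => (this p).choose_spec⟩
  have hcomp : ∀ σ (w : Wd (𝔄 ⊕ Q)), (∃ l₁, ∃ p : Z σ × Bool, ∃ l₂,
      SD.wd (wev (SD.gens (g σ) (b σ)) w) =
      l₁ ++ p :: l₂ ∧ p.1 ∉ Z' σ ∧ ∃ p' ∈ p :: l₂, p'.1 ∉ Z'' σ) →
      ∃ (L : List (Q × Wd 𝔄 × Bool)) (u : Wd 𝔄), (wev (SD.gens (g σ) (b σ)) w =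
        wev (SD.gens (g σ) (b σ)) (L.flatMap csd_tw ++ wmap Sum.inl u) ∧
        FreeGroup.IsReduced (L.map (csd_lz (g σ) (b σ))) ∧
        ∃ l₁, ∃ p : Q × Wd 𝔄 × Bool, ∃ l₂, L = l₁ ++ p :: l₂ ∧ wev (g σ) p.2.1 • b σ p.1 ∉ Z' σ ∧
          ∃ t ∈ p :: l₂, wev (g σ) t.2.1 • b σ t.1 ∉ Z'' σ) ∧
        ∀ t ∈ L, N σ (wev (g σ) t.2.1) ≤
          SD.rad (N σ) (ν σ) (hν σ) (wev (SD.gens (g σ) (b σ)) w) := by
    rintro σ w ⟨l₁, p, l₂, h1, h2, p', h3, h4⟩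
    obtain ⟨sec, hsec⟩ := hsec σ
    obtain ⟨u, hu⟩ := (hg σ).exists_wev (wev (SD.gens (g σ) (b σ)) w).right
    have h5 : ((SD.wd (wev (SD.gens (g σ) (b σ)) w)).map sec).map (csd_lz (g σ) (b σ)) =
        SD.wd (wev (SD.gens (g σ) (b σ)) w) := by
      rw [List.map_map]
      exact List.map_id'' (fun p => (hsec p).1) _
    have h6 : ∀ p, wev (g σ) (sec p).2.1 • b σ (sec p).1 = p.1 := fun p =>
      congrArg Prod.fst (hsec p).1
    refine ⟨(SD.wd (wev (SD.gens (g σ) (b σ)) w)).map sec, u, ⟨?_, ?_, l₁.map sec, sec p,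
      l₂.map sec, ?_, ?_, sec p', ?_, ?_⟩, ?_⟩
    · rw [wev_append, csd_wev_tw, csd_wev_inl, h5, hu]
      exact SD.eq_wd _
    · rw [h5]
      exact SD.wd_isReduced _
    · rw [h1]
      simp
    · rwa [h6]
    · rw [← List.map_cons]
      exact List.mem_map_of_mem h3
    · rwa [h6]
    · intro t ht
      obtain ⟨x, hx, rfl⟩ := List.mem_map.1 ht
      exact (hsec x).2.trans (((SD.rad_le_iff (hν σ)).1 le_rfl).2 x hx).1
  have hB : CertS X (fun σ => SD.gens (g σ) (b σ)) (fun σ => SD.rad (N σ) (ν σ) (hν σ))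
      (fun n => f (2 * n)) fun σ => {x | ∃ l₁, ∃ p : Z σ × Bool, ∃ l₂,
        SD.wd x = l₁ ++ p :: l₂ ∧ p.1 ∉ Z' σ ∧
        ∃ p' ∈ p :: l₂, p'.1 ∉ Z'' σ} := by
    have key : ∀ σ (w : Wd (𝔄 ⊕ Q)) (y : List (Q × Wd 𝔄 × Bool) × Wd 𝔄),
        (wev (SD.gens (g σ) (b σ)) w =
        wev (SD.gens (g σ) (b σ)) (y.1.flatMap csd_tw ++ wmap Sum.inl y.2) ∧
        FreeGroup.IsReduced (y.1.map (csd_lz (g σ) (b σ))) ∧
        ∃ l₁, ∃ p : Q × Wd 𝔄 × Bool, ∃ l₂, y.1 = l₁ ++ p :: l₂ ∧ wev (g σ) p.2.1 • b σ p.1 ∉ Z' σ ∧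
          ∃ t ∈ p :: l₂, wev (g σ) t.2.1 • b σ t.1 ∉ Z'' σ) →
        ∃ l₁, ∃ p : Z σ × Bool, ∃ l₂, SD.wd (wev (SD.gens (g σ) (b σ)) w) =
          l₁ ++ p :: l₂ ∧ p.1 ∉ Z' σ ∧ ∃ p' ∈ p :: l₂, p'.1 ∉ Z'' σ := by
      rintro σ w y ⟨h1, h2, l₁, p, l₂, h3, h4, t, h5, h6⟩
      refine ⟨l₁.map (csd_lz (g σ) (b σ)), csd_lz (g σ) (b σ) p, l₂.map (csd_lz (g σ) (b σ)), ?_,
        h4, csd_lz (g σ) (b σ) t, ?_, h6⟩
      · rw [hsound σ w y.1 y.2 h1 h2, h3]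
        simp
      · rw [← List.map_cons]
        exact List.mem_map_of_mem h5
    refine (hall.ex (t := fun σ w =>
      f (2 * SD.rad (N σ) (ν σ) (hν σ) (wev (SD.gens (g σ) (b σ)) w))) ?_).congr
      (fun σ w => ⟨?_, ?_⟩) (fun _ _ _ => le_rfl)
    · rintro σ w ⟨y, hy⟩
      obtain ⟨L, u, h1, h2⟩ := hcomp σ w (key σ w y hy)
      refine ⟨(L, u), h1, max_le (Nat.zero_le _) (max_le (hf ?_) ?_)⟩
      · exact Nat.mul_le_mul_left 2 ((csd_foldr_le _ _ _).2 h2)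
      · exact (csd_foldr_le _ _ _).2 fun t ht => hf ((h2 t ht).trans (by omega))
    · rintro ⟨y, hy⟩
      exact key σ w y hy
    · intro h
      obtain ⟨L, u, h1, -⟩ := hcomp σ w h
      exact ⟨(L, u), h1⟩
  refine (hA.union hB).congr fun σ => ?_
  ext x
  rw [Set.mem_compl_iff, SD.notMem_W]
  rfl

end Crest.Agent.R185
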