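import Crest.Agent.R185.Mach2
import Crest.Agent.R185.CertL
import Crest.Agent.R185.CertSD
import Crest.Agent.R185.CertMachAux

/-!
# R185 TASK CertMach: certificates for the machine group
-/

set_option autoImplicit false

namespace Crest.Agent.R185.MM

open scoped Pointwise

variable {Sit E F : Type} [Primcodable E] [Primcodable F] {X : Ctx Sit E F} {k : ℕ} {M : MM k}
  (hM : M.Good) {K : Sit → Type} [∀ σ, Group (K σ)] {κ : ∀ σ, Fin k → K σ}
  {N : ∀ σ, Nrm (K σ)} {f : ℕ → ℕ}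

omit hM in
theorem cm_reg_fst {K : Type} [Group K] (κ : Fin k → K) (w : Wd M.AR) :
    (wev (M.regG κ) w).1 = wev κ (cmGrp w) := cm_fst κ w

omit hM in
theorem cm_reg_snd {K : Type} [Group K] (κ : Fin k → K) (w : Wd M.AR) :
    (wev (M.regG κ) w).2.toAdd = cmVec w := cm_snd κ w

omit hM in
/-- the register fails the test or is not in the coset -/
theorem cm_bad (hf : Monotone f) (hne : CertS X κ N f fun _ => {1}ᶜ) (t : Bool)
    {A : ℕ → Fin M.j → ℤ} (hA : Computable fun p : ℕ × Fin M.j => A p.1 p.2) (m : Fin M.j → ℤ) :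
    Cert X (fun σ (w : Wd M.AR) => ¬ ((t = true → (wev (M.regG (κ σ)) w).1 = 1) ∧
        ∃ n, (wev (M.regG (κ σ)) w).2.toAdd = A (X.c σ) + m * n))
      fun σ w => f (M.regN (N σ) (wev (M.regG (κ σ)) w)) := by
  have h1 := Cert.of_re' (X := X) (re_comp (re_finite fun b : Bool => b = true)
    (Computable.const (α := Wd M.AR) t)) fun _ _ => 0
  have h2 := Cert.comp' hne (cm_grp (k := k) (j := M.j))
  have h3 := Cert.of_re (X := X) (cm_re_lat (k := k) hA m) fun _ _ => 0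
  refine ((h1.and h2).or h3 (t := fun σ w => f (M.regN (N σ) (wev (M.regG (κ σ)) w)))
    fun σ w h => h.imp (fun h => ⟨h, ?_⟩) fun h => ⟨h, Nat.zero_le _⟩).congr (fun σ w => ?_)
    fun _ _ _ => le_rfl
  · refine max_le (Nat.zero_le _) (hf ?_)
    rw [← cm_reg_fst]
    exact Nat.le_add_right _ _
  · rw [cm_reg_fst, cm_reg_snd]
    simp only [Set.mem_compl_iff, Set.mem_singleton_iff]
    tauto

omit hM in
theorem cm_cfg (hf : Monotone f) (hne : CertS X κ N f fun _ => {1}ᶜ) (q : Fin M.nQ) (t : Bool)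
    {A : ℕ → Fin M.j → ℤ} (hA : Computable fun p : ℕ × Fin M.j => A p.1 p.2) (m : Fin M.j → ℤ) :
    Cert X (fun σ (x : Fin M.nQ × Wd M.AR) => ¬ (x.1 = q ∧
        (t = true → (wev (M.regG (κ σ)) x.2).1 = 1) ∧
        ∃ n, (wev (M.regG (κ σ)) x.2).2.toAdd = A (X.c σ) + m * n))
      fun σ x => f (M.regN (N σ) (wev (M.regG (κ σ)) x.2)) := by
  have h1 := Cert.of_re' (X := X) (re_ne (f := fun x : Fin M.nQ × Wd M.AR => x.1) (g := fun _ => q)
    Computable.fst (Computable.const q)) fun _ _ => 0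
  have h2 := (cm_bad hf hne t hA m).comp' (f := fun x : Fin M.nQ × Wd M.AR => x.2) Computable.snd
  refine (h1.or h2 (t := fun σ x => f (M.regN (N σ) (wev (M.regG (κ σ)) x.2)))
    fun σ w h => h.imp (fun h => ⟨h, Nat.zero_le _⟩) fun h => ⟨h, le_rfl⟩).congr (fun σ w => ?_)
    fun _ _ _ => le_rfl
  tauto

omit hM in
theorem cm_mem_ZA {K : Type} [Group K] {c : ℕ} {κ : Fin k → K} {i : Fin M.nR} {z : M.Cfg K} :
    z ∈ M.ZA c κ i ↔ z.1 = M.src i ∧ (M.test i = true → z.2.1 = 1) ∧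
      ∃ n, z.2.2.toAdd = M.a i + M.m i * n := by
  constructor
  · rintro ⟨z', h1, -, h2, -, n, h3, -⟩
    exact ⟨h1, h2, n, h3⟩
  · rintro ⟨h1, h2, n, h3⟩
    exact ⟨(M.dst i, z.2.1 * wev κ (M.mulW i), Multiplicative.ofAdd (M.a' c i + M.m' i * n)),
      h1, rfl, h2, rfl, n, h3, rfl⟩

include hM in
theorem cm_mem_ZB {K : Type} [Group K] {c : ℕ} {κ : Fin k → K} {i : Fin M.nR} {z : M.Cfg K} :
    z ∈ M.ZB c κ i ↔ z.1 = M.dst i ∧ (M.test i = true → z.2.1 = 1) ∧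
      ∃ n, z.2.2.toAdd = M.a' c i + M.m' i * n := by
  have h0 : M.test i = true → wev κ (M.mulW i) = 1 := fun h => by
    simp [mulW, hM.test_mul i h]
  constructor
  · rintro ⟨z', -, h1, h2, h3, n, -, h4⟩
    exact ⟨h1, fun h => by rw [h3, h2 h, h0 h, one_mul], n, h4⟩
  · rintro ⟨h1, h2, n, h3⟩
    exact ⟨(M.src i, z.2.1 * (wev κ (M.mulW i))⁻¹, Multiplicative.ofAdd (M.a i + M.m i * n)),
      rfl, h1, fun h => by simp [h2 h, h0 h], by simp, n, rfl, h3⟩

omit hM in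
theorem cm_eq_acc {K : Type} [Group K] {q : Fin M.nQ} {z : M.Cfg K} :
    z = (q, 1) ↔ z.1 = q ∧ (true = true → z.2.1 = 1) ∧
      ∃ n, z.2.2.toAdd = (0 : Fin M.j → ℤ) + 0 * n := by
  obtain ⟨q', x, ξ⟩ := z
  simp [Prod.ext_iff]

omit hM in
theorem cm_notZA (hf : Monotone f) (hne : CertS X κ N f fun _ => {1}ᶜ) (i : Fin M.nR) :
    Cert X (fun σ (x : Fin M.nQ × Wd M.AR) =>
        ((x.1, wev (M.regG (κ σ)) x.2) : M.Cfg (K σ)) ∉ M.ZA (X.c σ) (κ σ) i)
      fun σ x => f (M.regN (N σ) (wev (M.regG (κ σ)) x.2)) :=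
  (cm_cfg hf hne (M.src i) (M.test i) (A := fun _ => M.a i)
    ((Primrec.dom_finite (M.a i)).to_comp.comp Computable.snd) (M.m i)).congr
    (fun _ _ => by rw [cm_mem_ZA]) fun _ _ _ => le_rfl

include hM in
theorem cm_notZB (hf : Monotone f) (hne : CertS X κ N f fun _ => {1}ᶜ) (i : Fin M.nR) :
    Cert X (fun σ (x : Fin M.nQ × Wd M.AR) =>
        ((x.1, wev (M.regG (κ σ)) x.2) : M.Cfg (K σ)) ∉ M.ZB (X.c σ) (κ σ) i)
      fun σ x => f (M.regN (N σ) (wev (M.regG (κ σ)) x.2)) :=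
  (cm_cfg hf hne (M.dst i) (M.test i) (A := fun c => M.a' c i)
    ((hM.comp.comp (Computable.fst.pair ((Computable.const i).pair Computable.snd))).of_eq
      fun _ => rfl) (M.m' i)).congr
    (fun _ _ => by rw [cm_mem_ZB hM]) fun _ _ _ => le_rfl

include hM in
/-- steps are certified by equations -/
theorem cm_step (hEq : CertEq X κ) :
    Cert X (fun σ (p : (Fin M.nQ × Wd M.AR) × (Fin M.nQ × Wd M.AR)) =>
        M.Step (X.c σ) (κ σ) (p.1.1, wev (M.regG (κ σ)) p.1.2) (p.2.1, wev (M.regG (κ σ)) p.2.2))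
      fun _ _ => 0 := by
  have hw : Computable fun y : ((Fin M.nQ × Wd M.AR) × (Fin M.nQ × Wd M.AR)) × Fin M.nR =>
      y.1.1.2 := Computable.snd.comp (Computable.fst.comp Computable.fst)
  have hw' : Computable fun y : ((Fin M.nQ × Wd M.AR) × (Fin M.nQ × Wd M.AR)) × Fin M.nR =>
      y.1.2.2 := Computable.snd.comp (Computable.snd.comp Computable.fst)
  have h1 := Cert.of_re' (X := X) (re_eq
    (f := fun y : ((Fin M.nQ × Wd M.AR) × (Fin M.nQ × Wd M.AR)) × Fin M.nR => y.1.1.1)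
    (g := fun y => M.src y.2) (Computable.fst.comp (Computable.fst.comp Computable.fst))
    ((Primrec.dom_finite M.src).to_comp.comp Computable.snd)) fun _ _ => 0
  have h2 := Cert.of_re' (X := X) (re_eq
    (f := fun y : ((Fin M.nQ × Wd M.AR) × (Fin M.nQ × Wd M.AR)) × Fin M.nR => y.1.2.1)
    (g := fun y => M.dst y.2) (Computable.fst.comp (Computable.snd.comp Computable.fst))
    ((Primrec.dom_finite M.dst).to_comp.comp Computable.snd)) fun _ _ => 0
  have h3 := Cert.comp' hEq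
    (f := fun y : ((Fin M.nQ × Wd M.AR) × (Fin M.nQ × Wd M.AR)) × Fin M.nR =>
      cond (M.test y.2) (cmGrp y.1.1.2) [])
    (Computable.cond ((Primrec.dom_finite M.test).to_comp.comp Computable.snd) (cm_grp.comp hw)
      (Computable.const []))
  have h4 := hEq.eq₂.comp'
    (f := fun y : ((Fin M.nQ × Wd M.AR) × (Fin M.nQ × Wd M.AR)) × Fin M.nR =>
      (cmGrp y.1.2.2, cmGrp y.1.1.2 ++ M.mulW y.2))
    ((cm_grp.comp hw').pair (Computable.list_append.comp (cm_grp.comp hw)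
      ((Primrec.dom_finite M.mulW).to_comp.comp Computable.snd)))
  have h5 := (Cert.of_re (X := X) (cm_re_step hM) fun _ _ => 0).comp'
    (f := fun y : ((Fin M.nQ × Wd M.AR) × (Fin M.nQ × Wd M.AR)) × Fin M.nR =>
      (y.2, y.1.1.2, y.1.2.2)) (Computable.snd.pair (hw.pair hw'))
  refine ((h1.and (h2.and (h3.and (h4.and h5)))).ex (t := fun _ _ => 0)
    fun σ a ⟨b, hb⟩ => ⟨b, hb, by simp⟩).congr (fun σ p => exists_congr fun i => ?_)
    fun _ _ _ => le_rfl
  simp only [StepI, cm_reg_fst, cm_reg_snd, wev_append]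
  cases M.test i <;> simp

include hM in
theorem cm_det {K : Type} [Group K] {c : ℕ} {κ : Fin k → K} {z z₁ z₂ : M.Cfg K}
    (h₁ : M.Step c κ z z₁) (h₂ : M.Step c κ z z₂) : z₁ = z₂ := by
  obtain ⟨i, a1, a2, -, a4, n, a5, a6⟩ := h₁
  obtain ⟨i', b1, b2, -, b4, n', b5, b6⟩ := h₂
  obtain rfl := hM.det i i' n n' (a1.symm.trans b1) (a5.symm.trans b5)
  refine Prod.ext (a2.trans b2.symm) (Prod.ext (a4.trans b4.symm) ?_)
  apply Multiplicative.toAdd.injective
  rw [a6, b6]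
  funext l
  have h := congrFun (a5.symm.trans b5) l
  simp only [Pi.add_apply, Pi.mul_apply, add_right_inj, mul_eq_mul_left_iff] at h ⊢
  exact h.imp id (hM.zero i l).1

include hM in
theorem cm_acc_step {K : Type} [Group K] {c : ℕ} {κ : Fin k → K} {z z' : M.Cfg K}
    (h : M.Step c κ z z') : z ∈ M.Acc c κ ↔ z' ∈ M.Acc c κ := by
  refine ⟨fun hz => ?_, fun hz => Relation.ReflTransGen.head h hz⟩
  rcases Relation.ReflTransGen.cases_head hz with rfl | ⟨z'', h1, h2⟩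
  · obtain ⟨i, h1, -⟩ := h
    exact absurd h1.symm (hM.acc i)
  · rwa [cm_det hM h h1]

include hM in
theorem cm_step_le {K : Type} [Group K] {c : ℕ} {κ : Fin k → K} {N : Nrm K}
    (hκ : ∀ y, N (κ y) ≤ 1) {z z' : M.Cfg K} (h : M.Step c κ z z') :
    M.regN N z'.2 ≤ M.regN N z.2 := by
  obtain ⟨i, -, -, -, h1, h2⟩ := h
  have h3 := hM.lam_step c i _ _ h2
  have h4 := N.wev_le κ hκ (M.mulW i)
  have h5 := N.mul z.2.1 (wev κ (M.mulW i))
  show N z'.2.1 + M.lam _ ≤ N z.2.1 + M.lam _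
  rw [h1]
  omega

omit hM in
theorem cm_step_word {K : Type} [Group K] {c : ℕ} {κ : Fin k → K} {q : Fin M.nQ} {w : Wd M.AR}
    {z' : M.Cfg K} (h : M.Step c κ (q, wev (M.regG κ) w) z') :
    ∃ w', z'.2 = wev (M.regG κ) w' := by
  obtain ⟨i, -, -, -, h1, -⟩ := h
  obtain ⟨u, hu⟩ := (zGens_gens M.j).exists_wev ((wev (M.regG κ) w).2⁻¹ * z'.2.2)
  refine ⟨w ++ (wmap Sum.inl (M.mulW i) ++ wmap Sum.inr u), ?_⟩
  have e1 : wev (M.regG κ) (wmap Sum.inl (M.mulW i)) = (wev κ (M.mulW i), 1) := by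
    rw [wev_wmap]
    exact (map_wev (MonoidHom.inl K (Multiplicative (Fin M.j → ℤ))) κ _).symm
  have e2 : wev (M.regG κ) (wmap Sum.inr u) = (1, wev (zGens M.j) u) := by
    rw [wev_wmap]
    exact (map_wev (MonoidHom.inr K (Multiplicative (Fin M.j → ℤ))) _ _).symm
  rw [wev_append, wev_append, e1, e2, hu]
  exact Prod.ext (by simpa using h1) (by simp)

include hM in
/-- Non-accepted configurations.  A word over `AR` is split computably into a word over `Fin k`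
and an integer vector (code vectors as lists or use `Primcodable (Fin j → ℤ)`).  Certificate: the
whole forward run (finite by `Good.term`) as a list of triples (state, word, vector) with the rules
applied (`NStep` is r.e. in `c` by `Good.comp`; a `test` is an equation, `hEq`), ending in a
configuration which is different from `(acc, 1)` (state `≠ acc`, vector `≠ 0` or word `≠ 1`) and to
which no rule applies (for every rule: wrong state, vector not in `a i + m i * ℤ^j`, or `test i`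
and word `≠ 1`).  By `lam_step` the quantity `regN` does not increase along the run.  Soundness by
forward determinism. -/
theorem cert_notAcc (hf : Monotone f) (hκ : ∀ σ y, N σ (κ σ y) ≤ 1) (hEq : CertEq X κ)
    (hne : CertS X κ N f fun _ => {1}ᶜ) :
    Cert X (fun σ (x : Fin M.nQ × Wd M.AR) =>
        ((x.1, wev (M.regG (κ σ)) x.2) : M.Cfg (K σ)) ∉ M.Acc (X.c σ) (κ σ))
      fun σ x => f (M.regN (N σ) (wev (M.regG (κ σ)) x.2)) := by
  have h1 := cm_rtg (cm_step hM hEq)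
  have h2 := (cm_cfg hf hne M.acc true (A := fun _ => 0) (Computable.const 0) 0).comp'
    (f := fun y : (Fin M.nQ × Wd M.AR) × (Fin M.nQ × Wd M.AR) => y.2) Computable.snd
  have h3 := (((Cert.finite_index (cm_notZA (M := M) hf hne)).comp'
    (f := fun y : (Fin M.nQ × Wd M.AR) × Fin M.nR => (y.2, y.1))
    (Computable.snd.pair Computable.fst)).forall_fin
    (t := fun σ x => f (M.regN (N σ) (wev (M.regG (κ σ)) x.2))) fun _ _ _ => le_rfl).comp'
    (f := fun y : (Fin M.nQ × Wd M.AR) × (Fin M.nQ × Wd M.AR) => y.2) Computable.snd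
  obtain ⟨μ, hμ⟩ := hM.term
  have key : ∀ σ (n : ℕ) (x : Fin M.nQ × Wd M.AR), μ (wev (M.regG (κ σ)) x.2).2.toAdd = n →
      ((x.1, wev (M.regG (κ σ)) x.2) : M.Cfg (K σ)) ∉ M.Acc (X.c σ) (κ σ) →
      ∃ y : Fin M.nQ × Wd M.AR, Relation.ReflTransGen (fun a b : Fin M.nQ × Wd M.AR =>
        M.Step (X.c σ) (κ σ) (a.1, wev (M.regG (κ σ)) a.2) (b.1, wev (M.regG (κ σ)) b.2)) x y ∧
        ((y.1, wev (M.regG (κ σ)) y.2) : M.Cfg (K σ)) ≠ (M.acc, 1) ∧
        (∀ i, ((y.1, wev (M.regG (κ σ)) y.2) : M.Cfg (K σ)) ∉ M.ZA (X.c σ) (κ σ) i) ∧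
        M.regN (N σ) (wev (M.regG (κ σ)) y.2) ≤ M.regN (N σ) (wev (M.regG (κ σ)) x.2) := by
    intro σ n
    induction n using Nat.strong_induction_on with
    | _ n ih =>
    intro x hn hx
    by_cases h : ∃ i, ((x.1, wev (M.regG (κ σ)) x.2) : M.Cfg (K σ)) ∈ M.ZA (X.c σ) (κ σ) i
    · obtain ⟨i, ⟨q', r'⟩, hi⟩ := h
      obtain ⟨w', rfl⟩ := cm_step_word ⟨i, hi⟩
      obtain ⟨y, a1, a2, a3, a4⟩ := ih _ (hn ▸ hμ _ _ _ _ hi.2.2.2.2) (q', w') rfl
        fun h' => hx ((cm_acc_step hM ⟨i, hi⟩).2 h')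
      exact ⟨y, Relation.ReflTransGen.head ⟨i, hi⟩ a1, a2, a3,
        a4.trans (cm_step_le hM (hκ σ) ⟨i, hi⟩)⟩
    · exact ⟨x, Relation.ReflTransGen.refl, fun e => hx (e ▸ Relation.ReflTransGen.refl),
        not_exists.1 h, le_rfl⟩
  have sound : ∀ σ (x y : Fin M.nQ × Wd M.AR),
      Relation.ReflTransGen (fun a b : Fin M.nQ × Wd M.AR =>
        M.Step (X.c σ) (κ σ) (a.1, wev (M.regG (κ σ)) a.2) (b.1, wev (M.regG (κ σ)) b.2)) x y →
      ((y.1, wev (M.regG (κ σ)) y.2) : M.Cfg (K σ)) ≠ (M.acc, 1) →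
      (∀ i, ((y.1, wev (M.regG (κ σ)) y.2) : M.Cfg (K σ)) ∉ M.ZA (X.c σ) (κ σ) i) →
      ((x.1, wev (M.regG (κ σ)) x.2) : M.Cfg (K σ)) ∉ M.Acc (X.c σ) (κ σ) := by
    intro σ x y a1 a2 a3
    induction a1 using Relation.ReflTransGen.head_induction_on with
    | refl =>
      intro hz
      rcases Relation.ReflTransGen.cases_head hz with e | ⟨z'', ⟨i, h1⟩, -⟩
      · exact a2 e
      · exact a3 i ⟨z'', h1⟩
    | head h _ ih => rwa [cm_acc_step hM h]
  refine ((h1.and (h2.and h3)).ex (t := fun σ x => f (M.regN (N σ) (wev (M.regG (κ σ)) x.2)))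
    fun σ x ⟨y, a1, a2, a3⟩ => ?_).congr (fun σ x => ⟨fun ⟨y, a1, a2, a3⟩ => ?_, fun h => ?_⟩)
    fun _ _ _ => le_rfl
  · obtain ⟨y', b1, b2, b3, b4⟩ := key σ _ x rfl (sound σ x y a1 (mt cm_eq_acc.1 a2) a3)
    exact ⟨y', ⟨b1, fun e => b2 (cm_eq_acc.2 e), b3⟩, max_le (Nat.zero_le _) (max_le (hf b4) (hf b4))⟩
  · exact sound σ x y a1 (mt cm_eq_acc.1 a2) a3
  · obtain ⟨y', b1, b2, b3, -⟩ := key σ _ x rfl h
    exact ⟨y', b1, fun e => b2 (cm_eq_acc.2 e), b3⟩

omit hM in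
/-- `certS_SD` for `G0` -/
theorem cm_W (hf : Monotone f) (hg : ∀ σ, Gens (κ σ)) (hEq : CertEq X fun σ => M.g0G (κ σ))
    (hne : CertS X κ N f fun _ => {1}ᶜ) {Z' Z'' : ∀ σ, Set (M.Cfg (K σ))}
    {R' : ∀ σ, Subgroup (M.Reg (K σ))}
    (h' : Cert X (fun σ (x : Fin M.nQ × Wd M.AR) =>
        ((x.1, wev (M.regG (κ σ)) x.2) : M.Cfg (K σ)) ∉ Z' σ)
      fun σ x => f (M.regN (N σ) (wev (M.regG (κ σ)) x.2)))
    (h'' : Cert X (fun σ (x : Fin M.nQ × Wd M.AR) =>
        ((x.1, wev (M.regG (κ σ)) x.2) : M.Cfg (K σ)) ∉ Z'' σ)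
      fun σ x => f (M.regN (N σ) (wev (M.regG (κ σ)) x.2)))
    (hR : CertS X (fun σ => M.regG (κ σ)) (fun σ => M.regN (N σ)) f
      fun σ => (R' σ : Set (M.Reg (K σ)))ᶜ) :
    CertS X (fun σ => M.g0G (κ σ)) (fun σ => M.g0N (N σ)) (fun n => f (2 * n))
      fun σ => (SD.W (Z' σ) (Z'' σ) (R' σ))ᶜ := by
  refine certS_SD (g := fun σ => M.regG (κ σ)) (N := fun σ => M.regN (N σ))
    (b := fun σ q => ((q, 1) : M.Cfg (K σ))) (C := fun _ _ => ⊥) hf (fun σ => regG_gens (hg σ))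
    (fun _ => based_g0) (fun σ => M.sz_cfg (N σ))
    (fun σ z => ⟨z.1, z.2, by simp, le_rfl⟩) hEq ?_ (h'.congr (by simp) fun _ _ _ => le_rfl)
    (h''.congr (by simp) fun _ _ _ => le_rfl) hR
  refine ((cm_bad (M := M) hf hne true (A := fun _ => 0) (Computable.const 0) 0).comp'
    (f := fun x : Fin M.nQ × Wd M.AR => x.2) Computable.snd).congr (fun σ x => ?_)
    fun _ _ _ => le_rfl
  simp [Prod.ext_iff]

omit hM in
theorem cm_lat (hf : Monotone f) (hne : CertS X κ N f fun _ => {1}ᶜ) (t : Bool)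
    (m : Fin M.j → ℤ) :
    CertS X (fun σ => M.regG (κ σ)) (fun σ => M.regN (N σ)) f fun σ =>
      (((if t then ⊥ else ⊤ : Subgroup (K σ)).prod (lat m) : Subgroup (M.Reg (K σ))) :
        Set (M.Reg (K σ)))ᶜ := by
  refine (cm_bad (M := M) hf hne t (A := fun _ => 0) (Computable.const 0) m).congr
    (fun σ x => ?_) fun _ _ _ => le_rfl
  simp only [Set.mem_compl_iff, SetLike.mem_coe, Subgroup.mem_prod, zero_add]
  cases t <;> simp [lat, ← SetLike.mem_coe]

/-- `certS_SD` for the sets `W Z' Z'' R'` with `Z' ∈ {∅, Acc}` and `(Z'', R')` one of `(∅, ⊥)`,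
`(ZA i, RA i)`, `(ZB i, RB i)`, `({z | z.1 = inp true}, ⊤)`; then `certS_MH` (`Q = TA`, `I = univ`;
membership in `TA` is membership of the image in `Bsub`, `certS_closure` with `B_eq`) and
`certS_MH_base`. -/
theorem certS_mach (hf : Monotone f) (hg : ∀ σ, Gens (κ σ)) (hκ : ∀ σ y, N σ (κ σ y) ≤ 1)
    (hEq : CertEq X fun σ => machG hM (X.c σ) (κ σ)) (hne : CertS X κ N f fun _ => {1}ᶜ) :
    (CertS X (fun σ => machG hM (X.c σ) (κ σ)) (fun σ => machN hM (X.c σ) (κ σ) (N σ))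
      (fun n => f (4 * n)) fun _ => {1}ᶜ) ∧
    (CertS X (fun σ => machG hM (X.c σ) (κ σ)) (fun σ => machN hM (X.c σ) (κ σ) (N σ))
      (fun n => f (4 * n)) fun σ => ((incM hM (X.c σ) (κ σ)).range : Set _)ᶜ) ∧
    (CertS X (fun σ => machG hM (X.c σ) (κ σ)) (fun σ => machN hM (X.c σ) (κ σ) (N σ))
      (fun n => f (4 * n)) fun σ => (Bsub hM (X.c σ) (κ σ) : Set _)ᶜ) ∧
    (CertS X (fun σ => machG hM (X.c σ) (κ σ)) (fun σ => machN hM (X.c σ) (κ σ) (N σ))
      (fun n => f (4 * n)) fun σ => ((Bsub hM (X.c σ) (κ σ) : Set (Mach hM (X.c σ) (κ σ))) *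
        ((incM hM (X.c σ) (κ σ)).range : Set _))ᶜ) ∧
    Cert X (fun σ (w : Wd M.AM) => wev (machG hM (X.c σ) (κ σ)) w ∈ Bsub hM (X.c σ) (κ σ))
      fun _ _ => 0 := by
  have hEq0 : CertEq X fun σ => M.g0G (κ σ) := CertEq.mh_base hEq
  have hEqR : CertEq X fun σ => M.regG (κ σ) := CertEq.sd_base hEq0
  have hEqκ : CertEq X κ := CertEq.prod_fst hEqR
  have hf2 : Monotone fun n => f (2 * n) := fun _ _ h => hf (Nat.mul_le_mul_left 2 h)
  have h4 : ∀ n, f (2 * (2 * n)) ≤ f (4 * n) := fun n => hf (by omega)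
  have hacc := cert_notAcc hM hf hκ hEqκ hne
  have hemp : Cert X (fun σ (x : Fin M.nQ × Wd M.AR) =>
      ((x.1, wev (M.regG (κ σ)) x.2) : M.Cfg (K σ)) ∉ (∅ : Set (M.Cfg (K σ))))
      fun σ x => f (M.regN (N σ) (wev (M.regG (κ σ)) x.2)) :=
    (Cert.of_re' (re_eq (Computable.const ()) (Computable.const ())) _).congr (by simp)
      fun _ _ _ => le_rfl
  have hinp : Cert X (fun σ (x : Fin M.nQ × Wd M.AR) =>
      ((x.1, wev (M.regG (κ σ)) x.2) : M.Cfg (K σ)) ∉ {z : M.Cfg (K σ) | z.1 = M.inp true})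
      fun σ x => f (M.regN (N σ) (wev (M.regG (κ σ)) x.2)) :=
    Cert.of_re' (re_ne Computable.fst (Computable.const _)) _
  have hbot : CertS X (fun σ => M.regG (κ σ)) (fun σ => M.regN (N σ)) f
      fun σ => ((⊥ : Subgroup (M.Reg (K σ))) : Set (M.Reg (K σ)))ᶜ :=
    (cm_bad (M := M) hf hne true (A := fun _ => 0) (Computable.const 0) 0).congr
      (by simp [Prod.ext_iff]) fun _ _ _ => le_rfl
  have htop : CertS X (fun σ => M.regG (κ σ)) (fun σ => M.regN (N σ)) f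
      fun σ => ((⊤ : Subgroup (M.Reg (K σ))) : Set (M.Reg (K σ)))ᶜ :=
    CertS.empty.congr (by simp)
  have hinv : ∀ σ, SD.Inv {z : M.Cfg (K σ) | z.1 = M.inp true} (⊤ : Subgroup (M.Reg (K σ))) :=
    fun _ _ _ _ h => h
  have hg0 : ∀ σ, Gens (M.g0G (κ σ)) := fun σ => g0G_gens (hg σ)
  have hL := fun σ => lip hM (X.c σ) (hκ σ)
  have hdom : ∀ l, CertS X (fun σ => M.g0G (κ σ)) (fun σ => M.g0N (N σ)) (fun n => f (2 * n))
      fun σ => ((hd hM (X.c σ) (κ σ)).dom l : Set (M.G0 (K σ)))ᶜ := by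
    rintro ⟨i, _ | _⟩
    · exact (cm_W hf hg hEq0 hne hemp (cm_notZB hM hf hne i) (cm_lat hf hne _ _)).congr
        fun σ => congrArg compl (SD.W_empty_left (inv_ZB _ _ i))
    · exact (cm_W hf hg hEq0 hne hemp (cm_notZA hf hne i) (cm_lat hf hne _ _)).congr
        fun σ => congrArg compl (SD.W_empty_left (inv_ZA _ _ i))
  have hQdom : ∀ l : Fin M.nR × Bool, l.1 ∈ (Set.univ : Set (Fin M.nR)) →
      CertS X (fun σ => M.g0G (κ σ)) (fun σ => M.g0N (N σ)) (fun n => f (2 * n))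
      fun σ => ((M.TA (X.c σ) (κ σ) : Set (M.G0 (K σ))) *
        ((hd hM (X.c σ) (κ σ)).dom l : Set (M.G0 (K σ))))ᶜ := by
    rintro ⟨i, _ | _⟩ -
    · exact (cm_W hf hg hEq0 hne hacc (cm_notZB hM hf hne i) (cm_lat hf hne _ _)).congr
        fun σ => congrArg compl (SD.sub_bot_mul_sub (inv_ZB _ _ i)).symm
    · exact (cm_W hf hg hEq0 hne hacc (cm_notZA hf hne i) (cm_lat hf hne _ _)).congr
        fun σ => congrArg compl (SD.sub_bot_mul_sub (inv_ZA _ _ i)).symm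
  have hB : ∀ (N' : ∀ σ, Nrm (Mach hM (X.c σ) (κ σ))) (D : ℕ → ℕ),
      CertS X (fun σ => machG hM (X.c σ) (κ σ)) N' D fun σ => (Bsub hM (X.c σ) (κ σ) : Set _) :=
    fun N' D => (certS_closure hEq (Computable.const M.bW)).congr fun σ => by rw [B_eq]
  have hQ : CertS X (fun σ => M.g0G (κ σ)) (fun σ => M.g0N (N σ)) (fun n => f (2 * n))
      fun σ => (M.TA (X.c σ) (κ σ) : Set (M.G0 (K σ))) :=
    ((hB (fun _ => Nrm.zero _) fun _ => 0).comap (fun σ => (hd hM (X.c σ) (κ σ)).of)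
      (s := fun _ a => [(Sum.inl a, true)])
      (Primrec.list_cons.comp ((Primrec.sumInl.comp Primrec.snd).pair (Primrec.const true))
        (Primrec.const [])).to_comp (fun σ a => by rw [wev_single_true]; rfl)
      fun _ _ => Nat.zero_le _).congr fun σ => by
        ext g
        exact HD.of_mem_gen _ (good_TA hM _ _)
  have hrange : ∀ σ, (hd hM (X.c σ) (κ σ)).of ''
      ((SD.sub {z : M.Cfg (K σ) | z.1 = M.inp true} ⊤ : Subgroup (M.G0 (K σ))) :
        Set (M.G0 (K σ))) =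
      ((incM hM (X.c σ) (κ σ)).range : Set _) := fun σ => by
    rw [← range_inc, incM, MonoidHom.coe_range, MonoidHom.coe_range, MonoidHom.coe_comp,
      Set.range_comp]
  refine ⟨?_, ?_, ?_, ?_, hB (fun _ => Nrm.zero _) fun _ => 0⟩
  · refine ((certS_MH_base (T := fun _ => {1}) hf2 hg0 hL hEq hdom
      ((cm_W hf hg hEq0 hne hemp hemp hbot).congr fun σ => by rw [SD.W_empty])).mono h4).congr
      fun σ => by simp
  · refine ((certS_MH_base hf2 hg0 hL hEq hdom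
      ((cm_W hf hg hEq0 hne hemp hinp htop).congr
        fun σ => congrArg compl (SD.W_empty_left (hinv σ)))).mono h4).congr
      fun σ => by rw [hrange]
  · refine ((certS_MH (T := fun _ => {1}) hf2 hg0 hL (fun σ => good_TA hM _ _)
      (fun σ => decCtl hM _) hEq hdom hQ hQdom
      ((cm_W hf hg hEq0 hne hacc hemp hbot).congr fun σ => ?_)).mono h4).congr
      fun σ => ?_
    · rw [SD.W_empty_right]
      simp [TA]
    · simp [Bsub]
  · refine ((certS_MH hf2 hg0 hL (fun σ => good_TA hM _ _)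
      (fun σ => decCtl hM _) hEq hdom hQ hQdom
      ((cm_W hf hg hEq0 hne hacc hinp htop).congr
        fun σ => congrArg compl (SD.sub_bot_mul_sub (hinv σ)).symm)).mono h4).congr
      fun σ => by rw [hrange]; rfl

end Crest.Agent.R185.MM
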