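import Crest.Agent.R185.SD1
import Crest.Agent.R185.RE

/-!
# R185 TASK Cmp: the free basis `z_i = f₀^i f₁^C f₀^{-i}`, computability in free groups
-/

set_option autoImplicit false

namespace Crest.Agent.R185

/-- the word `f₀^i f₁^C f₀^{-i}` -/
def zw (C i : ℕ) : Wd (Fin 2) :=
  List.replicate i (0, true) ++ List.replicate C (1, true) ++ List.replicate i (0, false)

/-- `a ↦ z_{encode a}` -/
def zs (𝔄 : Type) [Encodable 𝔄] (C : ℕ) : FreeGroup 𝔄 →* FreeGroup (Fin 2) :=
  FreeGroup.lift fun a => FreeGroup.mk (zw C (Encodable.encode a))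

instance : MulAction (Multiplicative ℤ) ℤ where
  smul r z := r.toAdd + z
  one_smul z := zero_add z
  mul_smul r s z := add_assoc r.toAdd s.toAdd z

/-- `F(f₀, f₁) → F(ℤ) ⋊ ℤ`, `f₀ ↦ reg 1`, `f₁ ↦ lt 0` -/
def toSD : FreeGroup (Fin 2) →* SD (Multiplicative ℤ) ℤ :=
  FreeGroup.lift ![SD.reg (Multiplicative.ofAdd 1), SD.lt 0]

theorem cmp_act {R Z : Type} [Group R] [MulAction R Z] [DecidableEq Z] (r : R) (x : FreeGroup Z) :
    (sdAct R Z r x).norm ≤ x.norm := by
  have h : sdAct R Z r x = FreeGroup.map (MulAction.toPerm r) (FreeGroup.mk x.toWord) := by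
    rw [FreeGroup.mk_toWord]
    rfl
  rw [h, FreeGroup.map.mk]
  exact FreeGroup.norm_mk_le.trans (List.length_map _).le

theorem cmp_wd_mul {R Z : Type} [Group R] [MulAction R Z] (x y : SD R Z) :
    (SD.wd (x * y)).length ≤ (SD.wd x).length + (SD.wd y).length := by
  classical
  exact (FreeGroup.norm_mul_le _ _).trans (Nat.add_le_add_left (cmp_act _ _) _)

theorem cmp_wd_inv {R Z : Type} [Group R] [MulAction R Z] (x : SD R Z) :
    (SD.wd x⁻¹).length ≤ (SD.wd x).length := by
  classical
  exact (cmp_act _ _).trans FreeGroup.norm_inv_eq.le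

/-- the `f₁`-length: length of the reduced word of the `F(ℤ)`-part -/
noncomputable def n1 : Nrm (FreeGroup (Fin 2)) where
  f x := (SD.wd (toSD x)).length
  one := by rw [map_one]; rfl
  mul x y := by rw [map_mul]; exact cmp_wd_mul _ _
  inv x := by
    rw [map_inv]
    exact le_antisymm (cmp_wd_inv _) (by simpa only [inv_inv] using cmp_wd_inv (toSD x)⁻¹)

theorem cmp_toSD_zero : toSD (FreeGroup.of 0) = SD.reg (Multiplicative.ofAdd 1) :=
  FreeGroup.lift_apply_of

theorem cmp_toSD_one : toSD (FreeGroup.of 1) = SD.lt 0 := FreeGroup.lift_apply_of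

theorem n1_zero : n1 (FreeGroup.of 0) = 0 := by
  change (SD.wd (toSD _)).length = 0
  rw [cmp_toSD_zero]
  rfl

theorem n1_one : n1 (FreeGroup.of 1) = 1 := by
  change (SD.wd (toSD _)).length = 1
  rw [cmp_toSD_one]
  rfl

theorem cmp_mk_true {α : Type} (a : α) (n : ℕ) :
    FreeGroup.mk (List.replicate n (a, true)) = FreeGroup.of a ^ n := by
  classical
  rw [← FreeGroup.toWord_of_pow, FreeGroup.mk_toWord]

theorem cmp_mk_false {α : Type} (a : α) (n : ℕ) :
    FreeGroup.mk (List.replicate n (a, false)) = (FreeGroup.of a ^ n)⁻¹ := by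
  rw [← cmp_mk_true, FreeGroup.inv_mk]
  simp [FreeGroup.invRev]

theorem cmp_toSD_zw (C i : ℕ) : toSD (FreeGroup.mk (zw C i)) = SD.lt (i : ℤ) ^ C := by
  rw [zw, ← FreeGroup.mul_mk, ← FreeGroup.mul_mk, cmp_mk_true, cmp_mk_true, cmp_mk_false, map_mul,
    map_mul, map_inv, map_pow, map_pow, cmp_toSD_zero, cmp_toSD_one, ← map_pow, ← conj_pow,
    SD.reg_mul_lt]
  congr 2
  change Multiplicative.toAdd (Multiplicative.ofAdd (1 : ℤ) ^ i) + 0 = _
  simp

theorem cmp_rep {α : Type} {y : α × Bool} {l : List (α × Bool)} (h : FreeGroup.IsReduced (y :: l))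
    (n : ℕ) : FreeGroup.IsReduced (y :: (List.replicate n y ++ l)) := by
  induction n with
  | zero => exact h
  | succ n ih => exact FreeGroup.isReduced_cons_cons.2 ⟨fun _ => rfl, ih⟩

theorem cmp_red {α β : Type} {e : α → β} (he : Function.Injective e) (C : ℕ) {L : List (α × Bool)}
    (h : FreeGroup.IsReduced L) :
    FreeGroup.IsReduced (L.flatMap fun p => List.replicate C (e p.1, p.2)) := by
  cases C with
  | zero => rw [List.flatMap_eq_nil_iff.2 fun _ _ => List.replicate_zero]; exact .nil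
  | succ C =>
    have key : ∀ (L : List (α × Bool)) (a : α × Bool), FreeGroup.IsReduced (a :: L) →
        FreeGroup.IsReduced ((e a.1, a.2) :: L.flatMap fun p => List.replicate (C + 1) (e p.1, p.2)) := by
      intro L
      induction L with
      | nil => simp
      | cons b L ih =>
        intro a ha
        obtain ⟨h1, h2⟩ := FreeGroup.isReduced_cons_cons.1 ha
        exact FreeGroup.isReduced_cons_cons.2 ⟨fun h3 => h1 (he h3), cmp_rep (ih b h2) C⟩
    cases L with
    | nil => simp
    | cons a L => exact cmp_rep (key L a h) C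

theorem cmp_lift {α β : Type} (e : α → β) (C : ℕ) (L : List (α × Bool)) :
    FreeGroup.lift (fun a => FreeGroup.of (e a) ^ C) (FreeGroup.mk L) =
      FreeGroup.mk (L.flatMap fun p => List.replicate C (e p.1, p.2)) := by
  induction L with
  | nil => rfl
  | cons p L ih =>
    rw [List.flatMap_cons, ← FreeGroup.mul_mk, ← ih, FreeGroup.lift_mk, FreeGroup.lift_mk,
      List.map_cons, List.prod_cons]
    obtain ⟨a, b⟩ := p
    cases b
    · rw [cmp_mk_false]; rfl
    · rw [cmp_mk_true]; rfl

open Classical in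
/-- `toSD (z_i) = (lt i)^C`, so a reduced word of length `n` goes to a reduced word of length
`C * n`. -/
theorem n1_zs {𝔄 : Type} [Encodable 𝔄] (C : ℕ) (u : FreeGroup 𝔄) :
    n1 (zs 𝔄 C u) = C * u.toWord.length := by
  have h : toSD.comp (zs 𝔄 C) = SemidirectProduct.inl.comp
      (FreeGroup.lift fun a => FreeGroup.of ((Encodable.encode a : ℕ) : ℤ) ^ C) := by
    refine FreeGroup.ext_hom _ _ fun a => ?_
    rw [MonoidHom.comp_apply, MonoidHom.comp_apply, zs, FreeGroup.lift_apply_of,
      FreeGroup.lift_apply_of, cmp_toSD_zw, map_pow]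
    rfl
  have h1 := DFunLike.congr_fun h u
  rw [MonoidHom.comp_apply, MonoidHom.comp_apply] at h1
  change (SD.wd (toSD _)).length = _
  rw [h1, SD.wd, SemidirectProduct.left_inl]
  conv_lhs => rw [← u.mk_toWord]
  have h2 := cmp_red (e := fun a : 𝔄 => ((Encodable.encode a : ℕ) : ℤ))
    (fun a b hab => Encodable.encode_injective (Int.ofNat_inj.1 hab)) C
    (FreeGroup.isReduced_toWord (x := u))
  rw [cmp_lift, @FreeGroup.toWord_mk _ _ (_), @FreeGroup.IsReduced.reduce_eq _ _ (_) h2]
  simp [List.length_flatMap, mul_comm]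

theorem zs_injective {𝔄 : Type} [Encodable 𝔄] {C : ℕ} (hC : 0 < C) :
    Function.Injective (zs 𝔄 C) := by
  classical
  refine (injective_iff_map_eq_one _).2 fun u hu => ?_
  have h := n1_zs C u
  rw [hu, n1.one] at h
  exact FreeGroup.toWord_eq_nil_iff.1
    (List.length_eq_zero_iff.1 ((Nat.mul_eq_zero.1 h.symm).resolve_left hC.ne'))

theorem cmp_wev_of {α : Type} (w : Wd α) : wev FreeGroup.of w = FreeGroup.mk w :=
  FreeGroup.lift_of_apply _

theorem cmp_words {α : Type} {A : List α} (hA : ∀ a, a ∈ A) (u : List α) (n : ℕ)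
    (h : u.length ≤ n) :
    u ∈ (fun l : List (List α) => [] :: A.flatMap fun a => l.map (a :: ·))^[n] [[]] := by
  induction n generalizing u with
  | zero => simpa using h
  | succ n ih =>
    rw [Function.iterate_succ_apply']
    cases u with
    | nil => exact List.mem_cons_self
    | cons a u =>
      exact List.mem_cons_of_mem _ (List.mem_flatMap.2 ⟨a, hA a,
        List.mem_map_of_mem (ih u (Nat.le_of_succ_le_succ h))⟩)

/-- non-membership in the range of `zs` is r.e. (even decidable): `mk w ∉ range` iff no word `u` of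
length `≤ w.length` over the finite alphabet has `zs (mk u) = mk w` (`n1_zs`, `Nrm.wev_le`). -/
theorem re_notMem_zs {𝔄 : Type} [Primcodable 𝔄] [Finite 𝔄] {C : ℕ} (hC : 0 < C) :
    REPred fun w : Wd (Fin 2) => FreeGroup.mk w ∉ (zs 𝔄 C).range := by
  classical
  obtain ⟨A, hA⟩ : ∃ A : List (𝔄 × Bool), ∀ a, a ∈ A :=
    have := Fintype.ofFinite 𝔄
    ⟨Finset.univ.toList, fun a => by simp⟩
  have h1 : Primrec fun w : Wd (Fin 2) =>
      (fun l : List (Wd 𝔄) => [] :: A.flatMap fun a => l.map (a :: ·))^[w.length] [[]] :=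
    Primrec.nat_iterate (h := fun _ l => [] :: A.flatMap fun a => l.map (a :: ·))
      Primrec.list_length (Primrec.const _)
      (Primrec.list_cons.comp (Primrec.const _) (Primrec.list_flatMap (Primrec.const _)
        (Primrec.list_map (Primrec.snd.comp Primrec.fst)
          (Primrec.list_cons.comp (Primrec.snd.comp Primrec.fst) Primrec.snd).to₂).to₂)).to₂
  have h2 : Computable fun x : Wd (Fin 2) × Wd 𝔄 =>
      wsub (fun a : 𝔄 => zw C (Encodable.encode a)) x.2 ++ winv x.1 :=
    Computable.list_append.comp (computable_wsub (s := fun _ a => zw C (Encodable.encode a))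
      ((Primrec.dom_finite fun a : 𝔄 => zw C (Encodable.encode a)).to_comp.comp Computable.snd))
      (primrec_winv.to_comp.comp Computable.fst)
  have h3 := re_comp (re_forall_list (re_comp computable_free_eq.not.to_re h2))
    (Computable.id.pair h1.to_comp)
  have h4 : ∀ (w : Wd (Fin 2)) (u : Wd 𝔄),
      FreeGroup.mk (wsub (fun a : 𝔄 => zw C (Encodable.encode a)) u ++ winv w) = 1 ↔
        zs 𝔄 C (FreeGroup.mk u) = FreeGroup.mk w := fun w u => by
    rw [← cmp_wev_of, wev_append, wev_winv, wev_wsub, mul_inv_eq_one, cmp_wev_of]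
    simp only [cmp_wev_of]
    rfl
  refine h3.of_eq fun w => ⟨fun h ⟨u, hu⟩ => ?_, fun h u _ hu => h ⟨_, (h4 w u).1 hu⟩⟩
  refine h u.toWord (cmp_words hA _ _ ?_) ((h4 w _).2 (by rwa [FreeGroup.mk_toWord]))
  have h5 := n1.wev_le FreeGroup.of (b := 1) (Fin.forall_fin_two.2 ⟨by simp [n1_zero], n1_one.le⟩) w
  rw [cmp_wev_of, ← hu, n1_zs, one_mul] at h5
  exact (Nat.le_mul_of_pos_left _ hC).trans (by convert h5)

end Crest.Agent.R185
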