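import Crest.Agent.R185.MachDef
import Crest.Agent.R185.CertL
import Crest.Agent.R185.Cmp

/-!
# R185 TASK CmpL: the compression layer `q⁻¹ (1, z_a) q = (g a, z_a)`
-/

set_option autoImplicit false

namespace Crest.Agent.R185

theorem cmpL_wev_of {𝔄 : Type} (w : Wd 𝔄) : wev FreeGroup.of w = FreeGroup.mk w := by
  rw [wev, FreeGroup.lift_of_eq_id]; rfl

theorem cmpL_wev_replicate {𝔄 G : Type} [Group G] (g : 𝔄 → G) (n : ℕ) (p : 𝔄 × Bool) :
    wev g (List.replicate n p) = wev g [p] ^ n := by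
  induction n with
  | zero => simp
  | succ n ih => rw [List.replicate_succ', wev_append, ih, pow_succ]

theorem cmpL_primrec_zw (C : ℕ) : Primrec (zw C) := by
  have h : ∀ p : Fin 2 × Bool, Primrec fun i => List.replicate i p := fun p =>
    (Primrec.list_map Primrec.list_range (Primrec.const p).to₂).of_eq fun i => by simp
  exact Primrec.list_append.comp (Primrec.list_append.comp (h _) (Primrec.const _)) (h _)

namespace Cp

variable {G 𝔄 : Type} [Group G] [Primcodable 𝔄] (g : 𝔄 → G) {C : ℕ} (hC : 0 < C)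

include hC in
theorem inj (α : FreeGroup 𝔄 →* G) : Function.Injective (α.prod (zs 𝔄 C)) :=
  fun _ _ h => zs_injective hC (congrArg Prod.snd h)

/-- HNN data of the compression -/
noncomputable def hd : HD (G × FreeGroup (Fin 2)) Unit :=
  HD.ofHoms (Γ := fun _ : Unit => FreeGroup 𝔄) (fun _ => (1 : FreeGroup 𝔄 →* G).prod (zs 𝔄 C))
    (fun _ => (FreeGroup.lift g).prod (zs 𝔄 C)) (fun _ => inj hC _) (fun _ => inj hC _)

/-- the three generators `f₀, f₁, q` -/
noncomputable def y3 : Fin 3 → (hd g hC).MH :=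
  ![(hd g hC).of (1, FreeGroup.of 0), (hd g hC).of (1, FreeGroup.of 1), (hd g hC).st ()]

/-- `G → compression` -/
noncomputable def emb : G →* (hd g hC).MH := (hd g hC).of.comp (MonoidHom.inl _ _)

/-- the word `q⁻¹ z q z⁻¹` -/
def cw (C : ℕ) (n : ℕ) : Wd (Fin 3) :=
  [(2, false)] ++ wmap Fin.castSucc (zw C n) ++ [(2, true)] ++ winv (wmap Fin.castSucc (zw C n))

/-- the commutator `[q⁻¹ z q z⁻¹, f₀]` -/
def guard (C : ℕ) (n : ℕ) : Wd (Fin 3) :=
  cw C n ++ [(0, true)] ++ winv (cw C n) ++ [(0, false)]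

/-- the word of the generator `a` -/
def cwA (C : ℕ) (a : 𝔄) : Wd (Fin 3) := cw C (Encodable.encode a)

/-- the guard of the generator `a` -/
def guardA (C : ℕ) (a : 𝔄) : Wd (Fin 3) := guard C (Encodable.encode a)

theorem wev_y3_wmap (w : Wd (Fin 2)) :
    wev (y3 g hC) (wmap Fin.castSucc w) = (hd g hC).of (1, FreeGroup.mk w) := by
  have e : y3 g hC ∘ Fin.castSucc = (hd g hC).of.comp (MonoidHom.inr _ _) ∘ FreeGroup.of := by
    funext i; fin_cases i <;> rfl
  rw [wev_wmap, e, ← map_wev, cmpL_wev_of]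
  rfl

theorem tr_true (u : FreeGroup 𝔄) :
    (hd g hC).tr ((), true) (1, zs 𝔄 C u) = (FreeGroup.lift g u, zs 𝔄 C u) :=
  HD.ofHoms_tr_true (Γ := fun _ : Unit => FreeGroup 𝔄)
    (fun _ => (1 : FreeGroup 𝔄 →* G).prod (zs 𝔄 C)) _ _ _ () u

theorem tr_false (u : FreeGroup 𝔄) :
    (hd g hC).tr ((), false) (FreeGroup.lift g u, zs 𝔄 C u) = (1, zs 𝔄 C u) :=
  HD.ofHoms_tr_false (Γ := fun _ : Unit => FreeGroup 𝔄) _
    (fun _ => (FreeGroup.lift g).prod (zs 𝔄 C)) _ _ () u

theorem wev_cw (a : 𝔄) : wev (y3 g hC) (cwA C a) = emb g hC (g a) := by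
  have h : ((hd g hC).st ())⁻¹ * (hd g hC).of (1, zs 𝔄 C (.of a)) * (hd g hC).st () = _ :=
    (hd g hC).sl_conj (l := ((), true)) ⟨.of a, rfl⟩
  rw [tr_true] at h
  rw [zs, FreeGroup.lift_apply_of, FreeGroup.lift_apply_of] at h
  simp only [cwA, cw, wev_append, wev_winv, wev_single_true, wev_single_false]
  rw [wev_y3_wmap, show y3 g hC 2 = (hd g hC).st () from rfl, h]
  simp [← map_inv, ← map_mul, emb, -FreeGroup.mul_mk, -FreeGroup.inv_mk]

theorem wev_guard (a : 𝔄) : wev (y3 g hC) (guardA C a) = 1 := by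
  have h := wev_cw g hC a
  rw [cwA] at h
  simp only [guardA, guard, wev_append, wev_winv, wev_single_true, wev_single_false, h]
  simp [y3, emb, ← map_inv, ← map_mul, Prod.mk_one_one]

include hC in
/-- map to the infinite dihedral group `DihedralGroup 0`: `f₁ ↦ r 1`, `f₀, q ↦ sr 0`. -/
theorem guard_ne_one (n : ℕ) : FreeGroup.mk (guard C n) ≠ 1 := by
  let d : Fin 3 → DihedralGroup 0 := ![.sr 0, .r 1, .sr 0]
  have h1 : ∀ n : ℕ, ∃ c : ZMod 0, c ≠ 0 ∧ d 0 ^ n * .r C * (d 0)⁻¹ ^ n = .r c := fun n => by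
    induction n with
    | zero => exact ⟨C, Int.natCast_ne_zero.2 hC.ne', by simp⟩
    | succ n ih =>
      obtain ⟨c, h0, h⟩ := ih
      refine ⟨-c, neg_ne_zero.2 h0, ?_⟩
      rw [pow_succ', pow_succ, mul_assoc (d 0), ← mul_assoc, mul_assoc (d 0), h]
      simp [d]
  obtain ⟨c, h0, h⟩ := h1 n
  have h2 : wev d (wmap Fin.castSucc (zw C n)) = .r c := by
    rw [← h]
    simp [wev_wmap, zw, cmpL_wev_replicate, d, mul_assoc, -DihedralGroup.r_mul_sr]
  intro e
  have h3 : wev d (guard C n) = 1 := by rw [wev, e, map_one]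
  simp only [guard, cw, wev_append, wev_winv, wev_single_true, wev_single_false, h2] at h3
  simp only [d, Matrix.cons_val, DihedralGroup.inv_sr, DihedralGroup.inv_r, DihedralGroup.sr_mul_r,
    DihedralGroup.sr_mul_sr, DihedralGroup.r_mul_r, DihedralGroup.r_mul_sr, DihedralGroup.one_def,
    DihedralGroup.r.injEq] at h3
  exact Int.mul_ne_zero (show (4 : ℤ) ≠ 0 by norm_num) h0
    (show 4 * c = 0 by linear_combination -h3)

theorem primrec_cwA (C : ℕ) : Primrec (cwA C : 𝔄 → Wd (Fin 3)) := by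
  have h : Primrec fun a : 𝔄 => wmap Fin.castSucc (zw C (Encodable.encode a)) :=
    (primrec_wmap (Primrec.dom_finite _)).comp ((cmpL_primrec_zw C).comp Primrec.encode)
  exact Primrec.list_append.comp (Primrec.list_append.comp
    (Primrec.list_append.comp (Primrec.const _) h) (Primrec.const _)) (primrec_winv.comp h)

theorem emb_injective : Function.Injective (emb g hC) :=
  fun _ _ h => congrArg Prod.fst ((hd g hC).of_injective h)

/-- words in the three generators for the standard generators -/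
def lw (C : ℕ) : (𝔄 ⊕ Fin 2) ⊕ Unit → Wd (Fin 3) :=
  Sum.elim (Sum.elim (cwA C) fun i => [(i.castSucc, true)]) fun _ => [(2, true)]

/-- the three generators among the standard generators -/
def kk (𝔄 : Type) : Fin 3 → (𝔄 ⊕ Fin 2) ⊕ Unit := ![.inl (.inr 0), .inl (.inr 1), .inr ()]

theorem wev_lw (x : (𝔄 ⊕ Fin 2) ⊕ Unit) :
    wev (y3 g hC) (lw C x) = (hd g hC).gens (prodGens g FreeGroup.of) x := by
  rcases x with (a | i) | u
  · exact wev_cw g hC a
  · exact wev_y3_wmap g hC [(i, true)]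
  · exact wev_single_true _ _

theorem gens_kk : (hd g hC).gens (prodGens g FreeGroup.of) ∘ kk 𝔄 = y3 g hC := by
  funext i; fin_cases i <;> rfl

theorem y3_gens (hg : Gens g) : Gens (y3 g hC) := by
  have h := (hd g hC).gens_gens (prodGens_gens hg (free_gens (Fin 2)))
  rw [Gens, eq_top_iff, ← h, Subgroup.closure_le]
  rintro _ ⟨x, rfl⟩
  exact wev_lw g hC x ▸ wev_mem_closure _ _

/-- norm on the base -/
noncomputable def bN (C w : ℕ) (N : Nrm G) : Nrm (G × FreeGroup (Fin 2)) :=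
  (N.smul C).prodMax (n1.smul w)

theorem bN_apply (C w : ℕ) (N : Nrm G) (x : G × FreeGroup (Fin 2)) :
    bN C w N x = max (C * N x.1) (w * n1 x.2) := rfl

theorem lift_le (C : ℕ) {N : Nrm G} {w : ℕ} (hw : ∀ a, N (g a) ≤ w) (u : FreeGroup 𝔄) :
    C * N (FreeGroup.lift g u) ≤ w * n1 (zs 𝔄 C u) := by
  classical
  have h := N.wev_le g hw u.toWord
  rw [wev, FreeGroup.mk_toWord] at h
  rw [n1_zs, mul_left_comm]
  exact Nat.mul_le_mul_left C h

theorem lip {N : Nrm G} {w : ℕ} (hw : ∀ a, N (g a) ≤ w) : (hd g hC).Lip (bN C w N) 0 := by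
  rintro ⟨⟨⟩, _ | _⟩ _ ⟨u, rfl⟩
  · refine (congrArg (bN C w N) (tr_false g hC u)).trans_le ?_
    simp [bN_apply, N.one]
  · refine (congrArg (bN C w N) (tr_true g hC u)).trans_le ?_
    simp [bN_apply, lift_le g C hw u]

theorem nrm_wev_le (N : Nrm G) (w : ℕ) (u : Wd (Fin 3)) :
    (hd g hC).nrm (bN C w N) 0 (wev (y3 g hC) u) ≤ w * u.length := by
  refine Nrm.wev_le _ _ (fun i => ?_) u
  fin_cases i
  · exact ((hd g hC).nrm_of_le _ _ _).trans (by simp [bN_apply, N.one, n1_zero])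
  · exact ((hd g hC).nrm_of_le _ _ _).trans (by simp [bN_apply, N.one, n1_one])
  · exact ((hd g hC).nrm_st_le _ _ ()).trans (Nat.zero_le _)

/-- stretch -/
theorem stretch {N : Nrm G} {w : ℕ} (hw : ∀ a, N (g a) ≤ w) {u : Wd (Fin 3)} {x : G}
    (h : wev (y3 g hC) u = emb g hC x) : C * N x ≤ w * u.length := by
  have h1 := nrm_wev_le g hC N w u
  rw [h, emb, MonoidHom.comp_apply, (hd g hC).nrm_of (lip g hC hw)] at h1
  exact le_of_max_le_left h1

end Cp

section
variable {Sit : Type} {G : Sit → Type} [∀ σ, Group (G σ)] {𝔄 : Type} [Primcodable 𝔄] [Finite 𝔄]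
  {g : ∀ σ, 𝔄 → G σ} {C : ℕ} (hC : 0 < C)

/-- `UP.const` for `FreeGroup (Fin 2)`, `UP.prod`, `UP.mh`, `UP.tietze` -/
theorem up_cp {Y : Type} {N : Sit → Set (FreeGroup Y)} {s : FreeGroup Y →* FreeGroup 𝔄}
    (h : UP N g {s}) :
    UP N (fun σ => Cp.y3 (g σ) hC)
      {(FreeGroup.lift fun a => FreeGroup.mk (Cp.cwA C a)).comp s} := by
  let z : 𝔄 → FreeGroup (𝔄 ⊕ Fin 2) := fun a => FreeGroup.map Sum.inr (zs 𝔄 C (.of a))
  have hz : ∀ σ a, FreeGroup.lift (prodGens (g σ) FreeGroup.of) (z a) = (1, zs 𝔄 C (.of a)) :=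
    fun σ a => DFunLike.congr_fun (show (FreeGroup.lift (prodGens (g σ) FreeGroup.of)).comp
      (FreeGroup.map Sum.inr) = MonoidHom.inr _ (FreeGroup (Fin 2)) by
        ext i <;> simp [prodGens]) (zs 𝔄 C (.of a))
  have h2 := UP.mh (fun σ => Cp.hd (g σ) hC)
    (fun _ => Set.range fun a => (z a, FreeGroup.of (Sum.inl a) * z a))
    (fun _ => Set.finite_range _) (fun σ _ => ?_) ?_ (h.prod (UP.const (free_gens (Fin 2))))
  · convert UP.tietze (g' := fun σ => Cp.y3 (g σ) hC)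
      (FreeGroup.lift fun x => FreeGroup.mk (Cp.lw C x)) (FreeGroup.map (Cp.kk 𝔄))
      (fun σ w => DFunLike.congr_fun (show (FreeGroup.lift _).comp _ = FreeGroup.lift _ from ?_) w)
      (fun σ w => DFunLike.congr_fun (show (FreeGroup.lift _).comp _ = FreeGroup.lift _ from ?_) w)
      h2 using 1
    · simp only [upMap, Set.image_empty, Set.union_empty, Set.image_singleton,
        ← MonoidHom.comp_assoc]
      congr 2
      ext a
      simp [Cp.lw]
    · ext x
      simpa [wev] using Cp.wev_lw (g σ) hC x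
    · ext i
      simpa using congrFun (Cp.gens_kk (g σ) hC) i
  · rw [← Set.range_comp]
    simp only [Function.comp_def, hz]
    refine (MonoidHom.range_eq_map _).trans ?_
    rw [← FreeGroup.closure_range_of, MonoidHom.map_closure, ← Set.range_comp]
    rfl
  · rintro σ ⟨⟩ _ ⟨a, rfl⟩
    rw [map_mul, hz]
    exact (Cp.tr_true _ hC _).trans (by simp [prodGens])

variable {E F : Type} [Primcodable E] [Primcodable F] {X : Ctx Sit E F}

theorem CertEq.cp_base (hEq : CertEq X fun σ => Cp.y3 (g σ) hC) : CertEq X g :=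
  hEq.of_embed (fun σ => Cp.emb (g σ) hC) (fun σ => Cp.emb_injective (g σ) hC)
    (s := fun _ a => Cp.cwA C a) ((Primrec.dom_finite _).comp Primrec.snd).to_comp
    fun σ a => (Cp.wev_cw (g σ) hC a).symm

include hC in
theorem cmpL_graph {N : ∀ σ, Nrm (G σ)} {f : ℕ → ℕ} (hf : Monotone f) {w : ℕ}
    (hne : CertS X g N f fun _ => {1}ᶜ) (α : ∀ σ, FreeGroup 𝔄 →* G σ) (s : 𝔄 → Wd 𝔄)
    (hs : ∀ σ a, α σ (.of a) = wev (g σ) (s a))
    (hα : ∀ σ u, C * N σ (α σ u) ≤ w * n1 (zs 𝔄 C u)) :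
    CertS X (fun σ => prodGens (g σ) FreeGroup.of) (fun σ => Cp.bN C w (N σ))
      (fun n => f (2 * n / C)) fun σ => (((α σ).prod (zs 𝔄 C)).range : Set _)ᶜ := by
  refine (certS_graph (h := fun _ => FreeGroup.of) (M := fun _ => n1) (D₂ := fun _ => 0)
    (fun _ => free_gens 𝔄) α (fun _ => zs 𝔄 C) (sα := fun _ => s)
    (sβ := fun _ a => zw C (Encodable.encode a)) ((Primrec.dom_finite s).comp Primrec.snd).to_comp
    ((cmpL_primrec_zw C).comp (Primrec.encode.comp Primrec.snd)).to_comp hs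
    (fun σ a => by rw [cmpL_wev_of, zs, FreeGroup.lift_apply_of]) (Q₁ := fun _ => ⊥)
    (Q₂ := fun _ => ⊥) (fun σ u hu => ?_) (hne.congr fun σ => by simp)
    (Cert.of_re' (computable_free_eq.to_re.of_eq fun u => by simp [cmpL_wev_of]) _)
    (certS_of_re ((re_notMem_zs (𝔄 := 𝔄) hC).of_eq fun u => by simp [cmpL_wev_of]))
    (fun _ _ => Nat.zero_le _) fun σ x hx => ?_).congr fun σ => by simp
  · rw [Subgroup.mem_bot] at hu ⊢
    rw [(injective_iff_map_eq_one _).1 (zs_injective hC) u hu, map_one]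
  · obtain ⟨u, hu⟩ : ∃ u, zs 𝔄 C u = x.2 := by simpa using hx
    refine ⟨u, by simp [hu], hf ((Nat.le_div_iff_mul_le hC).2 ?_)⟩
    have h1 := Nat.mul_le_mul_left C ((N σ).mul x.1 (α σ u)⁻¹)
    have h2 := hα σ u
    rw [(N σ).inv, mul_add] at h1
    rw [Cp.bN_apply, ← hu, mul_comm]
    omega

/-- On the base `G × F₂` with the norm `bN C w N` use the size function `n ↦ f (2 * n / C)`:
`certS_graph` (with `Q₁ = Q₂ = ⊥`, `re_notMem_zs`, `n1_zs`) for the two associated subgroups,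
`CertS.fst`, `CertS.snd` (`computable_free_eq`) for `T × 1`; then `certS_MH_base`, and
`nrm (wev y3 u) ≤ w * u.length` (`Nrm.wev_le`, `n1_zero`, `n1_one`, `nrm_st_le`). -/
theorem cert_cp {N : ∀ σ, Nrm (G σ)} {f : ℕ → ℕ} (hf : Monotone f) (hg : ∀ σ, Gens (g σ))
    {w : ℕ} (hw : ∀ σ a, N σ (g σ a) ≤ w) (hEq : CertEq X fun σ => Cp.y3 (g σ) hC)
    (hne : CertS X g N f fun _ => {1}ᶜ) {T : ∀ σ, Set (G σ)}
    (hT : CertS X g N f fun σ => (T σ)ᶜ) :
    Cert X (fun σ (u : Wd (Fin 3)) => wev (Cp.y3 (g σ) hC) u ∉ Cp.emb (g σ) hC '' T σ)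
      fun _ u => f (4 * (w * u.length) / C) := by
  have hf' : Monotone fun n => f (2 * n / C) := fun a b h =>
    hf (Nat.div_le_div_right (Nat.mul_le_mul_left 2 h))
  have h1 : CertS X (fun σ => prodGens (g σ) FreeGroup.of) (fun σ => Cp.bN C w (N σ))
      (fun n => f (2 * n / C)) fun σ => (MonoidHom.inl _ _ '' T σ)ᶜ := by
    refine ((hT.fst (h := fun _ => FreeGroup.of) (P := fun σ => Cp.bN C w (N σ))
      (D' := fun n => f (2 * n / C)) fun σ x => hf ((Nat.le_div_iff_mul_le hC).2 ?_)).union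
      ((certS_of_re (g₀ := FreeGroup.of) (S := {1}ᶜ) (N₀ := fun _ => n1) (D := fun _ => 0)
        (computable_free_eq.not.to_re.of_eq fun u => by simp [cmpL_wev_of])).snd
        fun _ _ => Nat.zero_le _)).congr fun σ => ?_
    · rw [Cp.bN_apply, mul_comm]
      omega
    · ext ⟨x, y⟩
      simp only [Set.mem_union, Set.mem_preimage, Set.mem_compl_iff, Set.mem_singleton_iff,
        Set.mem_image, MonoidHom.inl_apply, Prod.mk.injEq, ← not_and_or]
      exact not_congr ⟨fun h => ⟨x, h.1, rfl, h.2.symm⟩, fun ⟨_, h, h', h''⟩ => ⟨h' ▸ h, h''.symm⟩⟩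
  have h2 := certS_MH_base hf' (fun σ => prodGens_gens (hg σ) (free_gens (Fin 2)))
    (fun σ => Cp.lip (g σ) hC (hw σ))
    (hEq.of_embed (fun _ => MonoidHom.id _) (fun _ _ _ h => h) (s := fun _ => Cp.lw C)
      ((Primrec.dom_finite _).comp Primrec.snd).to_comp fun σ x => (Cp.wev_lw (g σ) hC x).symm)
    (fun l => ?_) h1
  · refine (Cert.comp' h2 (primrec_wmap (Primrec.dom_finite (Cp.kk 𝔄))).to_comp).congr
      (fun σ u => ?_) fun σ u _ => hf (Nat.div_le_div_right ?_)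
    · rw [wev_wmap, Cp.gens_kk, Set.mem_compl_iff, ← Set.image_comp]
      rfl
    · have := Cp.nrm_wev_le (g σ) hC (N σ) w u
      rw [wev_wmap, Cp.gens_kk, ← mul_assoc]
      exact Nat.mul_le_mul_left 4 this
  · obtain ⟨⟨⟩, _ | _⟩ := l
    · exact cmpL_graph hC hf hne (fun σ => FreeGroup.lift (g σ)) (fun a => [(a, true)])
        (fun σ a => by simp) fun σ => Cp.lift_le (g σ) C (hw σ)
    · exact cmpL_graph hC hf hne (fun σ => 1) (fun _ => []) (fun σ a => by simp)
        fun σ u => by simp [(N σ).one]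

end

end Crest.Agent.R185
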