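import Mathlib
import Crest.Prelude.Def_FiniteTypeClassifying

/-!
# R185: shared definitions (interfaces between the parts)
-/

set_option autoImplicit false

namespace Crest.Agent.R185

open Set Metric Filter
open scoped _root_.Topology

/-- `γ` is `B`-continuous on `K`: near every `z ∈ K` the values of `γ` lie in `γ z * B`. -/
def BC {G : Type*} [Group G] {X : Type*} [TopologicalSpace X] (B : Set G) (γ : X → G)
    (K : Set X) : Prop :=
  ∀ z ∈ K, ∀ᶠ z' in 𝓝[K] z, (γ z)⁻¹ * γ z' ∈ B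

/-- coarse `(d-1)`-connectedness: spheres `∂ I^j`, `j ≤ d`, fill uniformly. -/
def CC (G : Type*) [Group G] (d : ℕ) : Prop :=
  ∀ A : Set G, A.Finite → ∃ B : Set G, B.Finite ∧ ∀ j ≤ d, ∀ γ : (Fin j → ℝ) → G,
    BC A γ (sphere 0 1) → ∃ Γ : (Fin j → ℝ) → G, BC B Γ (closedBall 0 1) ∧ EqOn Γ γ (sphere 0 1)

/-- coarse asphericity (type `F∞`). -/
def CCinf (G : Type*) [Group G] : Prop := ∀ d, CC G d

/-- `E` is the ascending HNN extension of `H` along `φ` (`t⁻¹ h t = φ h`). -/
structure Asc {H E : Type} [Group H] [Group E] (φ : H →* H) (ι : H →* E) (t : E)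
    (χ : E →* Multiplicative ℤ) : Prop where
  inj : Function.Injective ι
  conj : ∀ h, t⁻¹ * ι h * t = ι (φ h)
  chi_ι : ∀ h, χ (ι h) = 1
  chi_t : χ t = Multiplicative.ofAdd 1
  gen : Subgroup.closure (range ι ∪ {t}) = ⊤

/-- the eight diagonals of the gadget: `φ`, the four rows, the three columns -/
def diagS {H K : Type} [Group H] [Group K] (φ : H →* K) (v : Fin 4 → Fin 3 → H →* K) :
    Option (Fin 4 ⊕ Fin 3) → H → K
  | none, x => φ x
  | some (Sum.inl i), x => v i 0 x * v i 1 x * v i 2 x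
  | some (Sum.inr j), x => v 0 j x * v 1 j x * v 2 j x * v 3 j x

/-- the gadget that kills coarse homology: copies `v i j` of `H` commuting along rows and columns,
and elements `u` exchanging `φ` with one row/column diagonal and fixing the other diagonals. -/
def Magic {H K : Type} [Group H] [Group K] (φ : H →* K) : Prop :=
  ∃ v : Fin 4 → Fin 3 → H →* K,
    (∀ i j j', j ≠ j' → ∀ x y, Commute (v i j x) (v i j' y)) ∧
    (∀ i i' j, i ≠ i' → ∀ x y, Commute (v i j x) (v i' j y)) ∧
    ∀ p : Fin 4 ⊕ Fin 3, ∃ u : K, ∀ q x,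
      u⁻¹ * diagS φ v q x * u = diagS φ v (Equiv.swap none (some p) q) x

/-- output of part C: a self-embedded pair `(H, P)`. -/
structure Tower {H : Type} [Group H] (φ : H →* H) (P : Subgroup H) (τ : H) : Prop where
  inj : Function.Injective φ
  fg : Group.FG H
  /-- `H` is finitely `L`-presented: every ascending HNN extension along `φ` is f.p. -/
  fp : ∀ {E : Type} [Group E] (ι : H →* E) (t : E) (χ : E →* Multiplicative ℤ),
    Asc φ ι t χ → Group.IsFinitelyPresented E
  magic : Magic φ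
  comap : ∀ h, φ h ∈ P ↔ h ∈ P
  comm : ∀ p ∈ P, Commute τ (φ p)
  conj_mem : ∀ h, τ⁻¹ * φ h * τ ∈ P
  sq_mem : τ * τ ∈ P
  ne_top : P ≠ ⊤
  fix : ∀ h, h ∉ P → φ h * τ * (φ h)⁻¹ ∈ P
  free : ∃ u : H, ∀ h, u⁻¹ * φ h * u ∈ P → h = 1

/-- input of part B: an oligomorphic action with `F∞` point stabilisers. -/
structure Oligo (E S : Type) [Group E] [MulAction E S] (χ : E →* Multiplicative ℤ) : Prop where
  infinite : Infinite S
  faithful : ∀ g : E, (∀ s : S, g • s = s) → g = 1
  surj : Function.Surjective χ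
  perfect : ⁅χ.ker, χ.ker⁆ = χ.ker
  trans : ∀ (n : ℕ) (a b : Fin n ↪ S), ∃ g ∈ χ.ker, ∀ i, g • a i = b i
  cc : ∀ T : Finset S, CCinf (fixingSubgroup E (T : Set S))

end Crest.Agent.R185
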