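import Crest.Agent.R185.GPDef

/-!
# R185 TASK GP0: elementary facts on the graph product
-/

set_option autoImplicit false

namespace Crest.Agent.R185.GP

variable {X : Type} [Group X]

theorem gp0_pair (p : Pt) : (stE p).Pairwise adj :=
  List.Pairwise.imp_of_mem (fun ha hb h => ⟨h, p, ha, hb⟩) (stE_nodup p)

theorem gp0_comm {l : List Ed} {e : Ed} (h : ∀ e' ∈ l, adj e e') (x : X) (f : Ed → X) :
    Commute (v e x) (l.map fun e' => v e' (f e')).prod := by
  refine Commute.list_prod_right _ _ fun y hy => ?_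
  obtain ⟨e', he', rfl⟩ := List.mem_map.1 hy
  exact v_comm (h e' he') _ _

theorem gp0_mul {l : List Ed} (h : l.Pairwise adj) (f g : Ed → X) :
    (l.map fun e => v e (f e * g e)).prod =
      (l.map fun e => v e (f e)).prod * (l.map fun e => v e (g e)).prod := by
  induction l with
  | nil => simp
  | cons e l ih =>
    obtain ⟨h1, h2⟩ := List.pairwise_cons.1 h
    simp only [List.map_cons, List.prod_cons]
    rw [ih h2, map_mul, mul_assoc, mul_assoc, ← mul_assoc (v e (g e)), (gp0_comm h1 (g e) f).eq,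
      mul_assoc]

theorem gp0_one (l : List Ed) : (l.map fun e => v e (1 : X)).prod = 1 := by simp

theorem gp0_inv {l : List Ed} (h : l.Pairwise adj) (f : Ed → X) :
    (l.map fun e => v e (f e)⁻¹).prod = ((l.map fun e => v e (f e)).prod)⁻¹ := by
  rw [eq_inv_iff_mul_eq_one, ← gp0_mul h]
  simp

/-- the diagonals -/
def S (p : Pt) : X →* GP X where
  toFun := sF p
  map_one' := gp0_one _
  map_mul' x y := gp0_mul (gp0_pair p) (fun _ => x) fun _ => y

@[simp] theorem S_apply (p : Pt) (x : X) : S p x = sF p x := rfl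

theorem ret_v (e e' : Ed) (x : X) : ret e (v e' x) = if e' = e then x else 1 := by
  rw [ret, lift_v]
  split_ifs <;> rfl

theorem gp0_ret_notMem {l : List Ed} {e : Ed} (h : e ∉ l) (f : Ed → X) :
    ret e (l.map fun e' => v e' (f e')).prod = 1 := by
  induction l with
  | nil => simp
  | cons a l ih =>
    rw [List.mem_cons, not_or] at h
    rw [List.map_cons, List.prod_cons, map_mul, ih h.2, ret_v, if_neg (Ne.symm h.1), one_mul]

theorem gp0_ret_mem {l : List Ed} (hl : l.Nodup) {e : Ed} (h : e ∈ l) (f : Ed → X) :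
    ret e (l.map fun e' => v e' (f e')).prod = f e := by
  induction l with
  | nil => simp at h
  | cons a l ih =>
    obtain ⟨h1, h2⟩ := List.nodup_cons.1 hl
    rw [List.map_cons, List.prod_cons, map_mul, ret_v]
    rcases List.mem_cons.1 h with rfl | h
    · rw [if_pos rfl, gp0_ret_notMem h1, mul_one]
    · rw [if_neg (by rintro rfl; exact h1 h), ih h2 h, one_mul]

theorem ret_sF {p : Pt} {e : Ed} (h : e ∈ stE p) (x : X) : ret e (sF p x) = x :=
  gp0_ret_mem (stE_nodup p) h fun _ => x

theorem ret_sF_of_notMem {p : Pt} {e : Ed} (h : e ∉ stE p) (x : X) : ret e (sF p x) = 1 :=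
  gp0_ret_notMem h fun _ => x

theorem v_injective (e : Ed) : Function.Injective (v e : X → GP X) :=
  Function.LeftInverse.injective (g := ret e) fun x => by rw [ret_v, if_pos rfl]

theorem S_injective (p : Pt) : Function.Injective (S p : X → GP X) := by
  obtain ⟨e, he⟩ := List.exists_mem_of_length_pos (l := stE p) (by have := three_le_stE p; omega)
  exact Function.LeftInverse.injective (g := ret e) fun x => ret_sF he x

theorem gp0_induction {P : GP X → Prop} (h1 : P 1) (hv : ∀ e x, P (v e x))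
    (hm : ∀ a b, P a → P b → P (a * b)) (g : GP X) : P g := by
  obtain ⟨z, rfl⟩ := QuotientGroup.mk'_surjective (Subgroup.normalClosure (gpRels X)) g
  induction z using Monoid.CoprodI.induction_on with
  | one => exact h1
  | of e x => exact hv e x
  | mul a b ha hb => exact hm _ _ ha hb

theorem gens_gens {𝔄 : Type} {g : 𝔄 → X} (hg : Gens g) : Gens (gens g) := by
  refine eq_top_iff.2 fun z _ => ?_
  induction z using gp0_induction with
  | h1 => exact one_mem _
  | hv e x =>
    obtain ⟨w, rfl⟩ := hg.exists_wev x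
    have : v e (wev g w) = wev (gens g) (wmap (fun a => (e, a)) w) := by
      rw [map_wev, wev_wmap]
      rfl
    rw [this]
    exact wev_mem_closure _ _
  | hm a b ha hb => exact mul_mem (ha trivial) (hb trivial)

theorem gp0_prd_cons (a : Ed × X) (l : List (Ed × X)) : prd (a :: l) = v a.1 a.2 * prd l := by
  simp [prd]

theorem gp0_prd_append (l l' : List (Ed × X)) : prd (l ++ l') = prd l * prd l' := by
  simp [prd]

theorem gp0_merge {l : List (Ed × X)} (h : ¬ NoMerge l) : ∃ l', prd l' = prd l ∧ l'.length < l.length := by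
  induction l with
  | nil => exact absurd trivial h
  | cons a l ih =>
    by_cases h1 : NoMerge l
    · have h2 : ¬ ∀ b, Front l b → b.1 ≠ a.1 := fun h2 => h ⟨h2, h1⟩
      push Not at h2
      obtain ⟨b, ⟨l₁, l₂, rfl, h3⟩, h4⟩ := h2
      refine ⟨(a.1, a.2 * b.2) :: (l₁ ++ l₂), ?_, by simp⟩
      have hc : Commute (v b.1 b.2) (prd l₁) := by
        refine Commute.list_prod_right _ _ fun y hy => ?_
        obtain ⟨c, hc, rfl⟩ := List.mem_map.1 hy
        exact (v_comm (h3 c hc) _ _).symm
      simp only [gp0_prd_cons, gp0_prd_append, map_mul]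
      rw [← mul_assoc (prd l₁), ← hc.eq, h4, mul_assoc, mul_assoc]
    · obtain ⟨l', h2, h3⟩ := ih h1
      exact ⟨a :: l', by rw [gp0_prd_cons, gp0_prd_cons, h2], by simpa using h3⟩

/-- delete trivial syllables and merge (induction on the length) -/
theorem exists_red (l : List (Ed × X)) : ∃ l', Red l' ∧ prd l' = prd l ∧ l'.length ≤ l.length := by
  induction hn : l.length using Nat.strong_induction_on generalizing l with
  | _ n ih =>
    subst hn
    by_cases h : Red l
    · exact ⟨l, h, rfl, le_rfl⟩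
    · have : ∃ l', prd l' = prd l ∧ l'.length < l.length := by
        by_cases h1 : NoMerge l
        · have h2 : ¬ ∀ a ∈ l, a.2 ≠ 1 := fun h2 => h ⟨h1, h2⟩
          push Not at h2
          obtain ⟨a, ha, h3⟩ := h2
          obtain ⟨l₁, l₂, rfl⟩ := List.append_of_mem ha
          refine ⟨l₁ ++ l₂, ?_, by simp⟩
          simp only [gp0_prd_cons, gp0_prd_append, h3, map_one, one_mul]
        · exact gp0_merge h1
      obtain ⟨l', h1, h2⟩ := this
      obtain ⟨l'', h3, h4, h5⟩ := ih _ h2 l' rfl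
      exact ⟨l'', h3, h4.trans h1, h5.trans h2.le⟩

theorem exists_prd (g : GP X) : ∃ l, Red l ∧ prd l = g := by
  have : ∃ l, prd l = g := by
    induction g using gp0_induction with
    | h1 => exact ⟨[], rfl⟩
    | hv e x => exact ⟨[(e, x)], by simp [prd]⟩
    | hm a b ha hb =>
      obtain ⟨l, rfl⟩ := ha
      obtain ⟨l', rfl⟩ := hb
      exact ⟨l ++ l', gp0_prd_append _ _⟩
  obtain ⟨l, rfl⟩ := this
  obtain ⟨l', h1, h2, -⟩ := exists_red l
  exact ⟨l', h1, h2⟩

theorem gp0_single {l : List Ed} (hl : l.Nodup) {e : Ed} (h : e ∈ l) (x : X) :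
    (l.map fun e' => v e' (if e' = e then x else 1)).prod = v e x := by
  obtain ⟨l₁, l₂, rfl⟩ := List.append_of_mem h
  have key : ∀ l' : List Ed, e ∉ l' → (l'.map fun e' => v e' (if e' = e then x else 1)).prod = 1 := by
    intro l' hl'
    refine List.prod_eq_one fun y hy => ?_
    obtain ⟨c, hc, rfl⟩ := List.mem_map.1 hy
    rw [if_neg (by rintro rfl; exact hl' hc), map_one]
  have h1 := List.nodup_middle.1 hl
  rw [List.nodup_cons, List.mem_append, not_or] at h1
  rw [List.map_append, List.prod_append, List.map_cons, List.prod_cons, key _ h1.1.1, key _ h1.1.2,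
    if_pos rfl, one_mul, mul_one]

theorem gp0_foldr_le {l : List ℕ} {n : ℕ} (h : ∀ a ∈ l, a ≤ n) : l.foldr max 0 ≤ n := by
  induction l with
  | nil => exact Nat.zero_le _
  | cons a l ih =>
    exact max_le (h a List.mem_cons_self) (ih fun b hb => h b (List.mem_cons_of_mem _ hb))

theorem gp0_le_foldr {l : List ℕ} {a : ℕ} (h : a ∈ l) : a ≤ l.foldr max 0 := by
  induction l with
  | nil => simp at h
  | cons b l ih =>
    rcases List.mem_cons.1 h with rfl | h
    · exact le_max_left _ _
    · exact (ih h).trans (le_max_right _ _)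

theorem gp0_exists_blk (g : GP X) : ∃ L : List (Pt × (Ed → X)), (L.map blk).prod = g := by
  induction g using gp0_induction with
  | h1 => exact ⟨[], rfl⟩
  | hv e x =>
    obtain ⟨p, hp⟩ := exists_stE e
    refine ⟨[(p, fun e' => if e' = e then x else 1)], ?_⟩
    simpa [blk] using gp0_single (stE_nodup p) hp x
  | hm a b ha hb =>
    obtain ⟨l, rfl⟩ := ha
    obtain ⟨l', rfl⟩ := hb
    exact ⟨l ++ l', by simp⟩

theorem gp0_mu_le (N : Nrm X) (L : List (Pt × (Ed → X))) :
    muF N (L.map blk).prod ≤ (L.map (blkCost N)).sum := Nat.sInf_le ⟨L, rfl, rfl⟩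

theorem gp0_mu_exists (N : Nrm X) (g : GP X) :
    ∃ L : List (Pt × (Ed → X)), (L.map blk).prod = g ∧ (L.map (blkCost N)).sum = muF N g :=
  Nat.sInf_mem
    (s := {n | ∃ L : List (Pt × (Ed → X)), (L.map blk).prod = g ∧ (L.map (blkCost N)).sum = n})
    (let ⟨L, hL⟩ := gp0_exists_blk g; ⟨_, L, hL, rfl⟩)

theorem gp0_mu_inv_le (N : Nrm X) (g : GP X) : muF N g⁻¹ ≤ muF N g := by
  obtain ⟨L, rfl, h⟩ := gp0_mu_exists N g
  have h1 := gp0_mu_le N (L.map fun b => (b.1, fun e => (b.2 e)⁻¹)).reverse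
  have h2 : ((L.map fun b => (b.1, fun e => (b.2 e)⁻¹)).reverse.map blk).prod =
      ((L.map blk).prod)⁻¹ := by
    rw [List.prod_inv_reverse, List.map_reverse, List.map_map, List.map_map]
    congr 2
    exact List.map_congr_left fun b _ => gp0_inv (gp0_pair b.1) b.2
  have h3 : ((L.map fun b => (b.1, fun e => (b.2 e)⁻¹)).reverse.map (blkCost N)).sum =
      (L.map (blkCost N)).sum := by
    rw [List.map_reverse, List.sum_reverse, List.map_map]
    congr 1
    exact List.map_congr_left fun b _ => by simp [blkCost, N.inv]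
  rw [h2, h3] at h1
  exact h1.trans h.le

/-- the norm `μ` (concatenate lists of blocks; the inverse of a block is a block) -/
noncomputable def mu (N : Nrm X) : Nrm (GP X) where
  f := muF N
  one := Nat.eq_zero_of_le_zero (gp0_mu_le N [])
  mul x y := by
    obtain ⟨L, rfl, h⟩ := gp0_mu_exists N x
    obtain ⟨L', rfl, h'⟩ := gp0_mu_exists N y
    rw [← h, ← h']
    simpa using gp0_mu_le N (L ++ L')
  inv x := le_antisymm (gp0_mu_inv_le N x) (by simpa using gp0_mu_inv_le N x⁻¹)

theorem ret_le_mu (N : Nrm X) (e : Ed) (g : GP X) : N (ret e g) ≤ mu N g := by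
  obtain ⟨L, rfl, h⟩ := gp0_mu_exists N g
  refine le_trans ?_ h.le
  clear h
  induction L with
  | nil => simp [N.one]
  | cons b L ih =>
    simp only [List.map_cons, List.prod_cons, List.sum_cons, map_mul]
    refine (N.mul _ _).trans (Nat.add_le_add ?_ ih)
    by_cases he : e ∈ stE b.1
    · rw [blk, gp0_ret_mem (stE_nodup _) he]
      exact gp0_le_foldr (List.mem_map.2 ⟨e, he, rfl⟩)
    · rw [blk, gp0_ret_notMem he, N.one]
      exact Nat.zero_le _

theorem gp0_mu_blk (N : Nrm X) (b : Pt × (Ed → X)) {n : ℕ} (h : ∀ e, N (b.2 e) ≤ n) :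
    mu N (blk b) ≤ n := by
  have h1 := gp0_mu_le N [b]
  simp only [List.map_cons, List.map_nil, List.prod_cons, List.prod_nil, mul_one, List.sum_cons,
    List.sum_nil, add_zero] at h1
  refine h1.trans (gp0_foldr_le fun a ha => ?_)
  obtain ⟨e, -, rfl⟩ := List.mem_map.1 ha
  exact h e

theorem mu_v_le (N : Nrm X) (e : Ed) (x : X) : mu N (v e x) ≤ N x := by
  obtain ⟨p, hp⟩ := exists_stE e
  rw [← gp0_single (stE_nodup p) hp x]
  refine gp0_mu_blk N (p, fun e' => if e' = e then x else 1) fun e' => ?_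
  dsimp only
  split_ifs
  · exact le_rfl
  · rw [N.one]; exact Nat.zero_le _

theorem mu_sF_le (N : Nrm X) (p : Pt) (x : X) : mu N (sF p x) ≤ N x :=
  gp0_mu_blk N (p, fun _ => x) fun _ => le_rfl

theorem gp0_prdS_cons (a : Pt × X) (L : List (Pt × X)) : prdS (a :: L) = sF a.1 a.2 * prdS L := by
  simp [prdS]

theorem gp0_step (p : Pt) (x : X) {g : GP X}
    (h : ∃ L : List (Pt × X), (∀ a ∈ L, a.2 ≠ 1) ∧ (L.IsChain fun a b => a.1 ≠ b.1) ∧ prdS L = g) :
    ∃ L : List (Pt × X), (∀ a ∈ L, a.2 ≠ 1) ∧ (L.IsChain fun a b => a.1 ≠ b.1) ∧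
      prdS L = sF p x * g := by
  obtain ⟨L, h1, h2, rfl⟩ := h
  by_cases hx : x = 1
  · exact ⟨L, h1, h2, by rw [hx, ← S_apply, map_one, one_mul]⟩
  rcases L with _ | ⟨⟨q, y⟩, L⟩
  · exact ⟨[(p, x)], by simpa using hx, List.isChain_singleton _, gp0_prdS_cons _ _⟩
  by_cases hp : p = q
  · subst hp
    have e : sF p x * prdS ((p, y) :: L) = sF p (x * y) * prdS L := by
      rw [gp0_prdS_cons, ← mul_assoc, ← S_apply, ← S_apply, ← map_mul, S_apply]
    by_cases hy : x * y = 1
    · refine ⟨L, fun a ha => h1 a (List.mem_cons_of_mem _ ha), h2.tail, ?_⟩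
      rw [e, hy, ← S_apply, map_one, one_mul]
    · refine ⟨(p, x * y) :: L, fun a ha => ?_, ?_, by rw [e, gp0_prdS_cons]⟩
      · rcases List.mem_cons.1 ha with rfl | ha
        · exact hy
        · exact h1 a (List.mem_cons_of_mem _ ha)
      · rw [List.isChain_cons] at h2 ⊢
        exact h2
  · refine ⟨(p, x) :: (q, y) :: L, fun a ha => ?_, List.isChain_cons_cons.2 ⟨hp, h2⟩,
      gp0_prdS_cons _ _⟩
    rcases List.mem_cons.1 ha with rfl | ha
    · exact hx
    · exact h1 a ha

theorem exists_prdS {g : GP X} (hg : g ∈ D X) :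
    ∃ L : List (Pt × X), (∀ a ∈ L, a.2 ≠ 1) ∧ (L.IsChain fun a b => a.1 ≠ b.1) ∧ prdS L = g := by
  induction hg using Subgroup.closure_induction_left with
  | one => exact ⟨[], by simp, List.isChain_nil, rfl⟩
  | mul_left x hx y _ ih =>
    obtain ⟨p, z, rfl⟩ := hx
    exact gp0_step p z ih
  | inv_mul_cancel x hx y _ ih =>
    obtain ⟨p, z, rfl⟩ := hx
    rw [← S_apply, ← map_inv]
    exact gp0_step p z⁻¹ ih

theorem gp0_sF_mem (p : Pt) (x : X) : sF p x ∈ D X := Subgroup.subset_closure ⟨p, x, rfl⟩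

theorem prdS_mem (L : List (Pt × X)) : prdS L ∈ D X := by
  refine list_prod_mem fun y hy => ?_
  obtain ⟨a, -, rfl⟩ := List.mem_map.1 hy
  exact gp0_sF_mem _ _

theorem sF_mem (p : Pt) (x : X) : sF p x ∈ D X := gp0_sF_mem p x

end Crest.Agent.R185.GP
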