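import Crest.Agent.R185.Nrm

/-!
# R185: the graph product of the gadget (definitions)
-/

set_option autoImplicit false

namespace Crest.Agent.R185

open scoped commutatorElement

/-- the 15 factors -/
abbrev Ed : Type := (Fin 4 × Fin 3) ⊕ Fin 3

/-- the 8 diagonals -/
abbrev Pt : Type := Option (Fin 4 ⊕ Fin 3)

/-- the factors of a diagonal -/
def stE : Pt → List Ed
  | none => [Sum.inr 0, Sum.inr 1, Sum.inr 2]
  | some (Sum.inl i) => [Sum.inl (i, 0), Sum.inl (i, 1), Sum.inl (i, 2)]
  | some (Sum.inr j) => [Sum.inl (0, j), Sum.inl (1, j), Sum.inl (2, j), Sum.inl (3, j)]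

/-- commuting factors -/
def adj (e e' : Ed) : Prop := e ≠ e' ∧ ∃ p : Pt, e ∈ stE p ∧ e' ∈ stE p

instance : DecidableEq Ed := inferInstanceAs (DecidableEq ((Fin 4 × Fin 3) ⊕ Fin 3))

instance (e : Ed) (p : Pt) : Decidable (e ∈ stE p) := 
  decidable_of_iff (∃ a ∈ stE p, a = e) (by simp)

instance : DecidableRel adj := fun e e' =>
  haveI : Decidable (∃ p : Pt, e ∈ stE p ∧ e' ∈ stE p) := Fintype.decidableExistsFintype
  inferInstanceAs (Decidable (e ≠ e' ∧ ∃ p : Pt, e ∈ stE p ∧ e' ∈ stE p))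

theorem adj_symm : ∀ e e', adj e e' → adj e' e := by decide +kernel

theorem adj_unique : ∀ (p : Pt) (e : Ed), e ∉ stE p → ∀ e₁ ∈ stE p, ∀ e₂ ∈ stE p,
    adj e e₁ → adj e e₂ → e₁ = e₂ := by decide +kernel

theorem stE_inter : ∀ (p p' : Pt), p ≠ p' → ∀ e₁ ∈ stE p, ∀ e₂ ∈ stE p,
    e₁ ∈ stE p' → e₂ ∈ stE p' → e₁ = e₂ := by decide +kernel

theorem exists_stE : ∀ e : Ed, ∃ p, e ∈ stE p := by decide +kernel

theorem stE_nodup : ∀ p : Pt, (stE p).Nodup := by decide +kernel

theorem three_le_stE : ∀ p : Pt, 3 ≤ (stE p).length := by decide +kernel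

variable (X : Type) [Group X]

/-- the commutators -/
def gpRels : Set (Monoid.CoprodI fun _ : Ed => X) :=
  {z | ∃ e e' x y, adj e e' ∧
    z = ⁅(Monoid.CoprodI.of (i := e) x : Monoid.CoprodI fun _ : Ed => X),
      Monoid.CoprodI.of (i := e') y⁆}

/-- the graph product -/
def GP : Type := Monoid.CoprodI (fun _ : Ed => X) ⧸ Subgroup.normalClosure (gpRels X)

instance : Group (GP X) :=
  inferInstanceAs (Group (Monoid.CoprodI (fun _ : Ed => X) ⧸ Subgroup.normalClosure (gpRels X)))

namespace GP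

variable {X}

/-- the factors -/
def v (e : Ed) : X →* GP X :=
  (QuotientGroup.mk' _).comp (Monoid.CoprodI.of (M := fun _ : Ed => X) (i := e))

theorem v_comm {e e' : Ed} (h : adj e e') (x y : X) : Commute (v e x) (v e' y) := by
  rw [← commutatorElement_eq_one_iff_commute]
  have : QuotientGroup.mk' (Subgroup.normalClosure (gpRels X))
      ⁅(Monoid.CoprodI.of (i := e) x : Monoid.CoprodI fun _ : Ed => X),
        Monoid.CoprodI.of (i := e') y⁆ = 1 :=
    (QuotientGroup.eq_one_iff _).2 (Subgroup.subset_normalClosure ⟨e, e', x, y, h, rfl⟩)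
  rw [map_commutatorElement] at this
  exact this

/-- universal property -/
def lift {Λ : Type} [Group Λ] (f : Ed → X →* Λ)
    (h : ∀ e e', adj e e' → ∀ x y, Commute (f e x) (f e' y)) : GP X →* Λ :=
  QuotientGroup.lift _ (Monoid.CoprodI.lift f) (by
    intro x hx
    refine (Subgroup.normalClosure_le_normal (N := (Monoid.CoprodI.lift f).ker) ?_) hx
    rintro _ ⟨e, e', x, y, he, rfl⟩
    simp only [SetLike.mem_coe, MonoidHom.mem_ker, map_commutatorElement, Monoid.CoprodI.lift_of]
    exact commutatorElement_eq_one_iff_commute.2 (h e e' he x y))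

@[simp] theorem lift_v {Λ : Type} [Group Λ] (f : Ed → X →* Λ) (h) (e : Ed) (x : X) :
    lift f h (v e x) = f e x := by
  show Monoid.CoprodI.lift f (Monoid.CoprodI.of x) = f e x
  simp

theorem hom_ext {Λ : Type} [Group Λ] {f f' : GP X →* Λ} (h : ∀ e x, f (v e x) = f' (v e x)) :
    f = f' := by
  apply QuotientGroup.monoidHom_ext
  apply Monoid.CoprodI.ext_hom
  intro e; ext x; exact h e x

/-- the retraction onto the factor `e` -/
def ret (e : Ed) : GP X →* X :=
  lift (fun e' => if e' = e then MonoidHom.id X else 1) (by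
    intro e₁ e₂ h x y
    by_cases h₁ : e₁ = e
    · have : e₂ ≠ e := fun h₂ => h.1 (h₁.trans h₂.symm)
      simp [this]
    · simp [h₁])

/-- the diagonals as functions -/
def sF (p : Pt) (x : X) : GP X := ((stE p).map fun e => v e x).prod

/-- product of a list of syllables -/
def prd (l : List (Ed × X)) : GP X := (l.map fun p => v p.1 p.2).prod

/-- product of a list of diagonal elements -/
def prdS (l : List (Pt × X)) : GP X := (l.map fun p => sF p.1 p.2).prod

/-- `a` is a front syllable of `l`: it can be shuffled to the front -/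
def Front (l : List (Ed × X)) (a : Ed × X) : Prop :=
  ∃ l₁ l₂, l = l₁ ++ a :: l₂ ∧ ∀ b ∈ l₁, adj b.1 a.1

/-- the syntactic part of reducedness: no two syllables can be merged -/
def NoMerge : List (Ed × X) → Prop
  | [] => True
  | a :: l => (∀ b, Front l b → b.1 ≠ a.1) ∧ NoMerge l

/-- reduced lists of syllables -/
def Red (l : List (Ed × X)) : Prop := NoMerge l ∧ ∀ a ∈ l, a.2 ≠ 1

/-- no diagonal can be split off at the front -/
def Stuck (l : List (Ed × X)) : Prop :=
  ∀ (p : Pt) (e₀ : Ed), (∃ e ∈ stE p, e ≠ e₀ ∧ ∀ a, Front l a → a.1 ≠ e) ∨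
    ∃ a b, Front l a ∧ Front l b ∧ a.1 ∈ stE p ∧ b.1 ∈ stE p ∧ a.1 ≠ e₀ ∧ b.1 ≠ e₀ ∧ a.2 ≠ b.2

/-- a block: a product inside one star -/
def blk (b : Pt × (Ed → X)) : GP X := ((stE b.1).map fun e => v e (b.2 e)).prod

/-- cost of a block -/
def blkCost (N : Nrm X) (b : Pt × (Ed → X)) : ℕ := ((stE b.1).map fun e => N (b.2 e)).foldr max 0

/-- the norm `μ`: least total cost of a product of blocks -/
noncomputable def muF (N : Nrm X) (g : GP X) : ℕ :=
  sInf {n | ∃ L : List (Pt × (Ed → X)), (L.map blk).prod = g ∧ (L.map (blkCost N)).sum = n}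

/-- the subgroup generated by the diagonals -/
def D (X : Type) [Group X] : Subgroup (GP X) := Subgroup.closure {g | ∃ p x, g = sF p x}

/-- generators -/
def gens {𝔄 : Type} (g : 𝔄 → X) : Ed × 𝔄 → GP X := fun p => v p.1 (g p.2)

end GP

end Crest.Agent.R185
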