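import Crest.Agent.R185.MachDef
import Crest.Agent.R185.GP1
import Crest.Agent.R185.CertGP
import Crest.Agent.R185.CertL
import Crest.Agent.R185.Cmp

/-!
# R185 TASK Gad: the gadget layer and the compression layer
-/

set_option autoImplicit false

namespace Crest.Agent.R185

/-- juxtaposition of HNN data -/
def HD.sum {G ι ι' : Type} [Group G] (D : HD G ι) (D' : HD G ι') : HD G (ι ⊕ ι') where
  A := Sum.elim D.A D'.A
  B := Sum.elim D.B D'.B
  θ i := match i with
    | Sum.inl i => D.θ i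
    | Sum.inr i => D'.θ i

theorem HD.sum_dom_inl {G ι ι' : Type} [Group G] (D : HD G ι) (D' : HD G ι') (i : ι) (c : Bool) :
    (D.sum D').dom (Sum.inl i, c) = D.dom (i, c) := by
  cases c <;> rfl

theorem HD.sum_dom_inr {G ι ι' : Type} [Group G] (D : HD G ι) (D' : HD G ι') (i : ι') (c : Bool) :
    (D.sum D').dom (Sum.inr i, c) = D'.dom (i, c) := by
  cases c <;> rfl

theorem HD.sum_tr_inl {G ι ι' : Type} [Group G] (D : HD G ι) (D' : HD G ι') (i : ι) (c : Bool)
    (x : G) : (D.sum D').tr (Sum.inl i, c) x = D.tr (i, c) x := by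
  cases c <;> rfl

theorem HD.sum_tr_inr {G ι ι' : Type} [Group G] (D : HD G ι) (D' : HD G ι') (i : ι') (c : Bool)
    (x : G) : (D.sum D').tr (Sum.inr i, c) x = D'.tr (i, c) x := by
  cases c <;> rfl

theorem HD.sum_lip {G ι ι' : Type} [Group G] {D : HD G ι} {D' : HD G ι'} {N : Nrm G} {wt : ℕ}
    (h : D.Lip N wt) (h' : D'.Lip N wt) : (D.sum D').Lip N wt := by
  rintro ⟨i | i, c⟩ x hx
  · rw [HD.sum_dom_inl] at hx
    rw [HD.sum_tr_inl]
    exact h _ x hx
  · rw [HD.sum_dom_inr] at hx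
    rw [HD.sum_tr_inr]
    exact h' _ x hx

theorem HD.ofHoms_lip {G ι : Type} [Group G] {Γ : ι → Type} [∀ i, Group (Γ i)]
    (α β : ∀ i, Γ i →* G) (hα) (hβ) {N : Nrm G} (wt : ℕ) (h : ∀ i x, N (α i x) = N (β i x)) :
    (HD.ofHoms α β hα hβ).Lip N wt := by
  rintro ⟨i, c⟩ x hx
  cases c
  · obtain ⟨y, rfl⟩ : x ∈ (β i).range := hx
    rw [HD.ofHoms_tr_false, h]
    exact Nat.le_add_right _ _
  · obtain ⟨y, rfl⟩ : x ∈ (α i).range := hx
    rw [HD.ofHoms_tr_true, h]
    exact Nat.le_add_right _ _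

theorem gad_range_eq {𝔄 G H : Type} [Group G] [Group H] {g : 𝔄 → G} (hg : Gens g) (φ : G →* H) :
    φ.range = Subgroup.closure (Set.range fun x => φ (g x)) := by
  rw [MonoidHom.range_eq_map, ← hg, MonoidHom.map_closure, ← Set.range_comp]
  rfl

/-- stable letters of the gadget: `u_p`, `j_e`, `c` -/
abbrev GI : Type := (Fin 4 ⊕ Fin 3) ⊕ Ed ⊕ Unit

namespace Gad

variable {X K : Type} [Group X] [Group K]

/-- the automorphism of `D` exchanging the diagonals `none` and `some p` -/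
noncomputable def dsw (X : Type) [Group X] (p : Fin 4 ⊕ Fin 3) : GP.D X ≃* GP.D X :=
  (GP.exists_dperm (X := X) (Equiv.swap none (some p))).choose

theorem dsw_sF (p : Fin 4 ⊕ Fin 3) (q : Pt) (x : X) :
    (dsw X p ⟨GP.sF q x, GP.sF_mem q x⟩ : GP X) = GP.sF (Equiv.swap none (some p) q) x :=
  (GP.exists_dperm (X := X) (Equiv.swap none (some p))).choose_spec.1 q x

theorem mu_dsw (p : Fin 4 ⊕ Fin 3) {N : Nrm X} (hN : ∀ x, x ≠ 1 → 0 < N x) (d : GP.D X) :
    GP.mu N (dsw X p d : GP X) = GP.mu N d :=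
  (GP.exists_dperm (X := X) (Equiv.swap none (some p))).choose_spec.2 N hN d

/-- the gadget over `X`, with an extra letter conjugating the copy `a` of `K` to the copy `b` -/
noncomputable def hd (a b : K →* X) (ha : Function.Injective a) (hb : Function.Injective b) :
    HD (GP X) GI :=
  HD.sum ⟨fun _ => GP.D X, fun _ => GP.D X, dsw X⟩ (HD.sum
    (HD.ofHoms (Γ := fun _ : Ed => X) (fun _ => GP.S none) (fun e => GP.v e)
      (fun _ => GP.S_injective none) GP.v_injective)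
    (HD.ofHoms (Γ := fun _ : Unit => K) (fun _ => (GP.S none).comp a) (fun _ => (GP.S none).comp b)
      (fun _ => (GP.S_injective none).comp ha) (fun _ => (GP.S_injective none).comp hb)))

variable {a b : K →* X} (ha : Function.Injective a) (hb : Function.Injective b)

/-- `X → gadget` -/
noncomputable def emb : X →* (hd a b ha hb).MH := (hd a b ha hb).of.comp (GP.S none)

/-- generators -/
noncomputable def gG {𝔄 : Type} (g : 𝔄 → X) : (Ed × 𝔄) ⊕ GI → (hd a b ha hb).MH :=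
  (hd a b ha hb).gens (GP.gens g)

/-- norm -/
noncomputable def gN (N : Nrm X) : Nrm (hd a b ha hb).MH := (hd a b ha hb).nrm (GP.mu N) 1

/-- the word of `emb (g x)` -/
def embW {𝔄 : Type} (x : 𝔄) : Wd ((Ed × 𝔄) ⊕ GI) :=
  (stE none).map fun e => (Sum.inl (e, x), true)

theorem tr_u (p : Fin 4 ⊕ Fin 3) (q : Pt) (x : X) :
    (hd a b ha hb).tr (Sum.inl p, true) (GP.sF q x) = GP.sF (Equiv.swap none (some p) q) x :=
  ((hd a b ha hb).tr_true (Sum.inl p) ⟨GP.sF q x, GP.sF_mem q x⟩).trans (dsw_sF p q x)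

theorem tr_j (e : Ed) (x : X) :
    (hd a b ha hb).tr (Sum.inr (Sum.inl e), true) (GP.S none x) = GP.v e x := by
  unfold hd
  rw [HD.sum_tr_inr, HD.sum_tr_inl]
  exact HD.ofHoms_tr_true (Γ := fun _ : Ed => X) (fun _ => GP.S none) (fun e => GP.v e) _ _ e x

theorem tr_c (k : K) :
    (hd a b ha hb).tr (Sum.inr (Sum.inr ()), true) (GP.S none (a k)) = GP.S none (b k) := by
  unfold hd
  rw [HD.sum_tr_inr, HD.sum_tr_inr]
  exact HD.ofHoms_tr_true (Γ := fun _ : Unit => K) (fun _ => (GP.S none).comp a)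
    (fun _ => (GP.S none).comp b) _ _ () k

theorem conj_u (p : Fin 4 ⊕ Fin 3) (q : Pt) (x : X) :
    ((hd a b ha hb).st (Sum.inl p))⁻¹ * (hd a b ha hb).of (GP.sF q x) *
      (hd a b ha hb).st (Sum.inl p) =
      (hd a b ha hb).of (GP.sF (Equiv.swap none (some p) q) x) := by
  have h := (hd a b ha hb).sl_conj (l := (Sum.inl p, true)) (a := GP.sF q x) (GP.sF_mem q x)
  rwa [tr_u] at h

theorem conj_j (e : Ed) (x : X) :
    ((hd a b ha hb).st (Sum.inr (Sum.inl e)))⁻¹ * emb ha hb x *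
      (hd a b ha hb).st (Sum.inr (Sum.inl e)) = (hd a b ha hb).of (GP.v e x) := by
  have h := (hd a b ha hb).sl_conj (l := (Sum.inr (Sum.inl e), true)) (a := GP.S none x) ⟨x, rfl⟩
  rwa [tr_j] at h

theorem conj_c (k : K) :
    ((hd a b ha hb).st (Sum.inr (Sum.inr ())))⁻¹ * emb ha hb (a k) *
      (hd a b ha hb).st (Sum.inr (Sum.inr ())) = emb ha hb (b k) := by
  have h := (hd a b ha hb).sl_conj (l := (Sum.inr (Sum.inr ()), true)) (a := GP.S none (a k))
    ⟨k, rfl⟩
  rwa [tr_c] at h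

theorem wev_embW {𝔄 : Type} (g : 𝔄 → X) (x : 𝔄) :
    wev (gG ha hb g) (embW x) = emb ha hb (g x) := by
  show _ = (hd a b ha hb).of (GP.sF none (g x))
  simp only [embW, stE, List.map_cons, List.map_nil, wev_cons, wev_nil, if_true, GP.sF,
    List.prod_cons, List.prod_nil, map_mul, map_one]
  rfl

theorem emb_injective : Function.Injective (emb ha hb) := by
  exact (hd a b ha hb).of_injective.comp (GP.S_injective none)

theorem gG_gens {𝔄 : Type} {g : 𝔄 → X} (hg : Gens g) : Gens (gG ha hb g) := by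
  exact (hd a b ha hb).gens_gens (GP.gens_gens hg)

theorem magic : Magic (emb ha hb) := by
  have hd' : ∀ (q : Pt) (x : X), diagS (emb ha hb)
      (fun i j => (hd a b ha hb).of.comp (GP.v (Sum.inl (i, j)))) q x =
      (hd a b ha hb).of (GP.sF q x) := by
    rintro (_ | i | j) x
    · rfl
    · simp [diagS, GP.sF, stE, mul_assoc]
    · simp [diagS, GP.sF, stE, mul_assoc]
  have h1 : ∀ (i : Fin 4) (j j' : Fin 3), j ≠ j' → adj (Sum.inl (i, j)) (Sum.inl (i, j')) := by
    decide +kernel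
  have h2 : ∀ (i i' : Fin 4) (j : Fin 3), i ≠ i' → adj (Sum.inl (i, j)) (Sum.inl (i', j)) := by
    decide +kernel
  refine ⟨fun i j => (hd a b ha hb).of.comp (GP.v (Sum.inl (i, j))), ?_, ?_, fun p => ?_⟩
  · intro i j j' h x y
    exact (GP.v_comm (h1 i j j' h) x y).map (hd a b ha hb).of
  · intro i i' j h x y
    exact (GP.v_comm (h2 i i' j h) x y).map (hd a b ha hb).of
  · refine ⟨(hd a b ha hb).st (Sum.inl p), fun q x => ?_⟩
    rw [hd', hd', conj_u]

theorem free : ∃ u, ∀ x, u⁻¹ * emb ha hb x * u ∈ (emb ha hb).range → x = 1 := by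
  refine ⟨(hd a b ha hb).st (Sum.inr (Sum.inl (Sum.inr 0))), fun x hx => ?_⟩
  rw [conj_j] at hx
  obtain ⟨y, hy⟩ := hx
  have h : GP.sF none y = GP.v (Sum.inr 0) x := (hd a b ha hb).of_injective hy
  have h0 := congrArg (GP.ret (Sum.inr 0)) h
  have h1 := congrArg (GP.ret (Sum.inr 1)) h
  rw [GP.ret_sF (by decide), GP.ret_v, if_pos rfl] at h0
  rw [GP.ret_sF (by decide), GP.ret_v, if_neg (by decide)] at h1
  rw [← h0, h1]

theorem lip {N : Nrm X} (hN : ∀ x, x ≠ 1 → 0 < N x) (hab : ∀ k, N (a k) = N (b k)) :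
    (hd a b ha hb).Lip (GP.mu N) 1 := by
  refine HD.sum_lip ?_ (HD.sum_lip (HD.ofHoms_lip _ _ _ _ _ fun e x => ?_)
    (HD.ofHoms_lip _ _ _ _ _ fun _ k => ?_))
  · rintro ⟨p, c⟩ x hx
    cases c
    · have h1 := HD.tr_false ⟨fun _ => GP.D X, fun _ => GP.D X, dsw X⟩ p ⟨x, hx⟩
      have h2 := mu_dsw p hN ((dsw X p).symm ⟨x, hx⟩)
      rw [MulEquiv.apply_symm_apply] at h2
      simp only at h1 h2
      rw [h1, h2]
      exact Nat.le_add_right _ _
    · have h1 := HD.tr_true ⟨fun _ => GP.D X, fun _ => GP.D X, dsw X⟩ p ⟨x, hx⟩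
      have h2 := mu_dsw p hN ⟨x, hx⟩
      simp only at h1 h2
      rw [h1, h2]
      exact Nat.le_add_right _ _
  · rw [GP.S_apply, GP.mu_sF hN, GP.mu_v hN]
  · simp only [MonoidHom.comp_apply, GP.S_apply, GP.mu_sF hN, hab]

theorem gN_emb {N : Nrm X} (hN : ∀ x, x ≠ 1 → 0 < N x) (hab : ∀ k, N (a k) = N (b k)) (x : X) :
    gN ha hb N (emb ha hb x) = N x := by
  exact ((hd a b ha hb).nrm_of (lip ha hb hN hab) (GP.sF none x)).trans (GP.mu_sF hN none x)

theorem gN_gG {𝔄 : Type} {g : 𝔄 → X} {N : Nrm X} {w : ℕ} (hw : 1 ≤ w) (h : ∀ x, N (g x) ≤ w)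
    (x : (Ed × 𝔄) ⊕ GI) : gN ha hb N (gG ha hb g x) ≤ w := by
  rcases x with ⟨e, x⟩ | i
  · exact ((hd a b ha hb).nrm_of_le _ _ _).trans ((GP.mu_v_le N e (g x)).trans (h x))
  · exact ((hd a b ha hb).nrm_st_le _ _ _).trans hw

/-- the diagonal substitution -/
def sw {𝔄 : Type} (q : Pt) : FreeGroup 𝔄 →* FreeGroup (Ed × 𝔄) :=
  FreeGroup.lift fun x => ((stE q).map fun e => FreeGroup.of (e, x)).prod

theorem lift_sw {𝔄 : Type} (g : 𝔄 → X) (q : Pt) (w : FreeGroup 𝔄) :
    FreeGroup.lift (GP.gens g) (sw q w) = GP.S q (FreeGroup.lift g w) := by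
  have : (FreeGroup.lift (GP.gens g)).comp (sw q) = (GP.S q).comp (FreeGroup.lift g) := by
    ext x
    simp only [MonoidHom.comp_apply, sw, FreeGroup.lift_apply_of, map_list_prod, List.map_map,
      GP.S_apply, GP.sF]
    rfl
  exact DFunLike.congr_fun this w

theorem lift_embW {𝔄 : Type} (g : 𝔄 → X) (w : FreeGroup 𝔄) :
    FreeGroup.lift (gG ha hb g) (FreeGroup.lift (fun x => FreeGroup.mk (embW x)) w) =
      emb ha hb (FreeGroup.lift g w) := by
  have : (FreeGroup.lift (gG ha hb g)).comp (FreeGroup.lift fun x => FreeGroup.mk (embW x)) =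
      (emb ha hb).comp (FreeGroup.lift g) := by
    ext x
    simp only [MonoidHom.comp_apply, FreeGroup.lift_apply_of]
    exact wev_embW ha hb g x
  exact DFunLike.congr_fun this w

theorem lift_map {𝔄 : Type} (g : 𝔄 → X) (e : Ed) (w : FreeGroup 𝔄) :
    FreeGroup.lift (gG ha hb g) (FreeGroup.map Sum.inl (FreeGroup.map (fun x => (e, x)) w)) =
      (hd a b ha hb).of (GP.v e (FreeGroup.lift g w)) := by
  have : (FreeGroup.lift (gG ha hb g)).comp ((FreeGroup.map Sum.inl).comp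
      (FreeGroup.map (fun x => (e, x)))) =
      ((hd a b ha hb).of.comp (GP.v e)).comp (FreeGroup.lift g) := by
    ext x
    simp only [MonoidHom.comp_apply, FreeGroup.map.of, FreeGroup.lift_apply_of]
    rfl
  exact DFunLike.congr_fun this w

theorem D_eq {𝔄 : Type} {g : 𝔄 → X} (hg : Gens g) :
    GP.D X = Subgroup.closure (Set.range fun z : Pt × 𝔄 => GP.S z.1 (g z.2)) := by
  refine le_antisymm ?_ ?_
  · rw [GP.D, Subgroup.closure_le]
    rintro _ ⟨p, x, rfl⟩
    have h1 : GP.sF p x ∈ (GP.S p : X →* GP X).range := ⟨x, rfl⟩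
    rw [gad_range_eq hg] at h1
    refine Subgroup.closure_mono ?_ h1
    rintro _ ⟨y, rfl⟩
    exact ⟨(p, y), rfl⟩
  · rw [Subgroup.closure_le]
    rintro _ ⟨z, rfl⟩
    exact GP.sF_mem _ _

end Gad

section
variable {Sit : Type} {X K : Sit → Type} [∀ σ, Group (X σ)] [∀ σ, Group (K σ)]
  {a b : ∀ σ, K σ →* X σ} (ha : ∀ σ, Function.Injective (a σ))
  (hb : ∀ σ, Function.Injective (b σ)) {𝔄 : Type} {g : ∀ σ, 𝔄 → X σ}

/-- `UP.gp`, `UP.mh`, then `UP.elim`: the copies `v e ∘ sa`, `v e ∘ sb` are conjugate to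
`S none ∘ sa` through the letters `j_e` and `c`.  Here `κ σ = lift`-marking of `K σ` by `Y`. -/
theorem up_gad {Y : Type} [Finite Y] [Finite 𝔄] {N : Sit → Set (FreeGroup Y)} {κ : ∀ σ, Y → K σ}
    (hκ : ∀ σ, Gens (κ σ)) (hN : ∀ σ, ∀ n ∈ N σ, FreeGroup.lift (κ σ) n = 1)
    (sa sb : FreeGroup Y →* FreeGroup 𝔄)
    (hsa : ∀ σ y, FreeGroup.lift (g σ) (sa (FreeGroup.of y)) = a σ (κ σ y))
    (hsb : ∀ σ y, FreeGroup.lift (g σ) (sb (FreeGroup.of y)) = b σ (κ σ y))
    (h : UP N g {sa, sb}) :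
    UP N (fun σ => Gad.gG (ha σ) (hb σ) (g σ))
      {(FreeGroup.lift fun x => FreeGroup.mk (Gad.embW x)).comp sa} := by
  classical
  have hg : ∀ σ, Gens (g σ) := h.1
  have hsa' : ∀ σ w, FreeGroup.lift (g σ) (sa w) = a σ (FreeGroup.lift (κ σ) w) := by
    intro σ w
    have : (FreeGroup.lift (g σ)).comp sa = (a σ).comp (FreeGroup.lift (κ σ)) := by
      ext y
      simp only [MonoidHom.comp_apply, FreeGroup.lift_apply_of, hsa]
    exact DFunLike.congr_fun this w
  let L : GI → Set (FreeGroup (Ed × 𝔄) × FreeGroup (Ed × 𝔄)) := fun i =>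
    match i with
    | Sum.inl p => Set.range fun z : Pt × 𝔄 => (Gad.sw z.1 (FreeGroup.of z.2),
        Gad.sw (Equiv.swap none (some p) z.1) (FreeGroup.of z.2))
    | Sum.inr (Sum.inl e) => Set.range fun x : 𝔄 =>
        (Gad.sw none (FreeGroup.of x), FreeGroup.of (e, x))
    | Sum.inr (Sum.inr _) => Set.range fun y : Y =>
        (Gad.sw none (sa (FreeGroup.of y)), Gad.sw none (sb (FreeGroup.of y)))
  have h2 := UP.mh (fun σ => Gad.hd (a σ) (b σ) (ha σ) (hb σ)) L
    (by rintro (p | e | u) <;> exact Set.finite_range _) (by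
      rintro σ (p | e | u)
      · show GP.D (X σ) = _
        rw [Gad.D_eq (hg σ), ← Set.range_comp]
        refine congrArg _ (congrArg Set.range (funext fun z => ?_))
        simp only [Function.comp_apply, Gad.lift_sw, FreeGroup.lift_apply_of]
      · show (GP.S none : X σ →* GP (X σ)).range = _
        rw [gad_range_eq (hg σ), ← Set.range_comp]
        refine congrArg _ (congrArg Set.range (funext fun z => ?_))
        simp only [Function.comp_apply, Gad.lift_sw, FreeGroup.lift_apply_of]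
      · show ((GP.S none).comp (a σ)).range = _
        rw [gad_range_eq (hκ σ), ← Set.range_comp]
        refine congrArg _ (congrArg Set.range (funext fun z => ?_))
        simp only [Function.comp_apply, Gad.lift_sw, hsa, MonoidHom.comp_apply]) (by
      rintro σ (p | e | u) _ ⟨z, rfl⟩
      · simp only [Gad.lift_sw, FreeGroup.lift_apply_of, GP.S_apply]
        exact Gad.tr_u _ _ _ _ _
      · simp only [Gad.lift_sw, FreeGroup.lift_apply_of]
        exact Gad.tr_j _ _ _ _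
      · simp only [Gad.lift_sw, hsa, hsb]
        exact Gad.tr_c _ _ _) h.gp
  refine UP.elim ?_ _ ?_ ?_ h2
  · exact (Set.finite_iUnion fun e => (Set.toFinite _).image _).image _
  · intro σ n hn
    rw [MonoidHom.comp_apply]
    refine (Gad.lift_embW (ha σ) (hb σ) (g σ) _).trans ?_
    rw [hsa', hN σ n hn, map_one, map_one]
  · rintro _ ⟨s', hs', rfl⟩
    obtain ⟨e, s, hs, rfl⟩ := Set.mem_iUnion.1 hs'
    rcases Set.mem_insert_iff.1 hs with rfl | hs
    · refine ⟨FreeGroup.of (Sum.inr (Sum.inr (Sum.inl e))), fun σ y => ?_⟩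
      simp only [MonoidHom.comp_apply, map_mul, map_inv, FreeGroup.lift_apply_of]
      refine (Gad.lift_map (ha σ) (hb σ) (g σ) e _).trans ?_
      rw [← Gad.conj_j, ← Gad.lift_embW]
      rfl
    · obtain rfl : s = sb := hs
      refine ⟨FreeGroup.of (Sum.inr (Sum.inr (Sum.inr ()))) *
        FreeGroup.of (Sum.inr (Sum.inr (Sum.inl e))), fun σ y => ?_⟩
      simp only [MonoidHom.comp_apply, map_mul, map_inv, FreeGroup.lift_apply_of]
      refine (Gad.lift_map (ha σ) (hb σ) (g σ) e _).trans ?_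
      rw [← Gad.conj_j, hsb, ← Gad.conj_c, ← hsa, ← Gad.lift_embW, mul_inv_rev]
      simp only [mul_assoc]
      rfl

/-- `certS_MH_base` with `certS_GP_D`, `certS_GP_S`, `certS_GP_v` (`T = univ`, `range a`,
`range b`, `T`). -/
theorem certS_gad {E F : Type} [Primcodable E] [Primcodable F] {C : Ctx Sit E F} [Primcodable 𝔄]
    [Finite 𝔄] {N : ∀ σ, Nrm (X σ)} {f : ℕ → ℕ} (hf : Monotone f) (hg : ∀ σ, Gens (g σ))
    (hN : ∀ σ x, x ≠ 1 → 0 < N σ x) (hab : ∀ σ k, N σ (a σ k) = N σ (b σ k))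
    (hEq : CertEq C fun σ => Gad.gG (ha σ) (hb σ) (g σ)) (hne : CertS C g N f fun _ => {1}ᶜ)
    (hra : CertS C g N f fun σ => ((a σ).range : Set (X σ))ᶜ)
    (hrb : CertS C g N f fun σ => ((b σ).range : Set (X σ))ᶜ)
    {T : ∀ σ, Set (X σ)} (hT : CertS C g N f fun σ => (T σ)ᶜ) :
    CertS C (fun σ => Gad.gG (ha σ) (hb σ) (g σ)) (fun σ => Gad.gN (ha σ) (hb σ) (N σ))
      (fun n => f (8 * n)) fun σ => (Gad.emb (ha σ) (hb σ) '' T σ)ᶜ := by
  have hEq' : CertEq C fun σ => GP.gens (g σ) :=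
    CertEq.mh_base (D := fun σ => Gad.hd (a σ) (b σ) (ha σ) (hb σ)) hEq
  have hm : ∀ n, f (2 * n) ≤ f (4 * n) := fun n => hf (by omega)
  have hu : CertS C g N f fun σ => (Set.univ : Set (X σ))ᶜ :=
    CertS.empty.congr fun σ => Set.compl_univ.symm
  have h := certS_MH_base (X := C) (g := fun σ => GP.gens (g σ)) (N := fun σ => GP.mu (N σ))
    (f := fun n => f (4 * n)) (fun m n hmn => hf (by omega))
    (fun σ => GP.gens_gens (hg σ)) (D := fun σ => Gad.hd (a σ) (b σ) (ha σ) (hb σ)) (wt := 1)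
    (fun σ => Gad.lip (ha σ) (hb σ) (hN σ) (hab σ)) (T := fun σ => GP.S none '' T σ) hEq (by
      rintro ⟨p | e | u, c⟩ <;> cases c
      · exact certS_GP_D hf hg hN hEq' hne
      · exact certS_GP_D hf hg hN hEq' hne
      · refine ((certS_GP_v hf hg hN hEq' hne hu e).mono hm).congr fun σ => ?_
        rw [Set.image_univ]
        rfl
      · refine ((certS_GP_S hf hg hN hEq' hne hu none).mono hm).congr fun σ => ?_
        rw [Set.image_univ]
        rfl
      · refine ((certS_GP_S hf hg hN hEq' hne hrb none).mono hm).congr fun σ => ?_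
        rw [MonoidHom.coe_range, ← Set.range_comp]
        rfl
      · refine ((certS_GP_S hf hg hN hEq' hne hra none).mono hm).congr fun σ => ?_
        rw [MonoidHom.coe_range, ← Set.range_comp]
        rfl)
    ((certS_GP_S hf hg hN hEq' hne hT none).mono hm)
  refine (h.mono fun n => hf (by omega)).congr fun σ => ?_
  rw [Set.image_image]
  rfl

end

/-- every finitely presented group embeds by a magic homomorphism in a finitely presented group
(`Gad.hd` with `K = X`, `a = b = id`; `UP.const`, `UP.gp`, `UP.mh`, `UP.fp_empty`). -/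
theorem exists_magic_fp (X : Type) [Group X] [Group.IsFinitelyPresented X] :
    ∃ (Y : Type) (_ : Group Y) (φ : X →* Y), Group.IsFinitelyPresented Y ∧ Function.Injective φ ∧
      Magic φ := by
  obtain ⟨n, φ, hφ, -⟩ := (inferInstance : Group.IsFinitelyPresented X).out
  have hg : Gens fun i : Fin n => φ (FreeGroup.of i) := by
    rw [Gens, ← gad_range_eq (free_gens (Fin n)) φ]
    exact MonoidHom.range_eq_top.2 hφ
  have h1 : Function.Injective (1 : Unit →* X) := fun _ _ _ => Subsingleton.elim _ _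
  have h0 : UP (Sit := Unit) (Y := Empty) (fun _ => ∅) (G := fun _ => X)
      (fun _ (i : Fin n) => φ (FreeGroup.of i)) ∅ := UP.const hg
  have h2 : UP (Sit := Unit) (Y := Empty) (fun _ => ∅) (G := fun _ => X)
      (fun _ (i : Fin n) => φ (FreeGroup.of i)) {1, 1} := by
    obtain ⟨h3, r, hr, h4⟩ := h0
    exact ⟨h3, r, hr, fun σ => by simpa using h4 σ⟩
  have h3 := up_gad (K := fun _ => Unit) (a := fun _ => 1) (b := fun _ => 1) (fun _ => h1)
    (fun _ => h1) (κ := fun _ => Empty.elim) (fun _ => Subsingleton.elim _ _)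
    (fun _ n hn => absurd hn (Set.notMem_empty _)) 1 1 (fun _ y => y.elim) (fun _ y => y.elim) h2
  exact ⟨_, _, Gad.emb h1 h1,
    h3.fp () ⟨∅, Set.finite_empty, Set.empty_subset _, Set.empty_subset _⟩ (Set.finite_singleton _),
    Gad.emb_injective h1 h1, Gad.magic h1 h1⟩

theorem Magic.comp_left {H K L : Type} [Group H] [Group K] [Group L] {φ : H →* K} (h : Magic φ)
    (ψ : K →* L) : Magic (ψ.comp φ) := by
  obtain ⟨v, h1, h2, h3⟩ := h
  have hd : ∀ q x, diagS (ψ.comp φ) (fun i j => ψ.comp (v i j)) q x = ψ (diagS φ v q x) := by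
    rintro (_ | i | j) x <;> simp [diagS]
  refine ⟨fun i j => ψ.comp (v i j), fun i j j' hj x y => (h1 i j j' hj x y).map ψ,
    fun i i' j hi x y => (h2 i i' j hi x y).map ψ, fun p => ?_⟩
  obtain ⟨u, hu⟩ := h3 p
  refine ⟨ψ u, fun q x => ?_⟩
  rw [hd, hd, ← hu, map_mul, map_mul, map_inv]

theorem Magic.comp_right {H K L : Type} [Group H] [Group K] [Group L] {φ : K →* L} (h : Magic φ)
    (ψ : H →* K) : Magic (φ.comp ψ) := by
  obtain ⟨v, h1, h2, h3⟩ := h
  have hd : ∀ q x, diagS (φ.comp ψ) (fun i j => (v i j).comp ψ) q x = diagS φ v q (ψ x) := by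
    rintro (_ | i | j) x <;> rfl
  refine ⟨fun i j => (v i j).comp ψ, fun i j j' hj x y => h1 i j j' hj _ _,
    fun i i' j hi x y => h2 i i' j hi _ _, fun p => ?_⟩
  obtain ⟨u, hu⟩ := h3 p
  refine ⟨u, fun q x => ?_⟩
  rw [hd, hd, hu]

end Crest.Agent.R185
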