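import Crest.Agent.R185.HLDef

/-!
# R185 TASK HL1: list chains, the prism lemma
-/

set_option autoImplicit false

namespace Crest.Agent.R185.HCh

variable {G H : Type}

@[simp] theorem ext_single {β M : Type} [AddCommGroup M] (h : β → M) (b : β) (n : ℤ) :
    ext h (Finsupp.single b n) = n • h b := by
  simp [ext]


@[simp] theorem cn_single (x : G) (l : List G) (n : ℤ) :
    cn x (Finsupp.single l n) = Finsupp.single (x :: l) n := by
  simp [cn]

@[simp] theorem mp_single (f : G → H) (l : List G) (n : ℤ) :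
    mp f (Finsupp.single l n) = Finsupp.single (l.map f) n := by
  simp [mp]

@[simp] theorem bd_single (l : List G) (n : ℤ) : bd (Finsupp.single l n) = n • bdL l := by
  simp [bd]

theorem bdL_nil : bdL ([] : List G) = 0 := rfl

theorem bdL_cons (x : G) (l : List G) : bdL (x :: l) = Finsupp.single l 1 - cn x (bdL l) := rfl

theorem ext_congr {β M : Type} [AddCommGroup M] {h h' : β → M} {z : β →₀ ℤ}
    (hh : ∀ b ∈ z.support, h b = h' b) : ext h z = ext h' z := by
  simp only [ext, Finsupp.linearCombination_apply]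
  exact Finsupp.sum_congr fun b hb => by rw [hh b hb]

theorem ext_congr' {β M : Type} [AddCommGroup M] {h h' : β → M} {S : Set β} {z : β →₀ ℤ}
    (hz : z ∈ Finsupp.supported ℤ ℤ S) (hh : ∀ b ∈ S, h b = h' b) : ext h z = ext h' z :=
  ext_congr fun b hb => hh b (hz hb)

theorem map_ext {β M M' : Type} [AddCommGroup M] [AddCommGroup M'] (L : M →ₗ[ℤ] M') (h : β → M)
    (z : β →₀ ℤ) : L (ext h z) = ext (fun b => L (h b)) z := by
  induction z using Finsupp.induction_linear with
  | zero => simp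
  | add a b ha hb => simp [ha, hb]
  | single b n => simp

theorem ext_add {β M : Type} [AddCommGroup M] (h h' : β → M) (z : β →₀ ℤ) :
    ext (fun b => h b + h' b) z = ext h z + ext h' z := by
  induction z using Finsupp.induction_linear with
  | zero => simp
  | add a b ha hb => simp only [map_add, ha, hb]; abel
  | single b n => simp

theorem ext_sub {β M : Type} [AddCommGroup M] (h h' : β → M) (z : β →₀ ℤ) :
    ext (fun b => h b - h' b) z = ext h z - ext h' z := by
  induction z using Finsupp.induction_linear with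
  | zero => simp
  | add a b ha hb => simp only [map_add, ha, hb]; abel
  | single b n => simp [smul_sub]

theorem ext_zero {β M : Type} [AddCommGroup M] (z : β →₀ ℤ) : ext (fun _ => (0 : M)) z = 0 := by
  induction z using Finsupp.induction_linear with
  | zero => simp
  | add a b ha hb => simp only [map_add, ha, hb, add_zero]
  | single b n => simp

theorem ext_linear {β M : Type} [AddCommGroup M] (L : (β →₀ ℤ) →ₗ[ℤ] M) (z : β →₀ ℤ) :
    ext (fun b => L (Finsupp.single b 1)) z = L z := by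
  induction z using Finsupp.induction_linear with
  | zero => simp
  | add a b ha hb => simp only [map_add, ha, hb]
  | single b n => rw [ext_single, ← map_smul]; simp

theorem ext_single_id {β : Type} (z : β →₀ ℤ) : ext (fun b => Finsupp.single b (1 : ℤ)) z = z :=
  ext_linear LinearMap.id z

theorem ext_single_map (f : G → H) (z : HCh G) :
    ext (fun l : List G => Finsupp.single (l.map f) (1 : ℤ)) z = mp f z := by
  rw [← ext_linear (mp f) z]; simp

theorem mp_cn (f : G → H) (x : G) (z : HCh G) : mp f (cn x z) = cn (f x) (mp f z) := by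
  induction z using Finsupp.induction_linear with
  | zero => simp
  | add a b ha hb => simp only [map_add, ha, hb]
  | single b n => simp

theorem mp_bdL (f : G → H) (l : List G) : mp f (bdL l) = bdL (l.map f) := by
  induction l with
  | nil => simp [bdL_nil]
  | cons x l ih => rw [List.map_cons, bdL_cons, bdL_cons, map_sub, mp_cn, ih, mp_single]

theorem ext_bdL (z : HCh G) : ext bdL z = bd z := rfl

theorem bd_cn (x : G) (z : HCh G) : bd (cn x z) = z - cn x (bd z) := by
  induction z using Finsupp.induction_linear with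
  | zero => simp
  | add a b ha hb => simp only [map_add, ha, hb]; abel
  | single l n => simp [bdL_cons, smul_sub]


theorem bd_bdL (l : List G) : bd (bdL l) = 0 := by
  induction l with
  | nil => simp [bdL_nil]
  | cons x l ih => rw [bdL_cons, map_sub, bd_cn, ih]; simp

theorem bd_bd (z : HCh G) : bd (bd z) = 0 := by
  induction z using Finsupp.induction_linear with
  | zero => simp
  | add a b ha hb => simp only [map_add, ha, hb, add_zero]
  | single l n => simp [bd_bdL]


theorem bd_mp (f : G → H) (z : HCh G) : bd (mp f z) = mp f (bd z) := by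
  induction z using Finsupp.induction_linear with
  | zero => simp
  | add a b ha hb => simp only [map_add, ha, hb]
  | single l n => simp [mp_bdL]


theorem mp_mp {K : Type} (f : G → H) (g : H → K) (z : HCh G) : mp g (mp f z) = mp (g ∘ f) z := by
  induction z using Finsupp.induction_linear with
  | zero => simp
  | add a b ha hb => simp only [map_add, ha, hb]
  | single l n => simp


theorem mp_id (z : HCh G) : mp id z = z := by
  induction z using Finsupp.induction_linear with
  | zero => simp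
  | add a b ha hb => simp only [map_add, ha, hb]
  | single l n => simp


/-- the faces of a list are sublists -/
theorem bdL_support {l l' : List G} (h : l' ∈ (bdL l).support) :
    l'.Sublist l ∧ l'.length + 1 = l.length := by
  classical
  induction l generalizing l' with
  | nil => simp [bdL_nil] at h
  | cons x l ih =>
    rw [bdL_cons] at h
    rcases Finset.mem_union.1 (Finsupp.support_sub h) with h | h
    · have := Finsupp.support_single_subset h
      rw [Finset.mem_singleton] at this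
      subst this
      exact ⟨List.sublist_cons_self _ _, rfl⟩
    · have := Finsupp.mapDomain_support h
      obtain ⟨m, hm, rfl⟩ := Finset.mem_image.1 this
      obtain ⟨h1, h2⟩ := ih hm
      exact ⟨h1.cons_cons x, by simp [h2]⟩


theorem ext_mem {β M : Type} [AddCommGroup M] {h : β → M} {S : Set β} {N : Submodule ℤ M}
    (hh : ∀ b ∈ S, h b ∈ N) {z : β →₀ ℤ} (hz : z ∈ Finsupp.supported ℤ ℤ S) : ext h z ∈ N := by
  simp only [ext, Finsupp.linearCombination_apply]
  exact N.sum_mem fun b hb => N.smul_mem _ (hh b (hz hb))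


theorem linear_mem {β M : Type} [AddCommGroup M] (L : (β →₀ ℤ) →ₗ[ℤ] M) {S : Set β}
    {N : Submodule ℤ M} (hh : ∀ b ∈ S, L (Finsupp.single b 1) ∈ N) {z : β →₀ ℤ}
    (hz : z ∈ Finsupp.supported ℤ ℤ S) : L z ∈ N := by
  rw [← ext_linear L z]; exact ext_mem hh hz

theorem On_mono {Y Y' : Set G} (hY : Y ⊆ Y') (k : ℕ) : On k Y ≤ On k Y' :=
  Finsupp.supported_mono fun _ hl => ⟨hl.1, fun x hx => hY (hl.2 x hx)⟩

theorem single_mem_On {k : ℕ} {Y : Set G} {l : List G} (h1 : l.length = k) (h2 : ∀ x ∈ l, x ∈ Y)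
    (n : ℤ) : Finsupp.single l n ∈ On k Y :=
  Finsupp.single_mem_supported ℤ n ⟨h1, h2⟩

theorem cn_mem_On {k : ℕ} {Y : Set G} {x : G} (hx : x ∈ Y) {z : HCh G} (hz : z ∈ On k Y) :
    cn x z ∈ On (k + 1) Y := by
  refine linear_mem _ ?_ hz
  intro l hl
  rw [cn_single]
  refine single_mem_On (by simp [hl.1]) ?_ _
  intro y hy
  rcases List.mem_cons.1 hy with rfl | hy
  · exact hx
  · exact hl.2 y hy

/-- the iterated cone construction -/
noncomputable def prismH {β : Type} (d : β → (β →₀ ℤ)) (Ψ : β → HCh G) (v : β → G) : ℕ → β → HCh G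
  | 0 => fun b => cn (v b) (Ψ b)
  | n + 1 => fun b => cn (v b) (Ψ b - ext (prismH d Ψ v n) (d b))

/-- A chain map `Ψ` from a based complex to list chains, with carriers, is null-homotopic:
`h b = cn (v b) (Ψ b - ext h (d b))`, recursion on `len`. -/
theorem prism {β : Type} (len : β → ℕ) (d : β → (β →₀ ℤ)) (P : Set β) (Ψ : β → HCh G)
    (car : β → Set G) (v : β → G)
    (hd : ∀ b ∈ P, ∀ b' ∈ (d b).support, b' ∈ P ∧ len b' + 1 = len b ∧ car b' ⊆ car b)
    (hdd : ∀ b ∈ P, ext d (d b) = 0) (hΨ : ∀ b ∈ P, bd (Ψ b) = ext Ψ (d b))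
    (hcar : ∀ b ∈ P, Ψ b ∈ On (len b) (car b))
    (hv : ∀ b ∈ P, v b ∈ car b ∨ (Ψ b = 0 ∧ d b = 0)) :
    ∃ h : β → HCh G, ∀ b ∈ P, h b ∈ On (len b + 1) (car b) ∧ bd (h b) + ext h (d b) = Ψ b := by
  let h : β → HCh G := fun b => prismH d Ψ v (len b) b
  have hh : ∀ b ∈ P, h b = cn (v b) (Ψ b - ext h (d b)) := by
    intro b hb
    cases hn : len b with
    | zero =>
      have : d b = 0 := by
        rw [← Finsupp.support_eq_empty, Finset.eq_empty_iff_forall_notMem]
        intro b' hb'
        have := (hd b hb b' hb').2.1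
        omega
      simp only [h, hn, prismH, this, map_zero, sub_zero]
    | succ n =>
      have : ext h (d b) = ext (prismH d Ψ v n) (d b) := by
        refine ext_congr fun b' hb' => ?_
        have : len b' = n := by have := (hd b hb b' hb').2.1; omega
        simp only [h, this]
      rw [this]
      simp only [h, hn, prismH]
  refine ⟨h, ?_⟩
  suffices H : ∀ n, ∀ b ∈ P, len b = n →
      h b ∈ On (len b + 1) (car b) ∧ bd (h b) + ext h (d b) = Ψ b from
    fun b hb => H _ b hb rfl
  intro n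
  induction n using Nat.strong_induction_on with
  | _ n ih =>
    intro b hb hn
    have ih' : ∀ b' ∈ (d b).support,
        h b' ∈ On (len b' + 1) (car b') ∧ bd (h b') + ext h (d b') = Ψ b' := by
      intro b' hb'
      obtain ⟨h1, h2, -⟩ := hd b hb b' hb'
      exact ih (len b') (by omega) b' h1 rfl
    have hc : Ψ b - ext h (d b) ∈ On (len b) (car b) := by
      refine Submodule.sub_mem _ (hcar b hb) ?_
      refine ext_mem (S := (d b).support) ?_ (by simp [Finsupp.mem_supported])
      intro b' hb'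
      obtain ⟨-, h2, h3⟩ := hd b hb b' hb'
      rw [← h2]
      exact On_mono h3 _ (ih' b' hb').1
    have h0 : bd (Ψ b - ext h (d b)) = 0 := by
      rw [map_sub, hΨ b hb, map_ext]
      have : ext (fun b => bd (h b)) (d b) = ext (fun b' => Ψ b' - ext h (d b')) (d b) :=
        ext_congr fun b' hb' => eq_sub_of_add_eq (ih' b' hb').2
      rw [this, ext_sub, ← map_ext (ext h) d, hdd b hb]
      simp
    refine ⟨?_, ?_⟩
    · rw [hh b hb]
      rcases hv b hb with h1 | ⟨h1, h2⟩
      · exact cn_mem_On h1 hc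
      · simp [h1, h2]
    · conv_lhs => rw [hh b hb]
      rw [bd_cn, h0]
      simp


variable [Group G] [Group H]

theorem CS_mono {A A' : Set G} {Y Y' : Set G} (hA : A ⊆ A') (hY : Y ⊆ Y') (k : ℕ) :
    CS A k Y ≤ CS A' k Y' := Finsupp.supported_mono fun _ hl =>
    ⟨hl.1, fun x hx y hy => hA (hl.2.1 x hx y hy), fun x hx => hY (hl.2.2 x hx)⟩


omit [Group H] in
theorem Sm.sublist {A : Set G} {l l' : List G} (h : Sm A l) (hl : l'.Sublist l) : Sm A l' :=
  fun x hx y hy => h x (hl.subset hx) y (hl.subset hy)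

theorem single_mem_CS {A Y : Set G} {k : ℕ} {l : List G} (h1 : l.length = k) (h2 : Sm A l)
    (h3 : ∀ x ∈ l, x ∈ Y) (n : ℤ) : Finsupp.single l n ∈ CS A k Y :=
  Finsupp.single_mem_supported ℤ n ⟨h1, h2, h3⟩

theorem bdL_mem {A Y : Set G} {k : ℕ} {l : List G} (h1 : l.length = k + 1) (h2 : Sm A l)
    (h3 : ∀ x ∈ l, x ∈ Y) : bdL l ∈ CS A k Y := by
  intro l' hl'
  obtain ⟨a, b⟩ := bdL_support hl'
  exact ⟨by omega, h2.sublist a, fun x hx => h3 x (a.subset hx)⟩

theorem bd_mem {A Y : Set G} {k : ℕ} {z : HCh G} (hz : z ∈ CS A (k + 1) Y) : bd z ∈ CS A k Y := ext_mem (fun _ hl => bdL_mem hl.1 hl.2.1 hl.2.2) hz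


theorem mp_mem {A Y : Set G} {B Y' : Set H} {k : ℕ} {f : G → H}
    (hf : ∀ x ∈ Y, ∀ y ∈ Y, x⁻¹ * y ∈ A → (f x)⁻¹ * f y ∈ B) (hY : Set.MapsTo f Y Y') {z : HCh G}
    (hz : z ∈ CS A k Y) : mp f z ∈ CS B k Y' := by
  refine linear_mem _ ?_ hz
  intro l hl
  rw [mp_single]
  refine single_mem_CS (by simp [hl.1]) ?_ ?_ _
  · intro x hx y hy
    obtain ⟨x', hx', rfl⟩ := List.mem_map.1 hx
    obtain ⟨y', hy', rfl⟩ := List.mem_map.1 hy
    exact hf _ (hl.2.2 _ hx') _ (hl.2.2 _ hy') (hl.2.1 _ hx' _ hy')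
  · intro x hx
    obtain ⟨x', hx', rfl⟩ := List.mem_map.1 hx
    exact hY (hl.2.2 _ hx')


theorem On_le_CS {B Y Y' : Set G} (h : ∀ x ∈ Y, ∀ y ∈ Y, x⁻¹ * y ∈ B) (hY : Y ⊆ Y') (k : ℕ) :
    On k Y ≤ CS B k Y' := Finsupp.supported_mono fun _ hl =>
    ⟨hl.1, fun x hx y hy => h x (hl.2 x hx) y (hl.2 y hy), fun x hx => hY (hl.2 x hx)⟩


/-- close maps induce homologous cycles (`prism` with `Ψ l = [f l] - [f' l]`). -/
theorem close {A Y : Set G} {B Y' : Set H} {k : ℕ} {f f' : G → H}
    (hB : ∀ x ∈ Y, ∀ y ∈ Y, x⁻¹ * y ∈ A → (f x)⁻¹ * f y ∈ B ∧ (f x)⁻¹ * f' y ∈ B ∧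
      (f' x)⁻¹ * f y ∈ B ∧ (f' x)⁻¹ * f' y ∈ B)
    (hY : Set.MapsTo f Y Y') (hY' : Set.MapsTo f' Y Y') {z : HCh G} (hz : z ∈ CS A k Y)
    (h0 : bd z = 0) : ∃ w ∈ CS B (k + 1) Y', bd w = mp f z - mp f' z := by
  obtain ⟨h, hh⟩ := prism (G := H) List.length bdL {l : List G | Sm A l ∧ ∀ x ∈ l, x ∈ Y}
    (fun l => Finsupp.single (l.map f) 1 - Finsupp.single (l.map f') 1)
    (fun l => {y | ∃ x ∈ l, y = f x ∨ y = f' x}) (fun l => f (l.headD 1))
    (by
      intro l hl l' hl'
      obtain ⟨a, b⟩ := bdL_support hl'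
      refine ⟨⟨hl.1.sublist a, fun x hx => hl.2 x (a.subset hx)⟩, b, ?_⟩
      rintro y ⟨x, hx, hy⟩
      exact ⟨x, a.subset hx, hy⟩)
    (fun l _ => bd_bdL l)
    (by
      intro l _
      rw [ext_sub, ext_single_map, ext_single_map, mp_bdL, mp_bdL]
      simp)
    (by
      intro l _
      refine Submodule.sub_mem _ (single_mem_On (by simp) ?_ _) (single_mem_On (by simp) ?_ _)
      · intro y hy
        obtain ⟨x, hx, rfl⟩ := List.mem_map.1 hy
        exact ⟨x, hx, Or.inl rfl⟩
      · intro y hy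
        obtain ⟨x, hx, rfl⟩ := List.mem_map.1 hy
        exact ⟨x, hx, Or.inr rfl⟩)
    (by
      intro l _
      cases l with
      | nil => right; simp [bdL_nil]
      | cons x l => left; exact ⟨x, by simp, Or.inl rfl⟩)
  refine ⟨ext h z, ext_mem ?_ hz, ?_⟩
  · intro l hl
    have := (hh l hl.2).1
    rw [hl.1] at this
    refine On_le_CS ?_ ?_ _ this
    · rintro _ ⟨x, hx, h1⟩ _ ⟨y, hy, h2⟩
      have := hB x (hl.2.2 x hx) y (hl.2.2 y hy) (hl.2.1 x hx y hy)
      rcases h1 with rfl | rfl <;> rcases h2 with rfl | rfl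
      exacts [this.1, this.2.1, this.2.2.1, this.2.2.2]
    · rintro _ ⟨x, hx, rfl | rfl⟩
      exacts [hY (hl.2.2 x hx), hY' (hl.2.2 x hx)]
  · rw [map_ext, ext_congr' hz (fun l hl => eq_sub_of_add_eq (hh l hl.2).2), ext_sub, ext_sub,
      ext_single_map, ext_single_map, ← map_ext (ext h) bdL, ext_bdL, h0]
    simp


theorem Null.mono {f : G → H} {n m : ℕ} (h : Null f n) (hm : m ≤ n) : Null f m := by
  intro A hA
  obtain ⟨B, hB, h', h0, h1⟩ := h A hA
  exact ⟨B, hB, h', h0, fun l hl => h1 l (hl.trans hm)⟩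


theorem Null.kill {f : G → H} {n : ℕ} (h : Null f n) : Kill f n := by
  intro A hA
  obtain ⟨B, hB, h', -, h1⟩ := h A hA
  refine ⟨B, hB, fun z hz h0 => ⟨ext h' z, ext_mem ?_ hz, ?_⟩⟩
  · intro l hl
    have := (h1 l hl.1.le hl.2.1).1
    rwa [hl.1] at this
  · rw [map_ext, ext_congr' hz (fun l hl => eq_sub_of_add_eq (h1 l hl.1.le hl.2.1).2), ext_sub,
      ext_single_map, ← map_ext (ext h') bdL, ext_bdL, h0]
    simp


theorem null_zero (f : G → H) : Null f 0 := by
  intro A _
  refine ⟨{1}, Set.finite_singleton _, fun _ => Finsupp.single [1] 1, rfl, ?_⟩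
  intro l hl _
  have : l = [] := List.length_eq_zero_iff.1 (by omega)
  subst this
  refine ⟨single_mem_CS rfl ?_ (by simp) _, by simp [bdL_nil, bdL_cons]⟩
  simp [Sm]


/-- reduced `0`-cycles bound in the Cayley graph -/
theorem kill_one [Group.FG G] : Kill (id : G → G) 1 := by
  intro A _
  obtain ⟨S, hS, hSf⟩ := Group.fg_iff.1 (inferInstance : Group.FG G)
  refine ⟨S ∪ S⁻¹ ∪ {1}, (hSf.union hSf.inv).union (Set.finite_singleton _), ?_⟩
  have key : ∀ g s : G, s ∈ S ∪ S⁻¹ →
      Finsupp.single [g, g * s] (1 : ℤ) ∈ CS (S ∪ S⁻¹ ∪ {1}) 2 Set.univ := by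
    intro g s hs
    refine single_mem_CS rfl ?_ (by simp) _
    intro x hx y hy
    simp only [List.mem_cons, List.not_mem_nil, or_false] at hx hy
    rcases hx with rfl | rfl <;> rcases hy with rfl | rfl
    · simp
    · left; simpa using hs
    · left; simpa [or_comm] using hs
    · simp
  have hw : ∀ g : G, ∃ w ∈ CS (S ∪ S⁻¹ ∪ {1}) 2 Set.univ,
      bd w = Finsupp.single [g] 1 - Finsupp.single [1] 1 := by
    intro g
    have hg : g ∈ Subgroup.closure S := by rw [hS]; trivial
    induction hg using Subgroup.closure_induction_right with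
    | one => exact ⟨0, Submodule.zero_mem _, by simp⟩
    | mul_right x _ s hs ih =>
      obtain ⟨w, h1, h2⟩ := ih
      refine ⟨w + Finsupp.single [x, x * s] 1, Submodule.add_mem _ h1 (key _ _ (Or.inl hs)), ?_⟩
      simp [h2, bdL_cons, bdL_nil]
    | mul_inv_cancel x _ s hs ih =>
      obtain ⟨w, h1, h2⟩ := ih
      refine ⟨w + Finsupp.single [x, x * s⁻¹] 1,
        Submodule.add_mem _ h1 (key _ _ (Or.inr (by simpa using hs))), ?_⟩
      simp [h2, bdL_cons, bdL_nil]
  choose w hw1 hw2 using hw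
  intro z hz h0
  refine ⟨ext (fun l => w (l.headD 1)) z, ext_mem (fun l _ => hw1 _) hz, ?_⟩
  have : ∀ l ∈ {l : List G | l.length = 1 ∧ Sm A l ∧ ∀ x ∈ l, x ∈ Set.univ},
      bd (w (l.headD 1)) = Finsupp.single l 1 - cn 1 (bdL l) := by
    intro l hl
    obtain ⟨x, rfl⟩ := List.length_eq_one_iff.1 hl.1
    rw [hw2]
    simp [bdL_cons, bdL_nil]
  rw [map_ext, ext_congr' hz this, ext_sub, ext_single_id, ← map_ext (cn 1) bdL, ext_bdL, h0, mp_id]
  simp


/-- `h' l = f' (h l)` for short lists; for `l` of length `n + 1` the chain `[f l] - h (bd l)` is a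
cycle. -/
theorem Null.succ {K : Type} [Group K] {f : G →* H} {f' : H →* K} {n : ℕ} (h : Null f n)
    (h' : Kill f' (n + 1)) : Null (f'.comp f) (n + 1) := by
  classical
  intro A hA
  obtain ⟨B, hB, hm, h0, h1⟩ := h A hA
  obtain ⟨C, hC, hC'⟩ := h' (B ∪ f '' A) (hB.union (hA.image f))
  have hbd : ∀ l : List G, l.length ≤ n + 1 → Sm A l → ∀ l' ∈ (bdL l).support,
      l'.length ≤ n ∧ Sm A l' ∧ l'.length + 1 = l.length := by
    intro l hl hs l' hl'
    obtain ⟨a, b⟩ := bdL_support hl'
    exact ⟨by omega, hs.sublist a, b⟩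
  have hw : ∀ l : List G, ∃ w : HCh K, l.length = n + 1 → Sm A l →
      w ∈ CS C (n + 2) Set.univ ∧
        bd w = mp f' (Finsupp.single (l.map f) 1 - ext hm (bdL l)) := by
    intro l
    by_cases hl : l.length = n + 1 ∧ Sm A l
    · obtain ⟨hl, hs⟩ := hl
      obtain ⟨w, hw1, hw2⟩ := hC' (Finsupp.single (l.map f) 1 - ext hm (bdL l)) (by
        refine Submodule.sub_mem _ (single_mem_CS (by simp [hl]) ?_ (by simp) _) ?_
        · intro x hx y hy
          obtain ⟨x', hx', rfl⟩ := List.mem_map.1 hx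
          obtain ⟨y', hy', rfl⟩ := List.mem_map.1 hy
          exact Or.inr ⟨_, hs _ hx' _ hy', by simp⟩
        · refine ext_mem (S := (bdL l).support) ?_ (by simp [Finsupp.mem_supported])
          intro l' hl'
          obtain ⟨a1, a2, a3⟩ := hbd l hl.le hs l' hl'
          have := (h1 l' a1 a2).1
          rw [a3, hl] at this
          exact CS_mono Set.subset_union_left le_rfl _ this) (by
        rw [map_sub, map_ext, ext_congr (fun l' hl' => eq_sub_of_add_eq
          (h1 l' (hbd l hl.le hs l' hl').1 (hbd l hl.le hs l' hl').2.1).2), ext_sub,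
          ext_single_map, ← map_ext (ext hm) bdL, ext_bdL, bd_bdL, mp_bdL]
        simp)
      exact ⟨w, fun _ _ => ⟨hw1, hw2⟩⟩
    · exact ⟨0, fun a b => absurd ⟨a, b⟩ hl⟩
  choose w hw using hw
  refine ⟨C ∪ f' '' B, hC.union (hB.image f'),
    fun l => if l.length ≤ n then mp f' (hm l) else w l, by simp [h0], ?_⟩
  intro l hl hs
  have e1 : ext (fun l => if l.length ≤ n then mp f' (hm l) else w l) (bdL l) =
      mp f' (ext hm (bdL l)) := by
    rw [map_ext]
    exact ext_congr fun l' hl' => if_pos (hbd l hl hs l' hl').1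
  rw [e1]
  by_cases hn : l.length ≤ n
  · simp only [if_pos hn]
    obtain ⟨a1, a2⟩ := h1 l hn hs
    refine ⟨mp_mem (f := f') (B := C ∪ f' '' B) (fun x _ y _ hxy => Or.inr ⟨_, hxy, by simp⟩)
      (Set.mapsTo_univ _ _) a1, ?_⟩
    rw [bd_mp, ← map_add, a2]
    simp
  · simp only [if_neg hn]
    have hl' : l.length = n + 1 := by omega
    obtain ⟨a1, a2⟩ := hw l hl' hs
    refine ⟨by rw [hl']; exact CS_mono Set.subset_union_left le_rfl _ a1, ?_⟩
    rw [a2, ← map_add]
    simp


end Crest.Agent.R185.HCh
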