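import Crest.Agent.R185.HL1

/-!
# R185 TASK HL2: commuting homomorphisms are additive on coarse homology

Work with the unaugmented boundary `bd' [x] = 0`, `bd' l = bdL l` for `l.length ≥ 2`, on nonempty
lists, and the tensor complex `T = (List × List) →₀ ℤ` with
`D (l, l') = bd' l ⊗ l' + (-1)^(l.length - 1) l ⊗ bd' l'`.
* `AW l = ∑_{i < l.length} (l.take (i+1), l.drop i)` is a chain map
  (`AW (x :: l) = ([x], x :: l) + (cn x ⊗ id) (AW l)` for `l ≠ []`).
* `EZ : T H' → HCh K` is defined by recursion on the total length: `EZ (l, [y]) = l.map (a · * b y)`,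
  `EZ ([x], l') = l'.map (a x * b ·)`, otherwise `EZ (l, l') = cn (a l.head * b l'.head) (EZ (D (l, l')))`;
  it is a chain map carried by `{a x * b y | x ∈ l, y ∈ l'}`, a small set as `a`, `b` commute.
* `Ψ l = [l.map (a f · * b f ·)] - EZ (f ⊗ f) (AW l)` (and `Ψ [] = 0`) is a chain map to the augmented
  complex carried by `{a (f x) * b (f y) | x, y ∈ l}`; apply `prism`.
* Let `h` be the null-homotopy on lengths `≤ k`, `h l = 0` for longer lists, and
  `g = f - bd' h - h bd'` on nonempty lists: a chain map with `g [x] = [1]`, `g l = 0` for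
  `2 ≤ l.length ≤ k`, and `g z = f z` for a cycle `z` of length `k + 1`.
  `f ⊗ f - g ⊗ g = D κ + κ D` for `κ (l, l') = h l ⊗ f l' + (-1)^(l.length - 1) g l ⊗ h l'`, and
  `(g ⊗ g) (AW z) = [1] ⊗ g z + g z ⊗ [1]`.
-/

set_option autoImplicit false

namespace Crest.Agent.R185.HCh

section Aux

variable {X Y K : Type}

/-- sign operator -/
noncomputable def tau : HCh X →ₗ[ℤ] HCh X := ext fun l => Finsupp.single l ((-1 : ℤ) ^ l.length)

/-- indicator of the empty list -/
def etaL : List X → ℤ
  | [] => 1
  | _ :: _ => 0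

/-- coefficient of the empty list -/
noncomputable def eta : HCh X →ₗ[ℤ] ℤ := ext etaL

@[simp] theorem tau_single (l : List X) (n : ℤ) :
    tau (Finsupp.single l n) = Finsupp.single l (n * (-1 : ℤ) ^ l.length) := by
  simp [tau]

@[simp] theorem eta_single (l : List X) (n : ℤ) : eta (Finsupp.single l n) = n * etaL l := by
  simp [eta]

theorem tau_cn (x : X) (c : HCh X) : tau (cn x c) = -cn x (tau c) := by
  induction c using Finsupp.induction_linear with
  | zero => simp
  | add a b ha hb => simp only [map_add, ha, hb]; abel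
  | single l n => simp [pow_succ, -Finsupp.single_mul]

theorem tau_tau (c : HCh X) : tau (tau c) = c := by
  induction c using Finsupp.induction_linear with
  | zero => simp
  | add a b ha hb => simp only [map_add, ha, hb]
  | single l n => rw [tau_single, tau_single, mul_assoc, ← mul_pow]; simp

theorem tau_bd (c : HCh X) : tau (bd c) = -bd (tau c) := by
  induction c using Finsupp.induction_linear with
  | zero => simp
  | add a b ha hb => simp only [map_add, ha, hb]; abel
  | single l n =>
    induction l generalizing n with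
    | nil => simp [bdL_nil]
    | cons x l ih =>
      rw [← cn_single, bd_cn, map_sub, tau_cn, tau_cn, ih, map_neg, map_neg, bd_cn]
      abel

theorem bd_tau (c : HCh X) : bd (tau c) = -tau (bd c) := by rw [tau_bd, neg_neg]

theorem tau_mp (f : X → Y) (c : HCh X) : tau (mp f c) = mp f (tau c) := by
  induction c using Finsupp.induction_linear with
  | zero => simp
  | add a b ha hb => simp only [map_add, ha, hb]
  | single l n => simp [-Finsupp.single_mul]

theorem eta_cn (x : X) (c : HCh X) : eta (cn x c) = 0 := by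
  induction c using Finsupp.induction_linear with
  | zero => simp
  | add a b ha hb => simp only [map_add, ha, hb, add_zero]
  | single l n => simp [etaL]

theorem eta_tau (c : HCh X) : eta (tau c) = eta c := by
  induction c using Finsupp.induction_linear with
  | zero => simp
  | add a b ha hb => simp only [map_add, ha, hb]
  | single l n => cases l <;> simp [etaL, -Finsupp.single_mul]

theorem eta_mp (f : X → Y) (c : HCh X) : eta (mp f c) = eta c := by
  induction c using Finsupp.induction_linear with
  | zero => simp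
  | add a b ha hb => simp only [map_add, ha, hb]
  | single l n => cases l <;> simp [etaL]

theorem eta_bd_cn (x : X) (c : HCh X) : eta (bd (cn x c)) = eta c := by
  rw [bd_cn, map_sub, eta_cn, sub_zero]

theorem tau_of_len {k : ℕ} {c : HCh X} (hc : ∀ l ∈ c.support, l.length = k) :
    tau c = ((-1 : ℤ) ^ k) • c := by
  have : tau c = ext (fun l => Finsupp.single l ((-1 : ℤ) ^ k)) c :=
    ext_congr fun l hl => by rw [hc l hl]
  rw [this]
  have h2 := ext_linear (((-1 : ℤ) ^ k) • (LinearMap.id : HCh X →ₗ[ℤ] HCh X)) c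
  simp only [LinearMap.smul_apply, LinearMap.id_apply, Finsupp.smul_single, smul_eq_mul,
    mul_one] at h2
  exact h2

theorem eta_of_len {k : ℕ} {c : HCh X} (hc : ∀ l ∈ c.support, l.length = k + 1) : eta c = 0 := by
  have : eta c = ext (fun _ => (0 : ℤ)) c := ext_congr fun l hl => by
    have := hc l hl
    cases l with
    | nil => simp at this
    | cons x l => rfl
  rw [this, ext_zero]

/-- the shuffle product -/
noncomputable def sh (m : X → Y → K) : List X → List Y → HCh K
  | [], _ => 0
  | _ :: _, [] => 0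
  | x :: l, y :: l' => cn (m x y) (sh m l (y :: l') + ((-1 : ℤ) ^ l.length) • sh m (x :: l) l' +
      (etaL l * etaL l') • Finsupp.single [] 1)
termination_by l l' => l.length + l'.length

/-- the bilinear shuffle product -/
noncomputable def Sh (m : X → Y → K) : HCh X →ₗ[ℤ] HCh Y →ₗ[ℤ] HCh K :=
  Finsupp.linearCombination ℤ fun l => (ext (sh m l) : HCh Y →ₗ[ℤ] HCh K)

variable (m : X → Y → K)

theorem Sh_single (l : List X) (n : ℤ) (l' : List Y) (n' : ℤ) :
    Sh m (Finsupp.single l n) (Finsupp.single l' n') = (n * n') • sh m l l' := by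
  simp [Sh, mul_smul]

theorem sh_nil_left (l' : List Y) : sh m [] l' = 0 := by rw [sh]

theorem sh_nil_right (l : List X) : sh m l [] = 0 := by cases l <;> rw [sh]

theorem sh_cons (x : X) (l : List X) (y : Y) (l' : List Y) :
    sh m (x :: l) (y :: l') = cn (m x y) (sh m l (y :: l') +
      ((-1 : ℤ) ^ l.length) • sh m (x :: l) l' + (etaL l * etaL l') • Finsupp.single [] 1) := by
  rw [sh]

theorem Sh_nil_left (n : ℤ) (c : HCh Y) : Sh m (Finsupp.single [] n) c = 0 := by
  induction c using Finsupp.induction_linear with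
  | zero => simp
  | add a b ha hb => simp only [map_add, ha, hb, add_zero]
  | single l n => rw [Sh_single, sh_nil_left, smul_zero]

theorem Sh_nil_right (n : ℤ) (c : HCh X) : Sh m c (Finsupp.single [] n) = 0 := by
  induction c using Finsupp.induction_linear with
  | zero => simp
  | add a b ha hb => simp only [map_add, LinearMap.add_apply, ha, hb, add_zero]
  | single l n => rw [Sh_single, sh_nil_right, smul_zero]

theorem Sh_cn (x : X) (y : Y) (c : HCh X) (c' : HCh Y) :
    Sh m (cn x c) (cn y c') = cn (m x y) (Sh m c (cn y c') + Sh m (cn x (tau c)) c' +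
      (eta c * eta c') • Finsupp.single [] 1) := by
  induction c using Finsupp.induction_linear with
  | zero => simp
  | add a b ha hb =>
    simp only [map_add, LinearMap.add_apply, add_mul, add_smul] at ha hb ⊢
    rw [ha, hb]; abel
  | single l n =>
    induction c' using Finsupp.induction_linear with
    | zero => simp
    | add a b ha hb =>
      simp only [map_add, mul_add, add_smul] at ha hb ⊢
      rw [ha, hb]; abel
    | single l' n' =>
      rw [tau_single, cn_single, cn_single, cn_single, Sh_single,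
        Sh_single, Sh_single, sh_cons, eta_single, eta_single, ← map_smul]
      congr 1
      module

/-- the chain map identity -/
def ShP (c : HCh X) (c' : HCh Y) : Prop :=
  bd (Sh m c c') = Sh m (bd c) c' - Sh m (tau c) (bd c') +
    (eta (bd c) * eta (bd c')) • Finsupp.single [] 1

theorem shP_step (x : X) (y : Y) (c : HCh X) (c' : HCh Y) (h1 : ShP m c (cn y c'))
    (h2 : ShP m (cn x (tau c)) c') : ShP m (cn x c) (cn y c') := by
  unfold ShP at h1 h2 ⊢
  have e1 := Sh_cn m x y (bd c) c'
  have e2 := Sh_cn m x y (tau c) (bd c')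
  rw [eta_bd_cn] at h1 h2
  rw [Sh_cn, bd_cn, map_add bd, map_add bd, h1, h2, eta_bd_cn, eta_bd_cn]
  simp only [bd_cn, tau_cn, tau_tau, bd_tau, eta_tau, map_sub, map_add, map_neg, map_smul,
    LinearMap.sub_apply, LinearMap.neg_apply, bd_single, bdL_nil, smul_zero, map_zero,
    sub_neg_eq_add, LinearMap.add_apply] at e1 e2 ⊢
  rw [e1, e2]
  abel

theorem bd_Sh (c : HCh X) (c' : HCh Y) :
    bd (Sh m c c') = Sh m (bd c) c' - Sh m (tau c) (bd c') +
      (eta (bd c) * eta (bd c')) • Finsupp.single [] 1 := by
  induction c using Finsupp.induction_linear with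
  | zero => simp
  | add a b ha hb =>
    simp only [map_add, LinearMap.add_apply, add_mul, add_smul] at ha hb ⊢
    rw [ha, hb]; abel
  | single l n =>
    induction c' using Finsupp.induction_linear with
    | zero => simp
    | add a b ha hb =>
      simp only [map_add, mul_add, add_smul] at ha hb ⊢
      rw [ha, hb]; abel
    | single l' n' =>
      induction l generalizing l' n n' with
      | nil => simp [bdL_nil, Sh_nil_left]
      | cons x l ih =>
        induction l' generalizing n n' with
        | nil => simp [bdL_nil, Sh_nil_right]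
        | cons y l' ih' =>
          rw [← cn_single x, ← cn_single y]
          apply shP_step
          · rw [cn_single]; exact ih _ _ _
          · rw [tau_single, cn_single]; exact ih' _ _

theorem sh_right (y : Y) (x : X) (l : List X) :
    sh m (x :: l) [y] = Finsupp.single ((x :: l).map fun x => m x y) 1 := by
  induction l generalizing x with
  | nil => simp [sh_cons, sh_nil_left, sh_nil_right, etaL]
  | cons x' l ih => rw [sh_cons, ih, sh_nil_right]; simp [etaL]

theorem sh_left (x : X) (y : Y) (l : List Y) :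
    sh m [x] (y :: l) = Finsupp.single ((y :: l).map (m x)) 1 := by
  induction l generalizing y with
  | nil => simp [sh_cons, sh_nil_left, sh_nil_right, etaL]
  | cons y' l ih => rw [sh_cons, ih, sh_nil_left]; simp [etaL]

theorem Sh_right (y : Y) {k : ℕ} {c : HCh X} (hc : ∀ l ∈ c.support, l.length = k + 1) :
    Sh m c (Finsupp.single [y] 1) = mp (fun x => m x y) c := by
  rw [← ext_single_map, ← LinearMap.flip_apply, ← ext_linear]
  refine ext_congr fun l hl => ?_
  have := hc l hl
  cases l with
  | nil => simp at this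
  | cons x l => rw [LinearMap.flip_apply, Sh_single, sh_right]; simp

theorem Sh_left (x : X) {k : ℕ} {c : HCh Y} (hc : ∀ l ∈ c.support, l.length = k + 1) :
    Sh m (Finsupp.single [x] 1) c = mp (m x) c := by
  rw [← ext_single_map, ← ext_linear]
  refine ext_congr fun l hl => ?_
  have := hc l hl
  cases l with
  | nil => simp at this
  | cons y l => rw [Sh_single, sh_left]; simp

theorem sh_mem (Z : Set K) (l : List X) (l' : List Y) (k : ℕ) (hk : l.length + l'.length = k + 1)
    (hZ : ∀ x ∈ l, ∀ y ∈ l', m x y ∈ Z) : sh m l l' ∈ On k Z := by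
  induction l generalizing l' k with
  | nil => rw [sh_nil_left]; exact Submodule.zero_mem _
  | cons x l ih =>
    induction l' generalizing k with
    | nil => rw [sh_nil_right]; exact Submodule.zero_mem _
    | cons y l' ih' =>
      rw [sh_cons]
      simp only [List.length_cons] at hk
      obtain ⟨k, rfl⟩ : ∃ j, k = j + 1 := ⟨k - 1, by omega⟩
      refine cn_mem_On (hZ x (by simp) y (by simp)) (Submodule.add_mem _ (Submodule.add_mem _ ?_
        (Submodule.smul_mem _ _ ?_)) ?_)
      · exact ih _ _ (by simp; omega) fun a ha b hb => hZ a (List.mem_cons_of_mem _ ha) b hb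
      · exact ih' _ (by simp; omega) fun a ha b hb => hZ a ha b (List.mem_cons_of_mem _ hb)
      · cases l with
        | cons _ _ => simp [etaL]
        | nil =>
          cases l' with
          | cons _ _ => simp [etaL]
          | nil =>
            refine Submodule.smul_mem _ _ (single_mem_On ?_ (by simp) _)
            simp at hk ⊢; omega

/-- the Alexander-Whitney sum -/
noncomputable def cupL {M : Type} [AddCommGroup M] (Φ : HCh X → HCh X → M) (l : List X) : M :=
  ∑ i ∈ Finset.range l.length, Φ (Finsupp.single (l.take (i + 1)) 1) (Finsupp.single (l.drop i) 1)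

theorem cupL_nil {M : Type} [AddCommGroup M] (Φ : HCh X → HCh X → M) : cupL Φ [] = 0 := by
  simp [cupL]

theorem cupL_cons {M : Type} [AddCommGroup M] (Φ : HCh X → HCh X → M) (x : X) (l : List X) :
    cupL Φ (x :: l) = Φ (Finsupp.single [x] 1) (Finsupp.single (x :: l) 1) +
      cupL (fun c c' => Φ (cn x c) c') l := by
  simp [cupL, Finset.sum_range_succ', add_comm]

theorem cupL_sub {M : Type} [AddCommGroup M] (Φ Ψ : HCh X → HCh X → M) (l : List X) :
    cupL (fun c c' => Φ c c' - Ψ c c') l = cupL Φ l - cupL Ψ l := by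
  simp [cupL]

theorem cupL_add {M : Type} [AddCommGroup M] (Φ Ψ : HCh X → HCh X → M) (l : List X) :
    cupL (fun c c' => Φ c c' + Ψ c c') l = cupL Φ l + cupL Ψ l := by
  simp [cupL, Finset.sum_add_distrib]

theorem bd_cupL (Φ : HCh X → HCh X → HCh K) (l : List X) :
    bd (cupL Φ l) = cupL (fun c c' => bd (Φ c c')) l := by
  simp [cupL]

theorem cup_cn (Φ : HCh X →ₗ[ℤ] HCh X →ₗ[ℤ] HCh K) (x : X) (c : HCh X) :
    ext (cupL fun c c' => Φ c c') (cn x c) = Φ (Finsupp.single [x] 1) (cn x c) +
      ext (cupL fun c c' => Φ (cn x c) c') c := by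
  induction c using Finsupp.induction_linear with
  | zero => simp
  | add a b ha hb => simp only [map_add, ha, hb]; abel
  | single l n =>
    rw [cn_single, ext_single, ext_single, cupL_cons, smul_add, ← map_smul]; simp

theorem cup_bdL (Φ : HCh X →ₗ[ℤ] HCh X →ₗ[ℤ] HCh K) (l : List X) :
    ext (cupL fun c c' => Φ c c') (bdL l) =
      cupL (fun c c' => Φ (bd c) c' - Φ (tau c) (bd c')) l -
        Φ (Finsupp.single [] 1) (Finsupp.single l 1) +
        Φ (tau (Finsupp.single l 1)) (Finsupp.single [] 1) := by
  induction l generalizing Φ with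
  | nil => simp [bdL_nil, cupL_nil]
  | cons x l ih =>
    have h1 := ih (Φ ∘ₗ cn x)
    simp only [LinearMap.comp_apply] at h1
    rw [bdL_cons, map_sub, cup_cn, h1, cupL_cons]
    have h2 : (fun c c' => Φ (bd (cn x c)) c' - Φ (tau (cn x c)) (bd c')) =
        fun c c' => Φ c c' - (Φ (cn x (bd c)) c' - Φ (cn x (tau c)) (bd c')) := by
      funext c c'
      rw [bd_cn, tau_cn, map_sub, map_neg, LinearMap.sub_apply, LinearMap.neg_apply]; abel
    rw [h2, cupL_sub (fun c c' => Φ c c'), ← cn_single x l, tau_cn, bd_cn]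
    simp only [ext_single, one_smul, bd_single, bdL_cons, bdL_nil, map_zero, sub_zero, tau_single,
      cn_single, map_sub, map_neg, LinearMap.neg_apply, List.length_cons, List.length_nil,
      zero_add, pow_one, mul_neg, mul_one, Finsupp.single_neg]
    abel

theorem cupL_eta (l : List X) :
    cupL (fun c c' : HCh X => (eta (bd c) * eta (bd c')) • (Finsupp.single [] 1 : HCh K)) l =
      eta (bdL l) • Finsupp.single [] 1 := by
  cases l with
  | nil => simp [cupL_nil, bdL_nil]
  | cons x l =>
    rw [cupL_cons, ← cn_single x l, ← cn_single x [], eta_bd_cn, eta_bd_cn, bdL_cons, map_sub,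
      eta_cn]
    have : cupL (fun c c' : HCh X => (eta (bd (cn x c)) * eta (bd c')) •
        (Finsupp.single [] 1 : HCh K)) l = 0 := by
      unfold cupL
      refine Finset.sum_eq_zero fun i hi => ?_
      simp only [eta_bd_cn]
      cases l with
      | nil => simp at hi
      | cons y l => simp [etaL]
    rw [this]
    simp [etaL]

end Aux

section Aux2

variable {G H K : Type} [Group G] [Group H] [Group K]

theorem CS_len {A Y : Set G} {k : ℕ} {c : HCh G} (hc : c ∈ CS A k Y) :
    ∀ l ∈ c.support, l.length = k := fun _ hl => (hc hl).1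

theorem tau_mem {A Y : Set G} {k : ℕ} {c : HCh G} (hc : c ∈ CS A k Y) : tau c ∈ CS A k Y := by
  rw [tau_of_len (CS_len hc)]; exact Submodule.smul_mem _ _ hc

open scoped Pointwise in
theorem Sh_mem (a b : H →* K) (hab : ∀ x y, Commute (a x) (b y)) {B : Set H} {p q k : ℕ}
    (hk : p + q = k + 1) {c c' : HCh H} (hc : c ∈ CS B p Set.univ) (hc' : c' ∈ CS B q Set.univ) :
    Sh (fun x y => a x * b y) c c' ∈ CS (a '' B * b '' B) k Set.univ := by
  refine linear_mem (Sh (fun x y => a x * b y) c) (fun l' hl' => ?_) hc'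
  rw [← LinearMap.flip_apply]
  refine linear_mem _ (fun l hl => ?_) hc
  rw [LinearMap.flip_apply, Sh_single, mul_one, one_smul]
  refine On_le_CS (Y := {z | ∃ x ∈ l, ∃ y ∈ l', z = a x * b y}) ?_ (Set.subset_univ _) _
    (sh_mem _ _ l l' k (by rw [hl.1, hl'.1, hk]) fun x hx y hy => ⟨x, hx, y, hy, rfl⟩)
  rintro _ ⟨x, hx, y, hy, rfl⟩ _ ⟨x', hx', y', hy', rfl⟩
  refine ⟨_, ⟨_, hl.2.1 x hx x' hx', rfl⟩, _, ⟨_, hl'.2.1 y hy y' hy', rfl⟩, ?_⟩
  simp only [map_mul, map_inv, mul_inv_rev]
  have h1 : Commute ((a x)⁻¹ * a x') (b y)⁻¹ := by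
    rw [← map_inv, ← map_inv, ← map_mul]; exact hab _ _
  rw [← mul_assoc, h1.eq]; simp only [mul_assoc]

end Aux2

open scoped Pointwise in
theorem additive {G H K : Type} [Group G] [Group H] [Group K] {f : G →* H} {k : ℕ} (hk : 1 ≤ k)
    (hf : Null f k) (a b : H →* K) (hab : ∀ x y, Commute (a x) (b y)) (A : Set G)
    (hA : A.Finite) : ∃ B : Set K, B.Finite ∧ ∀ z ∈ CS A (k + 1) Set.univ, bd z = 0 →
      ∃ w ∈ CS B (k + 2) Set.univ,
        bd w = mp (fun x => a (f x) * b (f x)) z - mp (a ∘ f) z - mp (b ∘ f) z := by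
  classical
  obtain ⟨B₀, hB₀, h, h0, h1⟩ := hf A hA
  let B : Set H := B₀ ∪ f '' A
  have hB : B.Finite := hB₀.union (hA.image f)
  let m : H → H → K := fun x y => a x * b y
  let F : HCh G →ₗ[ℤ] HCh H := mp f
  let h' : HCh G →ₗ[ℤ] HCh H :=
    ext fun l => if 1 ≤ l.length ∧ l.length ≤ k ∧ Sm A l then h l else 0
  let g : HCh G →ₗ[ℤ] HCh H := F - bd ∘ₗ h' - h' ∘ₗ bd
  have hg : ∀ c, g c = F c - bd (h' c) - h' (bd c) := fun c => rfl
  have h'1 : ∀ l : List G, h' (Finsupp.single l 1) ∈ CS B (l.length + 1) Set.univ := by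
    intro l
    simp only [h', ext_single, one_smul]
    split_ifs with hl
    · exact CS_mono Set.subset_union_left le_rfl _ (h1 l hl.2.1 hl.2.2).1
    · exact Submodule.zero_mem _
  have h'nil : ∀ n, h' (Finsupp.single [] n) = 0 := by intro n; simp [h']
  have h'mem : ∀ {p : ℕ} {c : HCh G}, c ∈ CS A p Set.univ → h' c ∈ CS B (p + 1) Set.univ := by
    intro p c hc
    refine linear_mem _ (fun l hl => ?_) hc
    rw [← hl.1]; exact h'1 l
  have Fmem : ∀ {p : ℕ} {c : HCh G}, c ∈ CS A p Set.univ → F c ∈ CS B p Set.univ := by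
    intro p c hc
    exact mp_mem (f := f) (fun x _ y _ hxy => Or.inr ⟨_, hxy, by simp⟩) (Set.mapsTo_univ _ _) hc
  have gmem : ∀ {p : ℕ} {c : HCh G}, c ∈ CS A (p + 1) Set.univ → g c ∈ CS B (p + 1) Set.univ := by
    intro p c hc
    rw [hg]
    exact Submodule.sub_mem _ (Submodule.sub_mem _ (Fmem hc) (bd_mem (h'mem hc)))
      (h'mem (bd_mem hc))
  have tauh : ∀ c, tau (h' c) = -h' (tau c) := by
    intro c
    induction c using Finsupp.induction_linear with
    | zero => simp
    | add a b ha hb => simp only [map_add, ha, hb]; abel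
    | single l n =>
      have e : ∀ n : ℤ, Finsupp.single l n = n • Finsupp.single l (1 : ℤ) := by simp
      rw [tau_single, e n, e (n * _), map_smul, map_smul, map_smul, tau_of_len (CS_len (h'1 l)),
        pow_succ]
      module
  have etah : ∀ c, eta (bd (h' c)) = 0 := by
    intro c
    induction c using Finsupp.induction_linear with
    | zero => simp
    | add a b ha hb => simp only [map_add, ha, hb, add_zero]
    | single l n =>
      cases l with
      | nil => rw [h'nil]; simp
      | cons x l =>
        have e : Finsupp.single (x :: l) n = n • Finsupp.single (x :: l) (1 : ℤ) := by simp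
        rw [e, map_smul, map_smul, map_smul, eta_of_len (CS_len (bd_mem (h'1 (x :: l))))]
        simp
  have bdF : ∀ c, bd (F c) = F (bd c) := bd_mp f
  have tauF : ∀ c, tau (F c) = F (tau c) := tau_mp f
  have etaF : ∀ c, eta (F c) = eta c := eta_mp f
  have bdg : ∀ c, bd (g c) = g (bd c) := by
    intro c; simp only [hg, map_sub, bdF, bd_bd, map_zero, sub_zero]
  have taug : ∀ c, tau (g c) = g (tau c) := by
    intro c; simp only [hg, map_sub, tauF, tau_bd, tauh, map_neg, neg_neg]
  have gnil : ∀ n, g (Finsupp.single [] n) = Finsupp.single [] n := by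
    intro n; simp [hg, h'nil, F, bdL_nil]
  have gone : ∀ x : G, Sm A [x] → g (Finsupp.single [x] 1) = Finsupp.single [1] 1 := by
    intro x hx
    have e := (h1 [x] (by simpa using hk) hx).2
    have e1 : bdL [x] = Finsupp.single [] 1 := by simp [bdL_cons, bdL_nil]
    have e2 : h' (Finsupp.single [x] 1) = h [x] := by simp [h', hk, hx]
    rw [e1, ext_single, one_smul, h0] at e
    rw [hg, bd_single, one_smul, e1, h'nil, e2, sub_zero]
    simp only [F, mp_single]
    rw [← e]; abel
  have gzero : ∀ l : List G, 2 ≤ l.length → l.length ≤ k → Sm A l →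
      g (Finsupp.single l 1) = 0 := by
    intro l hl1 hl2 hs
    have e := (h1 l hl2 hs).2
    have e2 : h' (Finsupp.single l 1) = h l := by
      simp only [h', ext_single, one_smul]; rw [if_pos ⟨by omega, hl2, hs⟩]
    have e3 : h' (bdL l) = ext h (bdL l) := by
      refine ext_congr fun l' hl' => ?_
      obtain ⟨a1, a2⟩ := bdL_support hl'
      rw [if_pos ⟨by omega, by omega, hs.sublist a1⟩]
    rw [hg, bd_single, one_smul, e2, e3]
    simp only [F, mp_single]
    rw [← e]; abel
  let κ : HCh G →ₗ[ℤ] HCh G →ₗ[ℤ] HCh K :=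
    (Sh m).compl₁₂ h' F - (Sh m).compl₁₂ (g ∘ₗ tau) h'
  have hκ : ∀ c c', κ c c' = Sh m (h' c) (F c') - Sh m (g (tau c)) (h' c') := fun c c' => rfl
  let ΦF : HCh G →ₗ[ℤ] HCh G →ₗ[ℤ] HCh K := (Sh m).compl₁₂ F F
  have hΦF : ∀ c c', ΦF c c' = Sh m (F c) (F c') := fun c c' => rfl
  have bdκ : ∀ c c', bd (κ c c') =
      ΦF c c' - Sh m (g c) (g c') - (κ (bd c) c' - κ (tau c) (bd c')) := by
    intro c c'
    have e1 : bd (h' c) = F c - g c - h' (bd c) := by rw [hg]; abel
    have e2 : bd (h' c') = F c' - g c' - h' (bd c') := by rw [hg]; abel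
    rw [hκ, hκ, hκ, hΦF, map_sub, bd_Sh, bd_Sh, etah, etah, e1, e2, tauh, bdF, bdg, taug, tau_tau,
      bd_tau]
    simp only [map_sub, map_neg, LinearMap.sub_apply, LinearMap.neg_apply, zero_mul, mul_zero,
      zero_smul]
    abel
  have Fnil : ∀ n, F (Finsupp.single [] n) = Finsupp.single [] n := by intro n; simp [F]
  have bdcupκ : ∀ l : List G, bd (cupL (fun c c' => κ c c') l) =
      cupL (fun c c' => ΦF c c') l - cupL (fun c c' => Sh m (g c) (g c')) l -
        ext (cupL fun c c' => κ c c') (bdL l) := by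
    intro l
    rw [bd_cupL, cup_bdL, ← cupL_sub]
    simp only [bdκ]
    rw [cupL_sub (fun c c' => ΦF c c' - Sh m (g c) (g c'))]
    simp only [hκ, h'nil, Fnil, tau_single, gnil, Sh_nil_left, Sh_nil_right, map_zero,
      LinearMap.zero_apply, sub_zero, add_zero]
  have bdcupF : ∀ l : List G, bd (cupL (fun c c' => ΦF c c') l) =
      ext (cupL fun c c' => ΦF c c') (bdL l) + eta (bdL l) • Finsupp.single [] 1 := by
    intro l
    rw [bd_cupL, cup_bdL, ← cupL_eta]
    simp only [hΦF, bd_Sh, bdF, tauF, etaF]
    rw [cupL_add]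
    simp only [Fnil, Sh_nil_left, Sh_nil_right, sub_zero, add_zero]
  have cupg : ∀ l : List G, l.length = k + 1 → Sm A l →
      cupL (fun c c' => Sh m (g c) (g c')) l =
        Sh m (Finsupp.single [1] 1) (g (Finsupp.single l 1)) +
          Sh m (g (Finsupp.single l 1)) (Finsupp.single [1] 1) := by
    intro l hl hs
    unfold cupL
    obtain ⟨j, rfl⟩ : ∃ j, k = j + 1 := ⟨k - 1, by omega⟩
    rw [hl, Finset.sum_range_succ, Finset.sum_range_succ', Finset.sum_eq_zero, zero_add]
    · have e1 : (l.take (0 + 1)).length = 1 := by simp; omega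
      have e2 : (l.drop (j + 1)).length = 1 := by simp; omega
      obtain ⟨x, hx⟩ := List.length_eq_one_iff.1 e1
      obtain ⟨y, hy⟩ := List.length_eq_one_iff.1 e2
      have sx : Sm A [x] := hx ▸ hs.sublist (List.take_sublist _ _)
      have sy : Sm A [y] := hy ▸ hs.sublist (List.drop_sublist _ _)
      simp only
      rw [hx, hy, gone x sx, gone y sy, List.drop_zero, List.take_of_length_le (by omega)]
    · intro i hi
      rw [Finset.mem_range] at hi
      simp only
      rw [gzero _ (by simp; omega) (by simp; omega) (hs.sublist (List.take_sublist _ _))]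
      simp
  obtain ⟨Hm, hH⟩ := prism (G := K) List.length bdL {l : List G | Sm A l}
    (fun l => Finsupp.single (l.map fun x => a (f x) * b (f x)) 1 - cupL (fun c c' => ΦF c c') l -
      eta (Finsupp.single l 1) • Finsupp.single [] 1)
    (fun l => {z | ∃ x ∈ l, ∃ y ∈ l, z = a (f x) * b (f y)})
    (fun l => a (f (l.headD 1)) * b (f (l.headD 1)))
    (by
      intro l hl l' hl'
      obtain ⟨a1, a2⟩ := bdL_support hl'
      refine ⟨Sm.sublist hl a1, a2, ?_⟩
      rintro _ ⟨x, hx, y, hy, rfl⟩
      exact ⟨x, a1.subset hx, y, a1.subset hy, rfl⟩)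
    (fun l _ => bd_bdL l)
    (by
      intro l _
      rw [ext_sub, ext_sub, ext_single_map, mp_bdL, map_sub, map_sub, bdcupF]
      have e := ext_linear ((LinearMap.toSpanSingleton ℤ (HCh K) (Finsupp.single [] 1)) ∘ₗ
        (eta : HCh G →ₗ[ℤ] ℤ)) (bdL l)
      simp only [LinearMap.comp_apply, LinearMap.toSpanSingleton_apply] at e
      rw [e]
      simp only [map_smul, bd_single, bdL_nil, smul_zero, one_smul]
      abel)
    (by
      intro l _
      cases l with
      | nil => simp [cupL_nil, etaL]
      | cons x l =>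
        refine Submodule.sub_mem _ (Submodule.sub_mem _ (single_mem_On (by simp) ?_ _) ?_)
          (by simp [etaL])
        · intro y hy
          obtain ⟨x, hx, rfl⟩ := List.mem_map.1 hy
          exact ⟨x, hx, x, hx, rfl⟩
        · refine Submodule.sum_mem _ fun i hi => ?_
          rw [Finset.mem_range] at hi
          simp only [hΦF, F, mp_single, Sh_single, mul_one, one_smul]
          refine sh_mem _ _ _ _ _ ?_ ?_
          · simp only [List.length_map, List.length_take, List.length_drop]; omega
          · intro u hu v hv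
            obtain ⟨u', hu', rfl⟩ := List.mem_map.1 hu
            obtain ⟨v', hv', rfl⟩ := List.mem_map.1 hv
            exact ⟨u', List.mem_of_mem_take hu', v', List.mem_of_mem_drop hv', rfl⟩)
    (by
      intro l _
      cases l with
      | nil => right; simp [bdL_nil, cupL_nil, etaL]
      | cons x l => left; exact ⟨x, by simp, x, by simp, rfl⟩)
  refine ⟨a '' B * b '' B, (hB.image a).mul (hB.image b), fun z hz hz0 =>
    ⟨ext Hm z + ext (cupL fun c c' => κ c c') z, Submodule.add_mem _ (ext_mem ?_ hz)
      (ext_mem ?_ hz), ?_⟩⟩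
  · intro l hl
    have := (hH l hl.2.1).1
    rw [hl.1] at this
    refine On_le_CS ?_ (Set.subset_univ _) _ this
    rintro _ ⟨x, hx, y, hy, rfl⟩ _ ⟨x', hx', y', hy', rfl⟩
    refine ⟨_, ⟨_, Or.inr ⟨_, hl.2.1 x hx x' hx', rfl⟩, rfl⟩, _,
      ⟨_, Or.inr ⟨_, hl.2.1 y hy y' hy', rfl⟩, rfl⟩, ?_⟩
    simp only [map_mul, map_inv, mul_inv_rev]
    have h1 : Commute ((a (f x))⁻¹ * a (f x')) (b (f y))⁻¹ := by
      rw [← map_inv a, ← map_inv b, ← map_mul]; exact hab _ _
    rw [← mul_assoc, h1.eq]; simp only [mul_assoc]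
  · intro l hl
    refine Submodule.sum_mem _ fun i hi => ?_
    rw [Finset.mem_range, hl.1] at hi
    have m1 : Finsupp.single (l.take (i + 1)) (1 : ℤ) ∈ CS A (i + 1) Set.univ :=
      single_mem_CS (by rw [List.length_take, hl.1]; omega)
        (hl.2.1.sublist (List.take_sublist _ _)) (by simp) _
    have m2 : Finsupp.single (l.drop i) (1 : ℤ) ∈ CS A (k + 1 - i) Set.univ :=
      single_mem_CS (by rw [List.length_drop, hl.1])
        (hl.2.1.sublist (List.drop_sublist _ _)) (by simp) _
    simp only [hκ]
    exact Submodule.sub_mem _ (Sh_mem a b hab (by omega) (h'mem m1) (Fmem m2))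
      (Sh_mem a b hab (by omega) (gmem (tau_mem m1)) (h'mem m2))
  · have hz' : h' z = 0 := by
      have : h' z = ext (fun _ => (0 : HCh H)) z := ext_congr' hz fun l hl => by
        rw [if_neg]; rw [hl.1]; omega
      rw [this, ext_zero]
    have hgz : g z = F z := by rw [hg, hz', hz0]; simp
    have e := ext_linear ((LinearMap.toSpanSingleton ℤ (HCh K) (Finsupp.single [] 1)) ∘ₗ
      (eta : HCh G →ₗ[ℤ] ℤ)) z
    simp only [LinearMap.comp_apply, LinearMap.toSpanSingleton_apply] at e
    have e1 := ext_linear (Sh m (Finsupp.single [1] 1) ∘ₗ g) z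
    have e2 := ext_linear ((Sh m).flip (Finsupp.single [1] 1) ∘ₗ g) z
    simp only [LinearMap.comp_apply, LinearMap.flip_apply] at e1 e2
    rw [map_add, map_ext, map_ext,
      ext_congr' hz (fun l hl => eq_sub_of_add_eq (hH l hl.2.1).2), ext_sub, ext_sub, ext_sub,
      ext_single_map, ← map_ext (ext Hm) bdL, ext_bdL, hz0, e, eta_of_len (CS_len hz)]
    simp only [bdcupκ]
    rw [ext_sub, ext_sub, ← map_ext (ext _) bdL, ext_bdL, hz0,
      ext_congr' hz (fun l hl => cupg l hl.1 hl.2.1), ext_add, e1, e2, hgz,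
      Sh_left m 1 (CS_len (Fmem hz)), Sh_right m 1 (CS_len (Fmem hz))]
    simp only [F, mp_mp, m, map_one, one_mul, mul_one, map_zero, zero_smul, sub_zero]
    have r1 : ((fun x => a x) ∘ f) = a ∘ f := rfl
    have r2 : ((fun x => b x) ∘ f) = b ∘ f := rfl
    rw [r1, r2]
    abel

end Crest.Agent.R185.HCh
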