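import Crest.Agent.R185.HL2
import Crest.Agent.R185.Asc1

/-!
# R185 TASK HL3: the gadget kills coarse homology; ascending HNN extensions
-/

set_option autoImplicit false

namespace Crest.Agent.R185.HCh

section Aux

variable {G H K : Type} [Group G] [Group H] [Group K]

/-- operations sending `A`-small cycles to uniformly small boundaries -/
def Nul (K : Type) [Group K] (A : Set G) (k : ℕ) : AddSubgroup (HCh G → HCh K) where
  carrier := {L | ∃ B : Set K, B.Finite ∧ ∀ z ∈ CS A k Set.univ, bd z = 0 →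
    ∃ w ∈ CS B (k + 1) Set.univ, bd w = L z}
  zero_mem' := ⟨∅, Set.finite_empty, fun _ _ _ => ⟨0, Submodule.zero_mem _, by simp⟩⟩
  add_mem' := by
    rintro L L' ⟨B, hB, h⟩ ⟨B', hB', h'⟩
    refine ⟨B ∪ B', hB.union hB', fun z hz h0 => ?_⟩
    obtain ⟨w, hw, e⟩ := h z hz h0
    obtain ⟨w', hw', e'⟩ := h' z hz h0
    exact ⟨w + w', Submodule.add_mem _ (CS_mono Set.subset_union_left le_rfl _ hw)
      (CS_mono Set.subset_union_right le_rfl _ hw'), by simp [e, e']⟩
  neg_mem' := by
    rintro L ⟨B, hB, h⟩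
    refine ⟨B, hB, fun z hz h0 => ?_⟩
    obtain ⟨w, hw, e⟩ := h z hz h0
    exact ⟨-w, Submodule.neg_mem _ hw, by simp [e]⟩

theorem Nul_translate {A : Set G} {k : ℕ} {L : HCh G → HCh K} (h : L ∈ Nul K A k) (u : K) :
    (fun z => mp (fun x => u * x) (L z)) ∈ Nul K A k := by
  obtain ⟨B, hB, h⟩ := h
  refine ⟨B, hB, fun z hz h0 => ?_⟩
  obtain ⟨w, hw, e⟩ := h z hz h0
  refine ⟨mp (fun x => u * x) w, mp_mem (B := B) (fun x _ y _ hxy => ?_) (Set.mapsTo_univ _ _) hw,
    by rw [bd_mp, e]⟩
  simpa [mul_assoc] using hxy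

theorem Nul_conj {A : Set G} (hA : A.Finite) (k : ℕ) (s : G →* K) (u : K) :
    (fun z => mp (fun x => u⁻¹ * s x) z - mp (fun x => u⁻¹ * s x * u) z) ∈ Nul K A k := by
  refine ⟨(s '' A ∪ (fun a => s a * u) '' A) ∪ ((fun a => u⁻¹ * s a) '' A ∪
    (fun a => u⁻¹ * s a * u) '' A), ((hA.image _).union (hA.image _)).union
      ((hA.image _).union (hA.image _)), fun z hz h0 => ?_⟩
  refine close (fun x _ y _ hxy => ⟨?_, ?_, ?_, ?_⟩) (Set.mapsTo_univ _ _) (Set.mapsTo_univ _ _)
    hz h0
  · exact Or.inl (Or.inl ⟨_, hxy, by simp [mul_assoc]⟩)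
  · exact Or.inl (Or.inr ⟨_, hxy, by simp [mul_assoc]⟩)
  · exact Or.inr (Or.inl ⟨_, hxy, by simp [mul_assoc]⟩)
  · exact Or.inr (Or.inr ⟨_, hxy, by simp [mul_assoc]⟩)

/-- product of commuting homomorphisms -/
def mulHom (a b : H →* K) (hab : ∀ x y, Commute (a x) (b y)) : H →* K where
  toFun x := a x * b x
  map_one' := by simp
  map_mul' x y := by
    rw [map_mul, map_mul, mul_assoc, mul_assoc, ← mul_assoc (a y), (hab y x).eq, mul_assoc]

theorem magic_alg {M : Type} [AddCommGroup M] (N : AddSubgroup M)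
    (α : Option (Fin 4 ⊕ Fin 3) → M)
    (hR : ∑ i, α (some (Sum.inl i)) - ∑ j, α (some (Sum.inr j)) ∈ N)
    (hS : ∀ p, ∑ i, α (Equiv.swap none (some p) (some (Sum.inl i))) -
      ∑ j, α (Equiv.swap none (some p) (some (Sum.inr j))) ∈ N) : α none ∈ N := by
  have h := N.sub_mem (N.sum_mem fun p (_ : p ∈ Finset.univ) => hS p) (N.nsmul_mem hR 6)
  convert h using 1
  simp [Fin.sum_univ_four, Fin.sum_univ_three, Equiv.swap_apply_def]
  abel

end Aux

/-- Fix `A` and a finite `B` good for all the finitely many uses of `additive` and `close`.  For a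
cycle `z` let `α q = mp (diagS φ v q ∘ f) z` modulo `M = bd (CS B (k+2) univ)`, a submodule invariant
under left translations.  `additive` (products of commuting homomorphisms are homomorphisms,
`MonoidHom.noncommCoprod`-style) gives `∑_i α (row i) - ∑_j α (col j) ∈ M`.  Translating by `u⁻¹` and
using `close` (`u⁻¹ * S q x = S (swap q) x * u⁻¹`) gives the same relation with `α p` replaced by
`α none`, so `α p ≡ α none` for all `p`, and `4 α none - 3 α none ∈ M`. -/
theorem kill_of_magic {G H K : Type} [Group G] [Group H] [Group K] {f : G →* H} {φ : H →* K}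
    {k : ℕ} (hk : 1 ≤ k) (hf : Null f k) (hφ : Magic φ) : Kill (φ.comp f) (k + 1) := by
  intro A hA
  obtain ⟨v, hr, hc, hu⟩ := hφ
  have add : ∀ (a b : H →* K) (hab : ∀ x y, Commute (a x) (b y)),
      (fun z => mp (mulHom a b hab ∘ f) z - mp (a ∘ f) z - mp (b ∘ f) z) ∈ Nul K A (k + 1) :=
    fun a b hab => additive hk hf a b hab A hA
  let r2 : Fin 4 → H →* K := fun i => mulHom (v i 0) (v i 1) (hr i 0 1 (by decide))
  let r3 : Fin 4 → H →* K := fun i => mulHom (r2 i) (v i 2) fun x y =>
    (hr i 0 2 (by decide) x y).mul_left (hr i 1 2 (by decide) x y)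
  let c2 : Fin 3 → H →* K := fun j => mulHom (v 0 j) (v 1 j) (hc 0 1 j (by decide))
  let c3 : Fin 3 → H →* K := fun j => mulHom (c2 j) (v 2 j) fun x y =>
    (hc 0 2 j (by decide) x y).mul_left (hc 1 2 j (by decide) x y)
  let c4 : Fin 3 → H →* K := fun j => mulHom (c3 j) (v 3 j) fun x y =>
    ((hc 0 3 j (by decide) x y).mul_left (hc 1 3 j (by decide) x y)).mul_left
      (hc 2 3 j (by decide) x y)
  let σ : Option (Fin 4 ⊕ Fin 3) → H →* K := fun q => match q with
    | none => φ
    | some (Sum.inl i) => r3 i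
    | some (Sum.inr j) => c4 j
  have hσ : ∀ q x, σ q x = diagS φ v q x := by
    rintro (_ | i | j) x <;> rfl
  let α : Option (Fin 4 ⊕ Fin 3) → HCh G → HCh K := fun q z => mp (σ q ∘ f) z
  let β : Fin 4 → Fin 3 → HCh G → HCh K := fun i j z => mp (v i j ∘ f) z
  have hrow : ∀ i, α (some (Sum.inl i)) - ∑ j, β i j ∈ Nul K A (k + 1) := by
    intro i
    have := (Nul K A (k + 1)).add_mem (add (v i 0) (v i 1) (hr i 0 1 (by decide)))
      (add (r2 i) (v i 2) fun x y =>
        (hr i 0 2 (by decide) x y).mul_left (hr i 1 2 (by decide) x y))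
    convert this using 1
    funext z
    simp only [Fin.sum_univ_three, Pi.add_apply, Pi.sub_apply, α, β, σ, r3, r2]
    abel
  have hcol : ∀ j, α (some (Sum.inr j)) - ∑ i, β i j ∈ Nul K A (k + 1) := by
    intro j
    have := (Nul K A (k + 1)).add_mem ((Nul K A (k + 1)).add_mem
      (add (v 0 j) (v 1 j) (hc 0 1 j (by decide)))
      (add (c2 j) (v 2 j) fun x y =>
        (hc 0 2 j (by decide) x y).mul_left (hc 1 2 j (by decide) x y)))
      (add (c3 j) (v 3 j) fun x y =>
        ((hc 0 3 j (by decide) x y).mul_left (hc 1 3 j (by decide) x y)).mul_left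
          (hc 2 3 j (by decide) x y))
    convert this using 1
    funext z
    simp only [Fin.sum_univ_four, Pi.add_apply, Pi.sub_apply, α, β, σ, c4, c3, c2]
    abel
  have hR : ∑ i, α (some (Sum.inl i)) - ∑ j, α (some (Sum.inr j)) ∈ Nul K A (k + 1) := by
    have := (Nul K A (k + 1)).sub_mem
      ((Nul K A (k + 1)).sum_mem fun i (_ : i ∈ Finset.univ) => hrow i)
      ((Nul K A (k + 1)).sum_mem fun j (_ : j ∈ Finset.univ) => hcol j)
    convert this using 1
    rw [Finset.sum_sub_distrib, Finset.sum_sub_distrib, Finset.sum_comm (f := β)]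
    abel
  refine magic_alg (Nul K A (k + 1)) α hR fun p => ?_
  obtain ⟨u, hu⟩ := hu p
  have h1 : ∀ q, (fun z => mp (fun x => u⁻¹ * x) (α q z)) - α (Equiv.swap none (some p) q) ∈
      Nul K A (k + 1) := by
    intro q
    have := Nul_conj hA (k + 1) ((σ q).comp f) u
    convert this using 1
    funext z
    simp only [Pi.sub_apply, α, mp_mp]
    congr 2
    congr 1
    funext x
    simp only [Function.comp, MonoidHom.comp_apply, hσ, hu]
  have h2 := (Nul K A (k + 1)).add_mem ((Nul K A (k + 1)).sub_mem (Nul_translate hR u⁻¹)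
    ((Nul K A (k + 1)).sum_mem fun i (_ : i ∈ Finset.univ) => h1 (some (Sum.inl i))))
    ((Nul K A (k + 1)).sum_mem fun j (_ : j ∈ Finset.univ) => h1 (some (Sum.inr j)))
  convert h2 using 1
  funext z
  simp only [Pi.add_apply, Pi.sub_apply, Finset.sum_apply, map_sub, map_sum, Finset.sum_sub_distrib]
  abel


/-- induction: `null_zero`, `kill_one`, `Null.succ`, `kill_of_magic` -/
theorem exists_kill {H : Type} [Group H] [Group.FG H] {φ : H →* H} (hφ : Magic φ) (k : ℕ) :
    ∃ m : ℕ, Kill (φ^[m]) k := by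
  have key : ∀ n : ℕ, ∃ (m : ℕ) (ψ : H →* H), (ψ : H → H) = φ^[m] ∧ Null ψ n := by
    intro n
    induction n with
    | zero => exact ⟨0, MonoidHom.id H, rfl, null_zero _⟩
    | succ n ih =>
      obtain ⟨m, ψ, h1, h2⟩ := ih
      rcases Nat.eq_zero_or_pos n with rfl | hn
      · exact ⟨m, (MonoidHom.id H).comp ψ, h1, h2.succ (f' := MonoidHom.id H) kill_one⟩
      · refine ⟨1 + m + m, (φ.comp ψ).comp ψ, ?_, h2.succ (kill_of_magic hn h2 hφ)⟩
        simp only [MonoidHom.coe_comp, h1, Function.iterate_add, Function.iterate_one]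
  obtain ⟨m, ψ, h1, h2⟩ := key k
  exact ⟨m, h1 ▸ h2.kill⟩


variable {H E : Type} [Group H] [Group E] {φ : H →* H} {ι : H →* E} {t : E}
  {χ : E →* Multiplicative ℤ}

/-- the slab of width `c` below the coset `y * ι H` -/
def slab (ι : H →* E) (t : E) (y : E) (c : ℕ) : Set E :=
  {x | ∃ j ≤ c, ∃ h : H, x * t ^ j = y * ι h}

/-- Project the slab to the coset (`x ↦ x * t ^ j`, `j` is determined by `χ`; `close`), write the
projected cycle as `mp (y * ι ·) ζ`, move it by `t ^ m` (`close` again,
`y * ι h * t ^ m = y * t ^ m * ι (φ^[m] h)`) and use `Kill`. -/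
theorem kill_slab (h : Asc φ ι t χ) {k m : ℕ} (hK : Kill (φ^[m]) k) (A : Set E) (hA : A.Finite)
    (c : ℕ) : ∃ B : Set E, B.Finite ∧ ∀ y : E, ∀ z ∈ CS A k (slab ι t y c), bd z = 0 →
      ∃ w ∈ CS B (k + 1) (slab ι t (y * t ^ m) (c + m)), bd w = z := by
  let B₁ : Set E := ⋃ j ∈ Set.Iic (c + m), ⋃ j' ∈ Set.Iic (c + m),
    (fun a => (t ^ j)⁻¹ * a * t ^ j') '' A
  have hB₁ : B₁.Finite := (Set.finite_Iic _).biUnion fun _ _ =>
    (Set.finite_Iic _).biUnion fun _ _ => hA.image _
  have mB₁ : ∀ x x' : E, x⁻¹ * x' ∈ A → ∀ j ≤ c + m, ∀ j' ≤ c + m,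
      (x * t ^ j)⁻¹ * (x' * t ^ j') ∈ B₁ := by
    intro x x' hx j hj j' hj'
    simp only [B₁, Set.mem_iUnion]
    exact ⟨j, hj, j', hj', _, hx, by simp [mul_assoc]⟩
  obtain ⟨B', hB', hK'⟩ := hK (ι ⁻¹' B₁) (hB₁.preimage h.inj.injOn)
  refine ⟨B₁ ∪ ι '' B', hB₁.union (hB'.image _), fun y z hz h0 => ?_⟩
  have : ∀ x : E, ∃ (j : ℕ) (g : H), x ∈ slab ι t y c → j ≤ c ∧ x * t ^ j = y * ι g := by
    intro x
    by_cases hx : x ∈ slab ι t y c
    · obtain ⟨j, hj, g, hg⟩ := hx
      exact ⟨j, g, fun _ => ⟨hj, hg⟩⟩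
    · exact ⟨0, 1, fun h => absurd h hx⟩
  choose J η hJ using this
  have e1 : ∀ g : H, y * ι g * t ^ m = y * t ^ m * ι (φ^[m] g) := by
    intro g; rw [← h.conj_pow]; simp [mul_assoc]
  have e2 : ∀ x ∈ slab ι t y c, y * t ^ m * ι (φ^[m] (η x)) = x * t ^ (J x + m) := by
    intro x hx; rw [← e1, ← (hJ x hx).2, pow_add, mul_assoc]
  obtain ⟨w₁, hw₁, b₁⟩ := close (f := id) (f' := fun x => y * t ^ m * ι (φ^[m] (η x)))
    (B := B₁) (Y' := slab ι t (y * t ^ m) (c + m)) (by
      intro x hx x' hx' hxx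
      have a1 := (hJ x hx).1
      have a2 := (hJ x' hx').1
      rw [e2 x hx, e2 x' hx']
      exact ⟨by simpa using mB₁ x x' hxx 0 (by omega) 0 (by omega),
        by simpa using mB₁ x x' hxx 0 (by omega) (J x' + m) (by omega),
        by simpa using mB₁ x x' hxx (J x + m) (by omega) 0 (by omega),
        mB₁ x x' hxx _ (by omega) _ (by omega)⟩)
    (fun x hx => ⟨J x + m, by have := (hJ x hx).1; omega, _, (e2 x hx).symm⟩)
    (fun x _ => ⟨0, by omega, φ^[m] (η x), by simp⟩) hz h0
  obtain ⟨w₂, hw₂, b₂⟩ := hK' (mp η z) (mp_mem (by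
      intro x hx x' hx' hxx
      have := mB₁ x x' hxx (J x) (by have := (hJ x hx).1; omega) (J x')
        (by have := (hJ x' hx').1; omega)
      rw [(hJ x hx).2, (hJ x' hx').2] at this
      simpa [mul_assoc] using this) (Set.mapsTo_univ _ _) hz) (by rw [bd_mp, h0, map_zero])
  refine ⟨w₁ + mp (fun g => y * t ^ m * ι g) w₂, Submodule.add_mem _
    (CS_mono Set.subset_union_left le_rfl _ hw₁) (mp_mem ?_ ?_ hw₂), ?_⟩
  · intro g _ g' _ hg
    exact Or.inr ⟨_, hg, by simp [mul_assoc]⟩
  · intro g _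
    exact ⟨0, by omega, g, by simp⟩
  · rw [map_add, b₁, bd_mp, b₂, mp_mp, mp_mp, mp_id]
    exact sub_add_cancel _ _


/-- the parent map on the Bass-Serre tree -/
def par (h : Asc φ ι t χ) : E ⧸ ι.range → E ⧸ ι.range :=
  Quotient.map' (fun x => x * t) (by
    intro x y hxy
    rw [QuotientGroup.leftRel_apply] at hxy ⊢
    obtain ⟨g, hg⟩ := hxy
    exact ⟨φ g, by rw [← h.conj, hg]; simp [mul_assoc]⟩)

/-- the height -/
def ht (h : Asc φ ι t χ) : E ⧸ ι.range → ℤ :=
  fun v => Quotient.liftOn' v (fun x => Multiplicative.toAdd (χ x)) (by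
    intro x y hxy
    rw [QuotientGroup.leftRel_apply] at hxy
    obtain ⟨g, hg⟩ := hxy
    have : y = x * ι g := by rw [hg]; simp
    rw [this, map_mul, h.chi_ι, mul_one])

theorem par_iter (h : Asc φ ι t χ) (j : ℕ) (x : E) :
    (par h)^[j] (x : E ⧸ ι.range) = ((x * t ^ j : E) : E ⧸ ι.range) := by
  induction j with
  | zero => simp
  | succ j ih => rw [Function.iterate_succ_apply', ih, pow_succ, ← mul_assoc]; rfl

theorem ht_iter (h : Asc φ ι t χ) (j : ℕ) (v : E ⧸ ι.range) :
    ht h ((par h)^[j] v) = ht h v + j := by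
  induction v using QuotientGroup.induction_on with
  | H x =>
    rw [par_iter]
    show Multiplicative.toAdd (χ (x * t ^ j)) = Multiplicative.toAdd (χ x) + j
    rw [map_mul, map_pow, h.chi_t]; simp

/-- slabs below a vertex -/
def Sl (h : Asc φ ι t χ) (v : E ⧸ ι.range) (c : ℕ) : Set E :=
  {x | ∃ j ≤ c, (par h)^[j] (x : E ⧸ ι.range) = v}

theorem Sl_eq (h : Asc φ ι t χ) (y : E) (c : ℕ) : Sl h (y : E ⧸ ι.range) c = slab ι t y c := by
  ext x
  simp only [Sl, slab, Set.mem_ofPred_eq, par_iter]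
  refine exists_congr fun j => and_congr_right fun _ => ?_
  rw [eq_comm, QuotientGroup.eq]
  refine exists_congr fun g => ?_
  rw [eq_inv_mul_iff_mul_eq, eq_comm]

theorem Sl_mono (h : Asc φ ι t χ) (v : E ⧸ ι.range) {c c' : ℕ} (i : ℕ) (hc : c + i ≤ c') :
    Sl h v c ⊆ Sl h ((par h)^[i] v) c' := by
  rintro x ⟨j, hj, rfl⟩
  exact ⟨i + j, by omega, by rw [Function.iterate_add_apply]⟩

theorem kill_Sl (h : Asc φ ι t χ) {k m : ℕ} (hK : Kill (φ^[m]) k) (A : Set E) (hA : A.Finite)
    (c : ℕ) : ∃ B : Set E, B.Finite ∧ ∀ v, ∀ z ∈ CS A k (Sl h v c), bd z = 0 →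
      ∃ w ∈ CS B (k + 1) (Sl h ((par h)^[m] v) (c + m)), bd w = z := by
  obtain ⟨B, hB, h1⟩ := kill_slab h hK A hA c
  refine ⟨B, hB, fun v => ?_⟩
  induction v using QuotientGroup.induction_on with
  | H y => rw [par_iter, Sl_eq, Sl_eq]; exact h1 y

theorem par_meet (h : Asc φ ι t χ) (a : E) : ∃ α β : ℕ, ∀ x : E,
    (par h)^[α] (x : E ⧸ ι.range) = (par h)^[β] ((x * a : E) : E ⧸ ι.range) := by
  obtain ⟨α, β, g, rfl⟩ := h.nf a
  refine ⟨α, β, fun x => ?_⟩
  rw [par_iter, par_iter, QuotientGroup.eq]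
  exact ⟨g, by simp [mul_assoc]⟩

theorem par_meet_fin (h : Asc φ ι t χ) {A : Set E} (hA : A.Finite) : ∃ c : ℕ, ∀ x y : E,
    x⁻¹ * y ∈ A → ∃ α ≤ c, ∃ β ≤ c,
      (par h)^[α] (x : E ⧸ ι.range) = (par h)^[β] (y : E ⧸ ι.range) := by
  choose α β hαβ using par_meet h
  obtain ⟨c, hc⟩ := (hA.image fun a => α a + β a).bddAbove
  refine ⟨c, fun x y hxy => ?_⟩
  have := hc ⟨_, hxy, rfl⟩
  simp only at this
  refine ⟨α (x⁻¹ * y), by omega, β (x⁻¹ * y), by omega, ?_⟩
  rw [hαβ]; simp

theorem exists_top (h : Asc φ ι t χ) {β : Type} (s : Finset β) (g : β → E) :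
    ∃ v, ∀ b ∈ s, ∃ j, (par h)^[j] (g b : E ⧸ ι.range) = v := by
  classical
  induction s using Finset.induction_on with
  | empty => exact ⟨((1 : E) : E ⧸ ι.range), by simp⟩
  | insert b s _ ih =>
    obtain ⟨v, hv⟩ := ih
    induction v using QuotientGroup.induction_on with
    | H y =>
      obtain ⟨α, β, h1⟩ := par_meet h (y⁻¹ * g b)
      have h2 := h1 y
      rw [mul_inv_cancel_left] at h2
      refine ⟨(par h)^[α] (y : E ⧸ ι.range), fun b' hb' => ?_⟩
      rcases Finset.mem_insert.1 hb' with rfl | hb'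
      · exact ⟨β, h2.symm⟩
      · obtain ⟨j, hj⟩ := hv b' hb'
        exact ⟨α + j, by rw [Function.iterate_add_apply, hj]⟩

omit [Group H] in
theorem bd_filter_mem {A : Set E} {k : ℕ} {z : HCh E} (hz : z ∈ CS A (k + 1) Set.univ)
    (q : E → Prop) [DecidablePred fun l : List E => q (l.headD 1)] :
    bd (z.filter fun l => q (l.headD 1)) ∈ Finsupp.supported ℤ ℤ
      {l : List E | l.length = k ∧ Sm A l ∧ ∃ x₁, q x₁ ∧ ∀ x ∈ l, x⁻¹ * x₁ ∈ A} := by
  refine ext_mem (S := {l : List E | l.length = k + 1 ∧ Sm A l ∧ q (l.headD 1)}) ?_ ?_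
  · rintro l ⟨h1, h2, h3⟩ l' hl'
    obtain ⟨a, b⟩ := bdL_support hl'
    refine ⟨by omega, h2.sublist a, _, h3, fun x hx => h2 x (a.subset hx) _ ?_⟩
    cases l with
    | nil => simp at h1
    | cons y l => simp
  · intro l hl
    rw [Finset.mem_coe, Finsupp.support_filter, Finset.mem_filter] at hl
    exact ⟨(hz hl.1).1, (hz hl.1).2.1, hl.2⟩

/-- Cutting along the Bass-Serre tree.  Vertices: cosets `v = y ι(H)`, `parent (y ι H) = y t ι H`,
`x ≼ v` iff `x t^j ∈ v` for some `j ≥ 0`.  There is `c` with `x t^c ι H = x' t^(c') ι H`,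
`c' ≤ 2 c`, whenever `x⁻¹ x' ∈ A` (`Asc.nf`).  For a cycle `z` of length `k + 1` let `z_v` be the part
of `z` on lists whose head is `≼ v`.  `bd z_v = - bd (z - z_v)` is supported on lists close both to a
point `≼ v` and to a point `⋠ v`, hence in a slab of bounded width below an ancestor of `v` at bounded
distance; choose `u_v` with `bd u_v = bd z_v` by `kill_slab` (`u_v = 0` if `bd z_v = 0`).  All vertices
of `z` lie below one vertex `v₀`; `z = ∑_{v ≼ v₀} (z_{head ∈ v} - u_v + ∑_{parent v' = v} u_{v'})`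
(finite sum), and every summand is a cycle in a bounded slab. -/
theorem kill_asc (h : Asc φ ι t χ) (hK : ∀ k, ∃ m : ℕ, Kill (φ^[m]) k) (k : ℕ) :
    Kill (id : E → E) k := by
  classical
  intro A hA
  cases k with
  | zero =>
    refine ⟨{1}, Set.finite_singleton _, fun z hz h0 => ⟨cn 1 z, ?_, ?_⟩⟩
    · refine linear_mem _ (fun l hl => ?_) hz
      have : l = [] := List.length_eq_zero_iff.1 hl.1
      subst this
      rw [cn_single]
      exact single_mem_CS rfl (by simp [Sm]) (by simp) _
    · rw [bd_cn, h0, mp_id]; simp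
  | succ k =>
    obtain ⟨c, hc⟩ := par_meet_fin h hA
    obtain ⟨m, hm⟩ := hK k
    obtain ⟨m', hm'⟩ := hK (k + 1)
    obtain ⟨B₁, hB₁, k1⟩ := kill_Sl h hm A hA (2 * c)
    obtain ⟨B₂, hB₂, k2⟩ := kill_Sl h hm' (A ∪ B₁) (hA.union hB₁) (2 * c + m + 1)
    refine ⟨B₂, hB₂, fun z hz h0 => ?_⟩
    rw [mp_id]
    let le : E → E ⧸ ι.range → Prop := fun x v => ∃ j, (par h)^[j] (x : E ⧸ ι.range) = v
    let zl : E ⧸ ι.range → HCh E := fun v => z.filter fun l => le (l.headD 1) v
    let ze : E ⧸ ι.range → HCh E := fun v => z.filter fun l => ((l.headD 1 : E) : E ⧸ ι.range) = v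
    have hbd : ∀ v, bd (zl v) ∈ CS A k (Sl h ((par h)^[c] v) (2 * c)) := by
      intro v l hl
      have e : bd (zl v) = -bd (z.filter fun l => ¬ le (l.headD 1) v) := by
        rw [eq_neg_iff_add_eq_zero, ← map_add, Finsupp.filter_add_filter_not, h0]
      obtain ⟨a1, a2, x₁, ⟨j, hj⟩, a3⟩ := bd_filter_mem hz (fun x => le x v) hl
      rw [e, Finsupp.support_neg] at hl
      obtain ⟨-, -, x₂, b1, b2⟩ := bd_filter_mem hz (fun x => ¬ le x v) hl
      refine ⟨a1, a2, fun x hx => ?_⟩
      obtain ⟨α, hα, β, hβ, e1⟩ := hc x x₁ (a3 x hx)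
      obtain ⟨α', hα', β', hβ', e2⟩ := hc x x₂ (b2 x hx)
      by_cases hjβ : β ≤ j
      · have e3 : (par h)^[j - β + α] (x : E ⧸ ι.range) = v := by
          rw [Function.iterate_add_apply, e1, ← Function.iterate_add_apply,
            Nat.sub_add_cancel hjβ, hj]
        have : j - β + α < α' := by
          by_contra hcon
          apply b1
          refine ⟨j - β + α - α' + β', ?_⟩
          rw [Function.iterate_add_apply, ← e2, ← Function.iterate_add_apply,
            Nat.sub_add_cancel (by omega), e3]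
        exact ⟨c + (j - β + α), by omega, by rw [Function.iterate_add_apply, e3]⟩
      · refine ⟨c - (β - j) + α, by omega, ?_⟩
        rw [Function.iterate_add_apply, e1, ← hj, ← Function.iterate_add_apply,
          ← Function.iterate_add_apply]
        congr 1; omega
    have hu : ∀ v, ∃ u ∈ CS B₁ (k + 1) (Sl h ((par h)^[m + c] v) (2 * c + m)),
        bd u = bd (zl v) ∧ (bd (zl v) = 0 → u = 0) := by
      intro v
      by_cases h1 : bd (zl v) = 0
      · exact ⟨0, Submodule.zero_mem _, by rw [h1, map_zero], fun _ => rfl⟩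
      · obtain ⟨u, hu1, hu2⟩ := k1 _ _ (hbd v) (bd_bd _)
        exact ⟨u, by rw [Function.iterate_add_apply]; exact hu1, hu2, fun h2 => absurd h2 h1⟩
    choose u hu1 hu2 hu3 using hu
    have huniq : ∀ (w : E ⧸ ι.range) (i j : ℕ), (par h)^[i] w = (par h)^[j] w → i = j := by
      intro w i j hij
      have := congrArg (ht h) hij
      rw [ht_iter, ht_iter] at this
      omega
    have main : ∀ n : ℕ, ∀ v, (∀ l ∈ z.support, ∀ j,
        (par h)^[j] ((l.headD 1 : E) : E ⧸ ι.range) = v → j < n) →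
        ∃ w ∈ CS B₂ (k + 1 + 1) Set.univ, bd w = zl v - u v := by
      intro n
      induction n with
      | zero =>
        intro v hv
        have : zl v = 0 := by
          simp only [zl, Finsupp.filter_eq_zero_iff]
          rintro l ⟨j, hj⟩
          by_contra hl
          exact absurd (hv l (Finsupp.mem_support_iff.2 hl) j hj) (by omega)
        exact ⟨0, Submodule.zero_mem _, by rw [hu3 v (by rw [this, map_zero]), this]; simp⟩
      | succ n ih =>
        intro v hv
        have hfin : {v' | par h v' = v ∧ ∃ l ∈ z.support, le (l.headD 1) v'}.Finite := by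
          have : {v' | par h v' = v ∧ ∃ l ∈ z.support, le (l.headD 1) v'} ⊆
              ⋃ l ∈ (z.support : Set (List E)), ⋃ j ∈ Set.Iic n,
                {(par h)^[j] ((l.headD 1 : E) : E ⧸ ι.range)} := by
            rintro v' ⟨h1, l, hl, j, rfl⟩
            simp only [Set.mem_iUnion]
            have := hv l hl (j + 1) (by rw [Function.iterate_succ_apply', h1])
            exact ⟨l, hl, j, by simp only [Set.mem_Iic]; omega, rfl⟩
          exact (z.support.finite_toSet.biUnion fun _ _ =>
            (Set.finite_Iic _).biUnion fun _ _ => Set.finite_singleton _).subset this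
        let C := hfin.toFinset
        have hC : ∀ v', v' ∈ C ↔ par h v' = v ∧ ∃ l ∈ z.support, le (l.headD 1) v' := fun v' =>
          hfin.mem_toFinset
        have dec : zl v = ze v + ∑ v' ∈ C, zl v' := by
          ext l
          simp only [zl, ze, Finsupp.add_apply, Finsupp.finsetSum_apply, Finsupp.filter_apply]
          by_cases hl : z l = 0
          · simp [hl]
          by_cases h1 : le (l.headD 1) v
          · obtain ⟨j, hj⟩ := h1
            rw [if_pos ⟨j, hj⟩]
            cases j with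
            | zero =>
              rw [if_pos (show ((l.headD 1 : E) : E ⧸ ι.range) = v from hj), Finset.sum_eq_zero,
                add_zero]
              intro v' hv'
              rw [if_neg]
              rintro ⟨i, hi⟩
              have := huniq _ (i + 1) 0 (by
                rw [Function.iterate_succ_apply', hi, ((hC v').1 hv').1, hj])
              omega
            | succ j =>
              rw [if_neg, zero_add,
                Finset.sum_eq_single ((par h)^[j] ((l.headD 1 : E) : E ⧸ ι.range)), if_pos ⟨j, rfl⟩]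
              · intro v' hv' hne
                rw [if_neg]
                rintro ⟨i, hi⟩
                have := huniq _ (i + 1) (j + 1) (by
                  rw [Function.iterate_succ_apply', hi, ((hC v').1 hv').1, hj])
                exact hne (by rw [← hi, show i = j by omega])
              · intro hn
                exact absurd ((hC _).2 ⟨by rw [← hj, Function.iterate_succ_apply'], l,
                  Finsupp.mem_support_iff.2 hl, j, rfl⟩) hn
              · intro he
                have := huniq _ (j + 1) 0 (by rw [hj]; exact he.symm)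
                omega
          · rw [if_neg h1, if_neg (fun he : ((l.headD 1 : E) : E ⧸ ι.range) = v => h1 ⟨0, he⟩),
              zero_add, Finset.sum_eq_zero]
            intro v' hv'
            rw [if_neg]
            rintro ⟨i, hi⟩
            exact h1 ⟨i + 1, by rw [Function.iterate_succ_apply', hi, ((hC v').1 hv').1]⟩
        have ih' : ∀ v' ∈ C, ∃ w ∈ CS B₂ (k + 1 + 1) Set.univ, bd w = zl v' - u v' := by
          intro v' hv'
          refine ih v' fun l hl j hj => ?_
          have := hv l hl (j + 1) (by rw [Function.iterate_succ_apply', hj, ((hC v').1 hv').1])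
          omega
        choose! W hW1 hW2 using ih'
        obtain ⟨w, hw1, hw2⟩ := k2 ((par h)^[m + c] v) (ze v - u v + ∑ v' ∈ C, u v') (by
          refine Submodule.add_mem _ (Submodule.sub_mem _ ?_ ?_) (Submodule.sum_mem _ ?_)
          · intro l hl
            rw [Finset.mem_coe, Finsupp.support_filter, Finset.mem_filter] at hl
            obtain ⟨a1, a2, -⟩ := hz hl.1
            refine ⟨a1, fun x hx y hy => Or.inl (a2 x hx y hy), fun x hx => ?_⟩
            obtain ⟨α, hα, β, hβ, e1⟩ := hc x (l.headD 1) (a2 x hx _ (by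
              cases l with
              | nil => simp at a1
              | cons y l => simp))
            refine ⟨m + c - β + α, by omega, ?_⟩
            rw [Function.iterate_add_apply, e1, ← Function.iterate_add_apply, hl.2,
              Nat.sub_add_cancel (by omega)]
          · exact CS_mono Set.subset_union_right (Sl_mono h _ 0 (by omega)) _ (hu1 v)
          · intro v' hv'
            refine CS_mono Set.subset_union_right ?_ _ (hu1 v')
            have := Sl_mono h ((par h)^[m + c] v') (c := 2 * c + m) 1 le_rfl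
            rwa [← Function.iterate_add_apply, add_comm 1, Function.iterate_succ_apply,
              ((hC v').1 hv').1] at this) (by
          rw [map_add, map_sub, map_sum, hu2, dec]
          simp only [hu2, map_add, map_sum]
          abel)
        refine ⟨w + ∑ v' ∈ C, W v', Submodule.add_mem _
          (CS_mono le_rfl (Set.subset_univ _) _ hw1) (Submodule.sum_mem _ hW1), ?_⟩
        rw [map_add, map_sum, hw2, Finset.sum_congr rfl hW2, dec, Finset.sum_sub_distrib]
        abel
    obtain ⟨v₀, hv₀⟩ := exists_top h z.support fun l => l.headD 1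
    have hz0 : zl v₀ = z := by
      simp only [zl, Finsupp.filter_eq_self_iff]
      intro l hl
      exact hv₀ l (Finsupp.mem_support_iff.2 hl)
    choose! J hJ using hv₀
    obtain ⟨w, hw1, hw2⟩ := main (z.support.sup J + 1) v₀ (by
      intro l hl j hj
      have := huniq _ j (J l) (by rw [hj, hJ l hl])
      have := Finset.le_sup (f := J) hl
      omega)
    exact ⟨w, hw1, by rw [hw2, hu3 v₀ (by rw [hz0, h0]), hz0, sub_zero]⟩


end Crest.Agent.R185.HCh
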