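import Crest.Agent.R185.HcDef

/-!
# R185 TASK Hc0: cube toolkit (homotopy extension, gluing)
-/

set_option autoImplicit false

namespace Crest.Agent.R185

open Set
open scoped _root_.Topology unitInterval

variable {k N : ℕ} {X Y : Type} [TopologicalSpace X] [TopologicalSpace Y]

theorem bI_injective : Function.Injective bI := by
  intro a b h
  cases a <;> cases b <;> simp_all [bI]

theorem continuous_ins (j : Fin (k + 1)) (ε : Bool) : Continuous (ins j ε : Cu k → Cu (k + 1)) := by
  exact Continuous.finInsertNth (A := fun _ => I) j continuous_const continuous_id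

theorem ins_same (j : Fin (k + 1)) (ε : Bool) (u : Cu k) : ins j ε u j = bI ε := by
  simp [ins]

theorem removeNth_ins (j : Fin (k + 1)) (ε : Bool) (u : Cu k) : j.removeNth (ins j ε u) = u := by
  simp [ins]

theorem ins_removeNth {j : Fin (k + 1)} {ε : Bool} {t : Cu (k + 1)} (h : t j = bI ε) :
    ins j ε (j.removeNth t) = t := by
  unfold ins
  rw [← h]
  exact Fin.insertNth_self_removeNth (α := fun _ => I) j t

theorem mem_bd_iff' {t : Cu k} : t ∈ HBd k ↔ ∃ j ε, t j = bI ε := by
  constructor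
  · rintro ⟨j, h | h⟩
    · exact ⟨j, false, by simpa [bI] using h⟩
    · exact ⟨j, true, by simpa [bI] using h⟩
  · rintro ⟨j, ε, h⟩
    cases ε
    · exact ⟨j, Or.inl (by simpa [bI] using h)⟩
    · exact ⟨j, Or.inr (by simpa [bI] using h)⟩

theorem mem_bd_iff {t : Cu (k + 1)} : t ∈ HBd (k + 1) ↔ ∃ j ε u, t = ins j ε u := by
  rw [mem_bd_iff']
  constructor
  · rintro ⟨j, ε, h⟩
    exact ⟨j, ε, _, (ins_removeNth h).symm⟩
  · rintro ⟨j, ε, u, rfl⟩
    exact ⟨j, ε, ins_same j ε u⟩

theorem isClosed_hbd : IsClosed (HBd k) := by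
  have : HBd k = ⋃ j : Fin k, ⋃ ε : Bool, {t : Cu k | t j = bI ε} := by
    ext t
    simp only [mem_bd_iff', mem_iUnion, mem_ofPred_eq]
  rw [this]
  exact isClosed_iUnion_of_finite fun j => isClosed_iUnion_of_finite fun ε =>
    isClosed_eq (continuous_apply j) continuous_const

theorem hc0_insertNth_insertNth {α : Type} (j : Fin (k + 2)) (i : Fin (k + 1)) (a b : α)
    (u : Fin k → α) :
    Fin.insertNth (α := fun _ => α) j a (Fin.insertNth (α := fun _ => α) i b u) =
      Fin.insertNth (α := fun _ => α) (j.succAbove i) b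
        (Fin.insertNth (α := fun _ => α) (i.predAbove j) a u) := by
  rw [Fin.eq_insertNth_iff]
  refine ⟨by simp, ?_⟩
  rw [Fin.eq_insertNth_iff]
  refine ⟨by simp [Fin.removeNth, Fin.succAbove_succAbove_predAbove], ?_⟩
  funext m
  simp [Fin.removeNth, Fin.succAbove_succAbove_succAbove_predAbove]

/-- `Fin.removeNth_removeNth_eq_swap` -/
theorem ins_ins (j : Fin (k + 2)) (i : Fin (k + 1)) (ε δ : Bool) (u : Cu k) :
    ins j ε (ins i δ u) = ins (j.succAbove i) δ (ins (i.predAbove j) ε u) := by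
  exact hc0_insertNth_insertNth j i (bI ε) (bI δ) u

theorem Cb.face_face {G : Type} (j : Fin (k + 2)) (i : Fin (k + 1)) (ε δ : Bool)
    (c : Cb (k + 2) G) :
    Cb.face i δ (Cb.face j ε c) = Cb.face (i.predAbove j) ε (Cb.face (j.succAbove i) δ c) := by
  funext v
  simp only [Cb.face]
  rw [hc0_insertNth_insertNth]

theorem Cb.Sm.face {G : Type} [Group G] {B : Set G} {c : Cb (k + 1) G} (h : Cb.Sm B c)
    (j : Fin (k + 1)) (ε : Bool) : Cb.Sm B (Cb.face j ε c) := by
  exact fun v v' => h _ _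

theorem Cb.Sm.mono {G : Type} [Group G] {B B' : Set G} {c : Cb k G} (h : Cb.Sm B c)
    (hB : B ⊆ B') : Cb.Sm B' c := by
  exact fun v v' => hB (h v v')

theorem continuous_cpt (a : Fin k → Fin N) : Continuous (cpt a : Cu k → Cu k) := by
  refine continuous_pi fun i => Continuous.subtype_mk ?_ _
  fun_prop

theorem exists_cpt (hN : 0 < N) (t : Cu k) : ∃ (a : Fin k → Fin N) (u : Cu k), t = cpt a u := by
  have hN' : (0 : ℝ) < N := by exact_mod_cast hN
  have key : ∀ x : I, ∃ (a : Fin N) (u : I), (x : ℝ) = (((a : ℕ) : ℝ) + u) / N := by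
    intro x
    have hx0 : (0 : ℝ) ≤ x * N := mul_nonneg x.2.1 hN'.le
    by_cases hx : (x : ℝ) < 1
    · have h1 : ⌊(x : ℝ) * N⌋₊ < N := by
        rw [Nat.floor_lt hx0]
        nlinarith
      refine ⟨⟨_, h1⟩, ⟨x * N - ⌊(x : ℝ) * N⌋₊, ?_, ?_⟩, ?_⟩
      · linarith [Nat.floor_le hx0]
      · linarith [Nat.lt_floor_add_one ((x : ℝ) * N)]
      · simp only
        field_simp
        ring
    · have h1 : (x : ℝ) = 1 := le_antisymm x.2.2 (not_lt.1 hx)
      refine ⟨⟨N - 1, by omega⟩, 1, ?_⟩
      simp only [h1, Icc.coe_one]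
      rw [Nat.cast_sub hN]
      field_simp
      simp
  choose a u h using key
  exact ⟨fun i => a (t i), fun i => u (t i), funext fun i => Subtype.ext (h (t i))⟩

theorem cpt_eq_bI {a : Fin k → Fin N} {u : Cu k} {i : Fin k} {ε : Bool} (h : cpt a u i = bI ε) :
    u i = bI ε ∧ (a i : ℕ) + ε.toNat = if ε then N else 0 := by
  have h1 : (((a i : ℕ) : ℝ) + 1) ≤ N := by exact_mod_cast (a i).2
  have h0 : (0 : ℝ) ≤ ((a i : ℕ) : ℝ) := Nat.cast_nonneg _
  have h2 := (u i).2.1
  have h3 := (u i).2.2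
  have hN : (0 : ℝ) < N := by linarith
  have h' : (((a i : ℕ) : ℝ) + (u i : ℝ)) / N = (bI ε : ℝ) := congrArg Subtype.val h
  rw [div_eq_iff hN.ne'] at h'
  cases ε
  · simp only [bI, Bool.false_eq_true, if_false, Icc.coe_zero, zero_mul] at h' ⊢
    refine ⟨Subtype.ext (by simp only [Icc.coe_zero]; linarith), ?_⟩
    have : ((a i : ℕ) : ℝ) = 0 := by linarith
    simpa using this
  · simp only [bI, if_true, Icc.coe_one, one_mul] at h' ⊢
    refine ⟨Subtype.ext (by simp only [Icc.coe_one]; linarith), ?_⟩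
    have : ((a i : ℕ) : ℝ) + 1 = N := by linarith
    simp only [Bool.toNat_true]
    exact_mod_cast this

theorem removeNth_cpt (a : Fin (k + 1) → Fin N) (u : Cu (k + 1)) (j : Fin (k + 1)) :
    j.removeNth (cpt a u) = cpt (j.removeNth a) (j.removeNth u) := by
  rfl

/-- Radial projection from the point `(centre, 2)`: with `x = 2 u - 1`, `ρ = ‖x‖_∞` and
`λ = 2 / max (2 - s) (2 ρ)` send `(x, s)` to `(λ x, 2 - λ (2 - s))`. -/
theorem exists_retraction (k : ℕ) : ∃ r : C(Cu k × I, Cu k × I),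
    (∀ p, (r p).2 = 0 ∨ (r p).1 ∈ HBd k) ∧ ∀ p, p.2 = 0 ∨ p.1 ∈ HBd k → r p = p := by
  let x : Cu k × I → (Fin k → ℝ) := fun p i => 2 * (p.1 i : ℝ) - 1
  have hx : Continuous x := by
    refine continuous_pi fun i => ?_
    simp only [x]
    fun_prop
  have hx1 : ∀ p, ‖x p‖ ≤ 1 := fun p => by
    refine (pi_norm_le_iff_of_nonneg zero_le_one).2 fun i => ?_
    have h2 := (p.1 i).2.1
    have h3 := (p.1 i).2.2
    rw [Real.norm_eq_abs, abs_le]
    constructor <;> simp only [x] <;> linarith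
  let m : Cu k × I → ℝ := fun p => max (2 - (p.2 : ℝ)) (2 * ‖x p‖)
  have hm : Continuous m := by
    simp only [m]
    fun_prop
  have hm0 : ∀ p, 0 < m p := fun p => lt_max_of_lt_left (by linarith [p.2.2.2])
  let l : Cu k × I → ℝ := fun p => 2 / m p
  have hl : Continuous l := continuous_const.div hm fun p => (hm0 p).ne'
  refine ⟨⟨fun p => (fun i => projIcc (0 : ℝ) 1 zero_le_one ((1 + l p * x p i) / 2),
    projIcc (0 : ℝ) 1 zero_le_one (2 - l p * (2 - (p.2 : ℝ)))), ?_⟩, ?_, ?_⟩
  · refine Continuous.prodMk (continuous_pi fun i => continuous_projIcc.comp ?_)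
      (continuous_projIcc.comp ?_)
    · have := (continuous_apply i).comp hx
      exact (continuous_const.add (hl.mul this)).div_const _
    · exact continuous_const.sub (hl.mul (by fun_prop))
  · intro p
    simp only [ContinuousMap.coe_mk]
    have hp : 0 < 2 - (p.2 : ℝ) := by linarith [p.2.2.2]
    rcases le_total (2 * ‖x p‖) (2 - (p.2 : ℝ)) with h | h
    · left
      have : l p * (2 - (p.2 : ℝ)) = 2 := by
        simp only [l, m, max_eq_left h]
        field_simp
      rw [this, sub_self]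
      exact projIcc_left _
    · right
      have h0 : 0 < ‖x p‖ := by linarith
      have : ∃ i, ‖x p‖ ≤ ‖x p i‖ := by
        by_contra hne
        push Not at hne
        exact lt_irrefl _ ((pi_norm_lt_iff h0).2 hne)
      obtain ⟨i, hi⟩ := this
      have hi' : ‖x p‖ = |x p i| := le_antisymm hi (norm_le_pi_norm (x p) i)
      have hl' : l p * ‖x p‖ = 1 := by
        simp only [l, m, max_eq_right h]
        field_simp
      refine ⟨i, ?_⟩
      rcases abs_choice (x p i) with h' | h'
      · right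
        have : (1 + l p * x p i) / 2 = 1 := by
          rw [← h', ← hi', hl']
          norm_num
        simp only [this]
        exact projIcc_right _
      · left
        have : (1 + l p * x p i) / 2 = 0 := by
          have h'' : x p i = -‖x p‖ := by rw [hi', h', neg_neg]
          rw [h'', mul_neg, hl']
          norm_num
        simp only [this]
        exact projIcc_left _
  · intro p hp
    have hm2 : m p = 2 := by
      rcases hp with hp | ⟨i, hp⟩
      · simp only [m, hp, Icc.coe_zero, sub_zero]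
        exact max_eq_left (by linarith [hx1 p])
      · have : ‖x p‖ = 1 := by
          refine le_antisymm (hx1 p) (le_trans ?_ (norm_le_pi_norm (x p) i))
          rcases hp with hp | hp <;> simp only [x, hp] <;> norm_num
        simp only [m, this, mul_one]
        exact max_eq_right (by linarith [p.2.2.1])
    have hl1 : l p = 1 := by simp only [l, hm2]; norm_num
    simp only [ContinuousMap.coe_mk, hl1, one_mul, sub_sub_cancel]
    refine Prod.ext (funext fun i => ?_) (projIcc_val zero_le_one _)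
    have : (1 + x p i) / 2 = (p.1 i : ℝ) := by simp only [x]; ring
    simp only [this]
    exact projIcc_val _ _

/-- homotopy extension property of `(I^k, ∂ I^k)` -/
theorem hep {Z : Set X} (f : C(Cu k, X)) (h : Cu k × I → X)
    (hc : ContinuousOn h (HBd k ×ˢ univ)) (h0 : ∀ u ∈ HBd k, h (u, 0) = f u) (hf : ∀ u, f u ∈ Z)
    (hh : ∀ u ∈ HBd k, ∀ s, h (u, s) ∈ Z) : ∃ K : C(Cu k × I, X), (∀ p, K p ∈ Z) ∧
      (∀ u, K (u, 0) = f u) ∧ ∀ u ∈ HBd k, ∀ s, K (u, s) = h (u, s) := by
  classical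
  obtain ⟨r, hr1, hr2⟩ := exists_retraction k
  let g : Cu k × I → X := fun p => if p.1 ∈ HBd k then h p else f p.1
  have hg0 : ∀ u, g (u, 0) = f u := fun u => by
    simp only [g]
    split_ifs with hu
    · exact h0 u hu
    · rfl
  have hg1 : ∀ u ∈ HBd k, ∀ s, g (u, s) = h (u, s) := fun u hu s => if_pos hu
  have hgc : ContinuousOn g ({p | p.2 = 0} ∪ HBd k ×ˢ univ) := by
    refine ContinuousOn.union_of_isClosed ?_ ?_ (isClosed_eq continuous_snd continuous_const)
      (isClosed_hbd.prod isClosed_univ)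
    · refine (f.continuous.comp continuous_fst).continuousOn.congr ?_
      rintro ⟨u, s⟩ hs
      obtain rfl : s = 0 := hs
      exact hg0 u
    · refine hc.congr ?_
      rintro ⟨u, s⟩ hs
      exact hg1 u hs.1 s
  refine ⟨⟨g ∘ r, hgc.comp_continuous r.continuous fun p => ?_⟩, fun p => ?_, fun u => ?_,
    fun u hu s => ?_⟩
  · rcases hr1 p with h' | h'
    · exact Or.inl h'
    · exact Or.inr ⟨h', mem_univ _⟩
  · simp only [ContinuousMap.coe_mk, Function.comp, g]
    split_ifs with hu
    · exact hh _ hu _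
    · exact hf _
  · simp only [ContinuousMap.coe_mk, Function.comp]
    rw [hr2 _ (Or.inl rfl), hg0]
  · simp only [ContinuousMap.coe_mk, Function.comp]
    rw [hr2 (u, s) (Or.inr hu), hg1 u hu]

theorem Ext.congr {Z : Set X} {f g : Cu k → X} (h : Ext Z f) (hfg : EqOn f g (HBd k)) :
    Ext Z g := by
  obtain ⟨F, h1, h2⟩ := h
  exact ⟨F, h1, h2.trans hfg⟩

theorem Ext.mono {Z Z' : Set X} {f : Cu k → X} (h : Ext Z f) (hZ : Z ⊆ Z') : Ext Z' f := by
  obtain ⟨F, h1, h2⟩ := h
  exact ⟨F, fun t => hZ (h1 t), h2⟩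

theorem Fill.mono {Y Y' Z Z' : Set X} (h : Fill Y Z k) (hY : Y' ⊆ Y) (hZ : Z ⊆ Z') :
    Fill Y' Z' k := by
  exact fun f hf hm => (h f hf (hm.mono_right hY)).mono hZ

theorem hc0_ext_of_homotopy {Z : Set X} (h : Cu k × I → X) (hc : ContinuousOn h (HBd k ×ˢ univ))
    (hh : ∀ u ∈ HBd k, ∀ s, h (u, s) ∈ Z) (he : Ext Z (fun u => h (u, 0))) :
    Ext Z (fun u => h (u, 1)) := by
  obtain ⟨F, h1, h2⟩ := he
  obtain ⟨K, k1, -, k3⟩ := hep F h hc (fun u hu => (h2 hu).symm) h1 hh
  exact ⟨K.comp ⟨fun u => (u, 1), by fun_prop⟩, fun t => k1 _, fun u hu => k3 u hu 1⟩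

/-- `hep`, and `hep` for the reversed homotopy -/
theorem ext_iff_of_homotopy {Z : Set X} (h : Cu k × I → X) (hc : ContinuousOn h (HBd k ×ˢ univ))
    (hh : ∀ u ∈ HBd k, ∀ s, h (u, s) ∈ Z) :
    Ext Z (fun u => h (u, 0)) ↔ Ext Z (fun u => h (u, 1)) := by
  constructor
  · exact hc0_ext_of_homotopy h hc hh
  · have hσ : Continuous fun p : Cu k × I => (p.1, unitInterval.symm p.2) := by fun_prop
    have := hc0_ext_of_homotopy (Z := Z) (fun p => h (p.1, unitInterval.symm p.2))
      (hc.comp hσ.continuousOn fun p hp => ⟨hp.1, mem_univ _⟩) fun u hu s => hh u hu _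
    simpa using this

/-- `I^k × I ≅ I^(k+1)` -/
theorem Fill.prod {Y Z : Set X} (hF : Fill Y Z (k + 1)) (f g : C(Cu k, X)) (h : Cu k × I → X)
    (hc : ContinuousOn h (HBd k ×ˢ univ)) (h0 : ∀ u ∈ HBd k, h (u, 0) = f u)
    (h1 : ∀ u ∈ HBd k, h (u, 1) = g u) (hf : ∀ u, f u ∈ Y) (hg : ∀ u, g u ∈ Y)
    (hh : ∀ u ∈ HBd k, ∀ s, h (u, s) ∈ Y) : ∃ K : C(Cu k × I, X), (∀ p, K p ∈ Z) ∧
      (∀ u, K (u, 0) = f u) ∧ (∀ u, K (u, 1) = g u) ∧ ∀ u ∈ HBd k, ∀ s, K (u, s) = h (u, s) := by
  classical
  let G : Cu k × I → X := fun p => if p.1 ∈ HBd k then h p else if p.2 = 0 then f p.1 else g p.1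
  have hG0 : ∀ u, G (u, 0) = f u := fun u => by
    simp only [G]
    split_ifs with hu
    · exact h0 u hu
    · rfl
  have hG1 : ∀ u, G (u, 1) = g u := fun u => by
    simp only [G]
    split_ifs with hu h'
    · exact h1 u hu
    · exact absurd h' one_ne_zero
    · rfl
  have hG2 : ∀ u ∈ HBd k, ∀ s, G (u, s) = h (u, s) := fun u hu s => if_pos hu
  have hGc : ContinuousOn G (({p | p.2 = 0} ∪ {p | p.2 = 1}) ∪ HBd k ×ˢ univ) := by
    have c0 : IsClosed {p : Cu k × I | p.2 = 0} := isClosed_eq continuous_snd continuous_const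
    have c1 : IsClosed {p : Cu k × I | p.2 = 1} := isClosed_eq continuous_snd continuous_const
    refine ContinuousOn.union_of_isClosed (ContinuousOn.union_of_isClosed ?_ ?_ c0 c1) ?_
      (c0.union c1) (isClosed_hbd.prod isClosed_univ)
    · refine (f.continuous.comp continuous_fst).continuousOn.congr ?_
      rintro ⟨u, s⟩ hs
      obtain rfl : s = 0 := hs
      exact hG0 u
    · refine (g.continuous.comp continuous_fst).continuousOn.congr ?_
      rintro ⟨u, s⟩ hs
      obtain rfl : s = 1 := hs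
      exact hG1 u
    · refine hc.congr ?_
      rintro ⟨u, s⟩ hs
      exact hG2 u hs.1 s
  let e : Cu (k + 1) → Cu k × I := fun t => (fun i => t i.succ, t 0)
  have he : Continuous e := by
    simp only [e]
    fun_prop
  have hmem : ∀ t ∈ HBd (k + 1), e t ∈ (({p | p.2 = 0} ∪ {p | p.2 = 1}) ∪ HBd k ×ˢ univ :
      Set (Cu k × I)) := by
    rintro t ⟨i, hi⟩
    refine Fin.cases (motive := fun i => (t i = 0 ∨ t i = 1) → _) (fun hi => ?_)
      (fun i hi => ?_) i hi
    · exact Or.inl hi
    · exact Or.inr ⟨⟨i, hi⟩, mem_univ _⟩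
  obtain ⟨F, F1, F2⟩ := hF (G ∘ e) (hGc.comp he.continuousOn hmem) (fun t _ => by
    simp only [Function.comp, G]
    split_ifs with hu h'
    · exact hh _ hu _
    · exact hf _
    · exact hg _)
  let d : C(Cu k × I, Cu (k + 1)) := ⟨fun p => Fin.cons (α := fun _ => I) p.2 p.1,
    Continuous.finCons (A := fun _ => I) continuous_snd continuous_fst⟩
  have hd : ∀ p, e (d p) = p := fun p => rfl
  refine ⟨F.comp d, fun p => F1 _, fun u => ?_, fun u => ?_, fun u hu s => ?_⟩
  · have : d (u, 0) ∈ HBd (k + 1) := ⟨0, Or.inl rfl⟩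
    rw [ContinuousMap.comp_apply, F2 this, Function.comp, hd, hG0]
  · have : d (u, 1) ∈ HBd (k + 1) := ⟨0, Or.inr rfl⟩
    rw [ContinuousMap.comp_apply, F2 this, Function.comp, hd, hG1]
  · have : d (u, s) ∈ HBd (k + 1) := by
      obtain ⟨i, hi⟩ := hu
      exact ⟨i.succ, hi⟩
    rw [ContinuousMap.comp_apply, F2 this, Function.comp, hd, hG2 u hu]

/-- gluing along the faces of the boundary (finite closed cover) -/
theorem glue_bd (f : Fin (k + 1) → Bool → C(Cu k × Y, X))
    (h : ∀ (t : Cu (k + 1)) j ε i δ, t j = bI ε → t i = bI δ → ∀ y,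
      f j ε (j.removeNth t, y) = f i δ (i.removeNth t, y)) :
    ∃ F : Cu (k + 1) × Y → X, ContinuousOn F (HBd (k + 1) ×ˢ univ) ∧
      ∀ j ε u y, F (ins j ε u, y) = f j ε (u, y) := by
  classical
  let F : Cu (k + 1) × Y → X := fun p =>
    if hp : ∃ q : Fin (k + 1) × Bool, p.1 q.1 = bI q.2 then
      f hp.choose.1 hp.choose.2 (hp.choose.1.removeNth p.1, p.2)
    else f 0 false ((0 : Fin (k + 1)).removeNth p.1, p.2)
  have hF : ∀ t j ε y, t j = bI ε → F (t, y) = f j ε (j.removeNth t, y) := by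
    intro t j ε y ht
    have hp : ∃ q : Fin (k + 1) × Bool, t q.1 = bI q.2 := ⟨(j, ε), ht⟩
    simp only [F, dif_pos hp]
    exact h t _ _ _ _ hp.choose_spec ht y
  refine ⟨F, ?_, fun j ε u y => by rw [hF _ j ε y (ins_same j ε u), removeNth_ins]⟩
  have : (HBd (k + 1) ×ˢ (univ : Set Y)) =
      ⋃ q : Fin (k + 1) × Bool, {p : Cu (k + 1) × Y | p.1 q.1 = bI q.2} := by
    ext p
    simp only [mem_prod, mem_univ, and_true, mem_bd_iff', mem_iUnion, mem_ofPred_eq, Prod.exists]
  rw [this]
  refine (locallyFinite_of_finite _).continuousOn_iUnion (fun q => ?_) fun q => ?_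
  · exact isClosed_eq ((continuous_apply q.1).comp continuous_fst) continuous_const
  · have hc : Continuous fun p : Cu (k + 1) × Y => f q.1 q.2 (q.1.removeNth p.1, p.2) := by
      refine (f q.1 q.2).continuous.comp (Continuous.prodMk ?_ continuous_snd)
      exact continuous_pi fun i => (continuous_apply (q.1.succAbove i)).comp continuous_fst
    refine hc.continuousOn.congr ?_
    rintro ⟨t, y⟩ ht
    exact hF t q.1 q.2 y ht

theorem hc0_grid_step (f : (Fin (k + 1) → Fin N) → C(Cu (k + 1) × Y, X))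
    (h : ∀ (a : Fin (k + 1) → Fin N) i (hi : (a i : ℕ) + 1 < N) u y,
      f a (ins i true u, y) = f (Function.update a i ⟨a i + 1, hi⟩) (ins i false u, y))
    (a a' : Fin (k + 1) → Fin N) (u u' : Cu (k + 1)) (he : cpt a u = cpt a' u')
    (i : Fin (k + 1)) (hi : a i < a' i) :
    ∃ v, cpt (Function.update a i (a' i)) v = cpt a u ∧
      ∀ y, f a (u, y) = f (Function.update a i (a' i)) (v, y) := by
  have h1 : (((a' i : ℕ) : ℝ) + 1) ≤ N := by exact_mod_cast (a' i).2
  have h0 : (0 : ℝ) ≤ ((a' i : ℕ) : ℝ) := Nat.cast_nonneg _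
  have hN : (0 : ℝ) < N := by linarith
  have h2 := (u i).2.2
  have h3 := (u' i).2.1
  have h4 : (((a i : ℕ) : ℝ) + (u i : ℝ)) / N = (((a' i : ℕ) : ℝ) + (u' i : ℝ)) / N :=
    congrArg Subtype.val (congrFun he i)
  rw [div_left_inj' hN.ne'] at h4
  have h5 : ((a i : ℕ) : ℝ) + 1 ≤ ((a' i : ℕ) : ℝ) := by exact_mod_cast hi
  have h6 : ((a i : ℕ) : ℝ) + 1 = ((a' i : ℕ) : ℝ) := by linarith
  have h7 : (a i : ℕ) + 1 = (a' i : ℕ) := by exact_mod_cast h6
  have h8 : u i = bI true := Subtype.ext (by simp only [bI, if_true, Icc.coe_one]; linarith)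
  have h9 : (a i : ℕ) + 1 < N := h7 ▸ (a' i).2
  have h10 : (⟨a i + 1, h9⟩ : Fin N) = a' i := Fin.ext h7
  refine ⟨ins i false (i.removeNth u), ?_, fun y => ?_⟩
  · funext m
    refine Subtype.ext ?_
    simp only [cpt]
    congr 1
    refine Fin.succAboveCases i ?_ (fun m => ?_) m
    · rw [ins_same, Function.update_self, h8, ← h6]
      simp [bI]
    · rw [Function.update_of_ne (Fin.succAbove_ne i m)]
      simp [ins, Fin.removeNth]
  · rw [← h10, ← h a i h9, ins_removeNth h8]

theorem hc0_grid_wd (f : (Fin (k + 1) → Fin N) → C(Cu (k + 1) × Y, X))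
    (h : ∀ (a : Fin (k + 1) → Fin N) i (hi : (a i : ℕ) + 1 < N) u y,
      f a (ins i true u, y) = f (Function.update a i ⟨a i + 1, hi⟩) (ins i false u, y))
    (n : ℕ) : ∀ (a a' : Fin (k + 1) → Fin N) (u u' : Cu (k + 1)),
      (Finset.univ.filter fun i => a i ≠ a' i).card = n → cpt a u = cpt a' u' →
      ∀ y, f a (u, y) = f a' (u', y) := by
  induction n with
  | zero =>
    intro a a' u u' hn he y
    have : a = a' := by
      funext i
      by_contra hi
      rw [Finset.card_eq_zero, Finset.filter_eq_empty_iff] at hn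
      exact hn (Finset.mem_univ i) hi
    subst this
    have : u = u' := by
      funext i
      have h1 : (((a i : ℕ) : ℝ) + 1) ≤ N := by exact_mod_cast (a i).2
      have h0 : (0 : ℝ) ≤ ((a i : ℕ) : ℝ) := Nat.cast_nonneg _
      have hN : (0 : ℝ) < N := by linarith
      have h4 : (((a i : ℕ) : ℝ) + (u i : ℝ)) / N = (((a i : ℕ) : ℝ) + (u' i : ℝ)) / N :=
        congrArg Subtype.val (congrFun he i)
      rw [div_left_inj' hN.ne'] at h4
      exact Subtype.ext (by linarith)
    rw [this]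
  | succ n ih =>
    intro a a' u u' hn he y
    obtain ⟨i, hi⟩ : (Finset.univ.filter fun i => a i ≠ a' i).Nonempty :=
      Finset.card_pos.1 (by omega)
    have hc : ((Finset.univ.filter fun i => a i ≠ a' i).erase i).card = n := by
      rw [Finset.card_erase_of_mem hi, hn]
      rfl
    rcases lt_or_gt_of_ne (Finset.mem_filter.1 hi).2 with hlt | hlt
    · obtain ⟨v, hv, hv'⟩ := hc0_grid_step f h a a' u u' he i hlt
      rw [hv' y]
      refine ih _ _ _ _ ?_ (hv.trans he) y
      rw [← hc]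
      congr 1
      ext m
      by_cases hm : m = i
      · subst hm
        simp
      · simp [hm]
    · obtain ⟨v, hv, hv'⟩ := hc0_grid_step f h a' a u' u he.symm i hlt
      rw [hv' y]
      refine ih _ _ _ _ ?_ (he.trans hv.symm) y
      rw [← hc]
      congr 1
      ext m
      by_cases hm : m = i
      · subst hm
        simp
      · simp [hm]

/-- gluing along the cells of a grid.  Well defined: if `cpt a u = cpt a' u'` pass from `(a, u)` to
`(a', u')` one coordinate at a time.  Continuity: finite closed cover by the ranges of the closed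
embeddings `cpt a × id`. -/
theorem glue_grid (hN : 0 < N) (f : (Fin (k + 1) → Fin N) → C(Cu (k + 1) × Y, X))
    (h : ∀ (a : Fin (k + 1) → Fin N) i (hi : (a i : ℕ) + 1 < N) u y,
      f a (ins i true u, y) = f (Function.update a i ⟨a i + 1, hi⟩) (ins i false u, y)) :
    ∃ F : C(Cu (k + 1) × Y, X), ∀ a u y, F (cpt a u, y) = f a (u, y) := by
  have hN' : (0 : ℝ) < N := by exact_mod_cast hN
  choose A U hAU using exists_cpt (k := k + 1) hN
  let F : Cu (k + 1) × Y → X := fun p => f (A p.1) (U p.1, p.2)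
  have hF : ∀ a u y, F (cpt a u, y) = f a (u, y) := fun a u y =>
    hc0_grid_wd f h _ _ _ _ _ rfl (hAU _).symm y
  refine ⟨⟨F, ?_⟩, hF⟩
  let loc : (Fin (k + 1) → Fin N) → Cu (k + 1) → Cu (k + 1) := fun a t i =>
    projIcc (0 : ℝ) 1 zero_le_one ((t i : ℝ) * N - ((a i : ℕ) : ℝ))
  have hloc : ∀ a, Continuous (loc a) := fun a =>
    continuous_pi fun i => continuous_projIcc.comp (by fun_prop)
  have hloc' : ∀ a u, loc a (cpt a u) = u := fun a u => by
    funext i
    have : ((cpt a u i : I) : ℝ) * N - ((a i : ℕ) : ℝ) = (u i : ℝ) := by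
      simp only [cpt]
      field_simp
      ring
    simp only [loc, this]
    exact projIcc_val _ _
  refine (locallyFinite_of_finite
    (fun a : Fin (k + 1) → Fin N => {p : Cu (k + 1) × Y | cpt a (loc a p.1) = p.1})).continuous
    ?_ (fun a => ?_) fun a => ?_
  · refine eq_univ_of_forall fun p => mem_iUnion.2 ⟨A p.1, ?_⟩
    have := hAU p.1
    rw [mem_ofPred_eq, this, ← this]
    conv_lhs => rw [this]
    rw [← this]
    have h2 := hloc' (A p.1) (U p.1)
    rw [← this] at h2
    rw [h2, ← this]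
  · exact isClosed_eq ((continuous_cpt a).comp ((hloc a).comp continuous_fst)) continuous_fst
  · have hc : Continuous fun p : Cu (k + 1) × Y => f a (loc a p.1, p.2) :=
      (f a).continuous.comp (((hloc a).comp continuous_fst).prodMk continuous_snd)
    refine hc.continuousOn.congr ?_
    rintro ⟨t, y⟩ ht
    have ht' : cpt a (loc a t) = t := ht
    have := hF a (loc a t) y
    rwa [ht'] at this

end Crest.Agent.R185
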