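import Crest.Agent.R185.HL1
import Crest.Agent.R185.Hc0

/-!
# R185 HL4: from ordered chains to cubical chains
-/

set_option autoImplicit false

namespace Crest.Agent.R185

open Finsupp

namespace Cb

variable {G : Type} {k : ℕ}

/-- boundary of a cube -/
noncomputable def bdC (c : Cb (k + 1) G) : Cb k G →₀ ℤ :=
  ∑ j : Fin (k + 1), (-1 : ℤ) ^ (j : ℕ) • (single (face j false c) 1 - single (face j true c) 1)

@[simp] theorem bd_single (c : Cb (k + 1) G) (n : ℤ) : bd (single c n) = n • bdC c := by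
  simp [bd, bdC]

@[simp] theorem aug_single (c : Cb k G) (n : ℤ) : aug (single c n) = n := by
  simp [aug]

theorem aug_bdC (c : Cb (k + 1) G) : aug (bdC c) = 0 := by
  simp [bdC, map_sum]

theorem bd_bdC (c : Cb (k + 2) G) : bd (bdC c) = 0 := by
  let g : Fin (k + 2) × Fin (k + 1) → (Cb k G →₀ ℤ) := fun p =>
    (-1 : ℤ) ^ ((p.1 : ℕ) + (p.2 : ℕ)) •
      (single (face p.2 false (face p.1 false c)) 1 - single (face p.2 true (face p.1 false c)) 1
        - single (face p.2 false (face p.1 true c)) 1 + single (face p.2 true (face p.1 true c)) 1)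
  have h1 : bd (bdC c) = ∑ p, g p := by
    rw [Fintype.sum_prod_type, bdC, map_sum]
    refine Finset.sum_congr rfl fun j _ => ?_
    rw [map_smul, map_sub, bd_single, bd_single, one_smul, one_smul, bdC, bdC,
      ← Finset.sum_sub_distrib, Finset.smul_sum]
    refine Finset.sum_congr rfl fun i _ => ?_
    simp only [g, pow_add, mul_smul, ← smul_sub]
    congr 2
    abel
  let σ : Fin (k + 2) × Fin (k + 1) → Fin (k + 2) × Fin (k + 1) := fun p =>
    (p.1.succAbove p.2, p.2.predAbove p.1)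
  have hσ : Function.Involutive σ := fun p => by
    simp only [σ, Fin.succAbove_succAbove_predAbove, Fin.predAbove_predAbove_succAbove]
  have h2 : ∀ p, g (σ p) = -g p := fun p => by
    simp only [g, σ, Fin.neg_one_pow_succAbove_add_predAbove, ← face_face, neg_smul]
    congr 2
    abel
  have h3 : ∑ p, g p = -∑ p, g p := by
    rw [← Finset.sum_neg_distrib, ← Equiv.sum_comp hσ.toPerm g]
    exact Finset.sum_congr rfl fun p _ => h2 p
  rw [h1]
  ext x
  have := DFunLike.congr_fun h3 x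
  rw [Finsupp.neg_apply] at this
  rw [Finsupp.zero_apply]
  omega

end Cb

theorem Cb.bd_bd {G : Type} {k : ℕ} (z : Cb (k + 2) G →₀ ℤ) : Cb.bd (Cb.bd z) = 0 := by
  induction z using Finsupp.induction_linear with
  | zero => simp
  | add a b ha hb => simp only [map_add, ha, hb, add_zero]
  | single c n => simp [Cb.bd_bdC]

theorem Cb.aug_bd {G : Type} {k : ℕ} (z : Cb (k + 1) G →₀ ℤ) : Cb.aug (Cb.bd z) = 0 := by
  induction z using Finsupp.induction_linear with
  | zero => simp
  | add a b ha hb => simp only [map_add, ha, hb, add_zero]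
  | single c n => simp [Cb.aug_bdC]

namespace Cb

variable {G : Type} {k : ℕ}

/-- constant cube -/
def cst (k : ℕ) (y : G) : Cb k G := fun _ => y

/-- cone over a cube -/
def coneC (y : G) (c : Cb k G) : Cb (k + 1) G := fun v => if v 0 then y else c (Fin.tail v)

/-- cone over a chain -/
noncomputable def cone (y : G) : (Cb k G →₀ ℤ) →ₗ[ℤ] (Cb (k + 1) G →₀ ℤ) :=
  Finsupp.lmapDomain ℤ ℤ (coneC y)

@[simp] theorem cone_single (y : G) (c : Cb k G) (n : ℤ) :
    cone y (single c n) = single (coneC y c) n := by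
  simp [cone]

theorem face_zero_false (y : G) (c : Cb k G) : face 0 false (coneC y c) = c := by
  funext v
  simp [face, coneC, Fin.insertNth_zero']

theorem face_zero_true (y : G) (c : Cb k G) : face 0 true (coneC y c) = cst k y := by
  funext v
  simp [face, coneC, cst]

theorem face_succ (y : G) (c : Cb (k + 1) G) (j : Fin (k + 1)) (ε : Bool) :
    face j.succ ε (coneC y c) = coneC y (face j ε c) := by
  funext v
  have : v = Fin.cons (v 0) (Fin.tail v) := (Fin.cons_self_tail v).symm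
  rw [this]
  simp only [face, coneC, Fin.insertNth_succ_cons, Fin.cons_zero, Fin.tail_cons]

theorem aug_cone (y : G) (z : Cb k G →₀ ℤ) : aug (cone y z) = aug z := by
  induction z using Finsupp.induction_linear with
  | zero => simp
  | add a b ha hb => simp only [map_add, ha, hb]
  | single c n => simp

theorem bd_cone_zero (y : G) (z : Cb 0 G →₀ ℤ) :
    bd (cone y z) = z - aug z • single (cst 0 y) 1 := by
  induction z using Finsupp.induction_linear with
  | zero => simp
  | add a b ha hb => simp only [map_add, ha, hb, add_smul]; abel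
  | single c n => simp [bdC, face_zero_false, face_zero_true, smul_sub]

theorem bd_cone_succ (y : G) (z : Cb (k + 1) G →₀ ℤ) :
    bd (cone y z) = z - aug z • single (cst (k + 1) y) 1 - cone y (bd z) := by
  induction z using Finsupp.induction_linear with
  | zero => simp
  | add a b ha hb => simp only [map_add, ha, hb, add_smul]; abel
  | single c n =>
    have : bdC (coneC y c) = single c 1 - single (cst (k + 1) y) 1 - cone y (bdC c) := by
      rw [bdC, Fin.sum_univ_succ, face_zero_false, face_zero_true, bdC, map_sum, sub_eq_add_neg _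
        (∑ _, _), ← Finset.sum_neg_distrib]
      congr 1
      · simp
      · refine Finset.sum_congr rfl fun j _ => ?_
        rw [face_succ, face_succ, map_smul, map_sub, cone_single, cone_single, Fin.val_succ,
          pow_succ, mul_neg, mul_one, neg_smul]
    rw [cone_single, bd_single, this, bd_single, map_smul, aug_single, smul_sub, smul_sub]
    simp

theorem bdC_cst (y : G) : bdC (cst (k + 1) y) = 0 := by
  refine Finset.sum_eq_zero fun j _ => ?_
  have : face j false (cst (k + 1) y) = face j true (cst (k + 1) y) := rfl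
  rw [this, sub_self, smul_zero]

/-- chains on cubes with vertices in `Y` -/
def On (k : ℕ) (Y : Set G) : Submodule ℤ (Cb k G →₀ ℤ) := supported ℤ ℤ {c | ∀ v, c v ∈ Y}

theorem On_mono {Y Y' : Set G} (h : Y ⊆ Y') : On k Y ≤ On k Y' :=
  supported_mono fun _ hc v => h (hc v)

theorem cone_mem {Y : Set G} {y : G} (hy : y ∈ Y) {z : Cb k G →₀ ℤ} (hz : z ∈ On k Y) :
    cone y z ∈ On (k + 1) Y := by
  refine HCh.linear_mem _ ?_ hz
  intro c hc
  rw [cone_single]
  refine single_mem_supported ℤ _ fun v => ?_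
  unfold coneC
  split_ifs
  · exact hy
  · exact hc _

theorem bdC_mem (c : Cb (k + 1) G) : bdC c ∈ On k (Set.range c) := by
  refine Submodule.sum_mem _ fun j _ => Submodule.smul_mem _ _ (Submodule.sub_mem _ ?_ ?_) <;>
  exact single_mem_supported ℤ _ fun v => ⟨_, rfl⟩

/-- the first vertex -/
def v0 (c : Cb k G) : G := c fun _ => false

theorem v0_mem (c : Cb k G) : v0 c ∈ Set.range c := ⟨_, rfl⟩

/-- from cubes to lists -/
noncomputable def T (m : ℕ) : (k : ℕ) → Cb k G → HCh G
  | 0, c => if m = 0 then single [v0 c] 1 else 0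
  | k + 1, c => if m = k + 1 then single [v0 c] 1 else HCh.cn (v0 c) (HCh.ext (T m k) (bdC c))

theorem T_self (k : ℕ) (c : Cb k G) : T k k c = single [v0 c] 1 := by
  cases k <;> simp [T]

theorem T_succ {m : ℕ} (h : m ≠ k + 1) (c : Cb (k + 1) G) :
    T m (k + 1) c = HCh.cn (v0 c) (HCh.ext (T m k) (bdC c)) := by
  simp [T, h]

theorem T_of_lt {m : ℕ} : ∀ {k : ℕ}, k < m → ∀ c : Cb k G, T m k c = 0
  | 0, h, c => by simp [T, h.ne']
  | k + 1, h, c => by
    rw [T_succ h.ne', HCh.ext_congr (h' := fun _ => 0) fun b _ => T_of_lt (by omega) b,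
      HCh.ext_zero, map_zero]

theorem bd_T_self (z : Cb k G →₀ ℤ) : HCh.bd (HCh.ext (T k k) z) = aug z • single [] 1 := by
  induction z using Finsupp.induction_linear with
  | zero => simp
  | add a b ha hb => simp only [map_add, ha, hb, add_smul]
  | single c n => simp [T_self, HCh.bdL_cons, HCh.bdL_nil]

theorem bd_T_aux {m : ℕ} (hm : m ≠ k + 1)
    (h : ∀ c : Cb (k + 1) G, HCh.bd (HCh.ext (T m k) (bdC c)) = 0) (z : Cb (k + 1) G →₀ ℤ) :
    HCh.bd (HCh.ext (T m (k + 1)) z) = HCh.ext (T m k) (bd z) := by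
  induction z using Finsupp.induction_linear with
  | zero => simp
  | add a b ha hb => simp only [map_add, ha, hb]
  | single c n => simp [T_succ hm, HCh.bd_cn, h]

theorem bd_T {m : ℕ} : ∀ {k : ℕ}, m ≠ k + 1 → ∀ z : Cb (k + 1) G →₀ ℤ,
    HCh.bd (HCh.ext (T m (k + 1)) z) = HCh.ext (T m k) (bd z)
  | 0, hm, z => by
    refine bd_T_aux hm (fun c => ?_) z
    by_cases h : m = 0
    · subst h
      rw [bd_T_self, aug_bdC, zero_smul]
    · rw [HCh.ext_congr (h' := fun _ => 0) fun b _ => T_of_lt (by omega) b, HCh.ext_zero, map_zero]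
  | k + 1, hm, z => by
    refine bd_T_aux hm (fun c => ?_) z
    by_cases h : m = k + 1
    · subst h
      rw [bd_T_self, aug_bdC, zero_smul]
    · rw [bd_T h, bd_bdC, map_zero]

theorem T_mem {m : ℕ} : ∀ {k : ℕ} (c : Cb k G), T m k c ∈ HCh.On (k - m + 1) (Set.range c)
  | 0, c => by
    by_cases h : m = 0
    · subst h
      rw [T_self]
      exact HCh.single_mem_On rfl (by simpa using v0_mem c) _
    · rw [T_of_lt (by omega)]
      exact Submodule.zero_mem _
  | k + 1, c => by
    rcases lt_trichotomy m (k + 1) with h | h | h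
    · rw [T_succ h.ne, show k + 1 - m + 1 = k - m + 1 + 1 by omega]
      refine HCh.cn_mem_On (v0_mem c) (HCh.ext_mem (fun b hb => ?_) (bdC_mem c))
      exact HCh.On_mono (Set.range_subset_iff.2 hb) _ (T_mem b)
    · subst h
      rw [T_self]
      exact HCh.single_mem_On (by simp) (by simpa using v0_mem c) _
    · rw [T_of_lt h]
      exact Submodule.zero_mem _

/-- constant cubes -/
noncomputable def T0 (k : ℕ) : List G → (Cb k G →₀ ℤ)
  | [x] => single (cst k x) 1
  | _ => 0

/-- from lists to cubes -/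
noncomputable def T' (m : ℕ) : (k : ℕ) → List G → (Cb k G →₀ ℤ)
  | 0, l => if m = 0 then T0 0 l else 0
  | _ + 1, [] => 0
  | k + 1, x :: l => if m = k + 1 then T0 (k + 1) (x :: l) else
      cone x (HCh.ext (T' m k) (HCh.bdL (x :: l)))

theorem T'_self (k : ℕ) (l : List G) : T' k k l = T0 k l := by
  cases k with
  | zero => simp [T']
  | succ k => cases l <;> simp [T', T0]

theorem T'_succ {m : ℕ} (h : m ≠ k + 1) (x : G) (l : List G) :
    T' m (k + 1) (x :: l) = cone x (HCh.ext (T' m k) (HCh.bdL (x :: l))) := by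
  simp [T', h]

theorem T'_nil {m : ℕ} : T' m (k + 1) ([] : List G) = 0 := by
  simp [T']

theorem aug_T0 (l : List G) : aug (T0 k l) = HCh.bdL l [] := by
  match l with
  | [] => simp [T0, HCh.bdL_nil]
  | [x] => simp [T0, HCh.bdL_cons, HCh.bdL_nil]
  | x :: y :: l =>
    rw [HCh.bdL_cons, Finsupp.sub_apply, Finsupp.single_eq_of_ne (by simp)]
    have : HCh.cn x (HCh.bdL (y :: l)) [] = 0 := Finsupp.mapDomain_of_notMem_range _ _ (by simp)
    rw [this]
    simp [T0]

theorem aug_ext_T'_self (z : HCh G) : aug (HCh.ext (T' k k) z) = HCh.bd z [] := by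
  induction z using Finsupp.induction_linear with
  | zero => simp
  | add a b ha hb => simp only [map_add, ha, hb, Finsupp.add_apply]
  | single c n => simp [T'_self, aug_T0]

theorem aug_T' {m : ℕ} : ∀ {k : ℕ}, m ≠ k → ∀ z : HCh G, aug (HCh.ext (T' m k) z) = 0
  | 0, h, z => by
    rw [HCh.ext_congr (h' := fun _ => 0) fun b _ => by simp [T', h], HCh.ext_zero, map_zero]
  | k + 1, h, z => by
    rw [HCh.map_ext, HCh.ext_congr (h' := fun _ => 0), HCh.ext_zero]
    intro l _
    cases l with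
    | nil => rw [T'_nil, map_zero]
    | cons x l =>
      rw [T'_succ h, aug_cone]
      by_cases h' : m = k
      · subst h'
        rw [aug_ext_T'_self, HCh.bd_bdL, Finsupp.zero_apply]
      · exact aug_T' h' _

theorem aug_T'_bdL (m : ℕ) (l : List G) : aug (HCh.ext (T' m k) (HCh.bdL l)) = 0 := by
  by_cases h' : m = k
  · subst h'
    rw [aug_ext_T'_self, HCh.bd_bdL, Finsupp.zero_apply]
  · exact aug_T' h' _

theorem bd_T'_self (z : HCh G) : bd (HCh.ext (T' (k + 1) (k + 1)) z) = 0 := by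
  rw [HCh.map_ext, HCh.ext_congr (h' := fun _ => 0), HCh.ext_zero]
  intro l _
  rw [T'_self]
  match l with
  | [] => simp [T0]
  | [x] => simp [T0, bdC_cst]
  | x :: y :: l => simp [T0]

theorem bd_T' {m : ℕ} : ∀ {k : ℕ}, m ≠ k + 1 → ∀ z : HCh G,
    bd (HCh.ext (T' m (k + 1)) z) = HCh.ext (T' m k) (HCh.bd z)
  | 0, hm, z => by
    rw [HCh.map_ext, ← HCh.ext_bdL, HCh.map_ext]
    refine HCh.ext_congr fun l _ => ?_
    cases l with
    | nil => simp [T'_nil, HCh.bdL_nil]
    | cons x l => rw [T'_succ hm, bd_cone_zero, aug_T'_bdL, zero_smul, sub_zero]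
  | k + 1, hm, z => by
    rw [HCh.map_ext, ← HCh.ext_bdL, HCh.map_ext]
    refine HCh.ext_congr fun l _ => ?_
    cases l with
    | nil => simp [T'_nil, HCh.bdL_nil]
    | cons x l =>
      rw [T'_succ hm, bd_cone_succ, aug_T'_bdL, zero_smul, sub_zero]
      by_cases h : m = k + 1
      · subst h
        rw [bd_T'_self, map_zero, sub_zero]
      · rw [bd_T' h, HCh.bd_bdL, map_zero, map_zero, sub_zero]

theorem T0_mem (l : List G) : T0 k l ∈ On k {x | x ∈ l} := by
  match l with
  | [] => exact Submodule.zero_mem _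
  | [x] => exact single_mem_supported ℤ _ fun v => by simp [cst]
  | x :: y :: l => exact Submodule.zero_mem _

theorem T'_mem {m : ℕ} : ∀ {k : ℕ} (l : List G), T' m k l ∈ On k {x | x ∈ l}
  | 0, l => by
    unfold T'
    split_ifs
    · exact T0_mem l
    · exact Submodule.zero_mem _
  | k + 1, [] => by rw [T'_nil]; exact Submodule.zero_mem _
  | k + 1, x :: l => by
    by_cases h : m = k + 1
    · subst h
      rw [T'_self]
      exact T0_mem _
    · rw [T'_succ h]
      refine cone_mem (by simp) (HCh.ext_mem (S := {l' : List G | l'.Sublist (x :: l)}) (fun b hb => ?_)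
        fun b hb => (HCh.bdL_support hb).1)
      exact On_mono (fun y hy => List.Sublist.subset hb hy) (T'_mem b)

/-- the chain map `id - ∑ T' m ∘ T m` -/
noncomputable def Ψ (k : ℕ) : (Cb k G →₀ ℤ) →ₗ[ℤ] (Cb k G →₀ ℤ) :=
  LinearMap.id - ∑ m ∈ Finset.range (k + 1), (HCh.ext (T' m k)).comp (HCh.ext (T m k))

theorem Ψ_apply (z : Cb k G →₀ ℤ) :
    Ψ k z = z - ∑ m ∈ Finset.range (k + 1), HCh.ext (T' m k) (HCh.ext (T m k) z) := by
  simp [Ψ, LinearMap.sum_apply]

theorem bd_Ψ (z : Cb (k + 1) G →₀ ℤ) : bd (Ψ (k + 1) z) = Ψ k (bd z) := by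
  rw [Ψ_apply, Ψ_apply, map_sub, map_sum, Finset.sum_range_succ, bd_T'_self, add_zero]
  congr 1
  refine Finset.sum_congr rfl fun m hm => ?_
  have : m ≠ k + 1 := (Finset.mem_range.1 hm).ne
  rw [bd_T' this, bd_T this]

theorem aug_Ψ (z : Cb k G →₀ ℤ) : aug (Ψ k z) = 0 := by
  rw [Ψ_apply, map_sub, map_sum, Finset.sum_range_succ, aug_ext_T'_self, bd_T_self,
    Finset.sum_eq_zero fun m hm => aug_T' (Finset.mem_range.1 hm).ne _]
  simp

theorem Ψ_mem (c : Cb k G) : Ψ k (single c 1) ∈ On k (Set.range c) := by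
  rw [Ψ_apply]
  refine Submodule.sub_mem _ (single_mem_supported ℤ _ fun v => ⟨_, rfl⟩)
    (Submodule.sum_mem _ fun m _ => ?_)
  rw [HCh.ext_single, one_smul]
  exact HCh.ext_mem (fun l hl => On_mono (fun x hx => hl.2 x hx) (T'_mem l)) (T_mem c)

/-- the null-homotopy of `Ψ` -/
noncomputable def hh : (k : ℕ) → Cb k G → (Cb (k + 1) G →₀ ℤ)
  | 0, c => cone (v0 c) (Ψ 0 (single c 1))
  | k + 1, c => cone (v0 c) (Ψ (k + 1) (single c 1) - HCh.ext (hh k) (bdC c))

theorem aug_hh : ∀ {k : ℕ} (z : Cb k G →₀ ℤ), aug (HCh.ext (hh k) z) = 0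
  | 0, z => by
    rw [HCh.map_ext, HCh.ext_congr (h' := fun _ => 0), HCh.ext_zero]
    intro c _
    rw [hh, aug_cone, aug_Ψ]
  | k + 1, z => by
    rw [HCh.map_ext, HCh.ext_congr (h' := fun _ => 0), HCh.ext_zero]
    intro c _
    rw [hh, aug_cone, map_sub, aug_Ψ, aug_hh, sub_zero]

theorem bd_hh_zero (z : Cb 0 G →₀ ℤ) : bd (HCh.ext (hh 0) z) = Ψ 0 z := by
  rw [HCh.map_ext, ← HCh.ext_linear (Ψ 0) z]
  refine HCh.ext_congr fun c _ => ?_
  rw [hh, bd_cone_zero, aug_Ψ, zero_smul, sub_zero]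

theorem bd_hh_aux (h : ∀ c : Cb (k + 1) G, bd (HCh.ext (hh k) (bdC c)) = Ψ k (bdC c))
    (z : Cb (k + 1) G →₀ ℤ) :
    bd (HCh.ext (hh (k + 1)) z) = Ψ (k + 1) z - HCh.ext (hh k) (bd z) := by
  induction z using Finsupp.induction_linear with
  | zero => simp
  | add a b ha hb => simp only [map_add, ha, hb]; abel
  | single c n =>
    have : bd (hh (k + 1) c) = Ψ (k + 1) (single c 1) - HCh.ext (hh k) (bdC c) := by
      rw [hh, bd_cone_succ, map_sub aug, aug_Ψ, aug_hh, map_sub bd, bd_Ψ, h, bd_single]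
      simp
    rw [HCh.ext_single, map_smul, this, bd_single, map_smul, smul_sub, ← map_smul]
    simp

theorem bd_hh : ∀ {k : ℕ} (z : Cb (k + 1) G →₀ ℤ),
    bd (HCh.ext (hh (k + 1)) z) = Ψ (k + 1) z - HCh.ext (hh k) (bd z)
  | 0, z => bd_hh_aux (fun c => bd_hh_zero _) z
  | k + 1, z => bd_hh_aux (fun c => by rw [bd_hh, bd_bdC, map_zero, sub_zero]) z

theorem hh_mem : ∀ {k : ℕ} (c : Cb k G), hh k c ∈ On (k + 1) (Set.range c)
  | 0, c => cone_mem (v0_mem c) (Ψ_mem c)
  | k + 1, c => cone_mem (v0_mem c) (Submodule.sub_mem _ (Ψ_mem c)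
      (HCh.ext_mem (fun b hb => On_mono (Set.range_subset_iff.2 hb) (hh_mem b)) (bdC_mem c)))

end Cb

theorem qca_of_kill {G : Type} [Group G] (h : ∀ k, HCh.Kill (id : G → G) k) (k : ℕ) : QCA G k := by
  intro A hA
  choose B hB hw using fun m => h (k + 1 - m + 1) A hA
  refine ⟨A ∪ ⋃ m ∈ Finset.range (k + 2), B m,
    hA.union ((Finset.finite_toSet _).biUnion fun m _ => hB m), fun z hz h0 ha => ?_⟩
  have h1 : ∀ m, ∃ w ∈ HCh.CS (B m) (k + 1 - m + 1 + 1) Set.univ,
      HCh.bd w = HCh.ext (Cb.T m (k + 1)) z := by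
    intro m
    have := hw m (HCh.ext (Cb.T m (k + 1)) z) (HCh.ext_mem (fun c hc => ?_) hz) ?_
    · rwa [HCh.mp_id] at this
    · refine HCh.On_le_CS ?_ (Set.subset_univ _) _ (Cb.T_mem c)
      rintro _ ⟨v, rfl⟩ _ ⟨v', rfl⟩
      exact hc v v'
    · by_cases hm : m = k + 1
      · subst hm
        rw [Cb.bd_T_self, ha, zero_smul]
      · rw [Cb.bd_T hm, h0, map_zero]
  choose w hw1 hw2 using h1
  refine ⟨HCh.ext (Cb.hh (k + 1)) z + ∑ m ∈ Finset.range (k + 2), HCh.ext (Cb.T' m (k + 2)) (w m),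
    Submodule.add_mem _ (HCh.ext_mem (fun c hc => ?_) hz) (Submodule.sum_mem _ fun m hm => ?_), ?_⟩
  · refine supported_mono (fun c' hc' v v' => ?_) (Cb.hh_mem c)
    obtain ⟨u, hu⟩ := hc' v
    obtain ⟨u', hu'⟩ := hc' v'
    rw [← hu, ← hu']
    exact Or.inl (hc u u')
  · refine HCh.ext_mem (fun l hl => ?_) (hw1 m)
    refine supported_mono (fun c' hc' v v' => ?_) (Cb.T'_mem l)
    exact Or.inr (Set.mem_biUnion (x := m) hm (hl.2.1 _ (hc' v) _ (hc' v')))
  · have : ∀ m ∈ Finset.range (k + 2), Cb.bd (HCh.ext (Cb.T' m (k + 2)) (w m)) =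
        HCh.ext (Cb.T' m (k + 1)) (HCh.ext (Cb.T m (k + 1)) z) := fun m hm => by
      rw [Cb.bd_T' (Finset.mem_range.1 hm).ne, hw2]
    rw [map_add, Cb.bd_hh, h0, map_zero, sub_zero, Cb.Ψ_apply, map_sum, Finset.sum_congr rfl this]
    abel

end Crest.Agent.R185
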