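import Crest.Agent.R185.Defs

/-!
# R185: coarse homology with ordered chains and with cubical chains (definitions)
-/

set_option autoImplicit false

namespace Crest.Agent.R185

/-- chains on lists (`[]` is the augmentation) -/
abbrev HCh (G : Type) : Type := List G →₀ ℤ

namespace HCh

variable {G H : Type}

/-- cone with vertex `x` -/
noncomputable def cn (x : G) : HCh G →ₗ[ℤ] HCh G := Finsupp.lmapDomain ℤ ℤ (List.cons x)

/-- boundary of a list -/
noncomputable def bdL : List G → HCh G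
  | [] => 0
  | x :: l => Finsupp.single l 1 - cn x (bdL l)

/-- linear extension of a function on a basis -/
noncomputable def ext {β M : Type} [AddCommGroup M] (h : β → M) : (β →₀ ℤ) →ₗ[ℤ] M :=
  Finsupp.linearCombination ℤ h

/-- boundary -/
noncomputable def bd : HCh G →ₗ[ℤ] HCh G := ext bdL

/-- induced map -/
noncomputable def mp (f : G → H) : HCh G →ₗ[ℤ] HCh H := Finsupp.lmapDomain ℤ ℤ (List.map f)

/-- chains on lists of length `k` with entries in `Y` -/
def On (k : ℕ) (Y : Set G) : Submodule ℤ (HCh G) :=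
  Finsupp.supported ℤ ℤ {l | l.length = k ∧ ∀ x ∈ l, x ∈ Y}

variable [Group G] [Group H]

/-- `A`-small lists -/
def Sm (A : Set G) (l : List G) : Prop := ∀ x ∈ l, ∀ y ∈ l, x⁻¹ * y ∈ A

/-- chains on `A`-small lists of length `k` with entries in `Y` -/
def CS (A : Set G) (k : ℕ) (Y : Set G) : Submodule ℤ (HCh G) :=
  Finsupp.supported ℤ ℤ {l | l.length = k ∧ Sm A l ∧ ∀ x ∈ l, x ∈ Y}

/-- `f` kills the coarse homology of lists of length `k` -/
def Kill (f : G → H) (k : ℕ) : Prop :=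
  ∀ A : Set G, A.Finite → ∃ B : Set H, B.Finite ∧ ∀ z ∈ CS A k Set.univ, bd z = 0 →
    ∃ w ∈ CS B (k + 1) Set.univ, bd w = mp f z

/-- `f` is coarsely chain null-homotopic on lists of length `≤ n` -/
def Null (f : G → H) (n : ℕ) : Prop :=
  ∀ A : Set G, A.Finite → ∃ B : Set H, B.Finite ∧ ∃ h : List G → HCh H,
    h [] = Finsupp.single [1] 1 ∧ ∀ l : List G, l.length ≤ n → Sm A l →
      h l ∈ CS B (l.length + 1) Set.univ ∧ bd (h l) + ext h (bdL l) = Finsupp.single (l.map f) 1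

end HCh

/-- combinatorial cubes -/
abbrev Cb (k : ℕ) (G : Type) : Type := (Fin k → Bool) → G

namespace Cb

variable {G : Type} {k : ℕ}

/-- faces -/
def face (j : Fin (k + 1)) (ε : Bool) (c : Cb (k + 1) G) : Cb k G :=
  fun v => c (Fin.insertNth (α := fun _ => Bool) j ε v)

/-- boundary -/
noncomputable def bd : (Cb (k + 1) G →₀ ℤ) →ₗ[ℤ] (Cb k G →₀ ℤ) :=
  HCh.ext fun c => ∑ j : Fin (k + 1), (-1 : ℤ) ^ (j : ℕ) •
    (Finsupp.single (face j false c) 1 - Finsupp.single (face j true c) 1)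

/-- sum of the coefficients -/
noncomputable def aug : (Cb k G →₀ ℤ) →ₗ[ℤ] ℤ := HCh.ext fun _ => 1

variable [Group G]

/-- `A`-small cubes -/
def Sm (A : Set G) (c : Cb k G) : Prop := ∀ v v', (c v)⁻¹ * c v' ∈ A

end Cb

/-- coarse acyclicity for cubical chains of dimension `k + 1` -/
def QCA (G : Type) [Group G] (k : ℕ) : Prop :=
  ∀ A : Set G, A.Finite → ∃ B : Set G, B.Finite ∧ ∀ z : Cb (k + 1) G →₀ ℤ,
    z ∈ Finsupp.supported ℤ ℤ {c | Cb.Sm A c} → Cb.bd z = 0 → Cb.aug z = 0 →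
      ∃ w : Cb (k + 2) G →₀ ℤ, w ∈ Finsupp.supported ℤ ℤ {c | Cb.Sm B c} ∧ Cb.bd w = z

end Crest.Agent.R185
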