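import Crest.Agent.R185.Hc0

/-!
# R185 TASK Hc1: the homotopy addition theorem for cubes
-/

set_option autoImplicit false

namespace Crest.Agent.R185

open Set
open scoped _root_.Topology unitInterval Topology.Homotopy

variable {n : ℕ} {Z : Type} [TopologicalSpace Z] {z : Z}

theorem cls_const : cls (GenLoop.const : Ω^ (Fin (n + 2)) Z z) = 0 := by
  rfl

theorem cls_eq_iff {a b : Ω^ (Fin (n + 2)) Z z} : cls a = cls b ↔ GenLoop.Homotopic a b := by
  exact Additive.ofMul.apply_eq_iff_eq.trans Quotient.eq

/-- `HomotopyGroup.mul_spec` -/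
theorem cls_transAt (i : Fin (n + 2)) (a b : Ω^ (Fin (n + 2)) Z z) :
    cls (GenLoop.transAt i a b) = cls a + cls b := by
  rw [add_comm (cls a)]
  exact congrArg Additive.ofMul (HomotopyGroup.mul_spec (i := i) (p := b) (q := a)).symm

theorem hc1_face {g : Cu (n + 3) → Z} {a : Fin (n + 3) → Bool → Ω^ (Fin (n + 2)) Z z}
    (h : ∀ j ε u, g (ins j ε u) = a j ε u) {t : Cu (n + 3)} {j : Fin (n + 3)} {ε : Bool}
    (ht : t j = bI ε) : g t = a j ε (j.removeNth t) := by
  rw [← h, ins_removeNth ht]

theorem hc1_ins_succAbove {k : ℕ} (j : Fin (k + 1)) (ε : Bool) (u : Cu k) (l : Fin k) :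
    ins j ε u (j.succAbove l) = u l :=
  Fin.insertNth_apply_succAbove (α := fun _ => I) j (bI ε) u l

theorem hc1_update_ins {k : ℕ} (j : Fin (k + 1)) (ε : Bool) (u : Cu k) (l : Fin k) (x : I) :
    Function.update (ins j ε u) (j.succAbove l) x = ins j ε (Function.update u l x) :=
  (Fin.insertNth_update (α := fun _ => I) j (bI ε) l x u).symm

theorem hc1_mem_bd {k : ℕ} {t : Cu k} {j : Fin k} {ε : Bool} (h : t j = bI ε) : t ∈ HBd k :=
  mem_bd_iff'.mpr ⟨j, ε, h⟩

theorem hc1_transAt_apply (l : Fin (n + 2)) (a b : Ω^ (Fin (n + 2)) Z z) (t : Cu (n + 2)) :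
    GenLoop.transAt l a b t = if (t l : ℝ) ≤ 1 / 2
      then a (Function.update t l <| Set.projIcc 0 1 zero_le_one (2 * t l))
      else b (Function.update t l <| Set.projIcc 0 1 zero_le_one (2 * t l - 1)) := rfl

/-- Concatenation of two maps of the cube. -/
noncomputable def hc1_cat {k : ℕ} (j : Fin k) (g g' : C(Cu k, Z))
    (h : ∀ t : Cu k, g (Function.update t j 1) = g' (Function.update t j 0)) : C(Cu k, Z) where
  toFun t := if (t j : ℝ) ≤ 1 / 2
    then g (Function.update t j <| Set.projIcc 0 1 zero_le_one (2 * t j))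
    else g' (Function.update t j <| Set.projIcc 0 1 zero_le_one (2 * t j - 1))
  continuous_toFun := by
    refine Continuous.if_le ?_ ?_ (by fun_prop) continuous_const fun t ht => ?_
    · exact g.continuous.comp (continuous_id.update j (continuous_projIcc.comp (by fun_prop)))
    · exact g'.continuous.comp (continuous_id.update j (continuous_projIcc.comp (by fun_prop)))
    · have e1 : Set.projIcc (0 : ℝ) 1 zero_le_one (2 * t j) = 1 := by
        rw [ht]; norm_num
      have e2 : Set.projIcc (0 : ℝ) 1 zero_le_one (2 * t j - 1) = 0 := by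
        rw [ht]; norm_num
      rw [e1, e2, h]

theorem hc1_exists_cat (j : Fin (n + 3)) {g g' : C(Cu (n + 3), Z)}
    {a a' : Fin (n + 3) → Bool → Ω^ (Fin (n + 2)) Z z}
    (h : ∀ j ε u, g (ins j ε u) = a j ε u) (h' : ∀ j ε u, g' (ins j ε u) = a' j ε u)
    (hj : a j true = a' j false) :
    ∃ (g'' : C(Cu (n + 3), Z)) (a'' : Fin (n + 3) → Bool → Ω^ (Fin (n + 2)) Z z),
      (∀ j ε u, g'' (ins j ε u) = a'' j ε u) ∧ alt a'' = alt a + alt a' ∧
      a'' j false = a j false ∧ a'' j true = a' j true ∧
      ∀ i ≠ j, ∀ ε, a i ε = GenLoop.const → a' i ε = GenLoop.const → a'' i ε = GenLoop.const := by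
  have hc : ∀ t : Cu (n + 3), g (Function.update t j 1) = g' (Function.update t j 0) := by
    intro t
    rw [hc1_face h (j := j) (ε := true) (by simp [bI]),
      hc1_face h' (j := j) (ε := false) (by simp [bI]), Fin.removeNth_update, Fin.removeNth_update,
      hj]
  have hl : ∀ i : Fin (n + 3), ∃ l : Fin (n + 2), i ≠ j → i.succAbove l = j := by
    intro i
    by_cases hi : i = j
    · exact ⟨0, fun h => absurd hi h⟩
    · obtain ⟨l, hl⟩ := Fin.exists_succAbove_eq (Ne.symm hi)
      exact ⟨l, fun _ => hl⟩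
  choose l hl using hl
  let a'' : Fin (n + 3) → Bool → Ω^ (Fin (n + 2)) Z z := fun i ε =>
    if i = j then (if ε = true then a' j true else a j false)
    else GenLoop.transAt (l i) (a i ε) (a' i ε)
  refine ⟨hc1_cat j g g' hc, a'', fun i ε u => ?_, ?_, by simp [a''], by simp [a''],
    fun i hi ε h1 h2 => ?_⟩
  · change (if ((ins i ε u) j : ℝ) ≤ 1 / 2
      then g (Function.update (ins i ε u) j <| Set.projIcc 0 1 zero_le_one (2 * (ins i ε u) j))
      else g' (Function.update (ins i ε u) j <|
        Set.projIcc 0 1 zero_le_one (2 * (ins i ε u) j - 1))) = _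
    by_cases hi : i = j
    · subst hi
      rw [ins_same]
      cases ε
      · have e1 : Set.projIcc (0 : ℝ) 1 zero_le_one (2 * (bI false : I)) = ins i false u i := by
          rw [ins_same]; simp [bI]
        rw [if_pos (by simp [bI]), e1, Function.update_eq_self, h]
        simp [a'']
      · have e1 : Set.projIcc (0 : ℝ) 1 zero_le_one (2 * (bI true : I) - 1) = ins i true u i := by
          rw [ins_same]; norm_num [bI]
        rw [if_neg (by norm_num [bI]), e1, Function.update_eq_self, h']
        simp [a'']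
    · have e : a'' i ε = GenLoop.transAt (l i) (a i ε) (a' i ε) := if_neg hi
      rw [e, hc1_transAt_apply, ← hl i hi, hc1_ins_succAbove, hc1_update_ins, hc1_update_ins, h, h']
  · unfold alt
    rw [← Finset.sum_add_distrib]
    refine Finset.sum_congr rfl fun i _ => ?_
    rw [← smul_add]
    congr 1
    by_cases hi : i = j
    · subst hi
      simp only [a'', if_true, hj, Bool.false_eq_true, if_false]
      abel
    · simp only [a'', if_neg hi, cls_transAt]
      abel
  · have e : a'' i ε = GenLoop.transAt (l i) (a i ε) (a' i ε) := if_neg hi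
    rw [e, h1, h2]
    ext t
    rw [hc1_transAt_apply]
    simp

theorem hc1_succAbove_eq {k : ℕ} {i l : Fin k} (h : l ≠ i) :
    i.succ.succAbove l = i.castSucc.succAbove l := by
  rcases lt_or_gt_of_ne h with h | h
  · rw [Fin.succAbove_of_castSucc_lt _ _ (Fin.castSucc_lt_succ_iff.mpr h.le),
      Fin.succAbove_of_castSucc_lt _ _ (Fin.castSucc_lt_castSucc_iff.mpr h)]
  · rw [Fin.succAbove_of_le_castSucc _ _ (Fin.succ_le_castSucc_iff.mpr h),
      Fin.succAbove_of_le_castSucc _ _ (Fin.castSucc_le_castSucc_iff.mpr h.le)]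

/-- The connection cubes. -/
theorem hc1_exists_conn (i : Fin (n + 2)) (δ : Bool) (c : Ω^ (Fin (n + 2)) Z z) :
    ∃ (g : C(Cu (n + 3), Z)) (a : Fin (n + 3) → Bool → Ω^ (Fin (n + 2)) Z z),
      (∀ j ε u, g (ins j ε u) = a j ε u) ∧ alt a = 0 ∧ a i.succ δ = c ∧
      a i.succ (!δ) = GenLoop.const ∧ ∀ j, i.succ < j → ∀ ε, a j ε = GenLoop.const := by
  obtain ⟨op, hop, hcomm, h1, h2⟩ : ∃ op : I → I → I, Continuous (fun p : I × I => op p.1 p.2) ∧
      (∀ x y, op x y = op y x) ∧ (∀ x, op (bI δ) x = x) ∧ ∀ x, op (bI (!δ)) x = bI (!δ) := by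
    cases δ
    · exact ⟨max, by fun_prop, max_comm, fun x => max_eq_right unitInterval.nonneg',
        fun x => max_eq_left unitInterval.le_one'⟩
    · exact ⟨min, by fun_prop, min_comm, fun x => min_eq_right unitInterval.le_one',
        fun x => min_eq_left unitInterval.nonneg'⟩
  have hne : i.castSucc ≠ i.succ := (Fin.castSucc_lt_succ).ne
  let g : C(Cu (n + 3), Z) :=
    ⟨fun t => c (Function.update (i.succ.removeNth t) i (op (t i.castSucc) (t i.succ))),
      c.1.continuous.comp (Continuous.update
        (continuous_pi fun l => continuous_apply (i.succ.succAbove l)) i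
        (hop.comp (f := fun t : Cu (n + 3) => (t i.castSucc, t i.succ)) (by fun_prop)))⟩
  have hg : ∀ t, g t = c (Function.update (i.succ.removeNth t) i (op (t i.castSucc) (t i.succ))) :=
    fun t => rfl
  let a : Fin (n + 3) → Bool → Ω^ (Fin (n + 2)) Z z := fun j ε =>
    if (j = i.castSucc ∨ j = i.succ) ∧ ε = δ then c else GenLoop.const
  refine ⟨g, a, fun j ε u => ?_, ?_, by simp [a], by simp [a], fun j hj ε => ?_⟩
  · rw [hg]
    by_cases hε : ε = δ
    · subst hε
      by_cases hj : j = i.succ
      · subst hj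
        have e : ins i.succ ε u i.castSucc = u i := by
          rw [← hc1_ins_succAbove i.succ ε u i, Fin.succAbove_succ_self]
        rw [removeNth_ins, ins_same, hcomm, h1, e, Function.update_eq_self]
        simp [a]
      by_cases hj' : j = i.castSucc
      · subst hj'
        have e : ins i.castSucc ε u i.succ = u i := by
          rw [← hc1_ins_succAbove i.castSucc ε u i, Fin.succAbove_castSucc_self]
        have e' : Function.update (i.succ.removeNth (ins i.castSucc ε u)) i (u i) = u := by
          funext l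
          by_cases hl : l = i
          · subst hl
            rw [Function.update_self]
          · rw [Function.update_of_ne hl, Fin.removeNth_apply, hc1_succAbove_eq hl,
              hc1_ins_succAbove]
        rw [ins_same, h1, e, e']
        simp [a]
      · obtain ⟨l, rfl⟩ := Fin.exists_succAbove_eq hj
        have hl : l ≠ i := by
          rintro rfl
          exact hj' (Fin.succAbove_succ_self l)
        have e : a (i.succ.succAbove l) ε = GenLoop.const := if_neg (by tauto)
        rw [e, GenLoop.const_apply]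
        refine c.2 _ (hc1_mem_bd (j := l) (ε := ε) ?_)
        rw [Function.update_of_ne hl, Fin.removeNth_apply, ins_same]
    · have e : a j ε = GenLoop.const := if_neg (by tauto)
      obtain rfl : ε = !δ := Bool.eq_not_of_ne hε
      rw [e, GenLoop.const_apply]
      by_cases hj : j = i.succ
      · subst hj
        refine c.2 _ (hc1_mem_bd (j := i) (ε := !δ) ?_)
        rw [Function.update_self, ins_same, hcomm, h2]
      by_cases hj' : j = i.castSucc
      · subst hj'
        refine c.2 _ (hc1_mem_bd (j := i) (ε := !δ) ?_)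
        rw [Function.update_self, ins_same, h2]
      · obtain ⟨l, rfl⟩ := Fin.exists_succAbove_eq hj
        have hl : l ≠ i := by
          rintro rfl
          exact hj' (Fin.succAbove_succ_self l)
        refine c.2 _ (hc1_mem_bd (j := l) (ε := !δ) ?_)
        rw [Function.update_of_ne hl, Fin.removeNth_apply, ins_same]
  · unfold alt
    rw [Fintype.sum_eq_add i.castSucc i.succ hne fun j hj => by simp [a, hj.1, hj.2]]
    have e : ∀ ε, a i.succ ε = a i.castSucc ε := fun ε => by simp [a]
    rw [e, e, Fin.val_succ, Fin.val_castSucc, pow_succ, ← add_smul]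
    simp
  · refine if_neg ?_
    rintro ⟨rfl | rfl, -⟩
    · exact absurd hj (Fin.castSucc_lt_succ).not_gt
    · exact lt_irrefl _ hj

theorem hc1_alt_aux (m : ℕ) : ∀ (g : C(Cu (n + 3), Z))
    (a : Fin (n + 3) → Bool → Ω^ (Fin (n + 2)) Z z), (∀ j ε u, g (ins j ε u) = a j ε u) →
    (∀ j : Fin (n + 3), m < (j : ℕ) → ∀ ε, a j ε = GenLoop.const) → alt a = 0 := by
  induction m with
  | zero =>
    intro g a h hc
    unfold alt
    rw [Fin.sum_univ_succ, Finset.sum_eq_zero fun j _ => by
      rw [hc j.succ (by simp) false, hc j.succ (by simp) true, sub_self, smul_zero]]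
    have : cls (a 0 false) = cls (a 0 true) := by
      rw [cls_eq_iff]
      refine ⟨⟨⟨⟨fun p => g (Fin.insertNth (α := fun _ => I) 0 p.1 p.2), ?_⟩, fun u => ?_,
        fun u => ?_⟩, fun s u hu => ?_⟩⟩
      · exact g.continuous.comp (Continuous.finInsertNth 0 continuous_fst continuous_snd)
      · exact h 0 false u
      · exact h 0 true u
      · obtain ⟨l, ε, hl⟩ := mem_bd_iff'.mp hu
        change g (Fin.insertNth (α := fun _ => I) 0 s u) = a 0 false u
        rw [GenLoop.boundary _ _ hu, hc1_face h (j := Fin.succAbove 0 l) (ε := ε)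
          (by rw [Fin.insertNth_apply_succAbove, hl]), hc _ (by simp), GenLoop.const_apply]
    simp [this]
  | succ m ih =>
    intro g a h hc
    by_cases hm : m < n + 2
    · let i : Fin (n + 2) := ⟨m, hm⟩
      obtain ⟨g₁, a₁, h₁, z₁, e₁, e₁', c₁⟩ := hc1_exists_conn i true (a i.succ false)
      obtain ⟨g₂, a₂, h₂, z₂, e₂, e₂', c₂⟩ := hc1_exists_conn i false (a i.succ true)
      obtain ⟨g₃, a₃, h₃, z₃, e₃, e₃', c₃⟩ := hc1_exists_cat i.succ h₁ h e₁
      obtain ⟨g₄, a₄, h₄, z₄, e₄, e₄', c₄⟩ := hc1_exists_cat i.succ h₃ h₂ (e₃'.trans e₂.symm)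
      have := ih g₄ a₄ h₄ fun j hj ε => by
        by_cases hji : j = i.succ
        · subst hji
          cases ε
          · exact e₄.trans (e₃.trans e₁')
          · exact e₄'.trans e₂'
        · have h1 : m + 1 < (j : ℕ) := by
            have : (j : ℕ) ≠ m + 1 := fun e => hji (Fin.ext e)
            omega
          exact c₄ j hji ε (c₃ j hji ε (c₁ j h1 ε) (hc j h1 ε)) (c₂ j h1 ε)
      rwa [z₄, z₃, z₁, z₂, zero_add, add_zero] at this
    · exact ih g a h fun j hj => absurd j.2 (by omega)

/-- Induction on `m`, for maps `g` whose faces `(j, ε)` with `j > m` are constant.  `m = 0`: `g` is a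
homotopy rel boundary from face `(0, false)` to face `(0, true)`.  Step: if `g`, `g'` have loop faces
and face `(j, true)` of `g` is face `(j, false)` of `g'`, the concatenation in direction `j` has loop
faces, (face `(j, false)` of `g`, face `(j, true)` of `g'`, and `transAt` of the faces otherwise), so
`alt` is additive.  For `j = i.succ` and a loop `a` the connection cubes
`t ↦ a (update (j.removeNth t) i (max (t i.castSucc) (t j)))` (faces `(j, false)` and
`(i.castSucc, false)` are `a`, all other faces are constant) and the same with `min` (faces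
`(j, true)` and `(i.castSucc, true)` are `a`) have `alt = 0` by inspection.  Concatenating them on
both sides of `g` in direction `j = m + 1` makes the faces `(m + 1, ε)` constant. -/
theorem alt_eq_zero (g : C(Cu (n + 3), Z)) (a : Fin (n + 3) → Bool → Ω^ (Fin (n + 2)) Z z)
    (h : ∀ j ε u, g (ins j ε u) = a j ε u) : alt a = 0 := by
  exact hc1_alt_aux (n + 3) g a h fun j hj => absurd j.2 (by omega)

theorem hc1_glue {Y : Type} [TopologicalSpace Y] {k : ℕ}
    (f : Fin (k + 1) → Bool → C(Cu k × Y, Z)) (h : ∀ j ε, ∀ u ∈ HBd k, ∀ y, f j ε (u, y) = z) :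
    ∃ F : Cu (k + 1) × Y → Z, ContinuousOn F (HBd (k + 1) ×ˢ univ) ∧
      ∀ j ε u y, F (ins j ε u, y) = f j ε (u, y) := by
  refine glue_bd f fun t j ε i δ hj hi y => ?_
  by_cases hij : i = j
  · subst hij
    rw [bI_injective (hj.symm.trans hi)]
  · obtain ⟨l, hl⟩ := Fin.exists_succAbove_eq hij
    obtain ⟨l', hl'⟩ := Fin.exists_succAbove_eq (Ne.symm hij)
    rw [h j ε _ (hc1_mem_bd (j := l) (ε := δ) (by rw [Fin.removeNth_apply, hl, hi])),
      h i δ _ (hc1_mem_bd (j := l') (ε := ε) (by rw [Fin.removeNth_apply, hl', hj]))]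

/-- Glue the `a j ε` to `b` on the boundary (`glue_bd`).  By `hep` (`I^(n+3) = I × I^(n+2)`) there
is `g` on the cube with all faces but `(0, true)` right.  Its face `(0, true)` is a loop, homotopic to
`a 0 true` by `alt_eq_zero`; this gives a homotopy on the boundary from `g` to `b`
(`glue_bd` with `Y = I`); use `ext_iff_of_homotopy`. -/
theorem ext_of_alt (a : Fin (n + 3) → Bool → Ω^ (Fin (n + 2)) Z z) (h : alt a = 0) :
    ∃ g : C(Cu (n + 3), Z), ∀ j ε u, g (ins j ε u) = a j ε u := by
  obtain ⟨b, hb, hba⟩ := hc1_glue (Y := Unit) (z := z)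
    (fun j ε => (a j ε).1.comp ContinuousMap.fst) fun j ε u hu _ => (a j ε).2 u hu
  have hba' : ∀ j ε u, b (ins j ε u, ()) = a j ε u := fun j ε u => hba j ε u ()
  have hbd : ∀ u ∈ HBd (n + 2), ∀ s : I,
      Fin.insertNth (α := fun _ => I) (0 : Fin (n + 3)) s u ∈ HBd (n + 3) := by
    intro u hu s
    obtain ⟨l, ε, hl⟩ := mem_bd_iff'.mp hu
    exact hc1_mem_bd (j := Fin.succAbove 0 l) (ε := ε) (by rw [Fin.insertNth_apply_succAbove, hl])
  obtain ⟨K, -, hK0, hK⟩ := hep (Z := univ) (a 0 false).1
    (fun p : Cu (n + 2) × I => b (Fin.insertNth (α := fun _ => I) (0 : Fin (n + 3)) p.2 p.1, ()))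
    (hb.comp (f := fun p : Cu (n + 2) × I =>
        (Fin.insertNth (α := fun _ => I) (0 : Fin (n + 3)) p.2 p.1, ()))
      ((Continuous.finInsertNth (A := fun _ => I) 0 continuous_snd continuous_fst).prodMk
        continuous_const).continuousOn fun p hp => ⟨hbd _ hp.1 _, trivial⟩)
    (fun u _ => hba' 0 false u) (fun _ => trivial) fun _ _ _ => trivial
  let g : C(Cu (n + 3), Z) := ⟨fun t => K (Fin.removeNth 0 t, t 0),
    K.continuous.comp ((continuous_pi fun l => continuous_apply (Fin.succAbove 0 l)).prodMk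
      (continuous_apply 0))⟩
  let c : Ω^ (Fin (n + 2)) Z z := ⟨⟨fun u => K (u, 1), by fun_prop⟩, fun u hu => by
    change K (u, 1) = z
    rw [hK u hu]
    exact (hba' 0 true u).trans ((a 0 true).2 u hu)⟩
  let a' : Fin (n + 3) → Bool → Ω^ (Fin (n + 2)) Z z := fun j ε =>
    if j = 0 ∧ ε = true then c else a j ε
  have hg : ∀ j ε u, g (ins j ε u) = a' j ε u := by
    intro j ε u
    change K (Fin.removeNth 0 (ins j ε u), ins j ε u 0) = _
    by_cases hj : j = 0
    · subst hj
      rw [removeNth_ins, ins_same]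
      cases ε
      · exact hK0 u
      · rfl
    · have e : a' j ε = a j ε := if_neg fun h => hj h.1
      obtain ⟨l, hl⟩ := Fin.exists_succAbove_eq hj
      rw [e, hK _ (hc1_mem_bd (j := l) (ε := ε) (by rw [Fin.removeNth_apply, hl, ins_same])),
        Fin.insertNth_self_removeNth, hba']
  have h' := alt_eq_zero g a' hg
  have hcls : cls c = cls (a 0 true) := by
    have e := h'.trans h.symm
    unfold alt at e
    rw [Fin.sum_univ_succ, Fin.sum_univ_succ (n := n + 2)] at e
    simpa [a'] using e
  obtain ⟨H⟩ := cls_eq_iff.mp hcls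
  let f : Fin (n + 3) → Bool → C(Cu (n + 2) × I, Z) := fun j ε =>
    if j = 0 ∧ ε = true then H.toContinuousMap.comp ⟨Prod.swap, continuous_swap⟩
    else (a j ε).1.comp ContinuousMap.fst
  obtain ⟨F, hF, hFf⟩ := hc1_glue (z := z) f fun j ε u hu s => by
    simp only [f]
    split_ifs
    · exact (H.eq_fst s hu).trans (c.2 u hu)
    · exact (a j ε).2 u hu
  have h0 : Ext univ fun u => F (u, 0) := by
    refine ⟨g, fun _ => trivial, fun t ht => ?_⟩
    obtain ⟨j, ε, u, rfl⟩ := mem_bd_iff.mp ht
    change g (ins j ε u) = F (ins j ε u, 0)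
    rw [hg, hFf]
    simp only [f, a']
    split_ifs
    · exact (H.apply_zero u).symm
    · rfl
  obtain ⟨G, -, hG⟩ := (ext_iff_of_homotopy (Z := univ) F hF fun _ _ _ => trivial).mp h0
  refine ⟨G, fun j ε u => ?_⟩
  rw [hG (mem_bd_iff.mpr ⟨j, ε, u, rfl⟩)]
  change F (ins j ε u, 1) = _
  rw [hFf]
  simp only [f]
  split_ifs with hj
  · rw [hj.1, hj.2]
    exact H.apply_one u
  · rfl

end Crest.Agent.R185
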