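import Crest.Agent.R185.Hc1

/-!
# R185 TASK Hc2: grid additivity
-/

set_option autoImplicit false

namespace Crest.Agent.R185

open Set
open scoped _root_.Topology unitInterval Topology.Homotopy

variable {n : ℕ} {Z : Type} [TopologicalSpace Z] {z : Z}

/-- clamped and rescaled coordinates -/
noncomputable def hc2Cl {k : ℕ} (N : ℕ) (y : Fin k → ℝ) : Cu k :=
  fun i => projIcc 0 1 zero_le_one (y i / N)

theorem hc2_continuous_cl {k : ℕ} (N : ℕ) : Continuous (hc2Cl (k := k) N) :=
  continuous_pi fun i => continuous_projIcc.comp ((continuous_apply i).div_const _)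

/-- the box with corners `p`, `q` -/
def hc2Bx {k : ℕ} (p q : Fin k → ℕ) (t : Cu k) : Fin k → ℝ :=
  fun i => (p i : ℝ) + ((q i : ℝ) - p i) * (t i : ℝ)

theorem hc2_continuous_bx {k : ℕ} (p q : Fin k → ℕ) : Continuous (hc2Bx p q) := by
  unfold hc2Bx
  fun_prop

theorem hc2_bx_bd {k : ℕ} (p q : Fin k → ℕ) {t : Cu k} {j : Fin k} (h : t j = 0 ∨ t j = 1) :
    hc2Bx p q t j = (if t j = 0 then p j else q j : ℕ) := by
  rcases h with h | h <;> simp [hc2Bx, h]

/-- `f` is trivial on the hyperplanes of the grid -/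
def hc2Grid (N : ℕ) (f : Ω^ (Fin (n + 2)) Z z) : Prop :=
  ∀ (y : Fin (n + 2) → ℝ) (i : Fin (n + 2)) (m : ℕ), y i = m → f (hc2Cl N y) = z

/-- the restriction of `f` to a box -/
noncomputable def hc2L {N : ℕ} {f : Ω^ (Fin (n + 2)) Z z} (hf : hc2Grid N f)
    (p q : Fin (n + 2) → ℕ) : Ω^ (Fin (n + 2)) Z z :=
  ⟨⟨fun t => f (hc2Cl N (hc2Bx p q t)),
      f.1.continuous.comp ((hc2_continuous_cl N).comp (hc2_continuous_bx p q))⟩,
    fun _ ⟨j, hj⟩ => hf _ j _ (hc2_bx_bd p q hj)⟩

theorem hc2L_apply {N : ℕ} {f : Ω^ (Fin (n + 2)) Z z} (hf : hc2Grid N f)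
    (p q : Fin (n + 2) → ℕ) (t : Cu (n + 2)) : hc2L hf p q t = f (hc2Cl N (hc2Bx p q t)) := rfl

theorem hc2_homotopic {N : ℕ} {f : Ω^ (Fin (n + 2)) Z z} (hf : hc2Grid N f)
    {g g' : Ω^ (Fin (n + 2)) Z z} {Φ Ψ : Cu (n + 2) → Fin (n + 2) → ℝ} (hΦ : Continuous Φ)
    (hΨ : Continuous Ψ) (hg : ∀ t, g t = f (hc2Cl N (Φ t))) (hg' : ∀ t, g' t = f (hc2Cl N (Ψ t)))
    (h : ∀ t ∈ HBd (n + 2), ∃ j, ∃ m : ℕ, Φ t j = m ∧ Ψ t j = m) : GenLoop.Homotopic g g' := by
  refine ⟨⟨⟨⟨fun x => f (hc2Cl N ((1 - (x.1 : ℝ)) • Φ x.2 + (x.1 : ℝ) • Ψ x.2)),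
    f.1.continuous.comp ((hc2_continuous_cl N).comp (by fun_prop))⟩, fun t => ?_, fun t => ?_⟩,
    fun s t ht => ?_⟩⟩
  · simpa using (hg t).symm
  · simpa using (hg' t).symm
  · obtain ⟨j, m, h1, h2⟩ := h t ht
    refine (hf _ j m ?_).trans (g.2 t ht).symm
    simp only [Pi.add_apply, Pi.smul_apply, smul_eq_mul, h1, h2]
    ring

theorem hc2_add {N : ℕ} {f : Ω^ (Fin (n + 2)) Z z} (hf : hc2Grid N f)
    (p q : Fin (n + 2) → ℕ) (i : Fin (n + 2)) (x y w : ℕ) :
    cls (hc2L hf (Function.update p i x) (Function.update q i w)) =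
      cls (hc2L hf (Function.update p i x) (Function.update q i y)) +
        cls (hc2L hf (Function.update p i y) (Function.update q i w)) := by
  rw [← cls_transAt i, cls_eq_iff]
  have key : ∀ (a b : ℕ) (t : Cu (n + 2)) (s : I),
      hc2Bx (Function.update p i a) (Function.update q i b) (Function.update t i s) =
        Function.update (hc2Bx p q t) i ((a : ℝ) + ((b : ℝ) - a) * (s : ℝ)) := by
    intro a b t s
    funext j
    by_cases hj : j = i
    · subst hj
      simp [hc2Bx]
    · simp [hc2Bx, Function.update_of_ne hj]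
  refine hc2_homotopic hf (hc2_continuous_bx _ _)
    (Ψ := fun t => Function.update (hc2Bx p q t) i ((x : ℝ) +
      ((y : ℝ) - x) * (projIcc (0 : ℝ) 1 zero_le_one (2 * t i) : ℝ) +
      ((w : ℝ) - y) * (projIcc (0 : ℝ) 1 zero_le_one (2 * t i - 1) : ℝ))) ?_
    (hc2L_apply hf _ _) (fun t => ?_) ?_
  · refine (hc2_continuous_bx p q).update i ?_
    have h1 : Continuous fun t : Cu (n + 2) => (projIcc (0 : ℝ) 1 zero_le_one (2 * t i) : ℝ) :=
      continuous_subtype_val.comp (continuous_projIcc.comp (by fun_prop))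
    have h2 : Continuous fun t : Cu (n + 2) => (projIcc (0 : ℝ) 1 zero_le_one (2 * t i - 1) : ℝ) :=
      continuous_subtype_val.comp (continuous_projIcc.comp (by fun_prop))
    fun_prop
  · simp only [GenLoop.transAt, GenLoop.coe_copy]
    split_ifs with h
    · rw [hc2L_apply, key, projIcc_of_le_left _ (show 2 * (t i : ℝ) - 1 ≤ 0 by linarith)]
      simp
    · rw [hc2L_apply, key,
        projIcc_of_right_le _ (show (1 : ℝ) ≤ 2 * (t i : ℝ) by linarith [not_le.1 h])]
      simp
  · rintro t ⟨j, hj⟩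
    refine ⟨j, _, hc2_bx_bd _ _ hj, ?_⟩
    by_cases hji : j = i
    · subst hji
      rw [Function.update_self, Function.update_self, Function.update_self]
      rcases hj with hj | hj
      · simp [hj, projIcc_of_le_left]
      · have e1 : projIcc (0 : ℝ) 1 zero_le_one 2 = 1 := projIcc_of_right_le _ one_le_two
        have e2 : (2 : ℝ) - 1 = 1 := by norm_num
        simp [hj, e1, e2]
    · rw [Function.update_of_ne hji, Function.update_of_ne hji, Function.update_of_ne hji,
        hc2_bx_bd _ _ hj]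

theorem hc2_grid_sum {A : Type} [AddCommMonoid A] (N k : ℕ)
    (c : (Fin k → ℕ) → (Fin k → ℕ) → A)
    (h : ∀ p q i, c (Function.update p i 0) (Function.update q i N) =
      ∑ r : Fin N, c (Function.update p i r) (Function.update q i (r + 1))) :
    c (fun _ => 0) (fun _ => N) = ∑ v : Fin k → Fin N, c (fun j => v j) fun j => v j + 1 := by
  induction k with
  | zero =>
    rw [Fintype.sum_unique]
    congr 1 <;> exact Subsingleton.elim _ _
  | succ k ih =>
    have h0 := h (fun _ => 0) (fun _ => N) 0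
    rw [Function.update_eq_self, Function.update_eq_self] at h0
    rw [h0, ← (Fin.consEquiv fun _ : Fin (k + 1) => Fin N).sum_comp, Fintype.sum_prod_type]
    refine Finset.sum_congr rfl fun r _ => ?_
    have h1 := ih (fun p q => c (Fin.cons r p) (Fin.cons (r + 1) q)) fun p q i => by
      simp only [Fin.cons_update]
      exact h _ _ _
    have e : ∀ a b : ℕ, Function.update (fun _ : Fin (k + 1) => a) 0 b = Fin.cons b fun _ => a := by
      intro a b
      funext j
      refine Fin.cases ?_ (fun j => ?_) j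
      · simp
      · simp
    rw [e, e, h1]
    refine Finset.sum_congr rfl fun v _ => ?_
    congr 1 <;> funext j <;> refine Fin.cases ?_ (fun j => ?_) j <;> simp [Fin.consEquiv]

/-- For a box `[p, q] = ∏ [p i, q i]` with corners in the grid let `f_[p,q] t = f (p + (q - p) t)`;
it is a loop since `f = z` on all grid hyperplanes (`exists_cpt`).  If `q i` is replaced by
`q i + 1/N` then `cls f_[p,q'] = cls f_[p,q] + cls f_[p', q']` (`cls_transAt i`; the two loops differ
by a reparametrisation of the coordinate `i`, linear homotopy).  Induct over the coordinates: cut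
the first `m` coordinates into `N` pieces. -/
theorem cls_grid {N : ℕ} (hN : 0 < N) (f : Ω^ (Fin (n + 2)) Z z)
    (a : (Fin (n + 2) → Fin N) → Ω^ (Fin (n + 2)) Z z) (h : ∀ v u, f (cpt v u) = a v u) :
    cls f = ∑ v, cls (a v) := by
  have hN' : (0 : ℝ) < N := by exact_mod_cast hN
  have hf : hc2Grid N f := by
    intro y i m hy
    rcases le_or_gt N m with hm | hm
    · refine f.2 _ ⟨i, Or.inr ?_⟩
      refine projIcc_of_right_le _ ?_
      rw [hy, one_le_div hN']
      exact_mod_cast hm
    · obtain ⟨v, u, e⟩ := exists_cpt hN (hc2Cl N y)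
      rw [e, h]
      refine (a v).2 u ⟨i, ?_⟩
      have h1 := congrArg Subtype.val (congrFun e i)
      have h2 : y i / N ∈ Icc (0 : ℝ) 1 := by
        rw [hy]
        exact ⟨by positivity, (div_le_one hN').2 (by exact_mod_cast hm.le)⟩
      simp only [hc2Cl, projIcc_of_mem _ h2, cpt] at h1
      rw [div_left_inj' hN'.ne', hy] at h1
      have h3 := (u i).2.1
      have h4 := (u i).2.2
      have h5 : (v i : ℕ) ≤ m := by
        have : ((v i : ℕ) : ℝ) ≤ m := by linarith
        exact_mod_cast this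
      have h6 : m ≤ (v i : ℕ) + 1 := by
        have : (m : ℝ) ≤ ((v i : ℕ) : ℝ) + 1 := by linarith
        exact_mod_cast this
      rcases h5.eq_or_lt with h7 | h7
      · left
        apply Subtype.ext
        rw [← h7] at h1
        simpa using h1
      · right
        apply Subtype.ext
        rw [show m = (v i : ℕ) + 1 by omega] at h1
        push_cast at h1
        simp only [Icc.coe_one]
        linarith
  have hs := hc2_grid_sum N (n + 2) (fun p q => cls (hc2L hf p q)) fun p q i => by
    rw [Fin.sum_univ_eq_sum_range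
      (fun r => cls (hc2L hf (Function.update p i r) (Function.update q i (r + 1))))]
    have : ∀ m, cls (hc2L hf (Function.update p i 0) (Function.update q i m)) =
        ∑ r ∈ Finset.range m,
          cls (hc2L hf (Function.update p i r) (Function.update q i (r + 1))) := by
      intro m
      induction m with
      | zero => exact left_eq_add.1 (hc2_add hf p q i 0 0 0)
      | succ m ih => rw [Finset.sum_range_succ, ← ih, ← hc2_add]
    exact this N
  have e1 : hc2L hf (fun _ => 0) (fun _ => N) = f := by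
    ext t
    rw [hc2L_apply]
    congr 1
    funext i
    simp only [hc2Cl, hc2Bx, Nat.cast_zero, zero_add, sub_zero, mul_div_cancel_left₀ _ hN'.ne']
    exact projIcc_val _ _
  have e2 : ∀ v : Fin (n + 2) → Fin N, hc2L hf (fun j => v j) (fun j => v j + 1) = a v := by
    intro v
    ext t
    rw [hc2L_apply, ← h]
    congr 1
    funext i
    simp only [hc2Cl, hc2Bx, Nat.cast_add, Nat.cast_one, add_sub_cancel_left, one_mul]
    exact projIcc_val _ (cpt v t i)
  simpa only [e1, e2] using hs

end Crest.Agent.R185
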