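import Crest.Agent.R185.Hc0

/-!
# R185 TASK Hc3: coarse fillings and fillings in the Rips complex
-/

set_option autoImplicit false

namespace Crest.Agent.R185

open Set
open scoped _root_.Topology unitInterval

variable {G : Type} {k : ℕ}

/-- `Topology.IsLowerSet.nhds_eq_principal_Iic` -/
theorem XF.continuousWithinAt_iff {Y : Type} [TopologicalSpace Y] {f : Y → XF G} {s : Set Y}
    {y : Y} : ContinuousWithinAt f s y ↔ ∀ᶠ y' in 𝓝[s] y, (f y').fs ⊆ (f y).fs := by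
  rw [ContinuousWithinAt, Topology.IsLowerSet.nhds_eq_principal_Iic, Filter.tendsto_principal]
  rfl

theorem hc3_mem_rl {c : Cb k G} {t : Cu k} {x : G} : x ∈ (rl c t).fs ↔
    ∃ v : Fin k → Bool, (∀ i, |(t i : ℝ) - (bI (v i) : ℝ)| ≤ 1 / 2) ∧ c v = x := by
  classical
  simp [rl, XF.fs]

theorem continuous_rl (c : Cb k G) : Continuous (rl c) := by
  rw [← continuousOn_univ]
  intro t _
  rw [XF.continuousWithinAt_iff, nhdsWithin_univ]
  have h : ∀ᶠ t' in 𝓝 t, ∀ v : Fin k → Bool, ∀ i, |(t' i : ℝ) - (bI (v i) : ℝ)| ≤ 1 / 2 →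
      |(t i : ℝ) - (bI (v i) : ℝ)| ≤ 1 / 2 := by
    refine Filter.eventually_all.2 fun v => Filter.eventually_all.2 fun i => ?_
    by_cases hv : |(t i : ℝ) - (bI (v i) : ℝ)| ≤ 1 / 2
    · exact Filter.Eventually.of_forall fun _ _ => hv
    · have hc : Continuous fun t' : Cu k => |(t' i : ℝ) - (bI (v i) : ℝ)| := by fun_prop
      filter_upwards [hc.continuousAt.eventually (lt_mem_nhds (not_le.1 hv))] with t' ht' h'
      exact absurd h' (not_le.2 ht')
  filter_upwards [h] with t' ht' x hx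
  obtain ⟨v, hv, rfl⟩ := hc3_mem_rl.1 hx
  exact hc3_mem_rl.2 ⟨v, fun i => ht' v i (hv i), rfl⟩

theorem rl_nonempty (c : Cb k G) (t : Cu k) : (rl c t).fs.Nonempty := by
  refine ⟨_, hc3_mem_rl.2 ⟨fun i => decide (1 / 2 ≤ (t i : ℝ)), fun i => ?_, rfl⟩⟩
  have h0 := (t i).2.1
  have h1 := (t i).2.2
  beta_reduce
  by_cases h : 1 / 2 ≤ (t i : ℝ)
  · rw [decide_eq_true h, abs_le]
    simp only [bI, if_true, Icc.coe_one]
    constructor <;> linarith
  · rw [decide_eq_false h, abs_le]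
    simp only [bI, Bool.false_eq_true, if_false, Icc.coe_zero]
    constructor <;> linarith

theorem hc_mem_rl {c : Cb k G} {t : Cu k} {x : G} (h : x ∈ (rl c t).fs) : ∃ v, c v = x := by
  obtain ⟨v, -, hv⟩ := hc3_mem_rl.1 h
  exact ⟨v, hv⟩

theorem rl_ins (c : Cb (k + 1) G) (j : Fin (k + 1)) (ε : Bool) (u : Cu k) :
    rl c (ins j ε u) = rl (Cb.face j ε c) u := by
  have : (rl c (ins j ε u)).fs = (rl (Cb.face j ε c) u).fs := by
    ext x
    rw [hc3_mem_rl, hc3_mem_rl]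
    constructor
    · rintro ⟨v, hv, rfl⟩
      have h1 : v j = ε := by
        have := hv j
        rw [ins_same] at this
        cases ε <;> cases hj : v j <;> simp [bI, hj] at this ⊢ <;> norm_num at this
      refine ⟨j.removeNth v, fun i => ?_, ?_⟩
      · simpa [ins, Fin.removeNth] using hv (j.succAbove i)
      · rw [Cb.face, ← h1, Fin.insertNth_self_removeNth]
    · rintro ⟨v, hv, rfl⟩
      refine ⟨Fin.insertNth (α := fun _ => Bool) j ε v, fun i => ?_, rfl⟩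
      refine Fin.succAboveCases j ?_ (fun i => ?_) i
      · simp [ins]
      · simpa [ins] using hv i
  exact this

variable [Group G]

theorem XS_mono {A B : Set G} (h : A ⊆ B) : XS A ⊆ XS B := by
  exact fun F hF => ⟨hF.1, fun x hx y hy => h (hF.2 x hx y hy)⟩

theorem pt_mem {B : Set G} (h : (1 : G) ∈ B) (g : G) : XF.pt g ∈ XS B := by
  refine ⟨Finset.singleton_nonempty g, fun x hx y hy => ?_⟩
  rw [Finset.mem_singleton.1 hx, Finset.mem_singleton.1 hy, inv_mul_cancel]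
  exact h

theorem rl_mem {B : Set G} {c : Cb k G} (h : Cb.Sm B c) (t : Cu k) : rl c t ∈ XS B := by
  refine ⟨rl_nonempty c t, fun x hx y hy => ?_⟩
  obtain ⟨v, rfl⟩ := hc_mem_rl hx
  obtain ⟨w, rfl⟩ := hc_mem_rl hy
  exact h v w

theorem hc3_ext_iff_of_le {B : Set G} {f g : Cu k → XF G} (hf : ContinuousOn f (HBd k))
    (hg : ContinuousOn g (HBd k)) (hf' : ∀ t ∈ HBd k, f t ∈ XS B) (hg' : ∀ t ∈ HBd k, g t ∈ XS B)
    (h : ∀ t ∈ HBd k, (f t).fs ⊆ (g t).fs) : Ext (XS B) g ↔ Ext (XS B) f := by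
  classical
  have := ext_iff_of_homotopy (Z := XS B) (fun p : Cu k × I => if p.2 = 0 then g p.1 else f p.1)
    (fun p hp => ?_) (fun u hu s => ?_)
  · simpa using this
  · have ht : Filter.Tendsto Prod.fst (𝓝[HBd k ×ˢ univ] p) (𝓝[HBd k] p.1) :=
      continuous_fst.continuousWithinAt.tendsto_nhdsWithin fun q hq => hq.1
    rw [XF.continuousWithinAt_iff]
    by_cases h0 : p.2 = 0
    · filter_upwards [ht.eventually (XF.continuousWithinAt_iff.1 (hg _ hp.1)),
        self_mem_nhdsWithin] with q hq hq'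
      rw [if_pos h0]
      split_ifs
      · exact hq
      · exact (h _ hq'.1).trans hq
    · filter_upwards [ht.eventually (XF.continuousWithinAt_iff.1 (hf _ hp.1)),
        mem_nhdsWithin_of_mem_nhds (continuous_snd.continuousAt.eventually_ne h0)] with q hq hq'
      rw [if_neg h0, if_neg hq']
      exact hq
  · simp only
    split_ifs
    · exact hg' u hu
    · exact hf' u hu

/-- contiguous maps are homotopic: `f ⊆ f ∪ g ⊇ g`, and for `f ⊆ f'` the map
`(t, s) ↦ if s = 0 then f' t else f t` is a homotopy; `ext_iff_of_homotopy`. -/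
theorem Ext.of_contiguous {B : Set G} {f g : Cu k → XF G} (hf : ContinuousOn f (HBd k))
    (hg : ContinuousOn g (HBd k)) (hf' : ∀ t ∈ HBd k, (f t).fs.Nonempty)
    (hg' : ∀ t ∈ HBd k, (g t).fs.Nonempty)
    (h : ∀ t ∈ HBd k, ∃ F ∈ XS B, (f t).fs ⊆ F.fs ∧ (g t).fs ⊆ F.fs) (hE : Ext (XS B) g) :
    Ext (XS B) f := by
  classical
  have hsub : ∀ {F F' : XF G}, F ∈ XS B → F'.fs ⊆ F.fs → F'.fs.Nonempty → F' ∈ XS B :=
    fun hF hs hn => ⟨hn, fun x hx y hy => hF.2 x (hs hx) y (hs hy)⟩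
  let U : Cu k → XF G := fun t => Topology.WithLowerSet.toLowerSet ((f t).fs ∪ (g t).fs)
  have hU : ContinuousOn U (HBd k) := fun t ht => by
    rw [XF.continuousWithinAt_iff]
    filter_upwards [XF.continuousWithinAt_iff.1 (hf t ht), XF.continuousWithinAt_iff.1 (hg t ht)]
      with t' h1 h2
    exact Finset.union_subset_union h1 h2
  have hU' : ∀ t ∈ HBd k, U t ∈ XS B := fun t ht => by
    obtain ⟨F, hF, h1, h2⟩ := h t ht
    exact hsub hF (Finset.union_subset h1 h2) ((hf' t ht).mono Finset.subset_union_left)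
  have h1 : ∀ t ∈ HBd k, (f t).fs ⊆ (U t).fs := fun _ _ => Finset.subset_union_left
  have h2 : ∀ t ∈ HBd k, (g t).fs ⊆ (U t).fs := fun _ _ => Finset.subset_union_right
  exact (hc3_ext_iff_of_le hf hU (fun t ht => hsub (hU' t ht) (h1 t ht) (hf' t ht)) hU' h1).1
    ((hc3_ext_iff_of_le hg hU (fun t ht => hsub (hU' t ht) (h2 t ht) (hg' t ht)) hU' h2).2 hE)

theorem hc3_bc_comp {Y Y' : Type} [TopologicalSpace Y] [TopologicalSpace Y'] {A : Set G}
    {γ : Y → G} {K : Set Y} (h : BC A γ K) {φ : Y' → Y} {K' : Set Y'} (hφ : ContinuousOn φ K')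
    (hm : MapsTo φ K' K) : BC A (fun y => γ (φ y)) K' := fun y hy =>
  ((hφ y hy).tendsto_nhdsWithin hm).eventually (h _ (hm hy))

theorem hc3_bc_of_mem {Y : Type} [TopologicalSpace Y] {A : Set G} {γ : Y → G} {K : Set Y}
    {f : Y → XF G} (hf : ContinuousOn f K) (hA : ∀ y ∈ K, f y ∈ XS A)
    (h : ∀ y ∈ K, γ y ∈ (f y).fs) : BC A γ K := fun y hy => by
  filter_upwards [XF.continuousWithinAt_iff.1 (hf y hy), self_mem_nhdsWithin] with y' h1 h2
  exact (hA y hy).2 _ (h y hy) _ (h1 (h y' h2))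

theorem hc3_exists_map {Y : Type} [TopologicalSpace Y] {A : Set G} (hA : A.Finite) {γ : Y → G}
    {K : Set Y} (h : BC A γ K) : ∃ f : Y → XF G, ContinuousOn f K ∧
      ∀ y ∈ K, γ y ∈ (f y).fs ∧ ∀ g ∈ (f y).fs, (γ y)⁻¹ * g ∈ A := by
  classical
  let f : Y → XF G := fun y => Topology.WithLowerSet.toLowerSet
    ((hA.toFinset.image fun a => γ y * a).filter fun g => ∃ᶠ y' in 𝓝[K] y, γ y' = g)
  have hA' : ∀ y ∈ K, ∀ g, (∃ᶠ y' in 𝓝[K] y, γ y' = g) → (γ y)⁻¹ * g ∈ A := by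
    intro y hy g hg
    obtain ⟨y', h1, h2⟩ := (hg.and_eventually (h y hy)).exists
    rwa [h1] at h2
  have hf : ∀ y ∈ K, ∀ g, g ∈ (f y).fs ↔ ∃ᶠ y' in 𝓝[K] y, γ y' = g := by
    intro y hy g
    refine Finset.mem_filter.trans ⟨fun h => h.2, fun hg => ⟨?_, hg⟩⟩
    exact Finset.mem_image.2 ⟨_, hA.mem_toFinset.2 (hA' y hy g hg), by simp⟩
  refine ⟨f, fun y hy => ?_, fun y hy => ⟨(hf y hy _).2 ?_, fun g hg => hA' y hy g ((hf y hy g).1 hg)⟩⟩
  · rw [XF.continuousWithinAt_iff]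
    have h1 : ∀ᶠ y' in 𝓝[K] y, ∀ a ∈ A, γ y' = γ y * a → γ y * a ∈ (f y).fs := by
      refine (Filter.eventually_all_finite hA).2 fun a _ => ?_
      by_cases ha : γ y * a ∈ (f y).fs
      · exact Filter.Eventually.of_forall fun _ _ => ha
      · rw [hf y hy, Filter.not_frequently] at ha
        exact ha.mono fun _ h1 h2 => absurd h2 h1
    have h2 : ∀ᶠ y' in 𝓝[K] y, γ y' ∈ (f y).fs := by
      filter_upwards [h1, h y hy] with y' h3 h4
      simpa using h3 _ h4 (by simp)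
    filter_upwards [eventually_eventually_nhdsWithin.2 h2, self_mem_nhdsWithin] with y' h3 h4 g hg
    obtain ⟨y'', h5, h6⟩ := (((hf y' h4 g).1 hg).and_eventually h3).exists
    rwa [h5] at h6
  · exact ((Filter.frequently_pure (p := fun y' => γ y' = γ y)).2 rfl).filter_mono
      (pure_le_nhdsWithin hy)

/-- from the cube to the ball -/
def hc3A (u : Cu k) : Fin k → ℝ := fun i => 2 * (u i : ℝ) - 1

/-- from the ball to the cube -/
noncomputable def hc3B (z : Fin k → ℝ) : Cu k := fun i => projIcc 0 1 zero_le_one ((z i + 1) / 2)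

theorem hc3_cont_A : Continuous (hc3A (k := k)) := by
  unfold hc3A
  fun_prop

theorem hc3_cont_B : Continuous (hc3B (k := k)) :=
  continuous_pi fun i => continuous_projIcc.comp (by fun_prop)

theorem hc3_BA (u : Cu k) : hc3B (hc3A u) = u := by
  funext i
  simp only [hc3A, hc3B, sub_add_cancel, mul_div_cancel_left₀ _ (two_ne_zero (α := ℝ))]
  exact projIcc_val _ _

theorem hc3_AB {z : Fin k → ℝ} (hz : z ∈ Metric.closedBall (0 : Fin k → ℝ) 1) :
    hc3A (hc3B z) = z := by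
  funext i
  have h := abs_le.1 ((pi_norm_le_iff_of_nonneg zero_le_one).1 (mem_closedBall_zero_iff.1 hz) i)
  have h2 : (z i + 1) / 2 ∈ Icc (0 : ℝ) 1 := ⟨by linarith [h.1], by linarith [h.2]⟩
  simp only [hc3A, hc3B, projIcc_of_mem _ h2]
  ring

theorem hc3_A_mem (u : Cu k) : hc3A u ∈ Metric.closedBall (0 : Fin k → ℝ) 1 := by
  refine mem_closedBall_zero_iff.2 ((pi_norm_le_iff_of_nonneg zero_le_one).2 fun i => ?_)
  have h0 := (u i).2.1
  have h1 := (u i).2.2
  exact abs_le.2 ⟨by simp only [hc3A]; linarith, by simp only [hc3A]; linarith⟩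

theorem hc3_A_sphere {u : Cu k} : hc3A u ∈ Metric.sphere (0 : Fin k → ℝ) 1 ↔ u ∈ HBd k := by
  rw [← Metric.closedBall_sdiff_ball, mem_sdiff, mem_ball_zero_iff, pi_norm_lt_iff one_pos,
    and_iff_right (hc3_A_mem u), not_forall]
  refine exists_congr fun i => ?_
  have h0 := (u i).2.1
  have h1 := (u i).2.2
  rw [Real.norm_eq_abs, abs_lt, not_and_or, not_lt, not_lt, Subtype.ext_iff, Subtype.ext_iff]
  simp only [hc3A, Icc.coe_zero, Icc.coe_one]
  constructor
  · rintro (h | h)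
    · left; linarith
    · right; linarith
  · rintro (h | h)
    · left; linarith
    · right; linarith

theorem hc3_B_sphere {z : Fin k → ℝ} (hz : z ∈ Metric.sphere (0 : Fin k → ℝ) 1) :
    hc3B z ∈ HBd k := by
  rw [← hc3_A_sphere, hc3_AB (Metric.sphere_subset_closedBall hz)]
  exact hz

open Pointwise in
theorem hc3_mem_XS {A : Set G} {F : XF G} {a : G} (h1 : a ∈ F.fs) (h2 : ∀ g ∈ F.fs, a⁻¹ * g ∈ A) :
    F ∈ XS (A⁻¹ * A) := by
  refine ⟨⟨a, h1⟩, fun x hx y hy => ⟨(a⁻¹ * x)⁻¹, ?_, a⁻¹ * y, h2 y hy, by group⟩⟩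
  rw [Set.mem_inv, inv_inv]
  exact h2 x hx

/-- Transport along `[-1, 1]^j ≅ I^j`.  For `γ` `A`-continuous on a set `K` the map
`z ↦ {g | z ∈ closure (γ ⁻¹' {g} ∩ K)}` is continuous on `K`, contains `γ z` and lies in `γ z * A`.
`→`: choose `γ z ∈ f z`, fill `γ` by `Γ`, turn `Γ` into a map `F`; `F` and `f` are contiguous on the
boundary.  `←`: turn `γ` into `f`, fill `f` by `F`, let `Γ z = γ z` on the sphere and `Γ z ∈ F z`
elsewhere. -/
theorem cc_iff_fill {d : ℕ} : CC G d ↔ ∀ A : Set G, A.Finite → ∃ B : Set G, B.Finite ∧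
    ∀ j ≤ d, Fill (XS A) (XS B) j := by
  classical
  constructor
  · intro h A hA
    obtain ⟨B, hB, h⟩ := h A hA
    refine ⟨_, (hA.union hB).inv.mul (hA.union hB), fun j hj f hf hm => ?_⟩
    have : ∀ u, ∃ g : G, u ∈ HBd j → g ∈ (f u).fs := fun u => by
      by_cases hu : u ∈ HBd j
      · obtain ⟨g, hg⟩ := (hm hu).1
        exact ⟨g, fun _ => hg⟩
      · exact ⟨1, fun h => absurd h hu⟩
    choose γ hγ using this
    obtain ⟨Γ, h1, h2⟩ := h j hj (fun z => γ (hc3B z))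
      (hc3_bc_comp (hc3_bc_of_mem hf hm hγ) hc3_cont_B.continuousOn fun _ hz => hc3_B_sphere hz)
    obtain ⟨F, hF, hF'⟩ := hc3_exists_map hB
      (hc3_bc_comp h1 (K' := univ) hc3_cont_A.continuousOn fun u _ => hc3_A_mem u)
    refine Ext.of_contiguous hf (hF.mono (subset_univ _)) (fun u hu => (hm hu).1)
      (fun u _ => ⟨_, (hF' u (mem_univ _)).1⟩) (fun u hu => ?_)
      ⟨⟨F, continuousOn_univ.1 hF⟩, fun u => hc3_mem_XS (hF' u (mem_univ _)).1
        fun g hg => Or.inr ((hF' u (mem_univ _)).2 g hg), fun _ _ => rfl⟩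
    refine ⟨Topology.WithLowerSet.toLowerSet ((f u).fs ∪ (F u).fs),
      hc3_mem_XS (a := γ u) (Finset.mem_union_left _ (hγ u hu)) fun g hg => ?_,
      Finset.subset_union_left, Finset.subset_union_right⟩
    rcases Finset.mem_union.1 hg with hg | hg
    · exact Or.inl ((hm hu).2 _ (hγ u hu) _ hg)
    · have h3 := (hF' u (mem_univ _)).2 g hg
      rw [h2 (hc3_A_sphere.2 hu)] at h3
      simp only [hc3_BA] at h3
      exact Or.inr h3
  · intro h A hA
    obtain ⟨B, hB, h⟩ := h _ (hA.inv.mul hA)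
    refine ⟨B, hB, fun j hj γ hγ => ?_⟩
    obtain ⟨f, hf, hf'⟩ := hc3_exists_map hA
      (hc3_bc_comp hγ (K' := HBd j) hc3_cont_A.continuousOn fun u hu => hc3_A_sphere.2 hu)
    obtain ⟨F, hF, hF'⟩ := h j hj f hf fun u hu => hc3_mem_XS (hf' u hu).1 (hf' u hu).2
    have : ∀ u, ∃ g : G, g ∈ (F u).fs ∧ (u ∈ HBd j → g = γ (hc3A u)) := fun u => by
      by_cases hu : u ∈ HBd j
      · exact ⟨_, by rw [hF' hu]; exact (hf' u hu).1, fun _ => rfl⟩
      · obtain ⟨g, hg⟩ := (hF u).1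
        exact ⟨g, hg, fun h => absurd h hu⟩
    choose Γ h1 h2 using this
    refine ⟨fun z => Γ (hc3B z), hc3_bc_comp (hc3_bc_of_mem (K := univ)
      F.continuous.continuousOn (fun u _ => hF u) fun u _ => h1 u) hc3_cont_B.continuousOn
      (mapsTo_univ _ _), fun z hz => ?_⟩
    simp only
    rw [h2 _ (hc3_B_sphere hz), hc3_AB (Metric.sphere_subset_closedBall hz)]

end Crest.Agent.R185
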