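import Crest.Agent.R185.Hc3

/-!
# R185 TASK Hc4: contracting the skeleta of small cubes; labelled grids
-/

set_option autoImplicit false

namespace Crest.Agent.R185

open Set
open scoped _root_.Topology unitInterval

variable {G : Type} [Group G] {B B' : Set G} {n m k N : ℕ}
  {K : ∀ k, Cb k G → C(Cu k × I, XF G)}

theorem HT.mono (h : HT B B' n m K) {B'' : Set G} (hB : B' ⊆ B'') : HT B B'' n m K :=
  ⟨fun k hk c hc p => XS_mono hB (h.mem k hk c hc p), h.zero, h.face, h.one⟩

/-- `j = i`: then `ε = δ`.  Otherwise `i = j.succAbove i'`, `k = k' + 1`; `ins_ins`, `face_face`. -/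
theorem HT.compat (h : HT B B' n m K) (hk : k ≤ m) (c : Cb (k + 1) G) {j i : Fin (k + 1)}
    {ε δ : Bool} (h₁ : Cb.Sm B (Cb.face j ε c)) (h₂ : Cb.Sm B (Cb.face i δ c)) {t : Cu (k + 1)}
    (ht₁ : t j = bI ε) (ht₂ : t i = bI δ) (s : I) :
    K k (Cb.face j ε c) (j.removeNth t, s) = K k (Cb.face i δ c) (i.removeNth t, s) := by
  by_cases hij : i = j
  · subst hij
    obtain rfl : ε = δ := bI_injective (ht₁.symm.trans ht₂)
    rfl
  obtain ⟨i', rfl⟩ := Fin.exists_succAbove_eq hij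
  obtain _ | k := k
  · exact i'.elim0
  obtain ⟨u, hu⟩ : ∃ u, j.removeNth t = ins i' δ u :=
    ⟨i'.removeNth (j.removeNth t), (ins_removeNth (t := j.removeNth t) ht₂).symm⟩
  have ht : t = ins (j.succAbove i') δ (ins (i'.predAbove j) ε u) := by
    rw [← ins_ins, ← hu, ins_removeNth ht₁]
  have hu' : (j.succAbove i').removeNth t = ins (i'.predAbove j) ε u := by
    rw [ht, removeNth_ins]
  rw [hu, hu', h.face k hk _ h₁, h.face k hk _ h₂, Cb.face_face]

/-- extension of a homotopy given on the boundary, ending at the base point in dimensions `< n` -/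
theorem hc4_ext (h : CC G n) {A : Set G} (hA : A.Finite) (h1 : (1 : G) ∈ A) :
    ∃ A' : Set G, A'.Finite ∧ A ⊆ A' ∧ ∀ (k : ℕ) (f : C(Cu k, XF G)) (F : Cu k × I → XF G),
      ContinuousOn F (HBd k ×ˢ univ) → (∀ u ∈ HBd k, F (u, 0) = f u) →
      (k < n → ∀ u ∈ HBd k, F (u, 1) = XF.pt 1) → (∀ u, f u ∈ XS A) →
      (∀ u ∈ HBd k, ∀ s, F (u, s) ∈ XS A) →
      ∃ L : C(Cu k × I, XF G), (∀ p, L p ∈ XS A') ∧ (∀ u, L (u, 0) = f u) ∧
        (k < n → ∀ u, L (u, 1) = XF.pt 1) ∧ ∀ u ∈ HBd k, ∀ s, L (u, s) = F (u, s) := by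
  obtain ⟨A₁, hA₁, hF⟩ := cc_iff_fill.1 h A hA
  refine ⟨A ∪ A₁, hA.union hA₁, subset_union_left, fun k f F hc h0 he hf hh => ?_⟩
  by_cases hk : k < n
  · obtain ⟨L, hL, hL0, hL1, hLb⟩ := (hF (k + 1) hk).prod f (ContinuousMap.const _ (XF.pt 1)) F hc h0
      (he hk) hf (fun _ => pt_mem h1 1) hh
    exact ⟨L, fun p => XS_mono subset_union_right (hL p), hL0, fun _ => hL1, hLb⟩
  · obtain ⟨L, hL, hL0, hLb⟩ := hep f F hc h0 hf hh
    exact ⟨L, fun p => XS_mono subset_union_left (hL p), hL0, fun h' => absurd h' hk, hLb⟩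

theorem hc4_not_mem_bd_zero (u : Cu 0) : u ∉ HBd 0 := by
  intro hu
  obtain ⟨j, -⟩ := mem_bd_iff'.1 hu
  exact j.elim0

/-- Induction on `m` (`Function.update K (m + 1) _`).  The new homotopy of a small cube is given on
`∂ I^k × I` by `glue_bd` and `HT.compat`; extend by `Fill.prod` if `k < n`, by `hep` otherwise. -/
theorem exists_HT (h : CC G n) (hB : B.Finite) (m : ℕ) :
    ∃ (B' : Set G) (K : ∀ k, Cb k G → C(Cu k × I, XF G)), B'.Finite ∧ HT B B' n m K := by
  induction m with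
  | zero =>
    obtain ⟨A', hA', -, hE⟩ := hc4_ext h (hB.insert 1) (mem_insert _ _)
    have key : ∀ c : Cb 0 G, ∃ L : C(Cu 0 × I, XF G), Cb.Sm B c → (∀ p, L p ∈ XS A') ∧
        (∀ u, L (u, 0) = rl c u) ∧ (0 < n → ∀ u, L (u, 1) = XF.pt 1) := by
      intro c
      by_cases hc : Cb.Sm B c
      · obtain ⟨L, hL, hL0, hL1, -⟩ := hE 0 ⟨rl c, continuous_rl c⟩ (fun _ => XF.pt 1)
          continuousOn_const (fun u hu => absurd hu (hc4_not_mem_bd_zero u)) (fun _ _ _ => rfl)
          (fun u => XS_mono (subset_insert _ _) (rl_mem hc u))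
          (fun u hu => absurd hu (hc4_not_mem_bd_zero u))
        exact ⟨L, fun _ => ⟨hL, hL0, hL1⟩⟩
      · exact ⟨ContinuousMap.const _ (XF.pt 1), fun h' => absurd h' hc⟩
    choose L hL using key
    refine ⟨A', Function.update (β := fun k => Cb k G → C(Cu k × I, XF G))
      (fun k _ => ContinuousMap.const _ (XF.pt 1)) 0 L, hA', ?_, ?_, ?_, ?_⟩
    · intro k hk c hc p
      obtain rfl : k = 0 := Nat.le_zero.1 hk
      rw [Function.update_self]
      exact (hL c hc).1 p
    · intro k hk c hc u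
      obtain rfl : k = 0 := Nat.le_zero.1 hk
      rw [Function.update_self]
      exact (hL c hc).2.1 u
    · intro k hk
      omega
    · intro k hk hn c hc u
      obtain rfl : k = 0 := Nat.le_zero.1 hk
      rw [Function.update_self]
      exact (hL c hc).2.2 hn u
  | succ m ih =>
    obtain ⟨B', K, hB', hK⟩ := ih
    obtain ⟨A', hA', hAA', hE⟩ := hc4_ext h ((hB.union hB').insert 1) (mem_insert _ _)
    have hBA : B ⊆ insert 1 (B ∪ B') := subset_union_left.trans (subset_insert _ _)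
    have hBA' : B' ⊆ insert 1 (B ∪ B') := subset_union_right.trans (subset_insert _ _)
    have key : ∀ c : Cb (m + 1) G, ∃ L : C(Cu (m + 1) × I, XF G), Cb.Sm B c → (∀ p, L p ∈ XS A') ∧
        (∀ u, L (u, 0) = rl c u) ∧ (m + 1 < n → ∀ u, L (u, 1) = XF.pt 1) ∧
        ∀ j ε u s, L (ins j ε u, s) = K m (Cb.face j ε c) (u, s) := by
      intro c
      by_cases hc : Cb.Sm B c
      · obtain ⟨F, hFc, hF⟩ := glue_bd (fun j ε => K m (Cb.face j ε c))
          (fun t j ε i δ h₁ h₂ y => hK.compat le_rfl c (hc.face j ε) (hc.face i δ) h₁ h₂ y)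
        obtain ⟨L, hL, hL0, hL1, hLb⟩ := hE (m + 1) ⟨rl c, continuous_rl c⟩ F hFc
          (fun u hu => by
            obtain ⟨j, ε, u', rfl⟩ := mem_bd_iff.1 hu
            rw [hF, hK.zero m le_rfl _ (hc.face j ε)]
            exact (rl_ins c j ε u').symm)
          (fun hn u hu => by
            obtain ⟨j, ε, u', rfl⟩ := mem_bd_iff.1 hu
            rw [hF, hK.one m le_rfl (by omega) _ (hc.face j ε)])
          (fun u => XS_mono hBA (rl_mem hc u))
          (fun u hu s => by
            obtain ⟨j, ε, u', rfl⟩ := mem_bd_iff.1 hu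
            rw [hF]
            exact XS_mono hBA' (hK.mem m le_rfl _ (hc.face j ε) _))
        refine ⟨L, fun _ => ⟨hL, hL0, hL1, fun j ε u s => ?_⟩⟩
        rw [hLb _ (mem_bd_iff.2 ⟨j, ε, u, rfl⟩), hF]
      · exact ⟨ContinuousMap.const _ (XF.pt 1), fun h' => absurd h' hc⟩
    choose L hL using key
    have hK' := hK.mono (hBA'.trans hAA')
    refine ⟨A', Function.update K (m + 1) L, hA', ?_, ?_, ?_, ?_⟩
    · intro k hk c hc p
      by_cases hkm : k = m + 1
      · subst hkm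
        rw [Function.update_self]
        exact (hL c hc).1 p
      · rw [Function.update_of_ne hkm]
        exact hK'.mem k (by omega) c hc p
    · intro k hk c hc u
      by_cases hkm : k = m + 1
      · subst hkm
        rw [Function.update_self]
        exact (hL c hc).2.1 u
      · rw [Function.update_of_ne hkm]
        exact hK'.zero k (by omega) c hc u
    · intro k hk c hc j ε u s
      rw [Function.update_of_ne (show k ≠ m + 1 by omega)]
      by_cases hkm : k = m
      · subst hkm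
        rw [Function.update_self]
        exact (hL c hc).2.2.2 j ε u s
      · rw [Function.update_of_ne (show k + 1 ≠ m + 1 by omega)]
        exact hK'.face k (by omega) c hc j ε u s
    · intro k hk hn c hc u
      by_cases hkm : k = m + 1
      · subst hkm
        rw [Function.update_self]
        exact (hL c hc).2.2.1 hn u
      · rw [Function.update_of_ne hkm]
        exact hK'.one k (by omega) hn c hc u

omit [Group G] in
theorem hc4_face_cell (ℓ : (Fin (k + 1) → ℕ) → G) (a : Fin (k + 1) → Fin N) (j : Fin (k + 1))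
    (ε : Bool) : Cb.face j ε (cell ℓ a) = fun v => ℓ (Fin.insertNth (α := fun _ => ℕ) j
      ((a j : ℕ) + ε.toNat) fun i => (a (j.succAbove i) : ℕ) + (v i).toNat) := by
  funext v
  unfold Cb.face cell
  congr 1
  funext i
  refine j.succAboveCases ?_ (fun i => ?_) i
  · simp
  · simp

omit [Group G] in
theorem face_cell (ℓ : (Fin (k + 1) → ℕ) → G) (a : Fin (k + 1) → Fin N) (j : Fin (k + 1))
    (ε : Bool) (h : (a j : ℕ) + ε.toNat = if ε then N else 0) :
    Cb.face j ε (cell ℓ a) = bc ℓ j ε (j.removeNth a) := by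
  rw [hc4_face_cell, h]
  rfl

omit [Group G] in
theorem face_bc (ℓ : (Fin (k + 2) → ℕ) → G) (j : Fin (k + 2)) (ε : Bool)
    (a : Fin (k + 1) → Fin N) (i : Fin (k + 1)) (hi : (a i : ℕ) + 1 < N) :
    Cb.face i true (bc ℓ j ε a) =
      Cb.face i false (bc ℓ j ε (Function.update a i ⟨a i + 1, hi⟩)) := by
  funext v
  unfold Cb.face bc
  congr 2
  funext i'
  refine i.succAboveCases ?_ (fun i' => ?_) i'
  · simp
  · simp [Function.update_of_ne (Fin.succAbove_ne i i')]

omit [Group G] in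
/-- telescoping in direction `j` (`Fin.insertNthEquiv`) -/
theorem zc_eq_bd (ℓ : (Fin (k + 1) → ℕ) → G) :
    zc N ℓ = Cb.bd (∑ a : Fin (k + 1) → Fin N, Finsupp.single (cell ℓ a) 1) := by
  rw [map_sum]
  simp only [Cb.bd, HCh.ext, Finsupp.linearCombination_single, one_smul]
  rw [Finset.sum_comm]
  unfold zc
  refine Finset.sum_congr rfl fun j _ => ?_
  rw [← Finset.smul_sum]
  congr 1
  rw [← (Fin.insertNthEquiv (fun _ => Fin N) j).sum_comp, Fintype.sum_prod_type, Finset.sum_comm]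
  refine Finset.sum_congr rfl fun a _ => ?_
  let g : ℕ → (Cb k G →₀ ℤ) := fun x => Finsupp.single
    (fun v => ℓ (Fin.insertNth (α := fun _ => ℕ) j x fun i => (a i : ℕ) + (v i).toNat)) 1
  have h1 : ∀ x : Fin N,
      (Finsupp.single (Cb.face j false (cell ℓ (Fin.insertNthEquiv (fun _ => Fin N) j (x, a)))) 1 -
        Finsupp.single (Cb.face j true (cell ℓ (Fin.insertNthEquiv (fun _ => Fin N) j (x, a)))) 1 :
          Cb k G →₀ ℤ) = g x - g (x + 1) := by
    intro x
    rw [hc4_face_cell, hc4_face_cell]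
    simp [g, Fin.insertNthEquiv]
  rw [Finset.sum_congr rfl fun x _ => h1 x,
    Fin.sum_univ_eq_sum_range (fun x => g x - g (x + 1)) N, Finset.sum_range_sub']
  rfl

/-- the grid point with integer coordinates `v` -/
noncomputable def hc4_vtx (N : ℕ) (v : Fin k → ℕ) : Cu k :=
  fun i => Set.projIcc (0 : ℝ) 1 zero_le_one ((v i : ℝ) / N)

theorem hc4_vtx_eq (hN : 0 < N) (j : Fin (k + 1)) (ε : Bool) (a : Fin k → Fin N)
    (v : Fin k → Bool) :
    hc4_vtx N (Fin.insertNth (α := fun _ => ℕ) j (if ε then N else 0)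
      fun i => (a i : ℕ) + (v i).toNat) = ins j ε (cpt a fun i => bI (v i)) := by
  have hN' : (N : ℝ) ≠ 0 := by exact_mod_cast hN.ne'
  funext i
  refine j.succAboveCases ?_ (fun i => ?_) i
  · rw [ins_same]
    unfold hc4_vtx
    rw [Fin.insertNth_apply_same]
    cases ε
    · apply Subtype.ext
      simp [bI]
    · apply Subtype.ext
      simp [bI, hN']
  · unfold hc4_vtx ins
    rw [Fin.insertNth_apply_succAbove, Fin.insertNth_apply_succAbove]
    have : (((a i : ℕ) + (v i).toNat : ℕ) : ℝ) / N = (cpt a (fun i => bI (v i)) i : ℝ) := by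
      unfold cpt
      cases h : v i <;> simp [bI, h]
    rw [this, Set.projIcc_val]

theorem hc4_dist (hN : 0 < N) {δ : ℝ} (hδ : 1 / (N : ℝ) < δ) (j : Fin (k + 1)) (ε : Bool)
    (a : Fin k → Fin N) (u u' : Cu k) : dist (ins j ε (cpt a u)) (ins j ε (cpt a u')) < δ := by
  have hN' : (0 : ℝ) < N := by exact_mod_cast hN
  have hδ0 : 0 < δ := lt_trans (by positivity) hδ
  rw [dist_pi_lt_iff hδ0]
  intro i
  refine j.succAboveCases ?_ (fun i => ?_) i
  · rw [ins_same, ins_same, dist_self]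
    exact hδ0
  · unfold ins
    rw [Fin.insertNth_apply_succAbove, Fin.insertNth_apply_succAbove, Subtype.dist_eq, Real.dist_eq]
    refine lt_of_le_of_lt ?_ hδ
    show |(((a i : ℕ) : ℝ) + (u i : ℝ)) / N - (((a i : ℕ) : ℝ) + (u' i : ℝ)) / N| ≤ 1 / N
    rw [← sub_div, abs_div, abs_of_pos hN']
    refine div_le_div_of_nonneg_right ?_ hN'.le
    have h1 := (u i).2.1
    have h2 := (u i).2.2
    have h3 := (u' i).2.1
    have h4 := (u' i).2.2
    rw [abs_le]
    constructor <;> linarith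

/-- Lebesgue number lemma for the cover of the boundary by the sets `{t | f t ⊆ f z}`; choose
`ℓ v ∈ f (v / N)` for boundary vertices. -/
theorem exists_label {A : Set G} {f : Cu (k + 1) → XF G} (hf : ContinuousOn f (HBd (k + 1)))
    (hA : MapsTo f (HBd (k + 1)) (XS A)) : ∃ (N : ℕ) (ℓ : (Fin (k + 1) → ℕ) → G), 0 < N ∧
      ∀ j ε (a : Fin k → Fin N), ∃ F ∈ XS A, (∀ v, bc ℓ j ε a v ∈ F.fs) ∧
        ∀ u, (f (ins j ε (cpt a u))).fs ⊆ F.fs := by
  classical
  obtain ⟨V, hV, hL⟩ := lebesgue_number_lemma_nhdsWithin'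
    (U := fun z (_ : z ∈ HBd (k + 1)) => {t | (f t).fs ⊆ (f z).fs})
    (isClosed_hbd (k := k + 1)).isCompact (fun z hz => XF.continuousWithinAt_iff.1 (hf z hz))
  obtain ⟨δ, hδ, hδV⟩ := Metric.mem_uniformity_dist.1 hV
  obtain ⟨M, hM⟩ := exists_nat_one_div_lt hδ
  have hN : 0 < M + 1 := Nat.succ_pos M
  have hM' : 1 / ((M + 1 : ℕ) : ℝ) < δ := by exact_mod_cast hM
  refine ⟨M + 1, fun v => if h : (f (hc4_vtx (M + 1) v)).fs.Nonempty then h.choose else 1, hN,
    fun j ε a => ?_⟩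
  have hb : ∀ u, ins j ε (cpt a u) ∈ HBd (k + 1) := fun u => mem_bd_iff.2 ⟨j, ε, _, rfl⟩
  obtain ⟨y, hy⟩ := hL _ (hb 0)
  have hsub : ∀ u, (f (ins j ε (cpt a u))).fs ⊆ (f y).fs := fun u =>
    hy ⟨hδV (hc4_dist hN hM' j ε a 0 u), hb u⟩
  refine ⟨f y, hA y.2, fun v => ?_, hsub⟩
  have hne : (f (hc4_vtx (M + 1) (Fin.insertNth (α := fun _ => ℕ) j (if ε then M + 1 else 0)
      fun i => (a i : ℕ) + (v i).toNat))).fs.Nonempty := by
    rw [hc4_vtx_eq hN]
    exact (hA (hb _)).1
  have hmem := hne.choose_spec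
  unfold bc
  simp only [dif_pos hne]
  generalize hne.choose = x at hmem
  rw [hc4_vtx_eq hN] at hmem
  exact hsub _ hmem

end Crest.Agent.R185
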