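import Crest.Agent.R185.Hc2
import Crest.Agent.R185.Hc4
import Crest.Agent.R185.HL3
import Crest.Agent.R185.HL4

/-!
# R185 TASK Hc5: the coarse Hurewicz theorem
-/

set_option autoImplicit false

namespace Crest.Agent.R185

open Set
open scoped _root_.Topology unitInterval Topology.Homotopy

variable {G : Type} [Group G] {A B B' : Set G} {n : ℕ}
  {K : ∀ k, Cb k G → C(Cu k × I, XF G)}

/-- the end of a homotopy, as a map to a subspace -/
def hc5_top {X : Type} [TopologicalSpace X] {Z : Set X} {k : ℕ} (F : C(Cu k × I, X))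
    (hF : ∀ p, F p ∈ Z) : C(Cu k, Z) :=
  ⟨fun u => ⟨F (u, 1), hF _⟩, by fun_prop⟩

/-- the end of a homotopy, as a loop -/
def hc5_loop {X : Type} [TopologicalSpace X] {Z : Set X} {k : ℕ} {x : X} (hx : x ∈ Z)
    (F : C(Cu k × I, X)) (hF : ∀ p, F p ∈ Z) (hb : ∀ u ∈ HBd k, F (u, 1) = x) :
    Ω^ (Fin k) Z ⟨x, hx⟩ :=
  ⟨hc5_top F hF, fun u hu => Subtype.ext (hb u hu)⟩

/-- `ρ c = K c (·, 1)` for small `c` (constant otherwise); for a small `(n+3)`-cube `c` apply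
`alt_eq_zero` to `K c (·, 1)`. -/
theorem HT.exists_loops (h : HT B B' (n + 2) (n + 3) K) (h1 : XF.pt 1 ∈ XS B') :
    ∃ ρ : Cb (n + 2) G → Ω^ (Fin (n + 2)) (XS B') ⟨XF.pt 1, h1⟩,
      (∀ c, Cb.Sm B c → ∀ u, ((ρ c u : XS B') : XF G) = K (n + 2) c (u, 1)) ∧
      ∀ w ∈ Finsupp.supported ℤ ℤ {c : Cb (n + 3) G | Cb.Sm B c},
        HCh.ext (fun c => cls (ρ c)) (Cb.bd w) = 0 := by
  classical
  have hb : ∀ c : Cb (n + 2) G, Cb.Sm B c → ∀ u ∈ HBd (n + 2), K (n + 2) c (u, 1) = XF.pt 1 := by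
    intro c hc u hu
    obtain ⟨j, ε, u', rfl⟩ := mem_bd_iff.1 hu
    rw [h.face (n + 1) (by omega) c hc, h.one (n + 1) (by omega) (by omega) _ (hc.face j ε)]
  let ρ : Cb (n + 2) G → Ω^ (Fin (n + 2)) (XS B') ⟨XF.pt 1, h1⟩ := fun c =>
    if hc : Cb.Sm B c then
      hc5_loop h1 (K (n + 2) c) (h.mem (n + 2) (by omega) c hc) (hb c hc)
    else GenLoop.const
  have hρ : ∀ c, Cb.Sm B c → ∀ u, ((ρ c u : XS B') : XF G) = K (n + 2) c (u, 1) := by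
    intro c hc u
    simp only [ρ, dif_pos hc]
    rfl
  refine ⟨ρ, hρ, fun w hw => ?_⟩
  refine (Submodule.mem_bot ℤ).1 (HCh.linear_mem (N := ⊥)
    (HCh.ext (fun c => cls (ρ c)) ∘ₗ Cb.bd) (fun c hc => ?_) hw)
  have hc' : Cb.Sm B c := hc
  have h0 := alt_eq_zero (hc5_top (K (n + 3) c) (h.mem (n + 3) le_rfl c hc'))
    (fun j ε => ρ (Cb.face j ε c)) fun j ε u => Subtype.ext (by
      rw [hρ _ (hc'.face j ε)]
      exact h.face (n + 2) le_rfl c hc' j ε u 1)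
  rw [Submodule.mem_bot, LinearMap.comp_apply, Cb.bd, HCh.ext_single, one_smul, map_sum, ← h0]
  refine Finset.sum_congr rfl fun j _ => ?_
  rw [map_smul, map_sub, HCh.ext_single, HCh.ext_single, one_smul, one_smul]

/-- Take `N`, `ℓ` from `exists_label`.  `zc N ℓ` is an `A`-small cycle with `aug = 0`
(`zc_eq_bd`, `Cb.bd_bd`, `Cb.aug_bd`), so `∑ j ± ∑ a (cls ρ (bc j false a) - cls ρ (bc j true a)) = 0`.
Glue `K (bc ℓ j ε a)` over the cells `a` to `Φ j ε` (`glue_grid`, `face_bc`), and the `Φ j ε` to `Ψ`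
on the boundary (`glue_bd`; `exists_cpt`, `cpt_eq_bI`, `face_cell`, `HT.compat`).  `Φ j ε (·, 1)`
is a loop in `XS B'` of class `∑ a cls ρ (bc j ε a)` (`cls_grid`), so `Ψ (·, 1)` extends
(`ext_of_alt`), hence `Ψ (·, 0)` (`ext_iff_of_homotopy`), hence `f` (`Ext.of_contiguous`). -/
theorem HT.fill (h : HT B B' (n + 2) (n + 3) K) (h1 : (1 : G) ∈ B') (hAB : A ⊆ B) (hAB' : A ⊆ B')
    (hq : ∀ z : Cb (n + 2) G →₀ ℤ, z ∈ Finsupp.supported ℤ ℤ {c | Cb.Sm A c} → Cb.bd z = 0 →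
      Cb.aug z = 0 → ∃ w : Cb (n + 3) G →₀ ℤ, w ∈ Finsupp.supported ℤ ℤ {c | Cb.Sm B c} ∧
        Cb.bd w = z) : Fill (XS A) (XS B') (n + 3) := by
  intro f hf hfA
  obtain ⟨N, ℓ, hN, hℓ⟩ := exists_label hf hfA
  have hp : XF.pt (1 : G) ∈ XS B' := pt_mem h1 1
  obtain ⟨ρ, hρ, hρ0⟩ := h.exists_loops hp
  have hsA : ∀ j ε (a : Fin (n + 2) → Fin N), Cb.Sm A (bc ℓ j ε a) := by
    intro j ε a v v'
    obtain ⟨F, hF, h2, -⟩ := hℓ j ε a
    exact hF.2 _ (h2 v) _ (h2 v')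
  have hs : ∀ j ε (a : Fin (n + 2) → Fin N), Cb.Sm B (bc ℓ j ε a) := fun j ε a =>
    (hsA j ε a).mono hAB
  -- the relation in the homotopy group
  have hrel : ∑ j : Fin (n + 3), (-1 : ℤ) ^ (j : ℕ) • ∑ a : Fin (n + 2) → Fin N,
      (cls (ρ (bc ℓ j false a)) - cls (ρ (bc ℓ j true a))) = 0 := by
    obtain ⟨w, hw, hbd⟩ := hq (zc N ℓ)
      (Submodule.sum_mem _ fun j _ => Submodule.smul_mem _ _ (Submodule.sum_mem _ fun a _ =>
        Submodule.sub_mem _ (Finsupp.single_mem_supported ℤ _ (hsA j false a))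
          (Finsupp.single_mem_supported ℤ _ (hsA j true a))))
      (by rw [zc_eq_bd, Cb.bd_bd]) (by rw [zc_eq_bd, Cb.aug_bd])
    have h0 := hρ0 w hw
    rw [hbd, zc, map_sum] at h0
    rw [← h0]
    refine Finset.sum_congr rfl fun j _ => ?_
    rw [map_smul, map_sum]
    congr 1
    refine Finset.sum_congr rfl fun a _ => ?_
    rw [map_sub, HCh.ext_single, HCh.ext_single, one_smul, one_smul]
  -- glue over the cells of each face
  have hΦ' : ∀ j ε, ∃ F : C(Cu (n + 2) × I, XF G), ∀ (a : Fin (n + 2) → Fin N) u y,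
      F (cpt a u, y) = K (n + 2) (bc ℓ j ε a) (u, y) := by
    intro j ε
    refine glue_grid hN (fun a => K (n + 2) (bc ℓ j ε a)) fun a i hi u y => ?_
    rw [h.face (n + 1) (by omega) _ (hs j ε _), h.face (n + 1) (by omega) _ (hs j ε _),
      face_bc ℓ j ε a i hi]
  choose Φ hΦ using hΦ'
  have hΦm : ∀ j ε p, Φ j ε p ∈ XS B' := by
    rintro j ε ⟨t, y⟩
    obtain ⟨a, u, rfl⟩ := exists_cpt hN t
    rw [hΦ]
    exact h.mem (n + 2) (by omega) _ (hs j ε a) _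
  -- glue the faces
  obtain ⟨Ψ, hΨc, hΨ⟩ := glue_bd Φ (by
    intro t j ε i δ hj hi y
    obtain ⟨a, u, rfl⟩ := exists_cpt hN t
    obtain ⟨hj1, hj2⟩ := cpt_eq_bI hj
    obtain ⟨hi1, hi2⟩ := cpt_eq_bI hi
    rw [removeNth_cpt, removeNth_cpt, hΦ, hΦ, ← face_cell ℓ a j ε hj2, ← face_cell ℓ a i δ hi2]
    refine h.compat (by omega) _ ?_ ?_ hj1 hi1 y
    · rw [face_cell ℓ a j ε hj2]
      exact hs _ _ _
    · rw [face_cell ℓ a i δ hi2]
      exact hs _ _ _)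
  have hΦb : ∀ j ε, ∀ t ∈ HBd (n + 2), Φ j ε (t, 1) = XF.pt 1 := by
    intro j ε t ht
    obtain ⟨a, u, rfl⟩ := exists_cpt hN t
    obtain ⟨i, δ, hi⟩ := mem_bd_iff'.1 ht
    rw [hΦ, ← hρ _ (hs j ε a), GenLoop.boundary (ρ (bc ℓ j ε a)) u
      (mem_bd_iff'.2 ⟨i, δ, (cpt_eq_bI hi).1⟩)]
  let lp : Fin (n + 3) → Bool → Ω^ (Fin (n + 2)) (XS B') ⟨XF.pt 1, hp⟩ := fun j ε =>
    hc5_loop hp (Φ j ε) (hΦm j ε) (hΦb j ε)
  have hlp : ∀ j ε, cls (lp j ε) = ∑ a : Fin (n + 2) → Fin N, cls (ρ (bc ℓ j ε a)) := by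
    intro j ε
    refine cls_grid hN _ _ fun a u => Subtype.ext ?_
    rw [hρ _ (hs j ε a)]
    exact hΦ j ε a u 1
  have halt : alt lp = 0 := by
    rw [← hrel]
    refine Finset.sum_congr rfl fun j _ => ?_
    rw [hlp, hlp, Finset.sum_sub_distrib]
  obtain ⟨g, hg⟩ := ext_of_alt lp halt
  have hΨm : ∀ u ∈ HBd (n + 3), ∀ s, Ψ (u, s) ∈ XS B' := by
    intro t ht s
    obtain ⟨j, ε, u, rfl⟩ := mem_bd_iff.1 ht
    rw [hΨ]
    exact hΦm _ _ _
  have hE1 : Ext (XS B') fun u => Ψ (u, 1) := by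
    refine ⟨⟨fun t => (g t : XF G), by fun_prop⟩, fun t => (g t).2, fun t ht => ?_⟩
    obtain ⟨j, ε, u, rfl⟩ := mem_bd_iff.1 ht
    change (g (ins j ε u) : XF G) = Ψ (ins j ε u, 1)
    rw [hg, hΨ]
    rfl
  have hE0 := (ext_iff_of_homotopy Ψ hΨc hΨm).2 hE1
  refine Ext.of_contiguous hf ?_ (fun t ht => (hfA ht).1) (fun t ht => (hΨm t ht 0).1) ?_ hE0
  · exact hΨc.comp (by fun_prop) fun t ht => ⟨ht, mem_univ _⟩
  · intro t ht
    obtain ⟨j, ε, t', rfl⟩ := mem_bd_iff.1 ht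
    obtain ⟨a, u, rfl⟩ := exists_cpt hN t'
    obtain ⟨F, hF, h2, h3⟩ := hℓ j ε a
    refine ⟨F, XS_mono hAB' hF, h3 u, fun x hx => ?_⟩
    rw [hΨ, hΦ, h.zero (n + 2) (by omega) _ (hs j ε a)] at hx
    obtain ⟨v, rfl⟩ := hc_mem_rl hx
    exact h2 v

theorem CC.of_le {d d' : ℕ} (h : CC G d) (hd : d' ≤ d) : CC G d' := by
  intro A hA
  obtain ⟨B, hB, h1⟩ := h A hA
  exact ⟨B, hB, fun j hj => h1 j (hj.trans hd)⟩

theorem cc_succ (h : CC G (n + 2)) (hq : QCA G (n + 1)) : CC G (n + 3) := by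
  refine cc_iff_fill.2 fun A hA => ?_
  obtain ⟨B0, hB0, hF⟩ := cc_iff_fill.1 h A hA
  obtain ⟨B1, hB1, hq1⟩ := hq A hA
  obtain ⟨B', K, hB', hK⟩ := exists_HT h (hA.union hB1) (n + 3)
  refine ⟨B' ∪ (A ∪ ({1} ∪ B0)), hB'.union (hA.union ((finite_singleton 1).union hB0)),
    fun j hj => ?_⟩
  rcases Nat.lt_or_eq_of_le hj with hlt | rfl
  · exact (hF j (by omega)).mono subset_rfl (XS_mono fun x hx => Or.inr (Or.inr (Or.inr hx)))
  · refine (hK.mono subset_union_left).fill (Or.inr (Or.inr (Or.inl rfl))) subset_union_left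
      (fun x hx => Or.inr (Or.inl hx)) fun z hz h0 h1 => ?_
    obtain ⟨w, hw, hbd⟩ := hq1 z hz h0 h1
    exact ⟨w, Finsupp.supported_mono (fun c hc => Cb.Sm.mono hc subset_union_right) hw, hbd⟩

/-- `HCh.exists_kill`, `HCh.kill_asc`, `qca_of_kill`, `cc_succ` -/
theorem ccinf_of_magic {H E : Type} [Group H] [Group E] {φ : H →* H} {ι : H →* E} {t : E}
    {χ : E →* Multiplicative ℤ} (h : Asc φ ι t χ) (hH : Group.FG H) (hφ : Magic φ)
    (h2 : CC E 2) : CCinf E := by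
  have hk := HCh.kill_asc h (HCh.exists_kill hφ)
  have key : ∀ n, CC E (n + 2) := by
    intro n
    induction n with
    | zero => exact h2
    | succ n ih => exact cc_succ ih (qca_of_kill hk (n + 1))
  exact fun d => (key d).of_le (by omega)

end Crest.Agent.R185
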