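import Crest.Agent.R185.HLDef

/-!
# R185: the coarse Hurewicz theorem (definitions)
-/

set_option autoImplicit false

namespace Crest.Agent.R185

open Set
open scoped _root_.Topology unitInterval Topology.Homotopy

/-- the cube `I^k` -/
abbrev Cu (k : ℕ) : Type := Fin k → I

/-- its boundary -/
abbrev HBd (k : ℕ) : Set (Cu k) := Cube.boundary (Fin k)

/-- the end points of `I` -/
def bI (ε : Bool) : I := if ε then 1 else 0

/-- face inclusions -/
def ins {k : ℕ} (j : Fin (k + 1)) (ε : Bool) (u : Cu k) : Cu (k + 1) :=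
  Fin.insertNth (α := fun _ => I) j (bI ε) u

/-- the point with local coordinates `u` of the cell `a` of the `N`-grid -/
noncomputable def cpt {k N : ℕ} (a : Fin k → Fin N) (u : Cu k) : Cu k := fun i =>
  ⟨(((a i : ℕ) : ℝ) + (u i : ℝ)) / N, by
    have h1 : (((a i : ℕ) : ℝ) + 1) ≤ N := by exact_mod_cast (a i).2
    have h0 : (0 : ℝ) ≤ ((a i : ℕ) : ℝ) := Nat.cast_nonneg _
    have h2 := (u i).2.1
    have h3 := (u i).2.2
    have hN : (0 : ℝ) < N := by linarith
    exact ⟨div_nonneg (by linarith) hN.le, (div_le_one hN).2 (by linarith)⟩⟩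

section
variable {X : Type} [TopologicalSpace X]

/-- `f` restricted to the boundary extends to a map of the cube into `Z` -/
def Ext {k : ℕ} (Z : Set X) (f : Cu k → X) : Prop :=
  ∃ F : C(Cu k, X), (∀ t, F t ∈ Z) ∧ EqOn F f (HBd k)

/-- maps `∂ I^k → Y` extend to maps `I^k → Z` -/
def Fill (Y Z : Set X) (k : ℕ) : Prop :=
  ∀ f : Cu k → X, ContinuousOn f (HBd k) → MapsTo f (HBd k) Y → Ext Z f

/-- the class of a loop in the (additively written) homotopy group -/
def cls {n : ℕ} {z : X} (a : Ω^ (Fin (n + 2)) X z) : Additive (π_ (n + 2) X z) :=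
  Additive.ofMul (⟦a⟧ : HomotopyGroup (Fin (n + 2)) X z)

/-- alternating sum of the faces -/
noncomputable def alt {n : ℕ} {z : X} (a : Fin (n + 3) → Bool → Ω^ (Fin (n + 2)) X z) :
    Additive (π_ (n + 2) X z) :=
  ∑ j : Fin (n + 3), (-1 : ℤ) ^ (j : ℕ) • (cls (a j false) - cls (a j true))

end

/-- finite subsets with the Alexandrov topology: the smallest neighbourhood of `F` is `Iic F` -/
abbrev XF (G : Type) : Type := Topology.WithLowerSet (Finset G)

/-- the underlying finite set -/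
abbrev XF.fs {G : Type} (F : XF G) : Finset G := Topology.WithLowerSet.ofLowerSet F

/-- a vertex -/
def XF.pt {G : Type} (g : G) : XF G := Topology.WithLowerSet.toLowerSet {g}

/-- the Rips complex: nonempty `B`-small finite sets -/
def XS {G : Type} [Group G] (B : Set G) : Set (XF G) :=
  {F | F.fs.Nonempty ∧ ∀ x ∈ F.fs, ∀ y ∈ F.fs, x⁻¹ * y ∈ B}

open Classical in
/-- realisation of a combinatorial cube: the labels of the nearest vertices -/
noncomputable def rl {G : Type} {k : ℕ} (c : Cb k G) (t : Cu k) : XF G :=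
  Topology.WithLowerSet.toLowerSet
    ((Finset.univ.filter fun v : Fin k → Bool =>
      ∀ i, |(t i : ℝ) - (bI (v i) : ℝ)| ≤ 1 / 2).image c)

/-- homotopies of the realisations of the `B`-small cubes of dimension `≤ m`, compatible with
faces, ending at the base point in dimensions `< n` -/
structure HT {G : Type} [Group G] (B B' : Set G) (n m : ℕ)
    (K : ∀ k, Cb k G → C(Cu k × I, XF G)) : Prop where
  mem : ∀ k ≤ m, ∀ c : Cb k G, Cb.Sm B c → ∀ p, K k c p ∈ XS B'
  zero : ∀ k ≤ m, ∀ c : Cb k G, Cb.Sm B c → ∀ u, K k c (u, 0) = rl c u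
  face : ∀ k, k + 1 ≤ m → ∀ c : Cb (k + 1) G, Cb.Sm B c → ∀ j ε u s,
    K (k + 1) c (ins j ε u, s) = K k (Cb.face j ε c) (u, s)
  one : ∀ k ≤ m, k < n → ∀ c : Cb k G, Cb.Sm B c → ∀ u, K k c (u, 1) = XF.pt 1

/-- a cell of a labelled grid -/
def cell {G : Type} {k N : ℕ} (ℓ : (Fin k → ℕ) → G) (a : Fin k → Fin N) : Cb k G :=
  fun v => ℓ fun i => (a i : ℕ) + (v i).toNat

/-- a cell of the face `(j, ε)` of a labelled grid -/
def bc {G : Type} {k N : ℕ} (ℓ : (Fin (k + 1) → ℕ) → G) (j : Fin (k + 1)) (ε : Bool)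
    (a : Fin k → Fin N) : Cb k G :=
  fun v => ℓ (Fin.insertNth (α := fun _ => ℕ) j (if ε then N else 0)
    fun i => (a i : ℕ) + (v i).toNat)

/-- the fundamental cycle of the boundary of a labelled grid -/
noncomputable def zc {G : Type} {k : ℕ} (N : ℕ) (ℓ : (Fin (k + 1) → ℕ) → G) : Cb k G →₀ ℤ :=
  ∑ j : Fin (k + 1), (-1 : ℤ) ^ (j : ℕ) • ∑ a : Fin k → Fin N,
    (Finsupp.single (bc ℓ j false a) 1 - Finsupp.single (bc ℓ j true a) 1)

end Crest.Agent.R185
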