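import Crest.Agent.R185.HigDef

/-!
# R185 TASK Hig1: the Higman group is finitely presented
-/

set_option autoImplicit false

namespace Crest.Agent.R185.Hig

variable {k : ℕ} {G : Type} [Group G] (g : Fin k → G) {M : MM k} (hM : M.Good) (c : ℕ)

theorem mem_Q0 {x : GD g × Mc hM c} : x ∈ Q0 g hM c ↔ x.2 ∈ MM.Bsub hM c FreeGroup.of := by
  simp [Q0, Subgroup.mem_prod]

theorem tr_R (b : Bool) (γ : M.F1 (FreeGroup (Fin k))) :
    (hdR g hM c).tr (b, true) (1, MM.incM hM c FreeGroup.of γ) =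
      (piD g M b γ, MM.incM hM c FreeGroup.of γ) :=
  HD.ofHoms_tr_true (Γ := fun _ : Bool => M.F1 (FreeGroup (Fin k))) _ _ _ _ b γ

theorem conj_R (b : Bool) (γ : M.F1 (FreeGroup (Fin k))) :
    ((hdR g hM c).st b)⁻¹ * (hdR g hM c).of (1, MM.incM hM c FreeGroup.of γ) * (hdR g hM c).st b =
      (hdR g hM c).of (piD g M b γ, MM.incM hM c FreeGroup.of γ) :=
  HD.ofHoms_conj (Γ := fun _ : Bool => M.F1 (FreeGroup (Fin k))) _ _ _ _ b γ

theorem conj_D (w : FreeGroup (Fin k)) :
    ((hdD g).st ())⁻¹ * (hdD g).of (1, w) * (hdD g).st () = (hdD g).of (FreeGroup.lift g w, w) :=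
  HD.ofHoms_conj (Γ := fun _ : Unit => FreeGroup (Fin k)) _ _ _ _ () w


theorem good (I : Set Bool) : (hdR g hM c).Good (Q0 g hM c) I := by
  rintro b - ⟨_, γ, rfl⟩
  rw [← HD.tr_true]
  have := tr_R g hM c b γ
  erw [this]
  rw [mem_Q0, mem_Q0]
  rfl

/-- `HD.exists_gen_equiv`; on `B ∩ F1` (`MM.incM_mem_B`) the maps `piD true` and `piD false` agree,
because `fD w` commutes with `d` when `w(g) = 1`. -/
theorem exists_e (h : Ok g M c) : ∃ e, IsE g hM c e := by
  refine (hdR g hM c).exists_gen_equiv (good g hM c _) (good g hM c _) (fun _ _ => Iff.rfl) ?_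
  rintro _ hq ⟨γ, rfl⟩
  have h1 := tr_R g hM c false γ
  have h2 := tr_R g hM c true γ
  erw [h1, h2]
  congr 1
  have h3 : γ ∈ SD.sub {r | (M.inp true, r) ∈ M.Acc c FreeGroup.of} ⊥ :=
    (MM.incM_mem_B hM c _).1 ((mem_Q0 g hM c).1 hq)
  have h4 : SD.sub {r | (M.inp true, r) ∈ M.Acc c FreeGroup.of} ⊥ ≤
      (piD g M false).eqLocus (piD g M true) := by
    rw [SD.sub, Subgroup.closure_le]
    rintro _ (⟨r, hr, rfl⟩ | ⟨r, hr, rfl⟩)
    · have h5 : FreeGroup.lift g r.1 = 1 := (h r.1).1 ⟨r.2, hr⟩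
      have h6 := conj_D g r.1
      rw [h5] at h6
      change piD g M false _ = piD g M true _
      simp only [piD, SD.lift_lt]
      rw [eq_mul_inv_iff_mul_eq]
      change _ * (hdD g).of (1, r.1) = (hdD g).of (1, r.1) * _
      conv_lhs => rw [← h6]
      group
    · rw [SetLike.mem_coe, Subgroup.mem_bot] at hr
      rw [hr, map_one]
      exact Subgroup.one_mem _
  exact h4 h3

theorem emb_injective (e) : Function.Injective (emb g hM c e) := by
  intro x y hxy
  have h1 := (hdR g hM c).of_injective ((hdS g hM c e).of_injective hxy)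
  exact congrArg Prod.fst ((hdD g).of_injective (congrArg Prod.fst h1))

theorem gS_gens (hg : Gens g) (e) : Gens (gS g hM c e) := by
  exact HD.gens_gens _ (HD.gens_gens _ (prodGens_gens
    (HD.gens_gens _ (prodGens_gens hg (free_gens _))) (MM.machG_gens hM c _ (free_gens _))))

section aux

theorem hig1_upMap {Y 𝔄 𝔅 : Type} (f : 𝔄 → 𝔅) (h : Y → 𝔄) :
    upMap f {FreeGroup.map h} = {FreeGroup.map (f ∘ h)} := by
  rw [upMap, Set.image_singleton]
  congr 1
  ext y
  simp

theorem hig1_upMap_empty {Y 𝔄 𝔅 : Type} (f : 𝔄 → 𝔅) :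
    upMap f (∅ : Set (FreeGroup Y →* FreeGroup 𝔄)) = ∅ := Set.image_empty _

theorem hig1_surj {𝔄 H : Type} [Group H] {h : 𝔄 → H} (hh : Gens h) :
    Function.Surjective (FreeGroup.lift h) := by
  rw [← MonoidHom.range_eq_top, FreeGroup.range_lift_eq_closure]
  exact hh

theorem hig1_base (hg : Gens g) :
    UP (fun _ : Unit => ((FreeGroup.lift g).ker : Set (FreeGroup (Fin k)))) (G := fun _ => G)
      (fun _ => g) {FreeGroup.map id} := by
  refine ⟨fun _ => hg, ∅, Set.finite_empty, fun _ => ?_⟩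
  have : (∅ ∪ ⋃ s ∈ ({FreeGroup.map id} : Set (FreeGroup (Fin k) →* FreeGroup (Fin k))),
      s '' ((FreeGroup.lift g).ker : Set (FreeGroup (Fin k)))) = (FreeGroup.lift g).ker := by
    simp
  rw [this, Subgroup.normalClosure_eq_self]

theorem hig1_mh {Y 𝔄 H ι : Type} [Group H] [Finite ι] {N : Unit → Set (FreeGroup Y)} {h : 𝔄 → H}
    {S : Set (FreeGroup Y →* FreeGroup 𝔄)} (D : HD H ι) (hA : ∀ i, (D.A i).FG)
    (hh : UP N (G := fun _ => H) (fun _ => h) S) :
    UP N (G := fun _ => D.MH) (fun _ => D.gens h) (upMap Sum.inl S) := by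
  choose w hw using hig1_surj (hh.1 ())
  choose T hT using fun i => (Subgroup.fg_iff _).1 (hA i)
  refine UP.mh (G := fun _ => H) (fun _ => D)
    (fun i => (fun t => (w t, w (D.tr (i, true) t))) '' T i) (fun i => (hT i).2.image _)
    (fun _ i => ?_) (fun _ i => ?_) hh
  · rw [Set.image_image]
    simp only [hw, Set.image_id', (hT i).1]
  · rintro _ ⟨t, -, rfl⟩
    simp only [hw]

theorem hig1_fg_range {ℭ Γ H : Type} [Finite ℭ] [Group Γ] [Group H] {κ : ℭ → Γ} (hκ : Gens κ)
    (α : Γ →* H) : α.range.FG := by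
  rw [Subgroup.fg_iff]
  refine ⟨α '' Set.range κ, ?_, (Set.finite_range κ).image _⟩
  rw [← MonoidHom.map_closure, hκ, MonoidHom.range_eq_map]

theorem hig1_fg_gen (hg : Gens g) (b : Bool) : ((hdR g hM c).gen (Q0 g hM c) {b}).FG := by
  have hQ : (Q0 g hM c).FG := by
    refine Subgroup.FG.prod ?_ ?_
    · rw [Subgroup.fg_iff]
      exact ⟨Set.range (gD g), HD.gens_gens _ (prodGens_gens hg (free_gens _)), Set.finite_range _⟩
    · rw [Subgroup.fg_iff]
      refine ⟨_, (MM.B_eq hM c _).symm, ?_⟩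
      refine ((List.finite_toSet M.bW).image (wev (MM.machG hM c FreeGroup.of))).subset ?_
      rintro _ ⟨w, hw, rfl⟩
      exact ⟨w, hw, rfl⟩
  obtain ⟨T, hT, hT'⟩ := (Subgroup.fg_iff _).1 hQ
  rw [Subgroup.fg_iff]
  refine ⟨(hdR g hM c).of '' T ∪ (hdR g hM c).st '' {b}, ?_,
    (hT'.image _).union ((Set.finite_singleton _).image _)⟩
  rw [HD.gen, Subgroup.closure_union, Subgroup.closure_union, ← MonoidHom.map_closure,
    ← MonoidHom.map_closure, hT, Subgroup.closure_eq]

/-- `P` follows from finitely many relators of the marked group `(H, h)` -/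
def FW {𝔄 H : Type} [Group H] (h : 𝔄 → H) (P : ∀ (Λ : Type) [Group Λ], (𝔄 → Λ) → Prop) : Prop :=
  ∃ r : Set (FreeGroup 𝔄), r.Finite ∧ (∀ z ∈ r, FreeGroup.lift h z = 1) ∧
    ∀ (Λ : Type) [Group Λ] (x : 𝔄 → Λ), (∀ z ∈ r, FreeGroup.lift x z = 1) → P Λ x

variable {𝔄 H : Type} [Group H] {h : 𝔄 → H}

theorem FW.eq (u v : FreeGroup 𝔄) (huv : FreeGroup.lift h u = FreeGroup.lift h v) :
    FW h fun _ _ x => FreeGroup.lift x u = FreeGroup.lift x v :=
  ⟨{u * v⁻¹}, Set.finite_singleton _, by simp [huv], fun _ _ x hx => by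
    simpa [mul_inv_eq_one] using hx⟩

theorem FW.and {P Q : ∀ (Λ : Type) [Group Λ], (𝔄 → Λ) → Prop} (hP : FW h P) (hQ : FW h Q) :
    FW h fun Λ _ x => P Λ x ∧ Q Λ x := by
  obtain ⟨r, h1, h2, h3⟩ := hP
  obtain ⟨r', h1', h2', h3'⟩ := hQ
  exact ⟨r ∪ r', h1.union h1', fun z hz => hz.elim (h2 z) (h2' z), fun Λ _ x hx =>
    ⟨h3 Λ x fun z hz => hx z (Or.inl hz), h3' Λ x fun z hz => hx z (Or.inr hz)⟩⟩

theorem FW.all {τ : Type} [Finite τ] {P : τ → ∀ (Λ : Type) [Group Λ], (𝔄 → Λ) → Prop}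
    (hP : ∀ i, FW h (P i)) : FW h fun Λ _ x => ∀ i, P i Λ x := by
  choose r h1 h2 h3 using hP
  refine ⟨⋃ i, r i, Set.finite_iUnion h1, fun z hz => ?_, fun Λ _ x hx i =>
    h3 i Λ x fun z hz => hx z (Set.mem_iUnion.2 ⟨i, hz⟩)⟩
  obtain ⟨i, hi⟩ := Set.mem_iUnion.1 hz
  exact h2 i z hi

theorem FW.all_set {τ : Type} {T : Set τ} (hT : T.Finite)
    {P : τ → ∀ (Λ : Type) [Group Λ], (𝔄 → Λ) → Prop}
    (hP : ∀ i ∈ T, FW h (P i)) : FW h fun Λ _ x => ∀ i ∈ T, P i Λ x := by
  haveI := hT.to_subtype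
  obtain ⟨r, h1, h2, h3⟩ := FW.all (τ := T) (P := fun i => P i.1) fun i => hP i.1 i.2
  exact ⟨r, h1, h2, fun Λ _ x hx i hi => h3 Λ x hx ⟨i, hi⟩⟩

theorem FW.mono {P Q : ∀ (Λ : Type) [Group Λ], (𝔄 → Λ) → Prop} (hP : FW h P)
    (hPQ : ∀ (Λ : Type) [Group Λ] (x : 𝔄 → Λ), P Λ x → Q Λ x) : FW h Q := by
  obtain ⟨r, h1, h2, h3⟩ := hP
  exact ⟨r, h1, h2, fun Λ _ x hx => hPQ Λ x (h3 Λ x hx)⟩

/-- `piD` in any group -/
def pG (M : MM k) {Λ : Type} [Group Λ] (m : FreeGroup (Fin k) →* Λ) (d : Λ) :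
    Bool → (M.F1 (FreeGroup (Fin k)) →* Λ)
  | true => SD.lift (m.comp (MonoidHom.fst _ _))
      (fun r => m r.1 * d * (m r.1)⁻¹) (fun r z => by simp [mul_assoc])
  | false => SD.lift 1 (fun _ => d) (fun r z => by simp)

theorem piD_eq (b : Bool) : piD g M b = pG M (fD g) ((hdD g).st ()) b := by
  cases b <;> rfl

theorem map_pG {Λ Λ' : Type} [Group Λ] [Group Λ'] (φ : Λ →* Λ') (m : FreeGroup (Fin k) →* Λ)
    (d : Λ) (b : Bool) (γ : M.F1 (FreeGroup (Fin k))) :
    φ (pG M m d b γ) = pG M (φ.comp m) (φ d) b γ := by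
  have : φ.comp (pG M m d b) = pG M (φ.comp m) (φ d) b := by
    cases b <;> refine SD.hom_ext (fun r => ?_) (fun z => ?_) <;> simp [pG]
  exact DFunLike.congr_fun this γ

theorem pG_mem {Λ : Type} [Group Λ] (m : FreeGroup (Fin k) →* Λ) (d : Λ) (b : Bool)
    (K : Subgroup Λ) (hm : ∀ w, m w ∈ K) (hd : d ∈ K) (γ : M.F1 (FreeGroup (Fin k))) :
    pG M m d b γ ∈ K := by
  have := map_pG (M := M) K.subtype (m.codRestrict K hm) ⟨d, hd⟩ b γ
  rw [show K.subtype.comp (m.codRestrict K hm) = m from rfl] at this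
  exact this ▸ Subtype.property _

/-- two homomorphisms with commuting images conjugated together -/
theorem hig1_conj {ℭ Γ Λ : Type} [Group Γ] [Group Λ] {κ : ℭ → Γ} (hκ : Gens κ) (α β : Γ →* Λ)
    (hc : ∀ x y, Commute (α x) (β y)) (t : Λ)
    (ht : ∀ a, t⁻¹ * β (κ a) * t = α (κ a) * β (κ a)) (γ : Γ) : t⁻¹ * β γ * t = α γ * β γ := by
  have hγ : γ ∈ Subgroup.closure (Set.range κ) := by rw [hκ]; trivial
  induction hγ using Subgroup.closure_induction with
  | mem x hx => obtain ⟨a, rfl⟩ := hx; exact ht a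
  | one => simp
  | mul x y _ _ hx hy =>
    calc t⁻¹ * β (x * y) * t = (t⁻¹ * β x * t) * (t⁻¹ * β y * t) := by rw [map_mul]; group
      _ = α x * (β x * α y) * β y := by rw [hx, hy]; group
      _ = _ := by rw [← (hc y x).eq, map_mul, map_mul]; group
  | inv x _ hx =>
    calc t⁻¹ * β x⁻¹ * t = (t⁻¹ * β x * t)⁻¹ := by rw [map_inv]; group
      _ = _ := by rw [hx, (hc x x).eq, map_inv, map_inv, mul_inv_rev]

theorem hig1_comm {ℭ Γ Λ : Type} [Group Γ] [Group Λ] {κ : ℭ → Γ} (hκ : Gens κ) (α : Γ →* Λ)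
    (t : Λ) (ht : ∀ a, Commute t (α (κ a))) (γ : Γ) : Commute t (α γ) := by
  have hγ : γ ∈ Subgroup.closure (Set.range κ) := by rw [hκ]; trivial
  induction hγ using Subgroup.closure_induction with
  | mem x hx => obtain ⟨a, rfl⟩ := hx; exact ht a
  | one => simp
  | mul x y _ _ hx hy => rw [map_mul]; exact hx.mul_right hy
  | inv x _ hx => rw [map_inv]; exact hx.inv_right

/-- the computation in `Λ` -/
theorem hig1_core (h : Ok g M c) {Λ : Type} [Group Λ] (μ : Mc hM c →* Λ)
    (gl m : Fin k → Λ) (d s : Λ) (r : Bool → Λ)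
    (c1 : ∀ y a, Commute (m y) (μ (MM.machG hM c FreeGroup.of a)))
    (c1' : ∀ a, Commute d (μ (MM.machG hM c FreeGroup.of a)))
    (c2 : ∀ y y', Commute (gl y) (m y')) (hd : ∀ y, d⁻¹ * m y * d = gl y * m y)
    (hr : ∀ b a, (r b)⁻¹ * μ (MM.machG hM c FreeGroup.of (M.incA a)) * r b =
      pG M (FreeGroup.lift m) d b (M.f1G FreeGroup.of a) *
        μ (MM.machG hM c FreeGroup.of (M.incA a)))
    (s1 : s⁻¹ * r false * s = r true) (s2 : Commute s d)
    (s3 : ∀ w ∈ M.bW, Commute s (μ (wev (MM.machG hM c FreeGroup.of) w)))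
    (w : FreeGroup (Fin k)) (hw : FreeGroup.lift g w = 1) : FreeGroup.lift gl w = 1 := by
  have gF := free_gens (Fin k)
  have gM := MM.machG_gens hM c _ gF
  obtain ⟨ξ, hξ⟩ := (h w).2 hw
  have hcomm : ∀ b γ z, Commute (pG M (FreeGroup.lift m) d b γ) (μ z) := by
    intro b γ z
    have := pG_mem (M := M) (FreeGroup.lift m) d b (Subgroup.centralizer {μ z}) (fun v => ?_) ?_ γ
    · exact Subgroup.mem_centralizer_singleton_iff.1 this
    · refine Subgroup.mem_centralizer_singleton_iff.2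
        (hig1_comm gF (FreeGroup.lift m) (μ z) (fun y => ?_) v).symm
      rw [FreeGroup.lift_apply_of]
      exact (hig1_comm gM μ _ (c1 y) z).symm
    · exact Subgroup.mem_centralizer_singleton_iff.2 (hig1_comm gM μ _ c1' z)
  have hR : ∀ b γ, (r b)⁻¹ * μ (MM.incM hM c FreeGroup.of γ) * r b =
      pG M (FreeGroup.lift m) d b γ * μ (MM.incM hM c FreeGroup.of γ) := fun b =>
    hig1_conj (MM.f1G_gens gF) (pG M (FreeGroup.lift m) d b)
      (μ.comp (MM.incM hM c FreeGroup.of)) (fun x y => hcomm b x _) (r b) fun a => by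
        simp only [MonoidHom.comp_apply, MM.incM_f1G]
        exact hr b a
  have hD : d⁻¹ * FreeGroup.lift m w * d = FreeGroup.lift gl w * FreeGroup.lift m w :=
    hig1_conj gF (FreeGroup.lift gl) (FreeGroup.lift m) (fun x y =>
      hig1_comm gF _ _ (fun a => (hig1_comm gF _ _ (fun a' => by
        simpa using (c2 a' a).symm) x).symm) y) d (fun a => by simpa using hd a) w
  have hB : MM.incM hM c FreeGroup.of (SD.lt (w, ξ)) ∈ MM.Bsub hM c FreeGroup.of :=
    (MM.incM_mem_B hM c _).2 (Subgroup.subset_closure (Or.inl ⟨_, hξ, rfl⟩))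
  have hs : Commute s (μ (MM.incM hM c FreeGroup.of (SD.lt (w, ξ)))) := by
    have : MM.Bsub hM c FreeGroup.of ≤ (Subgroup.centralizer {s}).comap μ := by
      rw [MM.B_eq, Subgroup.closure_le]
      rintro _ ⟨v, hv, rfl⟩
      exact Subgroup.mem_centralizer_singleton_iff.2 (s3 v hv).symm
    exact (Subgroup.mem_centralizer_singleton_iff.1 (this hB)).symm
  have e1 := hR true (SD.lt (w, ξ))
  have e2 := hR false (SD.lt (w, ξ))
  simp only [pG, SD.lift_lt] at e1 e2
  generalize μ (MM.incM hM c FreeGroup.of (SD.lt (w, ξ))) = t at *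
  have e3 : (r true)⁻¹ * t * r true = d * t := by
    calc (r true)⁻¹ * t * r true = s⁻¹ * ((r false)⁻¹ * (s * t * s⁻¹) * r false) * s := by
          rw [← s1]; group
      _ = s⁻¹ * (d * t) * s := by rw [hs.eq, mul_inv_cancel_right, e2]
      _ = d * t := by rw [mul_assoc, ← (s2.mul_right hs).eq, inv_mul_cancel_left]
  rw [e3, mul_left_inj, eq_mul_inv_iff_mul_eq] at e1
  rw [mul_assoc, ← e1, inv_mul_cancel_left] at hD
  exact mul_eq_right.1 hD.symm

end aux


/-- `UP` over `Sit = Unit` with `N = ker (lift g)`, `S = {the letters of G}` (`UP.const`,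
`UP.prod`, `UP.mh`, `MM.up_mach`, `MM.B_eq`), then `UP.drop` and `UP.fp_empty`.  For `drop` take
`r'` = relators of the (finitely presented) machine group, the commutators of the generators of
`Γ_d` with those of `Mach` and of the letters `g_y` with the letters `m_y`, `d⁻¹ m_y d = g_y m_y`,
`r_b⁻¹ a r_b = π_b(a) a` for the generators `a` of `F1`, `s⁻¹ r_false s = r_true`, and the commutators
of `s` with the generators of `Γ_d` and the words `bW`.  In `Λ = F ⧸ ⟨⟨r'⟩⟩`, for a relator `w`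
with accepted configuration `(inp true, (w, ξ))` and letter `t ∈ B`:
`r_true⁻¹ t r_true = (m_w d m_w⁻¹) t`, `r_false⁻¹ t r_false = d t`; conjugating the second equation
by `s` gives `m_w d m_w⁻¹ = d`, and `d⁻¹ m_w d = g_w m_w` gives `g_w = 1`. -/
theorem fp (hg : Gens g) (h : Ok g M c) {e} (he : IsE g hM c e) :
    Group.IsFinitelyPresented (hdS g hM c e).MH := by
  have gF := free_gens (Fin k)
  have gM := MM.machG_gens hM c _ gF
  set N : Unit → Set (FreeGroup (Fin k)) := fun _ => ((FreeGroup.lift g).ker : Set _) with hN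
  have uF : UP N (G := fun _ => FreeGroup (Fin k)) (fun _ => FreeGroup.of) ∅ := UP.const gF
  have u0 := (hig1_base g hg).prod uF
  rw [hig1_upMap, hig1_upMap_empty, Set.union_empty] at u0
  have uD := hig1_mh (hdD g) (fun _ => hig1_fg_range gF _) u0
  have uM := MM.up_mach hM c uF
  rw [hig1_upMap_empty] at uM
  have uP := uD.prod uM
  rw [hig1_upMap, hig1_upMap, hig1_upMap_empty, Set.union_empty] at uP
  have uR := hig1_mh (hdR g hM c) (fun _ => hig1_fg_range (MM.f1G_gens gF) _) uP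
  have uS := hig1_mh (hdS g hM c e) (fun _ => hig1_fg_gen g hM c hg false) uR
  rw [hig1_upMap, hig1_upMap] at uS
  obtain ⟨-, r₁, hr₁, hr₁'⟩ := uM
  have hker : (FreeGroup.lift (MM.machG hM c FreeGroup.of)).ker = Subgroup.normalClosure r₁ := by
    simpa using hr₁' ()
  -- letters
  let iD : AD k → AS M := fun a => Sum.inl (Sum.inl (Sum.inl a))
  let iM : M.AM → AS M := fun a => Sum.inl (Sum.inl (Sum.inr a))
  let iG : Fin k → AS M := fun y => iD (Sum.inl (Sum.inl y))
  let im : Fin k → AS M := fun y => iD (Sum.inl (Sum.inr y))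
  let id' : AS M := iD (Sum.inr ())
  let ir : Bool → AS M := fun b => Sum.inl (Sum.inr b)
  let is : AS M := Sum.inr ()
  let J : GD g × Mc hM c →* (hdS g hM c e).MH := (hdS g hM c e).of.comp (hdR g hM c).of
  have hJD : ∀ a, gS g hM c e (iD a) = J (gD g a, 1) := fun _ => rfl
  have hJM : ∀ a, gS g hM c e (iM a) = J (1, MM.machG hM c FreeGroup.of a) := fun _ => rfl
  have hJM' : ∀ z, FreeGroup.lift (gS g hM c e) (FreeGroup.map iM z) =
      J (1, FreeGroup.lift (MM.machG hM c FreeGroup.of) z) := by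
    intro z
    have : (FreeGroup.lift (gS g hM c e)).comp (FreeGroup.map iM) =
        J.comp ((MonoidHom.inr _ _).comp (FreeGroup.lift (MM.machG hM c FreeGroup.of))) := by
      ext a
      simp [hJM]
    exact DFunLike.congr_fun this z
  have hs : ∀ q ∈ Q0 g hM c, gS g hM c e is * J q = J q * gS g hM c e is := by
    intro q hq
    have h1 : (hdR g hM c).of q ∈ (hdR g hM c).gen (Q0 g hM c) {false} :=
      Subgroup.subset_closure (Or.inl ⟨q, hq, rfl⟩)
    have h2 := (hdS g hM c e).conj () ⟨_, h1⟩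
    have h3 := he.1 ⟨_, h1⟩ q hq rfl
    have h4 : (gS g hM c e is)⁻¹ * J q * gS g hM c e is = J q :=
      h2.trans (congrArg (hdS g hM c e).of h3)
    conv_lhs => rw [← h4]
    group
  have key : FW (gS g hM c e) fun _ _ x => ∀ w, FreeGroup.lift g w = 1 →
      FreeGroup.lift (x ∘ iG) w = 1 := by
    have f1 := FW.all_set hr₁ fun z hz => FW.eq (h := gS g hM c e) (FreeGroup.map iM z) 1 (by
      have : z ∈ (FreeGroup.lift (MM.machG hM c FreeGroup.of)).ker :=
        hker ▸ Subgroup.subset_normalClosure hz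
      rw [hJM', MonoidHom.mem_ker.1 this, map_one]
      exact map_one J)
    have f2 := FW.all fun a : AD k => FW.all fun b : M.AM => FW.eq (h := gS g hM c e)
      (FreeGroup.of (iD a) * FreeGroup.of (iM b)) (FreeGroup.of (iM b) * FreeGroup.of (iD a)) (by
        simp only [map_mul, FreeGroup.lift_apply_of, hJD, hJM]
        rw [← map_mul, ← map_mul]
        simp)
    have f3 := FW.all fun y : Fin k => FW.all fun y' : Fin k => FW.eq (h := gS g hM c e)
      (FreeGroup.of (iG y) * FreeGroup.of (im y')) (FreeGroup.of (im y') * FreeGroup.of (iG y)) (by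
        simp only [map_mul, FreeGroup.lift_apply_of, iG, im, hJD]
        rw [← map_mul, ← map_mul]
        congr 1
        refine Prod.ext ?_ rfl
        change (hdD g).of _ * (hdD g).of _ = (hdD g).of _ * (hdD g).of _
        rw [← map_mul, ← map_mul]
        simp [prodGens])
    have f4 := FW.all fun y : Fin k => FW.eq (h := gS g hM c e)
      ((FreeGroup.of id')⁻¹ * FreeGroup.of (im y) * FreeGroup.of id')
      (FreeGroup.of (iG y) * FreeGroup.of (im y)) (by
        simp only [map_mul, map_inv, FreeGroup.lift_apply_of, iG, im, id', hJD]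
        rw [← map_inv, ← map_mul, ← map_mul, ← map_mul]
        congr 1
        refine Prod.ext ?_ (by simp)
        refine (conj_D g (FreeGroup.of y)).trans ?_
        change _ = (hdD g).of _ * (hdD g).of _
        rw [← map_mul]
        simp [prodGens])
    have f5 := FW.all fun b : Bool => FW.all fun a : M.A1 => FW.eq (h := gS g hM c e)
      ((FreeGroup.of (ir b))⁻¹ * FreeGroup.of (iM (M.incA a)) * FreeGroup.of (ir b))
      (pG M (FreeGroup.map im) (FreeGroup.of id') b (M.f1G FreeGroup.of a) *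
        FreeGroup.of (iM (M.incA a))) (by
        have e1 : (FreeGroup.lift (gS g hM c e)).comp (FreeGroup.map im) =
            (J.comp (MonoidHom.inl _ _)).comp (fD g) := by
          ext y
          simp only [MonoidHom.comp_apply, FreeGroup.map.of, FreeGroup.lift_apply_of]
          rfl
        simp only [map_mul, map_inv, FreeGroup.lift_apply_of, map_pG, e1, hJM]
        rw [show gS g hM c e id' = (J.comp (MonoidHom.inl _ _)) ((hdD g).st ()) from rfl,
          ← map_pG, ← piD_eq, ← MM.incM_f1G]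
        have e2 := congrArg (hdS g hM c e).of (conj_R g hM c b (M.f1G FreeGroup.of a))
        rw [map_mul, map_mul, map_inv] at e2
        refine e2.trans ?_
        rw [MonoidHom.comp_apply, ← map_mul]
        simp [J])
    have f6 := FW.eq (h := gS g hM c e)
      ((FreeGroup.of is)⁻¹ * FreeGroup.of (ir false) * FreeGroup.of is) (FreeGroup.of (ir true)) (by
        simp only [map_mul, map_inv, FreeGroup.lift_apply_of]
        have h1 : (hdR g hM c).st false ∈ (hdR g hM c).gen (Q0 g hM c) {false} :=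
          Subgroup.subset_closure (Or.inr ⟨false, rfl, rfl⟩)
        exact ((hdS g hM c e).conj () ⟨_, h1⟩).trans
          (congrArg (hdS g hM c e).of (he.2 ⟨_, h1⟩ rfl)))
    have f7 := FW.eq (h := gS g hM c e) (FreeGroup.of is * FreeGroup.of id')
      (FreeGroup.of id' * FreeGroup.of is) (by
        simp only [map_mul, FreeGroup.lift_apply_of, id', hJD]
        exact hs _ ((mem_Q0 g hM c).2 (Subgroup.one_mem _)))
    have f8 := FW.all_set (List.finite_toSet M.bW) fun w hw => FW.eq (h := gS g hM c e)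
      (FreeGroup.of is * FreeGroup.map iM (FreeGroup.mk w))
      (FreeGroup.map iM (FreeGroup.mk w) * FreeGroup.of is) (by
        simp only [map_mul, FreeGroup.lift_apply_of, hJM']
        refine hs _ ((mem_Q0 g hM c).2 ?_)
        rw [MM.B_eq]
        exact Subgroup.subset_closure ⟨w, hw, rfl⟩)
    refine (f1.and (f2.and (f3.and (f4.and (f5.and (f6.and (f7.and f8))))))).mono ?_
    rintro Λ _ x ⟨a1, a2, a3, a4, a5, a6, a7, a8⟩
    obtain ⟨μ, hμ⟩ := UP.lift gM ((FreeGroup.lift x).comp (FreeGroup.map iM)) (by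
      rw [hker]
      refine Subgroup.normalClosure_le_normal fun z hz => ?_
      simpa using a1 z hz)
    have hμ' : ∀ a, μ (MM.machG hM c FreeGroup.of a) = x (iM a) := fun a => by
      simpa using hμ (FreeGroup.of a)
    have e1 : (FreeGroup.lift x).comp (FreeGroup.map im) = FreeGroup.lift (x ∘ im) := by
      ext y
      simp
    simp only [map_mul, map_inv, FreeGroup.lift_apply_of, map_pG, e1] at a2 a3 a4 a5 a6 a7 a8
    refine hig1_core g hM c h μ (x ∘ iG) (x ∘ im) (x id') (x is) (x ∘ ir) (fun y a => ?_)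
      (fun a => ?_) a3 a4 (fun b a => ?_) a6 a7 fun w hw => ?_
    · rw [hμ']
      exact a2 _ a
    · rw [hμ']
      exact a2 _ a
    · rw [hμ']
      exact a5 b a
    · rw [wev, hμ]
      exact a8 w hw
  obtain ⟨r', h1, h2, h3⟩ := key
  refine (uS.drop r' h1 (fun _ => h2) ?_).fp_empty ()
  rintro _ _ rfl n hn
  have e1 : FreeGroup.lift (fun a : AS M => (QuotientGroup.mk (FreeGroup.of a) :
      FreeGroup (AS M) ⧸ Subgroup.normalClosure r')) = QuotientGroup.mk' _ := by
    ext a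
    simp
  have h4 := h3 (FreeGroup (AS M) ⧸ Subgroup.normalClosure r')
    (fun a => QuotientGroup.mk (FreeGroup.of a)) (fun z hz => by
      rw [e1]
      exact (QuotientGroup.eq_one_iff _).2 (Subgroup.subset_normalClosure hz)) n hn
  rw [← QuotientGroup.eq_one_iff, ← h4]
  have e2 : (QuotientGroup.mk' (Subgroup.normalClosure r')).comp (FreeGroup.map iG) =
      FreeGroup.lift ((fun a => QuotientGroup.mk (FreeGroup.of a)) ∘ iG) := by
    ext y
    simp
  exact DFunLike.congr_fun e2 n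

end Crest.Agent.R185.Hig
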