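import Crest.Agent.R185.MMNum
import Crest.Agent.R185.RE

/-!
# R185 TASK MMEx: existence of a good modular machine
-/

set_option autoImplicit false

namespace Crest.Agent.R185

namespace MMEx

variable {k : ℕ}

/-- digits: letters and `#` -/
abbrev Dg (k : ℕ) : Type := Option (Fin k × Bool)

/-- number of digits -/
def nD (k : ℕ) : ℕ := Fintype.card (Dg k)

/-- value of a digit -/
noncomputable def dv (d : Dg k) : ℕ := (Fintype.equivFin (Dg k) d : ℕ) + 1

theorem dv_pos (d : Dg k) : 1 ≤ dv d := Nat.le_add_left _ _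

theorem dv_le (d : Dg k) : dv d ≤ nD k := (Fintype.equivFin (Dg k) d).2

theorem dv_inj {d d' : Dg k} (h : dv d = dv d') : d = d' :=
  (Fintype.equivFin (Dg k)).injective (Fin.ext (Nat.succ_injective h))

theorem dv_lt (d : Dg k) : dv d < 2 ^ nD k := (dv_le d).trans_lt Nat.lt_two_pow_self

/-- the number on the input tape after the digits `ds` have been played -/
noncomputable def code (n : ℕ) (ds : List (Dg k)) : ℕ := ds.foldl (fun n d => 2 ^ nD k * n + dv d) n

theorem code_pos {n : ℕ} (hn : 1 ≤ n) (ds : List (Dg k)) : 1 ≤ code n ds := by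
  induction ds generalizing n with
  | nil => exact hn
  | cons d ds ih => exact ih ((dv_pos d).trans (Nat.le_add_left _ _))

theorem code_concat (n : ℕ) (ds : List (Dg k)) (d : Dg k) :
    code n (ds ++ [d]) = 2 ^ nD k * code n ds + dv d := by
  simp [code]

theorem code_inj {ds ds' : List (Dg k)} (h : code 1 ds = code 1 ds') : ds = ds' := by
  have h2 : ∀ (ds : List (Dg k)) (d : Dg k), code 1 (ds ++ [d]) ≠ code 1 ([] : List (Dg k)) :=
    fun ds d h => by
      rw [code_concat] at h
      have h1 := Nat.mul_pos (Nat.two_pow_pos (nD k)) (code_pos le_rfl ds)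
      have h3 := dv_pos d
      change _ = 1 at h
      omega
  induction ds using List.reverseRecOn generalizing ds' with
  | nil =>
    induction ds' using List.reverseRecOn with
    | nil => rfl
    | append_singleton ds' d' _ => exact absurd h.symm (h2 _ _)
  | append_singleton ds d ih =>
    induction ds' using List.reverseRecOn with
    | nil => exact absurd h (h2 _ _)
    | append_singleton ds' d' _ =>
      rw [code_concat, code_concat] at h
      have h3 := congrArg (· % 2 ^ nD k) h
      simp only [Nat.mul_add_mod, Nat.mod_eq_of_lt (dv_lt _)] at h3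
      rw [h3, Nat.add_right_cancel_iff, Nat.mul_left_cancel_iff (Nat.two_pow_pos _)] at h
      rw [ih h, dv_inj h3]

theorem primrec_code : Primrec (code 1 : List (Dg k) → ℕ) :=
  Primrec.list_foldl (f := fun ds : List (Dg k) => ds) (g := fun _ => 1)
    (h := fun _ p => 2 ^ nD k * p.1 + dv p.2) Primrec.id (Primrec.const 1)
    (Primrec.nat_add.comp (Primrec.nat_mul.comp (Primrec.const _) (Primrec.fst.comp Primrec.snd))
      ((Primrec.dom_finite dv).comp (Primrec.snd.comp Primrec.snd))).to₂

/-- the script of a list of words -/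
def script (ws : List (Wd (Fin k))) : List (Dg k) :=
  ws.flatMap fun u => u.reverse.map some ++ [none]

theorem primrec_script : Primrec (script : List (Wd (Fin k)) → List (Dg k)) :=
  Primrec.list_flatMap Primrec.id (Primrec.list_append.comp
    (Primrec.list_map (Primrec.list_reverse.comp Primrec.snd)
      (Primrec.option_some.comp Primrec.snd).to₂) (Primrec.const _)).to₂

section run

variable {K : Type} [Group K] (κ : Fin k → K)

/-- the tests performed while playing a script -/
def Run : List (Dg k) → K → Prop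
  | [], h => h = 1
  | d :: ds, h => (d = none → h = 1) ∧ Run ds (h * wev κ (winv d.toList))

theorem run_map (v : Wd (Fin k)) (ds : List (Dg k)) (h : K) :
    Run κ (v.map some ++ ds) h ↔ Run κ ds (h * (wev κ v.reverse)⁻¹) := by
  induction v generalizing h with
  | nil => simp
  | cons d v ih => simp [Run, ih, mul_assoc]

theorem run_cons (w : Wd (Fin k)) (ws : List (Wd (Fin k))) (h : K) :
    Run κ (script (w :: ws)) h ↔ h = wev κ w ∧ Run κ (script ws) 1 := by
  have e : script (w :: ws) = w.reverse.map some ++ none :: script ws := by simp [script]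
  rw [e, run_map, List.reverse_reverse, Run, ← mul_inv_eq_one (a := h)]
  simp only [true_imp_iff, Option.toList_none, wev_winv, wev_nil, inv_one, mul_one]
  exact and_congr_right fun h1 => by rw [h1]

theorem run_script (ws : List (Wd (Fin k))) :
    Run κ (script ws) 1 ↔ ∀ u ∈ ws, wev κ u = 1 := by
  induction ws with
  | nil => simp [script, Run]
  | cons w ws ih => rw [run_cons, ih, List.forall_mem_cons, eq_comm]

end run

theorem exists_push {enc : ℕ → ℕ → ℤ} {dig : Bool → ℤ}
    (h : ∀ n c (β : Bool), 1 ≤ n → enc (2 * n + β.toNat) c = dig β + 5 * enc n c) (β : ℕ) :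
    ∀ D < 2 ^ β, ∃ A : ℤ, ∀ n c, 1 ≤ n → enc (2 ^ β * n + D) c = A + 5 ^ β * enc n c := by
  induction β with
  | zero => exact fun D hD => ⟨0, fun n c _ => by simp [Nat.lt_one_iff.1 hD]⟩
  | succ β ih =>
    intro D hD
    obtain ⟨A, hA⟩ := ih (D / 2) (by omega)
    refine ⟨dig D.bodd + 5 * A, fun n c hn => ?_⟩
    have e : 2 ^ (β + 1) * n + D = 2 * (2 ^ β * n + D / 2) + D.bodd.toNat := by
      have := Nat.bodd_add_div2 D
      rw [Nat.div2_val] at this
      rw [pow_succ]
      linarith
    rw [e, h _ _ _ ((Nat.mul_pos (Nat.two_pow_pos β) hn).trans_le (Nat.le_add_right _ _)), hA n c hn]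
    ring

theorem size_lt {x y : ℕ} (h1 : 1 ≤ y) (h2 : 2 * x ≤ y) : x.size < y.size := by
  rw [Nat.lt_size]
  rcases hs : x.size with _ | s
  · exact h1
  · have : 2 ^ s ≤ x := Nat.lt_size.1 (by omega)
    rw [pow_succ]
    omega

theorem size_le_add {x y b : ℕ} (h : y < b * (x + 1)) : y.size ≤ x.size + b := by
  rw [Nat.size_le, pow_add, mul_comm]
  exact h.trans_le (Nat.mul_le_mul Nat.lt_two_pow_self.le (Nat.lt_size_self x))

theorem computable_fin {Y σ : Type} [Primcodable Y] [Finite Y] [Primcodable σ] [Inhabited σ]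
    {f : ℕ → Y → σ} (hf : ∀ y, Computable fun c => f c y) :
    Computable fun p : ℕ × Y => f p.1 p.2 := by
  obtain ⟨n, ⟨e⟩⟩ := Finite.exists_equiv_fin Y
  have h1 : Computable fun c => List.ofFn fun i => f c (e.symm i) :=
    Computable.list_ofFn fun i => hf (e.symm i)
  have h2 : Computable fun y : Y => (e y : ℕ) := (Primrec.dom_finite _).to_comp
  refine (Computable.option_getD (Computable.list_getElem?.comp (h1.comp Computable.fst)
    (h2.comp Computable.snd)) (Computable.const default)).of_eq fun p => ?_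
  simp

variable (M : NM) (enc : ℕ → ℕ → ℤ) (A : Dg k → ℤ)

/-- states -/
abbrev Q : Type := Bool ⊕ Unit ⊕ Fin M.nQ

/-- rules -/
abbrev R (k : ℕ) : Type := Bool ⊕ Dg k ⊕ Unit ⊕ Fin M.nR

/-- vectors: script, clock, coordinates of `M` -/
def vc {j : ℕ} (s t : ℤ) (x : Fin j → ℤ) : Fin (j + 2) → ℤ := Fin.cons s (Fin.cons t x)

theorem vc_add {j : ℕ} (s t s' t' : ℤ) (x x' : Fin j → ℤ) :
    vc s t x + vc s' t' x' = vc (s + s') (t + t') (x + x') := by
  funext l
  refine Fin.cases rfl (fun l => Fin.cases rfl (fun _ => rfl) l) l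

theorem vc_mul {j : ℕ} (s t s' t' : ℤ) (x x' : Fin j → ℤ) :
    vc s t x * vc s' t' x' = vc (s * s') (t * t') (x * x') := by
  funext l
  refine Fin.cases rfl (fun l => Fin.cases rfl (fun _ => rfl) l) l

theorem vc_inj {j : ℕ} {s t s' t' : ℤ} {x x' : Fin j → ℤ} :
    vc s t x = vc s' t' x' ↔ s = s' ∧ t = t' ∧ x = x' := by
  simp only [vc, Fin.cons_inj]

theorem exists_vc {j : ℕ} (ξ : Fin (j + 2) → ℤ) : ∃ s t x, ξ = vc s t x :=
  ⟨ξ 0, ξ 1, fun l => ξ l.succ.succ, by
    funext l
    refine Fin.cases rfl (fun l => Fin.cases rfl (fun _ => rfl) l) l⟩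

theorem vc_zero {j : ℕ} : vc 0 0 (0 : Fin j → ℤ) = 0 := by
  funext l
  refine Fin.cases rfl (fun l => Fin.cases rfl (fun _ => rfl) l) l

/-- multiplier for pushing a digit -/
def m5 (k : ℕ) : Fin M.j → ℤ := fun l => if l = M.lin then 5 ^ nD k else 1

/-- source -/
def src : R M k → Q M
  | .inl F => .inl F
  | .inr (.inl _) => .inr (.inl ())
  | .inr (.inr (.inl _)) => .inr (.inl ())
  | .inr (.inr (.inr i)) => .inr (.inr (M.src i))

/-- target -/
def dst : R M k → Q M
  | .inl _ => .inr (.inl ())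
  | .inr (.inl _) => .inr (.inl ())
  | .inr (.inr (.inl _)) => .inr (.inr M.start)
  | .inr (.inr (.inr i)) => .inr (.inr (M.dst i))

/-- moduli -/
def mm : R M k → Fin (M.j + 2) → ℤ
  | .inl _ => vc 1 3 0
  | .inr (.inl _) => vc (nD k + 2) 3 1
  | .inr (.inr (.inl _)) => vc 0 3 1
  | .inr (.inr (.inr i)) => vc 1 3 (M.m i)

/-- new moduli -/
def mm' : R M k → Fin (M.j + 2) → ℤ
  | .inl _ => vc 1 1 0
  | .inr (.inl _) => vc 1 1 (m5 M k)
  | .inr (.inr (.inl _)) => vc 0 1 1
  | .inr (.inr (.inr i)) => vc 1 1 (M.m' i)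

/-- residues -/
noncomputable def aa : R M k → Fin (M.j + 2) → ℤ
  | .inl _ => vc 0 1 0
  | .inr (.inl d) => vc (dv d) 1 0
  | .inr (.inr (.inl _)) => vc 0 1 0
  | .inr (.inr (.inr i)) => vc 0 1 (M.a i)

/-- new residues -/
def aa' (c : ℕ) : R M k → Fin (M.j + 2) → ℤ
  | .inl F => vc 0 0 (Pi.single M.lin (enc 1 (Nat.pair c F.toNat)))
  | .inr (.inl d) => vc 0 0 (Pi.single M.lin (A d))
  | .inr (.inr (.inl _)) => vc 0 0 0
  | .inr (.inr (.inr i)) => vc 0 0 (M.a' i)

/-- tests -/
def tst : R M k → Bool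
  | .inr (.inl none) => true
  | _ => false

/-- letters -/
def ml : R M k → Option (Fin k × Bool)
  | .inr (.inl d) => d
  | _ => none

/-- numbering of the states -/
noncomputable def eQ : Q M ≃ Fin (Fintype.card (Q M)) := Fintype.equivFin _

/-- numbering of the rules -/
noncomputable def eR (k : ℕ) : Fin (Fintype.card (R M k)) ≃ R M k := (Fintype.equivFin _).symm

/-- the machine -/
noncomputable def mach : MM k where
  nQ := Fintype.card (Q M)
  nR := Fintype.card (R M k)
  j := M.j + 2
  src i := eQ M (src M (eR M k i))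
  dst i := eQ M (dst M (eR M k i))
  m i := mm M (eR M k i)
  m' i := mm' M (eR M k i)
  a i := aa M (eR M k i)
  a' c i := aa' M enc A c (eR M k i)
  test i := tst M (eR M k i)
  mul i := ml M (eR M k i)
  acc := eQ M (.inr (.inr M.acc))
  inp F := eQ M (.inl F)
  l₀ := 0
  wt := nD k + 3

/-- the effect of a rule on script and clock -/
theorem nstep_cases {c : ℕ} {r : R M k} {ξ ξ' n : Fin (M.j + 2) → ℤ}
    (h : ξ = aa M r + mm M r * n) (h' : ξ' = aa' M enc A c r + mm' M r * n) :
    ξ 1 = 1 + 3 * ξ' 1 ∧ ((ξ 0 = ξ' 0 ∧ ml M r = none) ∨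
      ∃ d : Dg k, ml M r = d ∧ ξ 0 = dv d + (nD k + 2) * ξ' 0) := by
  obtain ⟨s, t, x, rfl⟩ := exists_vc n
  subst h h'
  rcases r with F | d | _ | i <;> simp only [aa, mm, aa', mm', vc_mul, vc_add] <;>
    simp [vc, ml]

section sem

variable {K : Type} [Group K] (κ : Fin k → K) (c : ℕ)

/-- configurations: state, register, script, clock, vector -/
abbrev Cf (K : Type) : Type := Q M × K × ℤ × ℤ × (Fin M.j → ℤ)

/-- the configuration of the machine -/
noncomputable def cf (u : Cf M K) : (mach M enc A).Cfg K :=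
  (eQ M u.1, (u.2.1, Multiplicative.ofAdd (vc u.2.2.1 u.2.2.2.1 u.2.2.2.2)))

/-- the steps -/
inductive AS : Cf M K → Cf M K → Prop
  | inp (F h s t) : AS (.inl F, h, s, 1 + 3 * t, 0)
      (.inr (.inl ()), h, s, t, Pi.single M.lin (enc 1 (Nat.pair c F.toNat)))
  | dig (d : Dg k) (h s t x) (hd : d = none → h = 1) :
      AS (.inr (.inl ()), h, dv d + (nD k + 2) * s, 1 + 3 * t, x)
        (.inr (.inl ()), h * wev κ (winv d.toList), s, t, Pi.single M.lin (A d) + m5 M k * x)
  | fin (h t x) : AS (.inr (.inl ()), h, 0, 1 + 3 * t, x) (.inr (.inr M.start), h, 0, t, x)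
  | run (q q' x x' h s t) (h0 : M.Step (q, x) (q', x')) :
      AS (.inr (.inr q), h, s, 1 + 3 * t, x) (.inr (.inr q'), h, s, t, x')

omit [Group K] in
theorem cf_surj (z : (mach M enc A).Cfg K) : ∃ u, z = cf M enc A u := by
  obtain ⟨q, h, ξ⟩ := z
  obtain ⟨s, t, x, e⟩ := exists_vc ξ.toAdd
  exact ⟨((eQ M).symm q, h, s, t, x), Prod.ext ((eQ M).apply_symm_apply q).symm
    (Prod.ext rfl (congrArg Multiplicative.ofAdd e))⟩

theorem step_iff (u u' : Cf M K) :
    (mach M enc A).Step c κ (cf M enc A u) (cf M enc A u') ↔ AS M enc A κ c u u' := by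
  have e : (mach M enc A).Step c κ (cf M enc A u) (cf M enc A u') ↔ ∃ r : R M k,
      u.1 = src M r ∧ u'.1 = dst M r ∧ (tst M r = true → u.2.1 = 1) ∧
      u'.2.1 = u.2.1 * wev κ (winv (ml M r).toList) ∧ ∃ n,
        vc u.2.2.1 u.2.2.2.1 u.2.2.2.2 = aa M r + mm M r * n ∧
        vc u'.2.2.1 u'.2.2.2.1 u'.2.2.2.2 = aa' M enc A c r + mm' M r * n := by
    exact (eR M k).exists_congr fun i => and_congr (eQ M).apply_eq_iff_eq
      (and_congr (eQ M).apply_eq_iff_eq Iff.rfl)
  rw [e]
  constructor
  · obtain ⟨q, h, s, t, x⟩ := u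
    obtain ⟨q', h', s', t', x'⟩ := u'
    rintro ⟨r, h1, h2, h3, h4, n, h5, h6⟩
    obtain ⟨n1, n2, n3, rfl⟩ := exists_vc n
    rcases r with F | d | _ | i <;>
      simp only [src, dst, aa, mm, aa', mm', ml, vc_mul, vc_add, vc_inj, zero_add, one_mul, zero_mul,
        add_zero, Option.toList_none, wev_winv, wev_nil, inv_one, mul_one] at h1 h2 h4 h5 h6 <;>
      obtain ⟨rfl, rfl, rfl⟩ := h5 <;> obtain ⟨rfl, rfl, rfl⟩ := h6 <;> subst h1 h2 h4
    · exact AS.inp _ _ _ _
    · rw [← wev_winv]
      exact AS.dig _ _ _ _ _ fun hd => h3 (by rw [hd]; rfl)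
    · exact AS.fin _ _ _
    · exact AS.run _ _ _ _ _ _ _ ⟨i, n3, rfl, rfl, rfl, rfl⟩
  · intro h
    cases h with
    | inp F h s t =>
      exact ⟨.inl F, rfl, rfl, nofun, by simp [ml], vc s t 0, by simp [aa, mm, vc_mul, vc_add],
        by simp [aa', mm', vc_mul, vc_add]⟩
    | dig d h s t x hd =>
      exact ⟨.inr (.inl d), rfl, rfl, fun h1 => hd (by cases d; exacts [rfl, nomatch h1]), rfl,
        vc s t x, by simp [aa, mm, vc_mul, vc_add], by simp [aa', mm', vc_mul, vc_add]⟩
    | fin h t x =>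
      exact ⟨.inr (.inr (.inl ())), rfl, rfl, nofun, by simp [ml], vc 0 t x,
        by simp [aa, mm, vc_mul, vc_add], by simp [aa', mm', vc_mul, vc_add]⟩
    | run q q' x x' h s t h0 =>
      obtain ⟨i, n, h1, h2, h3, h4⟩ := h0
      exact ⟨.inr (.inr (.inr i)), congrArg _ (congrArg _ h1), congrArg _ (congrArg _ h2), nofun,
        by simp [ml], vc s t n, by simpa [aa, mm, vc_mul, vc_add, vc_inj] using h3,
        by simpa [aa', mm', vc_mul, vc_add, vc_inj] using h4⟩

/-- acceptance -/
def AccA (u : Cf M K) : Prop :=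
  Relation.ReflTransGen (AS M enc A κ c) u (.inr (.inr M.acc), 1, 0, 0, 0)

theorem cf_acc : cf M enc A ((.inr (.inr M.acc), 1, 0, 0, 0) : Cf M K) =
    ((mach M enc A).acc, 1) := by
  simp only [cf, vc_zero]
  rfl

theorem acc_of {u : Cf M K} (h : AccA M enc A κ c u) : cf M enc A u ∈ (mach M enc A).Acc c κ := by
  have := Relation.ReflTransGen.lift (cf M enc A)
    (fun a b hab => (step_iff M enc A κ c a b).2 hab) _ _ h
  rwa [Function.onFun, cf_acc] at this

variable (U : ℕ × ℕ → Prop)

/-- what acceptance implies -/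
def Sem : Cf M K → Prop
  | (.inl F, h, _) => ∃ ds, Run κ ds h ∧ U (code 1 ds, Nat.pair c F.toNat)
  | (.inr (.inl _), h, _, _, x) => ∀ n c', 1 ≤ n → x = Pi.single M.lin (enc n c') →
      ∃ ds, Run κ ds h ∧ U (code n ds, c')
  | (.inr (.inr q), h, _, _, x) => h = 1 ∧ Relation.ReflTransGen M.Step (q, x) (M.acc, 0)

variable {M enc A U}

theorem push_single (hA : ∀ (d : Dg k) n c, 1 ≤ n →
    enc (2 ^ nD k * n + dv d) c = A d + 5 ^ nD k * enc n c) (d : Dg k) {n : ℕ} (c : ℕ)
    (hn : 1 ≤ n) : Pi.single M.lin (A d) + m5 M k * Pi.single M.lin (enc n c) =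
      Pi.single M.lin (enc (2 ^ nD k * n + dv d) c) := by
  funext l
  by_cases hl : l = M.lin
  · simp [hl, m5, hA d n c hn]
  · simp [hl, m5]

theorem sem_of (hA : ∀ (d : Dg k) n c, 1 ≤ n →
    enc (2 ^ nD k * n + dv d) c = A d + 5 ^ nD k * enc n c)
    (hU : ∀ n c, Relation.ReflTransGen M.Step (M.start, Pi.single M.lin (enc n c)) (M.acc, 0) ↔
      U (n, c)) {z : (mach M enc A).Cfg K} (hz : z ∈ (mach M enc A).Acc c κ) :
    ∀ u, z = cf M enc A u → Sem M enc κ c U u := by
  have inj : ∀ u u' : Cf M K, cf M enc A u = cf M enc A u' → u = u' := by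
    rintro ⟨q, h, s, t, x⟩ ⟨q', h', s', t', x'⟩ e
    obtain rfl : q = q' := (eQ M).injective (congrArg Prod.fst e)
    obtain rfl : h = h' := congrArg (fun z => z.2.1) e
    obtain ⟨rfl, rfl, rfl⟩ := vc_inj.1 (congrArg (fun z => z.2.2.toAdd) e)
    rfl
  induction hz using Relation.ReflTransGen.head_induction_on with
  | refl =>
    intro u hu
    rw [← cf_acc] at hu
    rw [← inj _ _ hu]
    exact ⟨rfl, Relation.ReflTransGen.refl⟩
  | @head z z' h1 _ ih =>
    rintro u rfl
    obtain ⟨u', rfl⟩ := cf_surj M enc A z'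
    have h2 := ih u' rfl
    cases (step_iff M enc A κ c u u').1 h1 with
    | inp F h s t => exact h2 1 _ le_rfl rfl
    | dig d h s t x hd =>
      rintro n c' hn rfl
      obtain ⟨ds, h3, h4⟩ := h2 _ c' ((dv_pos d).trans (Nat.le_add_left _ _))
        (push_single hA d c' hn)
      exact ⟨d :: ds, ⟨hd, h3⟩, h4⟩
    | fin h t x =>
      rintro n c' _ rfl
      exact ⟨[], h2.1, (hU n c').1 h2.2⟩
    | run q q' x x' h s t h0 => exact ⟨h2.1, h2.2.head h0⟩

theorem accA_run {z : Fin M.nQ × (Fin M.j → ℤ)} (h : Relation.ReflTransGen M.Step z (M.acc, 0)) :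
    ∃ t, AccA M enc A κ c (.inr (.inr z.1), 1, 0, t, z.2) := by
  induction h using Relation.ReflTransGen.head_induction_on with
  | refl => exact ⟨0, Relation.ReflTransGen.refl⟩
  | head h1 _ ih =>
    obtain ⟨t, ht⟩ := ih
    exact ⟨_, ht.head (AS.run _ _ _ _ _ _ _ h1)⟩

theorem accA_play (hA : ∀ (d : Dg k) n c, 1 ≤ n →
    enc (2 ^ nD k * n + dv d) c = A d + 5 ^ nD k * enc n c)
    (hU : ∀ n c, Relation.ReflTransGen M.Step (M.start, Pi.single M.lin (enc n c)) (M.acc, 0) ↔
      U (n, c)) (c' : ℕ) (ds : List (Dg k)) : ∀ (n : ℕ) (h : K), 1 ≤ n → Run κ ds h →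
      U (code n ds, c') →
      ∃ s t, AccA M enc A κ c (.inr (.inl ()), h, s, t, Pi.single M.lin (enc n c')) := by
  induction ds with
  | nil =>
    rintro n h _ (rfl : h = 1) h2
    obtain ⟨t, ht⟩ := accA_run (enc := enc) (A := A) κ c ((hU n c').2 h2)
    exact ⟨0, _, ht.head (AS.fin _ _ _)⟩
  | cons d ds ih =>
    rintro n h hn ⟨h1, h2⟩ h3
    obtain ⟨s, t, ht⟩ := ih _ _ ((dv_pos d).trans (Nat.le_add_left _ _)) h2 h3
    rw [← push_single hA d c' hn] at ht
    exact ⟨_, _, ht.head (AS.dig d h s t _ h1)⟩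

theorem accepts_iff (hA : ∀ (d : Dg k) n c, 1 ≤ n →
    enc (2 ^ nD k * n + dv d) c = A d + 5 ^ nD k * enc n c)
    (hU : ∀ n c, Relation.ReflTransGen M.Step (M.start, Pi.single M.lin (enc n c)) (M.acc, 0) ↔
      U (n, c)) (F : Bool) (h : K) : (mach M enc A).Accepts c κ F h ↔
      ∃ ds, Run κ ds h ∧ U (code 1 ds, Nat.pair c F.toNat) := by
  constructor
  · rintro ⟨ξ, hξ⟩
    obtain ⟨s, t, x, e⟩ := exists_vc ξ.toAdd
    exact sem_of κ c hA hU hξ (.inl F, h, s, t, x) (by simp only [cf, ← e]; rfl)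
  · rintro ⟨ds, h1, h2⟩
    obtain ⟨s, t, ht⟩ := accA_play κ c hA hU _ ds 1 h le_rfl h1 h2
    exact ⟨_, acc_of M enc A κ c (ht.head (AS.inp F h s t))⟩

end sem

/-- the universal predicate -/
def U (p : ℕ × ℕ) : Prop :=
  (Nat.Partrec.Code.eval (Denumerable.ofNat _ p.2.unpair.1) (Nat.pair p.2 p.1)).Dom

theorem re_U : REPred U :=
  Partrec.dom_re (Nat.Partrec.Code.eval_part.comp ((Computable.ofNat _).comp
    (Computable.fst.comp (Computable.unpair.comp Computable.snd)))
    (Primrec₂.natPair.comp Primrec.snd Primrec.fst).to_comp)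

theorem exists_quine {W : ℕ × Bool × Wd (Fin k) × List (Wd (Fin k)) → Prop} (hW : REPred W) :
    ∃ c : ℕ, ∀ (F : Bool) (n : ℕ), U (n, Nat.pair c F.toNat) ↔
      ∃ w ws, code 1 (script (w :: ws)) = n ∧ W (c, F, w, ws) := by
  have h1 : REPred fun m : ℕ => ∃ y : Wd (Fin k) × List (Wd (Fin k)),
      code 1 (script (y.1 :: y.2)) = m.unpair.2 ∧
        W (m.unpair.1.unpair.1, decide (m.unpair.1.unpair.2 = 1), y) := by
    have a1 : Primrec fun m : ℕ => m.unpair.1.unpair :=
      Primrec.unpair.comp (Primrec.fst.comp Primrec.unpair)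
    refine re_exists (p := fun q : ℕ × Wd (Fin k) × List (Wd (Fin k)) =>
      code 1 (script (q.2.1 :: q.2.2)) = q.1.unpair.2 ∧
        W (q.1.unpair.1.unpair.1, decide (q.1.unpair.1.unpair.2 = 1), q.2)) (re_and (re_eq ?_ ?_)
      (re_comp hW ?_))
    · exact (primrec_code.comp (primrec_script.comp (Primrec.list_cons.comp
        (Primrec.fst.comp Primrec.snd) (Primrec.snd.comp Primrec.snd)))).to_comp
    · exact (Primrec.snd.comp (Primrec.unpair.comp Primrec.fst)).to_comp
    · exact ((Primrec.fst.comp (a1.comp Primrec.fst)).pair (((Primrec.eq.comp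
        (Primrec.snd.comp (a1.comp Primrec.fst)) (Primrec.const 1)).decide).pair
          Primrec.snd)).to_comp
  obtain ⟨cd, hcd⟩ := Nat.Partrec.Code.exists_code.1 (Partrec.nat_iff.1
    (Partrec.map h1 (Computable.const (0 : ℕ)).to₂))
  refine ⟨Encodable.encode cd, fun F n => ?_⟩
  have e : decide (F.toNat = 1) = F := by cases F <;> rfl
  simp only [U, Nat.unpair_pair, Denumerable.ofNat_encode, hcd, Part.map_Dom, Part.assert, e,
    Part.some, exists_prop, and_true, Prod.exists]

end MMEx

open MMEx in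
/-- Construction.  Let `U (n, c')` be the r.e. predicate: `c' = pair c (F)`, and
`Nat.Partrec.Code.eval (ofNat c) (encode (c, F, n))` is defined (`Code.eval_part`); take the machine
`M₀`, `enc`, `dig` of `exists_NM` for `U`.  Coordinates: those of `M₀`, the script `l₀`, a clock.
*Every* rule acts on the clock by `3 n + 1 ↦ n` (this gives `term` with `μ = |clock|`; acceptance
needs the clock `(3^t - 1)/2` for the exact running time `t`, which is guessed in the input).
States: `inp true`, `inp false`, `play`, those of `M₀` (`acc` is that of `M₀`).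
* `inp F → play`: requires all coordinates of `M₀` to be `0` (`m = m' = 0`), writes
  `enc 1 (pair c F)` on `lin`; script unchanged (`m = m' = 1`, `a = a' = 0`).
* `play → play`, one rule for every digit `d ∈ [1, 2k+1]`, base `b = 2k+3`: script `d + b n ↦ n`;
  push the `β = b` bits of `d` (any fixed-length code) on `lin` (`m = 1`, `m' = 5^β`); for the `2k`
  letter digits `mul = some letter`; the digit `#` has `test = true`, `mul = none`.
* `play → start`: script `= 0` (`m = m' = 0`).   * the rules of `M₀` (script unchanged).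
A script is a list of digits; the register is multiplied on the right by the inverses of the
letters, so `w` has to be written backwards: the script of `(w, ws)` is
`rev w ++ # ++ rev u₁ ++ # ++ ⋯`.  The number `n` on `lin` is `1` followed by the codes of the
digits, so the digit list (hence `w, ws`) is a computable function of `n`.  At `acc` the register
must be `1`; a script whose last digit is not `#` is read as if a final `#` were present, and the
empty script as `w = []`.  Given `W`, let `W' (c, F, n) := n` is `1` followed by digit codes and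
`W (c, F, parse n)`; choose `c` with `eval (ofNat c) = ` the partial function with domain `W'`
(`Code.exists_code`).  Every `(w, ws)` is the parse of a script.
`lam_step`: for `n ≠ 0`, `|d + b n| ≥ 2 |n|` because `1 ≤ d ≤ b - 2`; a negative script never
reaches `0`.  It is convenient to work first with arbitrary finite types of states, rules and
coordinates and to transport along `Finite.equivFin`. -/
theorem exists_MM (k : ℕ) : ∃ M : MM k, M.Good := by
  obtain ⟨M, enc, dig, hM, hc, hd, hU⟩ := exists_NM re_U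
  choose A hA using fun d : Dg k => exists_push hd (nD k) (dv d) (dv_lt d)
  have habs : ∀ (d : Dg k) (n : ℤ), 1 ≤ (dv d + (nD k + 2) * n : ℤ).natAbs ∧
      2 * n.natAbs ≤ (dv d + (nD k + 2) * n : ℤ).natAbs ∧
      (dv d + (nD k + 2) * n : ℤ).natAbs < (nD k + 2) * (n.natAbs + 1) := fun d n => by
    have h1 := dv_pos d
    have h2 := dv_le d
    rcases Int.eq_nat_or_neg n with ⟨m, rfl | rfl⟩
    · have e : (dv d + (nD k + 2) * m : ℤ) = (dv d + (nD k + 2) * m : ℕ) := by push_cast; rfl
      rw [e, Int.natAbs_natCast, Int.natAbs_natCast]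
      refine ⟨by omega, by nlinarith, by nlinarith⟩
    · rw [Int.natAbs_neg, Int.natAbs_natCast]
      rcases m with _ | m
      · simp only [Nat.cast_zero, neg_zero, mul_zero, add_zero, Int.natAbs_natCast]
        omega
      · obtain ⟨r, hr⟩ := Nat.exists_eq_add_of_le h2
        have e : (dv d + (nD k + 2) * -((m + 1 : ℕ) : ℤ) : ℤ) =
            -((r + 2 + (nD k + 2) * m : ℕ) : ℤ) := by
          rw [hr]
          push_cast
          ring
        rw [e, Int.natAbs_neg, Int.natAbs_natCast]
        refine ⟨by omega, by nlinarith, by nlinarith⟩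
  refine ⟨mach M enc A, fun i l => ?_, fun i i' n n' h1 h2 => ?_, fun i h => ?_, fun i h => ?_,
    ⟨fun ξ => (ξ (1 : Fin (M.j + 2))).natAbs, fun c i ξ ξ' ⟨n, h, h'⟩ => ?_⟩,
    fun c i ξ ξ' ⟨n, h, h'⟩ => ?_, fun c i ξ ξ' ⟨n, h, h'⟩ => ?_, fun i n => ?_, ?_,
    fun W hW => ?_⟩
  · change mm M (eR M k i) l = 0 ↔ mm' M (eR M k i) l = 0
    have h0 : (nD k + 2 : ℤ) ≠ 0 := by positivity
    rcases eR M k i with F | d | _ | r <;>
      refine Fin.cases ?_ (fun l => Fin.cases ?_ (fun l => ?_) l) l <;>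
      simp [mm, mm', vc, m5, hM.zero, h0]
    split_ifs <;> simp
  · refine (eR M k).injective ?_
    have h3 : src M (eR M k i) = src M (eR M k i') := (eQ M).injective h1
    obtain ⟨s, t, x, rfl⟩ := exists_vc n
    obtain ⟨s', t', x', rfl⟩ := exists_vc n'
    change aa M (eR M k i) + mm M (eR M k i) * vc s t x =
      aa M (eR M k i') + mm M (eR M k i') * vc s' t' x' at h2
    generalize eR M k i = r at h2 h3 ⊢
    generalize eR M k i' = r' at h2 h3 ⊢
    rcases r with F | d | _ | r <;> rcases r' with F' | d' | _ | r' <;>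
      simp only [src, aa, mm, vc_mul, vc_add, vc_inj, Sum.inl.injEq, Sum.inr.injEq, reduceCtorEq,
        zero_mul, add_zero] at h2 h3 ⊢
    · exact h3
    · have h4 := congrArg (· % ((nD k : ℤ) + 2)) h2.1
      have h5 : ∀ d : Dg k, (dv d : ℤ) % ((nD k : ℤ) + 2) = dv d := fun d =>
        Int.emod_eq_of_lt (by positivity) (by have := dv_le d; omega)
      simp only [Int.add_mul_emod_self_left, h5, Nat.cast_inj] at h4
      exact dv_inj h4
    · have := (habs d s).1
      rw [h2.1] at this
      exact absurd this (by decide)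
    · have := (habs d' s').1
      rw [← h2.1] at this
      exact absurd this (by decide)
    · exact hM.det r r' x x' h3 h2.2.2
  · have h3 : src M (eR M k i) = .inr (.inr M.acc) := (eQ M).injective h
    generalize eR M k i = r at h3
    rcases r with F | d | _ | r <;> simp only [src, Sum.inr.injEq, reduceCtorEq] at h3
    exact hM.acc r h3
  · change tst M (eR M k i) = true at h
    change ml M (eR M k i) = none
    generalize eR M k i = r at h ⊢
    rcases r with F | (_ | d) | _ | r <;> first | rfl | exact nomatch h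
  · have := (nstep_cases M enc A h h').1
    change (ξ' (1 : Fin (M.j + 2))).natAbs < (ξ (1 : Fin (M.j + 2))).natAbs
    omega
  · change (ξ' (0 : Fin (M.j + 2))).natAbs.size + (winv (ml M (eR M k i)).toList).length ≤
      (ξ (0 : Fin (M.j + 2))).natAbs.size
    rcases (nstep_cases M enc A h h').2 with ⟨h1, h2⟩ | ⟨d, h2, h1⟩
    · simp [h1, h2, winv]
    · have h3 := size_lt (habs d (ξ' (0 : Fin (M.j + 2)))).1 (habs d _).2.1
      have h4 : (winv (ml M (eR M k i)).toList).length ≤ 1 := by
        simp [winv]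
      rw [h1]
      omega
  · change (ξ (0 : Fin (M.j + 2))).natAbs.size + 1 ≤ (ξ' (0 : Fin (M.j + 2))).natAbs.size + (nD k + 3)
    rcases (nstep_cases M enc A h h').2 with ⟨h1, -⟩ | ⟨d, -, h1⟩
    · rw [h1]
      omega
    · have h3 := size_le_add (habs d (ξ' (0 : Fin (M.j + 2)))).2.2
      rw [h1]
      omega
  · change (mm' M (eR M k i) 0 * n (0 : Fin (M.j + 2))).natAbs.size ≤
        (mm M (eR M k i) 0 * n (0 : Fin (M.j + 2))).natAbs.size + (nD k + 3) ∧
      (mm M (eR M k i) 0 * n (0 : Fin (M.j + 2))).natAbs.size ≤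
        (mm' M (eR M k i) 0 * n (0 : Fin (M.j + 2))).natAbs.size + (nD k + 3)
    generalize n (0 : Fin (M.j + 2)) = s
    rcases eR M k i with F | d | _ | r <;> simp only [mm, mm', vc, Fin.cons_zero, one_mul,
      Nat.le_add_right, and_self]
    have e : (((nD k : ℤ) + 2) * s).natAbs = (nD k + 2) * s.natAbs := by
      rw [Int.natAbs_mul]
      rfl
    have h1 : s.natAbs.size ≤ ((nD k + 2) * s.natAbs).size := Nat.size_le_size (Nat.le_mul_of_pos_left _ (by omega))
    have h2 := size_le_add (x := s.natAbs) (y := (nD k + 2) * s.natAbs) (b := nD k + 2)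
      (by nlinarith)
    rw [e]
    omega
  · refine computable_fin (f := fun c (y : Fin (mach M enc A).nR × Fin (mach M enc A).j) =>
      (mach M enc A).a' c y.1 y.2) fun y => ?_
    change Computable fun c => aa' M enc A c (eR M k y.1) y.2
    rcases eR M k y.1 with F | d | _ | r
    · have h1 : Computable fun c => enc 1 (Nat.pair c F.toNat) :=
        hc.comp (Primrec₂.natPair.comp Primrec.id (Primrec.const _)).to_comp
      refine Fin.cases (motive := fun l => Computable fun c => aa' M enc A c (.inl F) l)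
        (Computable.const 0) (fun l => Fin.cases (Computable.const 0) (fun l => ?_) l) y.2
      by_cases hl : l = M.lin
      · simpa [aa', vc, hl] using h1
      · simpa [aa', vc, hl] using Computable.const 0
    all_goals exact Computable.const _
  · obtain ⟨c, hc⟩ := exists_quine hW
    refine ⟨c, fun K _ κ F h => (accepts_iff κ c hA hU F h).trans ?_⟩
    simp only [hc]
    constructor
    · rintro ⟨ds, h1, w, ws, h2, h3⟩
      rw [← code_inj h2, run_cons, run_script] at h1
      exact ⟨w, ws, h1.1, h1.2, h3⟩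
    · rintro ⟨w, ws, h1, h2, h3⟩
      exact ⟨_, (run_cons κ w ws h).2 ⟨h1, (run_script κ ws).2 h2⟩, w, ws, rfl, h3⟩

end Crest.Agent.R185
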