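import Crest.Agent.R185.Hig1
import Crest.Agent.R185.MMEx
import Crest.Agent.R185.CmpL

/-!
# R185 TASK Hig2: Higman's and Clapham's embedding theorems, a universal group
-/

set_option autoImplicit false

namespace Crest.Agent.R185

/-- certificates without lower facts over r.e. equations define an r.e. predicate -/
theorem Cert.re {E α : Type} [Primcodable E] [Primcodable α] (c : ℕ) {Eq : E → Prop}
    (hE : REPred Eq) {J : Unit → α → Prop} {s : Unit → α → ℕ}
    (h : Cert (⟨fun _ => c, fun _ => Eq, fun _ _ => False, fun _ => 0⟩ : Ctx Unit E Unit) J s) :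
    REPred (J ()) := by
  obtain ⟨W, hW, hs, hc⟩ := h
  have h1 : REPred fun x : α × List E => W (c, x.1, x.2, []) :=
    re_comp hW ((Computable.const c).pair (Computable.fst.pair
      (Computable.snd.pair (Computable.const []))))
  have h2 : REPred fun x : α × List E => ∀ e ∈ x.2, Eq e :=
    re_forall_list (p := fun y : α × E => Eq y.2) (re_comp hE Computable.snd)
  refine (re_exists (re_and h1 h2)).of_eq fun a => ⟨?_, fun ha => ?_⟩
  · rintro ⟨es, a1, a2⟩
    exact hs () a es [] a1 a2 (by simp)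
  · obtain ⟨es, fs, a1, a2, a3⟩ := hc () a ha
    cases fs with
    | nil => exact ⟨es, a1, a2⟩
    | cons f fs => exact (a3 f (by simp)).1.elim

open scoped Pointwise

/-- the trivial context -/
abbrev hig2X (c : ℕ) : Ctx Unit Unit Unit := ⟨fun _ => c, fun _ _ => True, fun _ _ => False, fun _ => 0⟩

/-- r.e. subsets of marked groups -/
def RS {𝔄 G : Type} [Primcodable 𝔄] [Group G] (g : 𝔄 → G) (S : Set G) : Prop :=
  REPred fun w : Wd 𝔄 => wev g w ∈ S

namespace RS

variable {𝔄 𝔅 G H : Type} [Primcodable 𝔄] [Primcodable 𝔅] [Group G] [Group H] {g : 𝔄 → G}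
  {h : 𝔅 → H}

theorem ofCert {c : ℕ} {α : Type} [Primcodable α] {J : Unit → α → Prop} {s : Unit → α → ℕ}
    (hC : Cert (hig2X c) J s) : REPred (J ()) :=
  Cert.re c (Eq := fun _ : Unit => True) (re_finite _) hC

theorem toC {S : Set G} (hS : RS g S) (c : ℕ) : CertS (hig2X c) (G := fun _ => G) (fun _ => g)
    (fun _ => Nrm.zero G) (fun _ => 0) (fun _ => S) := certS_of_re hS

theorem toEq (hS : RS g {1}) (c : ℕ) : CertEq (hig2X c) (G := fun _ => G) (fun _ => g) :=
  Cert.of_re' (X := hig2X c) hS _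

theorem congr {S S' : Set G} (hS : RS g S) (e : S = S') : RS g S' := e ▸ hS

theorem union {S S' : Set G} (hS : RS g S) (hS' : RS g S') : RS g (S ∪ S') := re_or hS hS'

theorem empty : RS g ∅ := ofCert (c := 0)
  (CertS.empty (X := hig2X 0) (G := fun _ => G) (g := fun _ => g) (N := fun _ => Nrm.zero G)
    (D := fun _ => 0))

theorem fst {S : Set G} (hS : RS g S) : RS (prodGens g h) (Prod.fst ⁻¹' S) :=
  ofCert (c := 0) (CertS.fst (H := fun _ => H) (h := fun _ => h) (hS.toC 0)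
    (P := fun _ => Nrm.zero _) (D' := fun _ => 0) fun _ _ => le_rfl)

theorem snd {S : Set H} (hS : RS h S) : RS (prodGens g h) (Prod.snd ⁻¹' S) :=
  ofCert (c := 0) (CertS.snd (G := fun _ => G) (g := fun _ => g) (hS.toC 0)
    (P := fun _ => Nrm.zero _) (D' := fun _ => 0) fun _ _ => le_rfl)

theorem prod_ne (hg : RS g {1}ᶜ) (hh : RS h {1}ᶜ) : RS (prodGens g h) {1}ᶜ :=
  (hg.fst.union hh.snd).congr (by
    ext ⟨x, y⟩
    simp only [Set.mem_union, Set.mem_preimage, Set.mem_compl_iff, Set.mem_singleton_iff,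
      Prod.mk_eq_one, not_and_or])

theorem eq_fst (hS : RS (prodGens g h) {1}) : RS g {1} :=
  ofCert (c := 0) (CertEq.prod_fst (G := fun _ => G) (H := fun _ => H) (g := fun _ => g)
    (h := fun _ => h) (hS.toEq 0))

theorem eq_snd (hS : RS (prodGens g h) {1}) : RS h {1} :=
  ofCert (c := 0) (CertEq.prod_snd (G := fun _ => G) (H := fun _ => H) (g := fun _ => g)
    (h := fun _ => h) (hS.toEq 0))

theorem graph {ℭ Γ : Type} [Primcodable ℭ] [Finite ℭ] [Group Γ] {k : ℭ → Γ} (hk : Gens k)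
    (hg : Gens g) (hh : Gens h) (α : Γ →* G) (β : Γ →* H) (hβ : Function.Injective β)
    (h₁ : RS g {1}ᶜ) (h₂ : RS h {1}) (h₃ : RS h (β.range : Set H)ᶜ) :
    RS (prodGens g h) ((α.prod β).range : Set (G × H))ᶜ := by
  choose sα hα using fun a => hg.exists_wev (α (k a))
  choose sβ hβ' using fun a => hh.exists_wev (β (k a))
  have key := certS_graph (X := hig2X 0) (G := fun _ => G) (H := fun _ => H) (g := fun _ => g)
    (h := fun _ => h) (N := fun _ => Nrm.zero G) (M := fun _ => Nrm.zero H) (Γ := fun _ => Γ)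
    (k := fun _ => k) (fun _ => hk) (fun _ => α) (fun _ => β) (sα := fun _ => sα)
    (sβ := fun _ => sβ) ((Primrec.dom_finite sα).to_comp.comp Computable.snd)
    ((Primrec.dom_finite sβ).to_comp.comp Computable.snd) (fun _ a => (hα a).symm)
    (fun _ a => (hβ' a).symm) (Q₁ := fun _ => ⊥) (Q₂ := fun _ => ⊥)
    (fun _ γ hγ => by
      rw [Subgroup.mem_bot] at hγ ⊢
      rw [(injective_iff_map_eq_one β).1 hβ γ hγ, map_one])
    (P := fun _ => Nrm.zero _) (D₁ := fun _ => 0) (D₂ := fun _ => 0) (D' := fun _ => 0)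
    ((h₁.congr (by simp)).toC 0)
    ((h₂.toEq 0).congr (fun _ _ => Subgroup.mem_bot.symm) fun _ _ _ => le_rfl)
    ((h₃.congr (by simp)).toC 0) (fun _ _ => le_rfl) (by
      rintro _ x ⟨q, hq, _, ⟨γ, rfl⟩, e⟩
      refine ⟨γ, ?_, le_rfl⟩
      rw [← e, mul_inv_cancel_right]
      exact hq)
  refine RS.congr (ofCert key) ?_
  simp [Subgroup.bot_prod_bot]

variable {ι : Type} [Primcodable ι] [Finite ι] {D : HD G ι}

omit [Finite ι] in
theorem eq_base (hS : RS (D.gens g) {1}) : RS g {1} :=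
  ofCert (c := 0) (CertEq.mh_base (G := fun _ => G) (g := fun _ => g) (D := fun _ => D) (hS.toEq 0))

theorem mh_ne (hg : Gens g) (hEq : RS (D.gens g) {1})
    (hdom : ∀ l, RS g (D.dom l : Set G)ᶜ) (hne : RS g {1}ᶜ) : RS (D.gens g) {1}ᶜ := by
  have key := certS_MH_base (X := hig2X 0) (G := fun _ => G) (g := fun _ => g)
    (N := fun _ => Nrm.zero G) (f := fun _ => 0) (D := fun _ => D) (wt := 0) (T := fun _ => {1})
    monotone_const (fun _ => hg) (fun _ _ _ _ => le_rfl) (hEq.toEq 0)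
    (fun l => (hdom l).toC 0) (hne.toC 0)
  refine RS.congr (ofCert key) ?_
  simp

theorem mh_gen (hg : Gens g) {Q : Subgroup G} {I : Set ι} (hG : D.Good Q I)
    (hEq : RS (D.gens g) {1}) (hdom : ∀ l, RS g (D.dom l : Set G)ᶜ) (hQ : RS g (Q : Set G))
    (hQdom : ∀ l : ι × Bool, RS g ((Q : Set G) * (D.dom l : Set G))ᶜ)
    (hQ' : RS g (Q : Set G)ᶜ) : RS (D.gens g) (D.gen Q I : Set D.MH)ᶜ := by
  have key := certS_MH (X := hig2X 0) (G := fun _ => G) (g := fun _ => g)
    (N := fun _ => Nrm.zero G) (f := fun _ => 0) (D := fun _ => D) (wt := 0) (Q := fun _ => Q)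
    (I := I) (T := fun _ => {1}) monotone_const (fun _ => hg) (fun _ _ _ _ => le_rfl) (fun _ => hG)
    (by
      rintro _ l - _ ⟨q, hq, a, ha, rfl⟩
      exact ⟨a, ha, by simpa using hq, le_rfl⟩)
    (hEq.toEq 0) (fun l => (hdom l).toC 0) (hQ.toC 0) (fun l _ => (hQdom l).toC 0)
    ((hQ'.congr (by simp)).toC 0)
  refine RS.congr (ofCert key) ?_
  simp

omit [Primcodable 𝔄] in
theorem wev_of (w : Wd 𝔄) : wev FreeGroup.of w = FreeGroup.mk w := FreeGroup.lift_of_apply _

theorem free_eq : RS (FreeGroup.of : 𝔄 → FreeGroup 𝔄) {1} :=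
  computable_free_eq.to_re.of_eq fun w => by rw [wev_of]; rfl

theorem free_ne : RS (FreeGroup.of : 𝔄 → FreeGroup 𝔄) {1}ᶜ :=
  computable_free_eq.not.to_re.of_eq fun w => by rw [wev_of]; rfl

theorem mach {k : ℕ} {M : MM k} (hM : M.Good) (c : ℕ) {κ : Fin k → G} (hκ : Gens κ)
    (hEq : RS (MM.machG hM c κ) {1}) (hne : RS κ {1}ᶜ) :
    RS (MM.machG hM c κ) {1}ᶜ ∧ RS (MM.machG hM c κ) ((MM.incM hM c κ).range : Set _)ᶜ ∧
      RS (MM.machG hM c κ) (MM.Bsub hM c κ : Set _)ᶜ ∧
      RS (MM.machG hM c κ) ((MM.Bsub hM c κ : Set (MM.Mach hM c κ)) *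
        ((MM.incM hM c κ).range : Set _))ᶜ ∧
      RS (MM.machG hM c κ) (MM.Bsub hM c κ : Set _) := by
  obtain ⟨h1, h2, h3, h4, h5⟩ := MM.certS_mach (X := hig2X c) hM (K := fun _ => G)
    (κ := fun _ => κ) (N := fun _ => Nrm.zero G) (f := fun _ => 0) monotone_const (fun _ => hκ)
    (fun _ _ => Nat.zero_le _) (hEq.toEq c) (hne.toC c)
  exact ⟨ofCert h1, ofCert h2, ofCert h3, ofCert h4, ofCert h5⟩

end RS

theorem hig2_mul_range {Γ G H : Type} [Group Γ] [Group G] [Group H] (α : Γ →* G) (β : Γ →* H)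
    (B : Subgroup H) :
    ((((⊤ : Subgroup G).prod B : Subgroup (G × H)) : Set (G × H)) *
      ((α.prod β).range : Set (G × H)))ᶜ = Prod.snd ⁻¹' ((B : Set H) * (β.range : Set H))ᶜ := by
  rw [Set.preimage_compl]
  congr 1
  ext ⟨x, y⟩
  constructor
  · rintro ⟨q, hq, _, ⟨γ, rfl⟩, e⟩
    exact ⟨q.2, (Subgroup.mem_prod.1 hq).2, β γ, ⟨γ, rfl⟩, congrArg Prod.snd e⟩
  · rintro ⟨q, hq, _, ⟨γ, rfl⟩, e⟩
    refine ⟨(x * (α γ)⁻¹, q), Subgroup.mem_prod.2 ⟨trivial, hq⟩, _, ⟨γ, rfl⟩, ?_⟩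
    exact Prod.ext (by simp) e


/-- Context: `Sit = Unit`, equations = words trivial in the (f.p., `re_wp_of_fp`) top group, no
facts, `f = fun _ => 0`, zero norms (`Lip`, `DecCtl` are trivial).  `certS_of_re` for `G` and free
groups (`computable_free_eq`), `certS_graph` for the associated subgroups of `hdD`, `hdR`
(`(Q₁, Q₂) = (⊥, ⊥)`), `MM.certS_mach`, `certS_MH_base`; for the associated subgroups
`gen Q0 {b}` of `hdS` use `certS_MH` with `T = {1}`: `(x, y) ∈ Q0 * dom` iff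
`y ∈ Bsub * range incM`. -/
theorem Hig.re_ne {k : ℕ} {G : Type} [Group G] {g : Fin k → G} {M : MM k} (hM : M.Good) (c : ℕ)
    (hg : Gens g) (h : Hig.Ok g M c) {e} (he : Hig.IsE g hM c e)
    (hne : REPred fun w : Wd (Fin k) => wev g w ≠ 1) :
    REPred fun w : Wd (Hig.AS M) => wev (Hig.gS g hM c e) w ≠ 1 := by
  have gF := free_gens (Fin k)
  have g0 := prodGens_gens hg gF
  have gD : Gens (Hig.gD g) := (Hig.hdD g).gens_gens g0
  have gM := MM.machG_gens hM c _ gF
  have gP := prodGens_gens gD gM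
  have gR := (Hig.hdR g hM c).gens_gens gP
  have eS : RS (Hig.gS g hM c e) {1} := by
    haveI := Hig.fp g hM c hg h he
    exact re_wp_of_fp (Hig.gS_gens g hM c hg e)
  have eR := RS.eq_base eS
  have eP := RS.eq_base eR
  have eD : RS (Hig.gD g) {1} := eP.eq_fst
  have nG : RS g {1}ᶜ := hne
  have hD : ∀ α : FreeGroup (Fin k) →* G, RS (prodGens g FreeGroup.of)
      ((α.prod (MonoidHom.id _)).range : Set (G × FreeGroup (Fin k)))ᶜ := fun α =>
    RS.graph gF hg gF α _ Function.injective_id nG RS.free_eq (RS.empty.congr (by simp))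
  have nD : RS (Hig.gD g) {1}ᶜ := by
    refine RS.mh_ne g0 eD ?_ (nG.prod_ne RS.free_ne)
    rintro ⟨u, _ | _⟩
    exacts [hD _, hD _]
  obtain ⟨m1, m2, m3, m4, m5⟩ := RS.mach hM c gF eP.eq_snd RS.free_ne
  have hR : ∀ l, RS (prodGens (Hig.gD g) (MM.machG hM c FreeGroup.of))
      ((Hig.hdR g hM c).dom l : Set _)ᶜ := by
    have := fun α => RS.graph (MM.f1G_gens gF) gD gM α _ (MM.incM_injective hM c _) nD
      eP.eq_snd m2
    rintro ⟨u, _ | _⟩
    exacts [this _, this _]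
  have nR := RS.mh_ne gP eR hR (nD.prod_ne m1)
  have hQ : ∀ l, RS (prodGens (Hig.gD g) (MM.machG hM c FreeGroup.of))
      ((Hig.Q0 g hM c : Set _) * ((Hig.hdR g hM c).dom l : Set _))ᶜ := by
    rintro ⟨u, _ | _⟩
    exacts [m4.snd.congr (hig2_mul_range _ _ _).symm, m4.snd.congr (hig2_mul_range _ _ _).symm]
  have hgen := fun I => RS.mh_gen gP (Hig.good g hM c I) eR hR
    (m5.snd.congr (by ext x; simp [Hig.Q0, Subgroup.mem_prod])) hQ
    (m3.snd.congr (by ext x; simp [Hig.Q0, Subgroup.mem_prod]))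
  refine RS.mh_ne gR eS ?_ nR
  rintro ⟨u, _ | _⟩
  exacts [hgen _, hgen _]

/-- `exists_MM`, `MM.Good.sem` for `W (c, F, w, ws) := wev g w = 1`; renumber the alphabet `AS M`
by `Finite.equivFin` (`Primrec.dom_finite`). -/
theorem higman {k : ℕ} {G : Type} [Group G] {g : Fin k → G} (hg : Gens g)
    (hre : REPred fun w : Wd (Fin k) => wev g w = 1) :
    ∃ (G₁ : Type) (_ : Group G₁) (n : ℕ) (g₁ : Fin n → G₁) (f : G →* G₁),
      Group.IsFinitelyPresented G₁ ∧ Gens g₁ ∧ Function.Injective f ∧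
      ((REPred fun w : Wd (Fin k) => wev g w ≠ 1) → REPred fun w : Wd (Fin n) => wev g₁ w ≠ 1) := by
  obtain ⟨M, hM⟩ := exists_MM k
  obtain ⟨c, hc⟩ := hM.sem (fun x => wev g x.2.2.1 = 1)
    (re_comp hre (Computable.fst.comp (Computable.snd.comp Computable.snd)))
  have hok : Hig.Ok g M c := by
    intro x
    rw [hc]
    constructor
    · rintro ⟨w, ws, rfl, -, h1⟩
      rw [RS.wev_of]
      exact h1
    · intro h1
      obtain ⟨w, rfl⟩ := (free_gens (Fin k)).exists_wev x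
      exact ⟨w, [], rfl, by simp, by rwa [RS.wev_of] at h1⟩
  obtain ⟨e, he⟩ := Hig.exists_e g hM c hok
  let ε := (Finite.equivFin (Hig.AS M)).symm
  refine ⟨(Hig.hdS g hM c e).MH, inferInstance, _, Hig.gS g hM c e ∘ ε, Hig.emb g hM c e,
    Hig.fp g hM c hg hok he, ?_, Hig.emb_injective g hM c e, fun hne => ?_⟩
  · unfold Gens
    rw [ε.surjective.range_comp]
    exact Hig.gS_gens g hM c hg e
  · refine (re_comp (Hig.re_ne hM c hg hok he hne)
      (primrec_wmap (Primrec.dom_finite ε)).to_comp).of_eq fun w => ?_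
    rw [wev_wmap]

/-- the relators of the universal recursively presented group -/
def hig2R (x : Unit × Wd (Fin 3)) : Prop :=
  ∃ y : List (Wd ℕ) × ℕ, x.2 = wsub (fun a => Cp.cwA 1 (y.1, a)) (y.1.getD y.2 [])

theorem hig2R_re : REPred hig2R := by
  refine re_exists (p := fun z : (Unit × Wd (Fin 3)) × List (Wd ℕ) × ℕ =>
    z.1.2 = wsub (fun a => Cp.cwA 1 (z.2.1, a)) (z.2.1.getD z.2.2 [])) ?_
  have h1 := computable_wsub (α := List (Wd ℕ)) (s := fun L (a : ℕ) => Cp.cwA 1 (L, a))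
    (Cp.primrec_cwA 1).to_comp
  have h2 : Computable fun y : List (Wd ℕ) × ℕ => (y.1, y.1.getD y.2 []) :=
    (Primrec.fst.pair ((Primrec.list_getD []).comp Primrec.fst Primrec.snd)).to_comp
  have h3 : Computable fun y : List (Wd ℕ) × ℕ =>
      wsub (fun a => Cp.cwA 1 (y.1, a)) (y.1.getD y.2 []) := (h1.comp h2).of_eq fun _ => rfl
  exact re_eq (f := fun z : (Unit × Wd (Fin 3)) × List (Wd ℕ) × ℕ => z.1.2)
    (Computable.snd.comp Computable.fst) ((h3.comp Computable.snd).of_eq fun _ => rfl)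

/-- the normal closure of the relators -/
abbrev hig2N : Subgroup (FreeGroup (Fin 3)) :=
  Subgroup.normalClosure {y | ∃ r, hig2R ((), r) ∧ y = FreeGroup.mk r}

/-- generators of the universal recursively presented group -/
def hig2g (a : Fin 3) : FreeGroup (Fin 3) ⧸ hig2N := QuotientGroup.mk (FreeGroup.of a)

theorem hig2_wev (w : Wd (Fin 3)) : wev hig2g w = QuotientGroup.mk (FreeGroup.mk w) :=
  (FreeGroup.lift_unique (QuotientGroup.mk' hig2N) fun _ => rfl).symm

theorem hig2_gens : Gens hig2g := by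
  unfold Gens
  rw [eq_top_iff]
  rintro ⟨⟨w⟩⟩ -
  have h1 := wev_mem_closure hig2g w
  rw [hig2_wev] at h1
  exact h1

theorem hig2_embed (G : Type) [Group G] (hG : Group.IsFinitelyPresented G) :
    ∃ f : G →* FreeGroup (Fin 3) ⧸ hig2N, Function.Injective f := by
  classical
  obtain ⟨n, φ, hφ, s, hs, hsφ⟩ := hG
  obtain ⟨L₀, hL₀⟩ : ∃ L₀ : List (Wd (Fin n)), ∀ x, x ∈ s ↔ ∃ r ∈ L₀, x = FreeGroup.mk r := by
    refine ⟨hs.toFinset.toList.map FreeGroup.toWord, fun x => ⟨fun hx => ⟨x.toWord, ?_, ?_⟩, ?_⟩⟩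
    · exact List.mem_map_of_mem (by simpa using hx)
    · exact FreeGroup.mk_toWord.symm
    · rintro ⟨r, hr, rfl⟩
      obtain ⟨y, hy, rfl⟩ := List.mem_map.1 hr
      rw [FreeGroup.mk_toWord]
      simpa using hy
  set L : List (Wd ℕ) := L₀.map (wmap Fin.val) with hL
  set h : Fin n → G := fun a => φ (FreeGroup.of a) with hh
  have hφh : φ = FreeGroup.lift h := by
    ext a
    simp [hh]
  have hgens : Gens h := by
    unfold Gens
    rw [← FreeGroup.range_lift_eq_closure, ← hφh, MonoidHom.range_eq_top]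
    exact hφ
  -- the homomorphism `G → F(3) ⧸ N`
  obtain ⟨ψ, hψ⟩ := UP.lift hgens
    (FreeGroup.lift fun a : Fin n => wev hig2g (Cp.cwA 1 (L, (a : ℕ)))) (by
      rw [← hφh, ← hsφ]
      refine Subgroup.normalClosure_le_normal fun x hx => ?_
      obtain ⟨r, hr, rfl⟩ := (hL₀ x).1 hx
      obtain ⟨i, hi⟩ := List.mem_iff_getElem?.1 (List.mem_map_of_mem (f := wmap Fin.val) hr)
      have h1 : wev hig2g (wsub (fun a => Cp.cwA 1 (L, a)) (L.getD i [])) = 1 := by
        rw [hig2_wev, QuotientGroup.eq_one_iff]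
        exact Subgroup.subset_normalClosure ⟨_, ⟨(L, i), rfl⟩, rfl⟩
      rw [List.getD_eq_getElem?_getD, hL, hi, Option.getD_some, wev_wsub, wev_wmap] at h1
      exact h1)
  -- the homomorphism back to the compression of `G`
  set g : List (Wd ℕ) × ℕ → G := fun x =>
    if x.1 = L then (if ha : x.2 < n then h ⟨x.2, ha⟩ else 1) else 1 with hg
  have hgL : ∀ a : Fin n, g (L, a) = h a := fun a => by simp [hg, a.2]
  let χ : FreeGroup (Fin 3) ⧸ hig2N →* (Cp.hd g Nat.one_pos).MH :=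
    QuotientGroup.lift hig2N (FreeGroup.lift (Cp.y3 g Nat.one_pos)) (by
      refine Subgroup.normalClosure_le_normal ?_
      rintro _ ⟨r, ⟨⟨L', i⟩, rfl⟩, rfl⟩
      change wev (Cp.y3 g Nat.one_pos) _ = 1
      simp only [wev_wsub, Cp.wev_cw]
      rw [show (fun a => Cp.emb g Nat.one_pos (g (L', a))) =
        Cp.emb g Nat.one_pos ∘ fun a => g (L', a) from rfl, ← map_wev]
      suffices hsuf : wev (fun a => g (L', a)) (L'.getD i []) = 1 by rw [hsuf, map_one]
      by_cases hL' : L' = L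
      · subst hL'
        rw [List.getD_eq_getElem?_getD]
        cases hi : L[i]? with
        | none => simp
        | some r =>
          obtain ⟨r₀, hr₀, rfl⟩ := List.mem_map.1 (List.mem_of_getElem? hi)
          rw [Option.getD_some, wev_wmap]
          have h1 : FreeGroup.mk r₀ ∈ φ.ker :=
            hsφ ▸ Subgroup.subset_normalClosure ((hL₀ _).2 ⟨r₀, hr₀, rfl⟩)
          rw [show (fun a => g (L, a)) ∘ Fin.val = h from funext hgL]
          rw [hφh] at h1
          exact h1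
      · have h1 := wev_mem_closure (fun a => g (L', a)) (L'.getD i [])
        have h2 : Subgroup.closure (Set.range fun a => g (L', a)) ≤ ⊥ := by
          rw [Subgroup.closure_le]
          rintro _ ⟨a, rfl⟩
          simp [hg, hL']
        exact h2 h1)
  have hχ : ∀ w, χ (wev hig2g w) = wev (Cp.y3 g Nat.one_pos) w := fun w => by
    rw [hig2_wev]
    rfl
  refine ⟨ψ, Function.Injective.of_comp (f := χ) ?_⟩
  have key : χ.comp ψ = Cp.emb g Nat.one_pos := by
    refine MonoidHom.eq_of_eqOn_dense hgens ?_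
    rintro _ ⟨a, rfl⟩
    have h1 := hψ (FreeGroup.of a)
    rw [FreeGroup.lift_apply_of, FreeGroup.lift_apply_of] at h1
    rw [MonoidHom.comp_apply, h1, hχ, Cp.wev_cw, hgL]
  rw [← MonoidHom.coe_comp, key]
  exact Cp.emb_injective g _


/-- Let `R₀` be the r.e. set of words `wmap (Nat.pair i) r` over `ℕ` with `r ∈ L_i`, where
`L_i : List (Wd ℕ)` is the `i`-th list (`Denumerable.ofNat`/`Encodable.decode`), and
`U₀ = F(ℕ) ⧸ ⟨⟨R₀⟩⟩`.  A finitely presented group is `F(ℕ) ⧸ ⟨⟨L⟩⟩`-embedded (present it on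
`Fin n ⊆ ℕ`), and `a ↦ pair i a` embeds `F(ℕ) ⧸ ⟨⟨L_i⟩⟩` in `U₀` (retraction killing the other
generators).  Let `G = F(3) ⧸ ⟨⟨wsub (cwA 1) R₀⟩⟩` (r.e. kernel by `re_normalClosure`); the map
`U₀ → G`, `a ↦ cwA 1 a` is injective since its composite with `G → (Cp.hd _ _).MH` is `Cp.emb`
(`Cp.wev_cw`, `Cp.emb_injective`).  Apply `higman` to `G`. -/
theorem exists_universal : ∃ (U : Type) (_ : Group U), Group.IsFinitelyPresented U ∧
    ∀ (G : Type) [Group G], Group.IsFinitelyPresented G → ∃ f : G →* U, Function.Injective f := by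
  have hre : REPred fun w : Wd (Fin 3) => wev hig2g w = 1 := by
    refine (re_comp (re_normalClosure hig2R_re) (f := fun w : Wd (Fin 3) => ((), w))
      ((Computable.const ()).pair Computable.id)).of_eq fun w => ?_
    rw [hig2_wev, QuotientGroup.eq_one_iff]
  obtain ⟨U, _, n, g₁, f, hU, -, hf, -⟩ := higman hig2_gens hre
  refine ⟨U, inferInstance, hU, fun G _ hG => ?_⟩
  obtain ⟨ψ, hψ⟩ := hig2_embed G hG
  exact ⟨f.comp ψ, hf.comp hψ⟩

end Crest.Agent.R185
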