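import Crest.Agent.R185.MH2

/-!
# R185 TASK MH3: good subgroups are HNN extensions
-/

set_option autoImplicit false

namespace Crest.Agent.R185.HD

open scoped Pointwise

variable {G ι : Type} [Group G] (D : HD G ι)

theorem exists_emb {Q : Subgroup G} (D' : HD Q Unit) (k : ι)
    (hA : ∀ q : Q, q ∈ D'.A () ↔ (q : G) ∈ D.A k) (hB : ∀ q : Q, q ∈ D'.B () ↔ (q : G) ∈ D.B k)
    (hθ : ∀ a : D'.A (), D.tr (k, true) ((a : Q) : G) = ((D'.θ () a : Q) : G)) :
    ∃ F : D'.MH →* D.MH, Function.Injective F ∧ F.range = D.gen Q {k} ∧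
      (∀ q, F (D'.of q) = D.of q) ∧ F (D'.st ()) = D.st k := by
  have hrel : ∀ (u : Unit) (a : D'.A u), (D.st k)⁻¹ * (D.of.comp Q.subtype) a * D.st k =
      (D.of.comp Q.subtype) (D'.θ u a) := by
    intro u a
    have ha : ((a : Q) : G) ∈ D.dom (k, true) := by
      simp only [dom, if_true]; exact (hA _).1 a.2
    have := D.sl_conj ha
    rw [hθ a] at this
    simpa [sl] using this
  let F : D'.MH →* D.MH := D'.lift (D.of.comp Q.subtype) (fun _ => D.st k) hrel
  have h1 : ∀ q, F (D'.of q) = D.of q := fun q => by simp [F]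
  have h2 : F (D'.st ()) = D.st k := by simp [F]
  have h3 : ∀ l : Unit × Bool, F (D'.sl l) = D.sl (k, l.2) := by
    rintro ⟨⟨⟩, b⟩
    cases b <;> simp [sl, h2]
  have h4 : ∀ (L : List ((Unit × Bool) × Q)) (g₀ : Q), F (D'.prd g₀ L) =
      D.prd g₀ (L.map fun p => ((k, p.1.2), (p.2 : G))) := by
    intro L
    induction L with
    | nil => intro g₀; simp [h1]
    | cons p L ih => intro g₀; rw [List.map_cons, prd_cons, prd_cons, map_mul, map_mul, h1, h3, ih]
  have h5 : ∀ (l : Unit × Bool) (q : Q), q ∈ D'.dom l ↔ (q : G) ∈ D.dom (k, l.2) := by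
    rintro ⟨⟨⟩, b⟩ q
    cases b
    · simpa [dom] using hB q
    · simpa [dom] using hA q
  refine ⟨F, ?_, ?_, h1, h2⟩
  · rw [injective_iff_map_eq_one]
    intro x hx
    obtain ⟨g₀, L, hR, rfl, -⟩ := D'.exists_red (N := Nrm.zero Q) (wt := 0)
      (fun _ _ _ => le_rfl) x
    rw [h4] at hx
    have hR' : D.Red (L.map fun p => ((k, p.1.2), (p.2 : G))) := by
      unfold Red at hR ⊢
      rw [List.isChain_map]
      refine hR.imp ?_
      intro p q h hq hm
      refine h ?_ ((h5 q.1 p.2).2 hm)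
      simp only [opp, Prod.mk.injEq, true_and] at hq
      exact Prod.ext rfl hq
    have := D.britton hR' (g₀ := g₀) ⟨1, by rw [hx, map_one]⟩
    rw [List.map_eq_nil_iff] at this
    subst this
    rw [List.map_nil, prd_nil, ← map_one D.of] at hx
    have h6 : g₀ = 1 := Subtype.ext (D.of_injective hx)
    rw [h6, prd_nil, map_one]
  · apply le_antisymm
    · rintro _ ⟨x, rfl⟩
      have hst : D.st k ∈ D.gen Q {k} := Subgroup.subset_closure (Or.inr ⟨k, rfl, rfl⟩)
      induction x using D'.mh_induction with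
      | h1 => rw [map_one]; exact Subgroup.one_mem _
      | hof a y hy =>
        rw [map_mul, h1]
        exact Subgroup.mul_mem _ (Subgroup.subset_closure (Or.inl ⟨a, a.2, rfl⟩)) hy
      | hsl l y hy =>
        rw [map_mul, h3]
        refine Subgroup.mul_mem _ ?_ hy
        unfold sl
        split_ifs
        · exact hst
        · exact Subgroup.inv_mem _ hst
    · unfold gen
      rw [Subgroup.closure_le]
      rintro _ (⟨q, hq, rfl⟩ | ⟨k', hk', rfl⟩)
      · exact ⟨D'.of ⟨q, hq⟩, h1 _⟩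
      · rw [Set.mem_singleton_iff] at hk'
        subst hk'
        exact ⟨D'.st (), h2⟩

/-- the restriction of a letter to a good subgroup -/
def res {Q : Subgroup G} {i : ι} (hi : D.Good Q {i}) : HD Q Unit where
  A _ := (D.A i).subgroupOf Q
  B _ := (D.B i).subgroupOf Q
  θ _ :=
    { toFun := fun a => ⟨⟨D.θ i ⟨a, a.2⟩, (hi i rfl ⟨a, a.2⟩).1 a.1.2⟩, (D.θ i ⟨a, a.2⟩).2⟩
      invFun := fun b => ⟨⟨(D.θ i).symm ⟨b, b.2⟩, (hi i rfl _).2 (by
        rw [MulEquiv.apply_symm_apply]; exact b.1.2)⟩, ((D.θ i).symm ⟨b, b.2⟩).2⟩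
      left_inv := fun a => by
        have := congrArg Subtype.val ((D.θ i).symm_apply_apply ⟨a, a.2⟩)
        apply Subtype.ext; apply Subtype.ext; exact this
      right_inv := fun b => by
        have := congrArg Subtype.val ((D.θ i).apply_symm_apply ⟨b, b.2⟩)
        apply Subtype.ext; apply Subtype.ext; exact this
      map_mul' := fun a b => by
        have := congrArg Subtype.val (map_mul (D.θ i) ⟨a, a.2⟩ ⟨b, b.2⟩)
        apply Subtype.ext; apply Subtype.ext; exact this }

/-- two letters which act in the same way on a good subgroup `Q` generate isomorphic subgroups.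
Proof: let `D'` be the one-letter datum on `Q` with `A = (A i).subgroupOf Q`,
`B = (B i).subgroupOf Q`; the maps `D'.MH →* D.MH` (`st ↦ st i`, resp. `st ↦ st j`) are injective
(`exists_red` with the zero norm gives reduced expressions, whose images are reduced; `britton`)
with ranges `gen Q {i}`, `gen Q {j}`. -/
theorem exists_gen_equiv {Q : Subgroup G} {i j : ι} (hi : D.Good Q {i}) (hj : D.Good Q {j})
    (hA : ∀ q ∈ Q, q ∈ D.A i ↔ q ∈ D.A j)
    (hθ : ∀ q ∈ Q, q ∈ D.A i → D.tr (i, true) q = D.tr (j, true) q) :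
    ∃ e : D.gen Q {i} ≃* D.gen Q {j},
      (∀ x : D.gen Q {i}, ∀ q ∈ Q, (x : D.MH) = D.of q → (e x : D.MH) = D.of q) ∧
      ∀ x : D.gen Q {i}, (x : D.MH) = D.st i → (e x : D.MH) = D.st j := by
  have hθi : ∀ a : (D.res hi).A (), D.tr (i, true) ((a : Q) : G) =
      (((D.res hi).θ () a : Q) : G) := fun a => D.tr_true i ⟨a, a.2⟩
  have hB : ∀ q ∈ Q, q ∈ D.B i ↔ q ∈ D.B j := by
    intro q hq
    constructor
    · intro h
      have h0 : q ∈ D.dom (i, false) := by simpa [dom] using h
      have h1 : D.tr (i, false) q ∈ Q := (Good.tr_mem D hi (l := (i, false)) rfl h0).2 hq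
      have h2 : D.tr (i, false) q ∈ D.A i := by simpa [dom, opp] using D.tr_mem h0
      have h3 : D.tr (i, true) (D.tr (i, false) q) = q := D.tr_tr h0
      have h4 : D.tr (i, false) q ∈ D.dom (j, true) := by simpa [dom] using (hA _ h1).1 h2
      have h5 := D.tr_mem h4
      rw [← hθ _ h1 h2, h3] at h5
      simpa [dom, opp] using h5
    · intro h
      have h0 : q ∈ D.dom (j, false) := by simpa [dom] using h
      have h1 : D.tr (j, false) q ∈ Q := (Good.tr_mem D hj (l := (j, false)) rfl h0).2 hq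
      have h2 : D.tr (j, false) q ∈ D.A j := by simpa [dom, opp] using D.tr_mem h0
      have h3 : D.tr (j, true) (D.tr (j, false) q) = q := D.tr_tr h0
      have h2' := (hA _ h1).2 h2
      have h4 : D.tr (j, false) q ∈ D.dom (i, true) := by simpa [dom] using h2'
      have h5 := D.tr_mem h4
      rw [hθ _ h1 h2', h3] at h5
      simpa [dom, opp] using h5
  obtain ⟨F, F1, F2, F3, F4⟩ := D.exists_emb (D.res hi) i (fun q => Iff.rfl) (fun q => Iff.rfl) hθi
  obtain ⟨E, E1, E2, E3, E4⟩ := D.exists_emb (D.res hi) j (fun q => hA q q.2) (fun q => hB q q.2)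
    (fun a => by rw [← hθi a]; exact (hθ _ a.1.2 a.2).symm)
  let eF : (D.res hi).MH ≃* D.gen Q {i} :=
    (MonoidHom.ofInjective F1).trans (MulEquiv.subgroupCongr F2)
  let eE : (D.res hi).MH ≃* D.gen Q {j} :=
    (MonoidHom.ofInjective E1).trans (MulEquiv.subgroupCongr E2)
  have hF : ∀ y, (eF y : D.MH) = F y := fun y => rfl
  have hE : ∀ y, (eE y : D.MH) = E y := fun y => rfl
  refine ⟨eF.symm.trans eE, ?_, ?_⟩
  · intro x q hq hx
    have : x = eF ((D.res hi).of ⟨q, hq⟩) := Subtype.ext (by rw [hF, F3, hx])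
    rw [this, MulEquiv.trans_apply, MulEquiv.symm_apply_apply, hE, E3]
  · intro x hx
    have : x = eF ((D.res hi).st ()) := Subtype.ext (by rw [hF, F4, hx])
    rw [this, MulEquiv.trans_apply, MulEquiv.symm_apply_apply, hE, E4]


end Crest.Agent.R185.HD
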