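import Crest.Agent.R185.CertMach
import Crest.Agent.R185.MH3

/-!
# R185: the Higman embedding (definitions)
-/

set_option autoImplicit false

namespace Crest.Agent.R185

namespace Hig

variable {k : ℕ} {G : Type} [Group G] (g : Fin k → G)

theorem injD (α : FreeGroup (Fin k) →* G) :
    Function.Injective (α.prod (MonoidHom.id (FreeGroup (Fin k)))) :=
  fun _ _ h => congrArg Prod.snd h

/-- `d⁻¹ (1, w) d = (w(g), w)` -/
noncomputable def hdD : HD (G × FreeGroup (Fin k)) Unit :=
  HD.ofHoms (Γ := fun _ : Unit => FreeGroup (Fin k))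
    (fun _ => (1 : FreeGroup (Fin k) →* G).prod (MonoidHom.id _))
    (fun _ => (FreeGroup.lift g).prod (MonoidHom.id _)) (fun _ => injD _) (fun _ => injD _)

/-- the group `Γ_d` -/
abbrev GD : Type := (hdD g).MH

/-- alphabet of `Γ_d` -/
abbrev AD (k : ℕ) : Type := (Fin k ⊕ Fin k) ⊕ Unit

/-- generators of `Γ_d` -/
noncomputable def gD : AD k → GD g := (hdD g).gens (prodGens g FreeGroup.of)

/-- the free group in `Γ_d` -/
noncomputable def fD : FreeGroup (Fin k) →* GD g := (hdD g).of.comp (MonoidHom.inr _ _)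

variable {M : MM k}

/-- `true`: `m ↦ m`, `t ↦ d`; `false`: `m ↦ 1`, `t ↦ d` -/
noncomputable def piD (M : MM k) : Bool → (M.F1 (FreeGroup (Fin k)) →* GD g)
  | true => SD.lift ((fD g).comp (MonoidHom.fst _ _))
      (fun r => fD g r.1 * (hdD g).st () * (fD g r.1)⁻¹) (fun r z => by simp [mul_assoc])
  | false => SD.lift 1 (fun _ => (hdD g).st ()) (fun r z => by simp)

variable (hM : M.Good) (c : ℕ)

/-- the machine group over the free group -/
abbrev Mc : Type := MM.Mach hM c (FreeGroup.of : Fin k → FreeGroup (Fin k))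

theorem injR (α : M.F1 (FreeGroup (Fin k)) →* GD g) :
    Function.Injective (α.prod (MM.incM hM c FreeGroup.of)) :=
  fun _ _ h => MM.incM_injective hM c _ (congrArg Prod.snd h)

/-- the two rope letters: `r_b⁻¹ (1, γ) r_b = (π_b γ, γ)` -/
noncomputable def hdR : HD (GD g × Mc hM c) Bool :=
  HD.ofHoms (Γ := fun _ : Bool => M.F1 (FreeGroup (Fin k)))
    (fun _ => (1 : _ →* GD g).prod (MM.incM hM c FreeGroup.of))
    (fun b => (piD g M b).prod (MM.incM hM c FreeGroup.of))
    (fun _ => injR g hM c _) (fun _ => injR g hM c _)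

/-- `Γ_d × B` -/
noncomputable def Q0 : Subgroup (GD g × Mc hM c) :=
  (⊤ : Subgroup (GD g)).prod (MM.Bsub hM c FreeGroup.of)

/-- the machine accepts exactly the relators -/
def Ok (M : MM k) (c : ℕ) : Prop :=
  ∀ h : FreeGroup (Fin k), M.Accepts c FreeGroup.of true h ↔ FreeGroup.lift g h = 1

/-- specification of the last associated isomorphism -/
def IsE (e : (hdR g hM c).gen (Q0 g hM c) {false} ≃* (hdR g hM c).gen (Q0 g hM c) {true}) : Prop :=
  (∀ x : (hdR g hM c).gen (Q0 g hM c) {false}, ∀ q ∈ Q0 g hM c,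
    (x : (hdR g hM c).MH) = (hdR g hM c).of q → (e x : (hdR g hM c).MH) = (hdR g hM c).of q) ∧
  ∀ x : (hdR g hM c).gen (Q0 g hM c) {false}, (x : (hdR g hM c).MH) = (hdR g hM c).st false →
    (e x : (hdR g hM c).MH) = (hdR g hM c).st true

/-- the last layer -/
noncomputable def hdS
    (e : (hdR g hM c).gen (Q0 g hM c) {false} ≃* (hdR g hM c).gen (Q0 g hM c) {true}) :
    HD (hdR g hM c).MH Unit :=
  ⟨fun _ => _, fun _ => _, fun _ => e⟩

/-- alphabet of the last layer -/
abbrev AS (M : MM k) : Type := ((AD k ⊕ M.AM) ⊕ Bool) ⊕ Unit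

/-- generators of the last layer -/
noncomputable def gS (e) : AS M → (hdS g hM c e).MH :=
  (hdS g hM c e).gens ((hdR g hM c).gens (prodGens (gD g) (MM.machG hM c FreeGroup.of)))

/-- the embedding of `G` -/
noncomputable def emb (e) : G →* (hdS g hM c e).MH :=
  (hdS g hM c e).of.comp ((hdR g hM c).of.comp ((MonoidHom.inl _ _).comp
    ((hdD g).of.comp (MonoidHom.inl _ _))))

end Hig

end Crest.Agent.R185
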