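import Crest.Agent.R185.Xt
import Crest.Agent.R185.CertMach

/-!
# R185 TASK L5: the letter `p` coupling the machine with `τ`
-/

set_option autoImplicit false

namespace Crest.Agent.R185

open scoped Pointwise

namespace L5

variable {k : ℕ} {M : MM k} {K : Type} [Group K] (P : Subgroup K)

/-- `t ↦ 1` -/
def rho0 (M : MM k) : M.F1 K →* Xt P :=
  SD.reg.comp ((MonoidHom.fst _ _).comp SemidirectProduct.rightHom)

/-- `t ↦ τ` -/
def rhoT (M : MM k) : M.F1 K →* Xt P :=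
  SD.lift (SD.reg.comp (MonoidHom.fst _ _)) (fun r => SD.lt (r.1 : K ⧸ P))
    (fun r z => (SD.reg_mul_lt r.1 (z.1 : K ⧸ P)).symm)

variable (hM : M.Good) (c : ℕ) (κ : Fin k → K)

theorem inj (α : M.F1 K →* Xt P) : Function.Injective (α.prod (MM.incM hM c κ)) :=
  fun _ _ h => MM.incM_injective hM c κ (congrArg Prod.snd h)

/-- HNN data: `p⁻¹ (ρ₀ γ, γ) p = (ρ_τ γ, γ)` -/
noncomputable def hd : HD (Xt P × MM.Mach hM c κ) Unit :=
  HD.ofHoms (Γ := fun _ : Unit => M.F1 K) (fun _ => (rho0 P M).prod (MM.incM hM c κ))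
    (fun _ => (rhoT P M).prod (MM.incM hM c κ)) (fun _ => inj P hM c κ _) (fun _ => inj P hM c κ _)

/-- the group of layer 5 -/
abbrev X5 : Type := (hd P hM c κ).MH

/-- alphabet of layer 5 -/
abbrev A5 (M : MM k) : Type := ((Fin k ⊕ Unit) ⊕ M.AM) ⊕ Unit

/-- generators -/
noncomputable def g5 : A5 M → X5 P hM c κ :=
  (hd P hM c κ).gens (prodGens (Xt.xG P κ) (MM.machG hM c κ))

/-- `Xt → X5` -/
noncomputable def inX : Xt P →* X5 P hM c κ := (hd P hM c κ).of.comp (MonoidHom.inl _ _)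

/-- `Mach → X5` -/
noncomputable def inM : MM.Mach hM c κ →* X5 P hM c κ := (hd P hM c κ).of.comp (MonoidHom.inr _ _)

/-- the main copy of `K` -/
noncomputable def inK : K →* X5 P hM c κ := (inX P hM c κ).comp SD.reg

/-- the register copy of `K` -/
noncomputable def inB : K →* X5 P hM c κ := (inM P hM c κ).comp (MM.inK hM c κ)

/-- the letter of `κ y` -/
def aK (M : MM k) (y : Fin k) : A5 M := Sum.inl (Sum.inl (Sum.inl y))

/-- the letter `τ` -/
def aT (M : MM k) : A5 M := Sum.inl (Sum.inl (Sum.inr ()))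

/-- the letters of the machine group -/
def aM (M : MM k) (a : M.AM) : A5 M := Sum.inl (Sum.inr a)

/-- the letter of the register copy of `κ y` -/
def aB (M : MM k) (y : Fin k) : A5 M := aM M (Sum.inl (Sum.inl (Sum.inl y)))

/-- generators of the new point stabiliser -/
def PW (M : MM k) : List (Wd (A5 M)) :=
  ((List.finRange k).map fun y => [(aT M, false), (aK M y, true), (aT M, true)]) ++
    [[(aT M, true), (aT M, true)], [(Sum.inr (), true)]] ++ M.bW.map (wmap (aM M))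

/-- the new point stabiliser -/
noncomputable def P5 : Subgroup (X5 P hM c κ) :=
  Subgroup.closure {x | ∃ w ∈ PW M, x = wev (g5 P hM c κ) w}

/-- its upper approximation -/
noncomputable def Q5 : Subgroup (X5 P hM c κ) :=
  (hd P hM c κ).gen ((Xt.St P).prod (MM.Bsub hM c κ)) Set.univ

/-- the (definite) norm -/
noncomputable def n5 (N : Nrm K) : Nrm (X5 P hM c κ) :=
  ((hd P hM c κ).nrm ((Xt.nX P N).prodMax (MM.machN hM c κ N)) 1).defn

/-- soundness of the machine for the flag `true` -/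
def Snd (M : MM k) (c : ℕ) (κ : Fin k → K) : Prop := ∀ h, M.Accepts c κ true h → h ∉ P

theorem l5_of_pair (x : Xt P × MM.Mach hM c κ) :
    (hd P hM c κ).of x = inX P hM c κ x.1 * inM P hM c κ x.2 := by
  show _ = (hd P hM c κ).of (x.1, 1) * (hd P hM c κ).of (1, x.2)
  rw [← map_mul, Prod.mk_mul_mk, mul_one, one_mul]

theorem l5_rho0_lt (z : M.Reg K) : rho0 P M (SD.lt z) = 1 := by
  simp [rho0, SD.lt]

theorem l5_rho0_reg (r : M.Reg K) : rho0 P M (SD.reg r) = SD.reg r.1 := by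
  simp [rho0, SD.reg]

theorem l5_rhoT_lt (z : M.Reg K) : rhoT P M (SD.lt z) = SD.lt (z.1 : K ⧸ P) := SD.lift_lt _ _ _ _

theorem l5_rhoT_reg (r : M.Reg K) : rhoT P M (SD.reg r) = SD.reg r.1 := SD.lift_reg _ _ _ _

/-- the two homomorphisms `F1 → Xt` -/
def l5_rho (M : MM k) (b : Bool) : M.F1 K →* Xt P := if b then rho0 P M else rhoT P M

theorem l5_mem_dom {l : Unit × Bool} {a : Xt P × MM.Mach hM c κ} :
    a ∈ (hd P hM c κ).dom l ↔ ∃ γ, (l5_rho P M l.2 γ, MM.incM hM c κ γ) = a := by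
  obtain ⟨i, b⟩ := l
  cases b <;> exact Iff.rfl

theorem l5_tr (l : Unit × Bool) (γ : M.F1 K) :
    (hd P hM c κ).tr l (l5_rho P M l.2 γ, MM.incM hM c κ γ) =
      (l5_rho P M (!l.2) γ, MM.incM hM c κ γ) := by
  obtain ⟨i, b⟩ := l
  cases b
  · exact HD.ofHoms_tr_false (Γ := fun _ : Unit => M.F1 K)
      (fun _ => (rho0 P M).prod (MM.incM hM c κ)) (fun _ => (rhoT P M).prod (MM.incM hM c κ))
      _ _ i γ
  · exact HD.ofHoms_tr_true (Γ := fun _ : Unit => M.F1 K)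
      (fun _ => (rho0 P M).prod (MM.incM hM c κ)) (fun _ => (rhoT P M).prod (MM.incM hM c κ))
      _ _ i γ

theorem l5_rho_mem (hs : Snd P M c κ) (b : Bool) {γ : M.F1 K}
    (h : MM.incM hM c κ γ ∈ MM.Bsub hM c κ) : l5_rho P M b γ ∈ Xt.St P := by
  rw [MM.incM_mem_B] at h
  refine (Subgroup.closure_le ((Xt.St P).comap (l5_rho P M b))).2 ?_ h
  rintro _ (⟨z, hz, rfl⟩ | ⟨r, hr, rfl⟩)
  · show l5_rho P M b (SD.lt z) ∈ Xt.St P
    cases b
    · show rhoT P M (SD.lt z) ∈ Xt.St P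
      rw [l5_rhoT_lt]
      exact Xt.lt_mem_St P (hs z.1 ⟨z.2, hz⟩)
    · show rho0 P M (SD.lt z) ∈ Xt.St P
      rw [l5_rho0_lt]
      exact one_mem _
  · rw [SetLike.mem_coe, Subgroup.mem_bot] at hr
    rw [hr, map_one]
    exact one_mem _

theorem l5_nX_rho (N : Nrm K) (b : Bool) (γ : M.F1 K) :
    Xt.nX P N (l5_rho P M b γ) ≤ M.f1N N γ := by
  cases b
  · refine SD.rad_map_le (M.sz_reg N) (Xt.sz P N) (MonoidHom.fst _ _)
      (fun z => some (z.1 : K ⧸ P)) (rhoT P M) (l5_rhoT_reg P) (l5_rhoT_lt P) (fun _ _ => rfl)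
      (fun r => Nat.le_add_right _ _) (fun z z' hz => ?_) γ
    obtain rfl : (z.1 : K ⧸ P) = z' := by simpa using hz
    exact (Xt.nu_le P N z.1).trans (Nat.le_add_right _ _)
  · exact SD.rad_map_le (M.sz_reg N) (Xt.sz P N) (MonoidHom.fst _ _)
      (fun _ => none) (rho0 P M) (l5_rho0_reg P) (l5_rho0_lt P) (fun _ _ => rfl)
      (fun r => Nat.le_add_right _ _) (fun z z' hz => by simp at hz) γ

theorem l5_norm {N : Nrm K} (hκ : ∀ y, N (κ y) ≤ 1) (b : Bool) (γ : M.F1 K) :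
    (Xt.nX P N).prodMax (MM.machN hM c κ N) (l5_rho P M b γ, MM.incM hM c κ γ) = M.f1N N γ := by
  show max (Xt.nX P N (l5_rho P M b γ)) (MM.machN hM c κ N (MM.incM hM c κ γ)) = _
  rw [MM.machN_incM hM c hκ]
  exact max_eq_right (l5_nX_rho P N b γ)

theorem l5_gen_mem {w : Wd (A5 M)} (hw : w ∈ PW M) : wev (g5 P hM c κ) w ∈ P5 P hM c κ :=
  Subgroup.subset_closure ⟨w, hw, rfl⟩

theorem l5_st_mem : (hd P hM c κ).st () ∈ P5 P hM c κ := by
  have := l5_gen_mem P hM c κ (w := [(Sum.inr (), true)]) (by simp [PW])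
  rwa [wev_single_true] at this

theorem l5_wev_aM (w : Wd M.AM) :
    wev (g5 P hM c κ) (wmap (aM M) w) = inM P hM c κ (wev (MM.machG hM c κ) w) := by
  rw [wev_wmap, map_wev]
  rfl

theorem l5_wev_conj (y : Fin k) :
    wev (g5 P hM c κ) [(aT M, false), (aK M y, true), (aT M, true)] =
      (inX P hM c κ (Xt.tau P))⁻¹ * inK P hM c κ (κ y) * inX P hM c κ (Xt.tau P) := by
  simp only [wev_cons, wev_nil, mul_one, if_true, Bool.false_eq_true, if_false, mul_assoc]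
  rfl

theorem l5_wev_sq : wev (g5 P hM c κ) [(aT M, true), (aT M, true)] =
    inX P hM c κ (Xt.tau P) * inX P hM c κ (Xt.tau P) := by
  simp only [wev_cons, wev_nil, mul_one, if_true]
  rfl

theorem inK_injective : Function.Injective (inK P hM c κ) := by
  intro a b h
  exact SD.reg_injective (congrArg Prod.fst ((hd P hM c κ).of_injective h))

theorem inB_injective : Function.Injective (inB P hM c κ) := by
  intro a b h
  exact MM.inK_injective hM c κ (congrArg Prod.snd ((hd P hM c κ).of_injective h))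

theorem inM_injective : Function.Injective (inM P hM c κ) := by
  intro a b h
  exact congrArg Prod.snd ((hd P hM c κ).of_injective h)

theorem g5_aK (y : Fin k) : g5 P hM c κ (aK M y) = inK P hM c κ (κ y) := by
  rfl

theorem g5_aB (y : Fin k) : g5 P hM c κ (aB M y) = inB P hM c κ (κ y) := by
  rfl

theorem g5_aT : g5 P hM c κ (aT M) = inX P hM c κ (Xt.tau P) := by
  rfl

theorem g5_aM (a : M.AM) : g5 P hM c κ (aM M a) = inM P hM c κ (MM.machG hM c κ a) := by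
  rfl

theorem g5_gens (hκ : Gens κ) : Gens (g5 P hM c κ) := by
  exact (hd P hM c κ).gens_gens
    (prodGens_gens (SD.gens_gens hκ (Xt.based P)) (MM.machG_gens hM c κ hκ))

theorem P5_le_Q5 : P5 P hM c κ ≤ Q5 P hM c κ := by
  have h1 : ∀ x ∈ (Xt.St P).prod (MM.Bsub hM c κ), (hd P hM c κ).of x ∈ Q5 P hM c κ :=
    fun x hx => Subgroup.subset_closure (Or.inl ⟨x, hx, rfl⟩)
  have hX : ∀ x ∈ Xt.St P, inX P hM c κ x ∈ Q5 P hM c κ :=
    fun x hx => h1 (x, 1) ⟨hx, one_mem _⟩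
  refine (Subgroup.closure_le _).2 ?_
  rintro _ ⟨w, hw, rfl⟩
  simp only [PW, List.mem_append, List.mem_map, List.mem_cons, List.not_mem_nil, or_false] at hw
  rcases hw with (⟨y, -, rfl⟩ | rfl | rfl) | ⟨v, hv, rfl⟩
  · rw [l5_wev_conj]
    have := hX _ (Xt.conj_mem_St P (κ y))
    rwa [map_mul, map_mul, map_inv] at this
  · rw [l5_wev_sq]
    have := hX _ (Xt.sq_mem_St P)
    rwa [map_mul] at this
  · rw [wev_single_true]
    exact Subgroup.subset_closure (Or.inr ⟨(), trivial, rfl⟩)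
  · rw [l5_wev_aM]
    refine h1 (1, _) ⟨one_mem _, ?_⟩
    show wev (MM.machG hM c κ) v ∈ MM.Bsub hM c κ
    rw [MM.B_eq]
    exact Subgroup.subset_closure ⟨v, hv, rfl⟩

theorem inM_mem_P5 {x : MM.Mach hM c κ} (hx : x ∈ MM.Bsub hM c κ) :
    inM P hM c κ x ∈ P5 P hM c κ := by
  rw [MM.B_eq] at hx
  refine (Subgroup.closure_le ((P5 P hM c κ).comap (inM P hM c κ))).2 ?_ hx
  rintro _ ⟨w, hw, rfl⟩
  show inM P hM c κ (wev (MM.machG hM c κ) w) ∈ P5 P hM c κ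
  rw [← l5_wev_aM]
  exact l5_gen_mem P hM c κ (List.mem_append_right _ (List.mem_map_of_mem hw))

theorem conj_mem_P5 (hκ : Gens κ) (h : K) : (inX P hM c κ (Xt.tau P))⁻¹ * inK P hM c κ h *
    inX P hM c κ (Xt.tau P) ∈ P5 P hM c κ := by
  have hh : h ∈ Subgroup.closure (Set.range κ) := by rw [hκ]; trivial
  induction hh using Subgroup.closure_induction with
  | mem x hx =>
    obtain ⟨y, rfl⟩ := hx
    rw [← l5_wev_conj]
    exact l5_gen_mem P hM c κ (List.mem_append_left _ (List.mem_append_left _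
      (List.mem_map.2 ⟨y, List.mem_finRange y, rfl⟩)))
  | one => simp
  | mul x y _ _ hx hy =>
    have := mul_mem hx hy
    rw [map_mul]
    convert this using 1
    group
  | inv x _ hx =>
    have := inv_mem hx
    rw [map_inv]
    convert this using 1
    group

theorem sq_mem_P5 : inX P hM c κ (Xt.tau P) * inX P hM c κ (Xt.tau P) ∈ P5 P hM c κ := by
  rw [← l5_wev_sq]
  exact l5_gen_mem P hM c κ (by simp [PW])

/-- `p⁻¹ t(h, ξ) p = (h τ h⁻¹) t(h, ξ)` -/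
theorem lt_mem_P5 {h : K} (hh : M.Accepts c κ true h) :
    inX P hM c κ (SD.lt (h : K ⧸ P)) ∈ P5 P hM c κ := by
  obtain ⟨ξ, hξ⟩ := hh
  have h1 : MM.incM hM c κ (SD.lt (h, ξ)) ∈ MM.Bsub hM c κ := by
    have : M.inc K (SD.lt (h, ξ)) = SD.lt (M.inp true, (h, ξ)) := by
      simp [MM.inc, SD.mapZ]
    show (MM.hd hM c κ).of (M.inc K (SD.lt (h, ξ))) ∈ _
    rw [this]
    exact (MM.lt_mem_B hM c κ).2 hξ
  have h2 := inM_mem_P5 P hM c κ h1
  have h3 : ((hd P hM c κ).st ())⁻¹ *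
      (hd P hM c κ).of (rho0 P M (SD.lt (h, ξ)), MM.incM hM c κ (SD.lt (h, ξ))) *
      (hd P hM c κ).st () =
      (hd P hM c κ).of (rhoT P M (SD.lt (h, ξ)), MM.incM hM c κ (SD.lt (h, ξ))) :=
    HD.ofHoms_conj (Γ := fun _ : Unit => M.F1 K)
      (fun _ => (rho0 P M).prod (MM.incM hM c κ)) (fun _ => (rhoT P M).prod (MM.incM hM c κ))
      _ _ () (SD.lt (h, ξ))
  rw [l5_of_pair, l5_of_pair, l5_rho0_lt, l5_rhoT_lt, map_one, one_mul] at h3
  have h4 := l5_st_mem P hM c κ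
  exact (mul_mem_cancel_right h2).1 (h3 ▸ mul_mem (mul_mem (inv_mem h4) h2) h4)

/-- `(St × B) ∩ dom = graph over `B ∩ F1`, see `MM.incM_mem_B`, `Xt.lt_mem_St`. -/
theorem good (hs : Snd P M c κ) :
    (hd P hM c κ).Good ((Xt.St P).prod (MM.Bsub hM c κ)) Set.univ := by
  rintro i - ⟨a, ha⟩
  obtain ⟨γ, rfl⟩ := (l5_mem_dom P hM c κ (l := (i, true))).1 ha
  rw [← (hd P hM c κ).tr_true]
  have := l5_tr P hM c κ (i, true) γ
  simp only at this ⊢
  rw [this]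
  exact ⟨fun h => ⟨l5_rho_mem P hM c κ hs _ h.2, h.2⟩, fun h => ⟨l5_rho_mem P hM c κ hs _ h.2, h.2⟩⟩

theorem inX_mem_Q5 (hs : Snd P M c κ) {x : Xt P} : inX P hM c κ x ∈ Q5 P hM c κ ↔ x ∈ Xt.St P := by
  exact ((hd P hM c κ).of_mem_gen (good P hM c κ hs) (g := (x, 1))).trans
    ⟨fun h => h.1, fun h => ⟨h, one_mem _⟩⟩

theorem inM_mem_Q5 (hs : Snd P M c κ) {x : MM.Mach hM c κ} :
    inM P hM c κ x ∈ Q5 P hM c κ ↔ x ∈ MM.Bsub hM c κ := by
  exact ((hd P hM c κ).of_mem_gen (good P hM c κ hs) (g := (1, x))).trans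
    ⟨fun h => h.2, fun h => ⟨one_mem _, h⟩⟩

variable {κ} {N : Nrm K}

/-- `SD.rad_map_le` for `rhoT`, `MM.machN_incM` -/
theorem lip (hκ : ∀ y, N (κ y) ≤ 1) :
    (hd P hM c κ).Lip ((Xt.nX P N).prodMax (MM.machN hM c κ N)) 1 := by
  intro l a ha
  obtain ⟨γ, rfl⟩ := (l5_mem_dom P hM c κ).1 ha
  rw [l5_tr, l5_norm P hM c κ hκ, l5_norm P hM c κ hκ]
  exact Nat.le_succ _

/-- `MM.dec_B` -/
theorem decCtl (hs : Snd P M c κ) (hκ : ∀ y, N (κ y) ≤ 1) :
    (hd P hM c κ).DecCtl ((Xt.nX P N).prodMax (MM.machN hM c κ N))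
      ((Xt.St P).prod (MM.Bsub hM c κ)) Set.univ := by
  rintro l - g ⟨q, hq, a, ha, rfl⟩
  obtain ⟨γ₀, rfl⟩ := (l5_mem_dom P hM c κ).1 ha
  obtain ⟨γ, h1, h2⟩ := MM.dec_B hM c hκ (x := q.2 * MM.incM hM c κ γ₀)
    ⟨q.2, hq.2, _, ⟨γ₀, rfl⟩, rfl⟩
  refine ⟨_, (l5_mem_dom P hM c κ).2 ⟨γ, rfl⟩, ⟨?_, h1⟩, ?_⟩
  · show q.1 * l5_rho P M l.2 γ₀ * (l5_rho P M l.2 γ)⁻¹ ∈ Xt.St P
    rw [mul_assoc, ← map_inv, ← map_mul]
    refine mul_mem hq.1 (l5_rho_mem P hM c κ hs _ ?_)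
    rw [map_mul, map_inv]
    rw [mul_assoc] at h1
    exact ((MM.Bsub hM c κ).mul_mem_cancel_left hq.2).1 h1
  · rw [l5_norm P hM c κ hκ]
    exact h2.trans (le_max_right _ _)

theorem n5_pos (x : X5 P hM c κ) (hx : x ≠ 1) : 0 < n5 P hM c κ N x := Nrm.defn_pos _ hx

theorem n5_inK_eq (hκ : ∀ y, N (κ y) ≤ 1) (h : K) :
    n5 P hM c κ N (inK P hM c κ h) = n5 P hM c κ N (inB P hM c κ h) := by
  have h1 : (hd P hM c κ).nrm ((Xt.nX P N).prodMax (MM.machN hM c κ N)) 1 (inK P hM c κ h)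
      = N h := by
    refine ((hd P hM c κ).nrm_of (lip P hM c hκ) (SD.reg h, 1)).trans ?_
    show max (Xt.nX P N (SD.reg h)) (MM.machN hM c κ N 1) = _
    rw [(MM.machN hM c κ N).one, Xt.nX, SD.rad_reg, Nat.max_zero]
  have h2 : (hd P hM c κ).nrm ((Xt.nX P N).prodMax (MM.machN hM c κ N)) 1 (inB P hM c κ h)
      = N h := by
    refine ((hd P hM c κ).nrm_of (lip P hM c hκ) (1, MM.inK hM c κ h)).trans ?_
    show max (Xt.nX P N 1) (MM.machN hM c κ N (MM.inK hM c κ h)) = _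
    rw [(Xt.nX P N).one, MM.machN_inK hM c hκ, Nat.zero_max]
  have h3 : inK P hM c κ h = 1 ↔ inB P hM c κ h = 1 := by
    rw [map_eq_one_iff _ (inK_injective P hM c κ), map_eq_one_iff _ (inB_injective P hM c κ)]
  simp only [n5, Nrm.defn, h1, h2]
  by_cases h4 : inB P hM c κ h = 1
  · rw [if_pos h4, if_pos (h3.2 h4)]
  · rw [if_neg h4, if_neg (fun h5 => h4 (h3.1 h5))]

theorem n5_g5 (hκ : ∀ y, N (κ y) ≤ 1) (a : A5 M) :
    n5 P hM c κ N (g5 P hM c κ a) ≤ M.wt + 2 := by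
  refine (Nrm.defn_le _ _).trans (Nat.succ_le_succ ?_)
  rcases a with ((y | u) | a) | u
  · refine ((hd P hM c κ).nrm_of_le _ _ (SD.reg (κ y), 1)).trans ?_
    show max (Xt.nX P N (SD.reg (κ y))) (MM.machN hM c κ N 1) ≤ _
    rw [(MM.machN hM c κ N).one, Xt.nX, SD.rad_reg, Nat.max_zero]
    exact (hκ y).trans (Nat.le_add_left _ _)
  · refine ((hd P hM c κ).nrm_of_le _ _ (Xt.tau P, 1)).trans ?_
    show max (Xt.nX P N (Xt.tau P)) (MM.machN hM c κ N 1) ≤ _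
    rw [(MM.machN hM c κ N).one, Xt.nX, Xt.tau, SD.rad_lt, Nat.max_zero]
    exact ((Xt.nu_le P N 1).trans N.one.le).trans (Nat.zero_le _)
  · refine ((hd P hM c κ).nrm_of_le _ _ (1, MM.machG hM c κ a)).trans ?_
    show max (Xt.nX P N 1) (MM.machN hM c κ N (MM.machG hM c κ a)) ≤ _
    rw [(Xt.nX P N).one, Nat.zero_max]
    exact MM.machN_machG hM c hκ a
  · exact ((hd P hM c κ).nrm_st_le _ _ u).trans (Nat.le_add_left _ _)

/-- `HD.exists_dec_mem` with `T = {1}` and `Xt.mem_of_small` for `R' = P5.comap inX`. -/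
theorem mem_P5_of_small (hg : Gens κ) (hs : Snd P M c κ) (hκ : ∀ y, N (κ y) ≤ 1) {n : ℕ}
    (hn : ∀ h, h ∉ P → N h ≤ n → M.Accepts c κ true h) {x : X5 P hM c κ}
    (hx : x ∈ Q5 P hM c κ) (hxn : 4 * n5 P hM c κ N x ≤ n) : x ∈ P5 P hM c κ := by
  have h0 := Nrm.le_defn ((hd P hM c κ).nrm ((Xt.nX P N).prodMax (MM.machN hM c κ N)) 1) x
  change _ ≤ n5 P hM c κ N x at h0
  obtain ⟨q, g₀, h1, h2, h3, h4⟩ := (hd P hM c κ).exists_dec_mem (lip P hM c hκ)
    (good P hM c κ hs) (decCtl P hM c hs hκ) (T := {1}) (x := x)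
    ⟨x, hx, 1, ⟨1, rfl, map_one _⟩, mul_one x⟩
  generalize (hd P hM c κ).nrm ((Xt.nX P N).prodMax (MM.machN hM c κ N)) 1 x = m at h0 h3 h4
  have key : ∀ y ∈ (Xt.St P).prod (MM.Bsub hM c κ),
      (Xt.nX P N).prodMax (MM.machN hM c κ N) y ≤ 2 * m → (hd P hM c κ).of y ∈ P5 P hM c κ := by
    intro y hy hy'
    rw [l5_of_pair]
    refine mul_mem ?_ (inM_mem_P5 P hM c κ hy.2)
    have h5 : Xt.nX P N y.1 ≤ 2 * m := (le_max_left _ _).trans hy'
    refine Xt.mem_of_small P (N := N) (R' := (P5 P hM c κ).comap (inX P hM c κ)) (n := n)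
      (fun h => ?_) ?_ (fun h hh hh' => lt_mem_P5 P hM c κ (hn h hh hh')) hy.1 (by omega)
    · rw [Subgroup.mem_comap, map_mul, map_mul, map_inv]
      exact conj_mem_P5 P hM c κ hg h
    · rw [Subgroup.mem_comap, map_mul]
      exact sq_mem_P5 P hM c κ
  rw [h1]
  refine mul_mem ((Subgroup.closure_le _).2 ?_ h4) (key g₀ ?_ (by omega))
  · rintro _ (⟨y, hy, rfl⟩ | ⟨i, -, rfl⟩)
    · exact key y hy.1 hy.2
    · exact l5_st_mem P hM c κ
  · obtain ⟨a, ha, b, hb, rfl⟩ := h2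
    rw [Set.mem_singleton_iff] at hb
    simp only [hb, mul_one]
    exact ha

end L5

end Crest.Agent.R185
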