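import Crest.Agent.R185.L5

/-!
# R185 TASK L5b: presentation and certificates for layer 5
-/

set_option autoImplicit false

namespace Crest.Agent.R185

open scoped Pointwise

section l5b

theorem l5b_wev_prod {𝔄 𝔅 G H : Type} [Group G] [Group H] (g : 𝔄 → G) (h : 𝔅 → H) (u : Wd 𝔄)
    (v : Wd 𝔅) : wev (prodGens g h) (wmap Sum.inl u ++ wmap Sum.inr v) = (wev g u, wev h v) := by
  have h1 := map_wev (MonoidHom.inl G H) g u
  have h2 := map_wev (MonoidHom.inr G H) h v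
  rw [wev_append, wev_wmap, wev_wmap,
    show prodGens g h ∘ Sum.inl = MonoidHom.inl G H ∘ g from rfl,
    show prodGens g h ∘ Sum.inr = MonoidHom.inr G H ∘ h from rfl, ← h1, ← h2]
  simp

variable {k : ℕ} {M : MM k} {K : Type} [Group K] (P : Subgroup K)

/-- `rho0` (`b = true`) and `rhoT` (`b = false`) -/
def l5b_rho (M : MM k) (b : Bool) : M.F1 K →* Xt P := if b then L5.rho0 P M else L5.rhoT P M

/-- the words of the images of the generators -/
def l5b_w (M : MM k) (b : Bool) : M.A1 → Wd (Fin k ⊕ Unit)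
  | Sum.inl (Sum.inl y) => [(Sum.inl y, true)]
  | Sum.inl (Sum.inr _) => []
  | Sum.inr _ => if b then [] else [(Sum.inr (), true)]

theorem l5b_rho_reg (b : Bool) (r : M.Reg K) : l5b_rho P M b (SD.reg r) = SD.reg r.1 := by
  cases b
  · simp [l5b_rho, L5.rhoT]
  · simp [l5b_rho, L5.rho0, SD.reg]

theorem l5b_rho_lt (b : Bool) (r : M.Reg K) :
    l5b_rho P M b (SD.lt r) = if b then 1 else SD.lt (r.1 : K ⧸ P) := by
  cases b
  · simp [l5b_rho, L5.rhoT]
  · simp [l5b_rho, L5.rho0, SD.lt]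

theorem l5b_rho_gen (κ : Fin k → K) (b : Bool) (a : M.A1) :
    l5b_rho P M b (M.f1G κ a) = wev (Xt.xG P κ) (l5b_w M b a) := by
  rcases a with (y | l) | u
  · exact (l5b_rho_reg P b _).trans (by rw [l5b_w, wev_single_true]; rfl)
  · exact (l5b_rho_reg P b _).trans (by rw [l5b_w, wev_nil]; exact map_one _)
  · refine (l5b_rho_lt P b _).trans ?_
    cases b
    · simp only [l5b_w, Bool.false_eq_true, if_false, wev_single_true]; rfl
    · simp [l5b_w]

theorem l5b_rho_nrm (N : Nrm K) (b : Bool) (γ : M.F1 K) :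
    Xt.nX P N (l5b_rho P M b γ) ≤ M.f1N N γ := by
  refine SD.rad_map_le (M.sz_reg N) (Xt.sz P N) (MonoidHom.fst _ _)
    (fun r => if b then none else some (r.1 : K ⧸ P)) _ (l5b_rho_reg P b) (fun z => ?_)
    (fun r z => ?_) (fun r => Nat.le_add_right _ _) (fun z z' hz => ?_) γ
  · rw [l5b_rho_lt]; cases b <;> rfl
  · cases b <;> rfl
  · cases b
    · obtain rfl : (z.1 : K ⧸ P) = z' := by simpa using hz
      exact (Xt.nu_le P N _).trans (Nat.le_add_right _ _)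
    · simp at hz

variable (hM : M.Good) (c : ℕ) (κ : Fin k → K)

theorem l5b_dom (l : Unit × Bool) :
    (L5.hd P hM c κ).dom l = ((l5b_rho P M l.2).prod (MM.incM hM c κ)).range := by
  obtain ⟨_, _ | _⟩ := l <;> rfl

theorem l5b_St (hs : L5.Snd P M c κ) (b : Bool) {γ : M.F1 K}
    (h : MM.incM hM c κ γ ∈ MM.Bsub hM c κ) : l5b_rho P M b γ ∈ Xt.St P := by
  rw [MM.incM_mem_B] at h
  refine (Subgroup.closure_le ((Xt.St P).comap (l5b_rho P M b))).2 ?_ h
  rintro _ (⟨r, hr, rfl⟩ | ⟨r, hr, rfl⟩)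
  · change l5b_rho P M b _ ∈ Xt.St P
    rw [l5b_rho_lt]
    split_ifs
    exacts [one_mem _, Xt.lt_mem_St P (hs _ ⟨r.2, hr⟩)]
  · obtain rfl : r = 1 := hr
    rw [map_one]
    exact one_mem _

/-- the words of the retraction of the machine group -/
def l5b_v (M : MM k) : M.AM → Wd M.AM
  | Sum.inl (Sum.inl (Sum.inl y)) => [(Sum.inl (Sum.inl (Sum.inl y)), true)]
  | _ => []

theorem l5b_ret (N : Nrm K) (hκ : ∀ y, N (κ y) ≤ 1) :
    ∃ F : MM.Mach hM c κ →* MM.Mach hM c κ,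
      (∀ a, F (MM.machG hM c κ a) = wev (MM.machG hM c κ) (l5b_v M a)) ∧
      (∀ x, MM.machN hM c κ N (F x) ≤ MM.machN hM c κ N x) ∧
      ∀ x, F x = x ↔ x ∈ (MM.inK hM c κ).range := by
  obtain ⟨ρ, h1, h2⟩ := MM.exists_retK hM c κ
  refine ⟨(MM.inK hM c κ).comp ρ, fun a => ?_, fun x => ?_, fun x => ⟨fun h => ⟨_, h⟩, ?_⟩⟩
  · rcases a with ((y | l) | q) | i
    · exact (congrArg (MM.inK hM c κ) (h1 _)).trans (by rw [l5b_v, wev_single_true]; rfl)
    · exact (congrArg (MM.inK hM c κ) (h1 _)).trans (map_one _)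
    · exact (congrArg (MM.inK hM c κ) (h1 _)).trans (map_one _)
    · exact (congrArg (MM.inK hM c κ) (h2 _)).trans (map_one _)
  · rw [MonoidHom.comp_apply, MM.machN_inK hM c hκ]
    refine (MM.hd hM c κ).nrm_hom_le _ _ N ρ (fun g => ?_) (fun i => ?_) x
    · rw [h1]
      exact (Nat.le_add_right _ _).trans ((SD.rad_le_iff (M.sz_cfg N)).1 le_rfl).1
    · rw [h2, N.one]; exact Nat.zero_le _
  · rintro ⟨h, rfl⟩
    exact congrArg (MM.inK hM c κ) (h1 _)

end l5b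

variable {Sit : Type} {k : ℕ} {M : MM k} (hM : M.Good) {K : Sit → Type} [∀ σ, Group (K σ)]
  {κ : ∀ σ, Fin k → K σ} {P : ∀ σ, Subgroup (K σ)}

/-- `UP.sd` (with `Xt.based`), `MM.up_mach`, `UP.prod`, `UP.mh` (the associated subgroups are
generated by the images of the generators `f1G`). -/
theorem up_L5 (c : ℕ) {N : Sit → Set (FreeGroup (Fin k))} (L : Set (FreeGroup (Fin k)))
    (hL : L.Finite) (hP : ∀ σ, P σ = Subgroup.closure (FreeGroup.lift (κ σ) '' L))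
    (h : UP N κ {MonoidHom.id _}) :
    UP N (fun σ => L5.g5 (P σ) hM c (κ σ))
      {FreeGroup.map (L5.aK M), FreeGroup.map (L5.aB M)} := by
  have h1 := UP.sd (fun σ => Xt.based (P σ)) (fun _ => L) (fun _ => hL) (fun σ _ => hP σ) h
  have h3 := h1.prod (MM.up_mach hM c h)
  have e : ∀ σ b a, FreeGroup.lift (prodGens (Xt.xG (P σ) (κ σ)) (MM.machG hM c (κ σ)))
      (FreeGroup.mk (wmap Sum.inl (l5b_w M b a) ++ wmap Sum.inr [(M.incA a, true)])) =
      ((l5b_rho (P σ) M b).prod (MM.incM hM c (κ σ))) (M.f1G (κ σ) a) := by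
    intro σ b a
    refine (l5b_wev_prod _ _ _ _).trans ?_
    rw [MonoidHom.prod_apply, l5b_rho_gen, MM.incM_f1G, wev_single_true]
  have h4 := UP.mh (fun σ => L5.hd (P σ) hM c (κ σ)) (fun _ => Set.range fun a : M.A1 =>
    (FreeGroup.mk (wmap Sum.inl (l5b_w M true a) ++ wmap Sum.inr [(M.incA a, true)]),
      FreeGroup.mk (wmap Sum.inl (l5b_w M false a) ++ wmap Sum.inr [(M.incA a, true)])))
    (fun _ => Set.finite_range _) (fun σ i => ?_) (fun σ i => ?_) h3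
  · refine (congrArg (UP N fun σ => L5.g5 (P σ) hM c (κ σ)) (Eq.symm ?_)).mp h4
    unfold upMap
    rw [Set.image_union, Set.image_singleton, Set.image_singleton, Set.image_singleton,
      Set.image_singleton, Set.image_singleton, Set.image_singleton, Set.insert_eq]
    congr 2 <;> ext y <;> simp [L5.aK, L5.aB, L5.aM]
  · rw [← Set.range_comp]
    refine (l5b_dom (P σ) hM c (κ σ) (i, true)).trans ?_
    rw [MonoidHom.range_eq_map, ← (MM.f1G_gens (M := M) (h.1 σ) :), MonoidHom.map_closure,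
      ← Set.range_comp]
    congr 2
    exact funext fun a => (e σ true a).symm
  · rintro _ ⟨a, rfl⟩
    exact (congrArg _ (e σ true a)).trans ((HD.ofHoms_tr_true _ _ _ _ i _).trans (e σ false a).symm)

variable {E F : Type} [Primcodable E] [Primcodable F] {X : Ctx Sit E F}
  {N : ∀ σ, Nrm (K σ)} {f : ℕ → ℕ}

theorem CertEq.l5_base (hEq : CertEq X fun σ => L5.g5 (P σ) hM (X.c σ) (κ σ)) : CertEq X κ :=
  (CertEq.mh_base hEq).prod_fst.sd_base

/-- On the base `Xt × Mach` the size function is `n ↦ f (4 * n)`: `certS_Xt`, `MM.certS_mach`,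
`certS_graph` (for `α = rho0, rhoT`, `β = incM`, `(Q₁, Q₂) = (⊥, ⊥)` and `(St, Bsub)`; `MM.dec_B`),
then `certS_MH_base`, `certS_MH` (`T = {1}`).  The ranges of `inK` and `inB` are the images under
`of` of `(range reg) × 1` and `1 × range (MM.inK)`; these are retracts (`certS_not_fixed` with
`reg ∘ rightHom`, resp. `MM.inK ∘ ρ` for the `ρ` of `MM.exists_retK`, `HD.nrm_hom_le`; size
function `n ↦ f (8 * n)`).  Finally pass to the definite norm (`CertS.mono_nrm`, `Nrm.le_defn`). -/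
theorem certS_L5 (hf : Monotone f) (hg : ∀ σ, Gens (κ σ)) (hκ : ∀ σ y, N σ (κ σ y) ≤ 1)
    (hs : ∀ σ, L5.Snd (P σ) M (X.c σ) (κ σ))
    (hEq : CertEq X fun σ => L5.g5 (P σ) hM (X.c σ) (κ σ)) (hne : CertS X κ N f fun _ => {1}ᶜ)
    (hP : CertS X κ N f fun σ => (P σ : Set (K σ)))
    (hP' : CertS X κ N f fun σ => (P σ : Set (K σ))ᶜ) :
    (CertS X (fun σ => L5.g5 (P σ) hM (X.c σ) (κ σ)) (fun σ => L5.n5 (P σ) hM (X.c σ) (κ σ) (N σ))
      (fun n => f (16 * n)) fun _ => {1}ᶜ) ∧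
    (CertS X (fun σ => L5.g5 (P σ) hM (X.c σ) (κ σ)) (fun σ => L5.n5 (P σ) hM (X.c σ) (κ σ) (N σ))
      (fun n => f (16 * n)) fun σ => (L5.Q5 (P σ) hM (X.c σ) (κ σ) : Set _)ᶜ) ∧
    (CertS X (fun σ => L5.g5 (P σ) hM (X.c σ) (κ σ)) (fun σ => L5.n5 (P σ) hM (X.c σ) (κ σ) (N σ))
      (fun n => f (16 * n)) fun σ => ((L5.inK (P σ) hM (X.c σ) (κ σ)).range : Set _)ᶜ) ∧
    (CertS X (fun σ => L5.g5 (P σ) hM (X.c σ) (κ σ)) (fun σ => L5.n5 (P σ) hM (X.c σ) (κ σ) (N σ))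
      (fun n => f (16 * n)) fun σ => ((L5.inB (P σ) hM (X.c σ) (κ σ)).range : Set _)ᶜ) := by
  have eb := CertEq.mh_base hEq
  obtain ⟨x1, x2, x3⟩ := certS_Xt hf hg eb.prod_fst hne hP hP'
  obtain ⟨m1, m2, m3, m4, m5⟩ := MM.certS_mach hM hf hg hκ eb.prod_snd hne
  have hf8 : Monotone fun n => f (8 * n) := fun a b h => hf (Nat.mul_le_mul_left _ h)
  have hgb : ∀ σ, Gens (prodGens (Xt.xG (P σ) (κ σ)) (MM.machG hM (X.c σ) (κ σ))) := fun σ =>
    prodGens_gens (SD.gens_gens (hg σ) (Xt.based _)) (MM.machG_gens hM _ _ (hg σ))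
  have hL := fun σ => L5.lip (P σ) hM (X.c σ) (hκ σ)
  have fst : ∀ {S : ∀ σ, Set (Xt (P σ))} {a : ℕ}, a ≤ 8 →
      CertS X (fun σ => Xt.xG (P σ) (κ σ)) (fun σ => Xt.nX (P σ) (N σ)) (fun n => f (a * n)) S →
      CertS X (fun σ => prodGens (Xt.xG (P σ) (κ σ)) (MM.machG hM (X.c σ) (κ σ)))
        (fun σ => (Xt.nX (P σ) (N σ)).prodMax (MM.machN hM (X.c σ) (κ σ) (N σ)))
        (fun n => f (8 * n)) fun σ => Prod.fst ⁻¹' S σ :=
    fun ha h => h.fst fun σ x => hf (Nat.mul_le_mul ha (le_max_left _ _))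
  have snd : ∀ {S : ∀ σ, Set (MM.Mach hM (X.c σ) (κ σ))} {a : ℕ}, a ≤ 8 →
      CertS X (fun σ => MM.machG hM (X.c σ) (κ σ)) (fun σ => MM.machN hM (X.c σ) (κ σ) (N σ))
        (fun n => f (a * n)) S →
      CertS X (fun σ => prodGens (Xt.xG (P σ) (κ σ)) (MM.machG hM (X.c σ) (κ σ)))
        (fun σ => (Xt.nX (P σ) (N σ)).prodMax (MM.machN hM (X.c σ) (κ σ) (N σ)))
        (fun n => f (8 * n)) fun σ => Prod.snd ⁻¹' S σ :=
    fun ha h => h.snd fun σ x => hf (Nat.mul_le_mul ha (le_max_right _ _))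
  have hb : ∀ σ b (x : Xt (P σ) × MM.Mach hM (X.c σ) (κ σ)) γ,
      M.f1N (N σ) γ ≤ MM.machN hM (X.c σ) (κ σ) (N σ) x.2 →
      f (2 * Xt.nX (P σ) (N σ) (x.1 * (l5b_rho (P σ) M b γ)⁻¹)) ≤
        f (8 * (Xt.nX (P σ) (N σ)).prodMax (MM.machN hM (X.c σ) (κ σ) (N σ)) x) := by
    intro σ b x γ h
    refine hf ?_
    have h1 := (Xt.nX (P σ) (N σ)).mul x.1 (l5b_rho (P σ) M b γ)⁻¹
    rw [Nrm.inv] at h1
    have h2 := l5b_rho_nrm (P σ) (N σ) b γ
    change _ ≤ 8 * max (Xt.nX (P σ) (N σ) x.1) (MM.machN hM (X.c σ) (κ σ) (N σ) x.2)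
    omega
  have graph := fun (b : Bool) {Q₁ : ∀ σ, Subgroup (Xt (P σ))}
      {Q₂ : ∀ σ, Subgroup (MM.Mach hM (X.c σ) (κ σ))} =>
    certS_graph (X := X) (g := fun σ => Xt.xG (P σ) (κ σ))
      (h := fun σ => MM.machG hM (X.c σ) (κ σ)) (N := fun σ => Xt.nX (P σ) (N σ))
      (M := fun σ => MM.machN hM (X.c σ) (κ σ) (N σ)) (fun σ => MM.f1G_gens (M := M) (hg σ))
      (fun σ => l5b_rho (P σ) M b) (fun σ => MM.incM hM (X.c σ) (κ σ))
      (sα := fun _ => l5b_w M b) (sβ := fun _ a => [(M.incA a, true)])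
      ((Primrec.dom_finite (l5b_w M b)).comp Primrec.snd).to_comp
      ((Primrec.dom_finite fun a => [(M.incA a, true)]).comp Primrec.snd).to_comp
      (fun σ a => l5b_rho_gen _ _ _ _) (fun σ a => by rw [MM.incM_f1G, wev_single_true])
      (Q₁ := Q₁) (Q₂ := Q₂)
      (P := fun σ => (Xt.nX (P σ) (N σ)).prodMax (MM.machN hM (X.c σ) (κ σ) (N σ)))
      (D₁ := fun n => f (2 * n)) (D₂ := fun n => f (4 * n)) (D' := fun n => f (8 * n))
  have hdom : ∀ l, CertS X (fun σ => prodGens (Xt.xG (P σ) (κ σ)) (MM.machG hM (X.c σ) (κ σ)))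
      (fun σ => (Xt.nX (P σ) (N σ)).prodMax (MM.machN hM (X.c σ) (κ σ) (N σ)))
      (fun n => f (8 * n)) fun σ => ((L5.hd (P σ) hM (X.c σ) (κ σ)).dom l : Set _)ᶜ := by
    intro l
    refine (graph l.2 (Q₁ := fun _ => ⊥) (Q₂ := fun _ => ⊥) (fun σ γ h => ?_)
      (x1.congr fun σ => by simp) eb.prod_snd (m2.congr fun σ => by simp)
      (fun σ x => hf (Nat.mul_le_mul (by omega) (le_max_right _ _))) fun σ x hx => ?_).congr
      fun σ => ?_
    · rw [Subgroup.mem_bot, map_eq_one_iff _ (MM.incM_injective hM _ _)] at h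
      rw [h, map_one]
      exact one_mem _
    · obtain ⟨γ, hγ⟩ : x.2 ∈ (MM.incM hM (X.c σ) (κ σ)).range := by simpa using hx
      exact ⟨γ, by rw [hγ, mul_inv_cancel]; exact one_mem _,
        hb σ _ x γ (by rw [← hγ, MM.machN_incM hM _ (hκ σ)])⟩
    · rw [l5b_dom, Subgroup.bot_prod_bot, Subgroup.coe_bot, Set.singleton_one, one_mul]
  have fin : ∀ {S S' : ∀ σ, Set (L5.X5 (P σ) hM (X.c σ) (κ σ))},
      CertS X (fun σ => L5.g5 (P σ) hM (X.c σ) (κ σ))
        (fun σ => (L5.hd (P σ) hM (X.c σ) (κ σ)).nrm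
          ((Xt.nX (P σ) (N σ)).prodMax (MM.machN hM (X.c σ) (κ σ) (N σ))) 1)
        (fun n => f (8 * (2 * n))) (fun σ => (S σ)ᶜ) → (∀ σ, S σ = S' σ) →
      CertS X (fun σ => L5.g5 (P σ) hM (X.c σ) (κ σ))
        (fun σ => L5.n5 (P σ) hM (X.c σ) (κ σ) (N σ)) (fun n => f (16 * n)) fun σ => (S' σ)ᶜ :=
    fun h e => (h.congr fun σ => by rw [e σ]).mono_nrm fun σ x => hf (by
      rw [← Nat.mul_assoc]; exact Nat.mul_le_mul_left _ (Nrm.le_defn _ x))
  refine ⟨fin (certS_MH_base (T := fun _ => {1}) hf8 hgb hL hEq hdom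
      (((fst (by omega) x1).union (snd (by omega) m1)).congr fun σ => ?_)) fun σ => by simp,
    fin (certS_MH (T := fun _ => {1}) hf8 hgb hL (fun σ => L5.good _ hM _ _ (hs σ))
      (fun σ => L5.decCtl _ hM _ (hs σ) (hκ σ)) hEq hdom
      (((fst (by omega) x2).inter (snd (a := 0) (by omega)
        (m5.congr (fun _ _ => Iff.rfl) fun _ _ _ => Nat.zero_le _))).congr fun σ => rfl)
      (fun l _ => ?_) (((fst (by omega) x3).union (snd (by omega) m3)).congr fun σ => ?_))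
      fun σ => by simp [L5.Q5], ?_, ?_⟩
  · ext x
    simp [Prod.ext_iff, imp_iff_not_or]
  · refine (graph l.2 (fun σ γ h => l5b_St _ hM _ _ (hs σ) _ h) x3 m5 m4
      (fun σ x => hf (Nat.mul_le_mul (by omega) (le_max_right _ _))) fun σ x hx => ?_).congr
      fun σ => ?_
    · obtain ⟨γ, h1, h2⟩ := MM.dec_B hM _ (hκ σ) hx
      exact ⟨γ, h1, hb σ _ x γ h2⟩
    · rw [l5b_dom]
  · ext x
    simp [Subgroup.mem_prod, imp_iff_not_or]
  · have h := certS_not_fixed (D := fun n => f (2 * n))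
      (fun a b h => hf (Nat.mul_le_mul_left _ h)) x1
      (fun σ => SD.reg.comp SemidirectProduct.rightHom)
      (s := fun _ => Sum.elim (fun y => [(Sum.inl y, true)]) fun _ => [])
      ((Primrec.dom_finite _).comp Primrec.snd).to_comp
      (fun σ a => by
        rcases a with y | u
        · rw [Sum.elim_inl, wev_single_true]; rfl
        · exact map_one SD.reg)
      fun σ x => (SD.rad_reg _ _).trans_le ((SD.rad_le_iff (Xt.sz _ _)).1 le_rfl).1
    refine fin (certS_MH_base (T := fun σ => {x | SD.reg x.1.right = x.1 ∧ x.2 = 1}) hf8 hgb hL hEq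
      hdom (((fst (a := 4) (by omega) (h.mono fun n => by rw [← Nat.mul_assoc])).union
        (snd (by omega) m1)).congr fun σ => ?_)) fun σ => ?_
    · ext x
      simp [imp_iff_not_or]
    · ext x
      constructor
      · rintro ⟨⟨y, z⟩, ⟨h1, rfl⟩, rfl⟩
        exact ⟨y.right, congrArg (L5.inX (P σ) hM (X.c σ) (κ σ)) h1⟩
      · rintro ⟨y, rfl⟩
        exact ⟨(SD.reg y, 1), ⟨rfl, rfl⟩, rfl⟩
  · choose Φ h1 h2 h3 using fun σ => l5b_ret hM (X.c σ) (κ σ) (N σ) (hκ σ)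
    have h := certS_not_fixed (D := fun n => f (4 * n))
      (fun a b h => hf (Nat.mul_le_mul_left _ h)) m1 Φ (s := fun _ => l5b_v M)
      ((Primrec.dom_finite _).comp Primrec.snd).to_comp h1 h2
    refine fin (certS_MH_base (T := fun σ => {x | x.1 = 1 ∧ Φ σ x.2 = x.2}) hf8 hgb hL hEq
      hdom (((fst (by omega) x1).union
        (snd (a := 8) le_rfl (h.mono fun n => by rw [← Nat.mul_assoc]))).congr fun σ => ?_))
      fun σ => ?_
    · ext x
      simp [imp_iff_not_or]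
    · ext x
      constructor
      · rintro ⟨⟨y, z⟩, ⟨rfl, h2⟩, rfl⟩
        obtain ⟨w, rfl⟩ := (h3 σ z).1 h2
        exact ⟨w, rfl⟩
      · rintro ⟨y, rfl⟩
        exact ⟨(1, MM.inK hM _ _ y), ⟨rfl, (h3 σ _).2 ⟨y, rfl⟩⟩, rfl⟩

end Crest.Agent.R185
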