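import Crest.Agent.R185.MHDef

/-!
# R185 TASK MH1: Britton's lemma for multi-letter HNN extensions
-/

set_option autoImplicit false

namespace Crest.Agent.R185.HD

variable {G ι : Type} [Group G] (D : HD G ι)

@[simp] theorem opp_opp (l : ι × Bool) : opp (opp l) = l := by
  simp [opp]


@[simp] theorem sl_opp (l : ι × Bool) : D.sl (opp l) = (D.sl l)⁻¹ := by
  obtain ⟨i, b⟩ := l
  cases b <;> simp [sl, opp]


theorem tr_mem {l : ι × Bool} {a : G} (ha : a ∈ D.dom l) : D.tr l a ∈ D.dom (opp l) := by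
  obtain ⟨i, b⟩ := l
  cases b
  · simp only [dom, Bool.false_eq_true, if_false] at ha
    simp [tr, dom, opp, ha]
  · simp only [dom, if_true] at ha
    simp [tr, dom, opp, ha]


theorem tr_tr {l : ι × Bool} {a : G} (ha : a ∈ D.dom l) : D.tr (opp l) (D.tr l a) = a := by
  obtain ⟨i, b⟩ := l
  cases b
  · simp only [dom, Bool.false_eq_true, if_false] at ha
    simp only [tr, opp, ha, Bool.not_false, Bool.false_eq_true, if_true, if_false, dif_pos,
      SetLike.coe_mem, Subtype.coe_eta]
    exact congrArg Subtype.val ((D.θ i).apply_symm_apply ⟨a, ha⟩)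
  · simp only [dom, if_true] at ha
    simp only [tr, opp, ha, Bool.not_true, Bool.false_eq_true, if_true, if_false, dif_pos,
      SetLike.coe_mem, Subtype.coe_eta]
    exact congrArg Subtype.val ((D.θ i).symm_apply_apply ⟨a, ha⟩)


theorem tr_mul {l : ι × Bool} {a b : G} (ha : a ∈ D.dom l) (hb : b ∈ D.dom l) :
    D.tr l (a * b) = D.tr l a * D.tr l b := by
  have hab := (D.dom l).mul_mem ha hb
  obtain ⟨i, c⟩ := l
  cases c
  · simp only [dom, Bool.false_eq_true, if_false] at ha hb hab
    simp only [tr, Bool.false_eq_true, if_false, dif_pos ha, dif_pos hb, dif_pos hab]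
    rw [← Subgroup.coe_mul, ← map_mul]; rfl
  · simp only [dom, if_true] at ha hb hab
    simp only [tr, if_true, dif_pos ha, dif_pos hb, dif_pos hab]
    rw [← Subgroup.coe_mul, ← map_mul]; rfl


theorem tr_true (i : ι) (a : D.A i) : D.tr (i, true) a = D.θ i a := by
  simp [tr]


theorem tr_false (i : ι) (b : D.B i) : D.tr (i, false) b = (D.θ i).symm b := by
  simp [tr]


theorem sl_conj {l : ι × Bool} {a : G} (ha : a ∈ D.dom l) :
    (D.sl l)⁻¹ * D.of a * D.sl l = D.of (D.tr l a) := by
  obtain ⟨i, c⟩ := l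
  cases c
  · simp only [dom, Bool.false_eq_true, if_false] at ha
    have h1 := D.tr_false i ⟨a, ha⟩
    have h2 := D.conj i ((D.θ i).symm ⟨a, ha⟩)
    simp only [MulEquiv.apply_symm_apply] at h2
    simp only at h1
    rw [h1]
    simp only [sl, Bool.false_eq_true, if_false, inv_inv]
    rw [← h2]; group
  · simp only [dom, if_true] at ha
    have h1 := D.tr_true i ⟨a, ha⟩
    have h2 := D.conj i ⟨a, ha⟩
    simp only at h1 h2
    rw [h1]
    simpa only [sl, if_true] using h2


@[simp] theorem prd_nil (g₀ : G) : D.prd g₀ [] = D.of g₀ := by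
  simp [prd]


theorem prd_cons (g₀ : G) (p : (ι × Bool) × G) (L : List ((ι × Bool) × G)) :
    D.prd g₀ (p :: L) = D.of g₀ * D.sl p.1 * D.prd p.2 L := by
  simp [prd, mul_assoc]


theorem of_mul_prd (a g₀ : G) (L : List ((ι × Bool) × G)) :
    D.of a * D.prd g₀ L = D.prd (a * g₀) L := by
  simp [prd, mul_assoc]


theorem mh_induction {P : D.MH → Prop} (x : D.MH) (h1 : P 1)
    (hof : ∀ g y, P y → P (D.of g * y)) (hsl : ∀ l y, P y → P (D.sl l * y)) : P x := by
  let S : Subgroup D.MH :=
    { carrier := {x | (∀ y, P y → P (x * y)) ∧ ∀ y, P y → P (x⁻¹ * y)}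
      one_mem' := ⟨fun y hy => by simpa using hy, fun y hy => by simpa using hy⟩
      mul_mem' := fun {a b} ha hb =>
        ⟨fun y hy => by rw [mul_assoc]; exact ha.1 _ (hb.1 _ hy),
          fun y hy => by rw [mul_inv_rev, mul_assoc]; exact hb.2 _ (ha.2 _ hy)⟩
      inv_mem' := fun {a} ha => ⟨ha.2, fun y hy => by rw [inv_inv]; exact ha.1 y hy⟩ }
  have hS1 : ∀ g, D.of g ∈ S := fun g =>
    ⟨hof g, fun y hy => by rw [← map_inv]; exact hof _ y hy⟩
  have hS2 : ∀ i, D.st i ∈ S := fun i =>
    ⟨fun y hy => by simpa [sl] using hsl (i, true) y hy,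
      fun y hy => by simpa [sl] using hsl (i, false) y hy⟩
  have hx : x ∈ S := by
    obtain ⟨z, rfl⟩ := QuotientGroup.mk'_surjective (Subgroup.normalClosure D.rels) x
    induction z using Monoid.Coprod.induction_on with
    | inl g => exact hS1 g
    | inr w =>
      induction w using FreeGroup.induction_on with
      | C1 => rw [map_one, map_one]; exact S.one_mem
      | of i => exact hS2 i
      | inv_of i h => rw [map_inv, map_inv]; exact S.inv_mem h
      | mul a b ha hb => rw [map_mul, map_mul]; exact S.mul_mem ha hb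
    | mul a b ha hb => rw [map_mul]; exact S.mul_mem ha hb
  simpa using hx.1 1 h1

/-- every element is a product (closure induction / `hom_ext`). -/
theorem exists_prd (x : D.MH) : ∃ g₀ L, D.prd g₀ L = x := by
  induction x using D.mh_induction with
  | h1 => exact ⟨1, [], by simp⟩
  | hof g y hy =>
    obtain ⟨g₀, L, rfl⟩ := hy
    exact ⟨g * g₀, L, (D.of_mul_prd _ _ _).symm⟩
  | hsl l y hy =>
    obtain ⟨g₀, L, rfl⟩ := hy
    exact ⟨1, (l, g₀) :: L, by rw [prd_cons]; simp⟩


theorem gens_gens {𝔄 : Type} {g : 𝔄 → G} (hg : Gens g) : Gens (D.gens g) := by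
  rw [Gens, eq_top_iff]
  intro x _
  have hof : ∀ a, D.of a ∈ Subgroup.closure (Set.range (D.gens g)) := by
    intro a
    have ha : a ∈ Subgroup.closure (Set.range g) := by rw [hg]; trivial
    induction ha using Subgroup.closure_induction with
    | mem x hx =>
      obtain ⟨a, rfl⟩ := hx
      exact Subgroup.subset_closure ⟨Sum.inl a, rfl⟩
    | one => rw [map_one]; exact Subgroup.one_mem _
    | mul x y _ _ hx hy => rw [map_mul]; exact Subgroup.mul_mem _ hx hy
    | inv x _ hx => rw [map_inv]; exact Subgroup.inv_mem _ hx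
  have hst : ∀ i, D.st i ∈ Subgroup.closure (Set.range (D.gens g)) := fun i =>
    Subgroup.subset_closure ⟨Sum.inr i, rfl⟩
  induction x using D.mh_induction with
  | h1 => exact Subgroup.one_mem _
  | hof a y hy => exact Subgroup.mul_mem _ (hof a) (hy trivial)
  | hsl l y hy =>
    refine Subgroup.mul_mem _ ?_ (hy trivial)
    unfold sl
    split_ifs
    · exact hst _
    · exact Subgroup.inv_mem _ (hst _)


open Classical in
/-- coset representatives -/
noncomputable def rep (l : ι × Bool) (g : G) : G :=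
  if g ∈ D.dom l then 1 else (Quotient.mk (QuotientGroup.rightRel (D.dom l)) g).out

theorem rep_of_mem {l : ι × Bool} {g : G} (hg : g ∈ D.dom l) : D.rep l g = 1 := by
  simp [rep, hg]

theorem mul_inv_rep_mem (l : ι × Bool) (g : G) : g * (D.rep l g)⁻¹ ∈ D.dom l := by
  unfold rep
  split_ifs with h
  · simpa using h
  · have := Quotient.mk_out (s := QuotientGroup.rightRel (D.dom l)) g
    exact QuotientGroup.rightRel_apply.1 this

theorem rep_mul {l : ι × Bool} {a : G} (ha : a ∈ D.dom l) (g : G) :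
    D.rep l (a * g) = D.rep l g := by
  unfold rep
  have h1 : a * g ∈ D.dom l ↔ g ∈ D.dom l := (D.dom l).mul_mem_cancel_left ha
  have h2 : Quotient.mk (QuotientGroup.rightRel (D.dom l)) (a * g) =
      Quotient.mk (QuotientGroup.rightRel (D.dom l)) g := by
    apply Quotient.sound
    apply QuotientGroup.rightRel_apply.2
    simpa using ha
  rw [h2]
  by_cases h : g ∈ D.dom l
  · rw [if_pos h, if_pos (h1.2 h)]
  · rw [if_neg h, if_neg (fun h' => h (h1.1 h'))]

theorem rep_rep (l : ι × Bool) (g : G) : D.rep l (D.rep l g) = D.rep l g := by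
  have h := D.rep_mul (D.mul_inv_rep_mem l g) (D.rep l g)
  rw [inv_mul_cancel_right] at h
  exact h.symm

/-- normal forms -/
def Nf (L : List ((ι × Bool) × G)) : Prop :=
  (∀ p ∈ L, D.rep (opp p.1) p.2 = p.2) ∧ L.IsChain fun p q => ¬ (p.2 = 1 ∧ q.1 = opp p.1)

/-- the cancellation condition -/
def Canc (l : ι × Bool) (x : G × List ((ι × Bool) × G)) : Prop :=
  x.1 ∈ D.dom (opp l) ∧ ∃ p ∈ x.2.head?, p.1 = opp l

open Classical in
/-- action of a letter -/
noncomputable def act (l : ι × Bool) (x : G × List ((ι × Bool) × G)) :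
    G × List ((ι × Bool) × G) :=
  if D.Canc l x then (D.tr (opp l) x.1 * (x.2.headD (l, 1)).2, x.2.tail)
  else (D.tr (opp l) (x.1 * (D.rep (opp l) x.1)⁻¹), (l, D.rep (opp l) x.1) :: x.2)

theorem act_canc (l : ι × Bool) {g : G} (hg : g ∈ D.dom (opp l)) (r : G)
    (L : List ((ι × Bool) × G)) :
    D.act l (g, (opp l, r) :: L) = (D.tr (opp l) g * r, L) := by
  have : D.Canc l (g, (opp l, r) :: L) := ⟨hg, (opp l, r), by simp, rfl⟩
  simp [act, this]

theorem act_ncanc (l : ι × Bool) {g : G} {L : List ((ι × Bool) × G)} (h : ¬ D.Canc l (g, L)) :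
    D.act l (g, L) = (D.tr (opp l) (g * (D.rep (opp l) g)⁻¹), (l, D.rep (opp l) g) :: L) := by
  simp [act, h]

theorem canc_elim {l : ι × Bool} {g : G} {L : List ((ι × Bool) × G)} (h : D.Canc l (g, L)) :
    g ∈ D.dom (opp l) ∧ ∃ r L', L = (opp l, r) :: L' := by
  obtain ⟨h1, p, hp, hp'⟩ := h
  refine ⟨h1, ?_⟩
  cases L with
  | nil => simp at hp
  | cons q L' =>
    simp only [List.head?_cons, Option.mem_def, Option.some.injEq] at hp
    subst hp
    exact ⟨q.2, L', by rw [← hp']⟩

theorem act_nf (l : ι × Bool) (x : G × List ((ι × Bool) × G)) (hx : D.Nf x.2) :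
    D.Nf (D.act l x).2 := by
  obtain ⟨g, L⟩ := x
  by_cases h : D.Canc l (g, L)
  · obtain ⟨hg, r, L', rfl⟩ := D.canc_elim h
    rw [D.act_canc l hg]
    exact ⟨fun p hp => hx.1 p (List.mem_cons_of_mem _ hp), hx.2.tail⟩
  · rw [D.act_ncanc l h]
    refine ⟨?_, ?_⟩
    · intro p hp
      rcases List.mem_cons.1 hp with rfl | hp
      · exact D.rep_rep _ _
      · exact hx.1 p hp
    · refine List.IsChain.cons hx.2 ?_
      intro q hq hh
      apply h
      refine ⟨?_, q, hq, hh.2⟩
      have h1 := D.mul_inv_rep_mem (opp l) g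
      have h2 : D.rep (opp l) g = 1 := hh.1
      rw [h2] at h1
      simpa using h1

theorem act_act (l : ι × Bool) (x : G × List ((ι × Bool) × G)) (hx : D.Nf x.2) :
    D.act (opp l) (D.act l x) = x := by
  obtain ⟨g, L⟩ := x
  by_cases h : D.Canc l (g, L)
  · obtain ⟨hg, r, L', rfl⟩ := D.canc_elim h
    rw [D.act_canc l hg]
    have ha : D.tr (opp l) g ∈ D.dom l := by simpa using D.tr_mem hg
    have hr : D.rep l r = r := by simpa using hx.1 (opp l, r) (by simp)
    have hn : ¬ D.Canc (opp l) (D.tr (opp l) g * r, L') := by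
      intro hc
      obtain ⟨h1, r', L'', rfl⟩ := D.canc_elim hc
      rw [opp_opp] at h1
      have h2 : r ∈ D.dom l := ((D.dom l).mul_mem_cancel_left ha).1 h1
      have h3 : r = 1 := by rw [← hr]; exact D.rep_of_mem h2
      have h4 := hx.2
      rw [List.isChain_cons_cons] at h4
      exact h4.1 ⟨h3, rfl⟩
    rw [D.act_ncanc _ hn]
    simp only [opp_opp]
    rw [D.rep_mul ha, hr, mul_inv_cancel_right]
    have := D.tr_tr hg
    rw [opp_opp] at this
    rw [this]
  · rw [D.act_ncanc l h]
    have hm := D.mul_inv_rep_mem (opp l) g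
    have ha := D.tr_mem hm
    have := D.act_canc (opp l) ha (D.rep (opp l) g) L
    rw [D.tr_tr hm, opp_opp] at this
    rw [this]
    simp

theorem act_smul {l : ι × Bool} {a : G} (ha : a ∈ D.dom l) (g : G) (L : List ((ι × Bool) × G)) :
    D.act l (D.tr l a * g, L) = (a * (D.act l (g, L)).1, (D.act l (g, L)).2) := by
  have hb := D.tr_mem ha
  by_cases h : D.Canc l (g, L)
  · obtain ⟨hg, r, L', rfl⟩ := D.canc_elim h
    rw [D.act_canc l hg, D.act_canc l ((D.dom _).mul_mem hb hg), D.tr_mul hb hg, D.tr_tr ha,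
      mul_assoc]
  · have h' : ¬ D.Canc l (D.tr l a * g, L) := fun hc =>
      h ⟨((D.dom _).mul_mem_cancel_left hb).1 hc.1, hc.2⟩
    rw [D.act_ncanc l h, D.act_ncanc l h', D.rep_mul hb, mul_assoc,
      D.tr_mul hb (D.mul_inv_rep_mem _ _), D.tr_tr ha]

/-- the type of normal forms -/
def NF : Type := {x : G × List ((ι × Bool) × G) // D.Nf x.2}

/-- a letter as a permutation -/
noncomputable def actP (l : ι × Bool) : Equiv.Perm D.NF where
  toFun x := ⟨D.act l x.1, D.act_nf l x.1 x.2⟩
  invFun x := ⟨D.act (opp l) x.1, D.act_nf _ x.1 x.2⟩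
  left_inv x := Subtype.ext (D.act_act l x.1 x.2)
  right_inv x := Subtype.ext (by
    have := D.act_act (opp l) x.1 x.2
    rwa [opp_opp] at this)

/-- the base group acting on normal forms -/
def ofP : G →* Equiv.Perm D.NF where
  toFun g :=
    { toFun := fun x => ⟨(g * x.1.1, x.1.2), x.2⟩
      invFun := fun x => ⟨(g⁻¹ * x.1.1, x.1.2), x.2⟩
      left_inv := fun x => Subtype.ext (by simp)
      right_inv := fun x => Subtype.ext (by simp) }
  map_one' := Equiv.ext fun x => Subtype.ext (by
    show ((1 : G) * x.1.1, x.1.2) = x.1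
    simp)
  map_mul' a b := Equiv.ext fun x => Subtype.ext (by
    show (a * b * x.1.1, x.1.2) = (a * (b * x.1.1), x.1.2)
    rw [mul_assoc])

theorem actP_rel (i : ι) (a : D.A i) :
    (D.actP (i, true))⁻¹ * D.ofP a * D.actP (i, true) = D.ofP (D.θ i a) := by
  rw [mul_assoc, inv_mul_eq_iff_eq_mul]
  refine Equiv.ext fun x => Subtype.ext ?_
  have ha : (a : G) ∈ D.dom (i, true) := by simp [dom]
  have := D.act_smul ha x.1.1 x.1.2
  rw [tr_true] at this
  exact this.symm

/-- the action on normal forms -/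
noncomputable def Phi : D.MH →* Equiv.Perm D.NF :=
  D.lift D.ofP (fun i => D.actP (i, true)) D.actP_rel

theorem Phi_of (g : G) (x : D.NF) : (D.Phi (D.of g) x).1 = (g * x.1.1, x.1.2) := by
  rw [Phi, lift_of]; rfl

theorem Phi_sl (l : ι × Bool) (x : D.NF) : (D.Phi (D.sl l) x).1 = D.act l x.1 := by
  obtain ⟨i, b⟩ := l
  cases b
  · simp only [sl, Bool.false_eq_true, if_false, map_inv]
    rw [Phi, lift_st]; rfl
  · simp only [sl, if_true]
    rw [Phi, lift_st]; rfl

/-- the base point -/
def nf0 : D.NF := ⟨(1, []), by simp [Nf]⟩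

theorem Phi_prd {L : List ((ι × Bool) × G)} (hL : D.Red L) (g₀ : G) :
    (D.Phi (D.prd g₀ L) D.nf0).1.2.map Prod.fst = L.map Prod.fst ∧
      (L = [] → (D.Phi (D.prd g₀ L) D.nf0).1.1 = g₀) ∧
      ∀ p ∈ L.head?, g₀⁻¹ * (D.Phi (D.prd g₀ L) D.nf0).1.1 ∈ D.dom p.1 := by
  induction L generalizing g₀ with
  | nil => rw [prd_nil, Phi_of]; simp [nf0]
  | cons p L ih =>
    obtain ⟨h1, -, h3⟩ := ih hL.tail p.2
    rw [prd_cons, map_mul, map_mul, Equiv.Perm.mul_apply, Equiv.Perm.mul_apply, Phi_of, Phi_sl]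
    generalize (D.Phi (D.prd p.2 L) D.nf0).1 = y at h1 h3
    obtain ⟨h, M⟩ := y
    have hn : ¬ D.Canc p.1 (h, M) := by
      intro hc
      obtain ⟨hh, r, M', rfl⟩ := D.canc_elim hc
      cases L with
      | nil => simp at h1
      | cons q L' =>
        simp only [List.map_cons, List.cons.injEq] at h1
        have h4 := h3 q (by simp)
        have h5 : D.Red (p :: q :: L') := hL
        simp only [Red, List.isChain_cons_cons] at h5
        apply h5.1 h1.1.symm
        rw [h1.1] at hh
        have := (D.dom q.1).mul_mem hh ((D.dom q.1).inv_mem h4)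
        simpa using this
    rw [D.act_ncanc _ hn]
    refine ⟨by simpa using h1, by simp, ?_⟩
    intro q hq
    simp only [List.head?_cons, Option.mem_def, Option.some.injEq] at hq
    subst hq
    have := D.tr_mem (D.mul_inv_rep_mem (opp p.1) h)
    simpa using this

/-- van der Waerden trick.  For every signed letter `l` choose a function `rep l : G → G` picking a
representative of the right coset `dom l * g` (`rep l g = rep l (a * g)` for `a ∈ dom l`,
`g * (rep l g)⁻¹ ∈ dom l`, `rep l g = 1` for `g ∈ dom l`).  Normal forms: pairs `(g₀, L)` where every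
entry `(l, r)` of `L` has `r = rep (opp l) r` and no consecutive `(l, 1), (opp l, _)`.
`G` acts by left multiplication on `g₀`; the letter `l` acts by
`(g₀, L) ↦ (a' * r', L')` if `rep (opp l) g₀ = 1` and `L = (opp l, r') :: L'`, and
`(g₀, L) ↦ (a', (l, rep (opp l) g₀) :: L)` otherwise, where
`a' = tr (opp l) (g₀ * (rep (opp l) g₀)⁻¹)` (because `sl l * a = tr (opp l) a * sl l` for
`a ∈ dom (opp l)`).  The actions of `l` and `opp l` are mutually inverse, the relations hold, so
`D.lift` gives `MH →* Equiv.Perm NF`.  A reduced `prd g₀ L` sends `(1, [])` to a normal form with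
the same list of letters (induction on `L`; the first component `h` of `prd g₁ L' • (1,[])`
satisfies `g₁⁻¹ * h ∈ dom` of the first letter of `L'`). -/
theorem britton {g₀ : G} {L : List ((ι × Bool) × G)} (hL : D.Red L)
    (h : D.prd g₀ L ∈ D.of.range) : L = [] := by
  obtain ⟨g, hg⟩ := h
  have h1 := (D.Phi_prd hL g₀).1
  rw [← hg, Phi_of] at h1
  simpa [nf0] using h1.symm


theorem of_injective : Function.Injective D.of := by
  intro a b hab
  have h1 := D.Phi_of a D.nf0
  rw [hab, Phi_of] at h1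
  simpa [nf0] using h1.symm


/-- two equal reduced expressions start with the same letter, and their first entries agree modulo
the associated subgroup (apply `britton` to `(prd h₀ M)⁻¹ * prd g₀ L`, or read it off the normal
form). -/
theorem head_eq {g₀ h₀ : G} {L M : List ((ι × Bool) × G)} (hL : D.Red L) (hM : D.Red M)
    (h : D.prd g₀ L = D.prd h₀ M) :
    (L = [] ∧ M = [] ∧ g₀ = h₀) ∨
      ∃ p L' q M', L = p :: L' ∧ M = q :: M' ∧ p.1 = q.1 ∧ h₀⁻¹ * g₀ ∈ D.dom p.1 := by
  obtain ⟨h1, h2, h3⟩ := D.Phi_prd hL g₀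
  obtain ⟨k1, k2, k3⟩ := D.Phi_prd hM h₀
  rw [h] at h1 h2 h3
  rw [h1] at k1
  cases L with
  | nil =>
    cases M with
    | nil => exact Or.inl ⟨rfl, rfl, by rw [← h2 rfl, k2 rfl]⟩
    | cons q M' => simp at k1
  | cons p L' =>
    cases M with
    | nil => simp at k1
    | cons q M' =>
      simp only [List.map_cons, List.cons.injEq] at k1
      refine Or.inr ⟨p, L', q, M', rfl, rfl, k1.1, ?_⟩
      have a1 := h3 p (by simp)
      have a2 := k3 q (by simp)
      rw [← k1.1] at a2
      have := (D.dom p.1).mul_mem a2 ((D.dom p.1).inv_mem a1)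
      simpa [mul_assoc] using this


end Crest.Agent.R185.HD
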