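import Crest.Agent.R185.Nrm

/-!
# R185: HNN extensions with several stable letters (definitions)
-/

set_option autoImplicit false

namespace Crest.Agent.R185

open scoped Pointwise

/-- data of a multi-letter HNN extension -/
structure HD (G : Type) [Group G] (ι : Type) where
  A : ι → Subgroup G
  B : ι → Subgroup G
  θ : ∀ i, A i ≃* B i

namespace HD

variable {G ι : Type} [Group G] (D : HD G ι)

/-- the relators `t_i⁻¹ a t_i (θ a)⁻¹` -/
def rels : Set (Monoid.Coprod G (FreeGroup ι)) :=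
  {x | ∃ (i : ι) (a : D.A i), x = (Monoid.Coprod.inr (FreeGroup.of i))⁻¹ *
    Monoid.Coprod.inl (a : G) * Monoid.Coprod.inr (FreeGroup.of i) *
    (Monoid.Coprod.inl (D.θ i a : G))⁻¹}

/-- the HNN extension -/
def MH : Type := Monoid.Coprod G (FreeGroup ι) ⧸ Subgroup.normalClosure D.rels

instance : Group D.MH :=
  inferInstanceAs (Group (Monoid.Coprod G (FreeGroup ι) ⧸ Subgroup.normalClosure D.rels))

/-- the base group -/
def of : G →* D.MH := (QuotientGroup.mk' _).comp Monoid.Coprod.inl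

/-- the stable letters -/
def st (i : ι) : D.MH := QuotientGroup.mk' _ (Monoid.Coprod.inr (FreeGroup.of i))

/-- signed stable letters -/
def sl (l : ι × Bool) : D.MH := if l.2 then D.st l.1 else (D.st l.1)⁻¹

/-- the opposite letter -/
def opp (l : ι × Bool) : ι × Bool := (l.1, !l.2)

/-- the subgroup conjugated back into the base group by `sl l` -/
def dom (l : ι × Bool) : Subgroup G := if l.2 then D.A l.1 else D.B l.1

open Classical in
/-- the conjugation by `sl l` on `dom l` (junk value `1` outside) -/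
noncomputable def tr (l : ι × Bool) (g : G) : G :=
  if l.2 then (if h : g ∈ D.A l.1 then (D.θ l.1 ⟨g, h⟩ : G) else 1)
  else (if h : g ∈ D.B l.1 then ((D.θ l.1).symm ⟨g, h⟩ : G) else 1)

/-- the product `g₀ s₁ g₁ s₂ g₂ ⋯` -/
def prd (g₀ : G) (L : List ((ι × Bool) × G)) : D.MH :=
  D.of g₀ * (L.map fun p => D.sl p.1 * D.of p.2).prod

/-- no pinch -/
def Red (L : List ((ι × Bool) × G)) : Prop :=
  L.IsChain fun p q => q.1 = opp p.1 → p.2 ∉ D.dom q.1

/-- cost of an expression: norms of the base elements plus `wt` for every stable letter -/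
def cost (N : Nrm G) (wt : ℕ) (g₀ : G) (L : List ((ι × Bool) × G)) : ℕ :=
  N g₀ + (L.map fun p => N p.2 + wt).sum

/-- the associated isomorphisms increase the norm by at most `wt` -/
def Lip (N : Nrm G) (wt : ℕ) : Prop := ∀ l, ∀ a ∈ D.dom l, N (D.tr l a) ≤ N a + wt

/-- the least cost of an expression -/
noncomputable def nrmF (N : Nrm G) (wt : ℕ) (x : D.MH) : ℕ :=
  sInf {n | ∃ g₀ L, D.prd g₀ L = x ∧ cost N wt g₀ L = n}

/-- `Q` is compatible with the letters in `I` -/
def Good (Q : Subgroup G) (I : Set ι) : Prop :=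
  ∀ i ∈ I, ∀ a : D.A i, (a : G) ∈ Q ↔ (D.θ i a : G) ∈ Q

/-- the subgroup generated by `Q` and the letters in `I` -/
def gen (Q : Subgroup G) (I : Set ι) : Subgroup D.MH :=
  Subgroup.closure (D.of '' (Q : Set G) ∪ D.st '' I)

/-- decompositions along `Q * dom l` do not increase the norm -/
def DecCtl (N : Nrm G) (Q : Subgroup G) (I : Set ι) : Prop :=
  ∀ l : ι × Bool, l.1 ∈ I → ∀ g ∈ (Q : Set G) * (D.dom l : Set G),
    ∃ a ∈ D.dom l, g * a⁻¹ ∈ Q ∧ N a ≤ N g

/-- a reduced expression which visibly does not lie in `gen Q I * T` -/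
def Stuck (Q : Subgroup G) (I : Set ι) (T : Set G) (g₀ : G) : List ((ι × Bool) × G) → Prop
  | [] => g₀ ∉ (Q : Set G) * T
  | p :: _ => p.1.1 ∈ I → g₀ ∉ (Q : Set G) * (D.dom p.1 : Set G)

/-- generators of the extension -/
def gens {𝔄 : Type} (g : 𝔄 → G) : 𝔄 ⊕ ι → D.MH := Sum.elim (fun a => D.of (g a)) D.st

theorem conj (i : ι) (a : D.A i) : (D.st i)⁻¹ * D.of a * D.st i = D.of (D.θ i a) := by
  have : (D.st i)⁻¹ * D.of a * D.st i * (D.of (D.θ i a))⁻¹ = 1 := by
    have h : QuotientGroup.mk' (Subgroup.normalClosure D.rels)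
        ((Monoid.Coprod.inr (FreeGroup.of i))⁻¹ * Monoid.Coprod.inl (a : G) *
          Monoid.Coprod.inr (FreeGroup.of i) * (Monoid.Coprod.inl (D.θ i a : G))⁻¹) = 1 :=
      (QuotientGroup.eq_one_iff _).2 (Subgroup.subset_normalClosure ⟨i, a, rfl⟩)
    rw [map_mul, map_mul, map_mul, map_inv, map_inv] at h
    exact h
  exact mul_inv_eq_one.1 this

/-- universal property -/
def lift {Λ : Type} [Group Λ] (f : G →* Λ) (s : ι → Λ)
    (h : ∀ i (a : D.A i), (s i)⁻¹ * f a * s i = f (D.θ i a)) : D.MH →* Λ :=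
  QuotientGroup.lift _ (Monoid.Coprod.lift f (FreeGroup.lift s)) (by
    intro x hx
    refine (Subgroup.normalClosure_le_normal (N := (Monoid.Coprod.lift f (FreeGroup.lift s)).ker)
      ?_) hx
    rintro _ ⟨i, a, rfl⟩
    simp [MonoidHom.mem_ker, h i a])

@[simp] theorem lift_of {Λ : Type} [Group Λ] (f : G →* Λ) (s : ι → Λ) (h) (g : G) :
    D.lift f s h (D.of g) = f g := by
  show Monoid.Coprod.lift f (FreeGroup.lift s) (Monoid.Coprod.inl g) = f g
  simp

@[simp] theorem lift_st {Λ : Type} [Group Λ] (f : G →* Λ) (s : ι → Λ) (h) (i : ι) :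
    D.lift f s h (D.st i) = s i := by
  show Monoid.Coprod.lift f (FreeGroup.lift s) (Monoid.Coprod.inr (FreeGroup.of i)) = s i
  simp

theorem hom_ext {Λ : Type} [Group Λ] {f f' : D.MH →* Λ} (h₁ : ∀ g, f (D.of g) = f' (D.of g))
    (h₂ : ∀ i, f (D.st i) = f' (D.st i)) : f = f' := by
  apply QuotientGroup.monoidHom_ext
  apply Monoid.Coprod.hom_ext
  · ext g; exact h₁ g
  · ext i; exact h₂ i

end HD

end Crest.Agent.R185
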