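import Crest.Agent.R185.Nrm

/-!
# R185: modular machines with a group register (definitions)
-/

set_option autoImplicit false

namespace Crest.Agent.R185

/-- A modular machine over an alphabet with `k` letters.  A configuration is a state, an element
of a group `K` (marked by `κ : Fin k → K`) and an integer vector.  Rule `i` applies in state
`src i` to vectors `a i + m i * n` (and only to the trivial group element if `test i`), and
produces the state `dst i`, the vector `a' c i + m' i * n` and multiplies the group element on the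
right by the inverse of the letter `mul i`.  `c` is a numerical parameter of the machine. -/
structure MM (k : ℕ) where
  nQ : ℕ
  nR : ℕ
  j : ℕ
  src : Fin nR → Fin nQ
  dst : Fin nR → Fin nQ
  m : Fin nR → Fin j → ℤ
  m' : Fin nR → Fin j → ℤ
  a : Fin nR → Fin j → ℤ
  a' : ℕ → Fin nR → Fin j → ℤ
  test : Fin nR → Bool
  mul : Fin nR → Option (Fin k × Bool)
  acc : Fin nQ
  inp : Bool → Fin nQ
  /-- the coordinate holding the script -/
  l₀ : Fin j
  /-- Lipschitz constant -/
  wt : ℕ

namespace MM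

variable {k : ℕ} (M : MM k)

/-- the register group -/
abbrev Reg (K : Type) : Type := K × Multiplicative (Fin M.j → ℤ)

/-- configurations -/
abbrev Cfg (K : Type) : Type := Fin M.nQ × M.Reg K

/-- the word by which rule `i` multiplies the register -/
def mulW (i : Fin M.nR) : Wd (Fin k) := winv (M.mul i).toList

/-- the numerical part of a step -/
def NStep (c : ℕ) (i : Fin M.nR) (ξ ξ' : Fin M.j → ℤ) : Prop :=
  ∃ n : Fin M.j → ℤ, ξ = M.a i + M.m i * n ∧ ξ' = M.a' c i + M.m' i * n

variable {K : Type} [Group K]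

/-- one step with rule `i` -/
def StepI (c : ℕ) (κ : Fin k → K) (i : Fin M.nR) (z z' : M.Cfg K) : Prop :=
  z.1 = M.src i ∧ z'.1 = M.dst i ∧ (M.test i = true → z.2.1 = 1) ∧
    z'.2.1 = z.2.1 * wev κ (M.mulW i) ∧ M.NStep c i z.2.2.toAdd z'.2.2.toAdd

/-- one step -/
def Step (c : ℕ) (κ : Fin k → K) (z z' : M.Cfg K) : Prop := ∃ i, M.StepI c κ i z z'

/-- accepted configurations -/
def Acc (c : ℕ) (κ : Fin k → K) : Set (M.Cfg K) :=
  {z | Relation.ReflTransGen (M.Step c κ) z (M.acc, 1)}

/-- the group element `h` is accepted with flag `F` (for some vector) -/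
def Accepts (c : ℕ) (κ : Fin k → K) (F : Bool) (h : K) : Prop :=
  ∃ ξ, (M.inp F, (h, ξ)) ∈ M.Acc c κ

/-- binary length of the script coordinate -/
def lam (ξ : Fin M.j → ℤ) : ℕ := Nat.size (ξ M.l₀).natAbs

/-- the properties of the machine used by the group theory -/
structure Good : Prop where
  zero : ∀ i l, M.m i l = 0 ↔ M.m' i l = 0
  det : ∀ i i' (n n' : Fin M.j → ℤ), M.src i = M.src i' →
    M.a i + M.m i * n = M.a i' + M.m i' * n' → i = i'
  acc : ∀ i, M.src i ≠ M.acc
  test_mul : ∀ i, M.test i = true → M.mul i = none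
  term : ∃ μ : (Fin M.j → ℤ) → ℕ, ∀ c i ξ ξ', M.NStep c i ξ ξ' → μ ξ' < μ ξ
  lam_step : ∀ c i ξ ξ', M.NStep c i ξ ξ' → M.lam ξ' + (M.mulW i).length ≤ M.lam ξ
  lam_back : ∀ c i ξ ξ', M.NStep c i ξ ξ' → M.lam ξ + 1 ≤ M.lam ξ' + M.wt
  lam_lat : ∀ i (n : Fin M.j → ℤ), M.lam (M.m' i * n) ≤ M.lam (M.m i * n) + M.wt ∧
    M.lam (M.m i * n) ≤ M.lam (M.m' i * n) + M.wt
  comp : Computable fun p : ℕ × Fin M.nR × Fin M.j => M.a' p.1 p.2.1 p.2.2
  /-- quine: every r.e. test of the parameter, the flag and the script is performed for a suitable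
  value of the parameter -/
  sem : ∀ W : ℕ × Bool × Wd (Fin k) × List (Wd (Fin k)) → Prop, REPred W → ∃ c : ℕ,
    ∀ (K : Type) [Group K] (κ : Fin k → K) (F : Bool) (h : K), M.Accepts c κ F h ↔
      ∃ w ws, h = wev κ w ∧ (∀ u ∈ ws, wev κ u = 1) ∧ W (c, F, w, ws)

end MM

end Crest.Agent.R185
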