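import Crest.Agent.R185.MMDef

/-!
# R185 TASK MMNum: numerical modular machines recognise all r.e. sets
-/

set_option autoImplicit false

namespace Crest.Agent.R185

/-- a modular machine without group register -/
structure NM where
  nQ : ℕ
  nR : ℕ
  j : ℕ
  src : Fin nR → Fin nQ
  dst : Fin nR → Fin nQ
  m : Fin nR → Fin j → ℤ
  m' : Fin nR → Fin j → ℤ
  a : Fin nR → Fin j → ℤ
  a' : Fin nR → Fin j → ℤ
  start : Fin nQ
  acc : Fin nQ
  lin : Fin j

namespace NM

variable (M : NM)

/-- one step -/
def Step (z z' : Fin M.nQ × (Fin M.j → ℤ)) : Prop :=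
  ∃ (i : Fin M.nR) (n : Fin M.j → ℤ), z.1 = M.src i ∧ z'.1 = M.dst i ∧
    z.2 = M.a i + M.m i * n ∧ z'.2 = M.a' i + M.m' i * n

/-- well-formed and deterministic -/
structure Good : Prop where
  zero : ∀ i l, M.m i l = 0 ↔ M.m' i l = 0
  det : ∀ i i' (n n' : Fin M.j → ℤ), M.src i = M.src i' →
    M.a i + M.m i * n = M.a i' + M.m i' * n' → i = i'
  acc : ∀ i, M.src i ≠ M.acc

end NM

namespace NMA

open Turing Turing.ToPartrec Turing.PartrecToTM2 StateTransition Relation

/-! ### machines over arbitrary types -/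

/-- a numerical modular machine over arbitrary types -/
structure GM (Q R L : Type) where
  src : R → Q
  dst : R → Q
  m : R → L → ℤ
  m' : R → L → ℤ
  a : R → L → ℤ
  a' : R → L → ℤ

variable {Q R L : Type}

def GM.Step (G : GM Q R L) (z z' : Q × (L → ℤ)) : Prop :=
  ∃ (i : R) (n : L → ℤ), z.1 = G.src i ∧ z'.1 = G.dst i ∧
    z.2 = G.a i + G.m i * n ∧ z'.2 = G.a' i + G.m' i * n

structure GM.Good (G : GM Q R L) : Prop where
  zero : ∀ i l, G.m i l = 0 ↔ G.m' i l = 0
  det : ∀ i i' (n n' : L → ℤ), G.src i = G.src i' →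
    G.a i + G.m i * n = G.a i' + G.m i' * n' → i = i'

lemma GM.Good.step_det {G : GM Q R L} (h : G.Good) {z z₁ z₂ : Q × (L → ℤ)} (h₁ : G.Step z z₁)
    (h₂ : G.Step z z₂) : z₁ = z₂ := by
  obtain ⟨i, n, a1, a2, a3, a4⟩ := h₁
  obtain ⟨i', n', b1, b2, b3, b4⟩ := h₂
  obtain rfl := h.det i i' n n' (a1.symm.trans b1) (a3.symm.trans b3)
  refine Prod.ext (a2.trans b2.symm) (funext fun l => ?_)
  have h1 := congrFun (a3.symm.trans b3) l
  simp only [Pi.add_apply, Pi.mul_apply, add_right_inj, mul_eq_mul_left_iff] at h1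
  rw [a4, b4]
  simp only [Pi.add_apply, Pi.mul_apply, add_right_inj, mul_eq_mul_left_iff]
  exact h1.imp_right (h.zero i l).1

lemma transport [Finite R] [Finite L] [DecidableEq L] (G : GM Q R L) (h : G.Good)
    (start acc : Q) (hacc : ∀ i, G.src i ≠ acc) (lin : L) :
    ∃ M : NM, M.Good ∧ ∀ x : ℤ, ReflTransGen M.Step (M.start, Pi.single M.lin x) (M.acc, 0) ↔
      ReflTransGen G.Step (start, Pi.single lin x) (acc, 0) := by
  classical
  set F : Set Q := (Set.range G.src ∪ Set.range G.dst) ∪ {start, acc} with hF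
  have hfin : F.Finite := ((Set.finite_range _).union (Set.finite_range _)).union (Set.toFinite _)
  have := hfin.to_subtype
  have hs : start ∈ F := Or.inr (Or.inl rfl)
  have ha : acc ∈ F := Or.inr (Or.inr rfl)
  have h1 : ∀ i, G.src i ∈ F := fun i => Or.inl (Or.inl ⟨i, rfl⟩)
  have h2 : ∀ i, G.dst i ∈ F := fun i => Or.inl (Or.inr ⟨i, rfl⟩)
  obtain ⟨φ, ψ, hφ⟩ : ∃ (φ : Q → Fin (Nat.card F)) (ψ : Fin (Nat.card F) → Q),
      ∀ q ∈ F, ψ (φ q) = q :=
    ⟨fun q => Finite.equivFin F (if hq : q ∈ F then ⟨q, hq⟩ else ⟨start, hs⟩),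
      fun i => ((Finite.equivFin F).symm i).1, fun q hq => by
      simp only [Equiv.symm_apply_apply, dif_pos hq]⟩
  have hinj : ∀ q ∈ F, ∀ q' ∈ F, φ q = φ q' → q = q' := fun q hq q' hq' e => by
    rw [← hφ q hq, e, hφ q' hq']
  let eR := (Finite.equivFin R).symm
  let eL := (Finite.equivFin L).symm
  let M : NM := ⟨Nat.card F, Nat.card R, Nat.card L, fun i => φ (G.src (eR i)),
    fun i => φ (G.dst (eR i)), fun i l => G.m (eR i) (eL l), fun i l => G.m' (eR i) (eL l),
    fun i l => G.a (eR i) (eL l), fun i l => G.a' (eR i) (eL l), φ start, φ acc, eL.symm lin⟩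
  refine ⟨M, ⟨fun i l => h.zero _ _, fun i i' n n' e1 e2 => eR.injective
    (h.det _ _ (n ∘ eL.symm) (n' ∘ eL.symm) (hinj _ (h1 _) _ (h1 _) e1) (funext fun l => ?_)),
    fun i e => hacc _ (hinj _ (h1 _) _ ha e)⟩, fun x => ⟨fun H => ?_, fun H => ?_⟩⟩
  · simpa [M] using congrFun e2 (eL.symm l)
  · have := ReflTransGen.lift (p := G.Step) (fun z : Fin M.nQ × (Fin M.j → ℤ) => (ψ z.1, z.2 ∘ eL.symm)) ?_ _ _ H
    · convert this using 2
      · exact (hφ _ hs).symm
      · funext l
        simp [M, Pi.single_apply]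
      · exact (hφ _ ha).symm
      · rfl
    · rintro z z' ⟨i, n, a1, a2, a3, a4⟩
      refine ⟨eR i, n ∘ eL.symm, ?_, ?_, funext fun l => ?_, funext fun l => ?_⟩
      · exact (congrArg ψ a1).trans (hφ _ (h1 _))
      · exact (congrArg ψ a2).trans (hφ _ (h2 _))
      · simp [a3, M]
      · simp [a4, M]
  · have := ReflTransGen.lift (p := M.Step) (fun z : Q × (L → ℤ) => (φ z.1, z.2 ∘ eL)) ?_ _ _ H
    · convert this using 2
      · funext l
        simp [M, Pi.single_apply, Equiv.eq_symm_apply]
      · rfl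
    · rintro z z' ⟨i, n, a1, a2, a3, a4⟩
      refine ⟨eR.symm i, n ∘ eL, ?_, ?_, funext fun l => ?_, funext fun l => ?_⟩
      · exact congrArg φ (a1.trans (congrArg G.src (eR.apply_symm_apply i).symm))
      · exact congrArg φ (a2.trans (congrArg G.dst (eR.apply_symm_apply i).symm))
      · simp [a3, M]
      · simp [a4, M]

/-! ### micro steps -/

abbrev St : Type := TM2.Stmt (fun _ : K' => Γ') Λ' (Option Γ')
abbrev MC : Type := St × Option Γ' × (K' → List Γ')

def trS (l : Λ') : St := tr l

/-- the stack inspected by a statement -/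
def ks : St → K'
  | .push k _ _ => k
  | .peek k _ _ => k
  | .pop k _ _ => k
  | _ => .main

/-- next statement and variable -/
def nx : St → Option Γ' → Option Γ' → Option (St × Option Γ')
  | .push _ _ q, v, _ => some (q, v)
  | .peek _ f q, v, o => some (q, f v o)
  | .pop _ f q, v, o => some (q, f v o)
  | .load f q, v, _ => some (q, f v)
  | .branch f q₁ q₂, v, _ => some (cond (f v) q₁ q₂, v)
  | .goto f, v, _ => some (trS (f v), v)
  | .halt, _, _ => none

/-- the word replacing the top symbol -/
def nw : St → Option Γ' → Option Γ' → List Γ'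
  | .push _ f _, v, o => f v :: o.toList
  | .pop _ _ _, _, _ => []
  | .halt, _, _ => []
  | _, _, o => o.toList

def ms (c : MC) : Option MC :=
  (nx c.1 c.2.1 (c.2.2 (ks c.1)).head?).map fun y => (y.1, y.2, Function.update c.2.2 (ks c.1)
    (nw c.1 c.2.1 (c.2.2 (ks c.1)).head? ++ (c.2.2 (ks c.1)).tail))

def toM (c : Cfg') : MC := (c.l.elim .halt trS, c.var, c.stk)

lemma head_tail (l : List Γ') : l.head?.toList ++ l.tail = l := by cases l <;> rfl

lemma sim (q : St) (v : Option Γ') (S : K' → List Γ') :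
    Reaches ms (q, v, S) (toM (TM2.stepAux q v S)) ∧
      (q ≠ .halt → Reaches₁ ms (q, v, S) (toM (TM2.stepAux q v S))) := by
  suffices h : q ≠ .halt → Reaches₁ ms (q, v, S) (toM (TM2.stepAux q v S)) by
    refine ⟨?_, h⟩
    by_cases hq : q = .halt
    · subst hq; exact ReflTransGen.refl
    · exact (h hq).to_reflTransGen
  have key : ∀ (q : St) (v : Option Γ') (S : K' → List Γ'),
      (q ≠ .halt → Reaches₁ ms (q, v, S) (toM (TM2.stepAux q v S))) →
        Reaches ms (q, v, S) (toM (TM2.stepAux q v S)) := fun q v S h => by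
    by_cases hq : q = .halt
    · subst hq; exact ReflTransGen.refl
    · exact (h hq).to_reflTransGen
  induction q generalizing v S with
  | push k f q ih =>
    exact fun _ => TransGen.head' (by simp [ms, nx, nw, ks, head_tail])
      (key q v (Function.update S k (f v :: S k)) (ih _ _))
  | peek k f q ih =>
    exact fun _ => TransGen.head' (by simp [ms, nx, nw, ks, head_tail])
      (key q (f v (S k).head?) S (ih _ _))
  | pop k f q ih =>
    exact fun _ => TransGen.head' (by simp [ms, nx, nw, ks])
      (key q (f v (S k).head?) (Function.update S k (S k).tail) (ih _ _))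
  | load f q ih =>
    exact fun _ => TransGen.head' (by simp [ms, nx, nw, ks, head_tail]) (key q (f v) S (ih _ _))
  | branch f q₁ q₂ ih₁ ih₂ =>
    intro _
    rw [TM2.stepAux]
    cases h : f v
    · exact TransGen.head' (by simp [ms, nx, nw, ks, head_tail, h]) (key _ _ _ (ih₂ _ _))
    · exact TransGen.head' (by simp [ms, nx, nw, ks, head_tail, h]) (key _ _ _ (ih₁ _ _))
  | goto f => exact fun _ => TransGen.single (by simp [ms, nx, nw, ks, head_tail, toM])
  | halt => exact fun h => absurd rfl h

lemma tr_ne_halt (l : Λ') : trS l ≠ .halt := by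
  cases l with
  | ret k => cases k <;> exact fun h => nomatch h
  | _ => exact fun h => nomatch h

lemma eval_ms (cd : Code) (v : List ℕ) :
    eval ms (toM (init cd v)) = toM <$> PartrecToTM2.halt <$> cd.eval v := by
  rw [← PartrecToTM2.tr_eval]
  refine tr_eval' _ _ toM (fun_respects.2 ?_) _
  rintro ⟨_ | l, v, S⟩
  · rfl
  · exact (sim (trS l) v S).2 (tr_ne_halt l)

/-! ### coding of stacks -/

def dg : Γ' → ℕ
  | .consₗ => 1
  | .cons => 2
  | .bit0 => 3
  | .bit1 => 4

def code : List Γ' → ℕ
  | [] => 0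
  | x :: l => dg x + 5 * code l

lemma code_append (l l' : List Γ') : code (l ++ l') = code l + 5 ^ l.length * code l' := by
  induction l with
  | nil => simp [code]
  | cons x l ih => simp only [List.cons_append, code, ih, List.length_cons]; ring

open Classical in
/-- the machine for a finite set `T` of statements -/
noncomputable def mach (T : Set St) : GM (Option (St × Option Γ')) (T × Option Γ' × Option Γ') K' where
  src r := some (r.1.1, r.2.1)
  dst r := nx r.1.1 r.2.1 r.2.2
  m r l := if r.1.1 = .halt then 0 else if l = ks r.1.1 then (if r.2.2 = none then 0 else 5) else 1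
  m' r l := if r.1.1 = .halt then 0 else if l = ks r.1.1 then
    (if r.2.2 = none then 0 else 5 ^ (nw r.1.1 r.2.1 r.2.2).length) else 1
  a r := Pi.single (ks r.1.1) (code r.2.2.toList)
  a' r := Pi.single (ks r.1.1) (code (nw r.1.1 r.2.1 r.2.2))

lemma mach_good (T : Set St) : (mach T).Good := by
  refine ⟨fun r l => ?_, ?_⟩
  · simp only [mach]
    split_ifs <;> simp
  · rintro ⟨q, v, o⟩ ⟨q', v', o'⟩ n n' e1 e2
    simp only [mach, Option.some.injEq, Prod.mk.injEq] at e1
    obtain ⟨e, rfl⟩ := e1
    obtain rfl := Subtype.ext e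
    have h := congrFun e2 (ks q.1)
    simp only [mach, Pi.add_apply, Pi.mul_apply, Pi.single_eq_same, if_true] at h
    congr 2
    split_ifs at h <;> rcases o with _ | _ | _ | _ | _ <;> rcases o' with _ | _ | _ | _ | _ <;>
      simp [code, dg] at * <;> omega

def enc (c : MC) : Option (St × Option Γ') × (K' → ℤ) :=
  (some (c.1, c.2.1), fun l => code (c.2.2 l))

lemma fwd {T : Set St} {c c' : MC} (hc : c.1 ∈ T) (h : ms c = some c') :
    (mach T).Step (enc c) (enc c') := by
  obtain ⟨q, v, S⟩ := c
  simp only [ms, Option.map_eq_some_iff] at h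
  obtain ⟨y, h1, rfl⟩ := h
  have hq : q ≠ .halt := by
    rintro rfl
    simp [nx] at h1
  refine ⟨(⟨q, hc⟩, v, (S (ks q)).head?), fun l => if l = ks q then code (S l).tail else code (S l),
    rfl, h1.symm, funext fun l => ?_, funext fun l => ?_⟩
  · simp only [enc, mach, Pi.add_apply, Pi.mul_apply, if_neg hq]
    split_ifs with h2 h3
    · subst h2
      rw [List.head?_eq_none_iff] at h3
      simp [h3]
    · subst h2
      rcases hS : S (ks q) with _ | ⟨x, t⟩
      · simp [hS] at h3
      · simp [code]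
    · simp [h2]
  · simp only [enc, mach, Pi.add_apply, Pi.mul_apply, if_neg hq]
    split_ifs with h2 h3
    · subst h2
      rw [List.head?_eq_none_iff] at h3
      simp [h3]
    · subst h2
      simp [code_append]
    · simp [h2]

lemma fwd_star {T : Set St} (hT : ∀ q ∈ T, ∀ v o y, nx q v o = some y → y.1 ∈ T) {c c' : MC}
    (hc : c.1 ∈ T) (h : Reaches ms c c') :
    c'.1 ∈ T ∧ ReflTransGen (mach T).Step (enc c) (enc c') := by
  induction h with
  | refl => exact ⟨hc, ReflTransGen.refl⟩
  | tail _ h2 ih =>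
    refine ⟨?_, ih.2.tail (fwd ih.1 h2)⟩
    simp only [ms, Option.mem_def, Option.map_eq_some_iff] at h2
    obtain ⟨y, h1, rfl⟩ := h2
    exact hT _ ih.1 _ _ _ h1

lemma bwd {T : Set St} {z : Option (St × Option Γ') × (K' → ℤ)}
    (h : ReflTransGen (mach T).Step z (none, 0)) : ∀ c, z = enc c → (eval ms c).Dom := by
  induction h using ReflTransGen.head_induction_on with
  | refl => intro c hc; simp [enc] at hc
  | head h1 _ ih =>
    rintro c rfl
    rcases hm : ms c with _ | c'
    · exact Part.dom_iff_mem.2 ⟨c, mem_eval.2 ⟨ReflTransGen.refl, hm⟩⟩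
    · have hc : c.1 ∈ T := by
        obtain ⟨r, -, a1, -⟩ := h1
        simp only [enc, mach, Option.some.injEq, Prod.mk.injEq] at a1
        exact a1.1 ▸ r.1.2
      rw [reaches_eval (ReflTransGen.single hm)]
      exact ih c' ((mach_good T).step_det h1 (fwd hc hm))

lemma stmts_closed (cd : Code) : ∀ q ∈ {q : St | some q ∈ TM2.stmts trS (codeSupp cd .halt)},
    ∀ v o y, nx q v o = some y → y.1 ∈ {q : St | some q ∈ TM2.stmts trS (codeSupp cd .halt)} := by
  intro q hq v o y h
  have hs := @TM2.stmts_supportsStmt _ _ _ _ ⟨_⟩ _ _ _ (tr_supports cd .halt) hq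
  cases q with
  | goto f =>
    obtain rfl := Option.some.inj h
    simp only [Set.mem_ofPred_eq, TM2.stmts, Finset.some_mem_insertNone, Finset.mem_biUnion]
    exact ⟨f v, hs v, TM2.stmts₁_self⟩
  | halt => simp [nx] at h
  | branch f q₁ q₂ =>
    obtain rfl := Option.some.inj h
    refine TM2.stmts_trans ?_ hq
    cases f v <;> simp [TM2.stmts₁, TM2.stmts₁_self]
  | _ =>
    obtain rfl := Option.some.inj h
    exact TM2.stmts_trans (by simp [TM2.stmts₁, TM2.stmts₁_self]) hq

lemma exists_mach (cd : Code) : ∃ M : NM, M.Good ∧ ∀ v : List ℕ, (∀ w ∈ cd.eval v, w = [0]) →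
    (ReflTransGen M.Step (M.start, Pi.single M.lin (code (trList v) : ℤ)) (M.acc, 0) ↔
      (cd.eval v).Dom) := by
  set T := {q : St | some q ∈ TM2.stmts trS (codeSupp cd .halt)} with hT
  have : Finite T := ((TM2.stmts trS (codeSupp cd .halt)).finite_toSet.preimage
    (Option.some_injective _).injOn).to_subtype
  have : Finite K' := Finite.of_surjective ![K'.main, .rev, .aux, .stack] fun k => by
    cases k
    exacts [⟨0, rfl⟩, ⟨1, rfl⟩, ⟨2, rfl⟩, ⟨3, rfl⟩]
  obtain ⟨M, h1, h2⟩ := transport (mach T) (mach_good T) (some (trS (trNormal cd .halt), none)) none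
    (fun i => Option.some_ne_none _) .main
  refine ⟨M, h1, fun v hv => (h2 _).trans ?_⟩
  have e : ∀ (q : St) (l : List Γ'), enc (q, none, K'.elim l [] [] []) =
      (some (q, none), Pi.single K'.main (code l : ℤ)) := fun q l =>
    Prod.ext rfl (funext fun k => by cases k <;> simp [enc, K'.elim, code])
  rw [← e]
  refine ⟨fun h => ?_, fun h => ?_⟩
  · have := bwd h (toM (init cd v)) rfl
    rw [eval_ms] at this
    exact this
  · obtain ⟨w, hw⟩ := Part.dom_iff_mem.1 h
    have h3 : toM (PartrecToTM2.halt w) ∈ eval ms (toM (init cd v)) := by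
      rw [eval_ms]
      exact Part.mem_map _ (Part.mem_map _ hw)
    obtain rfl := hv w hw
    have h0 : (toM (init cd v)).1 ∈ T := by
      simp only [hT, Set.mem_ofPred_eq, TM2.stmts, Finset.some_mem_insertNone, Finset.mem_biUnion]
      exact ⟨_, (tr_supports cd .halt).1, TM2.stmts₁_self⟩
    obtain ⟨h4, h5⟩ := fwd_star (stmts_closed cd) h0 (mem_eval.1 h3).1
    refine h5.tail ⟨(⟨.halt, h4⟩, none, some .cons), 0, rfl, rfl, ?_, ?_⟩
    · refine (congrArg Prod.snd (e .halt (trList [0]))).trans ?_
      simp [mach, ks]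
    · simp [mach, nw, code]

lemma trNat_bit {n : ℕ} {β : Bool} (h : 1 ≤ 2 * n + β.toNat) :
    trNat (2 * n + β.toNat) = cond β Γ'.bit1 Γ'.bit0 :: trNat n := by
  rw [← Num.to_of_nat n] at h ⊢
  generalize (n : Num) = m at h ⊢
  rcases m with _ | p
  · cases β
    · exact absurd h (by decide)
    · rfl
  · cases β
    · have : 2 * ((Num.pos p : Num) : ℕ) + false.toNat = ((Num.pos p.bit0 : Num) : ℕ) := by
        simp [two_mul]
      rw [this, trNat, trNat, Num.of_to_nat, Num.of_to_nat]
      rfl
    · have : 2 * ((Num.pos p : Num) : ℕ) + true.toNat = ((Num.pos p.bit1 : Num) : ℕ) := by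
        simp [two_mul]
      rw [this, trNat, trNat, Num.of_to_nat, Num.of_to_nat]
      rfl

lemma primrec_code : Primrec fun c : ℕ => code (trList [c]) := by
  have := Primrec.nat_strong_rec (fun (_ : Unit) (c : ℕ) => code (trList [c]))
    (g := fun _ l => if l.length = 0 then some 2 else
      (l[l.length / 2]?).map fun y => 3 + l.length % 2 + 5 * y) ?_ ?_
  · exact this.comp (Primrec.const ()) Primrec.id
  · have hl : Primrec fun p : Unit × List ℕ => p.2.length := Primrec.list_length.comp Primrec.snd
    refine Primrec.ite (Primrec.eq.comp hl (Primrec.const 0)) (Primrec.const _)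
      (Primrec.option_map (Primrec.list_getElem?.comp Primrec.snd
        (Primrec.nat_div.comp hl (Primrec.const 2))) ?_)
    exact Primrec.nat_add.comp (Primrec.nat_add.comp (Primrec.const 3)
      (Primrec.nat_mod.comp (hl.comp Primrec.fst) (Primrec.const 2)))
      (Primrec.nat_mul.comp (Primrec.const 5) Primrec.snd)
  · intro _ n
    simp only [List.length_map, List.length_range]
    split_ifs with h
    · subst h
      simp [code, dg]
    · rw [List.getElem?_map, List.getElem?_range (by omega)]
      simp only [Option.map_some, Option.some.injEq]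
      rcases Nat.mod_two_eq_zero_or_one n with h2 | h2
      · have e : n = 2 * (n / 2) + false.toNat := by simp; omega
        conv_rhs => rw [e, trList, trNat_bit (by simp; omega)]
        simp [code, dg, h2]
      · have e : n = 2 * (n / 2) + true.toNat := by simp; omega
        conv_rhs => rw [e, trList, trNat_bit (by simp)]
        simp [code, dg, h2]

lemma primrec_cast : Primrec fun n : ℕ => (n : ℤ) :=
  Primrec.encode_iff.1 (Primrec.nat_double.of_eq fun _ => rfl)

end NMA

/-- Simulation of Mathlib's `Turing.PartrecToTM2`.  Write `p (n, c) ↔ (f [n, c]).Dom` with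
`f v = pure 0` or divergent (`Nat.Partrec'.of_part`, `Turing.ToPartrec.Code.exists_code` give a code
`cd` with `cd.eval [n, c] = pure <$> …`), so `TM2.step tr` started in `init cd [n, c]` halts iff
`p (n, c)`, and then in `halt [0]` (`tr_eval`).  The four stacks are coded in base 5
(`[] ↦ 0`, `x :: l ↦ dig x + 5 * code l`, digits `1..4`), `enc n c` is the code of
`trList [n, c]`; `trNat (2 * n + β) = bit β :: trNat n` for `n ≥ 1`.  States: pairs of a statement in
the finite set `TM2.stmts trS (codeSupp cd halt)` (`tr_supports`, `TM2.stmts_trans`,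
`stmts_supportsStmt`) and a value of `Option Γ'`, plus `acc`.  One rule for each state, except
`peek`/`pop`: one rule for each top digit (`m = 5`) and one for the empty stack (`m = m' = 0`);
`halt` has the single rule `m = m' = 0`, `a = code of (halt [0])`, `a' = 0`, going to `acc`.
Simulate `TM2.stepAux` by micro steps (induction on the statement); determinism gives the converse.
Transport the finite types of states and rules to `Fin _` with `Finite.equivFin`
(it is convenient to prove the statement first for arbitrary finite types). -/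
theorem exists_NM {p : ℕ × ℕ → Prop} (hp : REPred p) :
    ∃ (M : NM) (enc : ℕ → ℕ → ℤ) (dig : Bool → ℤ), M.Good ∧ Computable (enc 1) ∧
      (∀ n c (β : Bool), 1 ≤ n → enc (2 * n + β.toNat) c = dig β + 5 * enc n c) ∧
      ∀ n c, Relation.ReflTransGen M.Step (M.start, Pi.single M.lin (enc n c)) (M.acc, 0) ↔
        p (n, c) := by
  have h1 : Partrec fun v : List.Vector ℕ 2 =>
      (Part.assert (p (v.head, v.tail.head)) fun _ => Part.some ()).map fun _ => (0 : ℕ) :=
    (hp.comp (Computable.vector_head.pair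
      (Computable.vector_head.comp Computable.vector_tail))).map (Computable.const 0).to₂
  obtain ⟨cd, hcd⟩ := Turing.ToPartrec.Code.exists_code (Nat.Partrec'.of_part h1)
  obtain ⟨M, hM, h2⟩ := NMA.exists_mach cd
  refine ⟨M, fun n c => NMA.code (Turing.PartrecToTM2.trList [n, c]), fun β => cond β 4 3, hM, ?_,
    fun n c β hn => ?_, fun n c => ?_⟩
  · refine (NMA.primrec_cast.comp (Primrec.nat_add.comp (Primrec.const 14)
      (Primrec.nat_mul.comp (Primrec.const 25) NMA.primrec_code))).to_comp.of_eq fun c => ?_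
    have := NMA.trNat_bit (n := 0) (β := true) le_rfl
    simp only [Nat.mul_zero, Bool.toNat_true, zero_add, Turing.PartrecToTM2.trNat_zero] at this
    dsimp only
    rw [Turing.PartrecToTM2.trList.eq_2 1, this]
    simp only [cond_true, List.cons_append, List.nil_append, NMA.code, NMA.dg]
    congr 1
    ring
  · dsimp only
    rw [Turing.PartrecToTM2.trList.eq_2 (2 * n + _), NMA.trNat_bit (by omega)]
    cases β <;> simp [NMA.code, NMA.dg]
  · have h3 := hcd ⟨[n, c], rfl⟩
    rw [h2 [n, c] fun w hw => ?_]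
    · rw [h3]
      exact ⟨fun h => h.1, fun h => ⟨h, trivial⟩⟩
    · rw [h3] at hw
      obtain ⟨x, hx, rfl⟩ := (Part.mem_map_iff _).1 hw
      obtain ⟨_, -, rfl⟩ := (Part.mem_map_iff _).1 hx
      rfl

end Crest.Agent.R185
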