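import Crest.Agent.R185.MachDef

/-!
# R185 TASK Mach1: the group of a modular machine
-/

set_option autoImplicit false

namespace Crest.Agent.R185.MM

open scoped Pointwise

variable {k : ℕ} {M : MM k} {K : Type} [Group K]

theorem based_g0 : SD.Based (R := M.Reg K) (fun q => ((q, 1) : M.Cfg K)) (fun _ => ⊥) := by
  constructor
  · rintro ⟨q, r⟩
    exact ⟨q, r, by simp⟩
  · intro q q' r r'
    simp only [smul_def, mul_one, Prod.mk.injEq, Subgroup.mem_bot, inv_mul_eq_one]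

theorem based_f1 : SD.Based (R := M.Reg K) (fun _ : Unit => (1 : M.Reg K)) (fun _ => ⊥) := by
  constructor
  · intro r
    exact ⟨(), r, by simp⟩
  · intro q q' r r'
    simp only [smul_eq_mul, mul_one, Subgroup.mem_bot, inv_mul_eq_one, true_and]

theorem regG_gens {κ : Fin k → K} (h : Gens κ) : Gens (M.regG κ) :=
  prodGens_gens h (zGens_gens M.j)

theorem g0G_gens {κ : Fin k → K} (h : Gens κ) : Gens (M.g0G κ) :=
  SD.gens_gens (regG_gens h) based_g0

theorem f1G_gens {κ : Fin k → K} (h : Gens κ) : Gens (M.f1G κ) :=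
  SD.gens_gens (regG_gens h) based_f1

theorem mach_mem_RA {i : Fin M.nR} {r : M.Reg K} :
    r ∈ M.RA K i ↔ (M.test i = true → r.1 = 1) ∧ ∃ n, r.2.toAdd = M.m i * n := by
  unfold RA
  rw [Subgroup.mem_prod]
  refine and_congr ?_ Iff.rfl
  cases M.test i <;> simp

theorem mach_mem_RB {i : Fin M.nR} {r : M.Reg K} :
    r ∈ M.RB K i ↔ (M.test i = true → r.1 = 1) ∧ ∃ n, r.2.toAdd = M.m' i * n := by
  unfold RB
  rw [Subgroup.mem_prod]
  refine and_congr ?_ Iff.rfl
  cases M.test i <;> simp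

/-- steps are equivariant -/
theorem mach_step_smul {c : ℕ} {κ : Fin k → K} {i : Fin M.nR} {z z' : M.Cfg K}
    (h : M.StepI c κ i z z') {r r' : M.Reg K} (hr : M.test i = true → r.1 = 1) (h1 : r'.1 = r.1)
    {n : Fin M.j → ℤ} (hn : r.2.toAdd = M.m i * n) (hn' : r'.2.toAdd = M.m' i * n) :
    M.StepI c κ i (r • z) (r' • z') := by
  obtain ⟨a1, a2, a3, a4, n₀, a5, a6⟩ := h
  refine ⟨a1, a2, fun ht => ?_, ?_, n + n₀, ?_, ?_⟩
  · simp [hr ht, a3 ht]
  · simp [h1, a4, mul_assoc]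
  · simp only [smul_def, Prod.snd_mul, toAdd_mul, hn, a5]; ring
  · simp only [smul_def, Prod.snd_mul, toAdd_mul, hn', a6]; ring

theorem mach_lat_congr {j : ℕ} {m m' : Fin j → ℤ} (h : ∀ l, m l = 0 → m' l = 0)
    {n n' : Fin j → ℤ} (e : m * n = m * n') : m' * n = m' * n' := by
  funext l
  have := congrFun e l
  simp only [Pi.mul_apply] at this ⊢
  by_cases h0 : m l = 0
  · simp [h l h0]
  · rw [mul_left_cancel₀ h0 this]

theorem mach_step_fun (hM : M.Good) {c : ℕ} {κ : Fin k → K} {i : Fin M.nR} {z z' z'' : M.Cfg K}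
    (h : M.StepI c κ i z z') (h' : M.StepI c κ i z z'') : z' = z'' := by
  obtain ⟨-, a2, -, a4, n, a5, a6⟩ := h
  obtain ⟨-, b2, -, b4, n', b5, b6⟩ := h'
  have e : M.m i * n = M.m i * n' := add_left_cancel (a5.symm.trans b5)
  have e' := mach_lat_congr (fun l => (hM.zero i l).1) e
  refine Prod.ext (a2.trans b2.symm) (Prod.ext (a4.trans b4.symm) ?_)
  apply Multiplicative.toAdd.injective
  rw [a6, b6, e']

theorem mach_step_inj (hM : M.Good) {c : ℕ} {κ : Fin k → K} {i : Fin M.nR} {z z' z'' : M.Cfg K}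
    (h : M.StepI c κ i z z'') (h' : M.StepI c κ i z' z'') : z = z' := by
  obtain ⟨a1, -, -, a4, n, a5, a6⟩ := h
  obtain ⟨b1, -, -, b4, n', b5, b6⟩ := h'
  have e : M.m' i * n = M.m' i * n' := add_left_cancel (a6.symm.trans b6)
  have e' := mach_lat_congr (fun l => (hM.zero i l).2) e
  refine Prod.ext (a1.trans b1.symm) (Prod.ext (mul_right_cancel (a4.symm.trans b4)) ?_)
  apply Multiplicative.toAdd.injective
  rw [a5, b5, e']

/-- `m * n ↦ m' * n` -/
def machPhi {j : ℕ} (m m' : Fin j → ℤ) (ξ : Fin j → ℤ) : Fin j → ℤ := fun l => m' l * (ξ l / m l)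

theorem machPhi_mul {j : ℕ} {m m' : Fin j → ℤ} (h : ∀ l, m l = 0 → m' l = 0) (n : Fin j → ℤ) :
    machPhi m m' (m * n) = m' * n := by
  funext l
  simp only [machPhi, Pi.mul_apply]
  by_cases h0 : m l = 0
  · simp [h l h0]
  · rw [Int.mul_ediv_cancel_left _ h0]

/-- the register part of the associated isomorphism -/
def machRho (hM : M.Good) (K : Type) [Group K] (i : Fin M.nR) : M.RA K i ≃* M.RB K i where
  toFun r := ⟨(r.1.1, Multiplicative.ofAdd (machPhi (M.m i) (M.m' i) r.1.2.toAdd)), by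
    obtain ⟨h1, n, hn⟩ := mach_mem_RA.1 r.2
    exact mach_mem_RB.2 ⟨h1, n, by rw [hn, machPhi_mul (fun l => (hM.zero i l).1)]; rfl⟩⟩
  invFun r := ⟨(r.1.1, Multiplicative.ofAdd (machPhi (M.m' i) (M.m i) r.1.2.toAdd)), by
    obtain ⟨h1, n, hn⟩ := mach_mem_RB.1 r.2
    exact mach_mem_RA.2 ⟨h1, n, by rw [hn, machPhi_mul (fun l => (hM.zero i l).2)]; rfl⟩⟩
  left_inv r := by
    obtain ⟨h1, n, hn⟩ := mach_mem_RA.1 r.2
    refine Subtype.ext (Prod.ext rfl ?_)
    apply Multiplicative.toAdd.injective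
    simp only [toAdd_ofAdd]
    rw [hn, machPhi_mul (fun l => (hM.zero i l).1), machPhi_mul (fun l => (hM.zero i l).2)]
  right_inv r := by
    obtain ⟨h1, n, hn⟩ := mach_mem_RB.1 r.2
    refine Subtype.ext (Prod.ext rfl ?_)
    apply Multiplicative.toAdd.injective
    simp only [toAdd_ofAdd]
    rw [hn, machPhi_mul (fun l => (hM.zero i l).2), machPhi_mul (fun l => (hM.zero i l).1)]
  map_mul' r s := by
    obtain ⟨-, n, hn⟩ := mach_mem_RA.1 r.2
    obtain ⟨-, n', hn'⟩ := mach_mem_RA.1 s.2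
    refine Subtype.ext (Prod.ext rfl ?_)
    apply Multiplicative.toAdd.injective
    simp only [Subgroup.coe_mul, Prod.snd_mul, toAdd_mul, toAdd_ofAdd]
    rw [hn, hn', ← mul_add, machPhi_mul (fun l => (hM.zero i l).1),
      machPhi_mul (fun l => (hM.zero i l).1), machPhi_mul (fun l => (hM.zero i l).1), mul_add]

theorem machRho_spec (hM : M.Good) (i : Fin M.nR) (r : M.RA K i) :
    (machRho hM K i r : M.Reg K).1 = (r : M.Reg K).1 ∧
      ∀ n, (r : M.Reg K).2.toAdd = M.m i * n → (machRho hM K i r : M.Reg K).2.toAdd = M.m' i * n := by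
  refine ⟨rfl, fun n hn => ?_⟩
  show machPhi (M.m i) (M.m' i) r.1.2.toAdd = _
  rw [hn, machPhi_mul (fun l => (hM.zero i l).1)]

theorem inv_ZA (c : ℕ) (κ : Fin k → K) (i : Fin M.nR) : SD.Inv (M.ZA c κ i) (M.RA K i) := by
  rintro r hr z ⟨z', h⟩
  obtain ⟨h1, n, hn⟩ := mach_mem_RA.1 hr
  exact ⟨_, mach_step_smul h h1 (r' := (r.1, Multiplicative.ofAdd (M.m' i * n))) rfl hn rfl⟩

theorem inv_ZB (c : ℕ) (κ : Fin k → K) (i : Fin M.nR) : SD.Inv (M.ZB c κ i) (M.RB K i) := by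
  rintro r hr z' ⟨z, h⟩
  obtain ⟨h1, n, hn⟩ := mach_mem_RB.1 hr
  exact ⟨_, mach_step_smul h (r := (r.1, Multiplicative.ofAdd (M.m i * n))) h1 rfl rfl hn⟩

/-- `SD.exists_subEquiv`; `m * n ↦ m' * n` is well defined and bijective by `Good.zero`. -/
theorem exists_theta (hM : M.Good) (c : ℕ) (κ : Fin k → K) (i : Fin M.nR) :
    ∃ θ, M.IsTheta c κ i θ := by
  classical
  let σ : M.Cfg K → M.Cfg K := fun z => if h : z ∈ M.ZA c κ i then h.choose else z
  have hσ : ∀ z ∈ M.ZA c κ i, M.StepI c κ i z (σ z) := by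
    intro z hz
    simp only [σ, dif_pos hz]
    exact hz.choose_spec
  have hb : Set.BijOn σ (M.ZA c κ i) (M.ZB c κ i) := by
    refine ⟨fun z hz => ⟨z, hσ z hz⟩, fun z hz z' hz' e => ?_, ?_⟩
    · exact mach_step_inj hM (hσ z hz) (e ▸ hσ z' hz')
    · rintro z' ⟨z, h⟩
      exact ⟨z, ⟨z', h⟩, mach_step_fun hM (hσ z ⟨z', h⟩) h⟩
  obtain ⟨θ, hθ⟩ := SD.exists_subEquiv (inv_ZA c κ i) (inv_ZB c κ i) (machRho hM K i) σ hb (by
    intro r z hz
    obtain ⟨h1, n, hn⟩ := mach_mem_RA.1 r.2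
    exact mach_step_fun hM (hσ _ (inv_ZA c κ i _ r.2 z hz))
      (mach_step_smul (hσ z hz) h1 (machRho_spec hM i r).1 hn ((machRho_spec hM i r).2 n hn)))
  refine ⟨θ, fun g => ?_⟩
  obtain ⟨g1, g2⟩ := (SD.mem_sub (inv_ZA c κ i)).1 g.2
  obtain ⟨h1, h2⟩ := hθ g
  rw [h1, h2 g2, List.forall₂_map_right_iff, List.forall₂_same]
  refine ⟨fun p hp => ⟨hσ _ (SD.left_mem_fr.1 g1 p hp), rfl⟩, (machRho_spec hM i _).1, ?_⟩
  exact (machRho_spec hM i ⟨_, g2⟩).2

/-- the HNN data of the machine -/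
noncomputable def hd (hM : M.Good) (c : ℕ) (κ : Fin k → K) : HD (M.G0 K) (Fin M.nR) where
  A i := SD.sub (M.ZA c κ i) (M.RA K i)
  B i := SD.sub (M.ZB c κ i) (M.RB K i)
  θ i := (exists_theta hM c κ i).choose

/-- the machine group -/
abbrev Mach (hM : M.Good) (c : ℕ) (κ : Fin k → K) : Type := (hd hM c κ).MH

variable (hM : M.Good) (c : ℕ) (κ : Fin k → K)

/-- generators of the machine group -/
noncomputable def machG : M.AM → Mach hM c κ := (hd hM c κ).gens (M.g0G κ)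

/-- norm on the machine group -/
noncomputable def machN (N : Nrm K) : Nrm (Mach hM c κ) := (hd hM c κ).nrm (M.g0N N) M.wt

/-- the subgroup generated by the letters of the accepted configurations -/
def TA (M : MM k) (c : ℕ) (κ : Fin k → K) : Subgroup (M.G0 K) := SD.sub (M.Acc c κ) ⊥

/-- the subgroup generated by the accepting letter and the rules -/
noncomputable def Bsub : Subgroup (Mach hM c κ) := (hd hM c κ).gen (M.TA c κ) Set.univ

/-- `F1 → Mach` -/
noncomputable def incM : M.F1 K →* Mach hM c κ := (hd hM c κ).of.comp (M.inc K)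

/-- `K → Mach` -/
noncomputable def inK : K →* Mach hM c κ :=
  (hd hM c κ).of.comp (SD.reg.comp (MonoidHom.inl _ _))

theorem mach_theta (i : Fin M.nR) : M.IsTheta c κ i ((hd hM c κ).θ i) :=
  (exists_theta hM c κ i).choose_spec

theorem mach_inc_reg (r : M.Reg K) : M.inc K (SD.reg r) = SD.reg r := by
  simp [inc, SD.mapZ]

theorem mach_inc_lt (r : M.Reg K) : M.inc K (SD.lt r) = SD.lt (M.inp true, r) := by
  simp [inc, SD.mapZ]

omit [Group K] in
theorem mach_inp_inj : Function.Injective (fun r : M.Reg K => ((M.inp true, r) : M.Cfg K)) :=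
  fun _ _ e => (Prod.ext_iff.1 e).2

theorem mach_wd_inc (γ : M.F1 K) :
    SD.wd (M.inc K γ) = (SD.wd γ).map (fun p => ((M.inp true, p.1), p.2)) ∧
      (M.inc K γ).right = γ.right :=
  SD.wd_mapZ _ mach_inp_inj γ

theorem mach_wd_lt {R Z : Type} [Group R] [MulAction R Z] (z : Z) :
    SD.wd (SD.lt z : SD R Z) = [(z, true)] := by
  have := SD.wd_eq (R := R) (l := [(z, true)]) (by simp [FreeGroup.IsReduced]) 1
  simpa using this

theorem mach_wd_reg {R Z : Type} [Group R] [MulAction R Z] (r : R) :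
    SD.wd (SD.reg r : SD R Z) = [] := by
  have := SD.wd_eq (R := R) (Z := Z) (l := []) (by simp [FreeGroup.IsReduced]) r
  simpa using this

theorem mach_inv_bot {R Z : Type} [Group R] [MulAction R Z] (Z' : Set Z) :
    SD.Inv Z' (⊥ : Subgroup R) := by
  intro r hr z hz
  rw [Subgroup.mem_bot] at hr
  subst hr
  simpa using hz

theorem machG_gens (h : Gens κ) : Gens (machG hM c κ) :=
  HD.gens_gens _ (g0G_gens h)

theorem incM_injective : Function.Injective (incM hM c κ) :=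
  (HD.of_injective _).comp (SD.mapZ_injective _ mach_inp_inj)

theorem inK_injective : Function.Injective (inK hM c κ) :=
  (HD.of_injective _).comp (SD.reg_injective.comp (fun _ _ e => (Prod.ext_iff.1 e).1))

theorem incM_f1G (a : M.A1) : incM hM c κ (M.f1G κ a) = machG hM c κ (M.incA a) := by
  rcases a with a | a
  · show (hd hM c κ).of (M.inc K (SD.reg (M.regG κ a))) = (hd hM c κ).of (SD.reg (M.regG κ a))
    rw [mach_inc_reg]
  · show (hd hM c κ).of (M.inc K (SD.lt 1)) = (hd hM c κ).of (SD.lt (M.inp true, 1))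
    rw [mach_inc_lt]

theorem range_inc : (M.inc K).range = SD.sub {z | z.1 = M.inp true} ⊤ := by
  unfold inc
  rw [SD.range_mapZ]
  congr 1
  ext ⟨q, r⟩
  simp [eq_comm]

theorem wev_cfgW (q : Fin M.nQ) (r : Wd M.AR) :
    wev (machG hM c κ) (M.cfgW q r) = (hd hM c κ).of (SD.lt (q, wev (M.regG κ) r)) := by
  have e : wev (machG hM c κ) (wmap (fun a => (Sum.inl (Sum.inl a) : M.AM)) r) =
      (hd hM c κ).of (SD.reg (wev (M.regG κ) r)) := by
    rw [wev_wmap, map_wev, map_wev]; rfl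
  unfold cfgW
  rw [wev_append, wev_append, wev_winv, e, wev_single_true]
  have e2 : machG hM c κ (Sum.inl (Sum.inr q)) = (hd hM c κ).of (SD.lt (q, 1)) := rfl
  rw [e2, ← map_inv, ← map_mul, ← map_mul, SD.reg_mul_lt]
  simp

theorem mach_theta_lt {i : Fin M.nR} {z z' : M.Cfg K} (h : M.StepI c κ i z z')
    (hz : SD.lt z ∈ (hd hM c κ).A i) : ((hd hM c κ).θ i ⟨SD.lt z, hz⟩ : M.G0 K) = SD.lt z' := by
  obtain ⟨h1, h2, h3⟩ := mach_theta hM c κ i ⟨SD.lt z, hz⟩
  simp only [mach_wd_lt] at h1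
  obtain ⟨⟨z'', b⟩, l, ⟨h4, h5⟩, h6, h7⟩ := List.forall₂_cons_left_iff.1 h1
  obtain rfl := List.forall₂_nil_left_iff.1 h6
  simp only at h4 h5
  obtain rfl := mach_step_fun hM h h4
  subst h5
  have h8 : ((hd hM c κ).θ i ⟨SD.lt z, hz⟩ : M.G0 K).right = 1 := by
    refine Prod.ext h2 ?_
    apply Multiplicative.toAdd.injective
    refine (h3 0 ?_).trans ?_
    · rw [mul_zero]; rfl
    · rw [mul_zero]; rfl
  refine (SD.eq_wd _).trans ?_
  erw [h7, h8]
  simp

theorem mach_theta_reg {i : Fin M.nR} {r r' : M.Reg K} (h1 : r'.1 = r.1) {n : Fin M.j → ℤ}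
    (hn : r.2.toAdd = M.m i * n) (hn' : r'.2.toAdd = M.m' i * n)
    (hz : SD.reg r ∈ (hd hM c κ).A i) : ((hd hM c κ).θ i ⟨SD.reg r, hz⟩ : M.G0 K) = SD.reg r' := by
  obtain ⟨a1, a2, a3⟩ := mach_theta hM c κ i ⟨SD.reg r, hz⟩
  simp only [mach_wd_reg] at a1
  have h7 := List.forall₂_nil_left_iff.1 a1
  have h8 : ((hd hM c κ).θ i ⟨SD.reg r, hz⟩ : M.G0 K).right = r' := by
    refine Prod.ext (a2.trans h1.symm) ?_
    apply Multiplicative.toAdd.injective
    exact (a3 n hn).trans hn'.symm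
  refine (SD.eq_wd _).trans ?_
  erw [h7, h8]
  simp

theorem mach_lt_mem_A {i : Fin M.nR} {z z' : M.Cfg K} (h : M.StepI c κ i z z') :
    SD.lt z ∈ (hd hM c κ).A i :=
  Subgroup.subset_closure (Or.inl ⟨z, ⟨z', h⟩, rfl⟩)

/-- a step conjugates the letters of the configurations -/
theorem conj_step {i : Fin M.nR} {z z' : M.Cfg K} (h : M.StepI c κ i z z') :
    ((hd hM c κ).st i)⁻¹ * (hd hM c κ).of (SD.lt z) * (hd hM c κ).st i =
      (hd hM c κ).of (SD.lt z') := by
  have := (hd hM c κ).conj i ⟨SD.lt z, mach_lt_mem_A hM c κ h⟩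
  rwa [mach_theta_lt hM c κ h] at this

include hM in
theorem mach_acc_step {i : Fin M.nR} {z z' : M.Cfg K} (h : M.StepI c κ i z z') :
    z ∈ M.Acc c κ ↔ z' ∈ M.Acc c κ := by
  constructor
  · intro hz
    rcases Relation.ReflTransGen.cases_head hz with e | ⟨z'', ⟨i', h'⟩, hz''⟩
    · exact absurd (h.1.symm.trans (congrArg Prod.fst e)) (hM.acc i)
    · obtain ⟨n, hn, -⟩ := h.2.2.2.2
      obtain ⟨n', hn', -⟩ := h'.2.2.2.2
      obtain rfl := hM.det i i' n n' (h.1.symm.trans h'.1) (hn.symm.trans hn')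
      rwa [mach_step_fun hM h h']
  · intro hz
    exact Relation.ReflTransGen.head ⟨i, h⟩ hz

theorem mach_forall₂_iff {α β : Type} {P : α → Prop} {Q : β → Prop} {l : List α} {l' : List β}
    (h : List.Forall₂ (fun a b => P a ↔ Q b) l l') : (∀ a ∈ l, P a) ↔ ∀ b ∈ l', Q b := by
  induction h with
  | nil => simp
  | cons h _ ih => simp [h, ih]

/-- forward determinism: if `StepI i z z'` then `z ∈ Acc ↔ z' ∈ Acc` (`Good.det`, `Good.acc`,
`Good.zero`). -/
theorem good_TA : (hd hM c κ).Good (M.TA c κ) Set.univ := by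
  intro i _ a
  obtain ⟨h1, h2, h3⟩ := mach_theta hM c κ i a
  obtain ⟨-, g2⟩ := (SD.mem_sub (inv_ZA c κ i)).1 a.2
  obtain ⟨-, n, hn⟩ := mach_mem_RA.1 g2
  have h4 := h3 n hn
  unfold TA
  rw [SD.mem_sub (mach_inv_bot _), SD.mem_sub (mach_inv_bot _), SD.left_mem_fr, SD.left_mem_fr]
  refine and_congr (mach_forall₂_iff (h1.imp fun p p' hp => mach_acc_step hM c κ hp.1)) ?_
  rw [Subgroup.mem_bot, Subgroup.mem_bot, Prod.ext_iff, Prod.ext_iff]
  refine and_congr (by erw [h2]) ?_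
  rw [← Multiplicative.toAdd.injective.eq_iff, ← Multiplicative.toAdd.injective.eq_iff]
  erw [hn, h4]
  show M.m i * n = 0 ↔ M.m' i * n = 0
  constructor
  · intro e
    have := mach_lat_congr (n' := 0) (fun l => (hM.zero i l).1) (e.trans (mul_zero _).symm)
    rwa [mul_zero] at this
  · intro e
    have := mach_lat_congr (n' := 0) (fun l => (hM.zero i l).2) (e.trans (mul_zero _).symm)
    rwa [mul_zero] at this

theorem lt_mem_B {z : M.Cfg K} : (hd hM c κ).of (SD.lt z) ∈ Bsub hM c κ ↔ z ∈ M.Acc c κ :=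
  (HD.of_mem_gen _ (good_TA hM c κ)).trans (SD.lt_mem_sub (mach_inv_bot _))

theorem B_eq :
    Bsub hM c κ = Subgroup.closure {x | ∃ w ∈ M.bW, x = wev (machG hM c κ) w} := by
  have hst : ∀ i, (hd hM c κ).st i ∈
      Subgroup.closure {x | ∃ w ∈ M.bW, x = wev (machG hM c κ) w} := by
    intro i
    refine Subgroup.subset_closure ⟨[(Sum.inr i, true)], ?_, ?_⟩
    · simp [bW]
    · rw [wev_single_true]; rfl
  have hlt : ∀ z ∈ M.Acc c κ, (hd hM c κ).of (SD.lt z) ∈
      Subgroup.closure {x | ∃ w ∈ M.bW, x = wev (machG hM c κ) w} := by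
    intro z hz
    induction hz using Relation.ReflTransGen.head_induction_on with
    | refl =>
      refine Subgroup.subset_closure ⟨[(Sum.inl (Sum.inr M.acc), true)], ?_, ?_⟩
      · simp [bW]
      · rw [wev_single_true]; rfl
    | head h _ ih =>
      obtain ⟨i, h⟩ := h
      rw [← conj_step hM c κ h, Subgroup.mul_mem_cancel_right _ (hst i),
        Subgroup.mul_mem_cancel_left _ (Subgroup.inv_mem _ (hst i))] at ih
      exact ih
  apply le_antisymm
  · refine (Subgroup.closure_le _).2 ?_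
    rintro _ (⟨g, hg, rfl⟩ | ⟨i, -, rfl⟩)
    · have : M.TA c κ ≤ (Subgroup.closure
          {x | ∃ w ∈ M.bW, x = wev (machG hM c κ) w}).comap (hd hM c κ).of := by
        refine (Subgroup.closure_le _).2 ?_
        rintro _ (⟨z, hz, rfl⟩ | ⟨r, hr, rfl⟩)
        · exact hlt z hz
        · obtain rfl := Subgroup.mem_bot.1 hr
          rw [map_one]
          exact Subgroup.one_mem _
      exact this hg
    · exact hst i
  · refine (Subgroup.closure_le _).2 ?_
    rintro _ ⟨w, hw, rfl⟩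
    simp only [bW, List.mem_cons, List.mem_map] at hw
    rcases hw with rfl | ⟨i, -, rfl⟩
    · rw [wev_single_true]
      exact (lt_mem_B hM c κ).2 Relation.ReflTransGen.refl
    · rw [wev_single_true]
      exact Subgroup.subset_closure (Or.inr ⟨i, trivial, rfl⟩)

theorem incM_mem_B {γ : M.F1 K} :
    incM hM c κ γ ∈ Bsub hM c κ ↔ γ ∈ SD.sub {r | (M.inp true, r) ∈ M.Acc c κ} ⊥ := by
  refine (HD.of_mem_gen _ (good_TA hM c κ)).trans ?_
  unfold TA
  rw [SD.mem_sub (mach_inv_bot _), SD.mem_sub (mach_inv_bot _), SD.left_mem_fr, SD.left_mem_fr,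
    (mach_wd_inc γ).1, (mach_wd_inc γ).2]
  simp only [List.forall_mem_map, Set.mem_ofPred_eq]

/-- the retraction onto the register `K` (kill the rules, the states and the vectors) -/
theorem exists_retK : ∃ ρ : Mach hM c κ →* K, (∀ g, ρ ((hd hM c κ).of g) = g.right.1) ∧
    ∀ i, ρ ((hd hM c κ).st i) = 1 := by
  refine ⟨(hd hM c κ).lift ((MonoidHom.fst _ _).comp SemidirectProduct.rightHom) (fun _ => 1)
    (fun i a => ?_), fun g => ?_, fun i => ?_⟩
  · rw [inv_one, one_mul, mul_one]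
    exact (mach_theta hM c κ i a).2.1.symm
  · rw [HD.lift_of]; rfl
  · rw [HD.lift_st]

end Crest.Agent.R185.MM
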