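import Crest.Agent.R185.Mach1

/-!
# R185 TASK Mach2: norms and presentation of the machine group
-/

set_option autoImplicit false

namespace Crest.Agent.R185.MM

open scoped Pointwise

variable {k : ℕ} {M : MM k} {K : Type} [Group K] (hM : M.Good) (c : ℕ) (κ : Fin k → K)

variable {κ} {N : Nrm K}

theorem mach2_mulW_le (i : Fin M.nR) : (M.mulW i).length ≤ 1 := by
  unfold mulW winv
  rw [FreeGroup.invRev_length]
  cases M.mul i <;> simp

include hM in
theorem mach2_step_le (hκ : ∀ y, N (κ y) ≤ 1) {i : Fin M.nR} {z z' : M.Cfg K}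
    (h : M.StepI c κ i z z') :
    M.regN N z'.2 ≤ M.regN N z.2 ∧ M.regN N z.2 ≤ M.regN N z'.2 + M.wt := by
  obtain ⟨-, -, -, a4, a5⟩ := h
  have h1 := hM.lam_step c i _ _ a5
  have h2 := hM.lam_back c i _ _ a5
  have h3 := N.wev_le κ hκ (M.mulW i)
  have h4 := mach2_mulW_le (M := M) i
  have h5 := N.mul z.2.1 (wev κ (M.mulW i))
  have h6 := N.mul z'.2.1 (wev κ (M.mulW i))⁻¹
  rw [N.inv] at h6
  rw [← a4] at h5
  rw [show z'.2.1 * (wev κ (M.mulW i))⁻¹ = z.2.1 by rw [a4]; simp] at h6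
  show N z'.2.1 + M.lam z'.2.2.toAdd ≤ N z.2.1 + M.lam z.2.2.toAdd ∧
    N z.2.1 + M.lam z.2.2.toAdd ≤ N z'.2.1 + M.lam z'.2.2.toAdd + M.wt
  omega

theorem mach2_forall₂_left {α β : Type} {P : α → β → Prop} {l : List α} {l' : List β}
    (h : List.Forall₂ P l l') : (∀ a ∈ l, ∃ b ∈ l', P a b) ∧ ∀ b ∈ l', ∃ a ∈ l, P a b := by
  induction h with
  | nil => simp
  | @cons a b l l' h _ ih =>
    constructor
    · intro x hx
      rcases List.mem_cons.1 hx with rfl | hx
      · exact ⟨b, by simp, h⟩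
      · obtain ⟨y, hy, h'⟩ := ih.1 x hx
        exact ⟨y, by simp [hy], h'⟩
    · intro x hx
      rcases List.mem_cons.1 hx with rfl | hx
      · exact ⟨a, by simp, h⟩
      · obtain ⟨y, hy, h'⟩ := ih.2 x hx
        exact ⟨y, by simp [hy], h'⟩

theorem mach2_theta_le (hκ : ∀ y, N (κ y) ≤ 1) (i : Fin M.nR) (a : (hd hM c κ).A i) :
    M.g0N N ((hd hM c κ).θ i a : M.G0 K) ≤ M.g0N N a + M.wt ∧
      M.g0N N a ≤ M.g0N N ((hd hM c κ).θ i a : M.G0 K) + M.wt := by
  obtain ⟨h1, h2, h3⟩ := mach_theta hM c κ i a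
  obtain ⟨-, g2⟩ := (SD.mem_sub (inv_ZA c κ i)).1 a.2
  obtain ⟨ht, n, hn⟩ := mach_mem_RA.1 g2
  have h4 := h3 n hn
  generalize ((hd hM c κ).θ i a : M.G0 K) = b at *
  generalize (a : M.G0 K) = g at *
  have hs : ∀ {z z' : M.Cfg K}, M.StepI c κ i z z' →
      M.StepI c κ i (g.right⁻¹ • z) (b.right⁻¹ • z') := by
    intro z z' h
    refine mach_step_smul h (fun e => ?_) ?_ (n := -n) ?_ ?_
    · simp [ht e]
    · simp [h2]
    · simp [hn]
    · simp [h4]
  obtain ⟨k1, k2⟩ := mach2_forall₂_left h1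
  obtain ⟨l1, l2⟩ := hM.lam_lat i n
  obtain ⟨a1, a2⟩ := (SD.rad_le_iff (M.sz_cfg N) (g := g)).1 le_rfl
  obtain ⟨b1, b2⟩ := (SD.rad_le_iff (M.sz_cfg N) (g := b)).1 le_rfl
  have e1 : M.regN N g.right = N g.right.1 + M.lam (M.m i * n) := by rw [← hn]; rfl
  have e2 : M.regN N b.right = N g.right.1 + M.lam (M.m' i * n) := by rw [← h4, ← h2]; rfl
  unfold g0N
  constructor
  · refine (SD.rad_le_iff (M.sz_cfg N)).2 ⟨by omega, fun p' hp' => ?_⟩
    obtain ⟨p, hp, h, -⟩ := k2 p' hp'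
    have c1 := (mach2_step_le hM c hκ h).1
    have c2 := (mach2_step_le hM c hκ (hs h)).1
    obtain ⟨d1, d2⟩ := a2 p hp
    constructor <;> omega
  · refine (SD.rad_le_iff (M.sz_cfg N)).2 ⟨by omega, fun p hp => ?_⟩
    obtain ⟨p', hp', h, -⟩ := k1 p hp
    have c1 := (mach2_step_le hM c hκ h).2
    have c2 := (mach2_step_le hM c hκ (hs h)).2
    obtain ⟨d1, d2⟩ := b2 p' hp'
    constructor <;> omega

/-- `lam_step`, `lam_back`, `lam_lat`; use `θ.right⁻¹ • z'` is the successor of `g.right⁻¹ • z`. -/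
theorem lip (hκ : ∀ y, N (κ y) ≤ 1) : (hd hM c κ).Lip (M.g0N N) M.wt := by
  rintro ⟨i, b⟩ a ha
  cases b
  · have ha' : a ∈ (hd hM c κ).B i := by simpa [HD.dom] using ha
    rw [show (hd hM c κ).tr (i, false) a = _ from (hd hM c κ).tr_false i ⟨a, ha'⟩]
    have := (mach2_theta_le hM c hκ i (((hd hM c κ).θ i).symm ⟨a, ha'⟩)).2
    rwa [MulEquiv.apply_symm_apply] at this
  · have ha' : a ∈ (hd hM c κ).A i := by simpa [HD.dom] using ha
    rw [show (hd hM c κ).tr (i, true) a = _ from (hd hM c κ).tr_true i ⟨a, ha'⟩]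
    exact (mach2_theta_le hM c hκ i ⟨a, ha'⟩).1

theorem decCtl : (hd hM c κ).DecCtl (M.g0N N) (M.TA c κ) Set.univ := by
  rintro ⟨i, b⟩ - g hg
  cases b
  · have e : (hd hM c κ).dom (i, false) = SD.sub (M.ZB c κ i) (M.RB K i) := rfl
    rw [e] at hg ⊢
    unfold TA at hg ⊢
    rw [SD.sub_bot_mul_sub (inv_ZB c κ i)] at hg
    exact SD.dec_W _ (inv_ZB c κ i) hg
  · have e : (hd hM c κ).dom (i, true) = SD.sub (M.ZA c κ i) (M.RA K i) := rfl
    rw [e] at hg ⊢
    unfold TA at hg ⊢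
    rw [SD.sub_bot_mul_sub (inv_ZA c κ i)] at hg
    exact SD.dec_W _ (inv_ZA c κ i) hg

theorem mach2_g0N_inc (γ : M.F1 K) : M.g0N N (M.inc K γ) = M.f1N N γ := by
  refine eq_of_forall_ge_iff fun n => ?_
  unfold g0N f1N
  rw [SD.rad_le_iff, SD.rad_le_iff, (mach_wd_inc γ).1, (mach_wd_inc γ).2]
  simp only [List.forall_mem_map, smul_def, smul_eq_mul]

theorem machN_incM (hκ : ∀ y, N (κ y) ≤ 1) (γ : M.F1 K) :
    machN hM c κ N (incM hM c κ γ) = M.f1N N γ :=
  (HD.nrm_of _ (lip hM c hκ) _).trans (mach2_g0N_inc γ)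

theorem machN_inK (hκ : ∀ y, N (κ y) ≤ 1) (x : K) : machN hM c κ N (inK hM c κ x) = N x := by
  refine (HD.nrm_of _ (lip hM c hκ) _).trans ((SD.rad_reg _ _).trans ?_)
  simp [regN, lam]

theorem machN_machG (hκ : ∀ y, N (κ y) ≤ 1) (a : M.AM) :
    machN hM c κ N (machG hM c κ a) ≤ M.wt + 1 := by
  rcases a with ((y | l) | q) | i
  · refine (HD.nrm_of_le _ _ _ _).trans ((SD.rad_reg _ _).trans_le ?_)
    have := hκ y
    simp only [regN, regG, prodGens, Sum.elim_inl, lam, toAdd_one, Pi.zero_apply, Int.natAbs_zero,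
      Nat.size_zero]
    omega
  · refine (HD.nrm_of_le _ _ _ _).trans ((SD.rad_reg _ _).trans_le ?_)
    simp only [regN, regG, prodGens, Sum.elim_inr, lam, zGens, toAdd_ofAdd, N.one]
    by_cases e : M.l₀ = l
    · subst e; simp
    · simp [Pi.single_eq_of_ne e]
  · refine (HD.nrm_of_le _ _ _ _).trans ((SD.rad_lt _ _).trans_le ?_)
    simp [(M.regN N).one]
  · exact (HD.nrm_st_le _ _ _ _).trans (Nat.le_succ _)

/-- `HD.exists_dec_mem`, `SD.dec_W` -/
theorem dec_B (hκ : ∀ y, N (κ y) ≤ 1) {x : Mach hM c κ}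
    (hx : x ∈ (Bsub hM c κ : Set (Mach hM c κ)) * ((incM hM c κ).range : Set (Mach hM c κ))) :
    ∃ γ, x * (incM hM c κ γ)⁻¹ ∈ Bsub hM c κ ∧ M.f1N N γ ≤ machN hM c κ N x := by
  have e : ((incM hM c κ).range : Set (Mach hM c κ)) =
      (hd hM c κ).of '' ((M.inc K).range : Set (M.G0 K)) := by
    ext y
    constructor
    · rintro ⟨γ, rfl⟩
      exact ⟨_, ⟨γ, rfl⟩, rfl⟩
    · rintro ⟨_, ⟨γ, rfl⟩, rfl⟩
      exact ⟨γ, rfl⟩
  rw [e] at hx
  obtain ⟨q, g₀, rfl, h1, h2, h3⟩ :=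
    HD.exists_dec_mem _ (lip hM c hκ) (good_TA hM c κ) (decCtl hM c) hx
  have hI : SD.Inv {z : M.Cfg K | z.1 = M.inp true} (⊤ : Subgroup (M.Reg K)) :=
    fun r _ z hz => hz
  rw [range_inc] at h1
  unfold TA at h1
  rw [SD.sub_bot_mul_sub hI] at h1
  obtain ⟨a, ha, h4, h5⟩ := SD.dec_W (M.sz_cfg N) hI h1
  rw [← range_inc] at ha
  obtain ⟨γ, rfl⟩ := ha
  refine ⟨γ, ?_, ?_⟩
  · have : q * (hd hM c κ).of g₀ * (incM hM c κ γ)⁻¹ =
        q * (hd hM c κ).of (g₀ * (M.inc K γ)⁻¹) := by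
      rw [map_mul, map_inv, mul_assoc]; rfl
    rw [this]
    refine Subgroup.mul_mem _ ?_ (Subgroup.subset_closure (Or.inl ⟨_, h4, rfl⟩))
    refine Subgroup.closure_mono ?_ h3
    exact Set.union_subset_union_left _ (Set.image_mono fun y hy => hy.1)
  · rw [← mach2_g0N_inc]
    exact h5.trans h2

theorem mach2_upMap_upMap {Y 𝔄 𝔅 ℭ : Type} (f : 𝔄 → 𝔅) (g : 𝔅 → ℭ)
    (S : Set (FreeGroup Y →* FreeGroup 𝔄)) : upMap g (upMap f S) = upMap (fun a => g (f a)) S := by
  unfold upMap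
  rw [Set.image_image]
  congr 1
  funext s
  rw [← MonoidHom.comp_assoc]
  congr 1
  ext a
  simp

/-- the generators of `RA` and their images -/
def mach2T (M : MM k) (m : Fin M.j → ℤ) (t : Bool) {K : Type} [Group K] (κ : Fin k → K) :
    Set (M.Reg K) :=
  Set.range (fun l => M.regG κ (Sum.inr l) ^ m l) ∪
    (fun y => M.regG κ (Sum.inl y)) '' {_y | t = false}

theorem mach2_zpow (κ : Fin k → K) (l : Fin M.j) (e : ℤ) :
    M.regG κ (Sum.inr l) ^ e = (1, Multiplicative.ofAdd (Pi.single l e)) := by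
  refine Prod.ext (by simp [regG, prodGens]) ?_
  apply Multiplicative.toAdd.injective
  simp only [regG, prodGens, Sum.elim_inr, zGens, Prod.pow_snd, toAdd_zpow, toAdd_ofAdd]
  rw [← Pi.single_smul]; simp

theorem mach2_single {j : ℕ} (m : Fin j → ℤ) (l : Fin j) :
    (Pi.single l (m l) : Fin j → ℤ) = m * Pi.single l 1 := by
  funext l'
  by_cases e : l' = l
  · subst e; simp
  · simp [Pi.single_eq_of_ne e]

theorem mach2_RA (hκ : Gens κ) (i : Fin M.nR) :
    M.RA K i = Subgroup.closure (mach2T M (M.m i) (M.test i) κ) := by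
  apply le_antisymm
  · rintro ⟨x, ξ⟩ hr
    obtain ⟨h1, n, hn⟩ := mach_mem_RA.1 hr
    have e : ((x, ξ) : M.Reg K) = (x, 1) * (1, ξ) := by simp
    rw [e]
    refine Subgroup.mul_mem _ ?_ ?_
    · cases ht : M.test i
      · have hx : x ∈ Subgroup.closure (Set.range κ) := by rw [hκ]; trivial
        have : Subgroup.closure (Set.range κ) ≤
            (Subgroup.closure (mach2T M (M.m i) false κ)).comap (MonoidHom.inl _ _) := by
          refine (Subgroup.closure_le _).2 ?_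
          rintro _ ⟨y, rfl⟩
          exact Subgroup.subset_closure (Or.inr ⟨y, rfl, rfl⟩)
        exact this hx
      · obtain rfl : x = 1 := h1 ht
        exact Subgroup.one_mem _
    · have e2 : ((1, ξ) : M.Reg K) =
          (List.finRange M.j |>.map fun l => (M.regG κ (Sum.inr l) ^ M.m i l) ^ n l).prod := by
        have : ∀ l, (M.regG κ (Sum.inr l) ^ M.m i l) ^ n l =
            MonoidHom.inr K _ (Multiplicative.ofAdd (Pi.single l (M.m i l * n l))) := by
          intro l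
          rw [← zpow_mul, mach2_zpow]; rfl
        simp only [this]
        rw [show (fun l => MonoidHom.inr K _ (Multiplicative.ofAdd (Pi.single l (M.m i l * n l)))) =
          MonoidHom.inr K (Multiplicative (Fin M.j → ℤ)) ∘
            (fun l => Multiplicative.ofAdd (Pi.single l (M.m i l * n l))) from rfl,
          ← List.map_map, ← map_list_prod, ← Fin.prod_univ_def, ← ofAdd_sum]
        refine Prod.ext rfl ?_
        apply Multiplicative.toAdd.injective
        simp only at hn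
        rw [hn]
        exact (Finset.univ_sum_single (M.m i * n)).symm
      rw [e2]
      refine Subgroup.list_prod_mem _ fun y hy => ?_
      obtain ⟨l, -, rfl⟩ := List.mem_map.1 hy
      refine Subgroup.zpow_mem _ (Subgroup.subset_closure ?_) _
      exact Or.inl ⟨l, rfl⟩
  · refine (Subgroup.closure_le _).2 ?_
    rintro _ (⟨l, rfl⟩ | ⟨y, hy, rfl⟩)
    · refine mach_mem_RA.2 ?_
      simp only [mach2_zpow]
      exact ⟨fun _ => trivial, Pi.single l 1, mach2_single _ _⟩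
    · refine mach_mem_RA.2 ⟨fun ht => ?_, 0, ?_⟩
      · rw [show M.test i = false from hy] at ht; cases ht
      · simp [regG, prodGens]

theorem mach2_ZA (i : Fin M.nR) :
    M.ZA c κ i = {z | ∃ r ∈ M.RA K i,
      z = r • ((M.src i, (1, Multiplicative.ofAdd (M.a i))) : M.Cfg K)} := by
  ext z
  constructor
  · rintro ⟨z', a1, -, a3, -, n, a5, -⟩
    refine ⟨(z.2.1, Multiplicative.ofAdd (M.m i * n)), mach_mem_RA.2 ⟨a3, n, rfl⟩, ?_⟩
    refine Prod.ext a1 (Prod.ext (by simp) ?_)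
    apply Multiplicative.toAdd.injective
    simp only [smul_def, Prod.snd_mul, toAdd_mul, toAdd_ofAdd, a5]
    ring
  · rintro ⟨r, hr, rfl⟩
    refine inv_ZA c κ i r hr _ ⟨(M.dst i, (wev κ (M.mulW i), Multiplicative.ofAdd (M.a' c i))),
      rfl, rfl, fun _ => rfl, by simp, 0, by simp, by simp⟩

/-- a word for a vector -/
noncomputable def mach2V (M : MM k) (v : Fin M.j → ℤ) : Wd M.AR :=
  wmap Sum.inr ((zGens_gens M.j).exists_wev (Multiplicative.ofAdd v)).choose

theorem mach2V_spec (κ : Fin k → K) (v : Fin M.j → ℤ) :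
    wev (M.regG κ) (mach2V M v) = (1, Multiplicative.ofAdd v) := by
  unfold mach2V
  rw [wev_wmap, show M.regG κ ∘ Sum.inr = MonoidHom.inr K _ ∘ zGens M.j from rfl, ← map_wev,
    ((zGens_gens M.j).exists_wev (Multiplicative.ofAdd v)).choose_spec]
  rfl

/-- the word of the letter of a configuration -/
def mach2C (M : MM k) (q : Fin M.nQ) (r : Wd M.AR) : FreeGroup M.A0 :=
  FreeGroup.mk (wmap Sum.inl r) * FreeGroup.of (Sum.inr q) * (FreeGroup.mk (wmap Sum.inl r))⁻¹

theorem mach2C_spec (κ : Fin k → K) (q : Fin M.nQ) (r : Wd M.AR) :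
    FreeGroup.lift (M.g0G κ) (mach2C M q r) = SD.lt (q, wev (M.regG κ) r) := by
  have e : FreeGroup.lift (M.g0G κ) (FreeGroup.mk (wmap Sum.inl r)) =
      SD.reg (wev (M.regG κ) r) := by
    rw [map_wev]
    exact wev_wmap (M.g0G κ) Sum.inl r
  unfold mach2C
  rw [map_mul, map_mul, map_inv, e, FreeGroup.lift_apply_of]
  have e2 : M.g0G κ (Sum.inr q) = SD.lt (q, 1) := rfl
  rw [e2, SD.reg_mul_lt]
  simp

/-- the pairs of words defining the associated isomorphisms -/
noncomputable def mach2L (M : MM k) (c : ℕ) (i : Fin M.nR) :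
    Set (FreeGroup M.A0 × FreeGroup M.A0) :=
  {(mach2C M (M.src i) (mach2V M (M.a i)),
    mach2C M (M.dst i) (wmap Sum.inl (M.mulW i) ++ mach2V M (M.a' c i)))} ∪
  (Set.range (fun l => (FreeGroup.of (Sum.inl (Sum.inr l)) ^ M.m i l,
    FreeGroup.of (Sum.inl (Sum.inr l)) ^ M.m' i l)) ∪
  (fun y => (FreeGroup.of (Sum.inl (Sum.inl y)), FreeGroup.of (Sum.inl (Sum.inl y)))) ''
    {_y | M.test i = false})

theorem mach2_lift_zpow (κ : Fin k → K) (a : M.AR) (e : ℤ) :
    FreeGroup.lift (M.g0G κ) (FreeGroup.of (Sum.inl a) ^ e) = SD.reg (M.regG κ a ^ e) := by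
  rw [map_zpow, map_zpow, FreeGroup.lift_apply_of]; rfl

theorem mach2_lift_of (κ : Fin k → K) (a : M.AR) :
    FreeGroup.lift (M.g0G κ) (FreeGroup.of (Sum.inl a)) = SD.reg (M.regG κ a) := by
  rw [FreeGroup.lift_apply_of]; rfl

/-- `UP.const` (for `zGens`), `UP.prod`, `UP.sd`, `UP.mh`; the associated subgroups are generated by
the letter of `(src i, (1, a i))`, the vectors `m i l • e_l` and (if not `test i`) the `κ y`
(`SD.sub_orbit`). -/
theorem up_mach {Sit Y : Type} {Nn : Sit → Set (FreeGroup Y)} {K : Sit → Type} [∀ σ, Group (K σ)]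
    {κ : ∀ σ, Fin k → K σ} {S : Set (FreeGroup Y →* FreeGroup (Fin k))} (h : UP Nn κ S) :
    UP Nn (fun σ => machG hM c (κ σ))
      (upMap (fun y => (Sum.inl (Sum.inl (Sum.inl y)) : M.AM)) S) := by
  have h1 := UP.prod h (UP.const (N := Nn) (zGens_gens M.j))
  rw [show upMap (Sum.inr : Fin M.j → M.AR) (∅ : Set (FreeGroup Y →* FreeGroup (Fin M.j))) = ∅ from
    Set.image_empty _, Set.union_empty] at h1
  have h2 : UP Nn (fun σ => M.g0G (κ σ)) (upMap Sum.inl (upMap Sum.inl S)) :=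
    UP.sd (G := fun σ => M.Reg (K σ)) (Z := fun σ => M.Cfg (K σ)) (fun σ => based_g0)
      (fun _ => ∅) (fun _ => Set.finite_empty) (fun σ q => by simp) h1
  have h3 := UP.mh (fun σ => hd hM c (κ σ)) (mach2L M c) (fun i => ?_) (fun σ i => ?_)
    (fun σ i p hp => ?_) h2
  · rw [mach2_upMap_upMap, mach2_upMap_upMap] at h3
    exact h3
  · exact (Set.finite_singleton _).union ((Set.finite_range _).union ((Set.toFinite _).image _))
  · show SD.sub (M.ZA c (κ σ) i) (M.RA (K σ) i) = _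
    rw [mach2_ZA, SD.sub_orbit (mach2_RA (h.1 σ) i)]
    congr 1
    unfold mach2L mach2T
    rw [Set.image_union, Set.image_union, Set.image_union, Set.image_singleton, mach2C_spec,
      mach2V_spec, ← Set.range_comp, ← Set.range_comp, Set.image_image, Set.image_image]
    congr 2
    · congr 1
      funext l
      exact (mach2_lift_zpow _ _ _).symm
    · congr 1
      funext y
      exact (mach2_lift_of _ _).symm
  · rcases hp with rfl | ⟨l, rfl⟩ | ⟨y, hy, rfl⟩
    · simp only [mach2C_spec]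
      have hs : M.StepI c (κ σ) i (M.src i, wev (M.regG (κ σ)) (mach2V M (M.a i)))
          (M.dst i, wev (M.regG (κ σ)) (wmap Sum.inl (M.mulW i) ++ mach2V M (M.a' c i))) := by
        rw [wev_append, mach2V_spec, mach2V_spec, wev_wmap,
          show M.regG (κ σ) ∘ Sum.inl = MonoidHom.inl (K σ) _ ∘ κ σ from rfl, ← map_wev]
        exact ⟨rfl, rfl, fun _ => rfl, by simp, 0, by simp, by simp⟩
      exact ((hd hM c (κ σ)).tr_true i ⟨_, mach_lt_mem_A hM c _ hs⟩).trans
        (mach_theta_lt hM c _ hs _)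
    · simp only [mach2_lift_zpow, mach2_zpow]
      have hm : (SD.reg ((1, Multiplicative.ofAdd (Pi.single l (M.m i l))) : M.Reg (K σ)) :
          M.G0 (K σ)) ∈ (hd hM c (κ σ)).A i :=
        Subgroup.subset_closure (Or.inr ⟨(1, Multiplicative.ofAdd (Pi.single l (M.m i l))),
          mach_mem_RA.2 ⟨fun _ => rfl, Pi.single l 1, mach2_single (M.m i) l⟩, rfl⟩)
      exact ((hd hM c (κ σ)).tr_true i ⟨_, hm⟩).trans
        (mach_theta_reg hM c (κ σ) (i := i) (r := (1, Multiplicative.ofAdd (Pi.single l (M.m i l))))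
          (r' := (1, Multiplicative.ofAdd (Pi.single l (M.m' i l)))) rfl
          (n := Pi.single l 1) (mach2_single (M.m i) l) (mach2_single (M.m' i) l) hm)
    · simp only [mach2_lift_of]
      have hn : (M.regG (κ σ) (Sum.inl y)).2.toAdd = 0 := rfl
      have hm : (SD.reg (M.regG (κ σ) (Sum.inl y)) : M.G0 (K σ)) ∈ (hd hM c (κ σ)).A i :=
        Subgroup.subset_closure (Or.inr ⟨_, mach_mem_RA.2
          ⟨fun ht => absurd ((show M.test i = false from hy).symm.trans ht) (by simp), 0,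
            by simp [hn]⟩, rfl⟩)
      exact ((hd hM c (κ σ)).tr_true i ⟨_, hm⟩).trans
        (mach_theta_reg hM c _ rfl (n := 0) (by simp [hn]) (by simp [hn]) _)

end Crest.Agent.R185.MM
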