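import Crest.Agent.R185.SDDef

/-!
# R185 TASK SD1: `FreeGroup Z ⋊ R`: subgroups, reduced words, radius norm
-/

set_option autoImplicit false

namespace Crest.Agent.R185.SD

open scoped Pointwise

variable {R Z : Type} [Group R] [MulAction R Z]

theorem sd1_wev (l : List (Z × Bool)) :
    (wev lt l : SD R Z) = SemidirectProduct.inl (FreeGroup.mk l) := by
  have : (FreeGroup.lift lt : FreeGroup Z →* SD R Z) = SemidirectProduct.inl := by
    ext z : 1
    rw [FreeGroup.lift_apply_of]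
    rfl
  rw [wev, this]

theorem sd1_decomp (g : SD R Z) : g = SemidirectProduct.inl g.left * reg g.right :=
  (SemidirectProduct.inl_left_mul_inr_right g).symm

theorem sd1_mk_mem_fr {Z' : Set Z} {l : List (Z × Bool)} (h : ∀ p ∈ l, p.1 ∈ Z') :
    FreeGroup.mk l ∈ fr Z' := by
  induction l with
  | nil => exact (fr Z').one_mem
  | cons p l ih =>
    rw [show p :: l = [p] ++ l from rfl, ← FreeGroup.mul_mk]
    refine (fr Z').mul_mem ?_ (ih fun q hq => h q (List.mem_cons_of_mem _ hq))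
    have h1 : FreeGroup.of p.1 ∈ fr Z' :=
      Subgroup.subset_closure ⟨p.1, h p List.mem_cons_self, rfl⟩
    obtain ⟨z, b⟩ := p
    cases b
    · exact (fr Z').inv_mem h1
    · exact h1

open Classical in
theorem sd1_mem_fr {Z' : Set Z} {x : FreeGroup Z} : x ∈ fr Z' ↔ ∀ p ∈ x.toWord, p.1 ∈ Z' := by
  constructor
  · intro hx
    induction hx using Subgroup.closure_induction with
    | mem x hx =>
      obtain ⟨z, hz, rfl⟩ := hx
      simpa using hz
    | one => simp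
    | mul x y _ _ hx hy =>
      intro p hp
      rcases List.mem_append.1 ((FreeGroup.toWord_mul_sublist x y).subset hp) with h | h
      · exact hx p h
      · exact hy p h
    | inv x _ hx =>
      intro p hp
      rw [FreeGroup.toWord_inv, FreeGroup.invRev, List.mem_reverse, List.mem_map] at hp
      obtain ⟨q, hq, rfl⟩ := hp
      exact hx q hq
  · intro h
    rw [← FreeGroup.mk_toWord (x := x)]
    exact sd1_mk_mem_fr h

theorem sd1_act_of (r : R) (z : Z) : sdAct R Z r (FreeGroup.of z) = FreeGroup.of (r • z) := by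
  simp [sdAct]

theorem sd1_act_mem {Z' : Set Z} {R' : Subgroup R} (h : Inv Z' R') {r : R} (hr : r ∈ R')
    {x : FreeGroup Z} (hx : x ∈ fr Z') : sdAct R Z r x ∈ fr Z' := by
  induction hx using Subgroup.closure_induction with
  | mem x hx =>
    obtain ⟨z, hz, rfl⟩ := hx
    rw [sd1_act_of]
    exact Subgroup.subset_closure ⟨_, h r hr z hz, rfl⟩
  | one => rw [map_one]; exact (fr Z').one_mem
  | mul x y _ _ hx hy => rw [map_mul]; exact (fr Z').mul_mem hx hy
  | inv x _ hx => rw [map_inv]; exact (fr Z').inv_mem hx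

theorem sd1_inl_mem {Z' : Set Z} {H : Subgroup (SD R Z)} (h : ∀ z ∈ Z', lt z ∈ H)
    {x : FreeGroup Z} (hx : x ∈ fr Z') : (SemidirectProduct.inl x : SD R Z) ∈ H := by
  have : fr Z' ≤ H.comap SemidirectProduct.inl := by
    rw [fr, Subgroup.closure_le]
    rintro _ ⟨z, hz, rfl⟩
    exact h z hz
  exact this hx

theorem sd1_inv_bot (Z' : Set Z) : Inv Z' (⊥ : Subgroup R) := by
  intro r hr z hz
  rw [Subgroup.mem_bot.1 hr, one_smul]
  exact hz

theorem sd1_fr_empty : fr (∅ : Set Z) = ⊥ := by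
  rw [fr, Set.image_empty, Subgroup.closure_empty]

theorem sd1_split {α : Type} (A B : α → Prop) (l : List α) :
    (¬ ∃ l₁ l₂, l = l₁ ++ l₂ ∧ (∀ p ∈ l₁, A p) ∧ ∀ p ∈ l₂, B p) ↔
      ∃ l₁ p l₂, l = l₁ ++ p :: l₂ ∧ ¬ A p ∧ ∃ p' ∈ p :: l₂, ¬ B p' := by
  constructor
  · intro h
    induction l with
    | nil => exact absurd ⟨[], [], rfl, by simp, by simp⟩ h
    | cons q l ih =>
      by_cases hq : A q
      · obtain ⟨l₁, p, l₂, rfl, h1⟩ := ih (by
          rintro ⟨l₁, l₂, rfl, h1, h2⟩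
          exact h ⟨q :: l₁, l₂, rfl, List.forall_mem_cons.2 ⟨hq, h1⟩, h2⟩)
        exact ⟨q :: l₁, p, l₂, rfl, h1⟩
      · refine ⟨[], q, l, rfl, hq, ?_⟩
        by_contra hne
        push Not at hne
        exact h ⟨[], q :: l, rfl, by simp, hne⟩
  · rintro ⟨l₁, p, l₂, rfl, hp, p', hp', hB⟩ ⟨m₁, m₂, e, h1, h2⟩
    rcases List.append_eq_append_iff.1 e with ⟨a, rfl, e'⟩ | ⟨c, rfl, rfl⟩
    · cases a with
      | nil => exact hB (h2 p' (by rwa [e'] at hp'))
      | cons x a =>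
        obtain ⟨rfl, -⟩ := List.cons.inj e'
        exact hp (h1 p (by simp))
    · exact hB (h2 p' (List.mem_append_right _ hp'))

theorem gens_gens {𝔄 Q : Type} {g : 𝔄 → R} (hg : Gens g) {b : Q → Z} {C : Q → Subgroup R}
    (hb : Based b C) : Gens (gens g b) := by
  rw [Gens, eq_top_iff]
  intro x _
  have h1 : ∀ r : R, (reg r : SD R Z) ∈ Subgroup.closure (Set.range (gens g b)) := by
    intro r
    have : Subgroup.closure (Set.range g) ≤
        (Subgroup.closure (Set.range (gens g b))).comap (reg : R →* SD R Z) := by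
      rw [Subgroup.closure_le]
      rintro _ ⟨a, rfl⟩
      exact Subgroup.subset_closure ⟨Sum.inl a, rfl⟩
    exact this (by rw [hg]; trivial)
  rw [sd1_decomp x]
  refine Subgroup.mul_mem _ (sd1_inl_mem (Z' := Set.univ) (fun z _ => ?_)
    (sd1_mem_fr.2 fun _ _ => trivial)) (h1 _)
  obtain ⟨q, r, rfl⟩ := hb.surj z
  rw [← reg_mul_lt]
  exact Subgroup.mul_mem _ (Subgroup.mul_mem _ (h1 r) (Subgroup.subset_closure ⟨Sum.inr q, rfl⟩))
    (Subgroup.inv_mem _ (h1 r))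

/-- `g = (product of the letters of wd g) * reg g.right` -/
theorem eq_wd (g : SD R Z) : g = wev lt (wd g) * reg g.right := by
  classical
  rw [sd1_wev, wd, FreeGroup.mk_toWord]
  exact sd1_decomp g

theorem wd_isReduced (g : SD R Z) : FreeGroup.IsReduced (wd g) := by
  classical
  exact FreeGroup.isReduced_toWord

theorem wd_eq {l : List (Z × Bool)} (hl : FreeGroup.IsReduced l) (r : R) :
    wd (wev lt l * reg r : SD R Z) = l := by
  classical
  rw [wd, sd1_wev]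
  simp only [reg, SemidirectProduct.mul_left, SemidirectProduct.left_inl,
    SemidirectProduct.left_inr, map_one, mul_one]
  convert hl.reduce_eq
  exact FreeGroup.toWord_mk

theorem right_eq (l : List (Z × Bool)) (r : R) : (wev lt l * reg r : SD R Z).right = r := by
  simp [sd1_wev, reg]

theorem left_eq (l : List (Z × Bool)) (r : R) :
    (wev lt l * reg r : SD R Z).left = FreeGroup.mk l := by
  simp [sd1_wev, reg]

theorem left_mem_fr {Z' : Set Z} {g : SD R Z} : g.left ∈ fr Z' ↔ ∀ p ∈ wd g, p.1 ∈ Z' := by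
  exact sd1_mem_fr

theorem mem_sub {Z' : Set Z} {R' : Subgroup R} (h : Inv Z' R') {g : SD R Z} :
    g ∈ sub Z' R' ↔ g.left ∈ fr Z' ∧ g.right ∈ R' := by
  constructor
  · intro hg
    induction hg using Subgroup.closure_induction with
    | mem x hx =>
      rcases hx with ⟨z, hz, rfl⟩ | ⟨r, hr, rfl⟩
      · exact ⟨Subgroup.subset_closure ⟨z, hz, rfl⟩, R'.one_mem⟩
      · exact ⟨(fr Z').one_mem, hr⟩
    | one => exact ⟨(fr Z').one_mem, R'.one_mem⟩
    | mul x y _ _ hx hy =>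
      exact ⟨(fr Z').mul_mem hx.1 (sd1_act_mem h hx.2 hy.1), R'.mul_mem hx.2 hy.2⟩
    | inv x _ hx =>
      exact ⟨sd1_act_mem h (R'.inv_mem hx.2) ((fr Z').inv_mem hx.1), R'.inv_mem hx.2⟩
  · rintro ⟨h1, h2⟩
    rw [sd1_decomp g]
    exact Subgroup.mul_mem _
      (sd1_inl_mem (fun z hz => Subgroup.subset_closure (Or.inl ⟨z, hz, rfl⟩)) h1)
      (Subgroup.subset_closure (Or.inr ⟨_, h2, rfl⟩))

theorem lt_mem_sub {Z' : Set Z} {R' : Subgroup R} (h : Inv Z' R') {z : Z} :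
    (lt z : SD R Z) ∈ sub Z' R' ↔ z ∈ Z' := by
  rw [mem_sub h, sd1_mem_fr]
  simp [lt]

/-- the reduced word of a product `a * b` is a prefix of the word of `a` followed by a suffix of
the word of `b`. -/
theorem mem_W {Z' Z'' : Set Z} {R' : Subgroup R} {g : SD R Z} :
    g ∈ W Z' Z'' R' ↔ g.right ∈ R' ∧
      ∃ l₁ l₂, wd g = l₁ ++ l₂ ∧ (∀ p ∈ l₁, p.1 ∈ Z') ∧ ∀ p ∈ l₂, p.1 ∈ Z'' := by
  classical
  rw [and_comm]
  refine and_congr_left fun _ => ⟨?_, ?_⟩
  · rintro ⟨a, ha, b, hb, e⟩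
    have h1 := @FreeGroup.toWord_mul_sublist Z (fun a b => Classical.propDecidable (a = b)) a b
    have e' : a * b = g.left := e
    rw [e'] at h1
    obtain ⟨l₁, l₂, e1, s1, s2⟩ := List.sublist_append_iff.1 h1
    exact ⟨l₁, l₂, e1, fun p hp => sd1_mem_fr.1 ha p (s1.subset hp),
      fun p hp => sd1_mem_fr.1 hb p (s2.subset hp)⟩
  · rintro ⟨l₁, l₂, e, h1, h2⟩
    refine ⟨_, sd1_mk_mem_fr h1, _, sd1_mk_mem_fr h2, ?_⟩
    show FreeGroup.mk l₁ * FreeGroup.mk l₂ = g.left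
    rw [FreeGroup.mul_mk, ← e, wd, FreeGroup.mk_toWord]

theorem notMem_W {Z' Z'' : Set Z} {R' : Subgroup R} {g : SD R Z} :
    g ∉ W Z' Z'' R' ↔ g.right ∉ R' ∨
      ∃ l₁ p l₂, wd g = l₁ ++ p :: l₂ ∧ p.1 ∉ Z' ∧ ∃ p' ∈ p :: l₂, p'.1 ∉ Z'' := by
  rw [mem_W, not_and_or, sd1_split (fun p : Z × Bool => p.1 ∈ Z') (fun p => p.1 ∈ Z'')]

theorem sub_bot_mul_sub {Z' Z'' : Set Z} {R' : Subgroup R} (h : Inv Z'' R') :
    (sub Z' (⊥ : Subgroup R) : Set (SD R Z)) * (sub Z'' R' : Set (SD R Z)) = W Z' Z'' R' := by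
  ext g
  constructor
  · rintro ⟨a, ha, b, hb, rfl⟩
    obtain ⟨a1, a2⟩ := (mem_sub (sd1_inv_bot Z')).1 ha
    obtain ⟨b1, b2⟩ := (mem_sub h).1 hb
    have a3 : a.right = 1 := Subgroup.mem_bot.1 a2
    refine ⟨⟨_, a1, _, b1, ?_⟩, ?_⟩
    · simp [a3]
    · simpa [a3] using b2
  · rintro ⟨⟨a, ha, b, hb, e⟩, h2⟩
    refine ⟨SemidirectProduct.inl a, (mem_sub (sd1_inv_bot Z')).2 ⟨ha, Subgroup.one_mem _⟩,
      ⟨b, g.right⟩, (mem_sub h).2 ⟨hb, h2⟩, ?_⟩
    ext
    · simpa using e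
    · simp

theorem W_empty_left {Z'' : Set Z} {R' : Subgroup R} (h : Inv Z'' R') :
    W ∅ Z'' R' = (sub Z'' R' : Set (SD R Z)) := by
  ext g
  simp [W, sd1_fr_empty, mem_sub h]

theorem W_empty_right (Z' : Set Z) :
    W Z' ∅ (⊥ : Subgroup R) = (sub Z' (⊥ : Subgroup R) : Set (SD R Z)) := by
  ext g
  simp [W, sd1_fr_empty, mem_sub (sd1_inv_bot (R := R) Z')]

theorem W_empty : W (∅ : Set Z) ∅ (⊥ : Subgroup R) = {1} := by
  ext g
  simp [W, sd1_fr_empty, SemidirectProduct.ext_iff]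

/-- generators of `sub Z' R'` when `Z'` is one `R'`-orbit -/
theorem sub_orbit {R' : Subgroup R} {z₀ : Z} {T : Set R} (hT : R' = Subgroup.closure T) :
    sub {z | ∃ r ∈ R', z = r • z₀} R' = Subgroup.closure ({lt z₀} ∪ reg '' T) := by
  have h1 : ∀ r ∈ R', (reg r : SD R Z) ∈ Subgroup.closure ({lt z₀} ∪ reg '' T) := by
    have : R' ≤ (Subgroup.closure ({lt z₀} ∪ reg '' T)).comap (reg : R →* SD R Z) := by
      rw [hT, Subgroup.closure_le]
      intro r hr
      exact Subgroup.subset_closure (Or.inr ⟨r, hr, rfl⟩)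
    exact this
  apply le_antisymm
  · rw [sub, Subgroup.closure_le]
    rintro _ (⟨_, ⟨r, hr, rfl⟩, rfl⟩ | ⟨r, hr, rfl⟩)
    · rw [← reg_mul_lt]
      exact Subgroup.mul_mem _ (Subgroup.mul_mem _ (h1 r hr) (Subgroup.subset_closure (Or.inl rfl)))
        (Subgroup.inv_mem _ (h1 r hr))
    · exact h1 r hr
  · rw [Subgroup.closure_le]
    rintro _ (rfl | ⟨r, hr, rfl⟩)
    · exact Subgroup.subset_closure (Or.inl ⟨z₀, ⟨1, R'.one_mem, (one_smul _ _).symm⟩, rfl⟩)
    · exact Subgroup.subset_closure (Or.inr ⟨r, hT ▸ Subgroup.subset_closure hr, rfl⟩)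

end Crest.Agent.R185.SD
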