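import Crest.Agent.R185.UP1
import Crest.Agent.R185.MH1
import Crest.Agent.R185.SD1
import Crest.Agent.R185.GP0

/-!
# R185 TASK UP2: uniform relative presentations of `SD`, `MH`, `GP` (method: see `UP1`)
-/

set_option autoImplicit false

namespace Crest.Agent.R185

namespace UP

variable {Sit Y 𝔄 𝔅 : Type} {N : Sit → Set (FreeGroup Y)} {G H : Sit → Type} [∀ σ, Group (G σ)]
  [∀ σ, Group (H σ)] {g : ∀ σ, 𝔄 → G σ} {h : ∀ σ, 𝔅 → H σ}
  {S : Set (FreeGroup Y →* FreeGroup 𝔄)} {S' : Set (FreeGroup Y →* FreeGroup 𝔅)}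

theorem up2_lift_map {𝔄 𝔅 G K : Type} [Group G] [Group K] {g : 𝔄 → G} {k : 𝔅 → K} {f : 𝔄 → 𝔅}
    {j : G →* K} (hj : ∀ a, j (g a) = k (f a)) (w : FreeGroup 𝔄) :
    FreeGroup.lift k (FreeGroup.map f w) = j (FreeGroup.lift g w) := by
  have : (FreeGroup.lift k).comp (FreeGroup.map f) = j.comp (FreeGroup.lift g) := by
    ext a
    simp [hj]
  exact DFunLike.congr_fun this w

theorem up2_commute {G Λ : Type} [Group G] [Group Λ] (ψ : G →* Λ) {T : Set G} {t : Λ}
    (h : ∀ x ∈ T, Commute (ψ x) t) {x : G} (hx : x ∈ Subgroup.closure T) : Commute (ψ x) t := by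
  induction hx using Subgroup.closure_induction with
  | mem x hx => exact h x hx
  | one => rw [map_one]; exact Commute.one_left t
  | mul x y _ _ hx hy => rw [map_mul]; exact hx.mul_left hy
  | inv x _ hx => rw [map_inv]; exact hx.inv_left

theorem up2_conj {G ι Λ : Type} [Group G] [Group Λ] (D : HD G ι) (ψ : G →* Λ) (t : Λ) (i : ι)
    {T : Set G} (hA : D.A i = Subgroup.closure T)
    (h : ∀ x ∈ T, t⁻¹ * ψ x * t = ψ (D.tr (i, true) x)) (a : D.A i) :
    t⁻¹ * ψ a * t = ψ (D.θ i a) := by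
  have hm : ∀ x, x ∈ Subgroup.closure T → x ∈ D.A i := fun x hx => by rwa [hA]
  have h1 : ∀ x (hx : x ∈ Subgroup.closure T), t⁻¹ * ψ x * t = ψ (D.tr (i, true) x) := by
    intro x hx
    induction hx using Subgroup.closure_induction with
    | mem x hx => exact h x hx
    | one =>
      have := D.tr_true i 1
      simp only [OneMemClass.coe_one, map_one] at this
      simp [this]
    | mul x y hx' hy' hx hy =>
      rw [D.tr_mul (l := (i, true)) (hm x hx') (hm y hy'), map_mul, map_mul, ← hx, ← hy]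
      group
    | inv x hx' hx =>
      have h2 := D.tr_true i (⟨x, hm x hx'⟩ : D.A i)⁻¹
      rw [map_inv, Subgroup.coe_inv, Subgroup.coe_inv, ← D.tr_true] at h2
      rw [h2, map_inv, map_inv, ← hx]
      group
  rw [← D.tr_true]
  exact h1 a (hA ▸ a.2)

/-- the common part: `H σ` is generated by copies `j σ e` of `G σ` and has a universal property
expressed by finitely many relators `r'` -/
theorem up2_gen {E : Type} [Finite E] (f : E → 𝔄 → 𝔅) (j : ∀ σ, E → G σ →* H σ)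
    (hj : ∀ σ e a, j σ e (g σ a) = h σ (f e a)) (hh : ∀ σ, Gens (h σ))
    (r' : Set (FreeGroup 𝔅)) (hr' : r'.Finite) (h1 : ∀ σ, ∀ x ∈ r', FreeGroup.lift (h σ) x = 1)
    (h2 : ∀ σ (Λ : Type) [Group Λ] (π : FreeGroup 𝔅 →* Λ) (ψ : E → G σ →* Λ),
      (∀ x ∈ r', π x = 1) → (∀ e w, ψ e (FreeGroup.lift (g σ) w) = π (FreeGroup.map (f e) w)) →
      ∃ Ψ : H σ →* Λ, ∀ b, Ψ (h σ b) = π (FreeGroup.of b))
    (hg : UP N g S) : UP N h (⋃ e, upMap (f e) S) := by
  obtain ⟨hg1, r, hr, hg2⟩ := hg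
  refine ⟨hh, r' ∪ ⋃ e, FreeGroup.map (f e) '' r,
    hr'.union (Set.finite_iUnion fun e => hr.image _), fun σ => le_antisymm ?_ ?_⟩
  · generalize hM : Subgroup.normalClosure ((r' ∪ ⋃ e, FreeGroup.map (f e) '' r) ∪
      ⋃ s ∈ ⋃ e, upMap (f e) S, s '' N σ) = M
    have hN : M.Normal := hM ▸ Subgroup.normalClosure_normal
    have hsub : (r' ∪ ⋃ e, FreeGroup.map (f e) '' r) ∪ ⋃ s ∈ ⋃ e, upMap (f e) S, s '' N σ ⊆ M :=
      hM ▸ Subgroup.subset_normalClosure
    have hπ : ∀ x, QuotientGroup.mk' M x = 1 ↔ x ∈ M := fun x => QuotientGroup.eq_one_iff x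
    choose ψ hψ using fun e => UP.lift (hg1 σ) ((QuotientGroup.mk' M).comp (FreeGroup.map (f e)))
      (by
        rw [hg2 σ]
        refine Subgroup.normalClosure_le_normal fun x hx => (hπ _).2 (hsub ?_)
        rcases hx with hx | hx
        · exact Or.inl (Or.inr (Set.mem_iUnion.2 ⟨e, x, hx, rfl⟩))
        · simp only [Set.mem_iUnion] at hx
          obtain ⟨s, hs, n, hn, rfl⟩ := hx
          exact Or.inr (Set.mem_biUnion (Set.mem_iUnion.2 ⟨e, s, hs, rfl⟩) ⟨n, hn, rfl⟩))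
    obtain ⟨Ψ, hΨ⟩ := h2 σ _ (QuotientGroup.mk' M) ψ
      (fun x hx => (hπ x).2 (hsub (Or.inl (Or.inl hx)))) hψ
    have e : Ψ.comp (FreeGroup.lift (h σ)) = QuotientGroup.mk' M := by
      ext b
      simpa using hΨ b
    intro x hx
    rw [← hπ, ← e, MonoidHom.comp_apply, MonoidHom.mem_ker.1 hx, map_one]
  · have hk : ∀ e, ∀ w ∈ r ∪ ⋃ s ∈ S, s '' N σ,
        FreeGroup.lift (h σ) (FreeGroup.map (f e) w) = 1 := by
      intro e w hw
      have : w ∈ (FreeGroup.lift (g σ)).ker := hg2 σ ▸ Subgroup.subset_normalClosure hw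
      rw [up2_lift_map (hj σ e), MonoidHom.mem_ker.1 this, map_one]
    refine Subgroup.normalClosure_le_normal fun x hx => MonoidHom.mem_ker.2 ?_
    rcases hx with (hx | hx) | hx
    · exact h1 σ x hx
    · obtain ⟨e, w, hw, rfl⟩ := Set.mem_iUnion.1 hx
      exact hk e w (Or.inl hw)
    · simp only [Set.mem_iUnion] at hx
      obtain ⟨_, ⟨e, s, hs, rfl⟩, n, hn, rfl⟩ := hx
      exact hk e _ (Or.inr (Set.mem_biUnion hs ⟨n, hn, rfl⟩))

/-- `FreeGroup Z ⋊ R`: relators `[t_q, c]` for the generators `c` of `C q` -/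
theorem sd {Q : Type} [Finite Q] {Z : Sit → Type} [∀ σ, MulAction (G σ) (Z σ)]
    {b : ∀ σ, Q → Z σ} {C : ∀ σ, Q → Subgroup (G σ)} (hb : ∀ σ, SD.Based (b σ) (C σ))
    (L : Q → Set (FreeGroup 𝔄)) (hL : ∀ q, (L q).Finite)
    (hC : ∀ σ q, C σ q = Subgroup.closure (FreeGroup.lift (g σ) '' L q)) (hg : UP N g S) :
    UP N (fun σ => SD.gens (g σ) (b σ)) (upMap Sum.inl S) := by
  rw [← Set.iUnion_const (ι := Unit) (upMap Sum.inl S)]
  refine up2_gen (fun _ => Sum.inl) (fun σ _ => SD.reg) (fun σ _ a => rfl)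
    (fun σ => SD.gens_gens (hg.1 σ) (hb σ))
    (⋃ q, (fun c => FreeGroup.map Sum.inl c * FreeGroup.of (Sum.inr q) *
      (FreeGroup.map Sum.inl c)⁻¹ * (FreeGroup.of (Sum.inr q))⁻¹) '' L q)
    (Set.finite_iUnion fun q => (hL q).image _) (fun σ x hx => ?_) (fun σ Λ _ π ψ h1 h2 => ?_) hg
  · obtain ⟨q, c, hc, rfl⟩ := Set.mem_iUnion.1 hx
    have h3 : FreeGroup.lift (g σ) c ∈ C σ q := hC σ q ▸ Subgroup.subset_closure ⟨c, hc, rfl⟩
    have h4 : FreeGroup.lift (g σ) c • b σ q = b σ q := by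
      have := ((hb σ).eq_iff q q 1 (FreeGroup.lift (g σ) c)).2 ⟨rfl, by simpa using h3⟩
      rw [← this, one_smul]
    simp only [map_mul, map_inv, FreeGroup.lift_apply_of]
    rw [up2_lift_map (g := g σ) (k := SD.gens (g σ) (b σ)) (f := Sum.inl) (j := SD.reg)
      fun a => rfl]
    change _ * SD.lt (b σ q) * _ * (SD.lt (b σ q))⁻¹ = 1
    rw [SD.reg_mul_lt, h4, mul_inv_cancel]
  · have h3 : ∀ q, ∀ c ∈ C σ q, Commute (ψ () c) (π (FreeGroup.of (Sum.inr q))) := by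
      intro q c hc
      rw [hC] at hc
      refine up2_commute _ ?_ hc
      rintro _ ⟨w, hw, rfl⟩
      have h4 := h1 _ (Set.mem_iUnion.2 ⟨q, w, hw, rfl⟩)
      simp only [map_mul, map_inv] at h4
      rw [h2, Commute, SemiconjBy, ← mul_inv_eq_iff_eq_mul, ← mul_inv_eq_one, h4]
    choose qz rz hz using (hb σ).surj
    have h4 : ∀ r q, ψ () (rz (r • b σ q)) * π (FreeGroup.of (Sum.inr (qz (r • b σ q)))) *
        (ψ () (rz (r • b σ q)))⁻¹ = ψ () r * π (FreeGroup.of (Sum.inr q)) * (ψ () r)⁻¹ := by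
      intro r q
      obtain ⟨e1, e2⟩ := ((hb σ).eq_iff _ _ _ _).1 (hz (r • b σ q))
      have h5 := (h3 q _ e2).eq
      rw [← e1]
      rw [map_mul, map_inv] at h5
      generalize ψ () (rz (r • b σ q)) = A at *
      generalize π (FreeGroup.of (Sum.inr q)) = t at *
      calc A * t * A⁻¹ = ψ () r * ((ψ () r)⁻¹ * A * t) * A⁻¹ := by group
        _ = _ := by rw [h5]; group
    refine ⟨SD.lift (ψ ()) (fun z => ψ () (rz z) * π (FreeGroup.of (Sum.inr (qz z))) *
      (ψ () (rz z))⁻¹) fun r z => ?_, ?_⟩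
    · have h5 := h4 (r * rz z) (qz z)
      rw [mul_smul, ← hz z] at h5
      rw [h5, map_mul]
      group
    · rintro (a | q)
      · have := h2 () (FreeGroup.of a)
        simpa [SD.gens] using this
      · have := h4 1 q
        simpa [SD.gens] using this

/-- HNN extensions: relators `t_i⁻¹ α t_i β⁻¹` for `(α, β) ∈ L i` -/
theorem mh {ι : Type} [Finite ι] (D : ∀ σ, HD (G σ) ι) (L : ι → Set (FreeGroup 𝔄 × FreeGroup 𝔄))
    (hL : ∀ i, (L i).Finite)
    (hA : ∀ σ i, (D σ).A i = Subgroup.closure ((fun p => FreeGroup.lift (g σ) p.1) '' L i))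
    (hθ : ∀ σ i, ∀ p ∈ L i,
      (D σ).tr (i, true) (FreeGroup.lift (g σ) p.1) = FreeGroup.lift (g σ) p.2)
    (hg : UP N g S) : UP N (fun σ => (D σ).gens (g σ)) (upMap Sum.inl S) := by
  rw [← Set.iUnion_const (ι := Unit) (upMap Sum.inl S)]
  refine up2_gen (fun _ => Sum.inl) (fun σ _ => (D σ).of) (fun σ _ a => rfl)
    (fun σ => (D σ).gens_gens (hg.1 σ))
    (⋃ i, (fun p => (FreeGroup.of (Sum.inr i))⁻¹ * FreeGroup.map Sum.inl p.1 *
      FreeGroup.of (Sum.inr i) * (FreeGroup.map Sum.inl p.2)⁻¹) '' L i)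
    (Set.finite_iUnion fun i => (hL i).image _) (fun σ x hx => ?_) (fun σ Λ _ π ψ h1 h2 => ?_) hg
  · obtain ⟨i, p, hp, rfl⟩ := Set.mem_iUnion.1 hx
    have h3 : FreeGroup.lift (g σ) p.1 ∈ (D σ).A i :=
      hA σ i ▸ Subgroup.subset_closure ⟨p, hp, rfl⟩
    have h4 := (D σ).conj i ⟨_, h3⟩
    rw [← (D σ).tr_true, hθ σ i p hp] at h4
    simp only [map_mul, map_inv, FreeGroup.lift_apply_of]
    have h5 := up2_lift_map (g := g σ) (k := (D σ).gens (g σ)) (f := Sum.inl) (j := (D σ).of)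
      fun a => rfl
    rw [h5, h5, mul_inv_eq_one]
    exact h4
  · refine ⟨(D σ).lift (ψ ()) (fun i => π (FreeGroup.of (Sum.inr i))) fun i a => ?_, ?_⟩
    · refine up2_conj (D σ) (ψ ()) _ i (hA σ i) ?_ a
      rintro _ ⟨p, hp, rfl⟩
      have h4 := h1 _ (Set.mem_iUnion.2 ⟨i, p, hp, rfl⟩)
      simp only [map_mul, map_inv] at h4
      simp only
      rw [hθ σ i p hp, h2, h2, ← mul_inv_eq_one, h4]
    · rintro (a | i)
      · have := h2 () (FreeGroup.of a)
        simpa [HD.gens] using this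
      · simp [HD.gens]

/-- the graph product -/
theorem gp [Finite 𝔄] (hg : UP N g S) :
    UP N (fun σ => GP.gens (g σ)) (⋃ e : Ed, upMap (fun a => (e, a)) S) := by
  refine up2_gen (fun e a => (e, a)) (fun σ e => GP.v e) (fun σ _ a => rfl)
    (fun σ => GP.gens_gens (hg.1 σ))
    ((fun p : (Ed × 𝔄) × (Ed × 𝔄) => FreeGroup.of p.1 * FreeGroup.of p.2 *
      (FreeGroup.of p.1)⁻¹ * (FreeGroup.of p.2)⁻¹) '' {p | adj p.1.1 p.2.1})
    ((Set.toFinite _).image _) (fun σ x hx => ?_) (fun σ Λ _ π ψ h1 h2 => ?_) hg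
  · obtain ⟨p, hp, rfl⟩ := hx
    simp only [map_mul, map_inv, FreeGroup.lift_apply_of, GP.gens]
    rw [(GP.v_comm hp _ _).eq]
    group
  · have h3 : ∀ e a, ψ e (g σ a) = π (FreeGroup.of (e, a)) := fun e a => by
      simpa using h2 e (FreeGroup.of a)
    have h4 : ∀ x, x ∈ Subgroup.closure (Set.range (g σ)) := fun x => by
      rw [hg.1 σ]; trivial
    refine ⟨GP.lift ψ fun e e' he x y => ?_, fun b => by simp [GP.gens, h3]⟩
    refine up2_commute _ ?_ (h4 x)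
    rintro _ ⟨a, rfl⟩
    refine (up2_commute _ ?_ (h4 y)).symm
    rintro _ ⟨a', rfl⟩
    have h5 := h1 _ ⟨((e, a), (e', a')), he, rfl⟩
    simp only [map_mul, map_inv] at h5
    refine Commute.symm ?_
    rw [h3, h3, Commute, SemiconjBy, ← mul_inv_eq_iff_eq_mul, ← mul_inv_eq_one, h5]

end UP

end Crest.Agent.R185
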