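import Crest.Agent.R185.MMDef
import Crest.Agent.R185.MH2
import Crest.Agent.R185.SD2
import Crest.Agent.R185.UP2

/-!
# R185: the group of a modular machine (definitions)
-/

set_option autoImplicit false

namespace Crest.Agent.R185

namespace HD

/-- HNN data from pairs of embeddings -/
noncomputable def ofHoms {G ι : Type} [Group G] {Γ : ι → Type} [∀ i, Group (Γ i)]
    (α β : ∀ i, Γ i →* G) (hα : ∀ i, Function.Injective (α i))
    (hβ : ∀ i, Function.Injective (β i)) : HD G ι where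
  A i := (α i).range
  B i := (β i).range
  θ i := (MonoidHom.ofInjective (hα i)).symm.trans (MonoidHom.ofInjective (hβ i))

theorem ofHoms_tr_true {G ι : Type} [Group G] {Γ : ι → Type} [∀ i, Group (Γ i)]
    (α β : ∀ i, Γ i →* G) (hα) (hβ) (i : ι) (x : Γ i) :
    (ofHoms α β hα hβ).tr (i, true) (α i x) = β i x := by
  have := (ofHoms α β hα hβ).tr_true i ⟨α i x, x, rfl⟩
  rw [this]
  show ((MonoidHom.ofInjective (hβ i)) ((MonoidHom.ofInjective (hα i)).symm ⟨α i x, x, rfl⟩) : G)
    = _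
  rw [show (MonoidHom.ofInjective (hα i)).symm ⟨α i x, x, rfl⟩ = x from
    (MulEquiv.symm_apply_eq _).2 rfl]
  rfl

theorem ofHoms_tr_false {G ι : Type} [Group G] {Γ : ι → Type} [∀ i, Group (Γ i)]
    (α β : ∀ i, Γ i →* G) (hα) (hβ) (i : ι) (x : Γ i) :
    (ofHoms α β hα hβ).tr (i, false) (β i x) = α i x := by
  have h := (ofHoms α β hα hβ).tr_tr (l := (i, true)) (a := α i x) ⟨x, rfl⟩
  rwa [ofHoms_tr_true] at h

theorem ofHoms_conj {G ι : Type} [Group G] {Γ : ι → Type} [∀ i, Group (Γ i)]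
    (α β : ∀ i, Γ i →* G) (hα) (hβ) (i : ι) (x : Γ i) :
    ((ofHoms α β hα hβ).st i)⁻¹ * (ofHoms α β hα hβ).of (α i x) * (ofHoms α β hα hβ).st i =
      (ofHoms α β hα hβ).of (β i x) := by
  have h := (ofHoms α β hα hβ).sl_conj (l := (i, true)) (a := α i x) ⟨x, rfl⟩
  rwa [ofHoms_tr_true] at h

end HD

namespace MM

variable {k : ℕ} (M : MM k) {K : Type} [Group K]

instance : MulAction (M.Reg K) (M.Cfg K) where
  smul r z := (z.1, r * z.2)
  one_smul z := by show (z.1, 1 * z.2) = z; rw [one_mul]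
  mul_smul r s z := by show (z.1, r * s * z.2) = (z.1, r * (s * z.2)); rw [mul_assoc]

@[simp] theorem smul_def (r : M.Reg K) (z : M.Cfg K) : r • z = (z.1, r * z.2) := rfl

/-- `Reg * F(states)` -/
abbrev G0 (K : Type) [Group K] : Type := SD (M.Reg K) (M.Cfg K)

/-- `Reg * ⟨t⟩` -/
abbrev F1 (K : Type) [Group K] : Type := SD (M.Reg K) (M.Reg K)

/-- the embedding of `Reg * ⟨t⟩` with `t` the letter of the input state of flag `true` -/
def inc (K : Type) [Group K] : M.F1 K →* M.G0 K :=
  SD.mapZ (fun r => (M.inp true, r)) (fun _ _ => rfl)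

/-- the lattice `m ℤ` -/
def lat {j : ℕ} (m : Fin j → ℤ) : Subgroup (Multiplicative (Fin j → ℤ)) where
  carrier := {ξ | ∃ n : Fin j → ℤ, ξ.toAdd = m * n}
  one_mem' := ⟨0, by simp⟩
  mul_mem' := by
    rintro a b ⟨n, hn⟩ ⟨n', hn'⟩
    exact ⟨n + n', by simp [hn, hn', mul_add]⟩
  inv_mem' := by
    rintro a ⟨n, hn⟩
    exact ⟨-n, by simp [hn]⟩

/-- register part of the associated subgroups -/
def RA (K : Type) [Group K] (i : Fin M.nR) : Subgroup (M.Reg K) :=
  (if M.test i then ⊥ else ⊤ : Subgroup K).prod (lat (M.m i))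

/-- register part of the associated subgroups -/
def RB (K : Type) [Group K] (i : Fin M.nR) : Subgroup (M.Reg K) :=
  (if M.test i then ⊥ else ⊤ : Subgroup K).prod (lat (M.m' i))

/-- configurations to which rule `i` applies -/
def ZA (c : ℕ) (κ : Fin k → K) (i : Fin M.nR) : Set (M.Cfg K) := {z | ∃ z', M.StepI c κ i z z'}

/-- configurations produced by rule `i` -/
def ZB (c : ℕ) (κ : Fin k → K) (i : Fin M.nR) : Set (M.Cfg K) := {z' | ∃ z, M.StepI c κ i z z'}

/-- specification of the associated isomorphism of rule `i` -/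
def IsTheta (c : ℕ) (κ : Fin k → K) (i : Fin M.nR)
    (θ : SD.sub (M.ZA c κ i) (M.RA K i) ≃* SD.sub (M.ZB c κ i) (M.RB K i)) : Prop :=
  ∀ g : SD.sub (M.ZA c κ i) (M.RA K i),
    List.Forall₂ (fun p p' => M.StepI c κ i p.1 p'.1 ∧ p.2 = p'.2) (SD.wd (g : M.G0 K))
      (SD.wd (θ g : M.G0 K)) ∧
    (θ g : M.G0 K).right.1 = (g : M.G0 K).right.1 ∧
    ∀ n : Fin M.j → ℤ, (g : M.G0 K).right.2.toAdd = M.m i * n →
      (θ g : M.G0 K).right.2.toAdd = M.m' i * n

/-- norm on the register group -/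
def regN (N : Nrm K) : Nrm (M.Reg K) where
  f r := N r.1 + M.lam r.2.toAdd
  one := by simp [N.one, lam]
  mul x y := by
    have h1 := N.mul x.1 y.1
    have h2 : M.lam (x * y).2.toAdd ≤ M.lam x.2.toAdd + M.lam y.2.toAdd := by
      simp only [lam, Prod.snd_mul, toAdd_mul, Pi.add_apply]
      generalize x.2.toAdd M.l₀ = a
      generalize y.2.toAdd M.l₀ = b
      refine (Nat.size_le_size (Int.natAbs_add_le a b)).trans ?_
      generalize a.natAbs = p
      generalize b.natAbs = q
      rcases Nat.eq_zero_or_pos p with rfl | hp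
      · simp
      rcases Nat.eq_zero_or_pos q with rfl | hq
      · simp
      rw [Nat.size_le, pow_add]
      have h1 := Nat.lt_size_self p
      have h2 := Nat.lt_size_self q
      nlinarith
    simp only [Prod.fst_mul]; omega
  inv x := by simp [N.inv, lam]

theorem sz_cfg (N : Nrm K) : SD.Sz (M.regN N) (fun z : M.Cfg K => M.regN N z.2) :=
  fun r z => (M.regN N).mul r z.2

theorem sz_reg (N : Nrm K) : SD.Sz (M.regN N) (fun z : M.Reg K => M.regN N z) :=
  fun r z => (M.regN N).mul r z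

/-- radius norm on `G0` -/
noncomputable def g0N (N : Nrm K) : Nrm (M.G0 K) := SD.rad (M.regN N) _ (M.sz_cfg N)

/-- radius norm on `F1` -/
noncomputable def f1N (N : Nrm K) : Nrm (M.F1 K) := SD.rad (M.regN N) _ (M.sz_reg N)

/-- alphabet of the register group -/
abbrev AR : Type := Fin k ⊕ Fin M.j

/-- alphabet of `G0` -/
abbrev A0 : Type := M.AR ⊕ Fin M.nQ

/-- alphabet of `F1` -/
abbrev A1 : Type := M.AR ⊕ Unit

/-- alphabet of the machine group -/
abbrev AM : Type := M.A0 ⊕ Fin M.nR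

/-- generators of the register group -/
def regG (κ : Fin k → K) : M.AR → M.Reg K := prodGens κ (zGens M.j)

/-- generators of `G0` -/
def g0G (κ : Fin k → K) : M.A0 → M.G0 K := SD.gens (M.regG κ) (fun q => (q, 1))

/-- generators of `F1` -/
def f1G (κ : Fin k → K) : M.A1 → M.F1 K := SD.gens (M.regG κ) (fun _ => 1)

/-- the generators of `F1` as letters of the machine group -/
def incA : M.A1 → M.AM
  | Sum.inl a => Sum.inl (Sum.inl a)
  | Sum.inr _ => Sum.inl (Sum.inr (M.inp true))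

/-- the letters generating `B` -/
def bW : List (Wd M.AM) :=
  [(Sum.inl (Sum.inr M.acc), true)] :: (List.finRange M.nR).map fun i => [(Sum.inr i, true)]

/-- the word of the letter of the configuration `(q, r)`: `r t_q r⁻¹` -/
def cfgW (q : Fin M.nQ) (r : Wd M.AR) : Wd M.AM :=
  wmap (fun a => Sum.inl (Sum.inl a)) r ++ [(Sum.inl (Sum.inr q), true)] ++
    winv (wmap (fun a => Sum.inl (Sum.inl a)) r)

end MM

end Crest.Agent.R185
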