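import Crest.Agent.R185.Tow1
import Crest.Agent.R185.Asc1
import Crest.Agent.R185.MMEx

/-!
# R185 TASK Tow2: the fixed point
-/

set_option autoImplicit false

namespace Crest.Agent.R185

namespace TD

variable (T : TD)

/-- the test word of a fact with its witnesses -/
def tow2_tst (t : (Bool × Wd (Fin 3)) × Wd (Fin T.M.j) × Wd ℕ) : Wd (Fin 3) :=
  T.testW t.1.1 (wmap Sum.inl t.1.2 ++ wmap Sum.inr t.2.1) (wsub (fun i => T.M.bW.getD i []) t.2.2)

theorem tow2_computable_tst : Computable T.tow2_tst := by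
  have h : Computable fun t : (Bool × Wd (Fin 3)) × Wd (Fin T.M.j) × Wd ℕ =>
      ((t.1.1, t.1.2, t.2) : Bool × Wd (Fin 3) × Wd (Fin T.M.j) × Wd ℕ) :=
    (Computable.fst.comp Computable.fst).pair
      ((Computable.snd.comp Computable.fst).pair Computable.snd)
  have h2 := T.computable_testW.comp h
  exact h2.of_eq fun t => rfl

theorem tow2_computable_map : Computable fun ts => List.map T.tow2_tst ts := by
  have h := re_computable_flatMap (f := fun ts : List _ => ts) (g := fun _ t => [T.tow2_tst t])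
    Computable.id (Computable.list_cons.comp (T.tow2_computable_tst.comp Computable.snd)
      (Computable.const [])).to₂
  exact h.of_eq fun ts => by rw [List.map_eq_flatMap]

/-- the test performed by the machine -/
def tow2_W (W₀ : ℕ × (Bool × Wd (Fin 3)) × List (Wd (Fin 3)) × List (Bool × Wd (Fin 3)) → Prop)
    (x : ℕ × Bool × Wd (Fin 3) × List (Wd (Fin 3))) : Prop :=
  ∃ p : List (Wd (Fin 3)) × List ((Bool × Wd (Fin 3)) × Wd (Fin T.M.j) × Wd ℕ),
    W₀ (x.1, (x.2.1, x.2.2.1), p.1, p.2.map Prod.fst) ∧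
      x.2.2.2 = T.guard :: (p.1 ++ p.2.map T.tow2_tst)

theorem tow2_re_W
    {W₀ : ℕ × (Bool × Wd (Fin 3)) × List (Wd (Fin 3)) × List (Bool × Wd (Fin 3)) → Prop}
    (h : REPred W₀) : REPred (T.tow2_W W₀) := by
  have h1 : Primrec fun ts : List ((Bool × Wd (Fin 3)) × Wd (Fin T.M.j) × Wd ℕ) =>
      ts.map Prod.fst := Primrec.list_map Primrec.id (Primrec.fst.comp Primrec.snd).to₂
  refine re_exists (p := fun z : (ℕ × Bool × Wd (Fin 3) × List (Wd (Fin 3))) ×
      (List (Wd (Fin 3)) × List ((Bool × Wd (Fin 3)) × Wd (Fin T.M.j) × Wd ℕ)) =>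
      W₀ (z.1.1, (z.1.2.1, z.1.2.2.1), z.2.1, z.2.2.map Prod.fst) ∧
        z.1.2.2.2 = T.guard :: (z.2.1 ++ z.2.2.map T.tow2_tst)) (re_and (re_comp h ?_) (re_eq ?_ ?_))
  · exact (Computable.fst.comp Computable.fst).pair
      (((Computable.fst.comp (Computable.snd.comp Computable.fst)).pair
        (Computable.fst.comp (Computable.snd.comp (Computable.snd.comp Computable.fst)))).pair
      ((Computable.fst.comp Computable.snd).pair
        (h1.to_comp.comp (Computable.snd.comp Computable.snd))))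
  · exact Computable.snd.comp (Computable.snd.comp (Computable.snd.comp Computable.fst))
  · exact Computable.list_cons.comp (Computable.const _) (Computable.list_append.comp
      (Computable.fst.comp Computable.snd)
      (T.tow2_computable_map.comp (Computable.snd.comp Computable.snd)))

theorem tow2_exists_list {α β : Type} {p : α → β → Prop} (l : List α) (h : ∀ a ∈ l, ∃ b, p a b) :
    ∃ ts : List (α × β), ts.map Prod.fst = l ∧ ∀ t ∈ ts, p t.1 t.2 := by
  induction l with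
  | nil => exact ⟨[], rfl, by simp⟩
  | cons a l ih =>
    obtain ⟨ts, h1, h2⟩ := ih fun a' ha' => h a' (List.mem_cons_of_mem _ ha')
    obtain ⟨b, hb⟩ := h a List.mem_cons_self
    refine ⟨(a, b) :: ts, by simp [h1], fun t ht => ?_⟩
    rcases List.mem_cons.1 ht with rfl | ht
    · exact hb
    · exact h2 t ht

/-- The r.e. test `W (c, F, w, ws)`: there are `es, fs` with `W₀ (c, (F, w), es, fs)` (`W₀` from
`T.cert`) and a list `ts` of witnesses `(x, b)` for the facts `fs` such that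
`ws = guard :: (es ++ tests)`.  `c` is given by `MM.Good.sem`. -/
theorem exists_c (hG : REPred fun u : Wd (Fin T.n) => wev T.g u ≠ 1) : ∃ c : ℕ,
    (∀ (K : Type) [Group K] (κ : Fin 3 → K) (F : Bool) (h : K), T.M.Accepts c κ F h →
      wev κ T.guard = 1) ∧
    (∀ N : NS, T.Valid c (mq N) → T.Valid c (T.y c (mq N))) ∧
    (∀ N : NS, T.Valid c (mq N) → ∀ (F : Bool) (u : Wd (Fin 3)),
      (∀ (F' : Bool) (v : Wd (Fin 3)), v.length < u.length → T.Fact (mq N) F' (wev (mq N) v) →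
        T.M.Accepts c (mq N) F' (wev (mq N) v)) →
      T.Fact (T.y c (mq N)) F (wev (T.y c (mq N)) u) →
      T.M.Accepts c (T.y c (mq N)) F (wev (T.y c (mq N)) u)) ∧
    ∃ W : Bool × Wd (Fin 3) × List (Wd (Fin 3)) → Prop,
      ∀ (K : Type) [Group K] (κ : Fin 3 → K) (F : Bool) (h : K), T.M.Accepts c κ F h ↔
        ∃ w ws, h = wev κ w ∧ (∀ u ∈ ws, wev κ u = 1) ∧ W (F, w, ws) := by
  obtain ⟨W₀, hre, hs, hc⟩ := T.cert hG
  obtain ⟨c, hsem⟩ := T.hM.sem (T.tow2_W W₀) (T.tow2_re_W hre)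
  refine ⟨c, fun K _ κ F h hA => ?_, fun N hv F h hA => ?_, fun N hv F u hn hu => ?_,
    fun x => T.tow2_W W₀ (c, x), hsem⟩
  · obtain ⟨w, ws, -, h2, p, -, h3⟩ := (hsem K κ F h).1 hA
    exact h2 _ (by rw [show ws = _ from h3]; exact List.mem_cons_self)
  · obtain ⟨w, ws, rfl, h2, p, h3, h4⟩ := (hsem _ _ F h).1 hA
    have h5 : ws = T.guard :: (p.1 ++ p.2.map T.tow2_tst) := h4
    subst h5
    have h6 := hs ⟨(c, N), hv⟩ (F, w) p.1 (p.2.map Prod.fst) h3
      (fun e he => h2 e (List.mem_cons_of_mem _ (List.mem_append_left _ he))) (fun f hf => by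
        obtain ⟨t, ht, rfl⟩ := List.mem_map.1 hf
        exact hv _ _ (T.accepts_of_testW c (mq N) t.1.2 t.2.1 t.2.2 (h2 _ (List.mem_cons_of_mem _
          (List.mem_append_right _ (List.mem_map.2 ⟨t, ht, rfl⟩))))))
    cases F
    · exact h6
    · exact fun h7 => h6 (T.P_le_Q c (mq N) h7)
  · have h0 : 0 < u.length := by
      rcases Nat.eq_zero_or_pos u.length with h0 | h0
      · rw [List.length_eq_zero_iff.1 h0, wev_nil] at hu
        cases F
        · exact absurd rfl hu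
        · exact absurd (one_mem _) hu
      · exact h0
    obtain ⟨es, fs, h1, h2, h3⟩ := hc ⟨(c, N), hv⟩ (F, u) (by
      cases F
      · exact hu
      · exact fun h => hu (T.mem_P_of_small c (mq N) (mq_gens N) hv (fun v h1 h2 => hn true v h1 h2) h))
    obtain ⟨ts, h4, h5⟩ := tow2_exists_list (p := fun (f : Bool × Wd (Fin 3))
        (b : Wd (Fin T.M.j) × Wd ℕ) => wev (T.y c (mq N)) (T.tow2_tst (f, b)) = 1) fs fun f hf => by
      have h6 : f.2.length ≤ u.length - 1 := (h3 f hf).2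
      obtain ⟨x, b, h7⟩ := T.exists_testW c (mq N) (mq_gens N) f.2 rfl
        (hn f.1 f.2 (by omega) (h3 f hf).1)
      exact ⟨(x, b), h7⟩
    refine (hsem _ _ F _).2 ⟨u, T.guard :: (es ++ ts.map T.tow2_tst), rfl, fun v hv' => ?_,
      (es, ts), by rw [← h4] at h1; exact h1, rfl⟩
    rcases List.mem_cons.1 hv' with rfl | hv'
    · exact T.wev_guard c (mq N)
    rcases List.mem_append.1 hv' with hv' | hv'
    · exact h2 v hv'
    · obtain ⟨t, ht, rfl⟩ := List.mem_map.1 hv'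
      exact h5 t ht

section transfer

variable {K K' : Type} [Group K] [Group K'] {κ : Fin 3 → K} {κ' : Fin 3 → K'}

theorem tow2_wev (f : K →* K') (hf : ∀ y, f (κ y) = κ' y) (w : Wd (Fin 3)) :
    f (wev κ w) = wev κ' w := by
  rw [map_wev]
  exact congrArg (fun g => wev g w) (funext hf)

theorem tow2_P_map (f : K →* K') (hf : ∀ y, f (κ y) = κ' y) : T.P κ' = (T.P κ).map f := by
  refine (congrArg Subgroup.closure ?_).trans (MonoidHom.map_closure _ _).symm
  ext x
  constructor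
  · rintro ⟨w, hw, rfl⟩
    exact ⟨_, ⟨w, hw, rfl⟩, tow2_wev f hf w⟩
  · rintro ⟨_, ⟨w, hw, rfl⟩, rfl⟩
    exact ⟨w, hw, tow2_wev f hf w⟩

theorem tow2_mem_P (e : K ≃* K') (he : ∀ y, e (κ y) = κ' y) (x : K) :
    e x ∈ T.P κ' ↔ x ∈ T.P κ := by
  rw [T.tow2_P_map e.toMonoidHom he]
  exact Subgroup.mem_map_iff_mem (f := e.toMonoidHom) e.injective

theorem tow2_fact (e : K ≃* K') (he : ∀ y, e (κ y) = κ' y) (F : Bool) (x : K) :
    T.Fact κ' F (e x) ↔ T.Fact κ F x := by
  cases F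
  · exact (map_eq_one_iff e e.injective).not
  · exact (T.tow2_mem_P e he x).not

end transfer

theorem tow2_mq_wev (N : NS) (w : Wd (Fin 3)) :
    wev (mq N) w = QuotientGroup.mk (FreeGroup.mk w) := by
  have h : wev FreeGroup.of w = FreeGroup.mk w := by
    rw [wev, FreeGroup.lift_of_eq_id]; rfl
  rw [← h]
  exact (tow2_wev (QuotientGroup.mk' N.1) (fun _ => rfl) w).symm

theorem tow2_lift_mq (N : NS) (x : FreeGroup (Fin 3)) :
    FreeGroup.lift (mq N) x = QuotientGroup.mk x := by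
  obtain ⟨w, rfl⟩ := Quot.exists_rep x
  exact tow2_mq_wev N w

theorem tow2_equiv (c : ℕ) (N N' : NS) (h : N' = T.op c N) :
    ∃ e : FreeGroup (Fin 3) ⧸ N'.1 ≃* T.Top c (mq N), ∀ y, e (mq N' y) = T.y c (mq N) y := by
  subst h
  have hs : Function.Surjective (FreeGroup.lift (T.y c (mq N))) := fun x => by
    obtain ⟨w, hw⟩ := (T.y_gens c (mq N) (mq_gens N)).exists_wev x
    exact ⟨_, hw⟩
  exact ⟨QuotientGroup.quotientKerEquivOfSurjective _ hs, fun y => FreeGroup.lift_apply_of⟩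

/-- the iterates of the operator -/
noncomputable def tow2_N (c : ℕ) : ℕ → NS
  | 0 => ⟨⊥, inferInstance⟩
  | n + 1 => T.op c (tow2_N c n)

theorem tow2_op_mono (c : ℕ) {N N' : NS} (h : N.1 ≤ N'.1) : (T.op c N).1 ≤ (T.op c N').1 := by
  obtain ⟨r, -, hr⟩ := T.up c
  rw [hr, hr]
  exact Subgroup.normalClosure_mono (Set.union_subset_union_right _ (Set.image_mono h))

theorem tow2_N_mono (c : ℕ) : Monotone fun n => (T.tow2_N c n).1 := by
  refine monotone_nat_of_le_succ fun n => ?_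
  induction n with
  | zero => exact bot_le
  | succ n ih => exact T.tow2_op_mono c ih

theorem tow2_mem_sup (c : ℕ) {x : FreeGroup (Fin 3)} :
    x ∈ ⨆ n, (T.tow2_N c n).1 ↔ ∃ n, x ∈ (T.tow2_N c n).1 :=
  Subgroup.mem_iSup_of_directed (T.tow2_N_mono c).directed_le

/-- the least fixed point -/
noncomputable def tow2_L (c : ℕ) : NS :=
  ⟨⨆ n, (T.tow2_N c n).1, ⟨fun x hx g => by
    obtain ⟨n, hn⟩ := (T.tow2_mem_sup c).1 hx
    exact (T.tow2_mem_sup c).2 ⟨n, (T.tow2_N c n).2.conj_mem x hn g⟩⟩⟩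

theorem tow2_mem_L (c : ℕ) {x : FreeGroup (Fin 3)} :
    x ∈ (T.tow2_L c).1 ↔ ∃ n, x ∈ (T.tow2_N c n).1 := T.tow2_mem_sup c

theorem tow2_fix (c : ℕ) : T.tow2_L c = T.op c (T.tow2_L c) := by
  refine Subtype.ext (le_antisymm (fun x hx => ?_) ?_)
  · obtain ⟨n, hn⟩ := (T.tow2_mem_L c).1 hx
    exact T.tow2_op_mono c (N := T.tow2_N c n) (fun z hz => (T.tow2_mem_L c).2 ⟨n, hz⟩)
      (T.tow2_N_mono c (Nat.le_succ n) hn)
  · obtain ⟨r, -, hr⟩ := T.up c
    rw [hr]
    refine Subgroup.normalClosure_le_normal ?_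
    rintro x (hx | ⟨z, hz, rfl⟩)
    · refine (T.tow2_mem_L c).2 ⟨1, ?_⟩
      change x ∈ (T.op c _).1
      rw [hr]
      exact Subgroup.subset_normalClosure (Or.inl hx)
    · obtain ⟨n, hn⟩ := (T.tow2_mem_L c).1 hz
      refine (T.tow2_mem_L c).2 ⟨n + 1, ?_⟩
      change _ ∈ (T.op c _).1
      rw [hr]
      exact Subgroup.subset_normalClosure (Or.inr ⟨z, hn, rfl⟩)

theorem tow2_list (c : ℕ) (ws : List (Wd (Fin 3)))
    (h : ∀ u ∈ ws, wev (mq (T.tow2_L c)) u = 1) :
    ∃ n, ∀ m, n ≤ m → ∀ u ∈ ws, wev (mq (T.tow2_N c m)) u = 1 := by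
  induction ws with
  | nil => exact ⟨0, by simp⟩
  | cons v ws ih =>
    obtain ⟨n, hn⟩ := ih fun u hu => h u (List.mem_cons_of_mem _ hu)
    have h1 := h v List.mem_cons_self
    rw [tow2_mq_wev, QuotientGroup.eq_one_iff] at h1
    obtain ⟨k, hk⟩ := (T.tow2_mem_L c).1 h1
    refine ⟨max n k, fun m hm u hu => ?_⟩
    rcases List.mem_cons.1 hu with rfl | hu
    · rw [tow2_mq_wev, QuotientGroup.eq_one_iff]
      exact T.tow2_N_mono c (le_of_max_le_right hm) hk
    · exact hn m (le_of_max_le_left hm) u hu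

theorem tow2_fact_L (c : ℕ) {F : Bool} {w : Wd (Fin 3)} {n : ℕ}
    (h : ∀ m, n ≤ m → T.Fact (mq (T.tow2_N c m)) F (wev (mq (T.tow2_N c m)) w)) :
    T.Fact (mq (T.tow2_L c)) F (wev (mq (T.tow2_L c)) w) := by
  cases F
  · intro h1
    obtain ⟨k, hk⟩ := T.tow2_list c [w] (by simpa using h1)
    exact h (max n k) (le_max_left _ _) (hk _ (le_max_right _ _) w List.mem_cons_self)
  · intro h1
    rw [T.tow2_P_map (κ := FreeGroup.of) (κ' := mq (T.tow2_L c))
      (QuotientGroup.mk' (T.tow2_L c).1) (fun _ => rfl), tow2_mq_wev] at h1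
    obtain ⟨x, hx, h2⟩ := h1
    obtain ⟨k, hk⟩ := (T.tow2_mem_L c).1 (QuotientGroup.eq.1 h2)
    refine h (max n k) (le_max_left _ _) ?_
    rw [T.tow2_P_map (κ := FreeGroup.of) (κ' := mq (T.tow2_N c (max n k)))
      (QuotientGroup.mk' (T.tow2_N c (max n k)).1) (fun _ => rfl), tow2_mq_wev]
    exact ⟨x, hx, QuotientGroup.eq.2 (T.tow2_N_mono c (le_max_right n k) hk)⟩

end TD

/-- `N₀ = ⊥`, `N_{n+1} = op c N_n` is increasing (`TD.up`), `N* = ⨆ N_n` is a fixed point, `H = F ⧸ N*`,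
`e : H ≃* Top c (mq N*)` with `e (mq y) = y`.  `Valid`, `Accepts`, `P`, `Fact` are invariant under
isomorphisms of marked groups (for `Accepts` use the last part of `exists_c`); every `N_n` is valid
(guard, induction), hence `N*` (an accepted `h` and a witness of `h ∈ P` or `h = 1` involve finitely
many equations); all true facts are accepted (strong induction on the length).
`φ = e.symm ∘ phi`, `P = T.P (mq N*)`, `τ = wev tauW`; `fp` by `Asc.fp_of_L`. -/
theorem exists_tower (G : Type) [Group G] [Group.IsFinitelyPresented G] {n : ℕ} {g : Fin n → G}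
    (hg : Gens g) (hG : REPred fun u : Wd (Fin n) => wev g u ≠ 1) :
    ∃ (H : Type) (_ : Group H) (φ : H →* H) (P : Subgroup H) (τ : H) (f : G →* H),
      Tower φ P τ ∧ Function.Injective f := by
  obtain ⟨M, hM⟩ := exists_MM 3
  let T : TD := ⟨M, hM, G, n, g, hg, inferInstance⟩
  obtain ⟨c, h1, h2, h3, W, hW⟩ := T.exists_c hG
  have hacc : ∀ {K K' : Type} [Group K] [Group K'] {κ : Fin 3 → K} {κ' : Fin 3 → K'} (f : K →* K'),
      (∀ y, f (κ y) = κ' y) → ∀ F h, T.M.Accepts c κ F h → T.M.Accepts c κ' F (f h) := by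
    intro K K' _ _ κ κ' f hf F h hA
    obtain ⟨w, ws, rfl, k1, k2⟩ := (hW K κ F h).1 hA
    exact (hW K' κ' F _).2 ⟨w, ws, TD.tow2_wev f hf w,
      fun u hu => by rw [← TD.tow2_wev f hf, k1 u hu, map_one], k2⟩
  have hvN : ∀ m, T.Valid c (TD.mq (T.tow2_N c m)) := by
    intro m
    induction m with
    | zero =>
      intro F h hA
      have k1 := h1 _ _ F h hA
      rw [TD.tow2_mq_wev, QuotientGroup.eq_one_iff] at k1
      exact absurd (Subgroup.mem_bot.1 k1) T.guard_ne_one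
    | succ m ih =>
      obtain ⟨e, he⟩ := T.tow2_equiv c (T.tow2_N c m) (T.tow2_N c (m + 1)) rfl
      exact fun F h hA => (T.tow2_fact e he F h).1 (h2 _ ih F _ (hacc e.toMonoidHom he F h hA))
  have hv : T.Valid c (TD.mq (T.tow2_L c)) := by
    intro F h hA
    obtain ⟨w, ws, rfl, k1, k2⟩ := (hW _ _ F h).1 hA
    obtain ⟨k, hk⟩ := T.tow2_list c ws k1
    exact T.tow2_fact_L c fun m hm => hvN m F _ ((hW _ _ F _).2 ⟨w, ws, rfl, hk m hm, k2⟩)
  obtain ⟨e, he⟩ := T.tow2_equiv c (T.tow2_L c) (T.tow2_L c) (T.tow2_fix c)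
  have he' : ∀ y, e.symm (T.y c (TD.mq (T.tow2_L c)) y) = TD.mq (T.tow2_L c) y := fun y => by
    rw [← he, e.symm_apply_apply]
  have hw : ∀ w, e (wev (TD.mq (T.tow2_L c)) w) = wev (T.y c (TD.mq (T.tow2_L c))) w :=
    TD.tow2_wev e.toMonoidHom he
  have hall : ∀ (k : ℕ) (F : Bool) (u : Wd (Fin 3)), u.length < k →
      T.Fact (TD.mq (T.tow2_L c)) F (wev (TD.mq (T.tow2_L c)) u) →
      T.M.Accepts c (TD.mq (T.tow2_L c)) F (wev (TD.mq (T.tow2_L c)) u) := by
    intro k
    induction k with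
    | zero => intro F u hu; omega
    | succ k ih =>
      intro F u hu hF
      have k1 := h3 _ hv F u (fun F' v hv' => ih F' v (by omega))
        (by rw [← hw]; exact (T.tow2_fact e he F _).2 hF)
      have k2 := hacc e.symm.toMonoidHom he' F _ k1
      rwa [TD.tow2_wev e.symm.toMonoidHom he'] at k2
  have hκ := TD.mq_gens (T.tow2_L c)
  have hP := T.tow2_mem_P e he
  have hφ : ∀ h, e ((e.symm.toMonoidHom.comp (T.phi c (TD.mq (T.tow2_L c)))) h) =
      T.phi c (TD.mq (T.tow2_L c)) h := fun h => e.apply_symm_apply _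
  refine ⟨FreeGroup (Fin 3) ⧸ (T.tow2_L c).1, inferInstance,
    e.symm.toMonoidHom.comp (T.phi c (TD.mq (T.tow2_L c))), T.P (TD.mq (T.tow2_L c)),
    wev (TD.mq (T.tow2_L c)) T.tauW, e.symm.toMonoidHom.comp (T.eG c (TD.mq (T.tow2_L c))),
    ⟨e.symm.injective.comp (T.phi_injective c _), ?_, fun ι t χ hA => ?_,
      (T.magic c _).comp_left _, fun h => ?_, fun p hp => ?_, fun h => ?_, ?_, fun h => ?_,
      fun h hh => ?_, ?_⟩, e.symm.injective.comp (T.eG_injective c _)⟩
  · exact Group.fg_iff.2 ⟨_, hκ, Set.finite_range _⟩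
  · obtain ⟨r, hr, hr'⟩ := T.up c
    refine hA.fp_of_L hκ (FreeGroup.lift fun y => FreeGroup.mk (T.phiW y)) (fun w => ?_) r hr
      (fun w hw' => ?_) fun M' hM' k1 k2 x hx => ?_
    · obtain ⟨v, rfl⟩ := Quot.exists_rep w
      apply e.injective
      rw [hφ]
      change e (FreeGroup.lift _ (FreeGroup.lift _ (FreeGroup.mk v))) = _
      rw [TD.tow1_lift_mk]
      exact (hw _).trans (T.wev_phiW c _ v)
    · rw [TD.tow2_lift_mq, QuotientGroup.eq_one_iff, T.tow2_fix c, hr']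
      exact Subgroup.subset_normalClosure (Or.inl hw')
    · rw [MonoidHom.mem_ker, TD.tow2_lift_mq, QuotientGroup.eq_one_iff] at hx
      obtain ⟨m, hm⟩ := (T.tow2_mem_L c).1 hx
      have : ∀ m, (T.tow2_N c m).1 ≤ M' := by
        intro m
        induction m with
        | zero => exact bot_le
        | succ m ih =>
          change (T.op c _).1 ≤ M'
          rw [hr']
          refine Subgroup.normalClosure_le_normal ?_
          rintro x (hx | ⟨z, hz, rfl⟩)
          · exact k1 hx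
          · exact k2 z (ih hz)
      exact this m hm
  · rw [← hP, hφ]
    exact T.phi_mem_iff c _ hκ hv
  · apply e.injective
    rw [map_mul, map_mul, hφ, hw]
    exact (T.comm c _ hp).eq
  · rw [← hP, map_mul, map_mul, map_inv, hφ, hw]
    exact T.conj_mem c _ hκ h
  · rw [← hP, map_mul, hw]
    exact T.sq_mem c _
  · refine T.tau_notMem c _ hv ?_
    rw [← hw, hP, h]
    trivial
  · obtain ⟨u, rfl⟩ := hκ.exists_wev h
    rw [← hP, map_mul, map_mul, map_inv, hφ, hw]
    exact T.fix c _ (hall _ true u (Nat.lt_succ_self _) hh)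
  · obtain ⟨u, hu⟩ := T.free c (TD.mq (T.tow2_L c))
    refine ⟨e.symm u, fun h hh => hu h ?_⟩
    rwa [← hP, map_mul, map_mul, map_inv, hφ, e.apply_symm_apply] at hh

end Crest.Agent.R185
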