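import Crest.Agent.R185.Hig2
import Crest.Agent.R185.Tow2
import Crest.Agent.R185.Hc5
import Crest.Agent.R185.Act2

/-!
# R185: assembly of parts C and D
-/

set_option autoImplicit false

namespace Crest.Agent.R185

/-- a finitely generated group with solvable word problem embeds in the kernel of the character of
an oligomorphic action with `F∞` stabilisers -/
theorem exists_oligo
    (hcc : ∀ (G : Type) [Group G], Group.IsFinitelyPresented G → CC G 2)
    (G : Type*) [Group G] (k : ℕ) (s : Fin k → G) (hgen : Subgroup.closure (Set.range s) = ⊤)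
    (hdec : ComputablePred fun w : List (Fin k × Bool) => FreeGroup.lift s (FreeGroup.mk w) = 1) :
    ∃ (E S : Type) (_ : Group E) (_ : MulAction E S) (χ : E →* Multiplicative ℤ) (f : G →* χ.ker),
      Oligo E S χ ∧ Function.Injective f := by
  have hsurj : Function.Surjective (FreeGroup.lift s) := by
    rw [← MonoidHom.range_eq_top, FreeGroup.range_lift_eq_closure, hgen]
  let G₀ : Type := FreeGroup (Fin k) ⧸ (FreeGroup.lift s).ker
  let e : G₀ ≃* G := QuotientGroup.quotientKerEquivOfSurjective _ hsurj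
  let g : Fin k → G₀ := fun i => e.symm (s i)
  have hw : ∀ w : Wd (Fin k), e (wev g w) = FreeGroup.lift s (FreeGroup.mk w) := by
    intro w
    have : e.toMonoidHom.comp (FreeGroup.lift g) = FreeGroup.lift s := by
      ext i
      simp [g]
    exact DFunLike.congr_fun this (FreeGroup.mk w)
  have hw' : ∀ w : Wd (Fin k), FreeGroup.lift s (FreeGroup.mk w) = 1 ↔ wev g w = 1 := by
    intro w
    rw [← hw, map_eq_one_iff _ e.injective]
  have hg : Gens g := by
    have h1 : Set.range g = e.symm.toMonoidHom '' Set.range s := by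
      rw [← Set.range_comp]
      rfl
    rw [Gens, h1, ← MonoidHom.map_closure, hgen]
    exact Subgroup.map_top_of_surjective _ e.symm.surjective
  have hdec' : ComputablePred fun w : Wd (Fin k) => wev g w = 1 := hdec.of_eq hw'
  obtain ⟨G₁, _, n, g₁, f₁, hfp, hg₁, hf₁, hco⟩ := higman hg hdec'.to_re
  have hco' := hco hdec'.not.to_re
  obtain ⟨H, _, φ, P, τ, f₂, hT, hf₂⟩ := exists_tower G₁ hg₁ hco'
  obtain ⟨E, _, ι, t, χ, hA⟩ := exists_asc hT.inj
  have hE : CCinf E := ccinf_of_magic hA hT.fg hT.magic (hcc E (hT.fp ι t χ hA))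
  refine ⟨E, Act.S P ι t, inferInstance, inferInstance, χ,
    (ι.codRestrict χ.ker fun x => hA.chi_ι x).comp (f₂.comp (f₁.comp e.symm.toMonoidHom)),
    Act.oligo hT hA hE, ?_⟩
  intro x y hxy
  have h1 : ι (f₂ (f₁ (e.symm x))) = ι (f₂ (f₁ (e.symm y))) := congrArg Subtype.val hxy
  exact e.symm.injective (hf₁ (hf₂ (hA.inj h1)))

/-- a coarsely aspherical group containing all finitely presented groups -/
theorem exists_universal_ccinf
    (hcc : ∀ (G : Type) [Group G], Group.IsFinitelyPresented G → CC G 2) :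
    ∃ (E : Type) (_ : Group E), CCinf E ∧
      ∀ (G : Type) [Group G], Group.IsFinitelyPresented G →
        ∃ f : G →* E, Function.Injective f := by
  obtain ⟨U, _, hU, huniv⟩ := exists_universal
  obtain ⟨Y, _, φ, hY, hφ, hm⟩ := exists_magic_fp U
  obtain ⟨ψ, hψ⟩ := huniv Y hY
  have hinj : Function.Injective (ψ.comp φ) := hψ.comp hφ
  obtain ⟨E, _, ι, t, χ, hA⟩ := exists_asc hinj
  have hfg : Group.FG U := by
    obtain ⟨n, π, hπ, -⟩ := hU.out
    exact Group.fg_of_surjective hπ
  refine ⟨E, inferInstance, ccinf_of_magic hA hfg (hm.comp_left ψ) (hcc E hA.fp_of_fp),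
    fun G _ hG => ?_⟩
  obtain ⟨f, hf⟩ := huniv G hG
  exact ⟨ι.comp f, hA.inj.comp hf⟩

end Crest.Agent.R185
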