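import Crest.Agent.R185.Defs

/-!
# R185: words, marked groups, norms
-/

set_option autoImplicit false

namespace Crest.Agent.R185

/-- words over an alphabet -/
abbrev Wd (𝔄 : Type) : Type := List (𝔄 × Bool)

/-- value of a word -/
def wev {𝔄 G : Type} [Group G] (g : 𝔄 → G) (w : Wd 𝔄) : G := FreeGroup.lift g (FreeGroup.mk w)

/-- inverse word -/
def winv {𝔄 : Type} (w : Wd 𝔄) : Wd 𝔄 := FreeGroup.invRev w

/-- substitution of words for letters -/
def wsub {𝔄 𝔅 : Type} (s : 𝔄 → Wd 𝔅) (w : Wd 𝔄) : Wd 𝔅 :=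
  w.flatMap fun p => if p.2 then s p.1 else winv (s p.1)

/-- renaming of letters -/
def wmap {𝔄 𝔅 : Type} (f : 𝔄 → 𝔅) (w : Wd 𝔄) : Wd 𝔅 := w.map fun p => (f p.1, p.2)

/-- `g` generates -/
def Gens {𝔄 G : Type} [Group G] (g : 𝔄 → G) : Prop := Subgroup.closure (Set.range g) = ⊤

section
variable {𝔄 𝔅 G H : Type} [Group G] [Group H]

@[simp] theorem wev_nil (g : 𝔄 → G) : wev g [] = 1 := by
  unfold wev; rw [← FreeGroup.one_eq_mk]; simp

@[simp] theorem wev_append (g : 𝔄 → G) (u w : Wd 𝔄) : wev g (u ++ w) = wev g u * wev g w := by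
  unfold wev; rw [← FreeGroup.mul_mk, map_mul]

@[simp] theorem wev_winv (g : 𝔄 → G) (w : Wd 𝔄) : wev g (winv w) = (wev g w)⁻¹ := by
  unfold wev winv; rw [← FreeGroup.inv_mk, map_inv]

@[simp] theorem wev_single_true (g : 𝔄 → G) (a : 𝔄) : wev g [(a, true)] = g a := by
  simp [wev]

@[simp] theorem wev_single_false (g : 𝔄 → G) (a : 𝔄) : wev g [(a, false)] = (g a)⁻¹ := by
  simp [wev]

theorem wev_cons (g : 𝔄 → G) (p : 𝔄 × Bool) (w : Wd 𝔄) :
    wev g (p :: w) = (if p.2 then g p.1 else (g p.1)⁻¹) * wev g w := by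
  rw [show p :: w = [p] ++ w from rfl, wev_append]
  obtain ⟨a, b⟩ := p
  cases b <;> simp

theorem map_wev (f : G →* H) (g : 𝔄 → G) (w : Wd 𝔄) : f (wev g w) = wev (f ∘ g) w := by
  induction w with
  | nil => simp
  | cons p w ih =>
    rw [wev_cons, wev_cons, map_mul, ih]
    split_ifs <;> simp

theorem wev_wsub (g : 𝔅 → G) (s : 𝔄 → Wd 𝔅) (w : Wd 𝔄) :
    wev g (wsub s w) = wev (fun a => wev g (s a)) w := by
  induction w with
  | nil => simp [wsub]
  | cons p w ih =>
    rw [wev_cons, ← ih]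
    simp only [wsub, List.flatMap_cons, wev_append]
    split_ifs <;> simp

theorem wev_wmap (g : 𝔅 → G) (f : 𝔄 → 𝔅) (w : Wd 𝔄) : wev g (wmap f w) = wev (g ∘ f) w := by
  induction w with
  | nil => simp [wmap]
  | cons p w ih =>
    rw [wev_cons, ← ih]
    simp only [wmap, List.map_cons, wev_cons, Function.comp]

theorem wev_mem_closure (g : 𝔄 → G) (w : Wd 𝔄) : wev g w ∈ Subgroup.closure (Set.range g) := by
  induction w with
  | nil => simp
  | cons p w ih =>
    rw [wev_cons]
    refine Subgroup.mul_mem _ ?_ ih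
    split_ifs
    · exact Subgroup.subset_closure ⟨_, rfl⟩
    · exact Subgroup.inv_mem _ (Subgroup.subset_closure ⟨_, rfl⟩)

theorem exists_wev_of_mem {g : 𝔄 → G} {x : G} (hx : x ∈ Subgroup.closure (Set.range g)) :
    ∃ w, wev g w = x := by
  induction hx using Subgroup.closure_induction with
  | mem x hx => obtain ⟨a, rfl⟩ := hx; exact ⟨[(a, true)], by simp⟩
  | one => exact ⟨[], by simp⟩
  | mul x y _ _ hx hy =>
    obtain ⟨u, rfl⟩ := hx; obtain ⟨w, rfl⟩ := hy; exact ⟨u ++ w, by simp⟩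
  | inv x _ hx => obtain ⟨u, rfl⟩ := hx; exact ⟨winv u, by simp⟩

theorem Gens.exists_wev {g : 𝔄 → G} (hg : Gens g) (x : G) : ∃ w, wev g w = x :=
  exists_wev_of_mem (by rw [hg]; trivial)

end

/-- an `ℕ`-valued length function on a group -/
structure Nrm (G : Type) [Group G] where
  f : G → ℕ
  one : f 1 = 0
  mul : ∀ x y, f (x * y) ≤ f x + f y
  inv : ∀ x, f x⁻¹ = f x

instance {G : Type} [Group G] : CoeFun (Nrm G) (fun _ => G → ℕ) := ⟨Nrm.f⟩

namespace Nrm

variable {𝔄 G H : Type} [Group G] [Group H]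

/-- the zero norm -/
def zero (G : Type) [Group G] : Nrm G := ⟨fun _ => 0, rfl, fun _ _ => le_rfl, fun _ => rfl⟩

/-- maximum norm on a product -/
def prodMax (N : Nrm G) (M : Nrm H) : Nrm (G × H) where
  f x := max (N x.1) (M x.2)
  one := by simp [N.one, M.one]
  mul x y := by
    have := N.mul x.1 y.1; have := M.mul x.2 y.2
    simp only [Prod.fst_mul, Prod.snd_mul]; omega
  inv x := by simp [N.inv, M.inv]

/-- sum norm on a product -/
def prodSum (N : Nrm G) (M : Nrm H) : Nrm (G × H) where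
  f x := N x.1 + M x.2
  one := by simp [N.one, M.one]
  mul x y := by
    have := N.mul x.1 y.1; have := M.mul x.2 y.2
    simp only [Prod.fst_mul, Prod.snd_mul]; omega
  inv x := by simp [N.inv, M.inv]

/-- multiple of a norm -/
def smul (c : ℕ) (N : Nrm G) : Nrm G where
  f x := c * N x
  one := by simp [N.one]
  mul x y := by rw [← Nat.mul_add]; exact Nat.mul_le_mul_left c (N.mul x y)
  inv x := by rw [N.inv]

/-- pull-back of a norm -/
def comap (f : G →* H) (N : Nrm H) : Nrm G where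
  f x := N (f x)
  one := by simp [N.one]
  mul x y := by rw [map_mul]; exact N.mul _ _
  inv x := by rw [map_inv, N.inv]

open Classical in
/-- a definite version of a norm -/
noncomputable def defn (N : Nrm G) : Nrm G where
  f x := N x + if x = 1 then 0 else 1
  one := by simp [N.one]
  mul x y := by
    have := N.mul x y
    by_cases hx : x = 1
    · subst hx; simp [N.one]
    by_cases hy : y = 1
    · subst hy; simp [N.one]
    simp only [hx, hy, if_false]; split_ifs <;> omega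
  inv x := by simp [N.inv]

theorem defn_pos (N : Nrm G) {x : G} (hx : x ≠ 1) : 0 < N.defn x := by simp [defn, hx]
theorem le_defn (N : Nrm G) (x : G) : N x ≤ N.defn x := by simp [defn]
theorem defn_le (N : Nrm G) (x : G) : N.defn x ≤ N x + 1 := by
  simp only [defn]; split_ifs <;> omega

/-- word length with respect to a generating family -/
noncomputable def word (g : 𝔄 → G) (hg : Gens g) : Nrm G where
  f x := sInf {n | ∃ w : Wd 𝔄, wev g w = x ∧ w.length = n}
  one := Nat.eq_zero_of_le_zero (Nat.sInf_le ⟨[], by simp, rfl⟩)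
  mul x y := by
    obtain ⟨u, hu, hu'⟩ := Nat.sInf_mem (s := {n | ∃ w : Wd 𝔄, wev g w = x ∧ w.length = n})
      (let ⟨w, hw⟩ := hg.exists_wev x; ⟨_, w, hw, rfl⟩)
    obtain ⟨w, hw, hw'⟩ := Nat.sInf_mem (s := {n | ∃ w : Wd 𝔄, wev g w = y ∧ w.length = n})
      (let ⟨w, hw⟩ := hg.exists_wev y; ⟨_, w, hw, rfl⟩)
    rw [← hu', ← hw']
    exact Nat.sInf_le ⟨u ++ w, by simp [hu, hw], by simp⟩
  inv x := by
    congr 1
    ext n
    constructor
    · rintro ⟨w, hw, rfl⟩
      exact ⟨winv w, by simp [hw], by simp [winv]⟩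
    · rintro ⟨w, hw, rfl⟩
      exact ⟨winv w, by simp [hw], by simp [winv]⟩

theorem word_le (g : 𝔄 → G) (hg : Gens g) (w : Wd 𝔄) : word g hg (wev g w) ≤ w.length :=
  Nat.sInf_le ⟨w, rfl, rfl⟩

theorem exists_word (g : 𝔄 → G) (hg : Gens g) (x : G) :
    ∃ w, wev g w = x ∧ w.length = word g hg x :=
  Nat.sInf_mem (s := {n | ∃ w : Wd 𝔄, wev g w = x ∧ w.length = n})
    (let ⟨w, hw⟩ := hg.exists_wev x; ⟨_, w, hw, rfl⟩)

/-- a norm is bounded on words by the bound on the generators -/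
theorem wev_le (N : Nrm G) (g : 𝔄 → G) {b : ℕ} (hb : ∀ a, N (g a) ≤ b) (w : Wd 𝔄) :
    N (wev g w) ≤ b * w.length := by
  induction w with
  | nil => simp [N.one]
  | cons p w ih =>
    rw [wev_cons]
    refine (N.mul _ _).trans ?_
    have : N (if p.2 then g p.1 else (g p.1)⁻¹) ≤ b := by
      split_ifs
      · exact hb _
      · rw [N.inv]; exact hb _
    simp only [List.length_cons, Nat.mul_add, Nat.mul_one]; omega

end Nrm

end Crest.Agent.R185
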