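import Crest.Agent.R185.Nrm

/-!
# R185: semidirect products `FreeGroup Z ⋊ R` (definitions)
-/

set_option autoImplicit false

namespace Crest.Agent.R185

open scoped Pointwise

section
variable (R Z : Type) [Group R] [MulAction R Z]

/-- the action of `R` on the free group on the `R`-set `Z` -/
def sdAct : R →* MulAut (FreeGroup Z) where
  toFun r := FreeGroup.freeGroupCongr (MulAction.toPerm r)
  map_one' := by
    apply MulEquiv.toMonoidHom_injective
    ext z; simp
  map_mul' r s := by
    apply MulEquiv.toMonoidHom_injective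
    ext z; simp [mul_smul]

/-- `FreeGroup Z ⋊ R` -/
abbrev SD : Type := FreeGroup Z ⋊[sdAct R Z] R

end

namespace SD

variable {R Z : Type} [Group R] [MulAction R Z]

/-- the letter `z` -/
def lt (z : Z) : SD R Z := SemidirectProduct.inl (FreeGroup.of z)

/-- the subgroup `R` -/
def reg : R →* SD R Z := SemidirectProduct.inr

open Classical in
/-- the reduced word of the free part -/
noncomputable def wd (g : SD R Z) : List (Z × Bool) := g.left.toWord

/-- the free group on `Z' ⊆ Z` -/
def fr (Z' : Set Z) : Subgroup (FreeGroup Z) := Subgroup.closure (FreeGroup.of '' Z')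

/-- the subgroup generated by the letters in `Z'` and `R'` -/
def sub (Z' : Set Z) (R' : Subgroup R) : Subgroup (SD R Z) :=
  Subgroup.closure (lt '' Z' ∪ reg '' (R' : Set R))

/-- `Z'` is invariant under `R'` -/
def Inv (Z' : Set Z) (R' : Subgroup R) : Prop := ∀ r ∈ R', ∀ z ∈ Z', r • z ∈ Z'

/-- the set `F(Z') F(Z'') R'` -/
def W (Z' Z'' : Set Z) (R' : Subgroup R) : Set (SD R Z) :=
  {g | g.left ∈ (fr Z' : Set (FreeGroup Z)) * (fr Z'' : Set (FreeGroup Z)) ∧ g.right ∈ R'}

/-- `ν` is a size function on `Z` compatible with the norm `N` -/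
def Sz (N : Nrm R) (ν : Z → ℕ) : Prop := ∀ (r : R) (z : Z), ν (r • z) ≤ N r + ν z

/-- radius: the norm of the `R`-part and the distances of the letters from both end points -/
noncomputable def radF (N : Nrm R) (ν : Z → ℕ) (g : SD R Z) : ℕ :=
  max (N g.right) (((wd g).map fun p => max (ν p.1) (ν (g.right⁻¹ • p.1))).foldr max 0)

/-- `Z` is the disjoint union of the orbits of the base points `b q`, with stabilisers `C q` -/
structure Based {Q : Type} (b : Q → Z) (C : Q → Subgroup R) : Prop where
  surj : ∀ z, ∃ (q : Q) (r : R), z = r • b q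
  eq_iff : ∀ (q q' : Q) (r r' : R), r • b q = r' • b q' ↔ q = q' ∧ r⁻¹ * r' ∈ C q

/-- generators -/
def gens {𝔄 Q : Type} (g : 𝔄 → R) (b : Q → Z) : 𝔄 ⊕ Q → SD R Z :=
  Sum.elim (fun a => reg (g a)) (fun q => lt (b q))

theorem reg_mul_lt (r : R) (z : Z) : reg r * lt z * (reg r)⁻¹ = (lt (r • z) : SD R Z) := by
  have := SemidirectProduct.inl_aut (φ := sdAct R Z) r (FreeGroup.of z)
  rw [lt, lt, reg, ← map_inv, ← this]
  simp [sdAct]

/-- universal property -/
def lift {Λ : Type} [Group Λ] (f : R →* Λ) (τ : Z → Λ)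
    (h : ∀ r z, τ (r • z) = f r * τ z * (f r)⁻¹) : SD R Z →* Λ :=
  SemidirectProduct.lift (FreeGroup.lift τ) f (by
    intro r
    ext z
    simp [sdAct, h])

@[simp] theorem lift_reg {Λ : Type} [Group Λ] (f : R →* Λ) (τ : Z → Λ) (h) (r : R) :
    lift f τ h (reg r) = f r := by
  simp [lift, reg]

@[simp] theorem lift_lt {Λ : Type} [Group Λ] (f : R →* Λ) (τ : Z → Λ) (h) (z : Z) :
    lift f τ h (lt z) = τ z := by
  simp [lift, lt]

theorem hom_ext {Λ : Type} [Group Λ] {f f' : SD R Z →* Λ} (h₁ : ∀ r, f (reg r) = f' (reg r))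
    (h₂ : ∀ z, f (lt z) = f' (lt z)) : f = f' := by
  apply SemidirectProduct.hom_ext
  · ext z; exact h₂ z
  · ext r; exact h₁ r

/-- the map induced by an equivariant map of `R`-sets -/
def mapZ {Z' : Type} [MulAction R Z'] (f : Z → Z') (hf : ∀ (r : R) z, f (r • z) = r • f z) :
    SD R Z →* SD R Z' :=
  lift reg (fun z => lt (f z)) (fun r z => by rw [hf, reg_mul_lt])

theorem reg_injective : Function.Injective (reg : R → SD R Z) := SemidirectProduct.inr_injective

end SD

end Crest.Agent.R185
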