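import Crest.Agent.R185.TowDef

/-!
# R185 TASK Tow1: properties of `𝒜(K)`
-/

set_option autoImplicit false

namespace Crest.Agent.R185.TD

variable (T : TD) {K : Type} [Group K] (c : ℕ) (κ : Fin 3 → K)

theorem tow1_e6_injective : Function.Injective (T.e6 c κ) :=
  fun _ _ h => congrArg Prod.fst (Cp.emb_injective (T.g7 c κ) T.C_pos h)

theorem tow1_wev_inl {𝔄 𝔅 G H : Type} [Group G] [Group H] (g : 𝔄 → G) (h : 𝔅 → H) (u : Wd 𝔄) :
    wev (prodGens g h) (wmap Sum.inl u) = (wev g u, 1) := by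
  rw [wev_wmap]
  exact (map_wev (MonoidHom.inl G H) g u).symm

theorem tow1_wev_inr {𝔄 𝔅 G H : Type} [Group G] [Group H] (g : 𝔄 → G) (h : 𝔅 → H) (u : Wd 𝔅) :
    wev (prodGens g h) (wmap Sum.inr u) = (1, wev h u) := by
  rw [wev_wmap]
  exact (map_wev (MonoidHom.inr G H) h u).symm

theorem tow1_wev_reg (u : Wd (Fin 3)) (x : Wd (Fin T.M.j)) :
    wev (T.M.regG κ) (wmap Sum.inl u ++ wmap Sum.inr x) = (wev κ u, wev (zGens T.M.j) x) := by
  rw [wev_append, MM.regG, tow1_wev_inl, tow1_wev_inr, Prod.mk_mul_mk, mul_one, one_mul]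

theorem tow1_lift_mk {𝔄 𝔅 : Type} (s : 𝔄 → Wd 𝔅) (w : Wd 𝔄) :
    FreeGroup.lift (fun a => FreeGroup.mk (s a)) (FreeGroup.mk w) = FreeGroup.mk (wsub s w) := by
  have h : ∀ v : Wd 𝔅, wev FreeGroup.of v = FreeGroup.mk v := fun v => by
    rw [wev, FreeGroup.lift_of_eq_id]; rfl
  rw [← h (wsub s w), wev_wsub]
  simp only [h]
  rfl

theorem tow1_word_le {𝔄 G : Type} [Group G] (g : 𝔄 → G) (hg : Gens g) (a : 𝔄) :
    Nrm.word g hg (g a) ≤ 1 := by
  have := Nrm.word_le g hg [(a, true)]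
  rwa [wev_single_true] at this

theorem tow1_arith (n : ℕ) : 16 * (8 * (4 * (T.w * n) / T.C)) ≤ n - 1 := by
  have h1 := Nat.div_mul_le_self (4 * (T.w * n)) T.C
  generalize 4 * (T.w * n) / T.C = m at h1 ⊢
  rcases Nat.eq_zero_or_pos m with rfl | hm
  · simp
  have h2 : T.w * (128 * m) < T.w * n := by
    unfold C at h1
    nlinarith
  have := Nat.lt_of_mul_lt_mul_left h2
  omega

theorem tow1_snd (hv : T.Valid c κ) : L5.Snd (T.P κ) T.M c κ := fun h hh => hv true h hh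

/-- the norm on layer 7 -/
noncomputable def tow1_n7 (N : Nrm K) : Nrm (T.X6 c κ × T.G) :=
  (Gad.gN (T.hK c κ) (T.hB c κ) (L5.n5 (T.P κ) T.hM c κ N)).comap (MonoidHom.fst _ _)

theorem tow1_n7_g7 {N : Nrm K} (hN : ∀ y, N (κ y) ≤ 1) (a : T.A7) :
    T.tow1_n7 c κ N (T.g7 c κ a) ≤ T.w := by
  cases a with
  | inl a =>
    exact Gad.gN_gG (T.hK c κ) (T.hB c κ) (show 1 ≤ T.M.wt + 2 by omega)
      (L5.n5_g5 (T.P κ) T.hM c hN) a
  | inr b =>
    exact (Gad.gN (T.hK c κ) (T.hB c κ) (L5.n5 (T.P κ) T.hM c κ N)).one.le.trans (Nat.zero_le _)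

theorem tow1_mem_Q (x : T.Top c κ) :
    x ∈ Cp.emb (T.g7 c κ) T.C_pos '' ((MonoidHom.inl _ T.G).comp
      (Gad.emb (T.hK c κ) (T.hB c κ)) '' (L5.Q5 (T.P κ) T.hM c κ : Set (T.X5 c κ))) ↔
      x ∈ T.Q c κ := by
  rw [Set.image_image]
  rfl

theorem tow1_mem_one (x : T.Top c κ) : x ∈ Cp.emb (T.g7 c κ) T.C_pos '' {1} ↔ x = 1 := by
  rw [Set.image_singleton, map_one]
  rfl

theorem tow1_g7_gens (hκ : Gens κ) : Gens (T.g7 c κ) :=
  prodGens_gens (Gad.gG_gens _ _ (L5.g5_gens _ _ _ _ hκ)) T.gens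

theorem e5_injective : Function.Injective (T.e5 c κ) := by
  exact (T.tow1_e6_injective c κ).comp (Gad.emb_injective (T.hK c κ) (T.hB c κ))

theorem phi_injective : Function.Injective (T.phi c κ) := by
  exact (T.e5_injective c κ).comp (T.hK c κ)

theorem eG_injective : Function.Injective (T.eG c κ) := by
  exact fun _ _ h => congrArg Prod.snd (Cp.emb_injective (T.g7 c κ) T.C_pos h)

theorem y_gens (hκ : Gens κ) : Gens (T.y c κ) := by
  exact Cp.y3_gens _ _ (T.tow1_g7_gens c κ hκ)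

theorem wev_w5 (a : L5.A5 T.M) :
    wev (T.y c κ) (T.w5 a) = T.e5 c κ (L5.g5 (T.P κ) T.hM c κ a) := by
  have h1 : (fun a => wev (T.y c κ) (T.cw7 a)) = Cp.emb (T.g7 c κ) T.C_pos ∘ T.g7 c κ :=
    funext (fun a => Cp.wev_cw (T.g7 c κ) T.C_pos a)
  have h2 : wev (T.g7 c κ) (wmap Sum.inl (Gad.embW a)) =
      (Gad.emb (T.hK c κ) (T.hB c κ) (L5.g5 (T.P κ) T.hM c κ a), 1) :=
    (tow1_wev_inl _ _ _).trans (by rw [Gad.wev_embW])
  rw [w5, wev_wsub, h1, ← map_wev, h2]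
  rfl

theorem wev_wsub_w5 (u : Wd (L5.A5 T.M)) :
    wev (T.y c κ) (wsub T.w5 u) = T.e5 c κ (wev (L5.g5 (T.P κ) T.hM c κ) u) := by
  rw [wev_wsub, map_wev]
  exact congrArg (fun f => wev f u) (funext (fun a => T.wev_w5 c κ a))

theorem wev_phiW (u : Wd (Fin 3)) : wev (T.y c κ) (wsub T.phiW u) = T.phi c κ (wev κ u) := by
  rw [wev_wsub, map_wev]
  refine congrArg (fun f => wev f u) (funext (fun y => ?_))
  rw [phiW, wev_w5, L5.g5_aK]
  rfl

theorem wev_tauW :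
    wev (T.y c κ) T.tauW = T.e5 c κ (L5.inX (T.P κ) T.hM c κ (Xt.tau (T.P κ))) := by
  rw [tauW, wev_w5, L5.g5_aT]

theorem wev_guard : wev (T.y c κ) T.guard = 1 := by
  exact Cp.wev_guard (T.g7 c κ) T.C_pos _

theorem guard_ne_one : FreeGroup.mk T.guard ≠ 1 := by
  exact Cp.guard_ne_one T.C_pos _

/-- the new `P` is the image of `P5` -/
theorem P_y : T.P (T.y c κ) = (L5.P5 (T.P κ) T.hM c κ).map (T.e5 c κ) := by
  refine (congrArg Subgroup.closure ?_).trans (MonoidHom.map_closure _ _).symm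
  ext x
  constructor
  · rintro ⟨w, hw, rfl⟩
    obtain ⟨v, hv, rfl⟩ := List.mem_map.1 hw
    exact ⟨_, ⟨v, hv, rfl⟩, (T.wev_wsub_w5 c κ v).symm⟩
  · rintro ⟨_, ⟨v, hv, rfl⟩, rfl⟩
    exact ⟨_, List.mem_map.2 ⟨v, hv, rfl⟩, (T.wev_wsub_w5 c κ v).symm⟩

theorem P_le_Q : T.P (T.y c κ) ≤ T.Q c κ := by
  rw [P_y]
  exact Subgroup.map_mono (L5.P5_le_Q5 _ _ _ _)

theorem tow1_wev_testW (F : Bool) (r : Wd T.M.AR) (b : Wd T.M.AM) :
    wev (T.y c κ) (T.testW F r b) = T.e5 c κ (L5.inM (T.P κ) T.hM c κ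
      ((MM.hd T.hM c κ).of (SD.lt (T.M.inp F, wev (T.M.regG κ) r)) *
        (wev (MM.machG T.hM c κ) b)⁻¹)) := by
  have h1 : L5.g5 (T.P κ) T.hM c κ ∘ L5.aM T.M = L5.inM (T.P κ) T.hM c κ ∘ MM.machG T.hM c κ :=
    funext (fun a => L5.g5_aM _ _ _ _ a)
  rw [testW, wev_wsub_w5, wev_wmap, h1, ← map_wev, wev_append, wev_winv, MM.wev_cfgW]

/-- the elements of `B` are the values of the words `wsub (bW.getD · []) u` (`MM.B_eq`) -/
theorem exists_testW {F : Bool} {h : K} (hκ : Gens κ) (u : Wd (Fin 3)) (hu : wev κ u = h)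
    (hA : T.M.Accepts c κ F h) : ∃ (x : Wd (Fin T.M.j)) (b : Wd ℕ),
      wev (T.y c κ) (T.testW F (wmap Sum.inl u ++ wmap Sum.inr x)
        (wsub (fun i => T.M.bW.getD i []) b)) = 1 := by
  obtain ⟨ξ, hξ⟩ := hA
  obtain ⟨x, rfl⟩ := (zGens_gens T.M.j).exists_wev ξ
  have h1 := (MM.lt_mem_B T.hM c κ).2 hξ
  rw [MM.B_eq] at h1
  have h2 : Subgroup.closure {x | ∃ w ∈ T.M.bW, x = wev (MM.machG T.hM c κ) w} ≤
      Subgroup.closure (Set.range fun i : ℕ => wev (MM.machG T.hM c κ) (T.M.bW.getD i [])) := by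
    refine Subgroup.closure_mono ?_
    rintro _ ⟨w, hw, rfl⟩
    obtain ⟨i, hi, rfl⟩ := List.getElem_of_mem hw
    exact ⟨i, by simp only [List.getD_eq_getElem _ _ hi]⟩
  obtain ⟨b, hb⟩ := exists_wev_of_mem (h2 h1)
  refine ⟨x, b, ?_⟩
  rw [tow1_wev_testW, tow1_wev_reg, wev_wsub, hb, hu, mul_inv_cancel, map_one, map_one]

/-- `MM.wev_cfgW`, `MM.lt_mem_B`, injectivity of `e5 ∘ inM` -/
theorem accepts_of_testW {F : Bool} (u : Wd (Fin 3)) (x : Wd (Fin T.M.j)) (b : Wd ℕ)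
    (h : wev (T.y c κ) (T.testW F (wmap Sum.inl u ++ wmap Sum.inr x)
        (wsub (fun i => T.M.bW.getD i []) b)) = 1) : T.M.Accepts c κ F (wev κ u) := by
  rw [tow1_wev_testW, tow1_wev_reg, wev_wsub, map_eq_one_iff _ (T.e5_injective c κ),
    map_eq_one_iff _ (L5.inM_injective _ _ _ _), mul_inv_eq_one] at h
  refine ⟨wev (zGens T.M.j) x, (MM.lt_mem_B T.hM c κ).1 ?_⟩
  rw [h, MM.B_eq]
  refine (Subgroup.closure_le _).2 ?_ (wev_mem_closure _ b)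
  rintro _ ⟨i, rfl⟩
  by_cases hi : i < T.M.bW.length
  · refine Subgroup.subset_closure ⟨_, List.getElem_mem hi, ?_⟩
    simp only [List.getD_eq_getElem _ _ hi]
  · simp only [List.getD_eq_default _ _ (not_lt.1 hi), wev_nil]
    exact one_mem _

theorem computable_testW : Computable fun p : Bool × Wd (Fin 3) × Wd (Fin T.M.j) × Wd ℕ =>
    T.testW p.1 (wmap Sum.inl p.2.1 ++ wmap Sum.inr p.2.2.1)
      (wsub (fun i => T.M.bW.getD i []) p.2.2.2) := by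
  have h1 : Computable fun u : Wd (L5.A5 T.M) => wsub T.w5 u :=
    (computable_wsub (α := Unit) (s := fun _ => T.w5)
      ((Primrec.dom_finite T.w5).comp Primrec.snd).to_comp).comp
      ((Computable.const ()).pair Computable.id)
  have h2 : Computable fun b : Wd ℕ => wsub (fun i => T.M.bW.getD i []) b :=
    (computable_wsub (α := Unit) (s := fun _ i => T.M.bW.getD i [])
      ((Primrec.list_getD ([] : Wd T.M.AM)).comp (Primrec.const T.M.bW) Primrec.snd).to_comp).comp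
      ((Computable.const ()).pair Computable.id)
  have h3 : Primrec fun p : Bool × Wd (Fin 3) × Wd (Fin T.M.j) × Wd ℕ =>
      (wmap Sum.inl p.2.1 ++ wmap Sum.inr p.2.2.1 : Wd T.M.AR) :=
    Primrec.list_append.comp ((primrec_wmap Primrec.sumInl).comp (Primrec.fst.comp Primrec.snd))
      ((primrec_wmap Primrec.sumInr).comp (Primrec.fst.comp (Primrec.snd.comp Primrec.snd)))
  have h4 : Primrec (wmap (fun a : T.M.AR => (Sum.inl (Sum.inl a) : T.M.AM))) :=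
    primrec_wmap (Primrec.dom_finite _)
  have h5 : Primrec fun p : Bool × Wd T.M.AR => T.M.cfgW (T.M.inp p.1) p.2 :=
    Primrec.list_append.comp (Primrec.list_append.comp (h4.comp Primrec.snd)
      ((Primrec.dom_finite (fun F : Bool =>
        ([(Sum.inl (Sum.inr (T.M.inp F)), true)] : Wd T.M.AM))).comp Primrec.fst))
      (primrec_winv.comp (h4.comp Primrec.snd))
  have h6 : Primrec (wmap (L5.aM T.M)) := primrec_wmap (Primrec.dom_finite _)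
  exact h1.comp (h6.to_comp.comp (Computable.list_append.comp
    (h5.comp (Primrec.fst.pair h3)).to_comp
    (primrec_winv.to_comp.comp (h2.comp
      (Computable.snd.comp (Computable.snd.comp Computable.snd))))))

theorem magic : Magic (T.phi c κ) := by
  exact ((Gad.magic (T.hK c κ) (T.hB c κ)).comp_left (T.e6 c κ)).comp_right
    (L5.inK (T.P κ) T.hM c κ)

theorem comm {p : K} (hp : p ∈ T.P κ) : Commute (wev (T.y c κ) T.tauW) (T.phi c κ p) := by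
  rw [wev_tauW]
  exact ((Xt.tau_comm (T.P κ) hp).map (L5.inX (T.P κ) T.hM c κ)).map (T.e5 c κ)

theorem conj_mem (hκ : Gens κ) (h : K) : (wev (T.y c κ) T.tauW)⁻¹ * T.phi c κ h *
    wev (T.y c κ) T.tauW ∈ T.P (T.y c κ) := by
  rw [wev_tauW, P_y]
  refine ⟨_, L5.conj_mem_P5 (T.P κ) T.hM c κ hκ h, ?_⟩
  rw [map_mul, map_mul, map_inv]
  rfl

theorem sq_mem : wev (T.y c κ) T.tauW * wev (T.y c κ) T.tauW ∈ T.P (T.y c κ) := by
  rw [wev_tauW, P_y]
  exact ⟨_, L5.sq_mem_P5 (T.P κ) T.hM c κ, map_mul _ _ _⟩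

theorem fix {h : K} (hh : T.M.Accepts c κ true h) :
    T.phi c κ h * wev (T.y c κ) T.tauW * (T.phi c κ h)⁻¹ ∈ T.P (T.y c κ) := by
  rw [wev_tauW, P_y]
  refine ⟨_, L5.lt_mem_P5 (T.P κ) T.hM c κ hh, ?_⟩
  rw [Xt.lt_eq, map_mul, map_mul, map_inv, map_mul, map_mul, map_inv]
  rfl

theorem free : ∃ u, ∀ h, u⁻¹ * T.phi c κ h * u ∈ T.P (T.y c κ) → h = 1 := by
  obtain ⟨u, hu⟩ := Gad.free (T.hK c κ) (T.hB c κ)
  refine ⟨T.e6 c κ u, fun h hh => ?_⟩
  rw [P_y] at hh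
  obtain ⟨z, -, hz⟩ := hh
  have h1 : Gad.emb (T.hK c κ) (T.hB c κ) z =
      u⁻¹ * Gad.emb (T.hK c κ) (T.hB c κ) (L5.inK (T.P κ) T.hM c κ h) * u := by
    apply T.tow1_e6_injective c κ
    rw [map_mul, map_mul, map_inv]
    exact hz
  exact (map_eq_one_iff _ (T.hK c κ)).1 (hu _ ⟨z, h1⟩)

theorem phi_mem_iff (hκ : Gens κ) (hv : T.Valid c κ) {h : K} :
    T.phi c κ h ∈ T.P (T.y c κ) ↔ h ∈ T.P κ := by
  constructor
  · intro hh
    obtain ⟨z, hz, hz'⟩ := T.P_le_Q c κ hh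
    have h1 : z = L5.inX (T.P κ) T.hM c κ (SD.reg h) := T.e5_injective c κ hz'
    rw [h1, SetLike.mem_coe, L5.inX_mem_Q5 _ _ _ _ (T.tow1_snd c κ hv), Xt.reg_mem_St] at hz
    exact hz
  · intro hh
    have h1 := T.conj_mem c κ hκ h
    rwa [mul_assoc, ← (T.comm c κ hh).eq, inv_mul_cancel_left] at h1

theorem tau_notMem (hv : T.Valid c κ) : wev (T.y c κ) T.tauW ∉ T.P (T.y c κ) := by
  intro hh
  obtain ⟨z, hz, hz'⟩ := T.P_le_Q c κ hh
  rw [wev_tauW] at hz'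
  rw [T.e5_injective c κ hz', SetLike.mem_coe, L5.inX_mem_Q5 _ _ _ _ (T.tow1_snd c κ hv)] at hz
  exact Xt.tau_notMem_St _ hz

/-- `Cp.stretch` (norm `(gN n5).comap fst` on layer 7, `Gad.gN_gG`, `L5.n5_g5`), `Gad.gN_emb`,
`L5.mem_P5_of_small` with the word norm `N` and `n = u.length - 1` (for `u = []` trivial). -/
theorem mem_P_of_small (hκ : Gens κ) (hv : T.Valid c κ) {u : Wd (Fin 3)}
    (hn : ∀ v : Wd (Fin 3), v.length < u.length → wev κ v ∉ T.P κ →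
      T.M.Accepts c κ true (wev κ v))
    (hu : wev (T.y c κ) u ∈ T.Q c κ) : wev (T.y c κ) u ∈ T.P (T.y c κ) := by
  rcases Nat.eq_zero_or_pos u.length with h0 | h0
  · rw [List.length_eq_zero_iff.1 h0, wev_nil]
    exact one_mem _
  obtain ⟨x, hx, hx'⟩ := hu
  have hN := tow1_word_le κ hκ
  have h1 := Cp.stretch (T.g7 c κ) T.C_pos (T.tow1_n7_g7 c κ hN) (u := u)
    (x := (Gad.emb (T.hK c κ) (T.hB c κ) x, 1)) hx'.symm
  have h2 : T.tow1_n7 c κ (Nrm.word κ hκ) (Gad.emb (T.hK c κ) (T.hB c κ) x, 1)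
      = L5.n5 (T.P κ) T.hM c κ (Nrm.word κ hκ) x :=
    Gad.gN_emb (T.hK c κ) (T.hB c κ) (L5.n5_pos _ _ _) (L5.n5_inK_eq _ _ _ hN) x
  rw [h2] at h1
  rw [P_y, ← hx']
  refine ⟨x, L5.mem_P5_of_small (T.P κ) T.hM c hκ (T.tow1_snd c κ hv) hN (n := u.length - 1)
    (fun h hh hn' => ?_) hx ?_, rfl⟩
  · obtain ⟨v, rfl, hv'⟩ := Nrm.exists_word κ hκ h
    exact hn v (by omega) hh
  · generalize L5.n5 (T.P κ) T.hM c κ (Nrm.word κ hκ) x = m at h1 ⊢
    rcases Nat.eq_zero_or_pos m with rfl | hm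
    · simp
    have h3 : T.w * (512 * m) < T.w * u.length := by
      unfold C at h1
      nlinarith
    have := Nat.lt_of_mul_lt_mul_left h3
    omega

/-- `UP.base`, `up_L5`, `up_gad`, `UP.const`, `UP.prod`, `up_cp` -/
theorem up (c : ℕ) : ∃ r : Set (FreeGroup (Fin 3)), r.Finite ∧ ∀ N : NS,
    (T.op c N).1 = Subgroup.normalClosure
      (r ∪ (FreeGroup.lift fun y => FreeGroup.mk (T.phiW y)) '' (N.1 : Set _)) := by
  have := T.fp
  have h0 := UP.base (fun N : NS => N.1)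
  have h5 := up_L5 T.hM (K := fun N : NS => FreeGroup (Fin 3) ⧸ N.1) (κ := fun N => mq N)
    (P := fun N => T.P (mq N)) c (FreeGroup.mk '' {w | w ∈ T.PW})
    ((List.finite_toSet T.PW).image _) (fun N => by
      rw [P, Set.image_image]
      congr 1
      ext x
      exact ⟨fun ⟨w, hw, h⟩ => ⟨w, hw, h.symm⟩, fun ⟨w, hw, h⟩ => ⟨w, hw, h.symm⟩⟩) h0
  have h6 := up_gad (fun N : NS => T.hK c (mq N)) (fun N : NS => T.hB c (mq N))
    (κ := fun N => mq N) mq_gens (fun N n hn => by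
      have : FreeGroup.lift (mq N) = QuotientGroup.mk' N.1 := by
        ext y
        simp [mq]
      rw [this]
      exact (QuotientGroup.eq_one_iff n).2 hn)
    (FreeGroup.map (L5.aK T.M)) (FreeGroup.map (L5.aB T.M))
    (fun N y => by rw [FreeGroup.map.of, FreeGroup.lift_apply_of, L5.g5_aK])
    (fun N y => by rw [FreeGroup.map.of, FreeGroup.lift_apply_of, L5.g5_aB]) h5
  have h7 := h6.prod (UP.const (N := fun N : NS => (N.1 : Set (FreeGroup (Fin 3)))) T.gens)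
  rw [upMap, upMap, Set.image_empty, Set.union_empty, Set.image_singleton] at h7
  obtain ⟨-, r, hr, h8⟩ := up_cp T.C_pos h7
  refine ⟨r, hr, fun N => ?_⟩
  have h9 := h8 N
  have hs : (FreeGroup.lift fun a : T.A7 => FreeGroup.mk (Cp.cwA T.C a)).comp
      ((FreeGroup.map Sum.inl).comp ((FreeGroup.lift fun x => FreeGroup.mk (Gad.embW x)).comp
        (FreeGroup.map (L5.aK T.M)))) = FreeGroup.lift fun y => FreeGroup.mk (T.phiW y) := by
    ext y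
    simp only [MonoidHom.comp_apply, FreeGroup.map.of, FreeGroup.lift_apply_of, FreeGroup.map.mk]
    rw [tow1_lift_mk]
    rfl
  rw [Set.biUnion_singleton, hs] at h9
  exact h9

/-- Start from `Cert.eq` (`CertEq` for `y`), go down with the `CertEq.*_base` lemmas, get the
lower facts from `Cert.lf` (choose a geodesic word, `Nrm.exists_word`; `f = id`) and
`certS_closure`, go up with `certS_L5` (`16`), `certS_gad` (`8`), `CertS.fst`, `certS_of_re`,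
`CertS.snd`, `cert_cp`; `128 * (4 * (w * n) / C) ≤ n - 1`. -/
theorem cert (hG : REPred fun u : Wd (Fin T.n) => wev T.g u ≠ 1) :
    Cert T.ctx (fun σ (x : Bool × Wd (Fin 3)) =>
      if x.1 then wev (T.y σ.1.1 (mq σ.1.2)) x.2 ∉ T.Q σ.1.1 (mq σ.1.2)
      else wev (T.y σ.1.1 (mq σ.1.2)) x.2 ≠ 1) fun _ x => x.2.length - 1 := by
  have hEqy : CertEq T.ctx (fun σ : T.Sit => T.y σ.1.1 (mq σ.1.2)) := Cert.eq
  have hEq7 : CertEq T.ctx (fun σ : T.Sit => T.g7 σ.1.1 (mq σ.1.2)) :=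
    CertEq.cp_base T.C_pos hEqy
  have hEq6 : CertEq T.ctx (fun σ : T.Sit => Gad.gG (T.hK σ.1.1 (mq σ.1.2)) (T.hB σ.1.1 (mq σ.1.2))
      (L5.g5 (T.P (mq σ.1.2)) T.hM σ.1.1 (mq σ.1.2))) := hEq7.prod_fst
  have hEq5 : CertEq T.ctx (fun σ : T.Sit => L5.g5 (T.P (mq σ.1.2)) T.hM σ.1.1 (mq σ.1.2)) :=
    (CertEq.mh_base hEq6).gp_base
  have hEqK : CertEq T.ctx (fun σ : T.Sit => mq σ.1.2) :=
    CertEq.l5_base T.hM (P := fun σ : T.Sit => T.P (mq σ.1.2)) hEq5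
  have hg : ∀ σ : T.Sit, Gens (mq σ.1.2) := fun σ => mq_gens _
  let N : ∀ σ : T.Sit, Nrm (FreeGroup (Fin 3) ⧸ σ.1.2.1) := fun σ => Nrm.word _ (hg σ)
  have hN : ∀ (σ : T.Sit) y, N σ (mq σ.1.2 y) ≤ 1 := fun σ => tow1_word_le _ (hg σ)
  have hF : ∀ F : Bool, Cert T.ctx (fun σ (w : Wd (Fin 3)) =>
      T.Fact (mq σ.1.2) F (wev (mq σ.1.2) w)) (fun σ w => N σ (wev (mq σ.1.2) w)) := by
    intro F
    have h1 := (Cert.lf (X := T.ctx)).comp' (f := fun p : Wd (Fin 3) × Wd (Fin 3) => (F, p.2))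
      ((Computable.const F).pair Computable.snd)
    refine ((hEqK.eq₂.and h1).ex (t := fun σ w => N σ (wev (mq σ.1.2) w)) ?_).congr
      (fun σ w => ?_) (fun _ _ _ => le_rfl)
    · rintro σ w ⟨b, hb, hb'⟩
      obtain ⟨v, hv, hv'⟩ := Nrm.exists_word _ (hg σ) (wev (mq σ.1.2) w)
      refine ⟨v, ⟨hv.symm, ?_⟩, max_le (Nat.zero_le _) hv'.le⟩
      have hb2 : T.Fact (mq σ.1.2) F (wev (mq σ.1.2) b) := hb'
      show T.Fact (mq σ.1.2) F (wev (mq σ.1.2) v)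
      rw [hv, hb]
      exact hb2
    · constructor
      · rintro ⟨b, hb, hb'⟩
        have hb2 : T.Fact (mq σ.1.2) F (wev (mq σ.1.2) b) := hb'
        have hb3 : wev (mq σ.1.2) w = wev (mq σ.1.2) b := hb
        rw [hb3]
        exact hb2
      · exact fun h => ⟨w, rfl, h⟩
  have hne : CertS T.ctx (fun σ : T.Sit => mq σ.1.2) N id fun _ => {1}ᶜ := hF false
  have hP' : CertS T.ctx (fun σ : T.Sit => mq σ.1.2) N id
      fun σ => (T.P (mq σ.1.2) : Set _)ᶜ := hF true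
  have hP : CertS T.ctx (fun σ : T.Sit => mq σ.1.2) N id fun σ => (T.P (mq σ.1.2) : Set _) :=
    certS_closure hEqK (L := fun _ => T.PW) (Computable.const _)
  obtain ⟨k1, k2, k3, k4⟩ := certS_L5 T.hM (P := fun σ : T.Sit => T.P (mq σ.1.2)) monotone_id hg hN
    (fun σ => T.tow1_snd _ _ σ.2) hEq5 hne hP hP'
  have hf5 : Monotone fun n : ℕ => id (16 * n) := fun a b h => Nat.mul_le_mul_left 16 h
  have hgad := fun (S : ∀ σ : T.Sit, Set (T.X5 σ.1.1 (mq σ.1.2))) =>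
    certS_gad (fun σ : T.Sit => T.hK σ.1.1 (mq σ.1.2)) (fun σ : T.Sit => T.hB σ.1.1 (mq σ.1.2))
      hf5 (fun σ => L5.g5_gens _ _ _ _ (hg σ)) (fun σ => L5.n5_pos _ _ _)
      (fun σ => L5.n5_inK_eq _ _ _ (hN σ)) hEq6 k1 k3 k4 (T := S)
  have hf7 : Monotone fun n : ℕ => 16 * (8 * n) :=
    fun a b h => Nat.mul_le_mul_left 16 (Nat.mul_le_mul_left 8 h)
  have hG' : CertS T.ctx (fun σ : T.Sit => T.g7 σ.1.1 (mq σ.1.2))
      (fun σ => T.tow1_n7 σ.1.1 (mq σ.1.2) (N σ)) (fun n => 16 * (8 * n))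
      fun _ => Prod.snd ⁻¹' {1}ᶜ :=
    (certS_of_re (X := T.ctx) (D := fun _ => 0) (S := {1}ᶜ) (N₀ := fun _ => Nrm.zero T.G) hG).snd
      (fun _ _ => Nat.zero_le _)
  have h7 : ∀ (S : ∀ σ : T.Sit, Set (T.X5 σ.1.1 (mq σ.1.2))),
      (CertS T.ctx (fun σ : T.Sit => L5.g5 (T.P (mq σ.1.2)) T.hM σ.1.1 (mq σ.1.2))
        (fun σ => L5.n5 (T.P (mq σ.1.2)) T.hM σ.1.1 (mq σ.1.2) (N σ)) (fun n => id (16 * n))
        fun σ => (S σ)ᶜ) →
      CertS T.ctx (fun σ : T.Sit => T.g7 σ.1.1 (mq σ.1.2))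
        (fun σ => T.tow1_n7 σ.1.1 (mq σ.1.2) (N σ)) (fun n => 16 * (8 * n))
        fun σ => ((MonoidHom.inl _ T.G).comp
          (Gad.emb (T.hK σ.1.1 (mq σ.1.2)) (T.hB σ.1.1 (mq σ.1.2))) '' S σ)ᶜ := by
    intro S hS
    refine (CertS.union ((hgad S hS).fst (fun _ _ => le_rfl)) hG').congr (fun σ => ?_)
    ext ⟨a, b⟩
    simp only [Set.mem_union, Set.mem_preimage, Set.mem_compl_iff, Set.mem_image,
      Set.mem_singleton_iff, MonoidHom.comp_apply, MonoidHom.inl_apply, Prod.mk.injEq]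
    rw [← not_and_or]
    exact not_congr ⟨fun ⟨⟨x, h1, h2⟩, h3⟩ => ⟨x, h1, h2, h3.symm⟩,
      fun ⟨x, h1, h2, h3⟩ => ⟨⟨x, h1, h2⟩, h3.symm⟩⟩
  have hne7 : CertS T.ctx (fun σ : T.Sit => T.g7 σ.1.1 (mq σ.1.2))
      (fun σ => T.tow1_n7 σ.1.1 (mq σ.1.2) (N σ)) (fun n => 16 * (8 * n)) fun _ => {1}ᶜ :=
    (h7 (fun _ => {1}) k1).congr (fun σ => by rw [Set.image_singleton, map_one])
  have hcp := fun (S : ∀ σ : T.Sit, Set (T.X6 σ.1.1 (mq σ.1.2) × T.G)) =>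
    cert_cp T.C_pos hf7 (fun σ : T.Sit => T.tow1_g7_gens _ _ (hg σ))
      (fun σ => T.tow1_n7_g7 _ _ (hN σ)) hEqy hne7 (T := S)
  have c1 : Cert T.ctx (fun σ (u : Wd (Fin 3)) =>
      wev (T.y σ.1.1 (mq σ.1.2)) u ∉ T.Q σ.1.1 (mq σ.1.2)) fun _ u => u.length - 1 := by
    exact (hcp _ (h7 (fun σ => L5.Q5 (T.P (mq σ.1.2)) T.hM σ.1.1 (mq σ.1.2)) k2)).congr
      (fun σ u => (T.tow1_mem_Q _ _ _).not) (fun _ u _ => T.tow1_arith _)
  have c2 : Cert T.ctx (fun σ (u : Wd (Fin 3)) =>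
      wev (T.y σ.1.1 (mq σ.1.2)) u ≠ 1) fun _ u => u.length - 1 := by
    exact (hcp (fun _ => {1}) hne7).congr (fun σ u => (T.tow1_mem_one _ _ _).not)
      (fun _ u _ => T.tow1_arith _)
  have c3 : ∀ F : Bool, Cert T.ctx (fun σ (u : Wd (Fin 3)) =>
      if F then wev (T.y σ.1.1 (mq σ.1.2)) u ∉ T.Q σ.1.1 (mq σ.1.2)
      else wev (T.y σ.1.1 (mq σ.1.2)) u ≠ 1) fun _ u => u.length - 1 := by
    intro F
    cases F
    · exact c2.congr (fun σ u => by rw [if_neg Bool.false_ne_true]) (fun _ _ _ => le_rfl)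
    · exact c1.congr (fun σ u => by rw [if_pos rfl]) (fun _ _ _ => le_rfl)
  exact Cert.finite_index c3

end Crest.Agent.R185.TD
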