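import Crest.Agent.R185.L5b
import Crest.Agent.R185.Gad
import Crest.Agent.R185.CmpL

/-!
# R185: the operator `K ↦ 𝒜(K)` (definitions)
-/

set_option autoImplicit false

namespace Crest.Agent.R185

/-- the fixed data of the tower -/
structure TD where
  M : MM 3
  hM : M.Good
  G : Type
  [grp : Group G]
  n : ℕ
  g : Fin n → G
  gens : Gens g
  fp : Group.IsFinitelyPresented G

attribute [instance] TD.grp

namespace TD

variable (T : TD)

/-- bound for the norms of the generators -/
def w : ℕ := T.M.wt + 2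

/-- the stretch factor -/
def C : ℕ := 512 * T.w + 1

theorem C_pos : 0 < T.C := Nat.succ_pos _

/-- alphabet of the gadget layer -/
abbrev A6 : Type := (Ed × L5.A5 T.M) ⊕ GI

/-- alphabet of the product with `G` -/
abbrev A7 : Type := T.A6 ⊕ Fin T.n

/-- words of the generators of layer 7 -/
def cw7 (a : T.A7) : Wd (Fin 3) := Cp.cwA T.C a

/-- words of the generators of layer 5 -/
def w5 (a : L5.A5 T.M) : Wd (Fin 3) := wsub T.cw7 (wmap Sum.inl (Gad.embW a))

/-- the substitution `φ` -/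
def phiW (y : Fin 3) : Wd (Fin 3) := T.w5 (L5.aK T.M y)

/-- the generators of `P` -/
def PW : List (Wd (Fin 3)) := (L5.PW T.M).map (wsub T.w5)

/-- the word of `τ` -/
def tauW : Wd (Fin 3) := T.w5 (L5.aT T.M)

/-- a nontrivial word which is trivial in every `𝒜(K)` -/
def guard : Wd (Fin 3) := Cp.guardA T.C (Sum.inl (Sum.inr (Sum.inr (Sum.inr ()))) : T.A7)

/-- the word expressing that the configuration `(inp F, r)` is the product `b` of generators of `B` -/
def testW (F : Bool) (r : Wd T.M.AR) (b : Wd T.M.AM) : Wd (Fin 3) :=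
  wsub T.w5 (wmap (L5.aM T.M) (T.M.cfgW (T.M.inp F) r ++ winv b))

variable {K : Type} [Group K] (c : ℕ) (κ : Fin 3 → K)

/-- the subgroup `P` of a marked group -/
def P : Subgroup K := Subgroup.closure {x | ∃ w ∈ T.PW, x = wev κ w}

/-- layer 5 -/
abbrev X5 : Type := L5.X5 (T.P κ) T.hM c κ

theorem hK : Function.Injective (L5.inK (T.P κ) T.hM c κ) := L5.inK_injective _ _ _ _

theorem hB : Function.Injective (L5.inB (T.P κ) T.hM c κ) := L5.inB_injective _ _ _ _

/-- layer 6 -/
abbrev X6 : Type := (Gad.hd _ _ (T.hK c κ) (T.hB c κ)).MH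

/-- generators of layer 7 -/
noncomputable def g7 : T.A7 → T.X6 c κ × T.G :=
  prodGens (Gad.gG (T.hK c κ) (T.hB c κ) (L5.g5 (T.P κ) T.hM c κ)) T.g

/-- the group `𝒜(K)` -/
abbrev Top : Type := (Cp.hd (T.g7 c κ) T.C_pos).MH

/-- its marking -/
noncomputable def y : Fin 3 → T.Top c κ := Cp.y3 (T.g7 c κ) T.C_pos

/-- `X6 → Top` -/
noncomputable def e6 : T.X6 c κ →* T.Top c κ :=
  (Cp.emb (T.g7 c κ) T.C_pos).comp (MonoidHom.inl _ _)

/-- `G → Top` -/
noncomputable def eG : T.G →* T.Top c κ := (Cp.emb (T.g7 c κ) T.C_pos).comp (MonoidHom.inr _ _)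

/-- `X5 → Top` -/
noncomputable def e5 : T.X5 c κ →* T.Top c κ :=
  (T.e6 c κ).comp (Gad.emb (T.hK c κ) (T.hB c κ))

/-- `K → Top` -/
noncomputable def phi : K →* T.Top c κ := (T.e5 c κ).comp (L5.inK (T.P κ) T.hM c κ)

/-- the upper approximation of the new `P` -/
noncomputable def Q : Subgroup (T.Top c κ) := (L5.Q5 (T.P κ) T.hM c κ).map (T.e5 c κ)

/-- the truth of a negative fact -/
def Fact (F : Bool) (h : K) : Prop := if F then h ∉ T.P κ else h ≠ 1

/-- the machine accepts only true facts -/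
def Valid : Prop := ∀ F h, T.M.Accepts c κ F h → T.Fact κ F h

/-- normal subgroups of `F(3)` -/
abbrev NS : Type := {N : Subgroup (FreeGroup (Fin 3)) // N.Normal}

instance (N : NS) : N.1.Normal := N.2

/-- the marking of `F(3) ⧸ N` -/
def mq (N : NS) : Fin 3 → FreeGroup (Fin 3) ⧸ N.1 := fun y => QuotientGroup.mk (FreeGroup.of y)

theorem mq_gens (N : NS) : Gens (mq N) := (UP.base (fun N : NS => N.1)).1 N

/-- valid situations -/
abbrev Sit : Type := {p : ℕ × NS // T.Valid p.1 (mq p.2)}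

/-- the context of certificates -/
def ctx : Ctx T.Sit (Wd (Fin 3)) (Bool × Wd (Fin 3)) where
  c σ := σ.1.1
  Eq σ w := wev (T.y σ.1.1 (mq σ.1.2)) w = 1
  LF σ f := T.Fact (mq σ.1.2) f.1 (wev (mq σ.1.2) f.2)
  sz f := f.2.length

/-- the operator on normal subgroups -/
noncomputable def op (c : ℕ) (N : NS) : NS :=
  ⟨(FreeGroup.lift (T.y c (mq N))).ker, inferInstance⟩

end TD

end Crest.Agent.R185
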