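import Crest.Agent.R185.Cert2

/-!
# R185 TASK UP1: uniform relative presentations

`UP N g S`: the marked groups `(G σ, g σ)` are presented by a finite set of relators which does not
depend on `σ`, together with the images of the set `N σ` under the substitutions in `S`.

All closure lemmas are proved in the same way: with `M = normalClosure (r ∪ ⋃ s ∈ S, s '' N σ)`,
the inclusion `M ≤ ker` is a computation, and for `ker ≤ M` one constructs, by the universal property
of the group at hand, a homomorphism `ψ : G σ →* FreeGroup 𝔄 ⧸ M` with `ψ ∘ lift (g σ) = mk`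
(`UP.lift` gives the homomorphisms on the pieces).
-/

set_option autoImplicit false

namespace Crest.Agent.R185

/-- uniform relative presentation -/
def UP {Sit Y 𝔄 : Type} (N : Sit → Set (FreeGroup Y)) {G : Sit → Type} [∀ σ, Group (G σ)]
    (g : ∀ σ, 𝔄 → G σ) (S : Set (FreeGroup Y →* FreeGroup 𝔄)) : Prop :=
  (∀ σ, Gens (g σ)) ∧ ∃ r : Set (FreeGroup 𝔄), r.Finite ∧
    ∀ σ, (FreeGroup.lift (g σ)).ker = Subgroup.normalClosure (r ∪ ⋃ s ∈ S, s '' N σ)

/-- the substitutions of a sublayer -/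
def upMap {Y 𝔄 𝔅 : Type} (f : 𝔄 → 𝔅) (S : Set (FreeGroup Y →* FreeGroup 𝔄)) :
    Set (FreeGroup Y →* FreeGroup 𝔅) := (fun s => (FreeGroup.map f).comp s) '' S

theorem up1_gens_iff {𝔄 G : Type} [Group G] {g : 𝔄 → G} :
    Gens g ↔ Function.Surjective (FreeGroup.lift g) := by
  rw [← MonoidHom.range_eq_top, FreeGroup.range_lift_eq_closure, Gens]

theorem up1_tietze {𝔄 𝔅 G : Type} [Group G] {φ : FreeGroup 𝔄 →* G} {φ' : FreeGroup 𝔅 →* G}
    (l : FreeGroup 𝔄 →* FreeGroup 𝔅) (k : FreeGroup 𝔅 →* FreeGroup 𝔄)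
    (hl : ∀ w, φ' (l w) = φ w) (hk : ∀ w, φ (k w) = φ' w) {T : Set (FreeGroup 𝔄)}
    (hT : φ.ker = Subgroup.normalClosure T) :
    φ'.ker = Subgroup.normalClosure
      (Set.range (fun b => (FreeGroup.of b)⁻¹ * l (k (FreeGroup.of b))) ∪ l '' T) := by
  set M := Subgroup.normalClosure
    (Set.range (fun b => (FreeGroup.of b)⁻¹ * l (k (FreeGroup.of b))) ∪ l '' T) with hM
  refine le_antisymm (fun w hw => ?_) (Subgroup.normalClosure_le_normal ?_)
  · have h1 : QuotientGroup.mk' M = ((QuotientGroup.mk' M).comp l).comp k := by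
      refine FreeGroup.ext_hom _ _ fun b => ?_
      exact QuotientGroup.eq.2 (Subgroup.subset_normalClosure (Or.inl ⟨b, rfl⟩))
    have h2 : k w ∈ Subgroup.normalClosure T := by
      rw [← hT, MonoidHom.mem_ker, hk]; exact hw
    have h3 : Subgroup.normalClosure T ≤ M.comap l :=
      Subgroup.normalClosure_le_normal fun x hx => Subgroup.subset_normalClosure (Or.inr ⟨x, hx, rfl⟩)
    rw [← QuotientGroup.ker_mk' M, MonoidHom.mem_ker, h1]
    exact (QuotientGroup.eq_one_iff _).2 (h3 h2)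
  · rintro _ (⟨b, rfl⟩ | ⟨x, hx, rfl⟩)
    · simp [MonoidHom.mem_ker, hl, hk]
    · have : x ∈ φ.ker := hT ▸ Subgroup.subset_normalClosure hx
      rw [SetLike.mem_coe, MonoidHom.mem_ker, hl]
      exact this

theorem up1_lift {𝔄 G Λ : Type} [Group G] [Group Λ] {g : 𝔄 → G} (hg : Gens g)
    (f : FreeGroup 𝔄 →* Λ) (hf : (FreeGroup.lift g).ker ≤ f.ker) :
    ∃ ψ : G →* Λ, ∀ w, ψ (FreeGroup.lift g w) = f w :=
  ⟨(FreeGroup.lift g).liftOfSurjective (up1_gens_iff.1 hg) ⟨f, hf⟩, fun w =>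
    MonoidHom.liftOfRightInverse_comp_apply _ _ _ _ w⟩

theorem up1_inl {𝔄 𝔅 G H : Type} [Group G] [Group H] (g : 𝔄 → G) (h : 𝔅 → H) (w : FreeGroup 𝔄) :
    FreeGroup.lift (prodGens g h) (FreeGroup.map Sum.inl w) = (FreeGroup.lift g w, 1) := by
  have : (FreeGroup.lift (prodGens g h)).comp (FreeGroup.map Sum.inl) =
      (MonoidHom.inl G H).comp (FreeGroup.lift g) :=
    FreeGroup.ext_hom _ _ fun a => by simp [prodGens]
  exact DFunLike.congr_fun this w

theorem up1_inr {𝔄 𝔅 G H : Type} [Group G] [Group H] (g : 𝔄 → G) (h : 𝔅 → H) (w : FreeGroup 𝔅) :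
    FreeGroup.lift (prodGens g h) (FreeGroup.map Sum.inr w) = (1, FreeGroup.lift h w) := by
  have : (FreeGroup.lift (prodGens g h)).comp (FreeGroup.map Sum.inr) =
      (MonoidHom.inr G H).comp (FreeGroup.lift h) :=
    FreeGroup.ext_hom _ _ fun a => by simp [prodGens]
  exact DFunLike.congr_fun this w

open scoped commutatorElement in
theorem up1_prod {𝔄 𝔅 G H : Type} [Group G] [Group H] {g : 𝔄 → G} {h : 𝔅 → H} (hg : Gens g)
    (hh : Gens h) {T : Set (FreeGroup 𝔄)} {T' : Set (FreeGroup 𝔅)}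
    (hT : (FreeGroup.lift g).ker = Subgroup.normalClosure T)
    (hT' : (FreeGroup.lift h).ker = Subgroup.normalClosure T') :
    (FreeGroup.lift (prodGens g h)).ker = Subgroup.normalClosure
      (Set.range (fun p : 𝔄 × 𝔅 =>
        ⁅(FreeGroup.of (Sum.inl p.1) : FreeGroup (𝔄 ⊕ 𝔅)), FreeGroup.of (Sum.inr p.2)⁆) ∪
        (FreeGroup.map Sum.inl '' T ∪ FreeGroup.map Sum.inr '' T')) := by
  set M := Subgroup.normalClosure
      (Set.range (fun p : 𝔄 × 𝔅 =>
        ⁅(FreeGroup.of (Sum.inl p.1) : FreeGroup (𝔄 ⊕ 𝔅)), FreeGroup.of (Sum.inr p.2)⁆) ∪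
        (FreeGroup.map Sum.inl '' T ∪ FreeGroup.map Sum.inr '' T')) with hM
  refine le_antisymm (fun w hw => ?_) (Subgroup.normalClosure_le_normal ?_)
  · obtain ⟨ψ₁, h₁⟩ := up1_lift hg ((QuotientGroup.mk' M).comp (FreeGroup.map Sum.inl)) (by
      rw [hT]
      refine Subgroup.normalClosure_le_normal fun x hx => ?_
      exact (QuotientGroup.eq_one_iff _).2
        (Subgroup.subset_normalClosure (Or.inr (Or.inl ⟨x, hx, rfl⟩))))
    obtain ⟨ψ₂, h₂⟩ := up1_lift hh ((QuotientGroup.mk' M).comp (FreeGroup.map Sum.inr)) (by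
      rw [hT']
      refine Subgroup.normalClosure_le_normal fun x hx => ?_
      exact (QuotientGroup.eq_one_iff _).2
        (Subgroup.subset_normalClosure (Or.inr (Or.inr ⟨x, hx, rfl⟩))))
    have h₁' : ∀ a, ψ₁ (g a) = QuotientGroup.mk' M (FreeGroup.of (Sum.inl a)) := fun a => by
      simpa using h₁ (FreeGroup.of a)
    have h₂' : ∀ b, ψ₂ (h b) = QuotientGroup.mk' M (FreeGroup.of (Sum.inr b)) := fun b => by
      simpa using h₂ (FreeGroup.of b)
    have hc0 : ∀ a b, Commute (ψ₁ (g a)) (ψ₂ (h b)) := by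
      intro a b
      rw [h₁', h₂', ← commutatorElement_eq_one_iff_commute, ← map_commutatorElement]
      exact (QuotientGroup.eq_one_iff _).2 (Subgroup.subset_normalClosure (Or.inl ⟨(a, b), rfl⟩))
    have hc1 : ∀ a y, Commute (ψ₁ (g a)) (ψ₂ y) := by
      intro a y
      have hy : y ∈ Subgroup.closure (Set.range h) := by rw [hh]; trivial
      induction hy using Subgroup.closure_induction with
      | mem y hy => obtain ⟨b, rfl⟩ := hy; exact hc0 a b
      | one => rw [map_one]; exact Commute.one_right _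
      | mul y z _ _ hy hz => rw [map_mul]; exact hy.mul_right hz
      | inv y _ hy => rw [map_inv]; exact hy.inv_right
    have hc : ∀ x y, Commute (ψ₁ x) (ψ₂ y) := by
      intro x y
      have hx : x ∈ Subgroup.closure (Set.range g) := by rw [hg]; trivial
      induction hx using Subgroup.closure_induction with
      | mem x hx => obtain ⟨a, rfl⟩ := hx; exact hc1 a y
      | one => rw [map_one]; exact Commute.one_left _
      | mul x z _ _ hx hz => rw [map_mul]; exact hx.mul_left hz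
      | inv x _ hx => rw [map_inv]; exact hx.inv_left
    have h1 : QuotientGroup.mk' M =
        (MonoidHom.noncommCoprod ψ₁ ψ₂ hc).comp (FreeGroup.lift (prodGens g h)) := by
      refine FreeGroup.ext_hom _ _ ?_
      rintro (a | b)
      · simp [prodGens, h₁']
      · simp [prodGens, h₂']
    rw [← QuotientGroup.ker_mk' M, MonoidHom.mem_ker, h1, MonoidHom.comp_apply,
      MonoidHom.mem_ker.1 hw, map_one]
  · rintro _ (⟨p, rfl⟩ | ⟨x, hx, rfl⟩ | ⟨x, hx, rfl⟩)
    · simp [MonoidHom.mem_ker, prodGens, commutatorElement_def]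
    · have : x ∈ (FreeGroup.lift g).ker := hT ▸ Subgroup.subset_normalClosure hx
      rw [SetLike.mem_coe, MonoidHom.mem_ker, up1_inl, MonoidHom.mem_ker.1 this]
      rfl
    · have : x ∈ (FreeGroup.lift h).ker := hT' ▸ Subgroup.subset_normalClosure hx
      rw [SetLike.mem_coe, MonoidHom.mem_ker, up1_inr, MonoidHom.mem_ker.1 this]
      rfl

namespace UP

variable {Sit Y 𝔄 𝔅 : Type} {N : Sit → Set (FreeGroup Y)} {G H : Sit → Type} [∀ σ, Group (G σ)]
  [∀ σ, Group (H σ)] {g : ∀ σ, 𝔄 → G σ} {h : ∀ σ, 𝔅 → H σ}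
  {S : Set (FreeGroup Y →* FreeGroup 𝔄)} {S' : Set (FreeGroup Y →* FreeGroup 𝔅)}

/-- homomorphisms out of a marked group -/
theorem lift {𝔄 G Λ : Type} [Group G] [Group Λ] {g : 𝔄 → G} (hg : Gens g) (f : FreeGroup 𝔄 →* Λ)
    (hf : (FreeGroup.lift g).ker ≤ f.ker) : ∃ ψ : G →* Λ, ∀ w, ψ (FreeGroup.lift g w) = f w := by
  exact up1_lift hg f hf

theorem base (N : Sit → Subgroup (FreeGroup Y)) [∀ σ, (N σ).Normal] :
    UP (fun σ => (N σ : Set (FreeGroup Y)))
      (fun σ (y : Y) => (QuotientGroup.mk (FreeGroup.of y) : FreeGroup Y ⧸ N σ))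
      {MonoidHom.id _} := by
  have e : ∀ σ, FreeGroup.lift (fun y : Y => (QuotientGroup.mk (FreeGroup.of y) : FreeGroup Y ⧸ N σ)) =
      QuotientGroup.mk' (N σ) := fun σ => FreeGroup.ext_hom _ _ fun y => by simp
  refine ⟨fun σ => up1_gens_iff.2 ?_, ∅, Set.finite_empty, fun σ => ?_⟩
  · rw [e]; exact QuotientGroup.mk'_surjective _
  · rw [e, QuotientGroup.ker_mk']
    simp

/-- the kernel of any finite marking of a finitely presented group is finitely normally generated
(B. H. Neumann). -/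
theorem const {G₀ : Type} [Group G₀] [Group.IsFinitelyPresented G₀] [Finite 𝔄] {g₀ : 𝔄 → G₀}
    (hg : Gens g₀) : UP N (G := fun _ => G₀) (fun _ => g₀) ∅ := by
  obtain ⟨n, φ, hφ, T, hT, hker⟩ := Group.IsFinitelyPresented.out (G := G₀)
  choose l hl using fun i : Fin n => up1_gens_iff.1 hg (φ (FreeGroup.of i))
  choose k hk using fun a : 𝔄 => hφ (g₀ a)
  have h1 : (FreeGroup.lift g₀).comp (FreeGroup.lift l) = φ :=
    FreeGroup.ext_hom _ _ fun i => by simp [hl]
  have h2 : φ.comp (FreeGroup.lift k) = FreeGroup.lift g₀ :=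
    FreeGroup.ext_hom _ _ fun a => by simp [hk]
  have h3 := up1_tietze (FreeGroup.lift l) (FreeGroup.lift k) (DFunLike.congr_fun h1)
    (DFunLike.congr_fun h2) hker.symm
  refine ⟨fun _ => hg, Set.range (fun b => (FreeGroup.of b)⁻¹ *
      FreeGroup.lift l (FreeGroup.lift k (FreeGroup.of b))) ∪ FreeGroup.lift l '' T,
    (Set.finite_range _).union (hT.image _), fun σ => ?_⟩
  rw [h3]
  simp only [Set.mem_empty_iff_false, Set.iUnion_of_empty, Set.iUnion_empty, Set.union_empty]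

theorem fp [Finite 𝔄] (hg : UP N g S) (σ : Sit)
    (hN : ∃ r : Set (FreeGroup Y), r.Finite ∧ N σ ⊆ Subgroup.normalClosure r ∧ r ⊆ N σ)
    (hS : S.Finite) : Group.IsFinitelyPresented (G σ) := by
  obtain ⟨hgen, r, hr, hker⟩ := hg
  obtain ⟨r', hr', h1, h2⟩ := hN
  refine Group.IsFinitelyPresented.of_surjective (FreeGroup.lift (g σ)) (up1_gens_iff.1 (hgen σ))
    ⟨r ∪ ⋃ s ∈ S, s '' r', hr.union (hS.biUnion fun s _ => hr'.image _), ?_⟩
  rw [hker]
  refine le_antisymm (Subgroup.normalClosure_mono (Set.union_subset_union_right _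
    (Set.iUnion₂_mono fun s _ => Set.image_mono h2))) (Subgroup.normalClosure_le_normal ?_)
  rintro x (hx | hx)
  · exact Subgroup.subset_normalClosure (Or.inl hx)
  · obtain ⟨s, hs, n, hn, rfl⟩ := Set.mem_iUnion₂.1 hx
    have h3 : Subgroup.normalClosure r' ≤
        (Subgroup.normalClosure (r ∪ ⋃ s ∈ S, s '' r')).comap s :=
      Subgroup.normalClosure_le_normal fun y hy =>
        Subgroup.subset_normalClosure (Or.inr (Set.mem_iUnion₂.2 ⟨s, hs, y, hy, rfl⟩))
    exact h3 (h1 hn)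

theorem fp_empty [Finite 𝔄] (hg : UP N g ∅) (σ : Sit) : Group.IsFinitelyPresented (G σ) := by
  obtain ⟨hgen, r, hr, hker⟩ := hg
  refine Group.IsFinitelyPresented.of_surjective (FreeGroup.lift (g σ)) (up1_gens_iff.1 (hgen σ))
    ⟨r, hr, ?_⟩
  rw [hker]
  simp

open scoped commutatorElement in
theorem prod [Finite 𝔄] [Finite 𝔅] (hg : UP N g S) (hh : UP N h S') :
    UP N (fun σ => prodGens (g σ) (h σ)) (upMap Sum.inl S ∪ upMap Sum.inr S') := by
  obtain ⟨hgen, r, hr, hker⟩ := hg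
  obtain ⟨hgen', r', hr', hker'⟩ := hh
  refine ⟨fun σ => prodGens_gens (hgen σ) (hgen' σ), Set.range (fun p : 𝔄 × 𝔅 =>
      ⁅(FreeGroup.of (Sum.inl p.1) : FreeGroup (𝔄 ⊕ 𝔅)), FreeGroup.of (Sum.inr p.2)⁆) ∪
      (FreeGroup.map Sum.inl '' r ∪ FreeGroup.map Sum.inr '' r'),
    (Set.finite_range _).union ((hr.image _).union (hr'.image _)), fun σ => ?_⟩
  rw [up1_prod (hgen σ) (hgen' σ) (hker σ) (hker' σ)]
  congr 1
  simp only [upMap, Set.image_union, Set.image_iUnion₂, Set.biUnion_union, Set.biUnion_image,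
    MonoidHom.coe_comp, Set.image_comp]
  ac_rfl

/-- change of generators (Tietze): `g' σ = g σ ∘ k`-words, `g σ = g' σ ∘ l`-words -/
theorem tietze [Finite 𝔅] {g' : ∀ σ, 𝔅 → G σ} (l : FreeGroup 𝔄 →* FreeGroup 𝔅)
    (k : FreeGroup 𝔅 →* FreeGroup 𝔄)
    (hl : ∀ σ w, FreeGroup.lift (g' σ) (l w) = FreeGroup.lift (g σ) w)
    (hk : ∀ σ w, FreeGroup.lift (g σ) (k w) = FreeGroup.lift (g' σ) w) (hg : UP N g S) :
    UP N g' ((fun s => l.comp s) '' S) := by
  obtain ⟨hgen, r, hr, hker⟩ := hg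
  refine ⟨fun σ => up1_gens_iff.2 fun x => ?_,
    Set.range (fun b => (FreeGroup.of b)⁻¹ * l (k (FreeGroup.of b))) ∪ l '' r,
    (Set.finite_range _).union (hr.image _), fun σ => ?_⟩
  · obtain ⟨w, rfl⟩ := up1_gens_iff.1 (hgen σ) x
    exact ⟨l w, hl σ w⟩
  · rw [up1_tietze l k (hl σ) (hk σ) (hker σ)]
    congr 1
    simp only [Set.image_union, Set.image_iUnion₂, Set.biUnion_image, MonoidHom.coe_comp,
      Set.image_comp, Set.union_assoc]

/-- copies of `N` which are conjugate to one copy `s₀` can be dropped: add the finitely many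
relators `(s y)⁻¹ a⁻¹ (s₀ y) a`. -/
theorem elim [Finite Y] (hS : S.Finite) (s₀ : FreeGroup Y →* FreeGroup 𝔄)
    (h₀ : ∀ σ, ∀ n ∈ N σ, FreeGroup.lift (g σ) (s₀ n) = 1)
    (hc : ∀ s ∈ S, ∃ a : FreeGroup 𝔄, ∀ σ y, FreeGroup.lift (g σ) (s (FreeGroup.of y)) =
      FreeGroup.lift (g σ) (a⁻¹ * s₀ (FreeGroup.of y) * a)) (hg : UP N g S) : UP N g {s₀} := by
  obtain ⟨hgen, r, hr, hker⟩ := hg
  choose! a ha using hc
  refine ⟨hgen, r ∪ ⋃ s ∈ S, Set.range fun y =>
      (s (FreeGroup.of y))⁻¹ * ((a s)⁻¹ * s₀ (FreeGroup.of y) * a s),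
    hr.union (hS.biUnion fun s _ => Set.finite_range _), fun σ => ?_⟩
  set M := Subgroup.normalClosure ((r ∪ ⋃ s ∈ S, Set.range fun y =>
      (s (FreeGroup.of y))⁻¹ * ((a s)⁻¹ * s₀ (FreeGroup.of y) * a s)) ∪
      ⋃ s ∈ ({s₀} : Set (FreeGroup Y →* FreeGroup 𝔄)), s '' N σ) with hM
  refine le_antisymm ?_ (Subgroup.normalClosure_le_normal ?_)
  · rw [hker]
    refine Subgroup.normalClosure_le_normal ?_
    rintro x (hx | hx)
    · exact Subgroup.subset_normalClosure (Or.inl (Or.inl hx))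
    · obtain ⟨s, hs, n, hn, rfl⟩ := Set.mem_iUnion₂.1 hx
      have h1 : (QuotientGroup.mk' M).comp s =
          ((QuotientGroup.mk' M).comp (MulAut.conj (a s)⁻¹).toMonoidHom).comp s₀ := by
        refine FreeGroup.ext_hom _ _ fun y => ?_
        refine QuotientGroup.eq.2 (Subgroup.subset_normalClosure (Or.inl (Or.inr
          (Set.mem_iUnion₂.2 ⟨s, hs, y, ?_⟩))))
        simp
      have h2 : s₀ n ∈ M :=
        Subgroup.subset_normalClosure (Or.inr (Set.mem_iUnion₂.2 ⟨s₀, rfl, n, hn, rfl⟩))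
      have h3 := DFunLike.congr_fun h1 n
      rw [SetLike.mem_coe, ← QuotientGroup.eq_one_iff]
      refine h3.trans ((QuotientGroup.eq_one_iff _).2 ?_)
      exact Subgroup.Normal.conj_mem inferInstance _ h2 _
  · rintro x ((hx | hx) | hx)
    · rw [hker]; exact Subgroup.subset_normalClosure (Or.inl hx)
    · obtain ⟨s, hs, y, rfl⟩ := Set.mem_iUnion₂.1 hx
      rw [SetLike.mem_coe, MonoidHom.mem_ker, map_mul, map_inv, ha s hs σ y, inv_mul_cancel]
    · obtain ⟨s, rfl, n, hn, rfl⟩ := Set.mem_iUnion₂.1 hx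
      exact h₀ σ n hn

/-- the copies of `N` can be dropped altogether if they follow from finitely many true relators -/
theorem drop (r' : Set (FreeGroup 𝔄)) (hr : r'.Finite)
    (h₁ : ∀ σ, ∀ x ∈ r', FreeGroup.lift (g σ) x = 1)
    (h₂ : ∀ σ, ∀ s ∈ S, ∀ n ∈ N σ, s n ∈ Subgroup.normalClosure r') (hg : UP N g S) :
    UP N g ∅ := by
  obtain ⟨hgen, r, hr', hker⟩ := hg
  refine ⟨hgen, r ∪ r', hr'.union hr, fun σ => ?_⟩
  simp only [Set.mem_empty_iff_false, Set.iUnion_of_empty, Set.iUnion_empty, Set.union_empty]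
  refine le_antisymm ?_ (Subgroup.normalClosure_le_normal ?_)
  · rw [hker]
    refine Subgroup.normalClosure_le_normal ?_
    rintro x (hx | hx)
    · exact Subgroup.subset_normalClosure (Or.inl hx)
    · obtain ⟨s, hs, n, hn, rfl⟩ := Set.mem_iUnion₂.1 hx
      exact Subgroup.normalClosure_mono Set.subset_union_right (h₂ σ s hs n hn)
  · rintro x (hx | hx)
    · rw [hker]; exact Subgroup.subset_normalClosure (Or.inl hx)
    · exact h₁ σ x hx

end UP

theorem up1_fp_prod (G H : Type) [Group G] [Group H] [Group.IsFinitelyPresented G]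
    [Group.IsFinitelyPresented H] : Group.IsFinitelyPresented (G × H) := by
  obtain ⟨n, φ, hφ, -⟩ := Group.IsFinitelyPresented.out (G := G)
  obtain ⟨m, ψ, hψ, -⟩ := Group.IsFinitelyPresented.out (G := H)
  have h1 : Gens fun i => φ (FreeGroup.of i) := by
    rw [up1_gens_iff]
    convert hφ
    exact FreeGroup.ext_hom _ _ fun i => by simp
  have h2 : Gens fun i => ψ (FreeGroup.of i) := by
    rw [up1_gens_iff]
    convert hψ
    exact FreeGroup.ext_hom _ _ fun i => by simp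
  have h3 := (UP.const (N := fun _ : Unit => (∅ : Set (FreeGroup Unit))) h1).prod (UP.const h2)
  simp only [upMap, Set.image_empty, Set.union_empty] at h3
  exact h3.fp_empty ()

/-- `ℤ^j` with its standard generators -/
def zGens (j : ℕ) : Fin j → Multiplicative (Fin j → ℤ) :=
  fun l => Multiplicative.ofAdd (Pi.single l 1)

theorem zGens_gens (j : ℕ) : Gens (zGens j) := by
  rw [Gens, eq_top_iff]
  intro x _
  have e : x = ∏ l, zGens j l ^ (x.toAdd l) := by
    apply Multiplicative.toAdd.injective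
    ext m
    simp [zGens, toAdd_prod, toAdd_zpow, Finset.sum_apply, Pi.single_apply]
  rw [e]
  exact Subgroup.prod_mem _ fun l _ => Subgroup.zpow_mem _ (Subgroup.subset_closure (Set.mem_range_self l)) _

/-- induction on `j` via `UP.prod`/`Fin.consEquiv`, or directly: `F(j) / ⟨⟨[x_l, x_m]⟩⟩` is abelian
and every element is `∏ x_l ^ n_l`. -/
instance fp_zpow (j : ℕ) : Group.IsFinitelyPresented (Multiplicative (Fin j → ℤ)) := by
  induction j with
  | zero => infer_instance
  | succ j ih =>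
    have := up1_fp_prod (Multiplicative ℤ) (Multiplicative (Fin j → ℤ))
    exact Group.IsFinitelyPresented.equiv ((MulEquiv.prodMultiplicative ℤ (Fin j → ℤ)).symm.trans
      (AddEquiv.toMultiplicative (Fin.consLinearEquiv ℤ fun _ : Fin (j + 1) => ℤ).toAddEquiv))

theorem free_gens (𝔄 : Type) : Gens (FreeGroup.of : 𝔄 → FreeGroup 𝔄) := by
  exact FreeGroup.closure_range_of 𝔄

end Crest.Agent.R185
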