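import Crest.Agent.R185.VDef

/-!
# R185 TASK V0: charts and fine maps
-/

set_option autoImplicit false

namespace Crest.Agent.R185.V

open Set Function

variable {E S : Type} [Group E] [MulAction E S] {ψ ψ' : S → List Bool} {c c' f g : Cu S → Cu S}

theorem pre_cons_zero (b : Bool) (l : List Bool) (x : ℕ → Bool) : pre (b :: l) x 0 = b := rfl

theorem pre_cons_succ (b : Bool) (l : List Bool) (x : ℕ → Bool) (n : ℕ) :
    pre (b :: l) x (n + 1) = pre l x n := rfl

theorem pre_append (l l' : List Bool) (x : ℕ → Bool) : pre (l ++ l') x = pre l (pre l' x) := by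
  induction l with
  | nil => rfl
  | cons b l ih => simp only [List.cons_append, pre, ih]


theorem pre_injective (l : List Bool) : Injective (pre l) := by
  induction l with
  | nil => exact fun _ _ h => h
  | cons b l ih => exact fun x y h => ih (funext fun n => congrFun h (n + 1))


theorem mem_range_pre_cons {b : Bool} {l : List Bool} {x : ℕ → Bool} :
    x ∈ range (pre (b :: l)) ↔ x 0 = b ∧ (fun n => x (n + 1)) ∈ range (pre l) := by
  constructor
  · rintro ⟨y, rfl⟩
    exact ⟨rfl, y, rfl⟩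
  · rintro ⟨h, y, hy⟩
    refine ⟨y, funext fun n => ?_⟩
    cases n with
    | zero => exact h.symm
    | succ n => exact congrFun hy n

theorem mem_range_pre {l : List Bool} {x : ℕ → Bool} :
    x ∈ range (pre l) ↔ ∀ i (h : i < l.length), x i = l[i] := by
  induction l generalizing x with
  | nil => simp [pre]
  | cons b l ih =>
    rw [mem_range_pre_cons, ih]
    constructor
    · rintro ⟨h1, h2⟩ i hi
      cases i with
      | zero => exact h1
      | succ i => exact h2 i (by simpa using hi)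
    · intro h
      exact ⟨h 0 (by simp), fun i hi => h (i + 1) (by simpa using hi)⟩


theorem tw_one : tw (S := S) (1 : E) = id := by
  funext κ s; simp [tw]


theorem tw_mul (γ γ' : E) : tw (S := S) (γ * γ') = tw γ ∘ tw γ' := by
  funext κ s; simp [tw, mul_smul]


theorem tw_bijective (γ : E) : Bijective (tw (S := S) γ) := by
  refine bijective_iff_has_inverse.2 ⟨tw γ⁻¹, fun κ => ?_, fun κ => ?_⟩ <;>
    · funext s; simp [tw]


/-- `tw γ = id` only if `γ` acts trivially -/
theorem smul_eq_of_tw_eq_id {γ : E} (h : tw (S := S) γ = id) (s : S) : γ • s = s := by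
  classical
  have := congrFun (congrFun (congrFun h fun t _ => decide (t = s)) (γ • s)) 0
  simpa [tw] using this


theorem br_nil : br (fun _ : S => []) = id := rfl


theorem br_comp : br ψ ∘ br ψ' = br fun s => ψ s ++ ψ' s := by
  funext κ s; simp [br, pre_append]


theorem br_injective : Injective (br ψ) := fun _ _ h =>
  funext fun s => pre_injective (ψ s) (congrFun h s)


theorem tw_comp_br (γ : E) : tw γ ∘ br ψ = br (fun s => ψ (γ⁻¹ • s)) ∘ tw γ := rfl


theorem mem_range_br {κ : Cu S} : κ ∈ range (br ψ) ↔ ∀ s, κ s ∈ range (pre (ψ s)) := by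
  constructor
  · rintro ⟨x, rfl⟩ s
    exact ⟨x s, rfl⟩
  · intro h
    choose x hx using h
    exact ⟨x, funext hx⟩


theorem prefix_of_pre {l l' : List Bool} (h : ∀ y, pre l' y ∈ range (pre l)) : l <+: l' := by
  induction l generalizing l' with
  | nil => exact List.nil_prefix
  | cons b l ih =>
    cases l' with
    | nil =>
      have := (mem_range_pre_cons.1 (h fun _ => !b)).1
      cases b <;> simp [pre] at this
    | cons b' l' =>
      have h1 : b' = b := (mem_range_pre_cons.1 (h fun _ => b)).1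
      rw [h1, List.cons_prefix_cons]
      exact ⟨rfl, ih fun y => (mem_range_pre_cons.1 (h y)).2⟩

theorem prefix_of_mem_range {l l' : List Bool} {x : ℕ → Bool} (h : x ∈ range (pre l))
    (h' : x ∈ range (pre l')) (hl : l.length ≤ l'.length) : l <+: l' := by
  rw [mem_range_pre] at h h'
  rw [List.prefix_iff_eq_take]
  refine List.ext_getElem (by simp [hl]) fun i h1 h2 => ?_
  rw [List.getElem_take, ← h i h1, ← h' i (by omega)]

theorem range_br_subset : range (br ψ') ⊆ range (br ψ) ↔ ∀ s, ψ s <+: ψ' s := by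
  constructor
  · intro h s
    exact prefix_of_pre fun y => mem_range_br.1 (h ⟨fun _ => y, rfl⟩) s
  · intro h
    choose r hr using h
    rw [show ψ' = fun s => ψ s ++ r s from funext fun s => (hr s).symm, ← br_comp]
    exact range_comp_subset_range _ _


theorem mem_range_half {s : S} {b : Bool} {κ : Cu S} : κ ∈ range (br (half s b)) ↔ κ s 0 = b := by
  rw [mem_range_br]
  constructor
  · intro h
    have := h s
    simp only [half, if_true] at this
    exact (mem_range_pre_cons.1 this).1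
  · intro h t
    unfold half
    split_ifs with ht
    · subst ht
      exact mem_range_pre_cons.2 ⟨h, _, rfl⟩
    · exact ⟨_, rfl⟩


theorem half_smul (γ : E) (s : S) (b : Bool) :
    (fun t => half s b (γ⁻¹ • t)) = half (γ • s) b := by
  funext t
  unfold half
  by_cases h : t = γ • s
  · rw [if_pos h, if_pos (inv_smul_eq_iff.2 h)]
  · rw [if_neg h, if_neg fun h' => h (inv_smul_eq_iff.1 h')]


theorem FinS.append (h : FinS ψ) (h' : FinS ψ') : FinS fun s => ψ s ++ ψ' s := by
  refine (h.union h').subset fun s hs => ?_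
  by_contra hn
  simp only [mem_union, mem_ofPred_eq, not_or, not_not] at hn
  exact hs (by simp [hn.1, hn.2])


theorem FinS.smul (h : FinS ψ) (γ : E) : FinS fun s => ψ (γ⁻¹ • s) := h.preimage (MulAction.injective γ⁻¹).injOn


theorem finS_half (s : S) (b : Bool) : FinS (half s b) := (finite_singleton s).subset fun t ht => by
    by_contra hn
    exact ht (if_neg hn)


theorem finS_elem (T B : Finset S) : FinS (elem T B) := T.finite_toSet.subset fun t ht => by
    by_contra hn
    exact ht (if_neg hn)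


theorem IsGrid.finS {F : Finset S} {m : ℕ} (h : IsGrid F m ψ) : FinS ψ := F.finite_toSet.subset fun t ht => by
    by_contra hn
    exact ht (h.2 t hn)


theorem finite_isGrid (F : Finset S) (m : ℕ) : {ψ | IsGrid F m ψ}.Finite := by
  refine Finite.of_finite_image (f := fun (ψ : S → List Bool) (s : F) => ψ s)
    ((Finite.pi' fun _ : F => List.finite_length_eq Bool m).subset ?_) ?_
  · rintro _ ⟨ψ, hψ, rfl⟩ s
    exact hψ.1 s s.2
  · intro ψ h ψ' h' e
    funext s
    by_cases hs : s ∈ F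
    · exact congrFun e ⟨s, hs⟩
    · rw [h.2 s hs, h'.2 s hs]


/-- the grid cells partition the cube -/
theorem existsUnique_grid (F : Finset S) (m : ℕ) (κ : Cu S) :
    ∃! ψ, IsGrid F m ψ ∧ κ ∈ range (br ψ) := by
  classical
  refine existsUnique_of_exists_of_unique
    ⟨fun s => if s ∈ F then List.ofFn fun i : Fin m => κ s i else [],
      ⟨fun s hs => by simp [hs], fun s hs => by simp [hs]⟩, mem_range_br.2 fun s => ?_⟩ ?_
  · split_ifs
    · exact mem_range_pre.2 fun i hi => by simp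
    · exact ⟨_, rfl⟩
  · rintro ψ ψ' ⟨h1, h2⟩ ⟨h3, h4⟩
    funext s
    by_cases hs : s ∈ F
    · have e : (ψ s).length = (ψ' s).length := by rw [h1.1 s hs, h3.1 s hs]
      exact (prefix_of_mem_range (mem_range_br.1 h2 s) (mem_range_br.1 h4 s) e.le).eq_of_length e
    · rw [h1.2 s hs, h3.2 s hs]


/-- a fine enough grid cell meeting a brick lies in it -/
theorem IsGrid.prefix_of_mem {F : Finset S} {m : ℕ} (h : IsGrid F m ψ')
    (hF : ∀ s, s ∉ F → ψ s = []) (hm : ∀ s, (ψ s).length ≤ m) {κ : Cu S}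
    (h₁ : κ ∈ range (br ψ)) (h₂ : κ ∈ range (br ψ')) (s : S) : ψ s <+: ψ' s := by
  by_cases hs : s ∈ F
  · exact prefix_of_mem_range (mem_range_br.1 h₁ s) (mem_range_br.1 h₂ s)
      (by rw [h.1 s hs]; exact hm s)
  · rw [hF s hs]; exact List.nil_prefix


theorem FinS.exists_bound (h : FinS ψ) : ∃ (F : Finset S) (m : ℕ), (∀ s, s ∉ F → ψ s = []) ∧
    ∀ s, (ψ s).length ≤ m := by
  have h1 : ∀ s, s ∉ h.toFinset → ψ s = [] := fun s hs => by
    by_contra hn
    exact hs (h.mem_toFinset.2 hn)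
  refine ⟨h.toFinset, h.toFinset.sup fun s => (ψ s).length, h1, fun s => ?_⟩
  by_cases hs : s ∈ h.toFinset
  · exact Finset.le_sup (f := fun s => (ψ s).length) hs
  · simp [h1 s hs]


theorem chart_br (h : FinS ψ) : Chart E (br ψ) := ⟨ψ, 1, h, by rw [tw_one]; rfl⟩


theorem chart_tw (γ : E) : Chart E (tw (S := S) γ) := ⟨fun _ => [], γ, by simp [FinS], rfl⟩


theorem chart_id : Chart E (id : Cu S → Cu S) := by
  rw [← tw_one (E := E)]; exact chart_tw 1


theorem Chart.comp (h : Chart E c) (h' : Chart E c') : Chart E (c ∘ c') := by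
  obtain ⟨ψ, γ, h, rfl⟩ := h
  obtain ⟨ψ', γ', h', rfl⟩ := h'
  refine ⟨_, γ * γ', h.append (h'.smul γ), ?_⟩
  rw [← br_comp, tw_mul]; rfl


theorem Chart.injective (h : Chart E c) : Injective c := by
  obtain ⟨ψ, γ, -, rfl⟩ := h
  exact br_injective.comp (tw_bijective γ).1


theorem tw_tw_inv (γ : E) : tw (S := S) γ ∘ tw γ⁻¹ = id := by
  rw [← tw_mul, mul_inv_cancel, tw_one]

theorem FinS.drop (h : FinS ψ) (n : S → ℕ) : FinS fun s => (ψ s).drop (n s) :=
  h.subset fun s hs e => hs (by simp only [e, List.drop_nil])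

theorem range_chart (ψ : S → List Bool) (γ : E) : range (br ψ ∘ tw γ) = range (br ψ) :=
  (tw_bijective γ).2.range_comp _

/-- common refinement near a point -/
theorem Chart.refine (h : Chart E c) (h' : Chart E c') {x : Cu S} (hx : c x ∈ range c') :
    ∃ u w, Chart E u ∧ Chart E w ∧ c ∘ u = c' ∘ w ∧ x ∈ range u := by
  have hinj := h.injective
  obtain ⟨ψ, γ, h, rfl⟩ := h
  obtain ⟨ψ', γ', h', rfl⟩ := h'
  rw [range_chart] at hx
  have hx' : (br ψ ∘ tw γ) x ∈ range (br ψ) := ⟨_, rfl⟩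
  have key : ∀ s, ψ s ++ (ψ' s).drop (ψ s).length = ψ' s ++ (ψ s).drop (ψ' s).length ∧
      (br ψ ∘ tw γ) x s ∈ range (pre (ψ s ++ (ψ' s).drop (ψ s).length)) := by
    intro s
    have a := mem_range_br.1 hx s
    have b := mem_range_br.1 hx' s
    rcases le_total (ψ s).length (ψ' s).length with hl | hl
    · have e := List.prefix_iff_eq_append.1 (prefix_of_mem_range b a hl)
      rw [e, List.drop_eq_nil_of_le hl, List.append_nil]
      exact ⟨rfl, a⟩
    · have e := List.prefix_iff_eq_append.1 (prefix_of_mem_range a b hl)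
      rw [e, List.drop_eq_nil_of_le hl, List.append_nil]
      exact ⟨rfl, b⟩
  have e1 : (br ψ ∘ tw γ) ∘ tw γ⁻¹ ∘ br (fun s => (ψ' s).drop (ψ s).length) =
      br fun s => ψ s ++ (ψ' s).drop (ψ s).length := by
    rw [comp_assoc, ← comp_assoc (tw γ), tw_tw_inv, id_comp, br_comp]
  have e2 : (br ψ' ∘ tw γ') ∘ tw γ'⁻¹ ∘ br (fun s => (ψ s).drop (ψ' s).length) =
      br fun s => ψ' s ++ (ψ s).drop (ψ' s).length := by
    rw [comp_assoc, ← comp_assoc (tw γ'), tw_tw_inv, id_comp, br_comp]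
  refine ⟨tw γ⁻¹ ∘ br fun s => (ψ' s).drop (ψ s).length,
    tw γ'⁻¹ ∘ br fun s => (ψ s).drop (ψ' s).length,
    (chart_tw _).comp (chart_br (h'.drop _)), (chart_tw _).comp (chart_br (h.drop _)), ?_, ?_⟩
  · rw [e1, e2]
    exact congrArg br (funext fun s => (key s).1)
  · obtain ⟨y, hy⟩ := mem_range_br.2 fun s => (key s).2
    rw [← e1] at hy
    exact ⟨y, hinj hy⟩


theorem Chart.fine (h : Chart E c) : Fine E c := fun κ => ⟨id, chart_id, ⟨κ, rfl⟩, h⟩


theorem Fine.comp (hf : Fine E f) (hg : Fine E g) : Fine E (f ∘ g) := by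
  intro κ
  obtain ⟨c, hc, ⟨x, rfl⟩, hc'⟩ := hg κ
  obtain ⟨d, hd, hx, hd'⟩ := hf (g (c x))
  obtain ⟨u, w, hu, hw, e, y, rfl⟩ := hc'.refine hd (x := x) hx
  refine ⟨c ∘ u, hc.comp hu, ⟨y, rfl⟩, ?_⟩
  have : (f ∘ g) ∘ c ∘ u = (f ∘ d) ∘ w := by rw [comp_assoc f d, ← e]; rfl
  rw [this]; exact hd'.comp hw


theorem Fine.symm {e : Equiv.Perm (Cu S)} (h : Fine E e) : Fine E e.symm := by
  intro κ
  obtain ⟨c, hc, ⟨x, hx⟩, hc'⟩ := h (e.symm κ)
  refine ⟨e ∘ c, hc', ⟨x, by simp [hx]⟩, ?_⟩
  rw [← comp_assoc, Equiv.symm_comp_self]; exact hc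


/-- a map which is fine after composition with finitely many (or any family of) fine injections
covering the cube is fine: if `κ = u x` and `c`, `u ∘ c`, and (after refining) `f ∘ u ∘ c` are
charts, then `u ∘ c` is a chart at `κ`. -/
theorem Fine.of_cover {ι : Type} (u : ι → Cu S → Cu S) (hu : ∀ i, Fine E (u i))
    (hc : ∀ κ, ∃ i, κ ∈ range (u i)) (hf : ∀ i, Fine E (f ∘ u i)) : Fine E f := by
  intro κ
  obtain ⟨i, x, rfl⟩ := hc κ
  obtain ⟨c, h1, ⟨y, rfl⟩, h2⟩ := hu i x
  obtain ⟨d, h3, h4, h5⟩ := hf i (c y)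
  obtain ⟨a, w, ha, hw, e, z, rfl⟩ := h1.refine h3 h4
  refine ⟨(u i ∘ c) ∘ a, h2.comp ha, ⟨z, rfl⟩, ?_⟩
  have : f ∘ (u i ∘ c) ∘ a = ((f ∘ u i) ∘ d) ∘ w := by rw [comp_assoc _ d, ← e]; rfl
  rw [this]; exact h5.comp hw


theorem isOpen_range_br (h : FinS ψ) : IsOpen (range (br ψ)) := by
  have : range (br ψ) = ⋂ s ∈ {s | ψ s ≠ []}, ⋂ i : Fin (ψ s).length,
      (fun κ : Cu S => κ s i) ⁻¹' {(ψ s)[i]} := by
    ext κ
    simp only [mem_range_br, mem_range_pre, mem_iInter, mem_preimage, mem_singleton_iff]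
    constructor
    · exact fun h s _ i => h s i i.2
    · intro h s i hi
      exact h s (fun e => by simp [e] at hi) ⟨i, hi⟩
  rw [this]
  exact h.isOpen_biInter fun s _ => isOpen_iInter_of_finite fun i =>
    (isOpen_discrete _).preimage (by fun_prop)

/-- compactness of the cube (product topology; ranges of charts are open) -/
theorem Fine.uniform (hf : Fine E f) : ∃ (F : Finset S) (m : ℕ), ∀ (F' : Finset S) (m' : ℕ),
    F ⊆ F' → m ≤ m' → ∀ ψ, IsGrid F' m' ψ → Chart E (f ∘ br ψ) := by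
  classical
  choose c hc hκ hc' using hf
  choose φ γ hφ e using hc
  obtain ⟨t, ht⟩ := isCompact_univ.elim_finite_subcover (fun κ => range (br (φ κ)))
    (fun κ => isOpen_range_br (hφ κ)) fun κ _ => mem_iUnion.2 ⟨κ, by
      rw [← range_chart (φ κ) (γ κ), ← e]; exact hκ κ⟩
  choose F m hF hm using fun κ => (hφ κ).exists_bound
  refine ⟨t.biUnion F, t.sup m, fun F' m' h1 h2 ψ hψ => ?_⟩
  have := ht (mem_univ (br ψ fun _ _ => false))
  simp only [mem_iUnion] at this
  obtain ⟨κ, hκt, hx⟩ := this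
  have hp := hψ.prefix_of_mem (ψ := φ κ)
    (fun s hs => hF κ s fun h => hs (h1 (Finset.mem_biUnion.2 ⟨κ, hκt, h⟩)))
    (fun s => (hm κ s).trans ((Finset.le_sup (f := m) hκt).trans h2)) hx ⟨_, rfl⟩
  have e1 : br ψ = c κ ∘ tw (γ κ)⁻¹ ∘ br fun s => (ψ s).drop (φ κ s).length := by
    rw [e, comp_assoc, ← comp_assoc (tw (γ κ)), tw_tw_inv, id_comp, br_comp]
    exact congrArg br (funext fun s => (List.prefix_iff_eq_append.1 (hp s)).symm)
  rw [e1, ← comp_assoc]
  exact (hc' κ).comp ((chart_tw _).comp (chart_br (hψ.finS.drop _)))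


end Crest.Agent.R185.V
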