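import Crest.Agent.R185.VDef2

/-!
# R185 TASK V1: atoms and guillotine partitions
-/

set_option autoImplicit false

namespace Crest.Agent.R185.V

open Set Function

variable {E S : Type} [Group E] [MulAction E S] {f g : EM E S} {a a₀ a₁ b c : At E S}
  {q u v w M : Finset (At E S)} {s s' : S}

theorem twE_mul_cut (γ : E) (s : S) (b : Bool) :
    twE S γ * cut E s b = cut E (γ • s) b * twE S γ := by
  apply EM.ext
  show tw γ ∘ br (half s b) = br (half (γ • s) b) ∘ tw γ
  rw [tw_comp_br, half_smul]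

theorem cut_comm (h : s ≠ s') (b b' : Bool) :
    cut E s b * cut E s' b' = cut E s' b' * cut E s b := by
  apply EM.ext
  show br (half s b) ∘ br (half s' b') = br (half s' b') ∘ br (half s b)
  rw [br_comp, br_comp]
  congr 1
  funext t
  by_cases h1 : t = s
  · have h2 : t ≠ s' := h1 ▸ h
    simp [half, h2]
  · simp [half, h1]

theorem mk_mul_twE (γ : E) : mk (f * twE S γ) = mk f := by
  exact (mk_eq_mk.2 ⟨γ, rfl⟩).symm

theorem supp_mk (f : EM E S) : supp (mk f) = range (fn f) := by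
  obtain ⟨γ, h⟩ := mk_eq_mk.1 (mk_rep (mk f))
  rw [supp]
  conv_rhs => rw [h, fn_mul]
  exact ((tw_bijective γ).2.range_comp _).symm

theorem supp_smul (f : EM E S) (a : At E S) : supp (f • a) = fn f '' supp a := by
  rw [← mk_rep a, smul_mk, supp_mk, supp_mk, fn_mul, range_comp]

theorem supp_nonempty (a : At E S) : (supp a).Nonempty := by
  exact range_nonempty _

theorem smul_injective (f : EM E S) : Injective fun a : At E S => f • a := by
  intro a b h
  rw [← mk_rep a, ← mk_rep b] at h ⊢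
  obtain ⟨γ, h⟩ := mk_eq_mk.1 h
  refine mk_eq_mk.2 ⟨γ, EM.ext (funext fun x => fn_injective f ?_)⟩
  exact congrFun (congrArg fn h) x

/-- every cut can be expressed through a given representative -/
theorem Cut.exists_dir (h : Cut (mk f) a₀ a₁) :
    ∃ s, a₀ = mk (f * cut E s false) ∧ a₁ = mk (f * cut E s true) := by
  obtain ⟨g, s, h1, rfl, rfl⟩ := h
  obtain ⟨γ, rfl⟩ := mk_eq_mk.1 h1
  refine ⟨γ • s, ?_, ?_⟩ <;> rw [mul_assoc, twE_mul_cut, ← mul_assoc, mk_mul_twE]

theorem v1_mem_cut {b : Bool} {κ : Cu S} :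
    κ ∈ supp (mk (f * cut E s b)) ↔ ∃ x : Cu S, x s 0 = b ∧ fn f x = κ := by
  rw [supp_mk, fn_mul, range_comp]
  exact exists_congr fun x => and_congr_left fun _ => mem_range_half

theorem Cut.disjoint (h : Cut a a₀ a₁) : Disjoint (supp a₀) (supp a₁) := by
  obtain ⟨g, s, -, rfl, rfl⟩ := h
  rw [Set.disjoint_left]
  intro κ h0 h1
  obtain ⟨x, hx, rfl⟩ := v1_mem_cut.1 h0
  obtain ⟨y, hy, e⟩ := v1_mem_cut.1 h1
  rw [fn_injective g e, hx] at hy
  exact Bool.false_ne_true hy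

theorem Cut.union (h : Cut a a₀ a₁) : supp a₀ ∪ supp a₁ = supp a := by
  obtain ⟨g, s, rfl, rfl, rfl⟩ := h
  ext κ
  rw [mem_union, v1_mem_cut, v1_mem_cut, supp_mk]
  constructor
  · rintro (⟨x, -, rfl⟩ | ⟨x, -, rfl⟩) <;> exact mem_range_self x
  · rintro ⟨x, rfl⟩
    cases hx : x s 0
    · exact Or.inl ⟨x, hx, rfl⟩
    · exact Or.inr ⟨x, hx, rfl⟩

theorem Cut.smul (h : Cut a a₀ a₁) (f : EM E S) : Cut (f • a) (f • a₀) (f • a₁) := by
  obtain ⟨g, s, rfl, rfl, rfl⟩ := h
  exact ⟨f * g, s, rfl, by rw [smul_mk, mul_assoc], by rw [smul_mk, mul_assoc]⟩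

theorem Cut.sub (h : Cut a a₀ a₁) : Sub a {a₀, a₁} := by
  rw [Finset.insert_eq]
  exact Sub.node h (Sub.refl _) (Sub.refl _)

theorem Dj.mono (h : Dj v) (huv : u ⊆ v) : Dj u := by
  exact fun a ha b hb => h a (huv ha) b (huv hb)

theorem v1_eq (h : Dj v) (ha : a ∈ v) (hb : b ∈ v) {κ : Cu S} (h₁ : κ ∈ supp a)
    (h₂ : κ ∈ supp b) : a = b :=
  by_contra fun hne => Set.disjoint_left.1 (h a ha b hb hne) h₁ h₂

theorem Dj.eq_of_subset (h : Dj v) (ha : a ∈ v) (hb : b ∈ v) (hab : supp a ⊆ supp b) : a = b := by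
  obtain ⟨κ, hκ⟩ := supp_nonempty a
  exact v1_eq h ha hb hκ (hab hκ)

theorem mem_res : c ∈ res v a ↔ c ∈ v ∧ supp c ⊆ supp a := by
  simp [res]

theorem Dj.res_self (h : Dj v) (ha : a ∈ v) : res v a = {a} := by
  ext c
  rw [mem_res, Finset.mem_singleton]
  exact ⟨fun hc => h.eq_of_subset hc.1 ha hc.2, fun hc => by rw [hc]; exact ⟨ha, subset_rfl⟩⟩

theorem Sub.nonempty (h : Sub a q) : q.Nonempty := by
  induction h with
  | refl a => exact Finset.singleton_nonempty a
  | node _ _ _ ih _ => exact ih.mono Finset.subset_union_left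

theorem Sub.supp_subset (h : Sub a q) (hc : c ∈ q) : supp c ⊆ supp a := by
  induction h with
  | refl a => rw [Finset.mem_singleton.1 hc]
  | node h _ _ ih₀ ih₁ =>
    rw [← h.union]
    rcases Finset.mem_union.1 hc with hc | hc
    · exact (ih₀ hc).trans subset_union_left
    · exact (ih₁ hc).trans subset_union_right

theorem Sub.dj (h : Sub a q) : Dj q := by
  induction h with
  | refl a =>
    exact fun b hb c hc hbc =>
      absurd ((Finset.mem_singleton.1 hb).trans (Finset.mem_singleton.1 hc).symm) hbc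
  | node h h₀ h₁ ih₀ ih₁ =>
    intro b hb c hc hbc
    rcases Finset.mem_union.1 hb with hb | hb <;> rcases Finset.mem_union.1 hc with hc | hc
    · exact ih₀ b hb c hc hbc
    · exact h.disjoint.mono (h₀.supp_subset hb) (h₁.supp_subset hc)
    · exact h.disjoint.symm.mono (h₁.supp_subset hb) (h₀.supp_subset hc)
    · exact ih₁ b hb c hc hbc

theorem Sub.cover (h : Sub a q) {κ : Cu S} (hκ : κ ∈ supp a) : ∃ c ∈ q, κ ∈ supp c := by
  induction h with
  | refl a => exact ⟨a, Finset.mem_singleton_self a, hκ⟩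
  | node h _ _ ih₀ ih₁ =>
    rw [← h.union] at hκ
    rcases hκ with hκ | hκ
    · obtain ⟨c, hc, h'⟩ := ih₀ hκ
      exact ⟨c, Finset.mem_union_left _ hc, h'⟩
    · obtain ⟨c, hc, h'⟩ := ih₁ hκ
      exact ⟨c, Finset.mem_union_right _ hc, h'⟩

theorem Sub.smul (h : Sub a q) (f : EM E S) : Sub (f • a) (q.image fun c => f • c) := by
  induction h with
  | refl a => rw [Finset.image_singleton]; exact Sub.refl _
  | node h _ _ ih₀ ih₁ => rw [Finset.image_union]; exact Sub.node (h.smul f) ih₀ ih₁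

theorem Sub.eq_of_mem (h : Sub a q) (ha : a ∈ q) : q = {a} := by
  cases h with
  | refl => rfl
  | @node _ a₀ a₁ _ _ h h₀ h₁ =>
    exfalso
    rcases Finset.mem_union.1 ha with ha | ha
    · obtain ⟨κ, hκ⟩ := supp_nonempty a₁
      exact Set.disjoint_left.1 h.disjoint (h₀.supp_subset ha (h.union ▸ Or.inr hκ)) hκ
    · obtain ⟨κ, hκ⟩ := supp_nonempty a₀
      exact Set.disjoint_left.1 h.disjoint hκ (h₁.supp_subset ha (h.union ▸ Or.inl hκ))

theorem v1_node_disj {q₀ q₁ : Finset (At E S)} (h : Cut a a₀ a₁) (h₀ : Sub a₀ q₀)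
    (h₁ : Sub a₁ q₁) : Disjoint q₀ q₁ := by
  rw [Finset.disjoint_left]
  intro c hc hc'
  obtain ⟨κ, hκ⟩ := supp_nonempty c
  exact Set.disjoint_left.1 h.disjoint (h₀.supp_subset hc hκ) (h₁.supp_subset hc' hκ)

theorem Sub.eq_of_card_le_one (h : Sub a q) (hc : q.card ≤ 1) : q = {a} := by
  cases h with
  | refl => rfl
  | node h h₀ h₁ =>
    rw [Finset.card_union_of_disjoint (v1_node_disj h h₀ h₁)] at hc
    have := h₀.nonempty.card_pos
    have := h₁.nonempty.card_pos
    omega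

theorem Sub.exists_cut (h : Sub a q) (hc : q.card = 2) :
    ∃ a₀ a₁, Cut a a₀ a₁ ∧ q = {a₀, a₁} := by
  cases h with
  | refl => simp at hc
  | node h h₀ h₁ =>
    rw [Finset.card_union_of_disjoint (v1_node_disj h h₀ h₁)] at hc
    have := h₀.nonempty.card_pos
    have := h₁.nonempty.card_pos
    refine ⟨_, _, h, ?_⟩
    rw [h₀.eq_of_card_le_one (by omega), h₁.eq_of_card_le_one (by omega), Finset.insert_eq]

theorem Sub.bind (h : Sub a q) {r : At E S → Finset (At E S)} (hr : ∀ c ∈ q, Sub c (r c)) :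
    Sub a (q.biUnion r) := by
  induction h with
  | refl a => rw [Finset.singleton_biUnion]; exact hr a (Finset.mem_singleton_self a)
  | node h _ _ ih₀ ih₁ =>
    rw [Finset.union_biUnion]
    exact Sub.node h (ih₀ fun c hc => hr c (Finset.mem_union_left _ hc))
      (ih₁ fun c hc => hr c (Finset.mem_union_right _ hc))

/-- a guillotine partition of `a` contained in a disjoint family consists of all its atoms in `a` -/
theorem Sub.res_eq (h : Sub a q) (hv : Dj v) (hq : q ⊆ v) : res v a = q := by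
  ext c
  rw [mem_res]
  refine ⟨fun hc => ?_, fun hc => ⟨hq hc, h.supp_subset hc⟩⟩
  obtain ⟨κ, hκ⟩ := supp_nonempty c
  obtain ⟨c', h1, h2⟩ := h.cover (hc.2 hκ)
  rwa [v1_eq hv hc.1 (hq h1) hκ h2]

theorem Part.nonempty (h : Part v) : v.Nonempty := by
  obtain ⟨a, ha, -⟩ := h.2 fun _ _ => true
  exact ⟨a, ha⟩

theorem Le.refl (h : Part v) : Le v v := by
  intro a ha
  rw [h.1.res_self ha]
  exact Sub.refl a

theorem Le.exists_root (hu : Part u) (hv : Part v) (h : Le u v) (hc : c ∈ v) :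
    ∃ a ∈ u, c ∈ res v a := by
  obtain ⟨κ, hκ⟩ := supp_nonempty c
  obtain ⟨a, ha, h1⟩ := hu.2 κ
  obtain ⟨c', h2, h3⟩ := (h a ha).cover h1
  refine ⟨a, ha, ?_⟩
  rwa [v1_eq hv.1 hc (mem_res.1 h2).1 hκ h3]

theorem Le.eq_biUnion (hu : Part u) (hv : Part v) (h : Le u v) : v = u.biUnion (res v) := by
  ext c
  rw [Finset.mem_biUnion]
  exact ⟨h.exists_root hu hv, fun ⟨_, _, hc⟩ => (mem_res.1 hc).1⟩

theorem v1_res_disj (h : Dj u) (v : Finset (At E S)) :
    (u : Set (At E S)).PairwiseDisjoint (res v) := by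
  intro a ha b hb hne
  rw [Function.onFun, Finset.disjoint_left]
  intro c hc hc'
  obtain ⟨κ, hκ⟩ := supp_nonempty c
  exact hne (v1_eq h ha hb ((mem_res.1 hc).2 hκ) ((mem_res.1 hc').2 hκ))

theorem Le.card_eq (hu : Part u) (hv : Part v) (h : Le u v) :
    v.card = ∑ a ∈ u, (res v a).card := by
  rw [← Finset.card_biUnion (v1_res_disj hu.1 v), ← h.eq_biUnion hu hv]

/-- for any atom `a` which is cut into atoms of `v ≤ w` -/
theorem Le.res_res (hv : Part v) (hw : Part w) (h : Le v w) (ha : Sub a (res v a)) :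
    res w a = (res v a).biUnion (res w) ∧ Sub a (res w a) ∧
      (res w a).card = ∑ c ∈ res v a, (res w c).card := by
  have h1 : Sub a ((res v a).biUnion (res w)) := ha.bind fun c hc => h c (mem_res.1 hc).1
  have h2 := h1.res_eq hw.1 fun d hd => by
    obtain ⟨c, -, hd⟩ := Finset.mem_biUnion.1 hd
    exact (mem_res.1 hd).1
  refine ⟨h2, h2 ▸ h1, ?_⟩
  rw [h2, Finset.card_biUnion (v1_res_disj (hv.1.mono fun c hc => (mem_res.1 hc).1) w)]

theorem Le.trans (hv : Part v) (hw : Part w) (h : Le u v) (h' : Le v w) : Le u w := by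
  exact fun a ha => (h'.res_res hv hw (h a ha)).2.1

theorem Le.card_le (hu : Part u) (hv : Part v) (h : Le u v) : u.card ≤ v.card := by
  rw [h.card_eq hu hv, Finset.card_eq_sum_ones]
  exact Finset.sum_le_sum fun a ha => (h a ha).nonempty.card_pos

theorem Le.eq_of_card_le (hu : Part u) (hv : Part v) (h : Le u v) (hc : v.card ≤ u.card) :
    u = v := by
  have h1 : ∀ a ∈ u, res v a = {a} := by
    intro a ha
    refine (h a ha).eq_of_card_le_one (not_lt.1 fun h2 => ?_)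
    rw [h.card_eq hu hv, Finset.card_eq_sum_ones u] at hc
    exact not_lt.2 hc (Finset.sum_lt_sum (fun a ha => (h a ha).nonempty.card_pos) ⟨a, ha, h2⟩)
  rw [h.eq_biUnion hu hv, Finset.biUnion_congr rfl h1, Finset.biUnion_singleton_eq_self]

/-- an atom of `w` which belongs to `u ≤ v ≤ w` belongs to `v` -/
theorem Le.mem_of_mem (hu : Part u) (hv : Part v) (hw : Part w) (h : Le u v) (h' : Le v w)
    (hau : a ∈ u) (haw : a ∈ w) : a ∈ v := by
  have _ := hu
  have h1 := (h'.res_res hv hw (h a hau)).2.2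
  rw [hw.1.res_self haw, Finset.card_singleton] at h1
  have h2 : (res v a).card ≤ 1 := by
    rw [h1, Finset.card_eq_sum_ones]
    exact Finset.sum_le_sum fun c hc => (h' c (mem_res.1 hc).1).nonempty.card_pos
  have h3 : a ∈ res v a := by
    rw [(h a hau).eq_of_card_le_one h2]
    exact Finset.mem_singleton_self a
  exact (mem_res.1 h3).1

/-- cutting all atoms of a partition -/
theorem Part.biUnion (hu : Part u) {r : At E S → Finset (At E S)} (hr : ∀ a ∈ u, Sub a (r a)) :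
    Part (u.biUnion r) ∧ Le u (u.biUnion r) ∧ ∀ a ∈ u, res (u.biUnion r) a = r a := by
  have h1 : Dj (u.biUnion r) := by
    intro c hc c' hc' hne
    obtain ⟨a, ha, hc⟩ := Finset.mem_biUnion.1 hc
    obtain ⟨a', ha', hc'⟩ := Finset.mem_biUnion.1 hc'
    by_cases e : a = a'
    · subst e
      exact (hr a ha).dj c hc c' hc' hne
    · exact (hu.1 a ha a' ha' e).mono ((hr a ha).supp_subset hc) ((hr a' ha').supp_subset hc')
  have h2 : ∀ a ∈ u, res (u.biUnion r) a = r a := fun a ha =>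
    (hr a ha).res_eq h1 (Finset.subset_biUnion_of_mem r ha)
  refine ⟨⟨h1, fun κ => ?_⟩, fun a ha => (h2 a ha).symm ▸ hr a ha, h2⟩
  obtain ⟨a, ha, hκ⟩ := hu.2 κ
  obtain ⟨c, hc, hκ⟩ := (hr a ha).cover hκ
  exact ⟨c, Finset.mem_biUnion.2 ⟨a, ha, hc⟩, hκ⟩

/-- comparison of two expansions of `u`, root by root -/
theorem Le.of_res (hu : Part u) (hv : Part v) (hw : Part w) (h : Le u v)
    (h' : ∀ a ∈ u, ∀ c ∈ res v a, Sub c (res w c)) : Le v w := by
  have _ := hw
  intro c hc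
  obtain ⟨a, ha, hc⟩ := h.exists_root hu hv hc
  exact h' a ha c hc

theorem Part.mrg (hv : Part v) (hM : Dj M) (h : ∀ a ∈ M, Sub a (res v a)) :
    Part (mrg v M) ∧ Le (mrg v M) v := by
  have h0 : ∀ c, c ∈ V.mrg v M ↔ c ∈ M ∨ c ∈ v ∧ ∀ a ∈ M, ¬supp c ⊆ supp a := fun c => by
    simp only [V.mrg, Finset.mem_union, Finset.mem_filter]
  have h1 : ∀ a ∈ M, ∀ c ∈ v, (∀ a ∈ M, ¬supp c ⊆ supp a) → Disjoint (supp a) (supp c) := by
    intro a ha c hc hn
    rw [Set.disjoint_left]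
    intro κ h2 h3
    obtain ⟨c', h4, h5⟩ := (h a ha).cover h2
    exact hn a ha (v1_eq hv.1 hc (mem_res.1 h4).1 h3 h5 ▸ (mem_res.1 h4).2)
  refine ⟨⟨fun a ha c hc hne => ?_, fun κ => ?_⟩, fun a ha => ?_⟩
  · rcases (h0 a).1 ha with ha | ha <;> rcases (h0 c).1 hc with hc | hc
    · exact hM a ha c hc hne
    · exact h1 a ha c hc.1 hc.2
    · exact (h1 c hc a ha.1 ha.2).symm
    · exact hv.1 a ha.1 c hc.1 hne
  · obtain ⟨c, hc, hκ⟩ := hv.2 κ
    by_cases h2 : ∃ a ∈ M, supp c ⊆ supp a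
    · obtain ⟨a, ha, h2⟩ := h2
      exact ⟨a, (h0 a).2 (Or.inl ha), h2 hκ⟩
    · exact ⟨c, (h0 c).2 (Or.inr ⟨hc, fun a ha h3 => h2 ⟨a, ha, h3⟩⟩), hκ⟩
  · rcases (h0 a).1 ha with ha | ha
    · exact h a ha
    · exact Le.refl hv a ha.1

theorem Part.smul (hv : Part v) (g : SV E S) : Part (v.image fun a => toEM g • a) := by
  refine ⟨fun a ha b hb hne => ?_, fun κ => ?_⟩
  · obtain ⟨a', ha', rfl⟩ := Finset.mem_image.1 ha
    obtain ⟨b', hb', rfl⟩ := Finset.mem_image.1 hb
    rw [supp_smul, supp_smul]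
    exact disjoint_image_of_injective (fn_injective _) (hv.1 a' ha' b' hb' fun e => hne (e ▸ rfl))
  · obtain ⟨a, ha, hκ⟩ := hv.2 (g.1.symm κ)
    refine ⟨_, Finset.mem_image_of_mem _ ha, ?_⟩
    rw [supp_smul]
    exact ⟨_, hκ, g.1.apply_symm_apply κ⟩

theorem Le.smul (h : Le u v) (f : EM E S) :
    Le (u.image fun a => f • a) (v.image fun a => f • a) := by
  intro a' ha'
  obtain ⟨a, ha, rfl⟩ := Finset.mem_image.1 ha'
  have e : res (v.image fun a => f • a) (f • a) = (res v a).image fun a => f • a := by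
    ext c
    simp only [mem_res, Finset.mem_image]
    constructor
    · rintro ⟨⟨c, hc, rfl⟩, h1⟩
      rw [supp_smul, supp_smul, image_subset_image_iff (fn_injective f)] at h1
      exact ⟨c, ⟨hc, h1⟩, rfl⟩
    · rintro ⟨c, ⟨hc, h1⟩, rfl⟩
      refine ⟨⟨c, hc, rfl⟩, ?_⟩
      rw [supp_smul, supp_smul]
      exact image_mono h1
  rw [e]
  exact (h a ha).smul f

end Crest.Agent.R185.V
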