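import Crest.Agent.R185.VDef3

/-!
# R185 TASK V2: the cut lemma and elementary partitions
-/

set_option autoImplicit false

namespace Crest.Agent.R185.V

open Set Function

variable {E S : Type} [Group E] [MulAction E S] {f : EM E S} {a c : At E S}
  {q q' : Finset (At E S)} {s : S} {T T' : Finset S}

theorem mem_supp_br {ψ : S → List Bool} {h : FinS ψ} {x : Cu S} :
    fn f x ∈ supp (mk (f * brE E ψ h)) ↔ x ∈ range (br ψ) := by
  rw [supp_mk, fn_mul, range_comp]
  exact (fn_injective f).mem_set_image

theorem mem_supp_cut {b : Bool} {x : Cu S} : fn f x ∈ supp (mk (f * cut E s b)) ↔ x s 0 = b :=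
  mem_supp_br.trans mem_range_half

theorem supp_mul_subset (f g : EM E S) : supp (mk (f * g)) ⊆ supp (mk f) := by
  rw [supp_mk, supp_mk, fn_mul]; exact range_comp_subset_range _ _

theorem exists_of_mem_supp {g : EM E S} {κ : Cu S} (h : κ ∈ supp (mk (f * g))) :
    ∃ x, fn f x = κ := by
  have := supp_mul_subset f g h
  rwa [supp_mk] at this

theorem brE_mul {ψ ψ' : S → List Bool} (h : FinS ψ) (h' : FinS ψ') :
    brE E ψ h * brE E ψ' h' = brE E (fun s => ψ s ++ ψ' s) (h.append h') := EM.ext br_comp

theorem brE_congr {ψ ψ' : S → List Bool} (h : FinS ψ) (h' : FinS ψ') (e : ψ = ψ') :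
    brE E ψ h = brE E ψ' h' := by subst e; rfl

theorem finS_nil : FinS fun _ : S => [] := by simp [FinS]

theorem brE_nil (h : FinS fun _ : S => []) : brE E (fun _ => []) h = 1 := EM.ext br_nil

theorem subset_supp_cut_cut {s' : S} (h : s' ≠ s) {b b' : Bool} {U : Set (Cu S)}
    (h1 : U ⊆ supp (mk (f * cut E s' b'))) (h2 : U ⊆ supp (mk (f * cut E s b))) :
    U ⊆ supp (mk (f * cut E s' b' * cut E s b)) := by
  intro κ hκ
  have a1 := h1 hκ
  rw [supp_mk] at a1
  obtain ⟨x, rfl⟩ := a1
  have a2 : fn f (fn (cut E s' b') x) ∈ _ := h2 hκ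
  rw [mem_supp_cut] at a2 ⊢
  have : fn (cut E s' b') x s = x s := by
    show pre (half s' b' s) (x s) = x s
    rw [half, if_neg h.symm]; rfl
  rwa [this] at a2

theorem Cut.disjoint_sub {a₀ a₁ : At E S} {q₀ q₁ : Finset (At E S)} (h : Cut a a₀ a₁)
    (h₀ : Sub a₀ q₀) (h₁ : Sub a₁ q₁) : Disjoint q₀ q₁ := by
  rw [Finset.disjoint_left]
  intro c a1 a2
  obtain ⟨κ, hκ⟩ := supp_nonempty c
  exact Set.disjoint_left.1 h.disjoint (h₀.supp_subset a1 hκ) (h₁.supp_subset a2 hκ)

/-- Induction on `Sub a q`, generalising `f` with `a = mk f`.  If the first cut is along `s' ≠ s`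
(`Cut.exists_dir`), apply the induction hypothesis to `f * cut s' b'` and use `cut_comm`. -/
theorem Sub.cut_half (h : Sub (mk f) q) (hs : s ∈ dirs f q) (b : Bool) :
    Sub (mk (f * cut E s b)) (res q (mk (f * cut E s b))) := by
  generalize ha : mk f = a at h
  induction h generalizing f with
  | refl a =>
    subst ha
    obtain ⟨b', hb'⟩ := hs (mk f) (by simp)
    have := hb' (a := fn f fun _ _ => !b') (by rw [supp_mk]; exact ⟨_, rfl⟩)
    rw [mem_supp_cut] at this
    cases b' <;> simp at this
  | @node a a₀ a₁ q₀ q₁ hc h₀ h₁ ih₀ ih₁ =>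
    subst ha
    have hq := (Sub.node hc h₀ h₁).dj
    obtain ⟨s', rfl, rfl⟩ := hc.exists_dir
    by_cases hss : s' = s
    · subst hss
      cases b
      · rw [h₀.res_eq hq Finset.subset_union_left]; exact h₀
      · rw [h₁.res_eq hq Finset.subset_union_right]; exact h₁
    · have k₀ := ih₀ (f := f * cut E s' false) (fun c hc => by
        obtain ⟨b', hb'⟩ := hs c (Finset.mem_union_left _ hc)
        exact ⟨b', subset_supp_cut_cut hss (h₀.supp_subset hc) hb'⟩) rfl
      have k₁ := ih₁ (f := f * cut E s' true) (fun c hc => by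
        obtain ⟨b', hb'⟩ := hs c (Finset.mem_union_right _ hc)
        exact ⟨b', subset_supp_cut_cut hss (h₁.supp_subset hc) hb'⟩) rfl
      have hc' : Cut (mk (f * cut E s b)) (mk (f * cut E s' false * cut E s b))
          (mk (f * cut E s' true * cut E s b)) :=
        ⟨f * cut E s b, s', rfl, by rw [mul_assoc, cut_comm hss, ← mul_assoc],
          by rw [mul_assoc, cut_comm hss, ← mul_assoc]⟩
      have k := Sub.node hc' k₀ k₁
      rw [k.res_eq hq (Finset.union_subset_union (fun c hc => (mem_res.1 hc).1)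
        fun c hc => (mem_res.1 hc).1)]
      exact k


theorem dirs_mul_cut {s' : S} (hs : s ∈ dirs f q) (h : s' ≠ s) (b : Bool) :
    s ∈ dirs (f * cut E s' b) (res q (mk (f * cut E s' b))) := by
  intro c hc
  obtain ⟨h1, h2⟩ := mem_res.1 hc
  obtain ⟨b', hb'⟩ := hs c h1
  exact ⟨b', subset_supp_cut_cut h h2 hb'⟩


theorem el_empty : el f ∅ = {mk f} := by
  have : (brE E (elem (∅ : Finset S) ∅) (finS_elem _ _)) = 1 := by
    rw [← brE_nil (E := E) (by simp [FinS])]
    exact brE_congr _ _ (funext fun s => by simp [elem])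
  simp [el, this]


theorem el_insert [DecidableEq S] (hs : s ∉ T) :
    el f (insert s T) = el (f * cut E s false) T ∪ el (f * cut E s true) T := by
  have e0 : ∀ B ∈ T.powerset, brE E (elem (insert s T) B) (finS_elem _ _) =
      cut E s false * brE E (elem T B) (finS_elem _ _) := by
    intro B hB
    rw [cut, brE_mul]
    refine brE_congr _ _ (funext fun t => ?_)
    by_cases ht : t = s
    · subst ht
      have : t ∉ B := fun h => hs (Finset.mem_powerset.1 hB h)
      simp [elem, half, hs, this]
    · simp [elem, half, ht]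
  have e1 : ∀ B ∈ T.powerset, brE E (elem (insert s T) (insert s B)) (finS_elem _ _) =
      cut E s true * brE E (elem T B) (finS_elem _ _) := by
    intro B _
    rw [cut, brE_mul]
    refine brE_congr _ _ (funext fun t => ?_)
    by_cases ht : t = s
    · subst ht
      simp [elem, half, hs]
    · by_cases h1 : t ∈ T <;> by_cases h2 : t ∈ B <;> simp [elem, half, ht, h1, h2]
  unfold el
  rw [Finset.powerset_insert, Finset.image_union, Finset.image_image]
  congr 1
  · exact Finset.image_congr fun B hB => by simp only [e0 B hB, mul_assoc]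
  · exact Finset.image_congr fun B hB => by simp only [comp, e1 B hB, mul_assoc]


theorem sub_el (f : EM E S) (T : Finset S) : Sub (mk f) (el f T) := by
  classical
  induction T using Finset.induction_on generalizing f with
  | empty => rw [el_empty]; exact Sub.refl _
  | insert s T hs ih => rw [el_insert hs]; exact Sub.node ⟨f, s, rfl, rfl, rfl⟩ (ih _) (ih _)


theorem card_el (f : EM E S) (T : Finset S) : (el f T).card = 2 ^ T.card := by
  classical
  induction T using Finset.induction_on generalizing f with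
  | empty => rw [el_empty]; simp
  | insert s T hs ih =>
    rw [el_insert hs, Finset.card_union_of_disjoint (Cut.disjoint_sub ⟨f, s, rfl, rfl, rfl⟩
      (sub_el _ _) (sub_el _ _)), ih, ih, Finset.card_insert_of_notMem hs, pow_succ]
    omega


/-- the core lemma: induction on `T`, generalising `f` and `q` -/
theorem Sub.el_sub (h : Sub (mk f) q) (hT : (T : Set S) ⊆ dirs f q) (hc : c ∈ el f T) :
    Sub c (res q c) := by
  classical
  induction T using Finset.induction_on generalizing f q with
  | empty =>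
    rw [el_empty, Finset.mem_singleton] at hc
    subst hc
    rw [h.res_eq h.dj le_rfl]; exact h
  | insert s T hs ih =>
    have : ∃ b, c ∈ el (f * cut E s b) T := by
      rw [el_insert hs, Finset.mem_union] at hc
      exact hc.elim (fun h => ⟨_, h⟩) fun h => ⟨_, h⟩
    obtain ⟨b, hb⟩ := this
    have k := ih (h.cut_half (hT (by simp)) b)
      (fun t ht => dirs_mul_cut (hT (by simp [Finset.mem_coe.1 ht]))
        (fun e : s = t => hs (e ▸ Finset.mem_coe.1 ht)) b) hb
    rw [k.res_eq h.dj fun c hc => (mem_res.1 (mem_res.1 hc).1).1]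
    exact k


theorem dirs_el (f : EM E S) (T : Finset S) : dirs f (el f T) = T := by
  classical
  ext s
  constructor
  · intro h
    by_contra hs
    obtain ⟨b, hb⟩ := h _ (Finset.mem_image_of_mem _ (Finset.empty_mem_powerset T))
    have := hb (a := fn f (br (elem T ∅) fun _ _ => !b)) (mem_supp_br.2 ⟨_, rfl⟩)
    rw [mem_supp_cut] at this
    simp only [br, elem, if_neg (show s ∉ T from hs), pre] at this
    cases b <;> simp at this
  · intro hs c hc
    obtain ⟨B, -, rfl⟩ := Finset.mem_image.1 hc
    refine ⟨decide (s ∈ B), fun κ hκ => ?_⟩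
    obtain ⟨x, rfl⟩ := exists_of_mem_supp hκ
    obtain ⟨y, rfl⟩ := mem_supp_br.1 hκ
    rw [mem_supp_cut]
    simp only [br, elem, if_pos (show s ∈ T from hs), pre_cons_zero]


theorem dirs_mono (h : ∀ c' ∈ q', ∃ c ∈ q, supp c' ⊆ supp c) : dirs f q ⊆ dirs f q' := by
  intro s hs c' hc'
  obtain ⟨c, hc, h1⟩ := h c' hc'
  obtain ⟨b, hb⟩ := hs c hc
  exact ⟨b, h1.trans hb⟩


theorem Sub.dirs_nonempty (h : Sub (mk f) q) (hq : q ≠ {mk f}) : (dirs f q).Nonempty := by
  generalize ha : mk f = a at h hq
  cases h with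
  | refl => exact absurd rfl hq
  | node hc h₀ h₁ =>
    subst ha
    obtain ⟨s, rfl, rfl⟩ := hc.exists_dir
    refine ⟨s, fun c hc => ?_⟩
    rcases Finset.mem_union.1 hc with hc | hc
    · exact ⟨_, h₀.supp_subset hc⟩
    · exact ⟨_, h₁.supp_subset hc⟩


/-- The atoms of a guillotine partition are bricks in fewer than `q.card` directions of depth
less than `q.card`. -/
theorem Sub.exists_addr (h : Sub (mk f) q) : ∃ T : Finset S, T.card < q.card ∧ ∀ c ∈ q,
    ∃ (ψ : S → List Bool) (hψ : FinS ψ), c = mk (f * brE E ψ hψ) ∧ (∀ s, s ∉ T → ψ s = []) ∧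
      ∀ s, (ψ s).length < q.card := by
  classical
  generalize ha : mk f = a at h
  induction h generalizing f with
  | refl a =>
    subst ha
    refine ⟨∅, by simp, fun c hc => ⟨fun _ => [], finS_nil, ?_, fun _ _ => rfl, by simp⟩⟩
    rw [brE_nil, mul_one]; simpa using hc
  | @node a a₀ a₁ q₀ q₁ hc h₀ h₁ ih₀ ih₁ =>
    subst ha
    rw [Finset.card_union_of_disjoint (hc.disjoint_sub h₀ h₁)]
    obtain ⟨s, rfl, rfl⟩ := hc.exists_dir
    obtain ⟨T₀, a₀, b₀⟩ := ih₀ rfl
    obtain ⟨T₁, a₁, b₁⟩ := ih₁ rfl
    have hl : ∀ b t, (half s b t).length ≤ 1 := by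
      intro b t; unfold half; split_ifs <;> simp
    refine ⟨insert s (T₀ ∪ T₁), ?_, fun c hc => ?_⟩
    · have := Finset.card_insert_le s (T₀ ∪ T₁)
      have := Finset.card_union_le T₀ T₁
      omega
    · rcases Finset.mem_union.1 hc with hc | hc
      · obtain ⟨ψ, hψ, rfl, k1, k2⟩ := b₀ c hc
        refine ⟨_, (finS_half s false).append hψ, by rw [mul_assoc, cut, brE_mul], ?_, ?_⟩
        · intro t ht
          simp only [Finset.mem_insert, Finset.mem_union, not_or] at ht
          simp [half, ht.1, k1 t ht.2.1]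
        · intro t
          have := hl false t
          have := k2 t
          simp only [List.length_append]; omega
      · obtain ⟨ψ, hψ, rfl, k1, k2⟩ := b₁ c hc
        refine ⟨_, (finS_half s true).append hψ, by rw [mul_assoc, cut, brE_mul], ?_, ?_⟩
        · intro t ht
          simp only [Finset.mem_insert, Finset.mem_union, not_or] at ht
          simp [half, ht.1, k1 t ht.2.2]
        · intro t
          have := hl true t
          have := k2 t
          simp only [List.length_append]; omega


theorem Sub.dirs_finite (h : Sub (mk f) q) : (dirs f q).Finite := by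
  obtain ⟨T, -, hT⟩ := h.exists_addr
  obtain ⟨c, hc⟩ := h.nonempty
  obtain ⟨ψ, hψ, rfl, k1, -⟩ := hT c hc
  refine T.finite_toSet.subset fun s hs => ?_
  by_contra hn
  obtain ⟨b, hb⟩ := hs _ hc
  have := hb (a := fn f (br ψ fun _ _ => !b)) (mem_supp_br.2 ⟨_, rfl⟩)
  rw [mem_supp_cut] at this
  simp only [br, k1 s hn, pre] at this
  cases b <;> simp at this


/-- `T` = the set of all directions used.  For a cut along `s`: if `g` fixes all atoms then it
preserves the support of each half, hence `γ • s = s`; then `g * (f * cut s b) =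
(f * cut s b) * twE γ`. -/
theorem Sub.exists_fix (h : Sub (mk f) q) : ∃ T : Finset S, ∀ (γ : E) (g : EM E S),
    g * f = f * twE S γ → ((∀ c ∈ q, g • c = c) ↔ ∀ s ∈ T, γ • s = s) := by
  classical
  generalize ha : mk f = a at h
  induction h generalizing f with
  | refl a =>
    subst ha
    refine ⟨∅, fun γ g hg => ?_⟩
    simp [smul_mk, hg, mk_mul_twE]
  | @node a a₀ a₁ q₀ q₁ hc h₀ h₁ ih₀ ih₁ =>
    subst ha
    obtain ⟨s, rfl, rfl⟩ := hc.exists_dir
    obtain ⟨T₀, a₀⟩ := ih₀ rfl
    obtain ⟨T₁, a₁⟩ := ih₁ rfl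
    refine ⟨insert s (T₀ ∪ T₁), fun γ g hg => ?_⟩
    have e : ∀ b, g * (f * cut E s b) = f * cut E (γ • s) b * twE S γ := fun b => by
      rw [← mul_assoc, hg, mul_assoc, twE_mul_cut, mul_assoc]
    simp only [Finset.mem_insert, Finset.mem_union, or_imp, forall_and, forall_eq]
    constructor
    · rintro ⟨k₀, k₁⟩
      have hs : γ • s = s := by
        by_contra hn
        have hx : fn f (fun t _ => decide (t = γ • s)) ∈ supp (mk (f * cut E s false)) := by
          rw [mem_supp_cut]; simpa using fun h => hn h.symm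
        obtain ⟨c, hc, hκ⟩ := h₀.cover hx
        rw [← k₀ c hc, supp_smul] at hκ
        have := image_mono (f := fn g) (h₀.supp_subset hc) hκ
        rw [← supp_smul, smul_mk, e, mk_mul_twE, mem_supp_cut] at this
        simp at this
      rw [hs] at e
      exact ⟨hs, (a₀ γ g (e _)).1 k₀, (a₁ γ g (e _)).1 k₁⟩
    · rintro ⟨hs, k₀, k₁⟩
      rw [hs] at e
      exact ⟨(a₀ γ g (e _)).2 k₀, (a₁ γ g (e _)).2 k₁⟩


end Crest.Agent.R185.V
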