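import Crest.Agent.R185.V2

/-!
# R185 TASK V3: gluing, directedness
-/

set_option autoImplicit false

namespace Crest.Agent.R185.V

open Set Function

variable {E S : Type} [Group E] [MulAction E S]

/-- glue fine injections along two families with disjoint ranges (`Fine.of_cover`) -/
theorem exists_glue_em {ι : Type} {f f' : ι → EM E S} {U : Set (Cu S)} (hf : PFam f univ)
    (hf' : PFam f' U) : ∃ g : EM E S, (∀ i, g * f i = f' i) ∧ range (fn g) = U := by
  have : ∀ κ : Cu S, ∃ i x, fn (f i) x = κ := fun κ => by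
    have : κ ∈ ⋃ i, range (fn (f i)) := by rw [hf.2]; trivial
    exact mem_iUnion.1 this
  choose I X hX using this
  let G : Cu S → Cu S := fun κ => fn (f' (I κ)) (X κ)
  have hG : ∀ i, G ∘ fn (f i) = fn (f' i) := by
    intro i
    funext x
    have h1 := hX (fn (f i) x)
    have h2 : I (fn (f i) x) = i := by
      by_contra hn
      exact Set.disjoint_left.1 (hf.1 _ _ hn) ⟨_, h1⟩ ⟨x, rfl⟩
    show fn (f' (I (fn (f i) x))) (X (fn (f i) x)) = fn (f' i) x
    rw [h2] at h1 ⊢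
    rw [fn_injective _ h1]
  have hinj : Injective G := by
    intro κ κ' h
    have h2 : I κ = I κ' := by
      by_contra hn
      exact Set.disjoint_left.1 (hf'.1 _ _ hn) ⟨_, h⟩ ⟨_, rfl⟩
    simp only [G] at h
    rw [← hX κ, ← hX κ']
    rw [h2] at h ⊢
    rw [fn_injective _ h]
  refine ⟨⟨G, hinj, Fine.of_cover (fun i => fn (f i)) (fun i => fn_fine _)
    (fun κ => ⟨I κ, X κ, hX κ⟩) fun i => by rw [hG]; exact fn_fine _⟩, fun i => EM.ext (hG i), ?_⟩
  rw [← hf'.2]
  ext κ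
  simp only [mem_iUnion]
  constructor
  · rintro ⟨κ', rfl⟩
    exact ⟨I κ', X κ', rfl⟩
  · rintro ⟨i, x, rfl⟩
    exact ⟨fn (f i) x, congrFun (hG i) x⟩


theorem exists_glue {ι : Type} {f f' : ι → EM E S} (hf : PFam f univ) (hf' : PFam f' univ) :
    ∃ g : SV E S, ∀ i, toEM g * f i = f' i := by
  obtain ⟨g, h1, h2⟩ := exists_glue_em hf hf'
  exact ⟨⟨Equiv.ofBijective (fn g) ⟨fn_injective g, range_eq_univ.1 h2⟩, fn_fine g⟩, h1⟩


theorem eq_of_pfam {ι : Type} {f : ι → EM E S} (hf : PFam f univ) {g g' : EM E S}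
    (h : ∀ i, g * f i = g' * f i) : g = g' := by
  refine EM.ext (funext fun κ => ?_)
  have : κ ∈ ⋃ i, range (fn (f i)) := by rw [hf.2]; trivial
  obtain ⟨i, x, rfl⟩ := mem_iUnion.1 this
  exact congrFun (congrArg fn (h i)) x


theorem pfam_cut (s : S) : PFam (fun b => cut E s b) (univ : Set (Cu S)) := by
  refine ⟨fun b b' h => Set.disjoint_left.2 fun κ h1 h2 => ?_, eq_univ_of_forall fun κ => ?_⟩
  · exact h ((mem_range_half.1 h1).symm.trans (mem_range_half.1 h2))
  · exact mem_iUnion.2 ⟨κ s 0, mem_range_half.2 rfl⟩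


theorem PFam.mul_left {ι : Type} {f : ι → EM E S} {U : Set (Cu S)} (hf : PFam f U) (g : EM E S) :
    PFam (fun i => g * f i) (fn g '' U) := by
  refine ⟨fun i j h => ?_, ?_⟩
  · simp only [fn_mul, range_comp]
    exact disjoint_image_of_injective (fn_injective g) (hf.1 i j h)
  · simp only [fn_mul, range_comp]
    rw [← image_iUnion, hf.2]


theorem PFam.mul_twE {ι : Type} {f : ι → EM E S} {U : Set (Cu S)} (hf : PFam f U) (γ : ι → E) :
    PFam (fun i => f i * twE S (γ i)) U := by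
  have : ∀ i, range (fn (f i * twE S (γ i))) = range (fn (f i)) := fun i => by
    rw [← supp_mk, mk_mul_twE, supp_mk]
  unfold PFam
  simp only [this]
  exact hf


theorem Part.pfam {v : Finset (At E S)} (hv : Part v) {f : v → EM E S} (hf : ∀ a, mk (f a) = a) :
    PFam f univ := by
  have : ∀ a, range (fn (f a)) = supp a.1 := fun a => by rw [← supp_mk, hf]
  unfold PFam
  simp only [this]
  refine ⟨fun a b h => hv.1 a a.2 b b.2 fun e => h (Subtype.ext e), eq_univ_of_forall fun κ => ?_⟩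
  obtain ⟨a, ha, h⟩ := hv.2 κ
  exact mem_iUnion.2 ⟨⟨a, ha⟩, h⟩


theorem pfam_grid (F : Finset S) (m : ℕ) :
    PFam (fun ψ : {ψ // IsGrid F m ψ} => brE E ψ.1 ψ.2.finS) (univ : Set (Cu S)) := by
  refine ⟨fun ψ ψ' h => Set.disjoint_left.2 fun κ h1 h2 => ?_, eq_univ_of_forall fun κ => ?_⟩
  · exact h (Subtype.ext ((existsUnique_grid F m κ).unique ⟨ψ.2, h1⟩ ⟨ψ'.2, h2⟩))
  · obtain ⟨ψ, h1, h2⟩ := (existsUnique_grid F m κ).exists
    exact mem_iUnion.2 ⟨⟨ψ, h1⟩, h2⟩


/-- two atoms with disjoint supports can be merged -/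
theorem exists_merge (s : S) {c₀ c₁ : At E S} (h : Disjoint (supp c₀) (supp c₁)) :
    ∃ a, Cut a c₀ c₁ := by
  obtain ⟨g, hg, -⟩ := exists_glue_em (pfam_cut (E := E) s)
    (f' := fun b => cond b (rep c₁) (rep c₀)) ⟨by
      intro b b' hb
      cases b <;> cases b'
      · exact absurd rfl hb
      · exact h
      · exact h.symm
      · exact absurd rfl hb, rfl⟩
  exact ⟨mk g, g, s, rfl, by rw [hg]; exact (mk_rep _).symm, by rw [hg]; exact (mk_rep _).symm⟩


/-- every atom can be cut into `n + 1` pieces -/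
theorem exists_sub_card (s : S) (a : At E S) (n : ℕ) : ∃ q, Sub a q ∧ q.card = n + 1 := by
  induction n generalizing a with
  | zero => exact ⟨{a}, Sub.refl a, by simp⟩
  | succ n ih =>
    have hc : Cut a _ _ := ⟨rep a, s, (mk_rep a).symm, rfl, rfl⟩
    obtain ⟨q, h1, h2⟩ := ih (mk (rep a * cut E s false))
    refine ⟨_, Sub.node hc h1 (Sub.refl _), ?_⟩
    rw [Finset.card_union_of_disjoint (hc.disjoint_sub h1 (Sub.refl _)), h2]; simp


theorem part_one : Part ({mk 1} : Finset (At E S)) := by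
  refine ⟨fun a ha b hb h => ?_, fun κ => ⟨mk 1, by simp, by rw [supp_mk]; exact ⟨κ, rfl⟩⟩⟩
  rw [Finset.mem_singleton] at ha hb
  exact absurd (ha.trans hb.symm) h


/-- A brick is cut into the grid cells it contains (induction on
`∑ s ∈ F, (m - (ψ₀ s).length)`). -/
theorem sub_grid (f : EM E S) (F : Finset S) (m : ℕ) (ψ₀ : S → List Bool) (h₀ : FinS ψ₀)
    (hF : ∀ s, s ∉ F → ψ₀ s = []) (hm : ∀ s, (ψ₀ s).length ≤ m) :
    ∃ q, Sub (mk (f * brE E ψ₀ h₀)) q ∧ ∀ c, c ∈ q ↔ ∃ (ψ : S → List Bool) (hψ : IsGrid F m ψ),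
      (∀ s, ψ₀ s <+: ψ s) ∧ c = mk (f * brE E ψ hψ.finS) := by
  generalize hN : ∑ s ∈ F, (m - (ψ₀ s).length) = N
  induction N using Nat.strong_induction_on generalizing ψ₀ with
  | _ N ih =>
    by_cases h : ∀ s ∈ F, (ψ₀ s).length = m
    · refine ⟨_, Sub.refl _, fun c => ?_⟩
      rw [Finset.mem_singleton]
      constructor
      · rintro rfl
        exact ⟨ψ₀, ⟨h, hF⟩, fun s => List.prefix_rfl, rfl⟩
      · rintro ⟨ψ, hψ, hp, rfl⟩
        have : ψ = ψ₀ := by
          funext s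
          by_cases hs : s ∈ F
          · exact ((hp s).eq_of_length (by rw [h s hs, hψ.1 s hs])).symm
          · rw [hψ.2 s hs, hF s hs]
        subst this; rfl
    · push Not at h
      obtain ⟨s, hs, hl⟩ := h
      have hl' : (ψ₀ s).length < m := lt_of_le_of_ne (hm s) hl
      have e1 : ∀ b, half s b s = [b] := fun b => if_pos rfl
      have e2 : ∀ b t, t ≠ s → half s b t = [] := fun b t ht => if_neg ht
      have key : ∀ b, ∃ q, Sub (mk (f * brE E ψ₀ h₀ * cut E s b)) q ∧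
          ∀ c, c ∈ q ↔ ∃ (ψ : S → List Bool) (hψ : IsGrid F m ψ),
            (∀ t, ψ₀ t ++ half s b t <+: ψ t) ∧ c = mk (f * brE E ψ hψ.finS) := by
        intro b
        rw [mul_assoc, cut, brE_mul]
        refine ih _ ?_ _ _ ?_ ?_ rfl
        · rw [← hN]
          refine Finset.sum_lt_sum (fun t _ => by simp only [List.length_append]; omega)
            ⟨s, hs, ?_⟩
          simp only [List.length_append, e1, List.length_singleton]; omega
        · intro t ht
          rw [hF t ht, e2 b t fun e => ht (e ▸ hs)]; rfl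
        · intro t
          by_cases ht : t = s
          · subst ht; simp only [List.length_append, e1, List.length_singleton]; omega
          · rw [e2 b t ht, List.append_nil]; exact hm t
      obtain ⟨q₀, a₀, b₀⟩ := key false
      obtain ⟨q₁, a₁, b₁⟩ := key true
      refine ⟨_, Sub.node ⟨_, s, rfl, rfl, rfl⟩ a₀ a₁, fun c => ?_⟩
      rw [Finset.mem_union, b₀, b₁]
      constructor
      · rintro (⟨ψ, hψ, hp, rfl⟩ | ⟨ψ, hψ, hp, rfl⟩) <;>
          exact ⟨ψ, hψ, fun t => (List.prefix_append _ _).trans (hp t), rfl⟩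
      · rintro ⟨ψ, hψ, hp, rfl⟩
        obtain ⟨r, hr⟩ := hp s
        cases r with
        | nil =>
          rw [List.append_nil] at hr
          exact absurd (by rw [hr, hψ.1 s hs]) hl
        | cons b r =>
          have : ∀ t, ψ₀ t ++ half s b t <+: ψ t := by
            intro t
            by_cases ht : t = s
            · subst ht; exact ⟨r, by rw [e1, ← hr]; simp⟩
            · rw [e2 b t ht, List.append_nil]; exact hp t
          cases b
          · exact Or.inl ⟨ψ, hψ, this, rfl⟩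
          · exact Or.inr ⟨ψ, hψ, this, rfl⟩


/-- Cut every atom along a fine grid (`Fine.uniform`, `sub_grid` with `ψ₀ = []`): all atoms become
bricks `mk (brE ψ')`; cut these into the cells of a fine grid. -/
theorem exists_grid_above (v : Vx E S) : ∃ (F : Finset S) (m : ℕ), ∀ (F' : Finset S) (m' : ℕ),
    F ⊆ F' → m ≤ m' → ∃ w : Vx E S, v ≤ w ∧ ∀ c, c ∈ w.1 ↔
      ∃ (ψ : S → List Bool) (hψ : IsGrid F' m' ψ), c = mk (brE E ψ hψ.finS) := by
  classical
  have h1 : ∀ a : At E S, ∃ q, Sub a q ∧ ∀ c ∈ q, ∃ (ψ : S → List Bool) (h : FinS ψ),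
      c = mk (brE E ψ h) := by
    intro a
    obtain ⟨F, m, hF⟩ := (fn_fine (rep a)).uniform
    obtain ⟨q, k1, k2⟩ := sub_grid (rep a) F m (fun _ => []) finS_nil (fun _ _ => rfl) (by simp)
    rw [brE_nil, mul_one, mk_rep] at k1
    refine ⟨q, k1, fun c hc => ?_⟩
    obtain ⟨ψ, hψ, -, rfl⟩ := (k2 c).1 hc
    obtain ⟨φ, γ, hφ, e⟩ := hF F m le_rfl le_rfl ψ hψ
    exact ⟨φ, hφ, by rw [← mk_mul_twE (f := brE E φ hφ) γ]; exact congrArg mk (EM.ext e)⟩
  choose q hq hq' using h1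
  obtain ⟨p1, l1, -⟩ := v.2.biUnion (r := q) fun a _ => hq a
  have h2 : ∀ c : At E S, ∃ (ψ : S → List Bool) (h : FinS ψ),
      c ∈ v.1.biUnion q → c = mk (brE E ψ h) := by
    intro c
    by_cases hc : c ∈ v.1.biUnion q
    · obtain ⟨a, -, ha⟩ := Finset.mem_biUnion.1 hc
      obtain ⟨ψ, h, e⟩ := hq' a c ha
      exact ⟨ψ, h, fun _ => e⟩
    · exact ⟨fun _ => [], finS_nil, fun h => absurd h hc⟩
  choose φ hφ e using h2
  choose F m hF hm using fun c => (hφ c).exists_bound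
  refine ⟨(v.1.biUnion q).biUnion F, (v.1.biUnion q).sup m, fun F' m' k1 k2 => ?_⟩
  have hF' : ∀ c ∈ v.1.biUnion q, ∀ s, s ∉ F' → φ c s = [] := fun c hc s hs =>
    hF c s fun h => hs (k1 (Finset.mem_biUnion.2 ⟨c, hc, h⟩))
  have hm' : ∀ c ∈ v.1.biUnion q, ∀ s, (φ c s).length ≤ m' := fun c hc s =>
    (hm c s).trans ((Finset.le_sup (f := m) hc).trans k2)
  have h3 : ∀ c ∈ v.1.biUnion q, ∃ r, Sub c r ∧ ∀ c', c' ∈ r ↔
      ∃ (ψ : S → List Bool) (hψ : IsGrid F' m' ψ),
        (∀ s, φ c s <+: ψ s) ∧ c' = mk (brE E ψ hψ.finS) := by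
    intro c hc
    have := sub_grid (1 : EM E S) F' m' (φ c) (hφ c) (hF' c hc) (hm' c hc)
    simp only [one_mul] at this
    rwa [← e c hc] at this
  choose! r hr hr' using h3
  obtain ⟨p2, l2, -⟩ := p1.biUnion hr
  refine ⟨⟨_, p2⟩, Le.trans p1 p2 l1 l2, fun c => ?_⟩
  constructor
  · intro hc
    obtain ⟨a, ha, hc⟩ := Finset.mem_biUnion.1 hc
    obtain ⟨ψ, hψ, -, e⟩ := (hr' a ha c).1 hc
    exact ⟨ψ, hψ, e⟩
  · rintro ⟨ψ, hψ, rfl⟩
    obtain ⟨a, ha, hκ⟩ := p1.2 (br ψ fun _ _ => false)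
    rw [e a ha, supp_mk] at hκ
    exact Finset.mem_biUnion.2 ⟨a, ha, (hr' a ha _).2
      ⟨ψ, hψ, hψ.prefix_of_mem (hF' a ha) (hm' a ha) hκ ⟨_, rfl⟩, rfl⟩⟩


theorem exists_ub (u v : Vx E S) : ∃ w, u ≤ w ∧ v ≤ w := by
  classical
  obtain ⟨F, m, h⟩ := exists_grid_above u
  obtain ⟨F', m', h'⟩ := exists_grid_above v
  obtain ⟨w, a, b⟩ := h (F ∪ F') (max m m') Finset.subset_union_left (le_max_left _ _)
  obtain ⟨w', a', b'⟩ := h' (F ∪ F') (max m m') Finset.subset_union_right (le_max_right _ _)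
  have : w' = w := Subtype.ext (Finset.ext fun c => (b' c).trans (b c).symm)
  exact ⟨w, a, this ▸ a'⟩


end Crest.Agent.R185.V
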