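import Crest.Agent.R185.ABrown
import Crest.Agent.R185.V3

/-!
# R185 TASK V4: cocompactness and stabilisers
-/

set_option autoImplicit false

namespace Crest.Agent.R185.V

open Set Function

variable {E S : Type} [Group E] [MulAction E S]

theorem Vx.card_smul (g : SV E S) (v : Vx E S) : (g • v).1.card = v.1.card := by
  exact Finset.card_image_of_injective _ (smul_injective _)

theorem Vx.card_lt {u v : Vx E S} (h : u < v) : u.1.card < v.1.card := by
  exact lt_of_le_of_ne (Le.card_le u.2 v.2 h.le) fun e =>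
    h.ne (Subtype.ext (Le.eq_of_card_le u.2 v.2 h.le e.ge))

theorem v4_toEM_inj : Injective (toEM (E := E) (S := S)) := fun _ _ h =>
  Subtype.ext (Equiv.ext fun x => congrFun (congrArg fn h) x)

theorem v4_min {σ : Finset (Vx E S)} (hne : σ.Nonempty)
    (hc : IsChain (· ≤ ·) (σ : Set (Vx E S))) : ∃ u ∈ σ, ∀ p ∈ σ, u ≤ p := by
  obtain ⟨u, hu, h⟩ := σ.exists_min_image (fun p => p.1.card) hne
  refine ⟨u, hu, fun p hp => ?_⟩
  rcases hc.total (Finset.mem_coe.2 hu) (Finset.mem_coe.2 hp) with h' | h'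
  · exact h'
  · rcases h'.lt_or_eq with h'' | h''
    · exact absurd (Vx.card_lt h'') (not_lt.2 (h p hp))
    · exact h''.ge

theorem v4_max {σ : Finset (Vx E S)} (hne : σ.Nonempty)
    (hc : IsChain (· ≤ ·) (σ : Set (Vx E S))) : ∃ w ∈ σ, ∀ p ∈ σ, p ≤ w := by
  obtain ⟨u, hu, h⟩ := σ.exists_max_image (fun p => p.1.card) hne
  refine ⟨u, hu, fun p hp => ?_⟩
  rcases hc.total (Finset.mem_coe.2 hu) (Finset.mem_coe.2 hp) with h' | h'
  · rcases h'.lt_or_eq with h'' | h''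
    · exact absurd (Vx.card_lt h'') (not_lt.2 (h p hp))
    · exact h''.ge
  · exact h'

theorem v4_pfam_equiv {ι κ : Type} {f : ι → EM E S} {U : Set (Cu S)} (hf : PFam f U) (e : κ ≃ ι) :
    PFam (fun k => f (e k)) U :=
  ⟨fun _ _ h => hf.1 _ _ fun h' => h (e.injective h'),
    (e.surjective.iUnion_comp fun i => range (fn (f i))).trans hf.2⟩

theorem v4_twE_mul_brE (γ : E) {ψ : S → List Bool} (h : FinS ψ) :
    twE S γ * brE E ψ h = brE E (fun s => ψ (γ⁻¹ • s)) (h.smul γ) * twE S γ :=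
  EM.ext (tw_comp_br γ)

theorem v4_fin_addr (T₀ : Finset S) (m : ℕ) :
    {ψ : S → List Bool | (∀ s, s ∉ T₀ → ψ s = []) ∧ ∀ s, (ψ s).length < m}.Finite := by
  refine Finite.of_finite_image (f := fun ψ (s : T₀) => ψ s.1) ?_ ?_
  · refine (Finite.pi' fun _ : T₀ => List.finite_length_lt Bool m).subset ?_
    rintro _ ⟨ψ, hψ, rfl⟩ s
    exact hψ.2 s.1
  · intro ψ hψ ψ' hψ' e
    funext s
    by_cases hs : s ∈ T₀
    · exact congrFun e ⟨s, hs⟩
    · rw [hψ.1 s hs, hψ'.1 s hs]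

theorem v4_move (htr : ∀ (n : ℕ) (a b : Fin n ↪ S), ∃ g : E, ∀ i, g • a i = b i)
    {T T₀ : Finset S} (h : T.card ≤ T₀.card) : ∃ δ : E, ∀ t ∈ T, δ • t ∈ T₀ := by
  obtain ⟨g, hg⟩ := htr T.card
    (T.equivFin.symm.toEmbedding.trans (Embedding.subtype _))
    (((Fin.castLEEmb h).trans T₀.equivFin.symm.toEmbedding).trans (Embedding.subtype _))
  refine ⟨g, fun t ht => ?_⟩
  have := hg (T.equivFin ⟨t, ht⟩)
  simp only [Embedding.trans_apply, Equiv.coe_toEmbedding, Equiv.symm_apply_apply,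
    Embedding.coe_subtype] at this
  rw [this]
  exact Finset.coe_mem _

theorem v4_prefix {f : EM E S} {ψ ψ' : S → List Bool} {hψ : FinS ψ} {hψ' : FinS ψ'}
    (h : supp (mk (f * brE E ψ' hψ')) ⊆ supp (mk (f * brE E ψ hψ))) (s : S) : ψ s <+: ψ' s := by
  rw [supp_mk, supp_mk, fn_mul, fn_mul, range_comp, range_comp,
    image_subset_image_iff (fn_injective f)] at h
  exact range_br_subset.1 h s

theorem v4_res_card (v : Finset (At E S)) (a : At E S) : (res v a).card ≤ v.card :=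
  Finset.card_le_card fun _ h => (mem_res.1 h).1

theorem v4_fin_vx {A : Set (At E S)} (hA : A.Finite) : {v : Vx E S | ∀ c ∈ v.1, c ∈ A}.Finite := by
  refine Finite.of_finite_image (f := fun v : Vx E S => v.1) ?_ Subtype.val_injective.injOn
  refine hA.toFinset.powerset.finite_toSet.subset ?_
  rintro _ ⟨v, hv, rfl⟩
  exact Finset.mem_coe.2 (Finset.mem_powerset.2 fun c hc => hA.mem_toFinset.2 (hv c hc))

/-- For every `n < m` that occurs fix a vertex `u n` with `n` atoms and fix `T₀ ⊆ S` with `m`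
elements; `B` is the finite set of vertices all of whose atoms are `mk (rep a * brE ψ)` with
`a ∈ u n`, `n < m`, `ψ` supported in `T₀` with lengths `< m`.  Let `u ≤ w` be the least and the
largest element of a chain.  For `a ∈ u` take `T a` from `Sub.exists_addr` for `res w a` and
`γ a` with `γ a • T₀ ⊇ T a` (`htr`), and let `g` (`exists_glue`) send `rep (e a)` to
`rep a * twE (γ a)` for a bijection `e : u ≃ u n`.  An atom `c` of an intermediate `p` is
`mk (rep a * brE ψ)` (`exists_addr` for `res p a`) and contains an atom of `w`, so `ψ` is a prefix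
of an address of `w` (`range_br_subset`). -/
theorem cocompact [Infinite S]
    (htr : ∀ (n : ℕ) (a b : Fin n ↪ S), ∃ g : E, ∀ i, g • a i = b i) (m : ℕ) :
    ∃ B : Finset (Vx E S), ∀ σ ∈ Ch {v : Vx E S | v.1.card < m}, (NB (SV E S) B σ).Nonempty := by
  have : Nonempty (Vx E S) := ⟨⟨_, part_one⟩⟩
  choose! U hU using fun (n : ℕ) (h : ∃ u : Vx E S, u.1.card = n) => h
  obtain ⟨T₀, hT₀⟩ := Infinite.exists_subset_card_eq S m
  let A : Set (At E S) := ⋃ n ∈ Iio m, ⋃ a ∈ (U n).1,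
    ⋃ ψ ∈ {ψ : S → List Bool | (∀ s, s ∉ T₀ → ψ s = []) ∧ ∀ s, (ψ s).length < m},
      {c | ∃ hψ : FinS ψ, c = mk (rep a * brE E ψ hψ)}
  have hA : A.Finite := by
    refine (finite_Iio m).biUnion fun n _ => (U n).1.finite_toSet.biUnion fun a _ =>
      (v4_fin_addr T₀ m).biUnion fun ψ _ => Set.Subsingleton.finite ?_
    rintro _ ⟨_, rfl⟩ _ ⟨_, rfl⟩
    rfl
  refine ⟨(v4_fin_vx hA).toFinset, fun σ hσ => ?_⟩
  obtain ⟨u, hu, hu'⟩ := v4_min hσ.1 hσ.2.2
  obtain ⟨w, hw, hw'⟩ := v4_max hσ.1 hσ.2.2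
  have hcard : ∀ p ∈ σ, p.1.card < m := fun p hp => hσ.2.1 hp
  have hsub : ∀ p ∈ σ, ∀ a ∈ u.1, Sub (mk (rep a)) (res p.1 a) := fun p hp a ha => by
    rw [mk_rep]
    exact hu' p hp a ha
  choose T hT hT' using fun a : u.1 => (hsub w hw a.1 a.2).exists_addr
  choose δ hδ using fun a : u.1 => v4_move htr (T := T a) (T₀ := T₀) (by
    have := hT a
    have := v4_res_card w.1 a.1
    have := hcard w hw
    omega)
  have hUu : (U u.1.card).1.card = u.1.card := hU _ ⟨u, rfl⟩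
  let e : u.1 ≃ (U u.1.card).1 := Finset.equivOfCardEq hUu.symm
  obtain ⟨g, hg⟩ := exists_glue (u.2.pfam (f := fun a => rep a.1) fun a => mk_rep a.1)
    ((v4_pfam_equiv ((U u.1.card).2.pfam (f := fun a => rep a.1) fun a => mk_rep a.1) e).mul_twE δ)
  refine ⟨g⁻¹, fun p hp => ?_⟩
  rw [inv_inv, Finite.mem_toFinset]
  intro c' hc'
  obtain ⟨c, hc, rfl⟩ := Finset.mem_image.1 hc'
  obtain ⟨a, ha, hca⟩ := Le.exists_root u.2 p.2 (hu' p hp) hc
  obtain ⟨T', -, h1⟩ := (hsub p hp a ha).exists_addr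
  obtain ⟨ψ, hψ, rfl, -, h2⟩ := h1 c hca
  obtain ⟨c₁, hc₁⟩ := (hw' p hp _ hc).nonempty
  obtain ⟨ψ', hψ', rfl, h3, -⟩ := hT' ⟨a, ha⟩ c₁
    (mem_res.2 ⟨(mem_res.1 hc₁).1, (mem_res.1 hc₁).2.trans (mem_res.1 hca).2⟩)
  have h4 := v4_prefix (mem_res.1 hc₁).2
  simp only [A, mem_iUnion]
  refine ⟨u.1.card, hcard u hu, (e ⟨a, ha⟩).1, (e ⟨a, ha⟩).2,
    fun s => ψ ((δ ⟨a, ha⟩)⁻¹ • s), ⟨fun s hs => ?_, fun s => ?_⟩, hψ.smul _, ?_⟩
  · have h5 : (δ ⟨a, ha⟩)⁻¹ • s ∉ T ⟨a, ha⟩ := fun h => hs (by simpa using hδ _ _ h)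
    have h6 := h4 ((δ ⟨a, ha⟩)⁻¹ • s)
    rw [h3 _ h5] at h6
    exact List.prefix_nil.1 h6
  · exact (h2 _).trans_le ((v4_res_card _ _).trans (hcard p hp).le)
  · rw [smul_mk, ← mul_assoc, hg ⟨a, ha⟩, mul_assoc, v4_twE_mul_brE, ← mul_assoc, mk_mul_twE]

theorem v4_hom (u : Vx E S) : ∃ Φ : (u.1 → E) →* SV E S,
    ∀ γ (a : u.1), toEM (Φ γ) * rep a.1 = rep a.1 * twE S (γ a) := by
  have hf := u.2.pfam (f := fun a => rep a.1) fun a => mk_rep a.1
  choose g hg using fun γ : u.1 → E => exists_glue hf (hf.mul_twE γ)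
  refine ⟨MonoidHom.mk' g fun γ γ' => v4_toEM_inj (eq_of_pfam hf fun a => ?_), hg⟩
  rw [map_mul, mul_assoc, hg, hg, ← mul_assoc, hg, Pi.mul_apply, map_mul, mul_assoc]

theorem v4_fi (σ : Finset (Vx E S)) : ∃ K : Subgroup (fixingSubgroup (SV E S) (σ : Set (Vx E S))),
    K.FiniteIndex ∧ ∀ g ∈ K, ∀ p ∈ σ, ∀ c ∈ p.1, toEM g.1 • c = c := by
  let G := fixingSubgroup (SV E S) (σ : Set (Vx E S))
  let _ : MulAction G (At E S) := MulAction.compHom _ (toEM.comp G.subtype)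
  refine ⟨⨅ p ∈ σ, ⨅ c ∈ p.1, MulAction.stabilizer G c, ?_, fun g hg p hp c hc => ?_⟩
  · refine Subgroup.finiteIndex_iInf' _ fun p hp => Subgroup.finiteIndex_iInf' _ fun c hc => ⟨?_⟩
    rw [MulAction.index_stabilizer]
    refine (Set.ncard_pos (p.1.finite_toSet.subset ?_)).2 ⟨c, MulAction.mem_orbit_self c⟩ |>.ne'
    rintro _ ⟨g, rfl⟩
    have h1 : g.1 • p = p := (mem_fixingSubgroup_iff _).1 g.2 p hp
    have h2 : toEM g.1 • c ∈ (g.1 • p).1 := Finset.mem_image_of_mem _ hc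
    rw [h1] at h2
    exact h2
  · simp only [Subgroup.mem_iInf] at hg
    exact hg p hp c hc

/-- Let `u` be the least element of `σ`, `T a` (`a ∈ u`) the union over `p ∈ σ` of the sets given by
`Sub.exists_fix` for `res p a`.  `exists_glue` and `eq_of_pfam` give a homomorphism
`Φ : (∀ a : u, fixingSubgroup E (T a)) →* fixingSubgroup (SV E S) σ` with
`toEM (Φ γ) * rep a = rep a * twE (γ a)`; it is injective (`hf`, `smul_eq_of_tw_eq_id`), and its range
contains the kernel of the action on the finite set of all atoms of all `p ∈ σ`.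
`CC.pi`, `CC.of_injective`. -/
theorem cc_stabilizer (hf : ∀ g : E, (∀ s : S, g • s = s) → g = 1) {d : ℕ}
    (hcc : ∀ T : Finset S, CC (fixingSubgroup E (T : Set S)) d) {σ : Finset (Vx E S)}
    (hσ : σ ∈ Ch (univ : Set (Vx E S))) : CC (fixingSubgroup (SV E S) (σ : Set (Vx E S))) d := by
  classical
  obtain ⟨u, hu, hu'⟩ := v4_min hσ.1 hσ.2.2
  have hsub : ∀ p ∈ σ, ∀ a ∈ u.1, Sub (mk (rep a)) (res p.1 a) := fun p hp a ha => by
    rw [mk_rep]
    exact hu' p hp a ha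
  choose! T hT using fun (a : u.1) p hp => (hsub p hp a.1 a.2).exists_fix
  obtain ⟨Φ, hΦ⟩ := v4_hom u
  let H : u.1 → Subgroup E := fun a => fixingSubgroup E ((σ.biUnion (T a) : Finset S) : Set S)
  have hH : ∀ a γ, γ ∈ H a ↔ ∀ p ∈ σ, ∀ s ∈ T a p, γ • s = s := fun a γ => by
    simp only [H, mem_fixingSubgroup_iff, Finset.mem_coe, Finset.mem_biUnion]
    exact ⟨fun h p hp s hs => h s ⟨p, hp, hs⟩, fun h s ⟨p, hp, hs⟩ => h p hp s hs⟩
  let ι : (∀ a, H a) →* (u.1 → E) := MonoidHom.pi fun a => (H a).subtype.comp (Pi.evalMonoidHom _ a)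
  have hι : ∀ γ a, ι γ a = (γ a).1 := fun _ _ => rfl
  have hmem : ∀ γ, (Φ.comp ι) γ ∈ fixingSubgroup (SV E S) (σ : Set (Vx E S)) := fun γ => by
    refine (mem_fixingSubgroup_iff _).2 fun p hp => Subtype.ext ?_
    rw [Vx.smul_val]
    refine (Finset.image_congr fun c hc => ?_).trans Finset.image_id
    obtain ⟨a, ha, hca⟩ := Le.exists_root u.2 p.2 (hu' p hp) hc
    exact (hT ⟨a, ha⟩ p hp _ _ (hΦ (ι γ) ⟨a, ha⟩)).2 ((hH _ _).1 (γ _).2 p hp) c hca
  let Ψ := (Φ.comp ι).codRestrict _ hmem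
  have hinj : Injective Ψ := by
    refine (injective_iff_map_eq_one Ψ).2 fun γ hγ => funext fun a => Subtype.ext ?_
    have h1 : Φ (ι γ) = 1 := congrArg Subtype.val hγ
    have h2 := hΦ (ι γ) a
    rw [h1, map_one, one_mul] at h2
    refine hf _ (smul_eq_of_tw_eq_id (funext fun x => fn_injective (rep a.1) ?_))
    exact (congrFun (congrArg fn h2) x).symm
  obtain ⟨K, hK, hK'⟩ := v4_fi σ
  have : Ψ.range.FiniteIndex := by
    refine Subgroup.finiteIndex_of_le (H := K) fun g hg => ?_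
    have h1 : ∀ a : u.1, ∃ γ : E, toEM g.1 * rep a.1 = rep a.1 * twE S γ := fun a => by
      refine mk_eq_mk.1 ?_
      rw [← smul_mk, mk_rep, hK' g hg u hu a.1 a.2]
    choose γ hγ using h1
    refine ⟨fun a => ⟨γ a, (hH _ _).2 fun p hp => (hT a p hp _ _ (hγ a)).1
      fun c hc => hK' g hg p hp c (mem_res.1 hc).1⟩, Subtype.ext (v4_toEM_inj ?_)⟩
    refine eq_of_pfam (u.2.pfam (f := fun a => rep a.1) fun a => mk_rep a.1) fun a => ?_
    exact (hΦ _ a).trans (hγ a).symm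
  exact CC.of_injective Ψ hinj (CC.pi fun a => hcc _)

end Crest.Agent.R185.V
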