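import Crest.Agent.R185.APos
import Crest.Agent.R185.V3

/-!
# R185 TASK V5: the lower part of descending links
-/

set_option autoImplicit false

namespace Crest.Agent.R185.V

open Set Function

variable {E S : Type} [Group E] [MulAction E S] {d : ℕ}

theorem isCx_mt (Z : Finset (At E S)) : IsCx (Mt Z) :=
  ⟨fun _ h => h.1, fun _ h _ hτ hne => ⟨hne, h.2.1.mono hτ, fun a ha => h.2.2 a (hτ ha)⟩⟩

/-- there are `k` disjoint merges if `2 k ≤ Z.card` (`exists_merge`, induction on `k`) -/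
theorem exists_mt (s : S) (k : ℕ) {Z : Finset (At E S)} (hZ : Dj Z) (hk : 2 * k ≤ Z.card) :
    ∃ W : Finset (At E S), W.card = k ∧ Dj W ∧ ∀ a ∈ W, ∃ c₀ ∈ Z, ∃ c₁ ∈ Z, Cut a c₀ c₁ := by
  induction k generalizing Z with
  | zero => exact ⟨∅, rfl, fun _ h => absurd h (Finset.notMem_empty _),
      fun _ h => absurd h (Finset.notMem_empty _)⟩
  | succ k ih =>
    obtain ⟨c₀, h₀, c₁, h₁, hne⟩ := Finset.one_lt_card.1 (show 1 < Z.card by omega)
    have hsub : (Z.erase c₀).erase c₁ ⊆ Z :=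
      (Finset.erase_subset _ _).trans (Finset.erase_subset _ _)
    have hcard : 2 * k ≤ ((Z.erase c₀).erase c₁).card := by
      rw [Finset.card_erase_of_mem (Finset.mem_erase.2 ⟨hne.symm, h₁⟩), Finset.card_erase_of_mem h₀]
      omega
    obtain ⟨W, hW, hD, hc⟩ := ih (hZ.mono hsub) hcard
    obtain ⟨a, ha⟩ := exists_merge s (hZ c₀ h₀ c₁ h₁ hne)
    have hdis : ∀ b ∈ W, Disjoint (supp a) (supp b) := by
      intro b hb
      obtain ⟨d₀, e₀, d₁, e₁, hb⟩ := hc b hb
      have k : ∀ e ∈ (Z.erase c₀).erase c₁, Disjoint (supp a) (supp e) := by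
        intro e he
        have he1 := Finset.mem_erase.1 he
        have he0 := Finset.mem_erase.1 he1.2
        rw [← ha.union, Set.disjoint_union_left]
        exact ⟨hZ c₀ h₀ e he0.2 he0.1.symm, hZ c₁ h₁ e he0.2 he1.1.symm⟩
      rw [← hb.union, Set.disjoint_union_right]
      exact ⟨k d₀ e₀, k d₁ e₁⟩
    have hna : a ∉ W := fun h =>
      (supp_nonempty a).ne_empty (disjoint_self.1 (hdis a h))
    refine ⟨insert a W, by rw [Finset.card_insert_of_notMem hna, hW], ?_, ?_⟩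
    · intro x hx y hy hxy
      rcases Finset.mem_insert.1 hx with ex | hx <;> rcases Finset.mem_insert.1 hy with ey | hy
      · exact absurd (ex.trans ey.symm) hxy
      · exact ex ▸ hdis y hy
      · exact ey ▸ (hdis x hx).symm
      · exact hD x hx y hy hxy
    · intro x hx
      rcases Finset.mem_insert.1 hx with rfl | hx
      · exact ⟨c₀, h₀, c₁, h₁, ha⟩
      · obtain ⟨d₀, e₀, d₁, e₁, hb⟩ := hc x hx
        exact ⟨d₀, hsub e₀, d₁, hsub e₁, hb⟩

open Classical in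
theorem v5_card_le_one {Z W : Finset (At E S)} (hZ : Dj Z) (hW : W ∈ Mt Z) {c : At E S}
    (hc : c ∈ Z) : (W.filter fun w => ¬Disjoint (supp c) (supp w)).card ≤ 1 := by
  have key : ∀ w ∈ W, ¬Disjoint (supp c) (supp w) → supp c ⊆ supp w := by
    intro w hw h
    obtain ⟨d₀, e₀, d₁, e₁, hb⟩ := hW.2.2 w hw
    rw [← hb.union] at h ⊢
    rw [Set.disjoint_union_right, not_and_or] at h
    rcases h with h | h
    · have : c = d₀ := by_contra fun hn => h (hZ c hc d₀ e₀ hn)
      rw [this]; exact subset_union_left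
    · have : c = d₁ := by_contra fun hn => h (hZ c hc d₁ e₁ hn)
      rw [this]; exact subset_union_right
  rw [Finset.card_le_one]
  intro w hw w' hw'
  obtain ⟨h1, h2⟩ := Finset.mem_filter.1 hw
  obtain ⟨h3, h4⟩ := Finset.mem_filter.1 hw'
  obtain ⟨κ, hκ⟩ := supp_nonempty c
  exact v1_eq hW.2.1 h1 h3 (key w h1 h2 hκ) (key w' h3 h4 hκ)

/-- `conn_grounded` with `W` of cardinality `2 d + 1` and `Gr σ` = the elements of `W` disjoint from
all elements of `σ`; a merge meets at most two elements of `W`. -/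
theorem conn_mt (s : S) {Z : Finset (At E S)} (hZ : Dj Z) (h : 4 * d + 2 ≤ Z.card) :
    Conn d (Mt Z) := by
  classical
  obtain ⟨W, hW, hD, hc⟩ := exists_mt s (2 * d + 1) hZ (by omega)
  have hWm : W ∈ Mt Z := ⟨Finset.card_pos.1 (by omega), hD, hc⟩
  refine conn_grounded (isCx_mt Z) hWm
    (fun σ => W.filter fun w => ∀ a ∈ σ, Disjoint (supp a) (supp w)) ?_
    (fun σ => Finset.filter_subset _ _) ?_ ?_
  · intro σ τ h w hw
    obtain ⟨h1, h2⟩ := Finset.mem_filter.1 hw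
    exact Finset.mem_filter.2 ⟨h1, fun a ha => h2 a (h ha)⟩
  · intro σ hσ
    refine ⟨hσ.1.mono Finset.subset_union_left, ?_, ?_⟩
    · intro x hx y hy hxy
      rcases Finset.mem_union.1 hx with hx | hx <;> rcases Finset.mem_union.1 hy with hy | hy
      · exact hσ.2.1 x hx y hy hxy
      · exact (Finset.mem_filter.1 hy).2 x hx
      · exact ((Finset.mem_filter.1 hx).2 y hy).symm
      · exact hD x (Finset.mem_filter.1 hx).1 y (Finset.mem_filter.1 hy).1 hxy
    · intro x hx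
      rcases Finset.mem_union.1 hx with hx | hx
      · exact hσ.2.2 x hx
      · exact hc x (Finset.mem_filter.1 hx).1
  · intro σ hσ hcard
    by_contra hn
    have h1 : W ⊆ σ.biUnion fun a => W.filter fun w => ¬Disjoint (supp a) (supp w) := by
      intro w hw
      by_contra h2
      refine hn ⟨w, Finset.mem_filter.2 ⟨hw, fun a ha => by_contra fun h3 => h2 ?_⟩⟩
      exact Finset.mem_biUnion.2 ⟨a, ha, Finset.mem_filter.2 ⟨hw, h3⟩⟩
    have h2 : ∀ a ∈ σ, (W.filter fun w => ¬Disjoint (supp a) (supp w)).card ≤ 2 := by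
      intro a ha
      obtain ⟨c₀, e₀, c₁, e₁, hb⟩ := hσ.2.2 a ha
      have h3 : (W.filter fun w => ¬Disjoint (supp a) (supp w)) ⊆
          (W.filter fun w => ¬Disjoint (supp c₀) (supp w)) ∪
            (W.filter fun w => ¬Disjoint (supp c₁) (supp w)) := by
        intro w hw
        obtain ⟨h4, h5⟩ := Finset.mem_filter.1 hw
        rw [← hb.union, Set.disjoint_union_left, not_and_or] at h5
        rcases h5 with h5 | h5
        · exact Finset.mem_union_left _ (Finset.mem_filter.2 ⟨h4, h5⟩)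
        · exact Finset.mem_union_right _ (Finset.mem_filter.2 ⟨h4, h5⟩)
      have h4 := v5_card_le_one hZ hWm e₀
      have h5 := v5_card_le_one hZ hWm e₁
      exact (Finset.card_le_card h3).trans ((Finset.card_union_le _ _).trans (add_le_add h4 h5))
    have h3 := (Finset.card_le_card h1).trans (Finset.card_biUnion_le_card_mul σ _ 2 h2)
    omega

theorem v5_mem_mrg {v M : Finset (At E S)} {c : At E S} :
    c ∈ mrg v M ↔ c ∈ M ∨ c ∈ v ∧ ∀ a ∈ M, ¬supp c ⊆ supp a := by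
  simp only [mrg, Finset.mem_union, Finset.mem_filter]

theorem v5_res_cut {v : Finset (At E S)} (hv : Dj v) {a c₀ c₁ : At E S} (h : Cut a c₀ c₁)
    (h₀ : c₀ ∈ v) (h₁ : c₁ ∈ v) : res v a = {c₀, c₁} :=
  h.sub.res_eq hv (Finset.insert_subset h₀ (Finset.singleton_subset_iff.2 h₁))

theorem v5_sub {u v : Vx E S} {M : Finset (At E S)} (hM : M ∈ Mt (u.1 ∩ v.1)) :
    ∀ a ∈ M, Sub a (res u.1 a) := by
  intro a ha
  obtain ⟨c₀, e₀, c₁, e₁, hb⟩ := hM.2.2 a ha
  rw [v5_res_cut u.2.1 hb (Finset.mem_inter.1 e₀).1 (Finset.mem_inter.1 e₁).1]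
  exact hb.sub

/-- the new atoms of an element of the lower link are simple merges -/
theorem v5_new {u v p : Vx E S} (huv : u ≤ v) (hp : p ∈ Dn v u) {a : At E S} (ha : a ∈ p.1)
    (hau : a ∉ u.1) : (res u.1 a).card = 2 ∧ res u.1 a ⊆ v.1 := by
  have h1 : Sub a (res u.1 a) := hp.1.le a ha
  have h2 : 2 ≤ (res u.1 a).card := by
    by_contra h
    have h3 := h1.eq_of_card_le_one (by omega)
    exact hau (mem_res.1 (h3 ▸ Finset.mem_singleton_self a)).1
  have h3 : (res v.1 a).card ≤ 2 := (hp.2 a ha).resolve_left hau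
  have h4 := (Le.res_res u.2 v.2 huv h1).2.2
  have h5 : ∀ c ∈ res u.1 a, 1 ≤ (res v.1 c).card := fun c hc =>
    (huv c (mem_res.1 hc).1).nonempty.card_pos
  have h6 : (res u.1 a).card ≤ ∑ c ∈ res u.1 a, (res v.1 c).card := by
    rw [Finset.card_eq_sum_ones]; exact Finset.sum_le_sum h5
  refine ⟨by omega, fun c hc => ?_⟩
  have h7 : (res v.1 c).card ≤ 1 := by
    by_contra h
    have h8 : ∑ _c ∈ res u.1 a, 1 < ∑ c ∈ res u.1 a, (res v.1 c).card :=
      Finset.sum_lt_sum h5 ⟨c, hc, by omega⟩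
    rw [← Finset.card_eq_sum_ones] at h8
    omega
  have h8 := (huv c (mem_res.1 hc).1).eq_of_card_le_one h7
  exact (mem_res.1 (h8 ▸ Finset.mem_singleton_self c)).1

/-- `Conn.of_anti` with `r p = p.1 \ u.1` and `s M = mrg u.1 M` (for `M ∈ Mt (u.1 ∩ v.1)`);
`s (r p) = p`. -/
theorem conn_dn (s : S) {u v : Vx E S} (huv : u ≤ v) (h : 4 * d + 2 ≤ (u.1 ∩ v.1).card) :
    Conn d (Dn v u) := by
  classical
  let t : Finset (At E S) → Vx E S := fun M =>
    if hM : M ∈ Mt (u.1 ∩ v.1) then ⟨mrg u.1 M, (u.2.mrg hM.2.1 (v5_sub hM)).1⟩ else u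
  have ht : ∀ M, M ∈ Mt (u.1 ∩ v.1) → (t M).1 = mrg u.1 M := fun M hM =>
    congrArg Subtype.val (dif_pos hM : t M = _)
  have hrm : MapsTo (fun p : Vx E S => p.1 \ u.1) (Dn v u) (Mt (u.1 ∩ v.1)) := by
    intro p hp
    refine ⟨?_, p.2.1.mono Finset.sdiff_subset, fun a ha => ?_⟩
    · rw [Finset.sdiff_nonempty]
      intro hsub
      refine hp.1.ne (Subtype.ext (Finset.Subset.antisymm hsub fun c hc => ?_))
      obtain ⟨a, ha, hca⟩ := Le.exists_root p.2 u.2 hp.1.le hc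
      rw [u.2.1.res_self (hsub ha), Finset.mem_singleton] at hca
      exact hca ▸ ha
    · obtain ⟨h1, h2⟩ := Finset.mem_sdiff.1 ha
      obtain ⟨h3, h4⟩ := v5_new huv hp h1 h2
      obtain ⟨a₀, a₁, hcut, he⟩ := (hp.1.le a h1).exists_cut h3
      have m₀ : a₀ ∈ res u.1 a := he ▸ Finset.mem_insert_self _ _
      have m₁ : a₁ ∈ res u.1 a := he ▸ Finset.mem_insert_of_mem (Finset.mem_singleton_self _)
      exact ⟨a₀, Finset.mem_inter.2 ⟨(mem_res.1 m₀).1, h4 m₀⟩, a₁,
        Finset.mem_inter.2 ⟨(mem_res.1 m₁).1, h4 m₁⟩, hcut⟩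
  refine Conn.of_anti (r := fun p : Vx E S => p.1 \ u.1) (s := t)
    (conn_mt s (u.2.1.mono Finset.inter_subset_left) h) ?_ hrm ?_ ?_ (Or.inl fun p hp => ?_)
  · intro p hp p' hp' hpp a' ha'
    obtain ⟨h1, h2⟩ := Finset.mem_sdiff.1 ha'
    refine Finset.mem_sdiff.2 ⟨?_, h2⟩
    obtain ⟨a, ha, hca⟩ := Le.exists_root p.2 p'.2 hpp h1
    by_cases hau : a ∈ u.1
    · have h3 : a ∈ p'.1 := Le.mem_of_mem p.2 p'.2 u.2 hpp hp'.1.le ha hau
      rw [p'.2.1.res_self h3, Finset.mem_singleton] at hca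
      exact hca ▸ ha
    · have h3 := (v5_new huv hp ha hau).1
      have h4 := (v5_new huv hp' h1 h2).1
      have h5 := (Le.res_res p'.2 u.2 hp'.1.le (hpp a ha)).2.2
      have h6 : (res p'.1 a).card ≤ 1 := by
        rw [← Finset.add_sum_erase _ _ hca, h3, h4] at h5
        have h7 : ((res p'.1 a).erase a').card ≤
            ∑ c ∈ (res p'.1 a).erase a', (res u.1 c).card := by
          rw [Finset.card_eq_sum_ones]
          exact Finset.sum_le_sum fun c hc =>
            (hp'.1.le c (mem_res.1 (Finset.mem_of_mem_erase hc)).1).nonempty.card_pos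
        rw [Finset.card_erase_of_mem hca] at h7
        omega
      rw [(hpp a ha).eq_of_card_le_one h6, Finset.mem_singleton] at hca
      exact hca ▸ ha
  · intro M hM M' hM' hMM
    have hD : Dj (mrg u.1 M) := (u.2.mrg hM.2.1 (v5_sub hM)).1.1
    rw [Vx.le_def, ht M hM, ht M' hM']
    intro a ha
    have hin : a ∈ mrg u.1 M → Sub a (res (mrg u.1 M) a) := fun h => by
      rw [hD.res_self h]; exact Sub.refl a
    rcases v5_mem_mrg.1 ha with ha | ha
    · by_cases haM : a ∈ M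
      · exact hin (v5_mem_mrg.2 (Or.inl haM))
      · obtain ⟨c₀, e₀, c₁, e₁, hb⟩ := hM'.2.2 a ha
        have k : ∀ c ∈ u.1 ∩ v.1, supp c ⊆ supp a → c ∈ mrg u.1 M := by
          intro c hc hca
          refine v5_mem_mrg.2 (Or.inr ⟨(Finset.mem_inter.1 hc).1, fun b hb hcb => haM ?_⟩)
          obtain ⟨κ, hκ⟩ := supp_nonempty c
          exact v1_eq hM'.2.1 (hMM hb) ha (hcb hκ) (hca hκ) ▸ hb
        rw [v5_res_cut hD hb (k c₀ e₀ (hb.union ▸ subset_union_left))
          (k c₁ e₁ (hb.union ▸ subset_union_right))]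
        exact hb.sub
    · exact hin (v5_mem_mrg.2 (Or.inr ⟨ha.1, fun b hb => ha.2 b (hMM hb)⟩))
  · intro M hM
    refine ⟨lt_of_le_of_ne ?_ fun he => ?_, fun a ha => ?_⟩
    · rw [Vx.le_def, ht M hM]
      exact (u.2.mrg hM.2.1 (v5_sub hM)).2
    · obtain ⟨a, ha⟩ := hM.1
      have h1 : a ∈ u.1 := by
        rw [← he, ht M hM]; exact v5_mem_mrg.2 (Or.inl ha)
      obtain ⟨c₀, e₀, c₁, e₁, hb⟩ := hM.2.2 a ha
      have h2 : c₀ = a :=
        u.2.1.eq_of_subset (Finset.mem_inter.1 e₀).1 h1 (hb.union ▸ subset_union_left)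
      have h3 : c₁ = a :=
        u.2.1.eq_of_subset (Finset.mem_inter.1 e₁).1 h1 (hb.union ▸ subset_union_right)
      have h4 := hb.disjoint
      rw [h2, h3] at h4
      exact (supp_nonempty a).ne_empty (disjoint_self.1 h4)
    · rw [ht M hM] at ha
      rcases v5_mem_mrg.1 ha with ha | ha
      · obtain ⟨c₀, e₀, c₁, e₁, hb⟩ := hM.2.2 a ha
        refine Or.inr ?_
        rw [sz, v5_res_cut v.2.1 hb (Finset.mem_inter.1 e₀).2 (Finset.mem_inter.1 e₁).2]
        exact Finset.card_le_two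
      · exact Or.inl ha.1
  · refine le_of_eq (Subtype.ext ?_)
    rw [ht _ (hrm hp)]
    ext c
    rw [v5_mem_mrg]
    constructor
    · intro hc
      by_cases hcu : c ∈ u.1
      · refine Or.inr ⟨hcu, fun b hb hcb => ?_⟩
        obtain ⟨h1, h2⟩ := Finset.mem_sdiff.1 hb
        exact h2 (p.2.1.eq_of_subset hc h1 hcb ▸ hcu)
      · exact Or.inl (Finset.mem_sdiff.2 ⟨hc, hcu⟩)
    · rintro (hc | ⟨hc, hn⟩)
      · exact (Finset.mem_sdiff.1 hc).1
      · obtain ⟨a, ha, hca⟩ := Le.exists_root p.2 u.2 hp.1.le hc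
        have h1 : a ∈ u.1 := by_contra fun h1 =>
          hn a (Finset.mem_sdiff.2 ⟨ha, h1⟩) (mem_res.1 hca).2
        exact u.2.1.eq_of_subset hc h1 (mem_res.1 hca).2 ▸ ha

end Crest.Agent.R185.V
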