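import Crest.Agent.R185.APos
import Crest.Agent.R185.V3

/-!
# R185 TASK V6: the upper part of descending links
-/

set_option autoImplicit false

namespace Crest.Agent.R185.V

open Set Function

variable {E S : Type} [Group E] [MulAction E S] {d : ℕ} {u v : Vx E S}

open Classical in
/-- cut every atom `a` of `u` into `ρ a` -/
noncomputable def v6ex (u : Vx E S) (ρ : At E S → Finset (At E S)) : Vx E S :=
  if h : ∀ a ∈ u.1, Sub a (ρ a) then ⟨u.1.biUnion ρ, (u.2.biUnion h).1⟩ else u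

section aux

variable {ρ : At E S → Finset (At E S)} {p w : Vx E S} {a c : At E S}

theorem v6ex_val (h : ∀ a ∈ u.1, Sub a (ρ a)) : (v6ex u ρ).1 = u.1.biUnion ρ := by
  have : v6ex u ρ = ⟨u.1.biUnion ρ, (u.2.biUnion h).1⟩ := dif_pos h
  rw [this]

theorem v6_le_ex (h : ∀ a ∈ u.1, Sub a (ρ a)) : u ≤ v6ex u ρ := by
  rw [Vx.le_def, v6ex_val h]
  exact (u.2.biUnion h).2.1

theorem v6_res_ex (h : ∀ a ∈ u.1, Sub a (ρ a)) (ha : a ∈ u.1) : res (v6ex u ρ).1 a = ρ a := by
  rw [v6ex_val h]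
  exact (u.2.biUnion h).2.2 a ha

theorem v6_res_res {q : Finset (At E S)} (h : supp c ⊆ supp a) : res (res q a) c = res q c := by
  ext x
  simp only [mem_res]
  exact ⟨fun hx => ⟨hx.1.1, hx.2⟩, fun hx => ⟨⟨hx.1, hx.2.trans h⟩, hx.2⟩⟩

theorem v6_ex_le (h : ∀ a ∈ u.1, Sub a (ρ a))
    (h' : ∀ a ∈ u.1, ∀ c ∈ ρ a, Sub c (res (res w.1 a) c)) : v6ex u ρ ≤ w := by
  refine Le.of_res u.2 (v6ex u ρ).2 w.2 (v6_le_ex h) fun a ha c hc => ?_
  rw [v6_res_ex h ha] at hc
  rw [← v6_res_res ((h a ha).supp_subset hc)]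
  exact h' a ha c hc

theorem v6_mem_iff : a ∈ p.1 ↔ a ∈ res p.1 a := by
  rw [mem_res]
  exact ⟨fun h => ⟨h, subset_rfl⟩, fun h => h.1⟩

theorem v6_res_eq (h : a ∈ p.1) : res p.1 a = {a} := p.2.1.res_self h

theorem v6_not_mem (h : 2 ≤ (res p.1 a).card) : a ∉ p.1 := fun ha => by
  rw [v6_res_eq ha, Finset.card_singleton] at h
  omega

theorem v6_sub (h : u ≤ p) (ha : a ∈ u.1) : Sub (mk (rep a)) (res p.1 a) := by
  rw [mk_rep]
  exact h a ha

theorem v6_dirs_mono (h : u ≤ p) (h' : p ≤ w) (ha : a ∈ u.1) :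
    dirs (rep a) (res p.1 a) ⊆ dirs (rep a) (res w.1 a) := by
  refine dirs_mono fun c' hc' => ?_
  rw [(Le.res_res p.2 w.2 h' (h a ha)).1, Finset.mem_biUnion] at hc'
  obtain ⟨c, hc, hc'⟩ := hc'
  exact ⟨c, hc, (mem_res.1 hc').2⟩

theorem v6_dirs_nonempty (h : u ≤ p) (ha : a ∈ u.1) (hap : a ∉ p.1) :
    (dirs (rep a) (res p.1 a)).Nonempty := by
  refine (v6_sub h ha).dirs_nonempty fun he => hap ?_
  rw [v6_mem_iff, he, mk_rep]
  exact Finset.mem_singleton_self _

theorem v6_pow_sum {α : Type} (s : Finset α) (k : α → ℕ) :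
    ∑ a ∈ s with k a ≠ 0, 2 ^ k a ≤ 2 ^ (∑ a ∈ s, k a) ∧
      (∑ a ∈ s, k a = 0 → ∑ a ∈ s with k a ≠ 0, 2 ^ k a = 0) := by
  classical
  induction s using Finset.induction_on with
  | empty => simp
  | insert a s ha ih =>
    rw [Finset.sum_insert ha, Finset.filter_insert]
    by_cases hk : k a = 0
    · rw [if_neg (by simpa using hk), hk, zero_add]
      exact ih
    · rw [if_pos hk, Finset.sum_insert fun h => ha (Finset.mem_filter.1 h).1]
      refine ⟨?_, fun h => absurd (by omega) hk⟩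
      by_cases h0 : ∑ a ∈ s, k a = 0
      · rw [ih.2 h0, h0, add_zero, add_zero]
      · have h1 : 2 ^ 1 ≤ 2 ^ k a := Nat.pow_le_pow_right (by norm_num) (by omega)
        have h2 : 2 ^ 1 ≤ 2 ^ (∑ a ∈ s, k a) := Nat.pow_le_pow_right (by norm_num) (by omega)
        have h3 := ih.1
        rw [pow_add]
        nlinarith

open Classical in
/-- the fibre over an atom -/
noncomputable def v6fib (T : Finset (At E S × S)) (a : At E S) : Finset S :=
  (T.filter fun x => x.1 = a).image Prod.snd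

theorem v6_mem_fib {T : Finset (At E S × S)} {s : S} : s ∈ v6fib T a ↔ (a, s) ∈ T := by
  simp only [v6fib, Finset.mem_image, Finset.mem_filter]
  constructor
  · rintro ⟨⟨x, y⟩, ⟨h1, rfl⟩, rfl⟩
    exact h1
  · exact fun h => ⟨(a, s), ⟨h, rfl⟩, rfl⟩

theorem v6_sum_fib (T : Finset (At E S × S)) (q : Finset (At E S)) :
    ∑ a ∈ q, (v6fib T a).card ≤ T.card := by
  classical
  calc ∑ a ∈ q, (v6fib T a).card ≤ ∑ a ∈ q, (T.filter fun x => x.1 = a).card :=
        Finset.sum_le_sum fun a _ => by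
          rw [v6fib]
          convert Finset.card_image_le
    _ = (T.filter fun x => x.1 ∈ q).card := Finset.sum_card_fiberwise_eq_card_filter T q _
    _ ≤ T.card := Finset.card_filter_le _ _

/-- the elementary expansion -/
noncomputable def v6El (u : Vx E S) (T : Finset (At E S × S)) : Vx E S :=
  v6ex u fun a => el (rep a) (v6fib T a)

variable {T T' : Finset (At E S × S)}

theorem v6El_sub (T : Finset (At E S × S)) (a : At E S) (_ : a ∈ u.1) :
    Sub a (el (rep a) (v6fib T a)) := by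
  have := sub_el (rep a) (v6fib T a)
  rwa [mk_rep] at this

theorem v6_le_El : u ≤ v6El u T := v6_le_ex (v6El_sub T)

theorem v6_res_El (ha : a ∈ u.1) : res (v6El u T).1 a = el (rep a) (v6fib T a) :=
  v6_res_ex (v6El_sub T) ha

theorem v6_El_le (h : u ≤ p) (hT : ∀ x ∈ T, x.1 ∈ u.1 → x.2 ∈ dirs (rep x.1) (res p.1 x.1)) :
    v6El u T ≤ p :=
  v6_ex_le (v6El_sub T) fun a ha _ hc =>
    (v6_sub h ha).el_sub (fun s hs => hT (a, s) (v6_mem_fib.1 hs) ha) hc

theorem v6_El_mono (h : T ⊆ T') : v6El u T ≤ v6El u T' := by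
  refine v6_El_le v6_le_El fun x hx hu => ?_
  rw [v6_res_El hu, dirs_el]
  exact v6_mem_fib.2 (h hx)

end aux

/-- `r p = u.biUnion fun a => if sz v a = 2 then {a} else res p a` is monotone, `r p ≤ p`, and
`r p ≤ r v ∈ Up v u` (`Part.biUnion`, `Le.of_res`, `Conn.of_maps`, `Conn.of_top`). -/
theorem conn_up_simple (huv : u ≤ v) (hbig : ∃ a ∈ u.1, 3 ≤ sz v a) (hs : ∃ a ∈ u.1, sz v a = 2) :
    Conn d (Up v u) := by
  classical
  let ρ : Vx E S → At E S → Finset (At E S) := fun p a => if sz v a = 2 then {a} else res p.1 a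
  have hρ : ∀ p, u ≤ p → ∀ a ∈ u.1, Sub a (ρ p a) := fun p hp a ha => by
    dsimp only [ρ]
    split_ifs
    · exact Sub.refl a
    · exact hp a ha
  let r : Vx E S → Vx E S := fun p => v6ex u (ρ p)
  have hle : ∀ p, u ≤ p → r p ≤ p := fun p hp => by
    refine v6_ex_le (hρ p hp) fun a ha c hc => ?_
    rw [v6_res_res ((hρ p hp a ha).supp_subset hc)]
    dsimp only [ρ] at hc
    split_ifs at hc
    · rw [Finset.mem_singleton.1 hc]
      exact hp a ha
    · exact Le.refl p.2 c (mem_res.1 hc).1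
  have hmono : ∀ p p', u ≤ p → p ≤ p' → r p ≤ r p' := fun p p' hp hp' => by
    refine v6_ex_le (hρ p hp) fun a ha c hc => ?_
    rw [v6_res_ex (hρ p' (hp.trans hp')) ha]
    dsimp only [ρ] at hc ⊢
    split_ifs at hc ⊢
    · rw [Finset.mem_singleton.1 hc]
      have : res ({a} : Finset (At E S)) a = {a} :=
        (Sub.refl a).dj.res_self (Finset.mem_singleton_self a)
      rw [this]
      exact Sub.refl a
    · rw [v6_res_res (mem_res.1 hc).2]
      exact hp' c (mem_res.1 hc).1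
  have hup : ∀ p, u ≤ p → p ≤ v → (∃ a ∈ u.1, 3 ≤ sz v a ∧ a ∉ p.1) → r p ∈ Up v u := by
    rintro p hp hpv ⟨a, ha, h3, hap⟩
    have h1 : a ∉ (r p).1 := fun h => hap ?_
    · refine ⟨lt_of_le_of_ne (v6_le_ex (hρ p hp)) fun he => h1 (he ▸ ha),
        lt_of_le_of_ne ((hle p hp).trans hpv) fun he => ?_, a, ha, h3, h1⟩
      obtain ⟨b, hb, h2⟩ := hs
      have h4 : res (r p).1 b = ρ p b := v6_res_ex (hρ p hp) hb
      dsimp only [ρ] at h4
      rw [if_pos h2, he] at h4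
      rw [sz, h4, Finset.card_singleton] at h2
      omega
    · have h4 : res (r p).1 a = ρ p a := v6_res_ex (hρ p hp) ha
      dsimp only [ρ] at h4
      rw [if_neg (by omega)] at h4
      rw [v6_mem_iff, ← h4, ← v6_mem_iff]
      exact h
  have htop : r v ∈ Up v u := by
    obtain ⟨a, ha, h3⟩ := hbig
    exact hup v huv le_rfl ⟨a, ha, h3, v6_not_mem (by rw [sz] at h3; omega)⟩
  refine Conn.of_maps (C := {p | p ∈ Up v u ∧ p ≤ r v}) (r := r) (s := id)
    (Conn.of_top ⟨htop, le_rfl⟩ fun a ha => ha.2) (fun p hp p' _ h => hmono p p' hp.1.le h)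
    (fun p hp => ⟨hup p hp.1.le hp.2.1.le hp.2.2, hmono p v hp.1.le hp.2.1.le⟩) monotoneOn_id
    (fun p hp => hp.1) (Or.inr fun p hp => hle p hp.1.le)

/-- Let `A : Finset (At E S × S)` be the set of `(a, s)` with `a ∈ u`, `s ∈ dirs (rep a) (res v a)`,
`El T = u.biUnion fun a => el (rep a) {s | (a, s) ∈ T}` and
`r p = {(a, s) ∈ A | s ∈ dirs (rep a) (res p a)}`.  Both are monotone, `El (r p) ≤ p`
(`Sub.el_sub`), `r (El T) = T` (`dirs_el`).  If `El A ≠ v` use the nonempty subsets of `A` (top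
element `A`); otherwise the proper nonempty subsets (`conn_bool`): `sz v a = 2 ^ |A_a|`, so
`v.card - (u ∩ v).card = ∑_{a ∈ u \ v} 2 ^ |A_a| ≤ 2 ^ |A|` (all exponents are positive). -/
theorem conn_up_elem (huv : u ≤ v) (hs : ∀ a ∈ u.1, sz v a ≠ 2)
    (h : (u.1 ∩ v.1).card + 2 ^ (d + 1) < v.1.card) : Conn d (Up v u) := by
  classical
  have hfin : {x : At E S × S | x.1 ∈ u.1 ∧ x.2 ∈ dirs (rep x.1) (res v.1 x.1)}.Finite := by
    refine ((u.1.finite_toSet).biUnion fun a ha =>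
      ((v6_sub huv ha).dirs_finite.image fun s => (a, s))).subset ?_
    rintro ⟨a, s⟩ ⟨h1, h2⟩
    exact mem_biUnion h1 ⟨s, h2, rfl⟩
  obtain ⟨A, hA⟩ : ∃ A : Finset (At E S × S), ∀ x,
      x ∈ A ↔ x.1 ∈ u.1 ∧ x.2 ∈ dirs (rep x.1) (res v.1 x.1) :=
    ⟨hfin.toFinset, fun x => hfin.mem_toFinset⟩
  let r : Vx E S → Finset (At E S × S) := fun p =>
    A.filter fun x => x.2 ∈ dirs (rep x.1) (res p.1 x.1)
  have hr : MonotoneOn r (Up v u) := fun p hp p' _ hpp x hx => by
    obtain ⟨h1, h2⟩ := Finset.mem_filter.1 hx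
    exact Finset.mem_filter.2 ⟨h1, v6_dirs_mono hp.1.le hpp ((hA x).1 h1).1 h2⟩
  have hrA : ∀ p, r p ⊆ A := fun p => Finset.filter_subset _ _
  have hrne : ∀ p ∈ Up v u, (r p).Nonempty := by
    rintro p ⟨h1, h2, a, ha, -, hap⟩
    obtain ⟨s, hs⟩ := v6_dirs_nonempty h1.le ha hap
    exact ⟨(a, s), Finset.mem_filter.2 ⟨(hA _).2 ⟨ha, v6_dirs_mono h1.le h2.le ha hs⟩, hs⟩⟩
  have hEr : ∀ p ∈ Up v u, v6El u (r p) ≤ p := fun p hp =>
    v6_El_le hp.1.le fun x hx _ => (Finset.mem_filter.1 hx).2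
  have hEv : ∀ T ⊆ A, v6El u T ≤ v := fun T hT => v6_El_le huv fun x hx _ => ((hA x).1 (hT hx)).2
  have hEup : ∀ T ⊆ A, T.Nonempty → v6El u T ≠ v → v6El u T ∈ Up v u := by
    rintro T hT ⟨⟨a, s⟩, hx⟩ hne
    obtain ⟨ha, hd⟩ := (hA _).1 (hT hx)
    have h1 : a ∉ (v6El u T).1 := by
      refine v6_not_mem ?_
      rw [v6_res_El ha, card_el]
      exact Nat.pow_le_pow_right (n := 2) (by norm_num)
        (Finset.card_pos.2 ⟨s, v6_mem_fib.2 hx⟩)
    refine ⟨lt_of_le_of_ne v6_le_El fun he => h1 (he ▸ ha), lt_of_le_of_ne (hEv T hT) hne,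
      a, ha, ?_, h1⟩
    by_contra h3
    have h4 : (res v.1 a).card ≤ 1 := by
      have := hs a ha
      rw [sz] at this h3
      omega
    have h5 : res v.1 a = el (rep a) ∅ := by
      rw [el_empty]
      exact (v6_sub huv ha).eq_of_card_le_one h4
    dsimp only at hd
    rw [h5, dirs_el] at hd
    exact absurd hd (by simp)
  have hmono : ∀ C : Set (Finset (At E S × S)), MonotoneOn (v6El u) C :=
    fun C _ _ _ _ h => v6_El_mono h
  by_cases hEA : v6El u A = v
  · have hcard : d + 2 ≤ A.card := by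
      have h1 : v.1.card = ∑ a ∈ u.1, 2 ^ (v6fib A a).card := by
        rw [Le.card_eq u.2 v.2 huv]
        refine Finset.sum_congr rfl fun a ha => ?_
        rw [← hEA, v6_res_El ha, card_el]
      have h2 : ∑ a ∈ u.1 with (v6fib A a).card = 0, 2 ^ (v6fib A a).card ≤ (u.1 ∩ v.1).card := by
        rw [Finset.sum_congr rfl fun a ha => by rw [(Finset.mem_filter.1 ha).2, pow_zero],
          ← Finset.card_eq_sum_ones]
        refine Finset.card_le_card fun a ha => ?_
        obtain ⟨ha, h0⟩ := Finset.mem_filter.1 ha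
        refine Finset.mem_inter.2 ⟨ha, ?_⟩
        rw [v6_mem_iff, ← hEA, v6_res_El ha, Finset.card_eq_zero.1 h0, el_empty, mk_rep]
        exact Finset.mem_singleton_self _
      have h3 := (v6_pow_sum u.1 fun a => (v6fib A a).card).1
      have h4 : 2 ^ (∑ a ∈ u.1, (v6fib A a).card) ≤ 2 ^ A.card :=
        Nat.pow_le_pow_right (by norm_num) (v6_sum_fib A u.1)
      have h5 := Finset.sum_filter_add_sum_filter_not u.1 (fun a => (v6fib A a).card = 0)
        fun a => 2 ^ (v6fib A a).card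
      have h6 : 2 ^ (d + 1) < 2 ^ A.card := by
        simp only [ne_eq] at h3
        omega
      exact (Nat.pow_lt_pow_iff_right (by norm_num)).1 h6
    refine (conn_bool hcard).of_maps hr (fun p hp => ⟨hrne p hp, hrA p, fun he => ?_⟩) (hmono _)
      (fun T hT => hEup T hT.2.1 hT.1 fun he => hT.2.2 ?_) (Or.inr hEr)
    · have := hEr p hp
      rw [he, hEA] at this
      exact absurd this hp.2.1.not_ge
    · refine hT.2.1.antisymm fun x hx => ?_
      obtain ⟨ha, hd⟩ := (hA x).1 hx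
      rw [← he, v6_res_El ha, dirs_el] at hd
      exact v6_mem_fib.1 hd
  · have hne : A.Nonempty := by
      have : ∃ a ∈ u.1, a ∉ v.1 := by
        by_contra hc
        push Not at hc
        have h1 := Le.card_eq u.2 v.2 huv
        rw [Finset.sum_congr rfl fun a ha => by rw [v6_res_eq (hc a ha), Finset.card_singleton],
          ← Finset.card_eq_sum_ones] at h1
        rw [Finset.inter_eq_left.2 hc, h1] at h
        exact absurd h (Nat.not_lt.2 (Nat.le_add_right _ _))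
      obtain ⟨a, ha, hav⟩ := this
      obtain ⟨s, hs⟩ := v6_dirs_nonempty huv ha hav
      exact ⟨(a, s), (hA _).2 ⟨ha, hs⟩⟩
    refine Conn.of_maps (C := {T | T.Nonempty ∧ T ⊆ A})
      (Conn.of_top ⟨hne, subset_rfl⟩ fun T hT => hT.2) hr (fun p hp => ⟨hrne p hp, hrA p⟩)
      (hmono _) (fun T hT => hEup T hT.2 hT.1 fun he => hEA ?_) (Or.inr hEr)
    exact le_antisymm (hEv A subset_rfl) (he ▸ v6_El_mono hT.2)

theorem conn_up (huv : u ≤ v) (hbig : ∃ a ∈ u.1, 3 ≤ sz v a)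
    (h : (u.1 ∩ v.1).card + 2 ^ (d + 1) < v.1.card) : Conn d (Up v u) := by
  by_cases hs : ∃ a ∈ u.1, sz v a = 2
  · exact conn_up_simple huv hbig hs
  · exact conn_up_elem huv (fun a ha h2 => hs ⟨a, ha, h2⟩) h

end Crest.Agent.R185.V
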