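import Crest.Agent.R185.AMor
import Crest.Agent.R185.V4
import Crest.Agent.R185.V5
import Crest.Agent.R185.V6

/-!
# R185 TASK V7: descending links, coarse asphericity of SV
-/

set_option autoImplicit false

namespace Crest.Agent.R185.V

open Set Function

variable {E S : Type} [Group E] [MulAction E S] {d : ℕ} {p w v : Vx E S}

/-- the contribution of an atom -/
noncomputable def v7n (v : Vx E S) (a : At E S) : ℕ := if 3 ≤ sz v a then sz v a - 1 else 0

theorem v7_NN (v p : Vx E S) : NN v p = ∑ a ∈ p.1, v7n v a := by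
  rw [NN, Finset.sum_filter]
  rfl

theorem v7_sum (hpw : p ≤ w) (g : At E S → ℕ) :
    ∑ c ∈ w.1, g c = ∑ a ∈ p.1, ∑ c ∈ res w.1 a, g c := by
  conv_lhs => rw [Le.eq_biUnion p.2 w.2 hpw]
  refine Finset.sum_biUnion fun a ha b hb hab => Finset.disjoint_left.2 fun c h1 h2 => ?_
  obtain ⟨κ, hκ⟩ := supp_nonempty c
  exact Set.disjoint_left.1 (p.2.1 a ha b hb hab) ((mem_res.1 h1).2 hκ) ((mem_res.1 h2).2 hκ)

theorem v7_local (hpw : p ≤ w) (hwv : w ≤ v) {a : At E S} (ha : a ∈ p.1) :
    ∑ c ∈ res w.1 a, v7n v c ≤ v7n v a ∧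
      (∑ c ∈ res w.1 a, v7n v c = v7n v a ↔ (3 ≤ sz v a → a ∈ w.1)) := by
  by_cases haw : a ∈ w.1
  · rw [w.2.1.res_self haw, Finset.sum_singleton]
    exact ⟨le_rfl, iff_of_true rfl fun _ => haw⟩
  have h1 : sz v a = ∑ c ∈ res w.1 a, sz v c := (Le.res_res w.2 v.2 hwv (hpw a ha)).2.2
  by_cases h3 : 3 ≤ sz v a
  · have h2 : 2 ≤ (res w.1 a).card := by
      by_contra h
      have := (hpw a ha).eq_of_card_le_one (by omega)
      exact haw (mem_res.1 (this ▸ Finset.mem_singleton_self a)).1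
    have h4 : ∑ c ∈ res w.1 a, (v7n v c + 1) ≤ ∑ c ∈ res w.1 a, sz v c := by
      refine Finset.sum_le_sum fun c hc => ?_
      have : 0 < sz v c := (hwv c (mem_res.1 hc).1).nonempty.card_pos
      unfold v7n
      split_ifs <;> omega
    rw [Finset.sum_add_distrib, ← Finset.card_eq_sum_ones] at h4
    have h5 : v7n v a = sz v a - 1 := if_pos h3
    exact ⟨by omega, iff_of_false (by omega) fun h => haw (h h3)⟩
  · have h4 : ∑ c ∈ res w.1 a, v7n v c = 0 := by
      refine Finset.sum_eq_zero fun c hc => if_neg ?_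
      have : sz v c ≤ ∑ c ∈ res w.1 a, sz v c :=
        Finset.single_le_sum (f := fun c => sz v c) (fun _ _ => Nat.zero_le _) hc
      omega
    have h5 : v7n v a = 0 := if_neg h3
    exact ⟨by omega, iff_of_true (by omega) fun h => absurd h h3⟩

/-- `NN v w = ∑ a ∈ p, ∑ c ∈ res w a (big), (sz c - 1)` and `sz a = ∑ c ∈ res w a, sz c`
(`Le.res_res`). -/
theorem NN_le (hpw : p ≤ w) (hwv : w ≤ v) : NN v w ≤ NN v p := by
  rw [v7_NN, v7_NN, v7_sum hpw]
  exact Finset.sum_le_sum fun a ha => (v7_local hpw hwv ha).1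

theorem NN_eq_iff (hpw : p ≤ w) (hwv : w ≤ v) :
    NN v w = NN v p ↔ ∀ a ∈ p.1, 3 ≤ sz v a → a ∈ w.1 := by
  rw [v7_NN, v7_NN, v7_sum hpw,
    Finset.sum_eq_sum_iff_of_le fun a ha => (v7_local hpw hwv ha).1]
  exact forall₂_congr fun a ha => (v7_local hpw hwv ha).2

theorem NN_le_card (hpv : p ≤ v) : NN v p ≤ v.1.card := by
  rw [v7_NN, Le.card_eq p.2 v.2 hpv]
  refine Finset.sum_le_sum fun a _ => ?_
  unfold v7n sz
  split_ifs <;> omega

/-- `morse_up_iter` with `K = Dn v v`, `h u = NN v u * (v.card + 1) + u.card`; the link of `w` is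
`Dn v w ∪ Up v w` (`conn_join_down`, `conn_join_up`). -/
theorem conn_link (s : S) (h : 4 * d + 2 + 2 ^ (d + 1) ≤ v.1.card) : Conn d {u | u < v} := by
  let V := v.1.card + 1
  let ht : Vx E S → ℕ := fun u => NN v u * V + u.1.card
  have hlt : ∀ p q : Vx E S, q < v → NN v q < NN v p → ht q < ht p := fun p q hq h1 => by
    have h2 := Vx.card_lt hq
    have h3 : (NN v q + 1) * V ≤ NN v p * V := Nat.mul_le_mul_right _ h1
    rw [add_mul, one_mul] at h3
    dsimp only [ht, V] at h3 ⊢
    omega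
  have heq : ∀ p q : Vx E S, p < q → NN v q = NN v p → ht p < ht q := fun p q hq h1 => by
    have h2 := Vx.card_lt hq
    dsimp only [ht]
    rw [h1]
    omega
  have hsz : ∀ a ∈ v.1, sz v a = 1 := fun a ha => by
    rw [sz, v.2.1.res_self ha, Finset.card_singleton]
  refine morse_up_iter (K := Dn v v) (fun p hp => hp.1) ht (V * V + V) (fun w hw => ?_)
    (fun w hw _ w' hw' _ hww => ?_) (fun w hw hwK => ?_)
    (conn_dn s le_rfl (by rw [Finset.inter_self]; exact (Nat.le_add_right _ _).trans h))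
  · have h1 := NN_le_card (le_of_lt hw)
    have h2 := Vx.card_lt hw
    have h3 : NN v w * V ≤ V * V := Nat.mul_le_mul_right _ (by omega)
    dsimp only [ht, V] at h3 ⊢
    omega
  · rcases (NN_le hww.le (le_of_lt hw')).lt_or_eq with h1 | h1
    · exact (hlt w w' hw' h1).ne'
    · exact (heq w w' hww h1).ne
  · have hw : w < v := hw
    have hbig : ∃ a ∈ w.1, 3 ≤ sz v a := by
      by_contra hc
      exact hwK ⟨hw, fun a ha => Or.inr (by
        by_contra h'
        exact hc ⟨a, ha, by omega⟩)⟩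
    have key : {p | p ∈ {u | u < v} ∧ (p < w ∨ w < p) ∧ (p ∈ Dn v v ∨ ht p < ht w)} =
        Dn v w ∪ Up v w := by
      ext p
      constructor
      · rintro ⟨hp, h1 | h1, h2⟩
        · refine Or.inl ⟨h1, fun a ha => ?_⟩
          rcases h2 with h2 | h2
          · exact Or.inr ((h2.2 a ha).elim (fun h => by rw [hsz a h]; omega) id)
          · rcases (NN_le h1.le hw.le).lt_or_eq with h3 | h3
            · exact absurd (hlt p w hw h3) h2.not_gt
            · by_cases h4 : 3 ≤ sz v a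
              · exact Or.inl ((NN_eq_iff h1.le hw.le).1 h3 a ha h4)
              · exact Or.inr (by omega)
        · refine Or.inr ⟨h1, hp, ?_⟩
          rcases h2 with h2 | h2
          · obtain ⟨a, ha, h3⟩ := hbig
            refine ⟨a, ha, h3, fun hap => ?_⟩
            rcases h2.2 a hap with h4 | h4
            · rw [hsz a h4] at h3
              omega
            · omega
          · by_contra hc
            refine absurd (heq w p h1 ((NN_eq_iff h1.le (le_of_lt hp)).2 fun a ha h3 => ?_))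
              h2.not_gt
            by_contra hap
            exact hc ⟨a, ha, h3, hap⟩
      · rintro (⟨h1, h2⟩ | ⟨h1, h2, a, ha, h3, hap⟩)
        · refine ⟨h1.trans hw, Or.inl h1, Or.inr (heq p w h1 ((NN_eq_iff h1.le hw.le).2 ?_))⟩
          exact fun a ha h3 => (h2 a ha).resolve_right (by omega)
        · refine ⟨h2, Or.inr h1, Or.inr (hlt w p h2 (lt_of_le_of_ne (NN_le h1.le h2.le) ?_))⟩
          exact fun he => hap ((NN_eq_iff h1.le h2.le).1 he a ha h3)
    rw [key]
    have hj : ∀ a ∈ Dn v w, ∀ b ∈ Up v w, a ≤ b := fun a ha b hb => (ha.1.trans hb.1).le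
    by_cases h1 : 4 * d + 2 ≤ (w.1 ∩ v.1).card
    · exact conn_join_down hj (conn_dn s hw.le h1)
    · exact conn_join_up hj (conn_up hw.le hbig (by omega))

/-- `brown` for `L = {v | v.card < m}` with `m = 4 d + 2 + 2 ^ (d+1)`, `conn_sublevel` for `univ` -/
theorem ccinf_SV [Infinite S] (hf : ∀ g : E, (∀ s : S, g • s = s) → g = 1)
    (htr : ∀ (n : ℕ) (a b : Fin n ↪ S), ∃ g : E, ∀ i, g • a i = b i)
    (hcc : ∀ T : Finset S, CCinf (fixingSubgroup E (T : Set S))) : CCinf (SV E S) := by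
  intro d
  let o : Vx E S := ⟨{mk 1}, part_one⟩
  have : Nonempty (Vx E S) := ⟨o⟩
  obtain ⟨s⟩ : Nonempty S := inferInstance
  obtain ⟨B, hB⟩ := cocompact htr (4 * d + 2 + 2 ^ (d + 1))
  refine brown (L := {v : Vx E S | v.1.card < 4 * d + 2 + 2 ^ (d + 1)}) Vx.smul_le
    (fun g p hp => ?_) ?_ B hB fun σ hσ =>
      cc_stabilizer hf (fun T => hcc T d) ⟨hσ.1, subset_univ _, hσ.2.2⟩
  · change (g • p).1.card < _
    rw [Vx.card_smul]
    exact hp
  · have := conn_sublevel (d := d) (L := univ) (fun v : Vx E S => v.1.card)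
      (4 * d + 2 + 2 ^ (d + 1)) (fun p _ q _ h => Vx.card_lt h)
      ⟨o, mem_univ _, by
        change ({mk 1} : Finset (At E S)).card < _
        rw [Finset.card_singleton]
        exact lt_of_lt_of_le (by omega) (Nat.le_add_right (4 * d + 2) _)⟩
      (fun p _ q _ => let ⟨w, h⟩ := exists_ub p q; ⟨w, mem_univ _, h⟩)
      fun w _ hw => by simpa using conn_link s hw
    simpa using this

end Crest.Agent.R185.V
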