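import Crest.Agent.R185.V3

/-!
# R185 TASK V8: generation by elements of small support, perfectness
-/

set_option autoImplicit false

namespace Crest.Agent.R185.V

open Set Function

variable {E S : Type} [Group E] [MulAction E S] {g : SV E S} {s s' : S}

theorem v8_toEM_inj {g g' : SV E S} (h : toEM g = toEM g') : g = g' :=
  Subtype.ext (Equiv.ext (congrFun (congrArg fn h)))

theorem v8_pfam_mul {ι : Type} {f : ι → EM E S} {U : Set (Cu S)} (hf : PFam f U)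
    (k : ι → SV E S) : PFam (fun i => f i * toEM (k i)) U := by
  have h : ∀ i, range (fn (f i * toEM (k i))) = range (fn (f i)) := fun i =>
    (k i).1.surjective.range_comp _
  simpa only [PFam, h] using hf

theorem v8_mem_cut {b : Bool} {κ : Cu S} : κ ∈ range (fn (cut E s b)) ↔ κ s 0 = b :=
  mem_range_half

theorem v8_mem_cut₂ (hs : s ≠ s') {b b' : Bool} {κ : Cu S} :
    κ ∈ range (fn (cut E s b * cut E s' b')) ↔ κ s 0 = b ∧ κ s' 0 = b' := by
  constructor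
  · intro h
    refine ⟨v8_mem_cut (E := E).1 (range_comp_subset_range _ _ h), ?_⟩
    rw [cut_comm hs] at h
    exact v8_mem_cut (E := E).1 (range_comp_subset_range _ _ h)
  · rintro ⟨h, h'⟩
    obtain ⟨x, rfl⟩ := (v8_mem_cut (E := E)).2 h
    have h1 : x s' 0 = b' := by
      have : fn (cut E s b) x s' = x s' := by
        show pre (half s b s') (x s') = x s'
        simp [half, hs.symm, pre]
      rwa [this] at h'
    obtain ⟨y, rfl⟩ := (v8_mem_cut (E := E)).2 h1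
    exact ⟨y, rfl⟩

/-- `exists_glue` with `(cut s b, cut s !b) ↦ (cut s b * g, cut s !b)` -/
theorem Cm.split (h : Cm g s) : ∃ k : Bool → SV E S, g = k false * k true ∧ ∀ b,
    Sup (k b) (range (fn (cut E s b))) ∧ toEM (k b) * cut E s b = cut E s b * toEM g ∧
      ∀ s', s' ≠ s → Cm g s' → Cm (k b) s' := by
  have h1 : ∀ b : Bool, ∃ k : SV E S, ∀ b',
      toEM k * cut E s b' = cut E s b' * toEM (if b' = b then g else 1) := fun b =>
    exists_glue (pfam_cut s) (v8_pfam_mul (pfam_cut s) _)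
  choose k hk using h1
  have h2 : ∀ b, toEM (k b) * cut E s b = cut E s b * toEM g := fun b => by simpa using hk b b
  have h3 : ∀ b, toEM (k b) * cut E s (!b) = cut E s (!b) := fun b => by simpa using hk b (!b)
  refine ⟨k, v8_toEM_inj (eq_of_pfam (pfam_cut s) fun b => ?_), fun b => ⟨fun κ hκ => ?_, h2 b,
    fun s' hs hg b'' => eq_of_pfam (pfam_cut s) fun b' => ?_⟩⟩
  · rw [map_mul, mul_assoc, h b]
    cases b
    · rw [show toEM (k true) * cut E s false = cut E s false from h3 true, h2]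
    · rw [h2, ← mul_assoc, show toEM (k false) * cut E s true = cut E s true from h3 false]
  · obtain ⟨x, rfl⟩ : κ ∈ range (fn (cut E s (!b))) := by
      rw [v8_mem_cut] at hκ ⊢
      exact Bool.eq_not_of_ne hκ
    exact congrFun (congrArg fn (h3 b)) x
  · have h4 : toEM (if b' = b then g else 1) * cut E s' b'' =
        cut E s' b'' * toEM (if b' = b then g else 1) := by
      split_ifs
      · exact hg b''
      · simp
    rw [mul_assoc, cut_comm hs, ← mul_assoc, hk, mul_assoc, h4, ← mul_assoc, cut_comm hs.symm,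
      mul_assoc, mul_assoc, hk]

theorem v8_two [Infinite S] {A : Set S} (hA : A.Finite) : ∃ s s', s ≠ s' ∧ s ∉ A ∧ s' ∉ A := by
  obtain ⟨s, hs, s', hs', h⟩ := hA.infinite_compl.nontrivial
  exact ⟨s, s', h, hs, hs'⟩

theorem v8_inj4 {a b c d : S} (hab : a ≠ b) (hcd : c ≠ d) (hca : c ≠ a) (hcb : c ≠ b)
    (hda : d ≠ a) (hdb : d ≠ b) : Injective ![a, b, c, d] := by
  intro i j h
  fin_cases i <;> fin_cases j <;> simp_all [eq_comm]

theorem v8_four (htr : ∀ (n : ℕ) (a b : Fin n ↪ S), ∃ g : E, ∀ i, g • a i = b i)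
    {a b a' b' c d : S} (hab : a ≠ b) (hab' : a' ≠ b') (hcd : c ≠ d) (hca : c ≠ a) (hcb : c ≠ b)
    (hda : d ≠ a) (hdb : d ≠ b) (hca' : a' ≠ c) (hcb' : b' ≠ c) (hda' : a' ≠ d) (hdb' : b' ≠ d) :
    ∃ δ : E, δ • a = a' ∧ δ • b = b' ∧ δ • c = c ∧ δ • d = d := by
  obtain ⟨δ, h⟩ := htr 4 ⟨_, v8_inj4 hab hcd hca hcb hda hdb⟩
    ⟨_, v8_inj4 hab' hcd hca'.symm hcb'.symm hda'.symm hdb'.symm⟩
  exact ⟨δ, h 0, h 1, h 2, h 3⟩

theorem v8_cut_br {ψ : S → List Bool} (hψ : FinS ψ) (h : ψ s = []) (b : Bool) :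
    cut E s b * brE E ψ hψ = brE E ψ hψ * cut E s b := by
  apply EM.ext
  show br (half s b) ∘ br ψ = br ψ ∘ br (half s b)
  rw [br_comp, br_comp]
  congr 1
  funext t
  by_cases h1 : t = s
  · simp [h1, h]
  · simp [half, h1]

theorem v8_cm {F : Finset S} {m : ℕ} {k : SV E S} {φ : {ψ // IsGrid F m ψ} → S → List Bool}
    {hφ : ∀ ψ, FinS (φ ψ)} {δ : {ψ // IsGrid F m ψ} → E}
    (hk : ∀ ψ, toEM k * brE E ψ.1 ψ.2.finS = brE E (φ ψ) (hφ ψ) * twE S (δ ψ)) (hs : s ∉ F)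
    (h₁ : ∀ ψ, φ ψ s = []) (h₂ : ∀ ψ, δ ψ • s = s) : Cm k s := by
  refine fun b => eq_of_pfam (pfam_grid F m) fun ψ => ?_
  rw [mul_assoc, v8_cut_br _ (ψ.2.2 s hs), ← mul_assoc, hk, mul_assoc, twE_mul_cut, h₂,
    ← mul_assoc, ← v8_cut_br _ (h₁ ψ), mul_assoc, mul_assoc, hk]

theorem v8_sup {k l : SV E S} {b b' : Bool} (hs : s ≠ s') (hk : Sup k (range (fn (cut E s b))))
    (hl : Sup l (range (fn (cut E s' b'))))
    (h : toEM l * cut E s' b' = cut E s' b' * toEM k) :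
    Sup l (range (fn (cut E s b * cut E s' b'))) := by
  intro κ hκ
  by_cases h1 : κ ∈ range (fn (cut E s' b'))
  · obtain ⟨x, rfl⟩ := h1
    refine (congrFun (congrArg fn h) x).trans (congrArg (fn (cut E s' b')) (hk x ?_))
    rintro ⟨y, rfl⟩
    rw [cut_comm hs] at hκ
    exact hκ ⟨y, rfl⟩
  · exact hl κ h1

/-- With a fine grid `g * br ψ = br ψ' * tw γ_ψ` (`Fine.uniform`).  Choose `s₁ ≠ s₂` outside `F`
and `s₃ ≠ s₄` outside `F ∪ {s₁, s₂} ∪ {γ_ψ • s_j}`; `γ_ψ = γ¹_ψ * γ²_ψ` with `γ¹_ψ` fixing `s₃, s₄`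
and `γ²_ψ` fixing `s₁, s₂` (`htr` with `n = 4`).  Then `g = g' * k₁ * k₂` where
`g' * br ψ = br ψ'`, `k_j * br ψ = br ψ * tw γ^j_ψ` (`exists_glue`, `eq_of_pfam`). -/
theorem exists_factor [Infinite S]
    (htr : ∀ (n : ℕ) (a b : Fin n ↪ S), ∃ g : E, ∀ i, g • a i = b i) (g : SV E S) :
    ∃ g₁ g₂ g₃ : SV E S, g = g₁ * g₂ * g₃ ∧ ∀ k ∈ [g₁, g₂, g₃], ∃ s s', s ≠ s' ∧ Cm k s ∧ Cm k s' := by
  obtain ⟨F, m, hF⟩ := Fine.uniform (E := E) g.2
  have h1 : ∀ ψ : {ψ // IsGrid F m ψ}, ∃ (φ : S → List Bool) (γ : E) (hφ : FinS φ),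
      toEM g * brE E ψ.1 ψ.2.finS = brE E φ hφ * twE S γ := fun ψ => by
    obtain ⟨φ, γ, hφ, e⟩ := hF F m subset_rfl le_rfl ψ.1 ψ.2
    exact ⟨φ, γ, hφ, EM.ext e⟩
  choose φ γ hφ e using h1
  have : Finite {ψ // IsGrid F m ψ} := finite_isGrid F m
  obtain ⟨s₁, s₂, h12, n1, n2⟩ := v8_two (F.finite_toSet.union (finite_iUnion hφ))
  obtain ⟨s₃, s₄, h34, n3, n4⟩ := v8_two (((F.finite_toSet.union (toFinite {s₁, s₂})).union
    (finite_range fun ψ => γ ψ • s₁)).union (finite_range fun ψ => γ ψ • s₂))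
  simp only [mem_union, Finset.mem_coe, mem_iUnion, mem_ofPred_eq, not_or, not_exists, not_not,
    mem_insert_iff, mem_singleton_iff, mem_range] at n1 n2 n3 n4
  have h2 : ∀ ψ, ∃ δ : E, δ • s₁ = γ ψ • s₁ ∧ δ • s₂ = γ ψ • s₂ ∧ δ • s₃ = s₃ ∧ δ • s₄ = s₄ :=
    fun ψ => v8_four htr h12 (fun e => h12 (MulAction.injective _ e)) h34 n3.1.1.2.1 n3.1.1.2.2
      n4.1.1.2.1 n4.1.1.2.2 (n3.1.2 ψ) (n3.2 ψ) (n4.1.2 ψ) (n4.2 ψ)
  choose δ d1 d2 d3 d4 using h2
  have hP := pfam_grid (E := E) F m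
  have hP' : PFam (fun ψ => brE E (φ ψ) (hφ ψ) * twE S 1) (univ : Set (Cu S)) := by
    have := (hP.mul_left (toEM g)).mul_twE fun ψ => (γ ψ)⁻¹
    rw [image_univ, fn_toEM, g.1.surjective.range_eq] at this
    simpa only [e, mul_assoc, ← map_mul, mul_inv_cancel] using this
  obtain ⟨g', hg'⟩ := exists_glue hP hP'
  obtain ⟨k₁, hk₁⟩ := exists_glue hP (hP.mul_twE δ)
  obtain ⟨k₂, hk₂⟩ := exists_glue hP (hP.mul_twE fun ψ => (δ ψ)⁻¹ * γ ψ)
  refine ⟨g', k₁, k₂, v8_toEM_inj (eq_of_pfam hP fun ψ => ?_), ?_⟩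
  · rw [map_mul, map_mul, mul_assoc, hk₂, mul_assoc, ← mul_assoc (toEM k₁), hk₁, ← mul_assoc,
      ← mul_assoc, hg', e, map_one, mul_one, mul_assoc, ← map_mul, mul_inv_cancel_left]
  · simp only [List.mem_cons, List.not_mem_nil, or_false, forall_eq_or_imp, forall_eq]
    exact ⟨⟨s₁, s₂, h12, v8_cm hg' n1.1 n1.2 fun _ => one_smul _ _,
        v8_cm hg' n2.1 n2.2 fun _ => one_smul _ _⟩,
      ⟨s₃, s₄, h34, v8_cm hk₁ n3.1.1.1 (fun ψ => ψ.2.2 _ n3.1.1.1) d3,
        v8_cm hk₁ n4.1.1.1 (fun ψ => ψ.2.2 _ n4.1.1.1) d4⟩,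
      ⟨s₁, s₂, h12, v8_cm hk₂ n1.1 (fun ψ => ψ.2.2 _ n1.1) fun ψ => by
          rw [mul_smul, ← d1, inv_smul_smul],
        v8_cm hk₂ n2.1 (fun ψ => ψ.2.2 _ n2.1) fun ψ => by rw [mul_smul, ← d2, inv_smul_smul]⟩⟩

/-- the group is generated by elements supported in quarters -/
theorem closure_quarter [Infinite S]
    (htr : ∀ (n : ℕ) (a b : Fin n ↪ S), ∃ g : E, ∀ i, g • a i = b i) :
    Subgroup.closure {g : SV E S | ∃ s s' b b', s ≠ s' ∧
      Sup g (range (fn (cut E s b * cut E s' b')))} = ⊤ := by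
  have h1 : ∀ k : SV E S, (∃ s s', s ≠ s' ∧ Cm k s ∧ Cm k s') →
      k ∈ Subgroup.closure {g : SV E S | ∃ s s' b b', s ≠ s' ∧
        Sup g (range (fn (cut E s b * cut E s' b')))} := by
    rintro k ⟨s, s', hs, h, h'⟩
    obtain ⟨k, rfl, hk⟩ := h.split
    have h2 : ∀ b, k b ∈ Subgroup.closure {g : SV E S | ∃ s s' b b', s ≠ s' ∧
        Sup g (range (fn (cut E s b * cut E s' b')))} := by
      intro b
      obtain ⟨l, e, hl⟩ := ((hk b).2.2 s' hs.symm h').split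
      rw [e]
      exact mul_mem
        (Subgroup.subset_closure ⟨s, s', b, false, hs, v8_sup hs (hk b).1 (hl _).1 (hl _).2.1⟩)
        (Subgroup.subset_closure ⟨s, s', b, true, hs, v8_sup hs (hk b).1 (hl _).1 (hl _).2.1⟩)
    exact mul_mem (h2 _) (h2 _)
  rw [eq_top_iff]
  intro g _
  obtain ⟨g₁, g₂, g₃, rfl, h⟩ := exists_factor htr g
  exact mul_mem (mul_mem (h1 _ (h _ (by simp))) (h1 _ (h _ (by simp)))) (h1 _ (h _ (by simp)))

theorem v8_conj {k l c : SV E S} {u h : EM E S} (h₁ : toEM k * u = u * h)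
    (h₂ : Sup k (range (fn u))) (h₃ : toEM l * (toEM c * u) = toEM c * u * h)
    (h₄ : Sup l (range (fn (toEM c * u)))) : l * c = c * k := by
  refine Subtype.ext (Equiv.ext fun κ => ?_)
  show l.1 (c.1 κ) = c.1 (k.1 κ)
  by_cases h1 : κ ∈ range (fn u)
  · obtain ⟨x, rfl⟩ := h1
    exact (congrFun (congrArg fn h₃) x).trans (congrArg c.1 (congrFun (congrArg fn h₁) x).symm)
  · rw [h₂ κ h1]
    refine h₄ _ ?_
    rintro ⟨x, hx⟩
    exact h1 ⟨x, c.1.injective hx⟩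

theorem v8_pfam_of {ι : Type} {f : ι → EM E S} (idx : Cu S → ι)
    (h : ∀ i κ, κ ∈ range (fn (f i)) ↔ idx κ = i) : PFam f (univ : Set (Cu S)) :=
  ⟨fun i j hij => Set.disjoint_left.2 fun κ h1 h2 => hij (((h i κ).1 h1).symm.trans ((h j κ).1 h2)),
    eq_univ_of_forall fun κ => mem_iUnion.2 ⟨idx κ, (h _ κ).2 rfl⟩⟩

theorem v8_exists_conj (hs : s ≠ s') (b b' : Bool) :
    ∃ c : SV E S, toEM c * cut E s b = cut E s b * cut E s' b' := by
  have h1 : PFam (fun o : Option Bool => o.elim (cut E s b) fun x => cut E s (!b) * cut E s' x)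
      (univ : Set (Cu S)) := by
    refine v8_pfam_of (fun κ => if κ s 0 = b then none else some (κ s' 0)) ?_
    rintro (_ | x) κ
    · simp only [Option.elim, v8_mem_cut]
      simp
    · simp only [Option.elim, v8_mem_cut₂ hs]
      cases b <;> cases κ s 0 <;> simp
  have h2 : PFam (fun o : Option Bool => o.elim (cut E s b * cut E s' b')
      fun x => cond x (cut E s (!b)) (cut E s b * cut E s' (!b'))) (univ : Set (Cu S)) := by
    refine v8_pfam_of (fun κ => if κ s 0 = b then (if κ s' 0 = b' then none else some false)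
      else some true) ?_
    rintro (_ | _ | _) κ
    · simp only [Option.elim, v8_mem_cut₂ hs]
      cases b <;> cases b' <;> cases κ s 0 <;> cases κ s' 0 <;> simp
    · simp only [Option.elim, cond, v8_mem_cut₂ hs]
      cases b <;> cases b' <;> cases κ s 0 <;> cases κ s' 0 <;> simp
    · simp only [Option.elim, cond, v8_mem_cut]
      cases b <;> cases b' <;> cases κ s 0 <;> cases κ s' 0 <;> simp
  obtain ⟨c, hc⟩ := exists_glue h1 h2
  exact ⟨c, hc none⟩

/-- `g = k 0 * k 1` along `s`, `k b = k b 0 * k b 1` along `s'`, and `k b` is conjugate to `k b b'`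
by an element `l` with `l * cut s b = cut s b * cut s' b'` (`exists_glue` with three pieces:
`cut s !b * cut s' 0 ↦ cut s !b`, `cut s !b * cut s' 1 ↦ cut s b * cut s' !b'`). -/
theorem map_eq_one_of_cm {A : Type*} [CommGroup A] (π : SV E S →* A) (hs : s ≠ s') (h : Cm g s)
    (h' : Cm g s') : π g = 1 := by
  obtain ⟨k, e, hk⟩ := h.split
  have h2 : ∀ b, π (k b) = 1 := by
    intro b
    obtain ⟨l, e, hl⟩ := ((hk b).2.2 s' hs.symm h').split
    have h3 : ∀ b', π (l b') = π (k b) := by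
      intro b'
      obtain ⟨c, hc⟩ := v8_exists_conj (E := E) hs b b'
      have h4 : l b' * c = c * k b := by
        refine v8_conj (hk b).2.1 (hk b).1 ?_ ?_
        · rw [hc, cut_comm hs, ← mul_assoc, (hl b').2.1, mul_assoc, (hk b).2.1, mul_assoc]
        · rw [hc]
          exact v8_sup hs (hk b).1 (hl _).1 (hl _).2.1
      have h5 := congrArg π h4
      rw [map_mul, map_mul, mul_comm] at h5
      exact mul_left_cancel h5
    have h4 := congrArg π e
    rw [map_mul, h3, h3] at h4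
    exact left_eq_mul.1 h4
  rw [e, map_mul, h2, h2, one_mul]

theorem commutator_eq_top [Infinite S]
    (htr : ∀ (n : ℕ) (a b : Fin n ↪ S), ∃ g : E, ∀ i, g • a i = b i) :
    commutator (SV E S) = ⊤ := by
  rw [eq_top_iff, ← Abelianization.ker_of]
  intro g _
  obtain ⟨g₁, g₂, g₃, rfl, h⟩ := exists_factor htr g
  have h1 : ∀ k ∈ [g₁, g₂, g₃], Abelianization.of k = 1 := fun k hk => by
    obtain ⟨s, s', hs, h, h'⟩ := h k hk
    exact map_eq_one_of_cm _ hs h h'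
  rw [MonoidHom.mem_ker, map_mul, map_mul, h1 _ (by simp), h1 _ (by simp), h1 _ (by simp)]
  simp

end Crest.Agent.R185.V
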