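import Crest.Agent.R185.V8

/-!
# R185 TASK V9: simplicity
-/

set_option autoImplicit false

namespace Crest.Agent.R185.V

open Set Function

variable {E S : Type} [Group E] [MulAction E S]

/-- a brick is an atom of a partition (induction on the total length of the address: a brick is
obtained from the cube by successive cuts) -/
theorem exists_part_mem (ψ : S → List Bool) (hψ : FinS ψ) :
    ∃ v : Finset (At E S), Part v ∧ mk (brE E ψ hψ) ∈ v := by
  obtain ⟨F, m, hF, hm⟩ := hψ.exists_bound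
  have h0 : FinS fun _ : S => ([] : List Bool) := by simp [FinS]
  obtain ⟨q, hq, hq'⟩ := sub_grid (1 : EM E S) F m _ h0 (fun _ _ => rfl) fun _ => Nat.zero_le _
  obtain ⟨q₁, hq₁, hq₁'⟩ := sub_grid (1 : EM E S) F m ψ hψ hF hm
  have hv : Part q := ⟨hq.dj, fun κ => hq.cover (by
    rw [supp_mk, one_mul]
    exact ⟨κ, congrFun br_nil κ⟩)⟩
  rw [one_mul] at hq₁
  refine ⟨mrg q {mk (brE E ψ hψ)}, (hv.mrg (fun a ha b hb h => ?_) fun a ha => ?_).1,
    Finset.mem_union_left _ (Finset.mem_singleton_self _)⟩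
  · exact absurd ((Finset.mem_singleton.1 ha).trans (Finset.mem_singleton.1 hb).symm) h
  · rw [Finset.mem_singleton.1 ha, hq₁.res_eq hv.1 fun c hc => ?_]
    · exact hq₁
    · obtain ⟨φ, hφ, -, e⟩ := (hq₁' c).1 hc
      exact (hq' c).2 ⟨φ, hφ, fun _ => List.nil_prefix, e⟩

theorem v9_merge (s : S) {q : Finset (At E S)} (hne : q.Nonempty) (hq : Dj q) :
    ∃ b : At E S, supp b = ⋃ c ∈ q, supp c := by
  induction hne using Finset.Nonempty.cons_induction with
  | singleton c => exact ⟨c, by simp⟩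
  | cons c q hc _ ih =>
    obtain ⟨b, hb⟩ := ih (hq.mono (Finset.subset_cons hc))
    obtain ⟨a, ha⟩ := exists_merge s (c₀ := c) (c₁ := b) (by
      rw [hb]
      refine disjoint_iUnion₂_right.2 fun c' hc' => hq c (Finset.mem_cons_self _ _) c'
        (Finset.mem_cons_of_mem hc') fun e => hc (e ▸ hc'))
    exact ⟨a, by rw [← ha.union, hb]; simp⟩

theorem v9_compl (s : S) {v : Finset (At E S)} (hv : Part v) {a c : At E S} (ha : a ∈ v)
    (hc : c ∈ v) (hca : c ≠ a) : ∃ b : At E S, supp b = (supp a)ᶜ := by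
  obtain ⟨b, hb⟩ := v9_merge s (q := v.erase a) ⟨c, Finset.mem_erase.2 ⟨hca, hc⟩⟩
    (hv.1.mono (Finset.erase_subset _ _))
  refine ⟨b, hb.trans (Set.ext fun κ => ?_)⟩
  simp only [mem_iUnion, Finset.mem_erase, mem_compl_iff]
  constructor
  · rintro ⟨d, ⟨hd, hd'⟩, h⟩
    exact Set.disjoint_left.1 (hv.1 d hd' a ha hd) h
  · intro h
    obtain ⟨d, hd, h'⟩ := hv.2 κ
    exact ⟨d, ⟨fun e => h (e ▸ h'), hd⟩, h'⟩

theorem v9_pfam {x y : At E S} (h : supp y = (supp x)ᶜ) :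
    PFam (fun b : Bool => rep (cond b x y)) univ := by
  constructor
  · rintro (_ | _) (_ | _) h'
    · exact absurd rfl h'
    · change Disjoint (supp y) (supp x)
      rw [h]
      exact disjoint_compl_left
    · change Disjoint (supp x) (supp y)
      rw [h]
      exact disjoint_compl_right
    · exact absurd rfl h'
  · refine eq_univ_of_forall fun κ => mem_iUnion.2 ?_
    by_cases hκ : κ ∈ supp x
    · exact ⟨true, hκ⟩
    · exact ⟨false, show κ ∈ supp y from h ▸ hκ⟩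

/-- If `a ∈ v`, `a' ∈ v'`, cut `a` into `v'.card` and `a'` into `v.card` pieces
(`exists_sub_card`); both partitions have `v.card + v'.card - 1` atoms; choose a bijection sending
`v \ {a}` into the pieces of `a'` (`exists_glue`). -/
theorem exists_compress (s : S) {v v' : Finset (At E S)} (hv : Part v) (hv' : Part v')
    {a a' : At E S} (ha : a ∈ v) (ha' : a' ∈ v') :
    ∃ k : SV E S, ∀ κ, κ ∉ supp a → k.1 κ ∈ supp a' := by
  classical
  by_cases h : ∃ c ∈ v, c ≠ a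
  swap
  · refine ⟨1, fun κ hκ => ?_⟩
    obtain ⟨c, hc, h'⟩ := hv.2 κ
    exact absurd ⟨c, hc, fun e => hκ (e ▸ h')⟩ h
  obtain ⟨c, hc, hca⟩ := h
  obtain ⟨b, hb⟩ := v9_compl s hv ha hc hca
  obtain ⟨q, hq, hq2⟩ := exists_sub_card s a' 1
  obtain ⟨a₀, a₁, h01, rfl⟩ := Finset.card_eq_two.1 hq2
  have hw := (hv'.biUnion (r := fun c => if c = a' then {a₀, a₁} else {c}) fun c _ => by
    split_ifs with h
    · exact h ▸ hq
    · exact Sub.refl c).1
  obtain ⟨b', hb'⟩ := v9_compl s hw (a := a₀) (c := a₁)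
    (Finset.mem_biUnion.2 ⟨a', ha', by simp⟩) (Finset.mem_biUnion.2 ⟨a', ha', by simp⟩) h01.symm
  obtain ⟨k, hk⟩ := exists_glue (v9_pfam hb)
    (v9_pfam (x := b') (y := a₀) (by rw [hb', compl_compl]))
  refine ⟨k, fun κ hκ => hq.supp_subset (c := a₀) (by simp) ?_⟩
  obtain ⟨x, rfl⟩ : κ ∈ supp b := hb ▸ hκ
  exact ⟨x, (congrFun (congrArg fn (hk false)) x).symm⟩

theorem v9_const {φ : S → List Bool} {x y : Cu S} (hx : x ∈ range (br φ)) (hy : y ∈ range (br φ))
    {s : S} {j : ℕ} (h : j < (φ s).length) : x s j = y s j :=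
  (mem_range_pre.1 (mem_range_br.1 hx s) j h).trans
    (mem_range_pre.1 (mem_range_br.1 hy s) j h).symm

/-- If `g κ ≠ κ`, say `g κ s j ≠ κ s j`, take a fine grid (`Fine.uniform`) whose cell `ψ` at `κ`
satisfies `g ∘ br ψ = br ψ' ∘ tw γ`; refining the grid in the coordinates `s` and `γ⁻¹ • s` to depth
`> j` makes the coordinate `(s, j)` constant on the cell and on its image. -/
theorem exists_displaced {g : SV E S} (hg : g ≠ 1) : ∃ (ψ : S → List Bool), FinS ψ ∧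
    Disjoint (range (br ψ)) (g.1 '' range (br ψ)) := by
  classical
  obtain ⟨κ, s, j, h⟩ : ∃ κ s j, g.1 κ s j ≠ κ s j := by
    by_contra! h
    exact hg (Subtype.ext (Equiv.ext fun κ => funext fun s => funext fun j => h κ s j))
  obtain ⟨F, m, hF⟩ := Fine.uniform (E := E) (f := g.1) g.2
  obtain ⟨ψ₀, ⟨hψ₀, y₀, rfl⟩, -⟩ := existsUnique_grid F m κ
  obtain ⟨ψ', γ, -, e⟩ := hF F m subset_rfl le_rfl ψ₀ hψ₀
  obtain ⟨θ, ⟨hθ, z₀, rfl⟩, -⟩ := existsUnique_grid {s, γ⁻¹ • s} (j + 1) y₀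
  have e' : g.1 ∘ br (fun t => ψ₀ t ++ θ t) = br (fun t => ψ' t ++ θ (γ⁻¹ • t)) ∘ tw γ := by
    rw [← br_comp, ← comp_assoc, e, comp_assoc, tw_comp_br, ← comp_assoc, br_comp]
  have h0 : br ψ₀ (br θ z₀) = br (fun t => ψ₀ t ++ θ t) z₀ := congrFun br_comp z₀
  refine ⟨fun t => ψ₀ t ++ θ t, hψ₀.finS.append hθ.finS, Set.disjoint_left.2 ?_⟩
  rintro x hx ⟨_, ⟨z, rfl⟩, hz⟩
  rw [h0] at h
  apply h
  have h1 : j < (ψ₀ s ++ θ s).length := by
    rw [List.length_append, hθ.1 s (by simp)]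
    omega
  have h2 : j < (ψ' s ++ θ (γ⁻¹ • s)).length := by
    rw [List.length_append, hθ.1 _ (by simp)]
    omega
  rw [← v9_const hx (mem_range_self z₀) h1]
  exact v9_const (φ := fun t => ψ' t ++ θ (γ⁻¹ • t)) ⟨_, (congrFun e' z₀).symm⟩
    ⟨_, (congrFun e' z).symm.trans hz⟩ h2

theorem v9_q1 {s : S} {b : Bool} {f : EM E S} {κ : Cu S} (h : κ ∈ range (fn (cut E s b * f))) :
    κ s 0 = b := by
  obtain ⟨x, rfl⟩ := h
  exact mem_range_half.1 ⟨fn f x, rfl⟩

theorem v9_q2 {s s' : S} (hs : s ≠ s') {b b' : Bool} {κ : Cu S}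
    (h : κ ∈ range (fn (cut E s b * cut E s' b'))) : κ s' 0 = b' := by
  rw [cut_comm hs] at h
  exact v9_q1 h

/-- two quarters miss a brick -/
theorem exists_brick_disjoint {s s' t t' : S} (hs : s ≠ s') (ht : t ≠ t') (b b' e e' : Bool) :
    ∃ (ψ : S → List Bool), FinS ψ ∧
      Disjoint (range (br ψ)) (range (fn (cut E s b * cut E s' b'))) ∧
      Disjoint (range (br ψ)) (range (fn (cut E t e * cut E t' e'))) := by
  have key : ∀ (u : S) (c : Bool), s ≠ u → ∃ ψ : S → List Bool, FinS ψ ∧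
      ∀ κ ∈ range (br ψ), κ s 0 ≠ b ∧ κ u 0 ≠ c := fun u c hu => by
    refine ⟨fun x => half s (!b) x ++ half u (!c) x, (finS_half _ _).append (finS_half _ _),
      fun κ hκ => ?_⟩
    rw [← br_comp] at hκ
    have h1 := v9_q1 (E := E) (f := cut E u (!c)) hκ
    have h2 := v9_q2 (E := E) hu hκ
    simp [h1, h2]
  by_cases h : s = t
  · obtain ⟨ψ, h1, h2⟩ := key t' e' (h ▸ ht)
    exact ⟨ψ, h1, Set.disjoint_left.2 fun κ hκ h' => (h2 κ hκ).1 (v9_q1 h'),
      Set.disjoint_left.2 fun κ hκ h' => (h2 κ hκ).2 (v9_q2 ht h')⟩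
  · obtain ⟨ψ, h1, h2⟩ := key t e h
    exact ⟨ψ, h1, Set.disjoint_left.2 fun κ hκ h' => (h2 κ hκ).1 (v9_q1 h'),
      Set.disjoint_left.2 fun κ hκ h' => (h2 κ hκ).2 (v9_q1 h')⟩

theorem v9_conj {x k : SV E S} {U V : Set (Cu S)} (hx : Sup x U) (h : ∀ κ ∈ U, k.1 κ ∈ V) :
    Sup (k * x * k⁻¹) V := fun κ hκ => by
  have h1 : k.1.symm κ ∉ U := fun h' => hκ (by simpa using h _ h')
  change k.1 (x.1 (k.1.symm κ)) = κ
  rw [hx _ h1, Equiv.apply_symm_apply]

/-- Higman's trick: if `x, y` are supported in `U` and `n U ∩ U = ∅` then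
`⁅x, y⁆ = ⁅⁅x, n⁆, y⁆`. -/
theorem commutator_mem {N : Subgroup (SV E S)} [N.Normal] {n x y : SV E S} (hn : n ∈ N)
    {U : Set (Cu S)} (hU : Disjoint U (n.1 '' U)) (hx : Sup x U) (hy : Sup y U) :
    x * y * x⁻¹ * y⁻¹ ∈ N := by
  have h1 : Sup (n * x * n⁻¹) (n.1 '' U) := v9_conj hx fun κ hκ => mem_image_of_mem _ hκ
  have h2 : Commute (n * x * n⁻¹) y := by
    refine Subtype.ext (Equiv.Perm.Disjoint.commute fun κ => ?_)
    by_cases hκ : κ ∈ U
    · exact Or.inl (h1 κ (Set.disjoint_left.1 hU hκ))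
    · exact Or.inr (hy κ hκ)
  have h3 : x * (n * x * n⁻¹)⁻¹ ∈ N := by
    have : x * (n * x * n⁻¹)⁻¹ = x * n * x⁻¹ * n⁻¹ := by group
    rw [this]
    exact N.mul_mem (Subgroup.Normal.conj_mem inferInstance n hn x) (N.inv_mem hn)
  have h4 : x * y * x⁻¹ * y⁻¹ = x * (n * x * n⁻¹)⁻¹ * (y * (x * (n * x * n⁻¹)⁻¹)⁻¹ * y⁻¹) := by
    generalize n * x * n⁻¹ = z at h2
    have h5 : z⁻¹ * y * z = y := by rw [mul_assoc, ← h2.eq, inv_mul_cancel_left]
    calc x * y * x⁻¹ * y⁻¹ = x * (z⁻¹ * y * z) * x⁻¹ * y⁻¹ := by rw [h5]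
      _ = _ := by group
  rw [h4]
  exact N.mul_mem h3 (Subgroup.Normal.conj_mem inferInstance _ (N.inv_mem h3) y)

/-- the twists -/
noncomputable def v9_tw : E →* SV E S :=
  MonoidHom.mk' (fun γ => ⟨Equiv.ofBijective (tw γ) (tw_bijective γ), (chart_tw γ).fine⟩)
    fun γ γ' => Subtype.ext (Equiv.ext fun κ => congrFun (tw_mul γ γ') κ)

theorem v9_tw_eq_one {γ : E} (h : v9_tw (S := S) γ = 1) (s : S) : γ • s = s :=
  smul_eq_of_tw_eq_id (funext fun κ => congrArg (fun g : SV E S => g.1 κ) h) s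

/-- generators supported in quarters commute modulo `N ≠ ⊥`, so `SV ⧸ N` is abelian and perfect;
nontriviality: swap two halves. -/
theorem isSimpleGroup_SV [Infinite S]
    (htr : ∀ (n : ℕ) (a b : Fin n ↪ S), ∃ g : E, ∀ i, g • a i = b i) :
    IsSimpleGroup (SV E S) := by
  obtain ⟨s₀, s₁, h01⟩ := exists_pair_ne S
  have : Nontrivial (SV E S) := by
    obtain ⟨γ, hγ⟩ := htr 1 ⟨fun _ => s₀, fun _ _ _ => Subsingleton.elim _ _⟩
      ⟨fun _ => s₁, fun _ _ _ => Subsingleton.elim _ _⟩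
    exact ⟨v9_tw γ, 1, fun h => h01 ((v9_tw_eq_one h s₀).symm.trans (hγ 0))⟩
  refine ⟨fun N hN => or_iff_not_imp_left.2 fun hN' => ?_⟩
  obtain ⟨⟨n, hn⟩, hn1⟩ := Subgroup.ne_bot_iff_exists_ne_one.1 hN'
  obtain ⟨ψ, hψ, hU⟩ := exists_displaced (g := n) fun h => hn1 (Subtype.ext h)
  obtain ⟨v', hv', ha'⟩ := exists_part_mem (E := E) ψ hψ
  let π := QuotientGroup.mk' N
  have hQ := closure_quarter htr
  set Q := {g : SV E S | ∃ s s' b b', s ≠ s' ∧ Sup g (range (fn (cut E s b * cut E s' b')))}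
  have h1 : ∀ x ∈ Q, ∀ y ∈ Q, Commute (π x) (π y) := by
    rintro x ⟨s, s', b, b', hs, hx⟩ y ⟨t, t', e, e', ht, hy⟩
    obtain ⟨φ, hφ, h2, h3⟩ := exists_brick_disjoint (E := E) hs ht b b' e e'
    obtain ⟨v, hv, ha⟩ := exists_part_mem (E := E) φ hφ
    obtain ⟨k, hk⟩ := exists_compress s hv hv' ha ha'
    simp only [supp_mk] at hk
    have h4 := commutator_mem hn hU
      (v9_conj (k := k) hx fun κ hκ => hk κ (Set.disjoint_right.1 h2 hκ))
      (v9_conj (k := k) hy fun κ hκ => hk κ (Set.disjoint_right.1 h3 hκ))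
    have h5 := hN.conj_mem _ h4 k⁻¹
    have h6 : k⁻¹ * (k * x * k⁻¹ * (k * y * k⁻¹) * (k * x * k⁻¹)⁻¹ * (k * y * k⁻¹)⁻¹) * k⁻¹⁻¹ =
        x * y * x⁻¹ * y⁻¹ := by group
    rw [h6, ← QuotientGroup.eq_one_iff] at h5
    rw [← commutatorElement_eq_one_iff_commute, ← map_commutatorElement]
    exact h5
  have h2 : ∀ x ∈ Q, ∀ y, Commute (π x) (π y) := fun x hx y => by
    have hy : y ∈ Subgroup.closure Q := hQ ▸ Subgroup.mem_top y
    induction hy using Subgroup.closure_induction with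
    | mem y hy => exact h1 x hx y hy
    | one => simp
    | mul a b _ _ ha hb => rw [map_mul]; exact ha.mul_right hb
    | inv a _ ha => rw [map_inv]; exact ha.inv_right
  have h3 : ∀ x y, Commute (π x) (π y) := fun x y => by
    have hx : x ∈ Subgroup.closure Q := hQ ▸ Subgroup.mem_top x
    induction hx using Subgroup.closure_induction with
    | mem x hx => exact h2 x hx y
    | one => simp
    | mul a b _ _ ha hb => rw [map_mul]; exact ha.mul_left hb
    | inv a _ ha => rw [map_inv]; exact ha.inv_left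
  rw [eq_top_iff, ← commutator_eq_top htr, commutator_def, Subgroup.commutator_le]
  intro x _ y _
  rw [← QuotientGroup.eq_one_iff]
  have := h3 x y
  rwa [← commutatorElement_eq_one_iff_commute, ← map_commutatorElement] at this

theorem exists_embedding (hf : ∀ g : E, (∀ s : S, g • s = s) → g = 1) :
    ∃ f : E →* SV E S, Injective f := by
  exact ⟨v9_tw, (injective_iff_map_eq_one _).2 fun γ h => hf γ (v9_tw_eq_one h)⟩

end Crest.Agent.R185.V
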