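import Crest.Agent.R185.Defs

/-!
# R185 part B: twisted Brin–Thompson groups, charts (definitions)

`Cu S` is the Cantor cube with coordinates in `S`.  Charts are the maps `br ψ ∘ tw γ` (permute the
coordinates, then prepend the words `ψ s`, almost all empty).  A map is `Fine` if it is locally of
the form `c' ∘ c⁻¹` for charts `c`, `c'`.
-/

set_option autoImplicit false

namespace Crest.Agent.R185.V

open Set Function

/-- the Cantor cube -/
abbrev Cu (S : Type) : Type := S → ℕ → Bool

/-- prepend a word -/
def pre : List Bool → (ℕ → Bool) → ℕ → Bool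
  | [], x => x
  | b :: l, x => fun n => Nat.casesOn n b (pre l x)

variable {E S : Type} [Group E] [MulAction E S]

/-- permute the coordinates -/
def tw (γ : E) (κ : Cu S) : Cu S := fun s => κ (γ⁻¹ • s)

/-- prepend the word `ψ s` to the coordinate `s` -/
def br (ψ : S → List Bool) (κ : Cu S) : Cu S := fun s => pre (ψ s) (κ s)

/-- almost all words are empty -/
def FinS (ψ : S → List Bool) : Prop := {s | ψ s ≠ []}.Finite

open Classical in
/-- the address of a half -/
noncomputable def half (s : S) (b : Bool) : S → List Bool := fun t => if t = s then [b] else []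

open Classical in
/-- the address of an elementary cell: the coordinates in `T` are cut, those in `B` get `true` -/
noncomputable def elem (T B : Finset S) : S → List Bool :=
  fun s => if s ∈ T then [decide (s ∈ B)] else []

/-- addresses of the cells of the grid of depth `m` in the coordinates `F` -/
def IsGrid (F : Finset S) (m : ℕ) (ψ : S → List Bool) : Prop :=
  (∀ s ∈ F, (ψ s).length = m) ∧ ∀ s, s ∉ F → ψ s = []

variable (E) in
/-- charts -/
def Chart (c : Cu S → Cu S) : Prop := ∃ (ψ : S → List Bool) (γ : E), FinS ψ ∧ c = br ψ ∘ tw γ

variable (E) in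
/-- locally of the form `c' ∘ c⁻¹` -/
def Fine (f : Cu S → Cu S) : Prop :=
  ∀ κ, ∃ c : Cu S → Cu S, Chart E c ∧ κ ∈ range c ∧ Chart E (f ∘ c)

end Crest.Agent.R185.V
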