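import Crest.Agent.R185.V0

/-!
# R185 part B: the group `SV`, atoms, guillotine partitions (definitions)
-/

set_option autoImplicit false

namespace Crest.Agent.R185.V

open Set Function

variable {E S : Type} [Group E] [MulAction E S]

variable (E S) in
/-- the monoid of fine injections -/
def EM : Submonoid (Function.End (Cu S)) where
  carrier := {f | Injective (f : Cu S → Cu S) ∧ Fine E (f : Cu S → Cu S)}
  one_mem' := ⟨injective_id, (chart_id (E := E)).fine⟩
  mul_mem' := fun ha hb => ⟨ha.1.comp hb.1, ha.2.comp hb.2⟩

variable (E S) in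
/-- the twisted Brin–Thompson group -/
def SV : Subgroup (Equiv.Perm (Cu S)) where
  carrier := {g | Fine E (g : Cu S → Cu S)}
  one_mem' := (chart_id (E := E)).fine
  mul_mem' := fun ha hb => ha.comp hb
  inv_mem' := fun ha => ha.symm

/-- the underlying function -/
def fn (f : EM E S) : Cu S → Cu S := f.1

theorem fn_mul (f g : EM E S) : fn (f * g) = fn f ∘ fn g := rfl

theorem fn_one : fn (1 : EM E S) = id := rfl

theorem fn_injective (f : EM E S) : Injective (fn f) := f.2.1

theorem fn_fine (f : EM E S) : Fine E (fn f) := f.2.2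

theorem EM.ext {f g : EM E S} (h : fn f = fn g) : f = g := Subtype.ext h

/-- group elements as fine injections -/
def toEM : SV E S →* EM E S where
  toFun g := ⟨(g.1 : Cu S → Cu S), g.1.injective, g.2⟩
  map_one' := rfl
  map_mul' _ _ := rfl

theorem fn_toEM (g : SV E S) : fn (toEM g) = g.1 := rfl

/-- a chart as a fine injection -/
def ofChart (c : Cu S → Cu S) (h : Chart E c) : EM E S := ⟨c, h.injective, h.fine⟩

variable (S) in
/-- twists -/
def twE : E →* EM E S where
  toFun γ := ofChart (tw γ) (chart_tw γ)
  map_one' := EM.ext tw_one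
  map_mul' a b := EM.ext (tw_mul a b)

variable (E) in
/-- bricks -/
def brE (ψ : S → List Bool) (h : FinS ψ) : EM E S := ofChart (br ψ) (chart_br h)

variable (E) in
/-- halves -/
noncomputable def cut (s : S) (b : Bool) : EM E S := brE E (half s b) (finS_half s b)

variable (E S) in
/-- fine injections up to twists -/
def atSetoid : Setoid (EM E S) where
  r f g := ∃ γ : E, g = f * twE S γ
  iseqv :=
    { refl := fun f => ⟨1, by rw [map_one, mul_one]⟩
      symm := fun ⟨γ, h⟩ => ⟨γ⁻¹, by rw [h, mul_assoc, ← map_mul, mul_inv_cancel, map_one, mul_one]⟩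
      trans := fun ⟨γ, h⟩ ⟨γ', h'⟩ => ⟨γ * γ', by rw [h', h, map_mul, mul_assoc]⟩ }

variable (E S) in
/-- atoms -/
def At : Type := Quotient (atSetoid E S)

noncomputable instance : DecidableEq (At E S) := Classical.decEq _

/-- the atom of a fine injection -/
def mk (f : EM E S) : At E S := Quotient.mk (atSetoid E S) f

theorem mk_eq_mk {f g : EM E S} : mk f = mk g ↔ ∃ γ : E, g = f * twE S γ := Quotient.eq

/-- a representative -/
noncomputable def rep (a : At E S) : EM E S := Quotient.out a

theorem mk_rep (a : At E S) : mk (rep a) = a := Quotient.out_eq a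

instance : MulAction (EM E S) (At E S) where
  smul f := Quotient.map (fun g => f * g) fun _ _ ⟨γ, h⟩ => ⟨γ, by rw [h, mul_assoc]⟩
  one_smul a := Quotient.inductionOn a fun g => congrArg mk (one_mul g)
  mul_smul f f' a := Quotient.inductionOn a fun g => congrArg mk (mul_assoc f f' g)

theorem smul_mk (f g : EM E S) : f • mk g = mk (f * g) := rfl

/-- the support of an atom -/
def supp (a : At E S) : Set (Cu S) := range (fn (rep a))

/-- `a` is cut into the halves `a₀`, `a₁` -/
def Cut (a a₀ a₁ : At E S) : Prop :=
  ∃ (f : EM E S) (s : S), a = mk f ∧ a₀ = mk (f * cut E s false) ∧ a₁ = mk (f * cut E s true)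

/-- guillotine partitions of an atom -/
inductive Sub : At E S → Finset (At E S) → Prop
  | refl (a : At E S) : Sub a {a}
  | node {a a₀ a₁ : At E S} {q₀ q₁ : Finset (At E S)} :
      Cut a a₀ a₁ → Sub a₀ q₀ → Sub a₁ q₁ → Sub a (q₀ ∪ q₁)

/-- pairwise disjoint supports -/
def Dj (q : Finset (At E S)) : Prop := ∀ a ∈ q, ∀ b ∈ q, a ≠ b → Disjoint (supp a) (supp b)

/-- partitions of the cube -/
def Part (v : Finset (At E S)) : Prop := Dj v ∧ ∀ κ, ∃ a ∈ v, κ ∈ supp a

open Classical in
/-- the atoms of `v` inside `a` -/
noncomputable def res (v : Finset (At E S)) (a : At E S) : Finset (At E S) :=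
  v.filter fun c => supp c ⊆ supp a

/-- `v` is obtained from `u` by cutting -/
def Le (u v : Finset (At E S)) : Prop := ∀ a ∈ u, Sub a (res v a)

open Classical in
/-- replace the atoms of `v` inside the elements of `M` by these elements -/
noncomputable def mrg (v M : Finset (At E S)) : Finset (At E S) :=
  M ∪ v.filter fun c => ∀ a ∈ M, ¬supp c ⊆ supp a

/-- the directions in which all atoms of `q` are cut -/
def dirs (f : EM E S) (q : Finset (At E S)) : Set S :=
  {s | ∀ c ∈ q, ∃ b, supp c ⊆ supp (mk (f * cut E s b))}

/-- the elementary partition -/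
noncomputable def el (f : EM E S) (T : Finset S) : Finset (At E S) :=
  T.powerset.image fun B => mk (f * brE E (elem T B) (finS_elem T B))

/-- families of fine injections whose ranges partition `U` -/
def PFam {ι : Type} (f : ι → EM E S) (U : Set (Cu S)) : Prop :=
  (∀ i j, i ≠ j → Disjoint (range (fn (f i))) (range (fn (f j)))) ∧ ⋃ i, range (fn (f i)) = U

end Crest.Agent.R185.V
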