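import Crest.Agent.R185.V1
import Crest.Agent.R185.ADef

/-!
# R185 part B: the poset of partitions (definitions)
-/

set_option autoImplicit false

namespace Crest.Agent.R185.V

open Set Function

variable {E S : Type} [Group E] [MulAction E S]

variable (E S) in
/-- partitions of the cube into atoms -/
def Vx : Type := {v : Finset (At E S) // Part v}

instance : PartialOrder (Vx E S) where
  le u v := Le u.1 v.1
  le_refl v := Le.refl v.2
  le_trans _ v w h h' := Le.trans v.2 w.2 h h'
  le_antisymm u v h h' := Subtype.ext (Le.eq_of_card_le u.2 v.2 h (Le.card_le v.2 u.2 h'))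

theorem Vx.le_def {u v : Vx E S} : u ≤ v ↔ Le u.1 v.1 := Iff.rfl

noncomputable instance : MulAction (SV E S) (Vx E S) where
  smul g v := ⟨v.1.image fun a => toEM g • a, v.2.smul g⟩
  one_smul v := Subtype.ext (by
    change v.1.image (fun a => toEM (1 : SV E S) • a) = v.1
    simp only [map_one, one_smul, Finset.image_id'])
  mul_smul g h v := Subtype.ext (by
    change v.1.image (fun a => toEM (g * h) • a) =
      (v.1.image fun a => toEM h • a).image fun a => toEM g • a
    rw [Finset.image_image]
    simp only [map_mul, mul_smul]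
    rfl)

theorem Vx.smul_val (g : SV E S) (v : Vx E S) : (g • v).1 = v.1.image fun a => toEM g • a := rfl

theorem Vx.smul_le (g : SV E S) (u v : Vx E S) (h : u ≤ v) : g • u ≤ g • v := Le.smul h _

/-- the number of atoms of `v` inside `a` -/
noncomputable def sz (v : Vx E S) (a : At E S) : ℕ := (res v.1 a).card

/-- the number of merges inside big roots -/
noncomputable def NN (v u : Vx E S) : ℕ := ∑ a ∈ u.1 with 3 ≤ sz v a, (sz v a - 1)

/-- the complex of disjoint simple merges of atoms of `Z` -/
def Mt (Z : Finset (At E S)) : Set (Finset (At E S)) :=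
  {M | M.Nonempty ∧ Dj M ∧ ∀ a ∈ M, ∃ c₀ ∈ Z, ∃ c₁ ∈ Z, Cut a c₀ c₁}

/-- the lower part of the descending link of `u ≤ v` -/
def Dn (v u : Vx E S) : Set (Vx E S) := {p | p < u ∧ ∀ a ∈ p.1, a ∈ u.1 ∨ sz v a ≤ 2}

/-- the upper part of the descending link of `u ≤ v` -/
def Up (v u : Vx E S) : Set (Vx E S) := {p | u < p ∧ p < v ∧ ∃ a ∈ u.1, 3 ≤ sz v a ∧ a ∉ p.1}

/-- `g` does not involve the coordinate `s` -/
def Cm (g : SV E S) (s : S) : Prop := ∀ b, toEM g * cut E s b = cut E s b * toEM g

/-- `g` is supported in `U` -/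
def Sup (g : SV E S) (U : Set (Cu S)) : Prop := ∀ κ, κ ∉ U → g.1 κ = κ

end Crest.Agent.R185.V
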