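import Crest.Agent.R185.V7
import Crest.Agent.R185.V9

/-!
# R185 part B: an oligomorphic action with `F∞` stabilisers embeds in a simple `F∞` group
-/

set_option autoImplicit false

namespace Crest.Agent.R185

theorem exists_simple {E S : Type} [Group E] [MulAction E S] {χ : E →* Multiplicative ℤ}
    (h : Oligo E S χ) : ∃ (Γ : Type) (_ : Group Γ) (f : E →* Γ),
      IsSimpleGroup Γ ∧ CCinf Γ ∧ Function.Injective f := by
  have := h.infinite
  have htr : ∀ (n : ℕ) (a b : Fin n ↪ S), ∃ g : E, ∀ i, g • a i = b i := fun n a b =>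
    let ⟨g, _, hg⟩ := h.trans n a b; ⟨g, hg⟩
  obtain ⟨f, hf⟩ := V.exists_embedding h.faithful
  exact ⟨V.SV E S, inferInstance, f, V.isSimpleGroup_SV htr, V.ccinf_SV h.faithful htr h.cc, hf⟩

end Crest.Agent.R185
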