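import Crest.Agent.R185.WDef

/-!
# R185 TASK W0: topology of the cell complexes
-/

set_option autoImplicit false

namespace Crest.Agent.R185

open Set Metric Filter
open scoped _root_.Topology

variable {G : Type} [Group G]

namespace CD

variable {D D' : CD G} {m n i : ℕ} {g : G}

theorem Sk.mono {m m' : ℕ} (h : m ≤ m') : D.Sk m ⊆ D.Sk m' := by
  exact fun _ hp => ⟨hp.1, lt_of_lt_of_le hp.2 h⟩

theorem Sk_subset_All : D.Sk m ⊆ D.All := by
  exact fun _ hp => hp.1

theorem Sk_zero : D.Sk 0 = ∅ := by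
  exact eq_empty_of_forall_notMem fun _ hp => Nat.not_lt_zero _ hp.2

theorem smul_mem_All {p : CPt G} : g • p ∈ D.All ↔ p ∈ D.All := by
  exact Iff.rfl

theorem smul_mem_Sk {p : CPt G} : g • p ∈ D.Sk m ↔ p ∈ D.Sk m := by
  exact Iff.rfl

theorem chr_smul (h : G) (x : Fin n → ℝ) : h • D.chr n g i x = D.chr n (h * g) i x := by
  unfold chr
  split_ifs
  · rfl
  · exact (mul_smul h g _).symm

theorem chr_of_lt {x : Fin n → ℝ} (hx : ‖x‖ < 1) : D.chr n g i x = ⟨n, g, i, x⟩ := by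
  exact if_pos hx

theorem chr_of_mem_sph {x : Fin n → ℝ} (hx : x ∈ Sph n) : D.chr n g i x = g • D.att n i x := by
  exact if_neg (by rw [mem_sphere_zero_iff_norm.1 hx]; exact lt_irrefl _)

theorem chr_self {p : CPt G} (hp : p ∈ D.All) : D.chr p.n p.g p.i p.x = p := by
  exact chr_of_lt hp.2

theorem w0_bal {x : Fin n → ℝ} (hx : x ∈ Bal n) : ‖x‖ < 1 ∨ x ∈ Sph n :=
  (mem_closedBall_zero_iff.1 hx).lt_or_eq.imp_right mem_sphere_zero_iff_norm.2

theorem WF.chr_mem (hD : D.WF) (hi : i < D.N n) : MapsTo (D.chr n g i) (Bal n) (D.Sk (n + 1)) := by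
  intro x hx
  rcases w0_bal hx with h | h
  · rw [chr_of_lt h]
    exact ⟨⟨hi, h⟩, Nat.lt_succ_self n⟩
  · rw [chr_of_mem_sph h]
    exact Sk.mono (Nat.le_succ n) (hD.maps n i hi h)

theorem WF.chr_mem_sph (hD : D.WF) (hi : i < D.N n) : MapsTo (D.chr n g i) (Sph n) (D.Sk n) := by
  intro x h
  rw [chr_of_mem_sph h]
  exact hD.maps n i hi h

theorem w0_topC {A : Set (CPt G)} :
    IsClosed[D.topC n g i] A ↔ IsClosed (Bal n ∩ D.chr n g i ⁻¹' A) := by
  unfold topC
  rw [isClosed_coinduced, isClosed_closedBall.isClosedEmbedding_subtypeVal.isClosed_iff_image_isClosed]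
  exact iff_of_eq (congrArg IsClosed (Subtype.image_preimage_coe (Bal n) (D.chr n g i ⁻¹' A)))

theorem continuousOn_chr (hi : i < D.N n) : ContinuousOn (Y := D.Z) (D.chr n g i) (Bal n) := by
  rw [continuousOn_iff_continuous_domRestrict, continuous_iff_coinduced_le]
  exact le_iSup_of_le n (le_iSup_of_le g (le_iSup_of_le i (le_iSup_of_le hi le_rfl)))

theorem isClosed_iff {A : Set D.Z} : IsClosed A ↔
    ∀ n g i, i < D.N n → IsClosed (Bal n ∩ D.chr n g i ⁻¹' A) := by
  change IsClosed[D.top] A ↔ _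
  unfold top
  simp only [isClosed_iSup_iff]
  exact forall_congr' fun n => forall_congr' fun g => forall_congr' fun i =>
    forall_congr' fun _ => w0_topC

theorem isClosed_iffL {A : Set (D.ZL m)} : IsClosed A ↔
    ∀ n < m, ∀ g i, i < D.N n → IsClosed (Bal n ∩ D.chr n g i ⁻¹' A) := by
  change IsClosed[D.topL m] A ↔ _
  unfold topL
  simp only [isClosed_iSup_iff]
  exact forall_congr' fun n => forall_congr' fun _ => forall_congr' fun g => forall_congr' fun i =>
    forall_congr' fun _ => w0_topC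

theorem w0_pre (h : G) (A : Set (CPt G)) :
    D.chr n g i ⁻¹' ((fun p : CPt G => h • p) ⁻¹' A) = D.chr n (h * g) i ⁻¹' A := by
  ext x
  simp only [mem_preimage, chr_smul]

theorem w0_smulL (h : G) {A : Set (CPt G)} (hA : IsClosed (X := D.ZL m) A) :
    IsClosed (X := D.ZL m) ((fun p : CPt G => h • p) ⁻¹' A) := by
  refine isClosed_iffL.2 fun n hn g i hi => ?_
  have := isClosed_iffL.1 hA n hn (h * g) i hi
  rw [← w0_pre] at this
  exact this

instance : ContinuousConstSMul G D.Z := by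
  refine ⟨fun h => continuous_iff_isClosed.2 fun A hA => isClosed_iff.2 fun n g i hi => ?_⟩
  have := isClosed_iff.1 hA n (h * g) i hi
  rw [← w0_pre] at this
  exact this

/-- For `A ⊆ Sk m` closed for `topL m` one shows by induction on `k ≥ m` that `A` is closed for
`topL k`: for `n ≥ m` the preimage under `chr n g i` is `Sph n ∩ att ⁻¹' (g⁻¹ • A)`. -/
theorem WF.isClosed_iff_L (hD : D.WF) {A : Set (CPt G)} (hA : A ⊆ D.Sk m) :
    IsClosed (X := D.Z) A ↔ IsClosed (X := D.ZL m) A := by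
  refine ⟨fun h => isClosed_iffL.2 fun n _ g i hi => isClosed_iff.1 h n g i hi,
    fun h => isClosed_iff.2 fun n => ?_⟩
  induction n using Nat.strong_induction_on with
  | _ n ih =>
    intro g i hi
    rcases lt_or_ge n m with hn | hn
    · exact isClosed_iffL.1 h n hn g i hi
    · have h1 : IsClosed (X := D.ZL n) A := isClosed_iffL.2 ih
      have h2 := (hD.cont n i hi).preimage_isClosed_of_isClosed isClosed_sphere (w0_smulL g h1)
      convert h2 using 1
      ext x
      constructor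
      · rintro ⟨hx, hx'⟩
        rcases w0_bal hx with h3 | h3
        · rw [mem_preimage, chr_of_lt h3] at hx'
          exact absurd (hA hx').2 (not_lt.2 hn)
        · rw [mem_preimage, chr_of_mem_sph h3] at hx'
          exact ⟨h3, hx'⟩
      · rintro ⟨hx, hx'⟩
        refine ⟨sphere_subset_closedBall hx, ?_⟩
        rw [mem_preimage, chr_of_mem_sph hx]
        exact hx'

theorem WF.w0_isClosed_SkL (hD : D.WF) : IsClosed (X := D.ZL m) (D.Sk m) := by
  refine isClosed_iffL.2 fun n hn g i hi => ?_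
  have e : Bal n ∩ D.chr n g i ⁻¹' D.Sk m = Bal n :=
    inter_eq_left.2 fun x hx => Sk.mono hn (hD.chr_mem hi hx)
  exact (congrArg IsClosed e).mpr isClosed_closedBall

theorem WF.isClosed_Sk (hD : D.WF) : IsClosed (X := D.Z) (D.Sk m) := by
  exact (hD.isClosed_iff_L subset_rfl).2 hD.w0_isClosed_SkL

theorem WF.isClopen_All (hD : D.WF) : IsClopen (X := D.Z) D.All := by
  refine ⟨isClosed_iff.2 fun n g i hi => ?_, isClosed_compl_iff.1 (isClosed_iff.2 fun n g i hi => ?_)⟩
  · have e : Bal n ∩ D.chr n g i ⁻¹' D.All = Bal n :=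
      inter_eq_left.2 fun x hx => (hD.chr_mem hi hx).1
    exact (congrArg IsClosed e).mpr isClosed_closedBall
  · have e : Bal n ∩ D.chr n g i ⁻¹' D.Allᶜ = ∅ :=
      eq_empty_of_forall_notMem fun x hx => hx.2 (hD.chr_mem hi hx.1).1
    exact (congrArg IsClosed e).mpr isClosed_empty

theorem w0_nhds {X : Type} (t t' : TopologicalSpace X) {S : Set X} (hS : IsClosed[t'] S)
    (h : ∀ A ⊆ S, IsClosed[t'] A → IsClosed[t] A) {p : X} :
    @nhdsWithin X t p S ≤ @nhdsWithin X t' p S := by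
  intro s hs
  obtain ⟨U, hU, hp, hs⟩ := (@mem_nhdsWithin X t' _ _ _).1 hs
  have h1 : IsClosed[t] (S ∩ Uᶜ) :=
    h _ inter_subset_left (by letI := t'; exact hS.inter hU.isClosed_compl)
  refine (@mem_nhdsWithin X t _ _ _).2 ⟨(S ∩ Uᶜ)ᶜ, @IsClosed.isOpen_compl X t _ h1,
    fun h2 => h2.2 hp, fun x hx => hs ⟨?_, hx.2⟩⟩
  by_contra h3
  exact hx.1 ⟨hx.2, h3⟩

theorem WF.nhdsWithin_eq (hD : D.WF) {p : CPt G} (hp : p ∈ D.Sk m) :
    nhdsWithin (X := D.Z) p (D.Sk m) = nhdsWithin (X := D.ZL m) p (D.Sk m) := by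
  exact le_antisymm
    (w0_nhds D.top (D.topL m) hD.w0_isClosed_SkL fun A hA h => (hD.isClosed_iff_L hA).2 h)
    (w0_nhds (D.topL m) D.top hD.isClosed_Sk fun A hA h => (hD.isClosed_iff_L hA).1 h)

theorem w0_cont {X Y : Type*} [TopologicalSpace X] [TopologicalSpace Y] {f : X → Y} {K : Set X}
    {S : Set Y} (hm : MapsTo f K S) :
    ContinuousOn f K ↔ ∀ x ∈ K, Tendsto f (𝓝[K] x) (𝓝[S] (f x)) :=
  ⟨fun h x hx => (h x hx).tendsto_nhdsWithin hm,
    fun h x hx => (h x hx).mono_right nhdsWithin_le_nhds⟩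

theorem WF.continuousOn_iff_L (hD : D.WF) {X : Type*} [TopologicalSpace X] {f : X → CPt G}
    {K : Set X} (hm : MapsTo f K (D.Sk m)) :
    ContinuousOn (Y := D.Z) f K ↔ ContinuousOn (Y := D.ZL m) f K := by
  refine (w0_cont (Y := D.Z) hm).trans (Iff.trans ?_ (w0_cont (Y := D.ZL m) hm).symm)
  refine forall_congr' fun x => forall_congr' fun hx => ?_
  exact iff_of_eq (congrArg (Tendsto f (𝓝[K] x)) (hD.nhdsWithin_eq (hm hx)))

theorem WF.continuousOn_att (hD : D.WF) (hi : i < D.N n) :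
    ContinuousOn (Y := D.Z) (D.att n i) (Sph n) := by
  exact (hD.continuousOn_iff_L (hD.maps n i hi)).2 (hD.cont n i hi)

section out

variable {Y : Type*} [TopologicalSpace Y]

theorem WF.continuousOn_Sk (hD : D.WF) {F : D.Z → Y}
    (h : ∀ n < m, ∀ g i, i < D.N n → ContinuousOn (fun x => F (D.chr n g i x)) (Bal n)) :
    ContinuousOn F (D.Sk m) := by
  have h1 : Continuous (X := D.ZL m) F :=
    continuous_iff_isClosed.2 fun A hA => isClosed_iffL.2 fun n hn g i hi =>
      (h n hn g i hi).preimage_isClosed_of_isClosed isClosed_closedBall hA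
  intro p hp
  have h2 : Tendsto F (nhdsWithin (X := D.ZL m) p (D.Sk m)) (𝓝 (F p)) :=
    h1.continuousWithinAt (α := D.ZL m)
  rw [← hD.nhdsWithin_eq hp] at h2
  exact h2

theorem WF.continuousOn_All (hD : D.WF) {F : D.Z → Y}
    (h : ∀ n g i, i < D.N n → ContinuousOn (fun x => F (D.chr n g i x)) (Bal n)) :
    ContinuousOn F D.All := by
  exact (continuous_iff_isClosed.2 fun A hA => isClosed_iff.2 fun n g i hi =>
    (h n g i hi).preimage_isClosed_of_isClosed isClosed_closedBall hA).continuousOn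

theorem w0_uncurry {X : Type*} [TopologicalSpace X] {S : Set X} {H : X → ℝ → Y}
    {c : C(Icc (0 : ℝ) 1, Y)} (h1 : ∀ p ∈ S, ContinuousOn (H p) (Icc 0 1))
    (h2 : ContinuousOn (fun p => ContinuousMap.mkD ((Icc (0 : ℝ) 1).domRestrict (H p)) c) S) :
    ContinuousOn (Function.uncurry H) (S ×ˢ Icc 0 1) := by
  have h3 : ContinuousOn (fun q : X × ℝ => ContinuousMap.mkD ((Icc (0 : ℝ) 1).domRestrict (H q.1)) c
      (projIcc 0 1 zero_le_one q.2)) (S ×ˢ Icc 0 1) :=
    ContinuousOn.eval (h2.comp continuous_fst.continuousOn fun q hq => hq.1)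
      (continuous_projIcc.comp continuous_snd).continuousOn
  refine h3.congr fun q hq => ?_
  beta_reduce
  rw [ContinuousMap.mkD_apply_of_continuousOn (h1 q.1 hq.1), projIcc_of_mem _ hq.2]
  rfl

theorem w0_slice {H : D.Z → ℝ → Y} {p : CPt G} (hp : p ∈ D.All)
    (h : ContinuousOn (fun q : (Fin p.n → ℝ) × ℝ => H (D.chr p.n p.g p.i q.1) q.2) (Cyl p.n)) :
    ContinuousOn (H p) (Icc 0 1) := by
  have h1 := h.comp (Continuous.prodMk_right p.x).continuousOn
    (fun t (ht : t ∈ Icc (0 : ℝ) 1) => ⟨mem_closedBall_zero_iff.2 hp.2.le, ht⟩)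
  refine h1.congr fun t _ => ?_
  simp only [Function.comp_apply, chr_self hp]

/-- curry: apply `continuousOn_Sk` to the map into `C(Icc 0 1, Y)` (`ContinuousMap.curry`,
`ContinuousMap.continuous_uncurry_of_continuous`) -/
theorem WF.continuousOn_Sk_prod (hD : D.WF) {H : D.Z → ℝ → Y}
    (h : ∀ n < m, ∀ g i, i < D.N n →
      ContinuousOn (fun q : (Fin n → ℝ) × ℝ => H (D.chr n g i q.1) q.2) (Cyl n)) :
    ContinuousOn (Function.uncurry H) ((D.Sk m : Set D.Z) ×ˢ Icc 0 1) := by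
  refine w0_uncurry (c := .const _ (H (⟨0, 1, 0, 0⟩ : CPt G) 0))
    (fun p hp => w0_slice hp.1 (h _ hp.2 _ _ hp.1.1)) (hD.continuousOn_Sk fun n hn g i hi => ?_)
  exact ContinuousMap.continuousOn_mkD_restrict_of_uncurry (fun x => H (D.chr n g i x)) _
    (h n hn g i hi)

theorem WF.continuousOn_All_prod (hD : D.WF) {H : D.Z → ℝ → Y}
    (h : ∀ n g i, i < D.N n →
      ContinuousOn (fun q : (Fin n → ℝ) × ℝ => H (D.chr n g i q.1) q.2) (Cyl n)) :
    ContinuousOn (Function.uncurry H) ((D.All : Set D.Z) ×ˢ Icc 0 1) := by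
  refine w0_uncurry (c := .const _ (H (⟨0, 1, 0, 0⟩ : CPt G) 0))
    (fun p hp => w0_slice hp (h _ _ _ hp.1)) (hD.continuousOn_All fun n g i hi => ?_)
  exact ContinuousMap.continuousOn_mkD_restrict_of_uncurry (fun x => H (D.chr n g i x)) _
    (h n g i hi)

end out

theorem Agree.symm (h : Agree m D D') : Agree m D' D := by
  exact fun n hn => ⟨(h n hn).1.symm, (h n hn).2.symm⟩

theorem Agree.mono {m' : ℕ} (h : Agree m D D') (hm : m' ≤ m) : Agree m' D D' := by
  exact fun n hn => h n (lt_of_lt_of_le hn hm)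

theorem Agree.trans {D'' : CD G} (h : Agree m D D') (h' : Agree m D' D'') : Agree m D D'' := by
  exact fun n hn => ⟨(h n hn).1.trans (h' n hn).1, (h n hn).2.trans (h' n hn).2⟩

theorem Agree.Sk_eq (h : Agree m D D') {j : ℕ} (hj : j ≤ m) : D.Sk j = D'.Sk j := by
  ext p
  refine and_congr_left fun hp => and_congr_left fun _ => ?_
  rw [(h p.n (lt_of_lt_of_le hp hj)).1]

theorem Agree.chr_eq (h : Agree m D D') (hn : n < m) : D.chr n g i = D'.chr n g i := by
  funext x
  unfold chr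
  rw [(h n hn).2]

theorem Agree.topL_eq (h : Agree m D D') : D.topL m = D'.topL m := by
  unfold topL topC
  refine iSup_congr fun n => iSup_congr fun hn => iSup_congr fun g => iSup_congr fun i => ?_
  rw [(h n hn).1, h.chr_eq hn]

theorem Agree.continuousOn_to (h : Agree m D D') (hD : D.WF) (hD' : D'.WF) {X : Type*}
    [TopologicalSpace X] {f : X → CPt G} {K : Set X} (hm : MapsTo f K (D.Sk m))
    (hf : ContinuousOn (Y := D.Z) f K) : ContinuousOn (Y := D'.Z) f K := by
  have h1 : @ContinuousOn X (CPt G) _ (D.topL m) f K := (hD.continuousOn_iff_L hm).1 hf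
  rw [h.topL_eq] at h1
  rw [h.Sk_eq le_rfl] at hm
  exact (hD'.continuousOn_iff_L hm).2 h1

theorem Agree.continuousOn_from (h : Agree m D D') (hD : D.WF) (hD' : D'.WF) {Y : Type*}
    [TopologicalSpace Y] {F : CPt G → Y} (hF : ContinuousOn (X := D.Z) F (D.Sk m)) :
    ContinuousOn (X := D'.Z) F (D'.Sk m) := by
  intro p hp
  have hp' : p ∈ D.Sk m := by rw [h.Sk_eq le_rfl]; exact hp
  have h1 : Tendsto F (nhdsWithin (X := D.Z) p (D.Sk m)) (𝓝 (F p)) := hF p hp'
  rw [hD.nhdsWithin_eq hp'] at h1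
  have h2 : Tendsto F (@nhdsWithin (CPt G) (D.topL m) p (D.Sk m)) (𝓝 (F p)) := h1
  rw [h.topL_eq, h.Sk_eq le_rfl] at h2
  have h3 : Tendsto F (nhdsWithin (X := D'.ZL m) p (D'.Sk m)) (𝓝 (F p)) := h2
  rw [← hD'.nhdsWithin_eq hp] at h3
  exact h3

theorem Agree.sp {j : ℕ} (h : Agree (j + 1) D D') (hD : D.WF) (hD' : D'.WF) (hs : D.SP j) :
    D'.SP j := by
  intro f hf hm
  have hm' : MapsTo f (Sph j) (D'.Sk (j + 1)) := hm.mono_right (Sk.mono (Nat.le_succ j))
  have hm'' : MapsTo f (Sph j) (D.Sk j) := by rw [h.Sk_eq (Nat.le_succ j)]; exact hm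
  obtain ⟨F, h1, h2, h3⟩ := hs f (h.symm.continuousOn_to hD' hD hm' hf) hm''
  refine ⟨F, h.continuousOn_to hD hD' h2 h1, ?_, h3⟩
  rw [← h.Sk_eq le_rfl]
  exact h2

/-- attaching finitely many orbits of `m`-cells (and forgetting all higher cells) -/
theorem WF.attach (hD : D.WF) (m : ℕ) {ι : Type} [Finite ι] (s : ι → (Fin m → ℝ) → CPt G)
    (hs : ∀ k, ContinuousOn (Y := D.Z) (s k) (Sph m)) (hm : ∀ k, MapsTo (s k) (Sph m) (D.Sk m)) :
    ∃ D' : CD G, D'.WF ∧ Agree m D D' ∧ ∀ k, TFl (Y := D'.Z) m (D'.Sk (m + 1)) (s k) := by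
  classical
  obtain ⟨r, ⟨e⟩⟩ := Finite.exists_equiv_fin ι
  let a : ℕ → (Fin m → ℝ) → CPt G := fun i =>
    if h : i < r then s (e.symm ⟨i, h⟩) else D.att m i
  let D' : CD G := ⟨fun n => if n < m then D.N n else if n = m then r else 0,
    Function.update D.att m a⟩
  have hag : Agree m D D' := fun n hn =>
    ⟨(if_pos hn).symm, (Function.update_of_ne hn.ne _ _).symm⟩
  have hN : D'.N m = r := (if_neg (lt_irrefl m)).trans (if_pos rfl)
  have hatt : ∀ i (h : i < r), D'.att m i = s (e.symm ⟨i, h⟩) := fun i h =>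
    (congrFun (Function.update_self m a D.att) i).trans (dif_pos h)
  have key : ∀ n i, i < D'.N n → MapsTo (D'.att n i) (Sph n) (D.Sk n) ∧
      ContinuousOn (Y := D.ZL n) (D'.att n i) (Sph n) ∧ n ≤ m := by
    intro n i hi
    rcases lt_trichotomy n m with hn | rfl | hn
    · rw [← (hag n hn).1] at hi
      rw [← (hag n hn).2]
      exact ⟨hD.maps n i hi, hD.cont n i hi, hn.le⟩
    · rw [hN] at hi
      rw [hatt i hi]
      exact ⟨hm _, (hD.continuousOn_iff_L (hm _)).1 (hs _), le_rfl⟩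
    · have : D'.N n = 0 := (if_neg hn.not_gt).trans (if_neg hn.ne')
      omega
  have hD' : D'.WF := by
    refine ⟨fun n i hi => ?_, fun n i hi => ?_⟩
    · obtain ⟨h1, -, h3⟩ := key n i hi
      rw [← hag.Sk_eq h3]
      exact h1
    · obtain ⟨-, h2, h3⟩ := key n i hi
      have h4 : @ContinuousOn _ (CPt G) _ (D.topL n) (D'.att n i) (Sph n) := h2
      rw [(hag.mono h3).topL_eq] at h4
      exact h4
  refine ⟨D', hD', hag, fun k => ?_⟩
  have hk : (e k : ℕ) < D'.N m := (e k).2.trans_eq hN.symm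
  refine ⟨D'.chr m 1 (e k), continuousOn_chr hk, hD'.chr_mem hk, fun x hx => ?_⟩
  rw [chr_of_mem_sph hx, one_smul, hatt _ (e k).2, Fin.eta, e.symm_apply_apply]

/-- the limit `D∞ n = D (n+1) n` -/
theorem exists_limit (Ds : ℕ → CD G) (hw : ∀ m, (Ds m).WF) (ha : ∀ m, Agree m (Ds m) (Ds (m + 1))) :
    ∃ D : CD G, D.WF ∧ ∀ m, Agree m (Ds m) D := by
  have h1 : ∀ m k, m ≤ k → Agree m (Ds m) (Ds k) := by
    intro m k hk
    induction k, hk using Nat.le_induction with
    | base => exact fun _ _ => ⟨rfl, rfl⟩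
    | succ k hk ih => exact ih.trans ((ha k).mono hk)
  let D : CD G := ⟨fun n => (Ds (n + 1)).N n, fun n => (Ds (n + 1)).att n⟩
  have h2 : ∀ m, Agree m (Ds m) D := fun m n hn =>
    (h1 (n + 1) m hn).symm n (Nat.lt_succ_self n)
  refine ⟨D, ⟨fun n i hi => ?_, fun n i hi => ?_⟩, h2⟩
  · rw [← (h2 (n + 1)).Sk_eq (Nat.le_succ n)]
    exact (hw (n + 1)).maps n i hi
  · have h4 : @ContinuousOn _ (CPt G) _ ((Ds (n + 1)).topL n) (D.att n i) (Sph n) :=
      (hw (n + 1)).cont n i hi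
    rw [((h2 (n + 1)).mono (Nat.le_succ n)).topL_eq] at h4
    exact h4

end CD

end Crest.Agent.R185
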