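import Crest.Agent.R185.W0

/-!
# R185 TASK W1: radial coordinates
-/

set_option autoImplicit false

namespace Crest.Agent.R185

open Set Metric Filter
open scoped _root_.Topology

variable {G : Type} [Group G]

namespace CD

variable {D : CD G}

/-- the radial recursion -/
noncomputable def w1_R (D : CD G) {ι : Type*} (v : (n : ℕ) → G → ℕ → (Fin n → ℝ) → ι → ℝ)
    (p : CPt G) : ι → ℝ :=
  (1 - ‖p.x‖) • v p.n p.g p.i p.x + ‖p.x‖ •
    if _ : (p.g • D.att p.n p.i (‖p.x‖⁻¹ • p.x)).n < p.n then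
      w1_R D v (p.g • D.att p.n p.i (‖p.x‖⁻¹ • p.x)) else 0
termination_by p.n

theorem w1_sph {n : ℕ} {x : Fin n → ℝ} (hx : x ≠ 0) : ‖x‖⁻¹ • x ∈ Sph n := by
  rw [mem_sphere_zero_iff_norm, norm_smul, norm_inv, norm_norm, inv_mul_cancel₀ (norm_ne_zero_iff.2 hx)]

theorem WF.w1_mem (hD : D.WF) {n i : ℕ} (g : G) (hi : i < D.N n) {x : Fin n → ℝ} (hx : x ≠ 0) :
    g • D.att n i (‖x‖⁻¹ • x) ∈ D.Sk n :=
  smul_mem_Sk.2 (hD.maps n i hi (w1_sph hx))

theorem WF.w1_ind (hD : D.WF) {P : CPt G → Prop}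
    (h : ∀ n g i (x : Fin n → ℝ), i < D.N n → ‖x‖ < 1 →
      (x ≠ 0 → P (g • D.att n i (‖x‖⁻¹ • x))) → P ⟨n, g, i, x⟩) : ∀ p ∈ D.All, P p := by
  have : ∀ m, ∀ p ∈ D.Sk m, P p := by
    intro m
    induction m with
    | zero => exact fun p hp => absurd hp.2 (Nat.not_lt_zero _)
    | succ m ih =>
      rintro ⟨n, g, i, x⟩ ⟨⟨h1, h2⟩, h3⟩
      exact h n g i x h1 h2 fun hx => ih _ (Sk.mono (Nat.lt_succ_iff.1 h3) (hD.w1_mem g h1 hx))
  exact fun p hp => this (p.n + 1) p ⟨hp, Nat.lt_succ_self _⟩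

/-- Define `R_k` on `Sk k` by recursion on `k` (or `R` by well-founded recursion on `p.n`).
Continuity on `Sk k` by induction on `k` (`continuousOn_Sk`): on the closed cell,
`R (chr x) = (1 - ‖x‖) • v x + ‖x‖ • R (g • att (‖x‖⁻¹ • x))` holds also for `‖x‖ = 1`, and the
second term tends to `0` at `x = 0` because `R` is bounded. -/
theorem WF.exists_radial (hD : D.WF) {ι : Type*} (v : (n : ℕ) → G → ℕ → (Fin n → ℝ) → ι → ℝ)
    (hv : ∀ n g i, Continuous (v n g i))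
    (hb : ∀ n g i, ∀ x ∈ Bal n, ∀ a, |v n g i x a| ≤ 1) :
    ∃ R : D.Z → ι → ℝ, ContinuousOn R D.All ∧ ∀ n g i, i < D.N n → ∀ x : Fin n → ℝ, ‖x‖ < 1 →
      R (⟨n, g, i, x⟩ : CPt G) =
        (1 - ‖x‖) • v n g i x + ‖x‖ • R (g • D.att n i (‖x‖⁻¹ • x)) := by
  have e : ∀ n g i, i < D.N n → ∀ x : Fin n → ℝ, D.w1_R v (⟨n, g, i, x⟩ : CPt G) =
      (1 - ‖x‖) • v n g i x + ‖x‖ • D.w1_R v (g • D.att n i (‖x‖⁻¹ • x)) := by
    intro n g i hi x
    rw [w1_R]
    by_cases hx : x = 0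
    · simp [hx]
    · rw [dif_pos (hD.w1_mem g hi hx).2]
  have bd : ∀ p ∈ D.All, ∀ a, |D.w1_R v p a| ≤ 1 := hD.w1_ind fun n g i x hi hx ih a => by
    have h1 := hb n g i x (mem_closedBall_zero_iff.2 hx.le) a
    rw [e n g i hi]
    by_cases h0 : x = 0
    · simpa [h0] using h1
    · have h2 := ih h0 a
      have h3 := norm_nonneg x
      simp only [Pi.add_apply, Pi.smul_apply, smul_eq_mul]
      rw [abs_le] at h1 h2 ⊢
      constructor <;> nlinarith
  refine ⟨D.w1_R v, hD.continuousOn_All fun n => ?_, fun n g i hi x _ => e n g i hi x⟩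
  induction n using Nat.strong_induction_on with
  | _ n ih =>
  intro g i hi
  have h1 : ContinuousOn (X := D.Z) (D.w1_R v) (D.Sk n) := hD.continuousOn_Sk ih
  have h2 : ContinuousOn (fun x : Fin n → ℝ => D.w1_R v (D.chr n g i (‖x‖⁻¹ • x))) {0}ᶜ :=
    ContinuousOn.comp (β := D.Z) h1 (((continuousOn_chr hi).mono sphere_subset_closedBall).comp
      ((continuousOn_id.norm.inv₀ fun x hx => norm_ne_zero_iff.2 hx).smul continuousOn_id)
      fun x hx => w1_sph hx) fun x hx => hD.chr_mem_sph hi (w1_sph hx)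
  have h3 : Continuous fun x : Fin n → ℝ => ‖x‖ • D.w1_R v (D.chr n g i (‖x‖⁻¹ • x)) := by
    refine continuous_iff_continuousAt.2 fun x => ?_
    by_cases hx : x = 0
    · subst hx
      refine continuousAt_pi.2 fun a => ?_
      rw [ContinuousAt, Pi.smul_apply, norm_zero, zero_smul]
      refine squeeze_zero_norm (fun y => ?_) tendsto_norm_zero
      by_cases hy : y = 0
      · simp [hy]
      · rw [Pi.smul_apply, norm_smul, norm_norm]
        exact mul_le_of_le_one_right (norm_nonneg _)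
          (bd _ (Sk_subset_All (hD.chr_mem_sph hi (w1_sph hy))) a)
    · exact continuous_norm.continuousAt.smul (h2.continuousAt (isOpen_compl_singleton.mem_nhds hx))
  have h5 : Continuous fun x : Fin n → ℝ =>
      (1 - ‖x‖) • v n g i x + ‖x‖ • D.w1_R v (D.chr n g i (‖x‖⁻¹ • x)) :=
    ((continuous_const.sub continuous_norm).smul (hv n g i)).add h3
  refine h5.continuousOn.congr fun x hx => ?_
  rcases (mem_closedBall_zero_iff.1 hx).lt_or_eq with h4 | h4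
  · by_cases h0 : x = 0
    · simp [h0, chr_of_lt, e n g i hi]
    · simp only [chr_of_lt h4, chr_of_mem_sph (w1_sph h0), e n g i hi]
  · simp [h4]

/-- `v n g i x = Pi.single ⟨n, g⟩ 1`.  By induction `α` maps `Sk m` into `Rl (JC m T)`: the map
`α ∘ att m i` on the compact sphere has finite support (`fs_of_jc`). -/
theorem WF.exists_alpha (hD : D.WF) : ∃ α : D.Z → JV G → ℝ, ContinuousOn α D.All ∧
    (∀ (g : G), ∀ p ∈ D.All, α (g • p) = act g (α p)) ∧
    (∀ m, ∃ T : Set G, T.Finite ∧ ∀ j ≤ m, MapsTo α (D.Sk j) (Rl (JC j T))) ∧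
    ∀ p ∈ D.All, 0 < α p ⟨CPt.n p, CPt.g p⟩ := by
  classical
  obtain ⟨α, h1, h2⟩ := hD.exists_radial (fun n g _ _ => Pi.single (⟨n, g⟩ : JV G) (1 : ℝ))
    (fun _ _ _ => continuous_const) fun n g _ _ _ a => by
      rw [Pi.single_apply]
      split_ifs <;> simp
  have h3 : ∀ p ∈ D.All, ∀ g : G, α (g • p) = act g (α p) :=
    hD.w1_ind (P := fun p => ∀ g : G, α (g • p) = act g (α p)) fun n g i x hi hx ih h => by
      have e : (Pi.single (⟨n, h * g⟩ : JV G) (1 : ℝ) : JV G → ℝ) =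
          act h (Pi.single (⟨n, g⟩ : JV G) (1 : ℝ)) := by
        funext a
        simp only [act, Pi.single_apply, inv_smul_eq_iff]
        rfl
      refine (h2 n (h * g) i hi x hx).trans ?_
      rw [h2 n g i hi x hx, e]
      by_cases h0 : x = 0
      · funext a
        simp [h0, act]
      · rw [mul_smul]
        exact congrArg (_ + ‖x‖ • ·) (ih h0 h)
  have h4 : ∀ m, ∃ T : Set G, T.Finite ∧ ∀ j ≤ m, MapsTo α (D.Sk j) (Rl (JC j T)) := by
    intro m
    induction m with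
    | zero =>
      exact ⟨∅, finite_empty, fun j hj p hp => absurd (hp.2.trans_le hj) (Nat.not_lt_zero _)⟩
    | succ m ih =>
      obtain ⟨T, hT, ih⟩ := ih
      have hU : ∀ i : Fin (D.N m), ∃ U : Finset (JV G),
          MapsTo (α ∘ D.att m i) (Sph m) (Spx U) := fun i =>
        (fs_of_jc (isCompact_sphere _ _) hT (h1.comp (hD.continuousOn_att i.2)
          fun x hx => Sk_subset_All (hD.maps m i i.2 hx))
          fun x hx => ih m le_rfl (hD.maps m i i.2 hx)).2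
      choose U hU using hU
      have hW : (⋃ i, JV.g '' (U i : Set (JV G))).Finite :=
        finite_iUnion fun i => (U i).finite_toSet.image _
      set W := ⋃ i, JV.g '' (U i : Set (JV G))
      have hTT : T ⊆ T ∪ W ∪ W⁻¹ ∪ {1} := fun _ h => Or.inl (Or.inl (Or.inl h))
      refine ⟨T ∪ W ∪ W⁻¹ ∪ {1}, ((hT.union hW).union hW.inv).union (finite_singleton _),
        fun j hj p hp => ?_⟩
      by_cases hpm : p.n < m
      · rcases hj.lt_or_eq with hj | rfl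
        · exact Rl.mono (JC.mono le_rfl hTT) (ih j (Nat.lt_succ_iff.1 hj) hp)
        · exact Rl.mono (JC.mono (Nat.le_succ _) hTT) (ih m le_rfl ⟨hp.1, hpm⟩)
      obtain ⟨n, g, i, x⟩ := p
      obtain ⟨⟨hi, hx⟩, hn⟩ := hp
      dsimp only at hi hx hn hpm
      obtain rfl : n = m := by omega
      obtain rfl : j = n + 1 := by omega
      have hs : ∀ σ : Finset (JV G), (⟨n, 1⟩ : JV G) ∈ σ →
          (Pi.single (⟨n, 1⟩ : JV G) (1 : ℝ) : JV G → ℝ) ∈ Spx σ := fun σ hσ =>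
        ⟨fun a => by rw [Pi.single_apply]; split_ifs <;> simp,
          fun a ha => Pi.single_eq_of_ne (by rintro rfl; exact ha hσ) _, by simp [Pi.single_apply, hσ]⟩
      obtain ⟨σ, hσ, hy⟩ : ∃ σ ∈ JC (n + 1) (T ∪ W ∪ W⁻¹ ∪ {1}),
          α (⟨n, 1, i, x⟩ : CPt G) ∈ Spx σ := by
        rw [h2 n 1 i hi x hx]
        by_cases h0 : x = 0
        · refine ⟨{⟨n, 1⟩}, ⟨by simp, by simp, by simp, by simp⟩, ?_⟩
          simpa [h0] using hs _ (Finset.mem_singleton_self _)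
        rw [one_smul]
        have hy := hU ⟨i, hi⟩ (w1_sph h0)
        obtain ⟨-, a2, a3, a4⟩ := sp_mem (isCx_jc n T) (ih n le_rfl (hD.maps n i hi (w1_sph h0)))
        have a5 : ∀ p ∈ sp (α (D.att n i (‖x‖⁻¹ • x))), p.g ∈ W := fun p hp =>
          mem_iUnion.2 ⟨⟨i, hi⟩, p, sp_subset hy hp, rfl⟩
        refine ⟨insert ⟨n, 1⟩ (sp (α (D.att n i (‖x‖⁻¹ • x)))),
          ⟨Finset.insert_nonempty _ _, ?_, ?_, ?_⟩, convex_spx (hs _ (Finset.mem_insert_self _ _))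
            (Spx.mono (Finset.subset_insert _ _) (mem_spx_sp hy)) (by linarith) (norm_nonneg _)
            (sub_add_cancel _ _)⟩ <;> simp only [Finset.forall_mem_insert]
        · exact ⟨Nat.lt_succ_self _, fun p hp => (a2 p hp).trans (Nat.lt_succ_self _)⟩
        · exact ⟨⟨fun _ => trivial, fun q hq h => absurd h (a2 q hq).ne'⟩,
            fun p hp => ⟨fun h => absurd h (a2 p hp).ne, a3 p hp⟩⟩
        · exact ⟨⟨Or.inr (by simp), fun q hq => Or.inl (Or.inl (Or.inr (by simpa using a5 q hq)))⟩,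
            fun p hp => ⟨Or.inl (Or.inr (by simpa using a5 p hp)), fun q hq => hTT (a4 p hp q hq)⟩⟩
      have e := h3 (⟨n, 1, i, x⟩ : CPt G) ⟨hi, hx⟩ g
      refine mem_rl.2 ⟨_, fsm_mem_jc g hσ, ?_⟩
      rw [← act_mem_spx (g := g), ← e] at hy
      simpa only [CPt.smul_mk, mul_one] using hy
  refine ⟨α, h1, fun g p hp => h3 p hp g, h4, ?_⟩
  rintro ⟨n, g, i, x⟩ ⟨hi, hx⟩
  dsimp only at hi hx ⊢
  rw [h2 n g i hi x hx]
  by_cases h0 : x = 0
  · simp [h0]
  obtain ⟨T, -, hT⟩ := h4 n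
  obtain ⟨σ, -, hσ⟩ := mem_rl.1 (hT n le_rfl (hD.w1_mem g hi h0))
  have := mul_nonneg (norm_nonneg x) (hσ.1 ⟨n, g⟩)
  simp only [Pi.add_apply, Pi.smul_apply, smul_eq_mul, Pi.single_eq_same]
  linarith

/-- the coordinates of one cell -/
def w1_v (n i : ℕ) (x : Fin n → ℝ) (c : ℕ × ℕ × Option ℕ) : ℝ :=
  if c.1 = n ∧ c.2.1 = i then c.2.2.elim 1 fun l => if h : l < n then x ⟨l, h⟩ else 0 else 0

/-- `v n g i x (n', i', o) = 0` unless `(n', i') = (n, i)`, and then `1` for `o = none` and `x l`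
for `o = some l` (`0` if `l ≥ n`).  On `Sk n` the coordinates `(n', _, _)` with `n' ≥ n` vanish. -/
theorem WF.exists_psi (hD : D.WF) : ∃ Ψ : D.Z → ℕ × ℕ × Option ℕ → ℝ, ContinuousOn Ψ D.All ∧
    (∀ (g : G), ∀ p ∈ D.All, Ψ (g • p) = Ψ p) ∧
    (∀ p ∈ D.All, ∀ q ∈ D.All, Ψ p = Ψ q → ∃ g : G, q = g • p) ∧
    ∀ p ∈ D.All, Ψ p (CPt.n p, CPt.i p, none) = 1 - ‖CPt.x p‖ ∧
      ∀ l : Fin (CPt.n p), Ψ p (CPt.n p, CPt.i p, some l) = (1 - ‖CPt.x p‖) * CPt.x p l := by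
  obtain ⟨Ψ, h1, h2⟩ := hD.exists_radial (fun n _ i x => w1_v n i x)
    (fun n _ i => continuous_pi fun ⟨n', i', o⟩ => by
      unfold w1_v
      cases o <;> simp only [Option.elim] <;> split_ifs <;> fun_prop)
    fun n g i x hx ⟨n', i', o⟩ => by
      unfold w1_v
      cases o <;> simp only [Option.elim] <;> split_ifs <;> try simp
      exact (norm_le_pi_norm x _).trans (mem_closedBall_zero_iff.1 hx)
  have h3 : ∀ p ∈ D.All, ∀ c : ℕ × ℕ × Option ℕ, p.n ≤ c.1 →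
      Ψ p c = (1 - ‖p.x‖) * w1_v p.n p.i p.x c :=
    hD.w1_ind (P := fun p => ∀ c : ℕ × ℕ × Option ℕ, p.n ≤ c.1 →
      Ψ p c = (1 - ‖p.x‖) * w1_v p.n p.i p.x c) fun n g i x hi hx ih c hc => by
      rw [h2 n g i hi x hx]
      by_cases h0 : x = 0
      · simp [h0]
      have h4 := (hD.w1_mem g hi h0).2.trans_le hc
      simp only [Pi.add_apply, Pi.smul_apply, smul_eq_mul]
      rw [ih h0 c h4.le, w1_v.eq_1 (CPt.n _) _ _ c, if_neg fun h => h4.ne' h.1]
      simp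
  have h4 : ∀ p ∈ D.All, Ψ p (CPt.n p, CPt.i p, none) = 1 - ‖CPt.x p‖ ∧
      ∀ l : Fin (CPt.n p), Ψ p (CPt.n p, CPt.i p, some l) = (1 - ‖CPt.x p‖) * CPt.x p l :=
    fun p hp => ⟨by simp [h3 p hp, w1_v], fun l => by simp [h3 p hp, w1_v]⟩
  have h5 : ∀ p ∈ D.All, ∀ q ∈ D.All, Ψ p = Ψ q → p.n ≤ q.n → q.n = p.n ∧ q.i = p.i :=
    fun p hp q hq e h => by
      by_contra hc
      have := (h4 q hq).1
      rw [← e, h3 p hp _ h, w1_v, if_neg hc] at this
      linarith [hq.2]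
  refine ⟨Ψ, h1, fun g p hp => hD.w1_ind (P := fun p => Ψ (g • p) = Ψ p)
    (fun n g' i x hi hx ih => ?_) p hp, fun p hp q hq e => ?_, h4⟩
  · refine (h2 n (g * g') i hi x hx).trans ?_
    rw [h2 n g' i hi x hx]
    by_cases h0 : x = 0
    · simp [h0]
    · rw [mul_smul]
      exact congrArg (_ + ‖x‖ • ·) (ih h0)
  · have h6 : q.n = p.n ∧ q.i = p.i := (le_total p.n q.n).elim (h5 p hp q hq e) fun h =>
      (h5 q hq p hp e.symm h).imp Eq.symm Eq.symm
    obtain ⟨n, g, i, x⟩ := p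
    obtain ⟨n', g', i', x'⟩ := q
    obtain ⟨rfl, rfl⟩ : n' = n ∧ i' = i := h6
    obtain ⟨a1, a2⟩ := h4 _ hp
    obtain ⟨b1, b2⟩ := h4 _ hq
    have hx : ‖x‖ < 1 := hp.2
    dsimp only at a1 a2 b1 b2
    rw [e] at a1 a2
    obtain rfl : x' = x := funext fun l => by
      have := b2 l
      rw [a2 l, ← b1, a1] at this
      exact (mul_left_cancel₀ (by linarith) this).symm
    exact ⟨g' * g⁻¹, congrArg (fun g => (⟨_, g, _, _⟩ : CPt G)) (inv_mul_cancel_right _ _).symm⟩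

end CD

end Crest.Agent.R185
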