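import Crest.Agent.R185.W1

/-!
# R185 TASK W2: the quotient is a CW complex of finite type
-/

set_option autoImplicit false

namespace Crest.Agent.R185

open Set Metric Filter
open scoped _root_.Topology

variable {G : Type} [Group G]

namespace CD

variable {D : CD G}

/-- the orbit space -/
abbrev Orb (D : CD G) : Type := MulAction.orbitRel.Quotient G D.Tot

/-- `U = {q | 0 < α q ⟨p.n, p.g⟩}`: a simplex of `JC` has one vertex of each colour. -/
theorem WF.isQuotientCoveringMap (hD : D.WF) :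
    IsQuotientCoveringMap (Quotient.mk (MulAction.orbitRel G D.Tot)) G := by
  obtain ⟨α, hc, he, hm, hp⟩ := hD.exists_alpha
  refine { toIsQuotientMap := isQuotientMap_quot_mk
           continuous_const_smul := fun g =>
             ((continuous_const_smul g).comp continuous_subtype_val).subtype_mk _
           apply_eq_iff_mem_orbit := Quotient.eq
           disjoint := fun p => ⟨{q | 0 < α q.1 ⟨CPt.n p.1, CPt.g p.1⟩}, ?_, ?_⟩ }
  · exact (isOpen_lt continuous_const ((continuous_apply _).comp hc.domRestrict)).mem_nhds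
      (hp p.1 p.2)
  · rintro g ⟨_, ⟨q, hq, rfl⟩, hq'⟩
    obtain ⟨T, -, hT⟩ := hm (CPt.n q.1 + 1)
    obtain ⟨σ, hσ, h⟩ := mem_iUnion₂.1 (hT _ le_rfl ⟨q.2, Nat.lt_succ_self _⟩)
    have h1 : 0 < α q.1 (g⁻¹ • ⟨CPt.n p.1, CPt.g p.1⟩) :=
      lt_of_lt_of_eq hq' (congrFun (he g q.1 q.2) _)
    have h0 : 0 < α q.1 ⟨CPt.n p.1, CPt.g p.1⟩ := hq
    have h2 := congrArg JV.g (hσ.2.2.1 _ (by_contra fun hn => h1.ne' (h.2.1 _ hn))
      ⟨CPt.n p.1, CPt.g p.1⟩ (by_contra fun hn => h0.ne' (h.2.1 _ hn)) rfl)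
    simpa using h2

theorem WF.w2_psi (hD : D.WF) : ∃ Ψ : D.Orb → ℕ × ℕ × Option ℕ → ℝ, Continuous Ψ ∧
    Function.Injective Ψ ∧ ∀ n i (x : Fin n → ℝ) (h : (⟨n, 1, i, x⟩ : CPt G) ∈ D.All),
      Ψ ⟦⟨_, h⟩⟧ (n, i, none) = 1 - ‖x‖ ∧
        ∀ l : Fin n, Ψ ⟦⟨_, h⟩⟧ (n, i, some l) = (1 - ‖x‖) * x l := by
  obtain ⟨Ψ, hc, he, hi, hp⟩ := hD.exists_psi
  refine ⟨Quotient.lift (fun p : D.Tot => Ψ p.1) ?_, hc.domRestrict.quotient_lift _, ?_,
    fun n i x h => hp _ h⟩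
  · rintro _ q ⟨g, rfl⟩
    exact he g q.1 q.2
  · rintro ⟨p⟩ ⟨q⟩ h
    obtain ⟨g, hg⟩ := hi q.1 q.2 p.1 p.2 h.symm
    exact Quotient.sound ⟨g, Subtype.ext hg.symm⟩

/-- `Ψ` descends to a continuous injection -/
theorem WF.t2 (hD : D.WF) : T2Space D.Orb := by
  obtain ⟨Ψ, hc, hi, -⟩ := hD.w2_psi
  exact .of_injective_continuous hi hc

/-- `CWComplex.mkFiniteType` with cells `Fin (D.N n)` and the maps `x ↦ ⟦chr n 1 i x⟧` (any value
outside the closed ball); the inverse on the open cell is `(Ψ (n, i, some l) / Ψ (n, i, none))_l`.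
`closed'`: the preimage of `A` under `chr n g i` equals the one under `chr n 1 i`, which is the
preimage of the closed set `A ∩ closed cell`. -/
theorem WF.exists_cw (hD : D.WF) : ∃ _ : _root_.Topology.CWComplex (univ : Set D.Orb),
    _root_.Topology.RelCWComplex.FiniteType (univ : Set D.Orb) := by
  classical
  obtain ⟨Ψ, hc, -, hp⟩ := hD.w2_psi
  obtain ⟨c, hc₀⟩ : ∃ c : ∀ n, Fin (D.N n) → (Fin n → ℝ) → D.Orb, ∀ n (i : Fin (D.N n)) x
      (h : D.chr n 1 i x ∈ D.All), c n i x = ⟦⟨_, h⟩⟧ :=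
    ⟨fun n i x => if h : D.chr n 1 i x ∈ D.All then ⟦⟨_, h⟩⟧ else
      ⟦⟨(⟨n, 1, i, 0⟩ : CPt G), i.2, by simp⟩⟧, fun _ _ _ h => dif_pos h⟩
  have hc₁ : ∀ n (i : Fin (D.N n)) g x (hx : x ∈ Bal n),
      c n i x = ⟦⟨D.chr n g i x, (hD.chr_mem i.2 hx).1⟩⟧ := fun n i g x hx => by
    rw [hc₀ n i x (hD.chr_mem i.2 hx).1]
    exact Quotient.sound ⟨g⁻¹, Subtype.ext ((chr_smul _ _).trans (by rw [inv_mul_cancel]))⟩
  have hc₂ : ∀ n (i : Fin (D.N n)) g x (hx : ‖x‖ < 1),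
      c n i x = ⟦⟨(⟨n, g, i, x⟩ : CPt G), i.2, hx⟩⟧ := fun n i g x hx => by
    rw [hc₁ n i g x (mem_closedBall_zero_iff.2 hx.le)]
    exact congrArg _ (Subtype.ext (chr_of_lt hx))
  have hc₃ : ∀ p : D.Tot, ⟦p⟧ ∈ c (CPt.n p.1) ⟨_, p.2.1⟩ '' closedBall 0 1 := fun p =>
    ⟨_, mem_closedBall_zero_iff.2 p.2.2.le, hc₂ _ _ (CPt.g p.1) _ p.2.2⟩
  have hcont : ∀ n i, ContinuousOn (c n i) (Bal n) := fun n i => by
    refine continuousOn_iff_continuous_domRestrict.2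
      (Continuous.congr ?_ fun x => (hc₁ n i 1 x x.2).symm)
    exact continuous_quot_mk.comp ((continuousOn_chr i.2).domRestrict.subtype_mk _)
  have hp' : ∀ n (i : Fin (D.N n)) x, ‖x‖ < 1 → Ψ (c n i x) (n, i, none) = 1 - ‖x‖ ∧
      ∀ l : Fin n, Ψ (c n i x) (n, i, some l) = (1 - ‖x‖) * x l := fun n i x hx => by
    rw [hc₂ n i 1 x hx]
    exact hp n i x ⟨i.2, hx⟩
  have hinv : ∀ n i, ∀ x ∈ ball (0 : Fin n → ℝ) 1,
      (fun l : Fin n => Ψ (c n i x) (n, i, some l) / Ψ (c n i x) (n, i, none)) = x := by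
    intro n i x hx
    have hx' := mem_ball_zero_iff.1 hx
    funext l
    rw [(hp' n i x hx').1, (hp' n i x hx').2, mul_div_cancel_left₀ _ (by linarith)]
  refine ⟨_, _root_.Topology.CWComplex.finiteType_mkFiniteType univ (fun n => Fin (D.N n))
    (fun n i =>
      { toFun := c n i
        invFun := fun y l => Ψ y (n, i, some l) / Ψ y (n, i, none)
        source := ball 0 1
        target := c n i '' ball 0 1
        map_source' := fun x hx => ⟨x, hx, rfl⟩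
        map_target' := by
          rintro _ ⟨x, hx, rfl⟩
          rwa [hinv n i x hx]
        left_inv' := hinv n i
        right_inv' := by
          rintro _ ⟨x, hx, rfl⟩
          rw [hinv n i x hx] })
    (fun _ => inferInstance) (fun _ _ => rfl) hcont (fun n i => ?_) ?_ (fun n i x hx => ?_)
    (fun A _ hA => ?_) (eq_univ_of_forall ?_)⟩
  · refine continuousOn_pi.2 fun l => ((continuous_apply _).comp hc).continuousOn.div
      ((continuous_apply _).comp hc).continuousOn ?_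
    rintro _ ⟨x, hx, rfl⟩
    have hx' := mem_ball_zero_iff.1 hx
    rw [(hp' n i x hx').1]
    linarith
  · rintro ⟨n, i⟩ - ⟨n', i'⟩ - hne
    refine disjoint_left.2 ?_
    rintro _ ⟨x, hx, rfl⟩ ⟨x', hx', h⟩
    have h1 : c n' i' x' = c n i x := h
    rw [hc₂ n i 1 x (mem_ball_zero_iff.1 hx), hc₂ n' i' 1 x' (mem_ball_zero_iff.1 hx')] at h1
    obtain ⟨g, hg⟩ := Quotient.exact h1
    obtain rfl : n = n' := congrArg (fun p : D.Tot => CPt.n p.1) hg
    obtain rfl : i = i' := Fin.ext (congrArg (fun p : D.Tot => CPt.i p.1) hg)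
    exact hne rfl
  · have h0 := hD.chr_mem_sph (g := 1) i.2 hx
    obtain ⟨y, hy, h1⟩ := hc₃ ⟨_, h0.1⟩
    exact mem_iUnion₂.2 ⟨_, h0.2, mem_iUnion.2 ⟨_, y, hy, h1.trans (hc₀ n i x h0.1).symm⟩⟩
  · refine isQuotientMap_quot_mk.isClosed_preimage.1 ?_
    refine isClosed_induced_iff.2 ⟨_, isClosed_iff.2 fun n g i hi => ?_,
      preimage_image_eq _ Subtype.val_injective⟩
    convert (hcont n ⟨i, hi⟩).preimage_isClosed_of_isClosed isClosed_closedBall (hA n ⟨i, hi⟩)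
      using 1
    ext x
    refine and_congr_right fun hx => ⟨?_, fun h => ⟨⟨_, (hD.chr_mem hi hx).1⟩, ?_, rfl⟩⟩
    · rintro ⟨p, h1, h2⟩
      refine ⟨?_, x, hx, rfl⟩
      rw [hc₁ n ⟨i, hi⟩ g x hx]
      exact (congrArg (fun q : D.Tot => (⟦q⟧ : D.Orb) ∈ A) (Subtype.ext h2)).mp h1
    · have h1 := h.1
      rwa [hc₁ n ⟨i, hi⟩ g x hx] at h1
  · rintro ⟨p⟩
    exact mem_iUnion.2 ⟨_, mem_iUnion.2 ⟨_, hc₃ p⟩⟩

/-- `IsQuotientCoveringMap.fundamentalGroupEquiv`, `MulEquiv.inv'` -/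
theorem WF.realize (hD : D.WF) (hc : ContractibleSpace D.Tot) :
    Crest.Topology.HasFiniteTypeClassifyingComplex G := by
  obtain ⟨cw, ft⟩ := hD.exists_cw
  obtain ⟨p⟩ : Nonempty D.Tot := inferInstance
  exact ⟨D.Orb, inferInstance, cw, hD.t2, ft,
    ⟨D.Tot, inferInstance, _, hc, hD.isQuotientCoveringMap.isCoveringMap, Quot.mk_surjective⟩, ⟦p⟧,
    ⟨(hD.isQuotientCoveringMap.fundamentalGroupEquiv ⟨p, rfl⟩).trans (MulEquiv.inv' G).symm⟩⟩

end CD

end Crest.Agent.R185
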