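import Crest.Agent.R185.W0

/-!
# R185 TASK W3: homotopies cell by cell
-/

set_option autoImplicit false

namespace Crest.Agent.R185

open Set Metric Filter
open scoped _root_.Topology

variable {G : Type} [Group G]

namespace CD

variable {D : CD G} {Y : Type} [TopologicalSpace Y] {d : ℕ} {F₀ F₁ : D.Z → Y} {C C' : Set Y}
  {H : D.Z → ℝ → Y}

open Classical in
/-- the prescribed values on the boundary of the cylinder over a `d`-cell -/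
noncomputable def bdry (D : CD G) (d : ℕ) (F₀ F₁ : D.Z → Y) (H : D.Z → ℝ → Y) (g : G) (i : ℕ)
    (q : (Fin d → ℝ) × ℝ) : Y :=
  if ‖q.1‖ < 1 then (if q.2 = 0 then F₀ (D.chr d g i q.1) else F₁ (D.chr d g i q.1))
  else H (D.chr d g i q.1) q.2

theorem w3_sph {x : Fin d → ℝ} (hx : x ∈ Bal d) (h : ¬ ‖x‖ < 1) : x ∈ Sph d :=
  mem_sphere_zero_iff_norm.2 (le_antisymm (mem_closedBall_zero_iff.1 hx) (not_lt.1 h))

omit [TopologicalSpace Y] in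
theorem w3_bdry_sph (g : G) (i : ℕ) {x : Fin d → ℝ} (hx : x ∈ Sph d) (t : ℝ) :
    D.bdry d F₀ F₁ H g i (x, t) = H (D.chr d g i x) t :=
  if_neg (by rw [mem_sphere_zero_iff_norm.1 hx]; exact lt_irrefl _)

theorem w3_bdry_zero (hD : D.WF) (hH : D.Hty d F₀ F₁ C H) (g : G) {i : ℕ} (hi : i < D.N d)
    {x : Fin d → ℝ} (hx : x ∈ Bal d) : D.bdry d F₀ F₁ H g i (x, 0) = F₀ (D.chr d g i x) := by
  by_cases h : ‖x‖ < 1
  · exact (if_pos h).trans (if_pos rfl)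
  · rw [w3_bdry_sph g i (w3_sph hx h), hH.zero _ (hD.chr_mem_sph hi (w3_sph hx h))]

theorem w3_bdry_one (hD : D.WF) (hH : D.Hty d F₀ F₁ C H) (g : G) {i : ℕ} (hi : i < D.N d)
    {x : Fin d → ℝ} (hx : x ∈ Bal d) : D.bdry d F₀ F₁ H g i (x, 1) = F₁ (D.chr d g i x) := by
  by_cases h : ‖x‖ < 1
  · exact (if_pos h).trans (if_neg one_ne_zero)
  · rw [w3_bdry_sph g i (w3_sph hx h), hH.one _ (hD.chr_mem_sph hi (w3_sph hx h))]

theorem w3_cont_comp {m n : ℕ} {H : D.Z → ℝ → Y}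
    (hH : ContinuousOn (Function.uncurry H) ((D.Sk m : Set D.Z) ×ˢ Icc 0 1)) (g : G) {i : ℕ}
    (hi : i < D.N n) {K : Set (Fin n → ℝ)} (hK : K ⊆ Bal n) (hm : MapsTo (D.chr n g i) K (D.Sk m)) :
    ContinuousOn (fun q : (Fin n → ℝ) × ℝ => H (D.chr n g i q.1) q.2) (K ×ˢ Icc 0 1) :=
  ContinuousOn.comp (β := D.Z × ℝ) (f := fun q : (Fin n → ℝ) × ℝ => (D.chr n g i q.1, q.2)) hH
    (((continuousOn_chr hi).comp continuousOn_fst (fun _ hq => hK hq.1)).prodMk continuousOn_snd)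
    (fun _ hq => ⟨hm hq.1, hq.2⟩)

theorem w3_mem_cylBd {q : (Fin d → ℝ) × ℝ} (hq : q ∈ CylBd d) :
    (q.1 ∈ Sph d ∧ q.2 ∈ Icc (0 : ℝ) 1) ∨ (q.1 ∈ Bal d ∧ q.2 = 0) ∨ (q.1 ∈ Bal d ∧ q.2 = 1) := by
  rcases hq with hq | ⟨h1, h2 | h2⟩
  · exact Or.inl hq
  · exact Or.inr (Or.inl ⟨h1, h2⟩)
  · exact Or.inr (Or.inr ⟨h1, h2⟩)

theorem WF.bdry_spec (hD : D.WF) (hH : D.Hty d F₀ F₁ C H) (h₀ : ContinuousOn F₀ (D.Sk (d + 1)))
    (h₁ : ContinuousOn F₁ (D.Sk (d + 1))) (m₀ : MapsTo F₀ (D.Sk (d + 1)) C)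
    (m₁ : MapsTo F₁ (D.Sk (d + 1)) C) (g : G) {i : ℕ} (hi : i < D.N d) :
    ContinuousOn (D.bdry d F₀ F₁ H g i) (CylBd d) ∧ MapsTo (D.bdry d F₀ F₁ H g i) (CylBd d) C := by
  constructor
  · have e : CylBd d = (Sph d ×ˢ Icc 0 1) ∪ (Bal d ×ˢ {0} ∪ Bal d ×ˢ {1}) := by
      rw [CylBd, insert_eq, prod_union]
    have k1 : IsClosed (Bal d ×ˢ ({0} : Set ℝ)) := isClosed_closedBall.prod isClosed_singleton
    have k2 : IsClosed (Bal d ×ˢ ({1} : Set ℝ)) := isClosed_closedBall.prod isClosed_singleton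
    have hc : ContinuousOn (Y := D.Z) (D.chr d g i) (Bal d) := continuousOn_chr hi
    rw [e]
    refine ContinuousOn.union_of_isClosed ?_ (ContinuousOn.union_of_isClosed ?_ ?_ k1 k2)
      (isClosed_sphere.prod isClosed_Icc) (k1.union k2)
    · exact (w3_cont_comp hH.cont g hi sphere_subset_closedBall (hD.chr_mem_sph hi)).congr
        (fun q hq => w3_bdry_sph g i hq.1 q.2)
    · refine ((h₀.comp hc (hD.chr_mem hi)).comp continuousOn_fst (fun _ hq => hq.1)).congr ?_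
      rintro ⟨x, t⟩ ⟨hx, rfl⟩
      exact w3_bdry_zero hD hH g hi hx
    · refine ((h₁.comp hc (hD.chr_mem hi)).comp continuousOn_fst (fun _ hq => hq.1)).congr ?_
      rintro ⟨x, t⟩ ⟨hx, rfl⟩
      exact w3_bdry_one hD hH g hi hx
  · rintro ⟨x, t⟩ hq
    rcases w3_mem_cylBd hq with ⟨hx, ht⟩ | ⟨hx, rfl⟩ | ⟨hx, rfl⟩
    · rw [w3_bdry_sph g i hx]
      exact hH.maps _ (hD.chr_mem_sph hi hx) t ht
    · rw [w3_bdry_zero hD hH g hi hx]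
      exact m₀ (hD.chr_mem hi hx)
    · rw [w3_bdry_one hD hH g hi hx]
      exact m₁ (hD.chr_mem hi hx)

open Classical in
/-- the extended homotopy -/
noncomputable def w3_H (D : CD G) (d : ℕ) (H : D.Z → ℝ → Y)
    (Φ : G → (i : ℕ) → i < D.N d → (Fin d → ℝ) × ℝ → Y) (p : D.Z) (t : ℝ) : Y :=
  if h : CPt.n p = d ∧ CPt.i p < D.N d then
    Φ (CPt.g p) (CPt.i p) h.2 (fun l => CPt.x p (l.cast h.1.symm), t)
  else H p t

omit [Group G] [TopologicalSpace Y] in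
theorem w3_H_mk (Φ : G → (i : ℕ) → i < D.N d → (Fin d → ℝ) × ℝ → Y) (g : G) {i : ℕ}
    (hi : i < D.N d) (x : Fin d → ℝ) (t : ℝ) :
    w3_H D d H Φ (⟨d, g, i, x⟩ : CPt G) t = Φ g i hi (x, t) := dif_pos ⟨rfl, hi⟩

omit [Group G] [TopologicalSpace Y] in
theorem w3_H_low (Φ : G → (i : ℕ) → i < D.N d → (Fin d → ℝ) × ℝ → Y) {p : D.Z}
    (hp : p ∈ D.Sk d) : w3_H D d H Φ p = H p :=
  funext fun _ => dif_neg (fun h => hp.2.ne h.1)

omit [Group G] in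
theorem w3_cases {p : D.Z} (hp : p ∈ D.Sk (d + 1)) :
    p ∈ D.Sk d ∨ ∃ g i x, i < D.N d ∧ ‖x‖ < 1 ∧ p = (⟨d, g, i, x⟩ : CPt G) := by
  obtain ⟨n, g, i, x⟩ := p
  rcases Nat.lt_succ_iff_lt_or_eq.1 hp.2 with h | h
  · exact Or.inl ⟨hp.1, h⟩
  · obtain rfl : n = d := h
    exact Or.inr ⟨g, i, x, hp.1.1, hp.1.2, rfl⟩

theorem w3_step (hD : D.WF) (hH : D.Hty d F₀ F₁ C H) (hC : C ⊆ C')
    (Φ : G → (i : ℕ) → i < D.N d → (Fin d → ℝ) × ℝ → Y)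
    (hΦ : ∀ g i hi, ContinuousOn (Φ g i hi) (Cyl d) ∧ MapsTo (Φ g i hi) (Cyl d) C' ∧
      EqOn (Φ g i hi) (D.bdry d F₀ F₁ H g i) (CylBd d)) :
    D.Hty (d + 1) F₀ F₁ C' (w3_H D d H Φ) := by
  refine ⟨hD.continuousOn_Sk_prod (fun n hn g i hi => ?_), fun p hp => ?_, fun p hp => ?_,
    fun p hp t ht => ?_⟩
  · rcases Nat.lt_succ_iff_lt_or_eq.1 hn with h | rfl
    · have hm : MapsTo (D.chr n g i) (Bal n) (D.Sk d) := (hD.chr_mem hi).mono_right (Sk.mono h)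
      exact (w3_cont_comp hH.cont g hi subset_rfl hm).congr
        (fun q hq => congrFun (w3_H_low Φ (hm hq.1)) q.2)
    · refine (hΦ g i hi).1.congr ?_
      rintro ⟨x, t⟩ ⟨hx, ht⟩
      by_cases h : ‖x‖ < 1
      · simp only [chr_of_lt h]
        exact w3_H_mk Φ g hi x t
      · have hs := w3_sph hx h
        simp only [w3_H_low Φ (hD.chr_mem_sph hi hs)]
        rw [(hΦ g i hi).2.2 (Or.inl ⟨hs, ht⟩), w3_bdry_sph g i hs]
  · rcases w3_cases hp with h | ⟨g, i, x, hi, hx, rfl⟩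
    · rw [w3_H_low Φ h, hH.zero p h]
    · have hb : x ∈ Bal d := mem_closedBall_zero_iff.2 hx.le
      rw [w3_H_mk Φ g hi, (hΦ g i hi).2.2 (Or.inr ⟨hb, Or.inl rfl⟩), w3_bdry_zero hD hH g hi hb,
        chr_of_lt hx]
  · rcases w3_cases hp with h | ⟨g, i, x, hi, hx, rfl⟩
    · rw [w3_H_low Φ h, hH.one p h]
    · have hb : x ∈ Bal d := mem_closedBall_zero_iff.2 hx.le
      rw [w3_H_mk Φ g hi, (hΦ g i hi).2.2 (show (x, 1) ∈ CylBd d from Or.inr ⟨hb, Or.inr rfl⟩),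
        w3_bdry_one hD hH g hi hb,
        chr_of_lt hx]
  · rcases w3_cases hp with h | ⟨g, i, x, hi, hx, rfl⟩
    · rw [w3_H_low Φ h]
      exact hC (hH.maps p h t ht)
    · rw [w3_H_mk Φ g hi]
      exact (hΦ g i hi).2.1 ⟨mem_closedBall_zero_iff.2 hx.le, ht⟩

/-- `H' p t = Φ p.g p.i (p.x, t)` if `p.n = d`, else `H p t` -/
theorem WF.hty_step (hD : D.WF) (hH : D.Hty d F₀ F₁ C H) (hC : C ⊆ C')
    (hΦ : ∀ g i, i < D.N d → ∃ Φ, ContinuousOn Φ (Cyl d) ∧ MapsTo Φ (Cyl d) C' ∧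
      EqOn Φ (D.bdry d F₀ F₁ H g i) (CylBd d)) :
    ∃ H', D.Hty (d + 1) F₀ F₁ C' H' ∧ ∀ p ∈ D.Sk d, H' p = H p := by
  choose Φ hΦ using hΦ
  exact ⟨_, w3_step hD hH hC Φ hΦ, fun p hp => w3_H_low Φ hp⟩

section equivariant

variable [MulAction G Y] [ContinuousConstSMul G Y]

/-- `H' p t = p.g • Φ p.i (p.x, t)` if `p.n = d`, else `H p t` -/
theorem WF.hty_step_equiv (hD : D.WF) (hH : D.Hty d F₀ F₁ C H) (hC : C ⊆ C')
    (hC' : ∀ (g : G), ∀ y ∈ C', g • y ∈ C')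
    (e₀ : ∀ (g : G), ∀ p ∈ D.Sk (d + 1), F₀ (g • p) = g • F₀ p)
    (e₁ : ∀ (g : G), ∀ p ∈ D.Sk (d + 1), F₁ (g • p) = g • F₁ p)
    (eH : ∀ (g : G), ∀ p ∈ D.Sk d, ∀ t, H (g • p) t = g • H p t)
    (hΦ : ∀ i, i < D.N d → ∃ Φ, ContinuousOn Φ (Cyl d) ∧ MapsTo Φ (Cyl d) C' ∧
      EqOn Φ (D.bdry d F₀ F₁ H 1 i) (CylBd d)) :
    ∃ H', D.Hty (d + 1) F₀ F₁ C' H' ∧
      ∀ (g : G), ∀ p ∈ D.Sk (d + 1), ∀ t, H' (g • p) t = g • H' p t := by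
  choose Φ hΦ using hΦ
  refine ⟨_, w3_step hD hH hC (fun g i hi q => g • Φ i hi q) (fun g i hi =>
    ⟨(hΦ i hi).1.const_smul g, fun q hq => hC' g _ ((hΦ i hi).2.1 hq), ?_⟩), fun g p hp t => ?_⟩
  · rintro ⟨x, t⟩ hq
    have e : D.chr d g i x = g • D.chr d 1 i x := by rw [chr_smul, mul_one]
    simp only [(hΦ i hi).2.2 hq]
    rcases w3_mem_cylBd hq with ⟨hx, ht⟩ | ⟨hx, rfl⟩ | ⟨hx, rfl⟩
    · rw [w3_bdry_sph 1 i hx, w3_bdry_sph g i hx, e]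
      exact (eH g _ (hD.chr_mem_sph hi hx) t).symm
    · rw [w3_bdry_zero hD hH 1 hi hx, w3_bdry_zero hD hH g hi hx, e]
      exact (e₀ g _ (hD.chr_mem hi hx)).symm
    · rw [w3_bdry_one hD hH 1 hi hx, w3_bdry_one hD hH g hi hx, e]
      exact (e₁ g _ (hD.chr_mem hi hx)).symm
  · rcases w3_cases hp with h | ⟨g', i, x, hi, hx, rfl⟩
    · rw [w3_H_low _ h, w3_H_low _ (smul_mem_Sk.2 h)]
      exact eH g p h t
    · refine (w3_H_mk _ (g * g') hi x t).trans ?_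
      rw [w3_H_mk _ g' hi, mul_smul]

/-- induction on `m` with `bdry_spec`, `exists_cyl_param`, `hty_step_equiv` -/
theorem WF.exists_hty_equiv (hD : D.WF) (m : ℕ) (Cs : ℕ → Set Y) (hmono : Monotone Cs)
    (hinv : ∀ k (g : G), ∀ y ∈ Cs k, g • y ∈ Cs k)
    (hfill : ∀ k, 1 ≤ k → k ≤ m → TFill k (Cs k) (Cs (k + 1)))
    (h₀ : ContinuousOn F₀ (D.Sk m)) (h₁ : ContinuousOn F₁ (D.Sk m))
    (m₀ : ∀ k ≤ m, MapsTo F₀ (D.Sk k) (Cs k)) (m₁ : ∀ k ≤ m, MapsTo F₁ (D.Sk k) (Cs k))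
    (e₀ : ∀ (g : G), ∀ p ∈ D.Sk m, F₀ (g • p) = g • F₀ p)
    (e₁ : ∀ (g : G), ∀ p ∈ D.Sk m, F₁ (g • p) = g • F₁ p) :
    ∃ H, D.Hty m F₀ F₁ (Cs (m + 1)) H ∧
      ∀ (g : G), ∀ p ∈ D.Sk m, ∀ t, H (g • p) t = g • H p t := by
  induction m with
  | zero =>
    have e : ∀ p, p ∉ D.Sk 0 := fun p hp => by rw [Sk_zero] at hp; exact hp
    exact ⟨fun p _ => F₀ p, ⟨fun q hq => absurd hq.1 (e _), fun p hp => absurd hp (e _),
      fun p hp => absurd hp (e _), fun p hp => absurd hp (e _)⟩, fun g p hp => absurd hp (e _)⟩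
  | succ m ih =>
    have hs : D.Sk m ⊆ D.Sk (m + 1) := Sk.mono (Nat.le_succ m)
    obtain ⟨H, hH, eH⟩ := ih (fun k h1 h2 => hfill k h1 (by omega)) (h₀.mono hs) (h₁.mono hs)
      (fun k hk => m₀ k (by omega)) (fun k hk => m₁ k (by omega))
      (fun g p hp => e₀ g p (hs hp)) (fun g p hp => e₁ g p (hs hp))
    obtain ⟨h, k1, k2, k3⟩ := exists_cyl_param m
    refine hD.hty_step_equiv hH (hmono (Nat.le_succ _)) (hinv _) e₀ e₁ eH (fun i hi => ?_)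
    obtain ⟨j1, j2⟩ := hD.bdry_spec hH h₀ h₁ (m₀ _ le_rfl) (m₁ _ le_rfl) 1 hi
    exact k3 Y _ _ (hfill (m + 1) (by omega) le_rfl _ (j1.comp k1 k2) (j2.comp k2))

end equivariant

/-- A base point `p₀ ∈ Sk 1` exists by `SP 0`.  Build compatible homotopies `H_m` from `id` to
`p₀` on `Sk m` with values in `Sk (m+1)` (`hty_step`), put `H p = H_{p.n + 1} p`, use
`continuousOn_All_prod` and `contractible_iff_id_nullhomotopic`. -/
theorem WF.contractible (hD : D.WF) (hs : ∀ j, D.SP j) : ContractibleSpace D.Tot := by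
  obtain ⟨p₀, hp₀⟩ : ∃ p₀ : D.Z, p₀ ∈ D.Sk 1 := by
    obtain ⟨z⟩ : Nonempty D.Z := ⟨(⟨0, 1, 0, 0⟩ : CPt G)⟩
    obtain ⟨F, -, hF, -⟩ := hs 0 (fun _ => z) continuousOn_const (fun x hx => by
      rw [mem_sphere_zero_iff_norm, Subsingleton.elim x 0, norm_zero] at hx
      exact absurd hx zero_ne_one)
    exact ⟨F 0, hF (mem_closedBall_self zero_le_one)⟩
  have step : ∀ (m : ℕ) (H : {H // D.Hty m (id : D.Z → D.Z) (fun _ => p₀) (D.Sk (m + 1)) H}),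
      ∃ H' : {H // D.Hty (m + 1) (id : D.Z → D.Z) (fun _ => p₀) (D.Sk (m + 1 + 1)) H},
        ∀ p ∈ D.Sk m, H'.1 p = H.1 p := by
    rintro m ⟨H, hH⟩
    obtain ⟨h, k1, k2, k3⟩ := exists_cyl_param m
    obtain ⟨H', h1, h2⟩ := hD.hty_step (Y := D.Z) hH (C' := D.Sk (m + 1 + 1)) (Sk.mono (Nat.le_succ _))
      (fun g i hi => by
        obtain ⟨j1, j2⟩ := hD.bdry_spec hH continuousOn_id continuousOn_const (mapsTo_id _)
          (fun _ _ => Sk.mono (by omega) hp₀) g hi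
        exact k3 D.Z _ _ (hs (m + 1) _ (j1.comp k1 k2) (j2.comp k2)))
    exact ⟨⟨H', h1⟩, h2⟩
  choose f hf using step
  have e : ∀ p, p ∉ D.Sk 0 := fun p hp => by rw [Sk_zero] at hp; exact hp
  let Hs : ∀ m : ℕ, {H // D.Hty m (id : D.Z → D.Z) (fun _ => p₀) (D.Sk (m + 1)) H} := fun m =>
    Nat.rec ⟨fun p _ => p, ⟨fun q hq => absurd hq.1 (e _), fun p hp => absurd hp (e _),
      fun p hp => absurd hp (e _), fun p hp => absurd hp (e _)⟩⟩ f m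
  have hcomp : ∀ m m', m ≤ m' → ∀ p ∈ D.Sk m, (Hs m').1 p = (Hs m).1 p := by
    intro m m' h p hp
    induction m', h using Nat.le_induction with
    | base => rfl
    | succ k hk ih => exact (hf k (Hs k) p (Sk.mono hk hp)).trans ih
  let H : D.Z → ℝ → D.Z := fun p => (Hs (CPt.n p + 1)).1 p
  have hmem : ∀ p ∈ D.All, p ∈ D.Sk (CPt.n p + 1) := fun p hp => ⟨hp, Nat.lt_succ_self _⟩
  have hH : ∀ m, ∀ p ∈ D.Sk m, H p = (Hs m).1 p :=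
    fun m p hp => (hcomp _ m hp.2 p (hmem p hp.1)).symm
  have hc : ContinuousOn (Function.uncurry H) ((D.All : Set D.Z) ×ˢ Icc 0 1) :=
    hD.continuousOn_All_prod (fun n g i hi =>
      (w3_cont_comp (Hs (n + 1)).2.cont g hi subset_rfl (hD.chr_mem hi)).congr
        (fun q hq => congrFun (hH _ _ (hD.chr_mem hi hq.1)) q.2))
  rw [contractible_iff_id_nullhomotopic]
  refine ⟨⟨p₀, hp₀.1⟩, ⟨⟨⟨fun q => ⟨H q.2.1 q.1,
    Sk_subset_All ((Hs _).2.maps _ (hmem _ q.2.2) _ q.1.2)⟩, ?_⟩, fun p => ?_, fun p => ?_⟩⟩⟩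
  · refine Continuous.subtype_mk ?_ _
    exact hc.comp_continuous (f := fun q : unitInterval × D.Tot => (q.2.1, (q.1 : ℝ)))
      (by fun_prop) (fun q => ⟨q.2.2, q.1.2⟩)
  · exact Subtype.ext ((Hs _).2.zero _ (hmem _ p.2))
  · exact Subtype.ext ((Hs _).2.one _ (hmem _ p.2))

end CD

end Crest.Agent.R185
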