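import Crest.Agent.R185.W2
import Crest.Agent.R185.W3
import Crest.Agent.R185.AExt
import Crest.Agent.R185.ARips

/-!
# R185 TASK W4: coarsely aspherical groups are of type F∞
-/

set_option autoImplicit false

namespace Crest.Agent.R185

open Set Metric Filter
open scoped _root_.Topology

variable {G : Type} [Group G]

namespace CD

variable {D : CD G}

theorem w4_sph_zero : Sph 0 = ∅ := by
  refine eq_empty_of_forall_notMem fun x hx => ?_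
  rw [Subsingleton.elim x 0, mem_sphere_zero_iff_norm, norm_zero] at hx
  exact zero_ne_one hx

theorem w4_step_zero (hD : D.WF) : ∃ D' : CD G, D'.WF ∧ Agree 0 D D' ∧ D'.SP 0 := by
  obtain ⟨D', h1, h2, h3⟩ := hD.attach 0 (ι := Unit) (fun _ _ => ⟨0, 1, 0, 0⟩)
    (fun _ => by rw [w4_sph_zero]; exact continuousOn_empty _)
    (fun _ => by rw [w4_sph_zero]; exact mapsTo_empty _ _)
  refine ⟨D', h1, h2, fun f _ _ => (h3 ()).congr ?_⟩
  rw [w4_sph_zero]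
  exact eqOn_empty _ _

theorem w4_fsm_skel {c k : ℕ} {T : Set G} (g : G) (σ : Finset (JV G)) (h : σ ∈ skel k (JC c T)) :
    fsm g σ ∈ skel k (JC c T) :=
  ⟨fsm_mem_jc g h.1, by rw [card_fsm]; exact h.2⟩

theorem w4_act_rl {K : Set (Finset (JV G))} (hK : ∀ (g : G), ∀ σ ∈ K, fsm g σ ∈ K) (g : G)
    {y : JV G → ℝ} (hy : y ∈ Rl K) : act g y ∈ Rl K := by
  obtain ⟨σ, hσ, hy⟩ := mem_rl.1 hy
  exact mem_rl.2 ⟨_, hK g σ hσ, act_mem_spx.2 hy⟩

/-- the map `β₀` on the `(m-1)`-skeleton of the coloured model -/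
theorem w4_beta0 {m : ℕ} (hs : ∀ j < m, D.SP j) (c : ℕ) (T : Set G) :
    ∃ β : (JV G → ℝ) → D.Z, (∀ σ ∈ skel m (JC c T), ContinuousOn β (Spx σ)) ∧
      (∀ j ≤ m, MapsTo β (Rl (skel j (JC c T))) (D.Sk j)) ∧
      ∀ (g : G), ∀ y ∈ Rl (skel m (JC c T)), β (act g y) = g • β y := by
  obtain ⟨β, h1, -, h2⟩ := ext (Γ := G) (Y := D.Z) (K := skel m (JC c T)) (K₀ := ∅)
    ((isCx_jc c T).skel m) ⟨fun _ h => h.elim, fun _ h => h.elim⟩ (empty_subset _) w4_fsm_skel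
    (fun _ _ h => h.elim) (fun g σ h => jc_free h.1) (fun k _ => D.Sk k)
    (fun _ _ _ _ _ _ _ h => Sk.mono h) (fun g d σ _ y hy => smul_mem_Sk.2 hy)
    (fun σ hσ _ d hd => hs d (by have := hσ.2; omega))
    (F₀ := fun _ => (⟨0, 1, 0, 0⟩ : CPt G)) (fun _ h => h.elim)
    (fun g y hy => by obtain ⟨σ, hσ, -⟩ := mem_rl.1 hy; exact hσ.elim)
  refine ⟨β, fun σ hσ => (h1 σ hσ).1, fun j hj y hy => ?_, h2⟩
  obtain ⟨σ, hσ, hy⟩ := mem_rl.1 hy
  exact Sk.mono hσ.2 ((h1 σ ⟨hσ.1, hσ.2.trans hj⟩).2 hy)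

theorem w4_step_succ (hD : D.WF) {d : ℕ} (hG : CC G (d + 1)) (hs : ∀ j < d + 1, D.SP j) :
    ∃ D' : CD G, D'.WF ∧ Agree (d + 1) D D' ∧ D'.SP (d + 1) := by
  obtain ⟨α, αc, αe, αm, -⟩ := hD.exists_alpha
  obtain ⟨T, hT, αm⟩ := αm (d + 1)
  obtain ⟨c, T', hc, hT', hTT, hjf⟩ := jf hG hT
  obtain ⟨β₀, βc, βm, βe⟩ := w4_beta0 hs c T'
  have hK₀ : IsCx (skel (d + 1) (JC c T')) := (isCx_jc c T').skel _
  have hK : IsCx (skel (d + 1 + 1) (JC c T')) := (isCx_jc c T').skel _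
  have hJ : ∀ j ≤ d + 1, Rl (JC j T) ⊆ Rl (skel j (JC c T')) := fun j hj =>
    Rl.mono fun σ hσ => ⟨JC.mono (hj.trans hc) hTT hσ, card_le_of_mem_jc hσ⟩
  have hsk : ∀ j ≤ d + 1, Rl (skel j (JC c T')) ⊆ Rl (skel (d + 1) (JC c T')) := fun j hj =>
    Rl.mono fun σ hσ => ⟨hσ.1, hσ.2.trans hj⟩
  have αm' : MapsTo α (D.Sk (d + 1)) (Rl (skel (d + 1) (JC c T'))) := fun p hp =>
    hJ _ le_rfl (αm _ le_rfl hp)
  -- the map `β₀ ∘ α`
  have Fm : ∀ j ≤ d + 1, MapsTo (β₀ ∘ α) (D.Sk j) (D.Sk j) := fun j hj p hp =>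
    βm j hj (hJ j hj (αm j hj hp))
  have Fc : ContinuousOn (β₀ ∘ α) (D.Sk (d + 1) : Set D.Z) := by
    refine hD.continuousOn_Sk fun n hn g i hi => ?_
    have h1 : MapsTo (D.chr n g i) (Bal n) (D.Sk (d + 1)) := fun x hx =>
      Sk.mono hn (hD.chr_mem hi hx)
    have h2 : FS (fun x => α (D.chr n g i x)) (Bal n) :=
      fs_of_jc (isCompact_closedBall _ _) hT
        (αc.comp (continuousOn_chr hi) fun x hx => Sk_subset_All (h1 hx))
        fun x hx => αm _ le_rfl (h1 hx)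
    exact h2.comp hK₀ βc fun x hx => αm' (h1 hx)
  have Fe : ∀ (g : G), ∀ p ∈ D.Sk (d + 1), (β₀ ∘ α) (g • p) = g • (β₀ ∘ α) p := fun g p hp => by
    have := αe g p (Sk_subset_All hp)
    simp only [Function.comp]
    rw [← βe g _ (αm' hp), ← this]
  have hd1 : D.Sk d ⊆ D.Sk (d + 1) := Sk.mono (Nat.le_succ d)
  obtain ⟨H₀, hH₀, eH₀⟩ := hD.exists_hty_equiv (Y := D.Z) (F₀ := id) (F₁ := β₀ ∘ α) d
    (fun k => D.Sk k) (fun _ _ h => Sk.mono h) (fun k g y hy => smul_mem_Sk.2 hy)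
    (fun k _ hk => hs k (Nat.lt_succ_of_le hk)) continuousOn_id (Fc.mono hd1)
    (fun _ _ => mapsTo_id _) (fun k hk => Fm k (hk.trans (Nat.le_succ d)))
    (fun _ _ _ => rfl) (fun g p hp => Fe g p (hd1 hp))
  -- the new cells
  have hface : ∀ σ ∈ skel (d + 1 + 1) (JC c T'), ∀ τ ⊆ σ, τ ≠ σ → τ.Nonempty →
      τ ∈ skel (d + 1) (JC c T') := fun σ hσ τ h1 h2 h3 =>
    ⟨(isCx_jc c T').down σ hσ.1 τ h1 h3, by
      have := Finset.card_lt_card (lt_of_le_of_ne h1 h2 : τ ⊂ σ)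
      have := hσ.2
      omega⟩
  let S : Set (Finset (JV G)) := {σ | (σ ∈ JC c T' ∧ ∃ p ∈ σ, p.g = 1) ∧ σ.card = d + 1 + 1}
  have hS : S.Finite := (jc_finite hT').subset fun σ hσ => hσ.1
  have : Finite S := hS
  choose hσ hσc hσm hσf using fun σ : S => exists_bd_param σ.1 (d + 1) σ.2.2
  obtain ⟨h, hc', hm', hf'⟩ := exists_cyl_param d
  have hSK : ∀ σ : S, σ.1 ∈ skel (d + 1 + 1) (JC c T') := fun σ => ⟨σ.2.1.1, σ.2.2.le⟩
  have hbd := fun (i : Fin (D.N d)) => hD.bdry_spec hH₀ continuousOn_id Fc (mapsTo_id _)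
    (Fm _ le_rfl) (1 : G) i.2
  obtain ⟨D', hD', hA, hfl⟩ := hD.attach (d + 1) (ι := S ⊕ Fin (D.N d))
    (Sum.elim (fun σ => β₀ ∘ hσ σ) fun i => D.bdry d id (β₀ ∘ α) H₀ 1 i ∘ h)
    (by
      rintro (σ | i)
      · exact (continuousOn_bd hK₀ βc (hface _ (hSK σ))).1.comp (hσc σ) (hσm σ)
      · exact (hbd i).1.comp hc' hm')
    (by
      rintro (σ | i)
      · exact fun x hx => βm _ le_rfl ((continuousOn_bd hK₀ βc (hface _ (hSK σ))).2 (hσm σ hx))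
      · exact fun x hx => (hbd i).2 (hm' hx))
  refine ⟨D', hD', hA, ?_⟩
  have hSk : D.Sk (d + 1) = D'.Sk (d + 1) := hA.Sk_eq le_rfl
  have hup : D.Sk (d + 1) ⊆ D'.Sk (d + 1 + 1) := hSk ▸ Sk.mono (Nat.le_succ _)
  -- extend `β₀`
  obtain ⟨β, bc, bm, beq, -⟩ := ext1 (Γ := G) (Y := D'.Z) hK hK₀
    (fun σ hσ => ⟨hσ.1, hσ.2.trans (Nat.le_succ _)⟩) w4_fsm_skel w4_fsm_skel
    (fun g σ h => jc_free h.1) hface (fun _ => D'.Sk (d + 1 + 1))
    (fun g σ _ y hy => smul_mem_Sk.2 hy) (F₀ := β₀)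
    (fun σ hσ => hA.continuousOn_to hD hD' (fun y hy => βm _ le_rfl (mem_rl.2 ⟨σ, hσ, hy⟩))
      (βc σ hσ)) βe
    (by
      intro σ hσK hσ0
      obtain ⟨p, hp⟩ := hK.ne σ hσK
      have hcard : σ.card = d + 1 + 1 := by
        have h1 := hσK.2
        have h2 : ¬ σ.card ≤ d + 1 := fun h => hσ0 ⟨hσK.1, h⟩
        omega
      have hmem : fsm p.g⁻¹ σ ∈ S :=
        ⟨⟨fsm_mem_jc _ hσK.1, p.g⁻¹ • p, smul_mem_fsm.2 hp, by simp⟩, by rw [card_fsm, hcard]⟩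
      obtain ⟨F', c1, c2, c3⟩ := hσf ⟨_, hmem⟩ D'.Z (D'.Sk (d + 1 + 1)) β₀ (hfl (Sum.inl ⟨_, hmem⟩))
      refine ⟨fun y => p.g • F' (act p.g⁻¹ y), ?_, fun y hy => ?_, fun y hy => ?_⟩
      · exact (c1.comp (continuous_act _).continuousOn fun y hy => act_mem_spx.2 hy).const_smul p.g
      · exact smul_mem_Sk.2 (c2 (act_mem_spx.2 hy))
      · have hy' : y ∈ Rl (skel (d + 1) (JC c T')) := (continuousOn_bd hK₀ βc (hface _ hσK)).2 hy
        have := βe p.g _ (w4_act_rl w4_fsm_skel p.g⁻¹ hy')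
        rw [← act_mul, mul_inv_cancel, act_one] at this
        simp only
        rw [c3 (act_mem_bd.2 hy), this]
        rfl)
  -- extend the homotopy
  have hH₀' : D.Hty (Y := D'.Z) d id (β₀ ∘ α) (D.Sk (d + 1)) H₀ :=
    ⟨hA.continuousOn_to hD hD' (fun q hq => hH₀.maps q.1 hq.1 q.2 hq.2) hH₀.cont, hH₀.zero, hH₀.one,
      hH₀.maps⟩
  obtain ⟨H, hH, -⟩ := hD.hty_step_equiv (Y := D'.Z) hH₀' hup (fun g y hy => smul_mem_Sk.2 hy)
    (fun _ _ _ => rfl) Fe eH₀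
    (fun i hi => hf' D'.Z (D'.Sk (d + 1 + 1)) _ (hfl (Sum.inr ⟨i, hi⟩)))
  -- fill
  intro f fc fm
  have fm' : MapsTo f (Sph (d + 1)) (D.Sk (d + 1)) := hSk ▸ fm
  have fc' : ContinuousOn (Y := D.Z) f (Sph (d + 1)) := hA.symm.continuousOn_to hD' hD fm fc
  obtain ⟨F, F1, F2, F3⟩ := hjf (fun x => α (f x))
    (fs_of_jc (isCompact_sphere _ _) hT (αc.comp fc' fun x hx => Sk_subset_All (fm' hx))
      fun x hx => αm _ le_rfl (fm' hx)) fun x hx => αm _ le_rfl (fm' hx)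
  refine TFl.of_homotopy (g := fun x => β₀ (α (f x))) (fun x t => H (f x) t) ?_
    (fun x hx t ht => hH.maps _ (fm' hx) t ht) (fun x hx => hH.zero _ (fm' hx))
    (fun x hx => hH.one _ (fm' hx)) ⟨β ∘ F, F1.comp hK bc F2, fun x hx => ?_, fun x hx => ?_⟩
  · have h1 : ContinuousOn (fun q : (Fin (d + 1) → ℝ) × ℝ => ((f q.1, q.2) : D.Z × ℝ))
        (Sph (d + 1) ×ˢ Icc 0 1) :=
      (fc'.comp continuousOn_fst fun q hq => hq.1).prodMk continuousOn_snd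
    exact hH.cont.comp h1 fun q hq => ⟨fm' hq.1, hq.2⟩
  · obtain ⟨σ, hσK, hy⟩ := mem_rl.1 (F2 hx)
    by_cases h0 : σ ∈ skel (d + 1) (JC c T')
    · have hy' : F x ∈ Rl (skel (d + 1) (JC c T')) := mem_rl.2 ⟨σ, h0, hy⟩
      simp only [Function.comp]
      rw [beq hy']
      exact hup (βm _ le_rfl hy')
    · exact bm σ hσK h0 hy
  · simp only [Function.comp]
    rw [F3 hx]
    exact beq (αm' (fm' hx))

/-- Take `α, T` (`exists_alpha`), `c, T'` (`jf`), `K = skel (m+1) (JC c T')`, `K₀ = skel m (JC c T')`.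
`β₀ : Rl K₀ → Z` from `ext` (`K₀ := ∅`, carriers `C k σ = Sk k`, `SP`).  If `m = d + 1`,
`exists_hty_equiv` gives an equivariant homotopy `H₀` from `id` to `β₀ ∘ α` on `Sk d` with values in
`Sk m` (`FS.comp`, `fs_of_jc`, `continuousOn_Sk` for the continuity of `β₀ ∘ α`).  Attach
(`WF.attach`) the spheres `β₀ ∘ h_σ` (`exists_bd_param`, `σ ∈ K` with `m + 1` vertices and a vertex
with `g = 1`, `jc_finite`) and `bdry d id (β₀ ∘ α) H₀ 1 i ∘ h` (`exists_cyl_param`, `i < N d`).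
In the new complex `ext1` extends `β₀` to `β` on `Rl K`, and `hty_step` or `hty_step_equiv` extends
`H₀` to `Sk m` (transfer with `Agree.*`).  For `f : Sph m → Sk m`: `f ≃ β ∘ α ∘ f`
(`TFl.of_homotopy`) and `α ∘ f` fills in `Rl K` (`jf`). -/
theorem WF.step (hD : D.WF) {m : ℕ} (hG : CC G m) (hs : ∀ j < m, D.SP j) :
    ∃ D' : CD G, D'.WF ∧ Agree m D D' ∧ D'.SP m := by
  cases m with
  | zero => exact w4_step_zero hD
  | succ d => exact w4_step_succ hD hG hs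

theorem w4_next (h : CCinf G) (m : ℕ) (D : {D : CD G // D.WF ∧ ∀ j < m, D.SP j}) :
    ∃ D' : {D : CD G // D.WF ∧ ∀ j < m + 1, D.SP j}, Agree m D.1 D'.1 := by
  obtain ⟨D', h1, h2, h3⟩ := D.2.1.step (h m) D.2.2
  refine ⟨⟨D', h1, fun j hj => ?_⟩, h2⟩
  rcases Nat.lt_succ_iff_lt_or_eq.1 hj with hj | rfl
  · exact (h2.mono hj).sp D.2.1 h1 (D.2.2 j hj)
  · exact h3

end CD

/-- recursion with `step` starting from the empty complex, `exists_limit`, `contractible`,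
`realize` -/
theorem CCinf.realize (h : CCinf G) : Crest.Topology.HasFiniteTypeClassifyingComplex G := by
  choose nxt hn using CD.w4_next h
  let Ds : (m : ℕ) → {D : CD G // D.WF ∧ ∀ j < m, D.SP j} := fun m =>
    Nat.rec ⟨⟨fun _ => 0, fun _ _ _ => ⟨0, 1, 0, 0⟩⟩,
      ⟨fun _ _ h => absurd h (Nat.not_lt_zero _), fun _ _ h => absurd h (Nat.not_lt_zero _)⟩,
      fun _ h => absurd h (Nat.not_lt_zero _)⟩ nxt m
  obtain ⟨D, hD, hA⟩ := CD.exists_limit (fun m => (Ds m).1) (fun m => (Ds m).2.1)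
    fun m => hn m (Ds m)
  exact hD.realize (hD.contractible fun j =>
    (hA (j + 1)).sp (Ds (j + 1)).2.1 hD ((Ds (j + 1)).2.2 j (Nat.lt_succ_self j)))

end Crest.Agent.R185
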