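import Crest.Agent.R185.AH

/-!
# R185 part A: free `G`-CW complexes of finite type (definitions)

A point is a dimension `n`, a group element `g`, an index `i` and a vector `x`; it is a point of the
complex if `i < N n` and `‖x‖ < 1`.
-/

set_option autoImplicit false

namespace Crest.Agent.R185

open Set Metric Filter
open scoped _root_.Topology

/-- ambient points -/
structure CPt (G : Type) where
  n : ℕ
  g : G
  i : ℕ
  x : Fin n → ℝ

variable {G : Type} [Group G]

instance : MulAction G (CPt G) where
  smul h p := ⟨p.n, h * p.g, p.i, p.x⟩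
  one_smul p := by
    cases p; exact congrArg (fun g => (⟨_, g, _, _⟩ : CPt G)) (one_mul _)
  mul_smul a b p := by
    cases p; exact congrArg (fun g => (⟨_, g, _, _⟩ : CPt G)) (mul_assoc _ _ _)

theorem CPt.smul_mk (h : G) (n : ℕ) (g : G) (i : ℕ) (x : Fin n → ℝ) :
    h • (⟨n, g, i, x⟩ : CPt G) = ⟨n, h * g, i, x⟩ := rfl

/-- cell data: the number of orbits of `n`-cells and the attaching maps -/
structure CD (G : Type) where
  N : ℕ → ℕ
  att : (n : ℕ) → ℕ → (Fin n → ℝ) → CPt G

namespace CD

variable (D : CD G)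

open Classical in
/-- characteristic maps -/
noncomputable def chr (n : ℕ) (g : G) (i : ℕ) (x : Fin n → ℝ) : CPt G :=
  if ‖x‖ < 1 then ⟨n, g, i, x⟩ else g • D.att n i x

/-- all points of the complex -/
def All : Set (CPt G) := {p | p.i < D.N p.n ∧ ‖p.x‖ < 1}

/-- the union of the cells of dimension `< m` -/
def Sk (m : ℕ) : Set (CPt G) := {p | p ∈ D.All ∧ p.n < m}

/-- the final topology for the characteristic map of one cell -/
noncomputable def topC (n : ℕ) (g : G) (i : ℕ) : TopologicalSpace (CPt G) :=
  TopologicalSpace.coinduced (fun x : Bal n => D.chr n g i x) inferInstance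

/-- the weak topology of the cells of dimension `< m` -/
noncomputable def topL (m : ℕ) : TopologicalSpace (CPt G) :=
  ⨆ (n : ℕ) (_ : n < m) (g : G) (i : ℕ) (_ : i < D.N n), D.topC n g i

/-- the weak topology -/
noncomputable def top : TopologicalSpace (CPt G) :=
  ⨆ (n : ℕ) (g : G) (i : ℕ) (_ : i < D.N n), D.topC n g i

/-- the ambient points with the topology `topL m` -/
def ZL (_ : CD G) (_ : ℕ) : Type := CPt G

/-- the ambient points with the weak topology -/
def Z (_ : CD G) : Type := CPt G

noncomputable instance (m : ℕ) : TopologicalSpace (D.ZL m) := D.topL m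

noncomputable instance : TopologicalSpace D.Z := D.top

instance : MulAction G D.Z := inferInstanceAs (MulAction G (CPt G))

/-- the attaching maps are continuous maps into the lower skeleton -/
structure WF : Prop where
  maps : ∀ n i, i < D.N n → MapsTo (D.att n i) (Sph n) (D.Sk n)
  cont : ∀ n i, i < D.N n → ContinuousOn (Y := D.ZL n) (D.att n i) (Sph n)

/-- the same cells in dimensions `< m` -/
def Agree (m : ℕ) (D D' : CD G) : Prop := ∀ n < m, D.N n = D'.N n ∧ D.att n = D'.att n

/-- spheres `S^{j-1}` in the `(j-1)`-skeleton bound in the `j`-skeleton -/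
def SP (j : ℕ) : Prop := TFill (Y := D.Z) j (D.Sk j) (D.Sk (j + 1))

/-- `H` is a homotopy from `F₀` to `F₁` on the cells of dimension `< m` with values in `C` -/
structure Hty {Y : Type} [TopologicalSpace Y] (m : ℕ) (F₀ F₁ : D.Z → Y) (C : Set Y)
    (H : D.Z → ℝ → Y) : Prop where
  cont : ContinuousOn (Function.uncurry H) ((D.Sk m : Set D.Z) ×ˢ Icc 0 1)
  zero : ∀ p ∈ D.Sk m, H p 0 = F₀ p
  one : ∀ p ∈ D.Sk m, H p 1 = F₁ p
  maps : ∀ p ∈ D.Sk m, ∀ t ∈ Icc (0 : ℝ) 1, H p t ∈ C

/-- the complex as a space -/
abbrev Tot : Type := {p : D.Z // p ∈ D.All}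

instance : MulAction G D.Tot where
  smul g p := ⟨g • p.1, p.2⟩
  one_smul p := Subtype.ext (one_smul G p.1)
  mul_smul a b p := Subtype.ext (mul_smul a b p.1)

end CD

end Crest.Agent.R185
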