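import Crest.Agent.R185.CertSD
import Crest.Agent.R185.CertL

/-!
# R185 TASK Xt: the extension `K * ⟨τ⟩ / [τ, P]` and its action on `K ⧸ P ⊔ {f}`
-/

set_option autoImplicit false

namespace Crest.Agent.R185

/-- `⟨K, τ | [τ, P]⟩` -/
abbrev Xt {K : Type} [Group K] (P : Subgroup K) : Type := SD K (K ⧸ P)

namespace Xt

variable {K : Type} [Group K] (P : Subgroup K)

/-- the new letter -/
def tau : Xt P := SD.lt ((1 : K) : K ⧸ P)

/-- `K` acting on `Option (K ⧸ P)` -/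
def actK : K →* Equiv.Perm (Option (K ⧸ P)) where
  toFun k := Equiv.optionCongr (MulAction.toPerm k)
  map_one' := by
    ext1 z
    cases z <;> simp
  map_mul' a b := by
    ext1 z
    cases z <;> simp [mul_smul]

open Classical in
/-- the letter of the coset `z` acts as the transposition of `z` and the new point -/
noncomputable def act : Xt P →* Equiv.Perm (Option (K ⧸ P)) :=
  SD.lift (actK P) (fun z => Equiv.swap (some z) none) fun r z =>
    Equiv.swap_apply_apply (actK P r) (some z) none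

/-- the stabiliser of the base point -/
noncomputable def St : Subgroup (Xt P) :=
  (MulAction.stabilizer (Equiv.Perm (Option (K ⧸ P))) (some ((1 : K) : K ⧸ P))).comap (act P)

/-- size of a coset -/
noncomputable def nu (N : Nrm K) (z : K ⧸ P) : ℕ := sInf {n | ∃ r : K, (r : K ⧸ P) = z ∧ N r = n}

theorem nu_le (N : Nrm K) (r : K) : nu P N (r : K ⧸ P) ≤ N r :=
  Nat.sInf_le ⟨r, rfl, rfl⟩

theorem exists_nu (N : Nrm K) (z : K ⧸ P) : ∃ r : K, (r : K ⧸ P) = z ∧ N r = nu P N z := by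
  obtain ⟨r, rfl⟩ := QuotientGroup.mk_surjective z
  exact Nat.sInf_mem (s := {n | ∃ s : K, (s : K ⧸ P) = r ∧ N s = n}) ⟨_, r, rfl, rfl⟩

theorem sz (N : Nrm K) : SD.Sz N (nu P N) := by
  intro r z
  obtain ⟨s, rfl, hs⟩ := exists_nu P N z
  rw [← hs]
  exact (nu_le P N (r * s)).trans (N.mul r s)

/-- the radius norm -/
noncomputable def nX (N : Nrm K) : Nrm (Xt P) := SD.rad N (nu P N) (sz P N)

/-- generators -/
def xG {𝔄 : Type} (κ : 𝔄 → K) : 𝔄 ⊕ Unit → Xt P := SD.gens κ (fun _ => ((1 : K) : K ⧸ P))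

theorem xt_smul_one (h : K) : h • ((1 : K) : K ⧸ P) = (h : K ⧸ P) :=
  congrArg QuotientGroup.mk (mul_one h)

theorem based : SD.Based (R := K) (fun _ : Unit => ((1 : K) : K ⧸ P)) (fun _ => P) := by
  refine ⟨fun z => ?_, fun q q' r r' => ?_⟩
  · obtain ⟨r, rfl⟩ := QuotientGroup.mk_surjective z
    exact ⟨(), r, (xt_smul_one P r).symm⟩
  · simp only [xt_smul_one, QuotientGroup.eq, true_and]

theorem lt_eq (h : K) : (SD.lt (h : K ⧸ P) : Xt P) = SD.reg h * tau P * (SD.reg h)⁻¹ := by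
  rw [tau, SD.reg_mul_lt, xt_smul_one]

theorem tau_comm {p : K} (hp : p ∈ P) : Commute (tau P) (SD.reg p) := by
  have e : (p : K ⧸ P) = ((1 : K) : K ⧸ P) := QuotientGroup.eq.2 (by simpa using hp)
  have := lt_eq P p
  rw [e, eq_mul_inv_iff_mul_eq] at this
  exact this

theorem xt_mem_St {x : Xt P} :
    x ∈ St P ↔ act P x (some ((1 : K) : K ⧸ P)) = some ((1 : K) : K ⧸ P) := Iff.rfl

theorem xt_act_reg (h : K) (z : K ⧸ P) : act P (SD.reg h) (some z) = some (h • z) := by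
  rw [act, SD.lift_reg]
  rfl

theorem xt_act_reg_none (h : K) : act P (SD.reg h) none = none := by
  rw [act, SD.lift_reg]
  rfl

open Classical in
theorem xt_act_lt (z : K ⧸ P) : act P (SD.lt z) = Equiv.swap (some z) none := by
  rw [act, SD.lift_lt]

open Classical in
theorem xt_act_cons (p : (K ⧸ P) × Bool) (y : Xt P) (a : Option (K ⧸ P)) :
    act P ((if p.2 then SD.lt p.1 else (SD.lt p.1)⁻¹) * y) a =
      Equiv.swap (some p.1) none (act P y a) := by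
  rw [map_mul, Equiv.Perm.mul_apply]
  split_ifs
  · rw [xt_act_lt]
  · rw [map_inv, xt_act_lt, Equiv.swap_inv]

theorem reg_mem_St {h : K} : SD.reg h ∈ St P ↔ h ∈ P := by
  rw [xt_mem_St, xt_act_reg, xt_smul_one, Option.some_inj, QuotientGroup.eq, mul_one, inv_mem_iff]

open Classical in
theorem conj_mem_St (h : K) : (tau P)⁻¹ * SD.reg h * tau P ∈ St P := by
  rw [xt_mem_St, map_mul, map_mul, map_inv, Equiv.Perm.mul_apply, Equiv.Perm.mul_apply, tau,
    xt_act_lt, Equiv.swap_inv, Equiv.swap_apply_left, xt_act_reg_none, Equiv.swap_apply_right]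

open Classical in
theorem sq_mem_St : tau P * tau P ∈ St P := by
  rw [xt_mem_St, map_mul, tau, xt_act_lt, Equiv.swap_mul_self, Equiv.Perm.one_apply]

open Classical in
theorem tau_notMem_St : tau P ∉ St P := by
  rw [xt_mem_St, tau, xt_act_lt, Equiv.swap_apply_left]
  exact fun h => Option.some_ne_none _ h.symm

open Classical in
theorem lt_mem_St {h : K} (hh : h ∉ P) : SD.lt (h : K ⧸ P) ∈ St P := by
  rw [xt_mem_St, xt_act_lt, Equiv.swap_apply_of_ne_of_ne _ (Option.some_ne_none _)]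
  rw [Ne, Option.some_inj, QuotientGroup.eq, inv_one, one_mul]
  exact hh

open Classical in
theorem xt_inv {N : Nrm K} {R' : Subgroup (Xt P)}
    (h₁ : ∀ h, (tau P)⁻¹ * SD.reg h * tau P ∈ R') (h₂ : tau P * tau P ∈ R') {m : ℕ}
    (h₃ : ∀ h : K, h ∉ P → N h ≤ 2 * m → SD.lt (h : K ⧸ P) ∈ R') {r : K} (hr : N r ≤ m)
    (l : List ((K ⧸ P) × Bool)) (hl : ∀ p ∈ l, nu P N p.1 ≤ m) :
    (∃ h : K, N h ≤ m ∧ act P (wev SD.lt l * SD.reg r) (some ((1 : K) : K ⧸ P)) = some (h : K ⧸ P) ∧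
      (SD.reg h)⁻¹ * (wev SD.lt l * SD.reg r) ∈ R') ∨
    (act P (wev SD.lt l * SD.reg r) (some ((1 : K) : K ⧸ P)) = none ∧
      (tau P)⁻¹ * (wev SD.lt l * SD.reg r) ∈ R') := by
  induction l with
  | nil =>
    refine Or.inl ⟨r, hr, ?_, ?_⟩
    · rw [wev_nil, one_mul, xt_act_reg, xt_smul_one]
    · rw [wev_nil, one_mul, inv_mul_cancel]
      exact one_mem _
  | cons p l ih =>
    obtain ⟨k, hk, hk'⟩ := exists_nu P N p.1
    have hkm : N k ≤ m := hk'.trans_le (hl p List.mem_cons_self)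
    rw [wev_cons, mul_assoc, xt_act_cons]
    generalize wev SD.lt l * SD.reg r = y at ih ⊢
    rcases ih fun q hq => hl q (List.mem_cons_of_mem _ hq) with ⟨h, hh, e, hy⟩ | ⟨e, hy⟩
    · rw [e]
      by_cases hz : (h : K ⧸ P) = p.1
      · refine Or.inr ⟨by rw [hz, Equiv.swap_apply_left], ?_⟩
        rw [← hz, lt_eq]
        split_ifs
        · have := mul_mem (h₁ h) hy
          simpa only [mul_assoc] using this
        · have := mul_mem (mul_mem (h₁ h) (inv_mem h₂)) hy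
          simpa only [mul_assoc, mul_inv_rev, inv_inv, mul_inv_cancel_left] using this
      · refine Or.inl ⟨h, hh, Equiv.swap_apply_of_ne_of_ne (fun e => hz (Option.some_inj.1 e))
          (Option.some_ne_none _), ?_⟩
        have h4 := h₃ (h⁻¹ * k) (fun hm => hz ((QuotientGroup.eq.2 hm).trans hk))
          ((N.mul _ _).trans (by rw [N.inv]; omega))
        rw [← hk, lt_eq]
        rw [lt_eq, map_mul, map_inv] at h4
        split_ifs
        · have := mul_mem h4 hy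
          simpa only [mul_assoc, mul_inv_rev, inv_inv, mul_inv_cancel_left] using this
        · have := mul_mem (inv_mem h4) hy
          simpa only [mul_assoc, mul_inv_rev, inv_inv, mul_inv_cancel_left] using this
    · refine Or.inl ⟨k, hkm, by rw [e, Equiv.swap_apply_right, hk], ?_⟩
      have h4 := h₁ k⁻¹
      rw [map_inv] at h4
      rw [← hk, lt_eq]
      split_ifs
      · have := mul_mem (mul_mem h₂ h4) hy
        simpa only [mul_assoc, mul_inv_rev, inv_inv, mul_inv_cancel_left, inv_mul_cancel_left]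
          using this
      · have := mul_mem h4 hy
        simpa only [mul_assoc, mul_inv_rev, inv_inv, mul_inv_cancel_left, inv_mul_cancel_left]
          using this

/-- Write `x = z₁^± ⋯ z_m^± reg r` (`SD.eq_wd`).  Attach to the point `some h` the coset
`reg h * R'` (well defined as `reg P ≤ R'`) and to `none` the coset `τ * R'`.  By induction on
suffixes `x_i`: the point `x_i • base` is `none` or `some h` with `N h ≤ nX x`, and `x_i R'` is the
coset attached to it. -/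
theorem mem_of_small {N : Nrm K} {R' : Subgroup (Xt P)}
    (h₁ : ∀ h, (tau P)⁻¹ * SD.reg h * tau P ∈ R') (h₂ : tau P * tau P ∈ R') {n : ℕ}
    (h₃ : ∀ h : K, h ∉ P → N h ≤ n → SD.lt (h : K ⧸ P) ∈ R') {x : Xt P} (hx : x ∈ St P)
    (hn : 2 * nX P N x ≤ n) : x ∈ R' := by
  obtain ⟨hr, hl⟩ := (SD.rad_le_iff (sz P N)).1 (le_refl (nX P N x))
  have key := xt_inv P h₁ h₂ (fun h hh hN => h₃ h hh (hN.trans hn)) hr (SD.wd x)
    fun p hp => (hl p hp).1
  rw [← SD.eq_wd, (xt_mem_St P).1 hx] at key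
  rcases key with ⟨h, -, e, hy⟩ | ⟨e, -⟩
  · have hP : h ∈ P := by simpa using QuotientGroup.eq.1 (Option.some_inj.1 e)
    have := h₁ h
    rw [mul_assoc, ← (tau_comm P hP).eq, inv_mul_cancel_left] at this
    simpa using mul_mem this hy
  · exact absurd e (Option.some_ne_none _)

/-- states of the simulation: a signed letter and the point after applying it -/
abbrev xt_S (𝔄 : Type) : Type := (Wd 𝔄 × Bool) × Option (Wd 𝔄)

/-- the word of a certificate -/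
def xt_xw {𝔄 : Type} (c : Wd 𝔄 × List (xt_S 𝔄)) : Wd (𝔄 ⊕ Unit) :=
  (c.2.flatMap fun p => wmap Sum.inl p.1.1 ++ (Sum.inr (), p.1.2) :: winv (wmap Sum.inl p.1.1)) ++
    wmap Sum.inl c.1

/-- the list of states of a certificate -/
def xt_ls {𝔄 : Type} (c : Wd 𝔄 × List (xt_S 𝔄)) : List (xt_S 𝔄) := c.2 ++ [(([], true), some c.1)]

/-- the final point -/
def xt_hd {𝔄 : Type} (c : Wd 𝔄 × List (xt_S 𝔄)) : Option (Wd 𝔄) := (xt_ls c).head?.bind Prod.snd

/-- the point described by a word -/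
def xt_pv {𝔄 : Type} (κ : 𝔄 → K) (a : Option (Wd 𝔄)) : Option (K ⧸ P) :=
  a.map fun w => ((wev κ w : K) : K ⧸ P)

/-- one step of the simulation -/
def xt_Stp {𝔄 : Type} (κ : 𝔄 → K) (k : Wd 𝔄) (a b : Option (Wd 𝔄)) : Prop :=
  (a = none ∧ b = some k) ∨ (a ≠ none ∧ ((wev κ (winv (a.getD []) ++ k) ∈ P ∧ b = none) ∨
    (wev κ (winv (a.getD []) ++ k) ∉ P ∧ b = a)))

variable {𝔄 : Type} (κ : 𝔄 → K)

theorem xt_wev_inl (w : Wd 𝔄) : wev (xG P κ) (wmap Sum.inl w) = SD.reg (wev κ w) := by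
  rw [wev_wmap, map_wev]; rfl

theorem xt_xw_nil (r : Wd 𝔄) : wev (xG P κ) (xt_xw (r, [])) = SD.reg (wev κ r) := by
  simp [xt_xw, xt_wev_inl]

theorem xt_xw_cons (r : Wd 𝔄) (p : xt_S 𝔄) (M : List (xt_S 𝔄)) :
    wev (xG P κ) (xt_xw (r, p :: M)) =
      (if p.1.2 then SD.lt ((wev κ p.1.1 : K) : K ⧸ P)
        else (SD.lt ((wev κ p.1.1 : K) : K ⧸ P))⁻¹) *
        wev (xG P κ) (xt_xw (r, M)) := by
  have e : xG P κ (Sum.inr ()) = tau P := rfl
  simp only [xt_xw, List.flatMap_cons, wev_append, wev_cons, wev_winv, xt_wev_inl, lt_eq, e]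
  split_ifs <;> simp only [mul_assoc, mul_inv_rev, inv_inv]

theorem xt_chain_cons (R : xt_S 𝔄 → Option (Wd 𝔄) → Prop) (r : Wd 𝔄) (p : xt_S 𝔄)
    (M : List (xt_S 𝔄)) : (xt_ls (r, p :: M)).IsChain (fun b b' => R b b'.2) ↔
      R p (xt_hd (r, M)) ∧ (xt_ls (r, M)).IsChain fun b b' => R b b'.2 := by
  cases M <;> simp [xt_ls, xt_hd]

open Classical in
theorem xt_Stp_sound {k : Wd 𝔄} {a b : Option (Wd 𝔄)} (h : xt_Stp P κ k a b) :
    Equiv.swap (some ((wev κ k : K) : K ⧸ P)) none (xt_pv P κ a) = xt_pv P κ b := by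
  rcases h with ⟨rfl, rfl⟩ | ⟨ha, h⟩
  · exact Equiv.swap_apply_right _ _
  · obtain ⟨w, rfl⟩ := Option.ne_none_iff_exists'.1 ha
    rw [Option.getD_some, wev_append, wev_winv, ← QuotientGroup.eq] at h
    rcases h with ⟨h, rfl⟩ | ⟨h, rfl⟩
    · rw [← h]
      exact Equiv.swap_apply_left _ _
    · exact Equiv.swap_apply_of_ne_of_ne (fun e => h (Option.some_inj.1 e)) (Option.some_ne_none _)

theorem xt_sound (r : Wd 𝔄) (M : List (xt_S 𝔄))
    (h : (xt_ls (r, M)).IsChain fun b b' => xt_Stp P κ b.1.1 b'.2 b.2) :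
    act P (wev (xG P κ) (xt_xw (r, M))) (some ((1 : K) : K ⧸ P)) = xt_pv P κ (xt_hd (r, M)) := by
  induction M with
  | nil => rw [xt_xw_nil, xt_act_reg, xt_smul_one]; rfl
  | cons p M ih =>
    obtain ⟨h1, h2⟩ := (xt_chain_cons (fun b a => xt_Stp P κ b.1.1 a b.2) r p M).1 h
    rw [xt_xw_cons, xt_act_cons P (((wev κ p.1.1 : K) : K ⧸ P), p.1.2), ih h2, xt_Stp_sound P κ h1]
    rfl

theorem xt_hd_mem (c : Wd 𝔄 × List (xt_S 𝔄)) : ∃ p ∈ xt_ls c, xt_hd c = p.2 := by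
  obtain ⟨r, _ | ⟨p, M⟩⟩ := c
  · exact ⟨_, List.mem_cons_self, rfl⟩
  · exact ⟨p, List.mem_cons_self, rfl⟩

theorem xt_compl (hg : Gens κ) (N : Nrm K) {n : ℕ} {r : Wd 𝔄} (hr : N (wev κ r) ≤ n)
    (l : List ((K ⧸ P) × Bool)) (hl : ∀ p ∈ l, nu P N p.1 ≤ n) :
    ∃ M, wev (xG P κ) (xt_xw (r, M)) = wev SD.lt l * SD.reg (wev κ r) ∧
      ((xt_ls (r, M)).IsChain fun b b' => xt_Stp P κ b.1.1 b'.2 b.2) ∧
      ∀ p ∈ xt_ls (r, M), N (wev κ p.1.1) ≤ n ∧ N (wev κ (p.2.getD [])) ≤ n := by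
  have h0 : N (wev κ []) ≤ n := by rw [wev_nil, N.one]; exact Nat.zero_le _
  induction l with
  | nil =>
    refine ⟨[], by rw [xt_xw_nil, wev_nil, one_mul], List.isChain_singleton _, fun p hp => ?_⟩
    rw [List.mem_singleton.1 hp]
    exact ⟨h0, hr⟩
  | cons q l ih =>
    obtain ⟨M, e, hc, hM⟩ := ih fun p hp => hl p (List.mem_cons_of_mem _ hp)
    obtain ⟨k', hk, hk'⟩ := exists_nu P N q.1
    obtain ⟨k, rfl⟩ := hg.exists_wev k'
    have hkn : N (wev κ k) ≤ n := hk'.trans_le (hl q List.mem_cons_self)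
    obtain ⟨b, hb, hbn⟩ : ∃ b, xt_Stp P κ k (xt_hd (r, M)) b ∧ N (wev κ (b.getD [])) ≤ n := by
      by_cases ha : xt_hd (r, M) = none
      · exact ⟨some k, Or.inl ⟨ha, rfl⟩, hkn⟩
      by_cases hm : wev κ (winv ((xt_hd (r, M)).getD []) ++ k) ∈ P
      · exact ⟨none, Or.inr ⟨ha, Or.inl ⟨hm, rfl⟩⟩, h0⟩
      · obtain ⟨p, hp, e'⟩ := xt_hd_mem (r, M)
        exact ⟨_, Or.inr ⟨ha, Or.inr ⟨hm, rfl⟩⟩, e' ▸ (hM p hp).2⟩
    refine ⟨((k, q.2), b) :: M, by rw [xt_xw_cons, e, wev_cons, hk, mul_assoc],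
      (xt_chain_cons (fun b a => xt_Stp P κ b.1.1 a b.2) r _ M).2 ⟨hb, hc⟩, fun p hp => ?_⟩
    rcases List.mem_cons.1 hp with rfl | hp
    exacts [⟨hkn, hbn⟩, hM p hp]

end Xt

variable {Sit E F : Type} [Primcodable E] [Primcodable F] {X : Ctx Sit E F}
  {𝔄 : Type} [Primcodable 𝔄] {K : Sit → Type} [∀ σ, Group (K σ)] {κ : ∀ σ, 𝔄 → K σ}
  {N : ∀ σ, Nrm (K σ)} {f : ℕ → ℕ} {P : ∀ σ, Subgroup (K σ)}

theorem xt_primrec_xw : Primrec (Xt.xt_xw : Wd 𝔄 × List (Xt.xt_S 𝔄) → Wd (𝔄 ⊕ Unit)) := by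
  have h1 : Primrec fun x : (Wd 𝔄 × List (Xt.xt_S 𝔄)) × Xt.xt_S 𝔄 =>
      (wmap Sum.inl x.2.1.1 : Wd (𝔄 ⊕ Unit)) :=
    (primrec_wmap Primrec.sumInl).comp (Primrec.fst.comp (Primrec.fst.comp Primrec.snd))
  exact Primrec.list_append.comp (Primrec.list_flatMap Primrec.snd (Primrec.list_append.comp h1
    (Primrec.list_cons.comp ((Primrec.const _).pair
      (Primrec.snd.comp (Primrec.fst.comp Primrec.snd))) (primrec_winv.comp h1))).to₂)
    ((primrec_wmap Primrec.sumInl).comp Primrec.fst)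

theorem xt_primrec_ls : Primrec (Xt.xt_ls : Wd 𝔄 × List (Xt.xt_S 𝔄) → List (Xt.xt_S 𝔄)) :=
  Primrec.list_append.comp Primrec.snd (Primrec.list_cons.comp
    ((Primrec.const _).pair (Primrec.option_some.comp Primrec.fst)) (Primrec.const []))

theorem xt_primrec_hd : Primrec (Xt.xt_hd : Wd 𝔄 × List (Xt.xt_S 𝔄) → Option (Wd 𝔄)) :=
  Primrec.option_bind (Primrec.list_head?.comp xt_primrec_ls) (Primrec.snd.comp Primrec.snd).to₂

theorem xt_cert_Stp (hP : CertS X κ N f fun σ => (P σ : Set (K σ)))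
    (hP' : CertS X κ N f fun σ => (P σ : Set (K σ))ᶜ) :
    Cert X (fun σ (x : Wd 𝔄 × Option (Wd 𝔄) × Option (Wd 𝔄)) =>
      Xt.xt_Stp (P σ) (κ σ) x.1 x.2.1 x.2.2)
      fun σ x => f (N σ (wev (κ σ) (winv (x.2.1.getD []) ++ x.1))) := by
  have ca : Computable fun x : Wd 𝔄 × Option (Wd 𝔄) × Option (Wd 𝔄) => x.2.1 :=
    Computable.fst.comp Computable.snd
  have cb : Computable fun x : Wd 𝔄 × Option (Wd 𝔄) × Option (Wd 𝔄) => x.2.2 :=
    Computable.snd.comp Computable.snd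
  have cw : Computable fun x : Wd 𝔄 × Option (Wd 𝔄) × Option (Wd 𝔄) =>
      winv (x.2.1.getD []) ++ x.1 :=
    (Primrec.list_append.comp (primrec_winv.comp (Primrec.option_getD.comp
      (Primrec.fst.comp Primrec.snd) (Primrec.const []))) Primrec.fst).to_comp
  have h1 := Cert.of_re' (X := X) (re_and (re_eq ca (Computable.const none))
    (re_eq cb (Primrec.option_some.comp Primrec.fst).to_comp)) fun _ _ => 0
  have h2 := Cert.of_re' (X := X) (re_ne ca (Computable.const none)) fun _ _ => 0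
  have h3 := (Cert.comp' hP cw).and
    (Cert.of_re' (X := X) (re_eq cb (Computable.const none)) fun _ _ => 0)
  have h4 := (Cert.comp' hP' cw).and (Cert.of_re' (X := X) (re_eq cb ca) fun _ _ => 0)
  exact h1.or (h2.and (h3.or h4
    (t := fun σ x => f (N σ (wev (κ σ) (winv (x.2.1.getD []) ++ x.1)))) fun σ x h =>
      h.imp (fun h => ⟨h, by simp⟩) fun h => ⟨h, by simp⟩)) fun σ x h =>
    h.imp (fun h => ⟨h, Nat.zero_le _⟩) fun h => ⟨h, by simp⟩

theorem xt_cert (hf : Monotone f) (hg : ∀ σ, Gens (κ σ))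
    (hEq : CertEq X fun σ => Xt.xG (P σ) (κ σ))
    (hP : CertS X κ N f fun σ => (P σ : Set (K σ)))
    (hP' : CertS X κ N f fun σ => (P σ : Set (K σ))ᶜ) {S : ∀ σ, Set (Option (K σ ⧸ P σ))}
    (hS : Cert X (fun σ (a : Option (Wd 𝔄)) => Xt.xt_pv (P σ) (κ σ) a ∈ S σ)
      fun σ a => f (N σ (wev (κ σ) (a.getD [])))) :
    CertS X (fun σ => Xt.xG (P σ) (κ σ)) (fun σ => Xt.nX (P σ) (N σ)) (fun n => f (2 * n))
      fun σ => {x | Xt.act (P σ) x (some ((1 : K σ) : K σ ⧸ P σ)) ∈ S σ} := by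
  have h1 := hEq.eq₂.comp'
    (f := fun x : Wd (𝔄 ⊕ Unit) × Wd 𝔄 × List (Xt.xt_S 𝔄) => (x.1, Xt.xt_xw x.2))
    (Primrec.fst.pair (xt_primrec_xw.comp Primrec.snd)).to_comp
  have h2 := ((xt_cert_Stp hP hP').comp'
    (f := fun x : Unit × Xt.xt_S 𝔄 × Xt.xt_S 𝔄 => (x.2.1.1.1, x.2.2.2, x.2.1.2))
    ((Primrec.fst.comp (Primrec.fst.comp (Primrec.fst.comp Primrec.snd))).pair
      ((Primrec.snd.comp (Primrec.snd.comp Primrec.snd)).pair
        (Primrec.snd.comp (Primrec.fst.comp Primrec.snd)))).to_comp).chain.comp'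
    (f := fun x : Wd (𝔄 ⊕ Unit) × Wd 𝔄 × List (Xt.xt_S 𝔄) => ((), Xt.xt_ls x.2))
    ((Primrec.const ()).pair (xt_primrec_ls.comp Primrec.snd)).to_comp
  have h3 := hS.comp' (f := fun x : Wd (𝔄 ⊕ Unit) × Wd 𝔄 × List (Xt.xt_S 𝔄) => Xt.xt_hd x.2)
    (xt_primrec_hd.comp Primrec.snd).to_comp
  have snd : ∀ σ (w : Wd (𝔄 ⊕ Unit)) (c : Wd 𝔄 × List (Xt.xt_S 𝔄)),
      wev (Xt.xG (P σ) (κ σ)) w = wev (Xt.xG (P σ) (κ σ)) (Xt.xt_xw c) →
      ((Xt.xt_ls c).IsChain fun b b' => Xt.xt_Stp (P σ) (κ σ) b.1.1 b'.2 b.2) →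
      Xt.act (P σ) (wev (Xt.xG (P σ) (κ σ)) w) (some ((1 : K σ) : K σ ⧸ P σ)) =
        Xt.xt_pv (P σ) (κ σ) (Xt.xt_hd c) := fun σ w c e hc => by
    rw [e]
    exact Xt.xt_sound _ _ c.1 c.2 hc
  have compl : ∀ σ (w : Wd (𝔄 ⊕ Unit)), ∃ c : Wd 𝔄 × List (Xt.xt_S 𝔄),
      wev (Xt.xG (P σ) (κ σ)) w = wev (Xt.xG (P σ) (κ σ)) (Xt.xt_xw c) ∧
      ((Xt.xt_ls c).IsChain fun b b' => Xt.xt_Stp (P σ) (κ σ) b.1.1 b'.2 b.2) ∧
      ∀ p ∈ Xt.xt_ls c, N σ (wev (κ σ) p.1.1) ≤ Xt.nX (P σ) (N σ) (wev (Xt.xG (P σ) (κ σ)) w) ∧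
        N σ (wev (κ σ) (p.2.getD [])) ≤ Xt.nX (P σ) (N σ) (wev (Xt.xG (P σ) (κ σ)) w) :=
    fun σ w => by
      obtain ⟨hr, hl⟩ := (SD.rad_le_iff (Xt.sz (P σ) (N σ))).1
        (le_refl (Xt.nX (P σ) (N σ) (wev (Xt.xG (P σ) (κ σ)) w)))
      obtain ⟨r, hr'⟩ := (hg σ).exists_wev (wev (Xt.xG (P σ) (κ σ)) w).right
      obtain ⟨M, e, hc, hM⟩ := Xt.xt_compl (P σ) (κ σ) (hg σ) (N σ) (hr' ▸ hr) _
        fun p hp => (hl p hp).1
      exact ⟨(r, M), by rw [e, hr', ← SD.eq_wd], hc, hM⟩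
  refine ((h1.and (h2.and h3)).ex (t := fun σ w =>
    f (2 * Xt.nX (P σ) (N σ) (wev (Xt.xG (P σ) (κ σ)) w))) ?_).congr
    (fun σ w => ⟨fun ⟨c, hc⟩ => ?_, fun h => ?_⟩) fun _ _ _ => le_rfl
  · rintro σ w ⟨c, hc⟩
    obtain ⟨c', e, hc', hM⟩ := compl σ w
    refine ⟨c', ⟨e, hc', ?_⟩, max_le (Nat.zero_le _) (max_le (certL_foldr_le ?_) (hf ?_))⟩
    · have := hc.2.2
      simp only at this ⊢
      rwa [← snd σ w c' e hc', snd σ w c hc.1 hc.2.1]
    · intro x hx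
      obtain ⟨p, hp, rfl⟩ := List.mem_map.1 hx
      refine hf ?_
      have a1 := (hM _ (List.of_mem_zip hp).1).1
      have a2 := (hM _ (List.mem_of_mem_tail (List.of_mem_zip hp).2)).2
      have a3 := (N σ).mul (wev (κ σ) (p.2.2.getD []))⁻¹ (wev (κ σ) p.1.1.1)
      rw [(N σ).inv] at a3
      simp only [wev_append, wev_winv]
      omega
    · obtain ⟨p, hp, e'⟩ := Xt.xt_hd_mem c'
      have a1 := (hM p hp).2
      simp only [e']
      omega
  · change Xt.act _ _ _ ∈ S σ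
    rw [snd σ w c hc.1 hc.2.1]
    exact hc.2.2
  · obtain ⟨c', e, hc', -⟩ := compl σ w
    refine ⟨c', e, hc', ?_⟩
    simp only
    rw [← snd σ w c' e hc']
    exact h

/-- (1): `certS_SD` with `SD.W_empty`.  (2), (3): the certificate is the expression
`x = ∏ (k_i τ k_i⁻¹)^{±} · r` with words of norm `≤ nX x`; simulate the action on the base point:
a list of points (`Option (Wd 𝔄)`, each a word among `r, k_i`), every step being justified by
`k⁻¹ h ∈ P` or `k⁻¹ h ∉ P`, and the final point is (resp. is not) the base point. -/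
theorem certS_Xt (hf : Monotone f) (hg : ∀ σ, Gens (κ σ))
    (hEq : CertEq X fun σ => Xt.xG (P σ) (κ σ)) (hne : CertS X κ N f fun _ => {1}ᶜ)
    (hP : CertS X κ N f fun σ => (P σ : Set (K σ)))
    (hP' : CertS X κ N f fun σ => (P σ : Set (K σ))ᶜ) :
    (CertS X (fun σ => Xt.xG (P σ) (κ σ)) (fun σ => Xt.nX (P σ) (N σ)) (fun n => f (2 * n))
      fun _ => {1}ᶜ) ∧
    (CertS X (fun σ => Xt.xG (P σ) (κ σ)) (fun σ => Xt.nX (P σ) (N σ)) (fun n => f (2 * n))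
      fun σ => (Xt.St (P σ) : Set (Xt (P σ)))) ∧
    (CertS X (fun σ => Xt.xG (P σ) (κ σ)) (fun σ => Xt.nX (P σ) (N σ)) (fun n => f (2 * n))
      fun σ => (Xt.St (P σ) : Set (Xt (P σ)))ᶜ) := by
  have cw : Computable fun a : Option (Wd 𝔄) => a.getD [] :=
    (Primrec.option_getD.comp Primrec.id (Primrec.const [])).to_comp
  have hq : ∀ σ (w : Wd 𝔄), (((wev (κ σ) w : K σ) : K σ ⧸ P σ) = (1 : K σ)) ↔ wev (κ σ) w ∈ P σ :=
    fun σ w => by rw [QuotientGroup.eq, mul_one, inv_mem_iff]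
  refine ⟨?_, (xt_cert (S := fun σ => {some ((1 : K σ) : K σ ⧸ P σ)}) hf hg hEq hP hP' ?_).congr
    fun _ => rfl, (xt_cert (S := fun σ => {some ((1 : K σ) : K σ ⧸ P σ)}ᶜ) hf hg hEq hP hP'
      ?_).congr fun _ => rfl⟩
  · have hu : Cert X (fun σ (x : Unit × Wd 𝔄) =>
        wev (κ σ) x.2 • ((1 : K σ) : K σ ⧸ P σ) ∉ (∅ : Set (K σ ⧸ P σ)))
        fun σ x => f (N σ (wev (κ σ) x.2)) :=
      (Cert.comp' (CertS.univ (X := X) (g := κ) (N := N) (D := f)) Computable.snd).congr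
        (fun _ _ => by simp) fun _ _ _ => le_rfl
    refine (certS_SD (Z' := fun _ => ∅) (Z'' := fun _ => ∅) (R' := fun _ => ⊥) hf hg
      (fun σ => Xt.based (P σ)) (fun σ => Xt.sz (P σ) (N σ)) (fun σ z => ?_) hEq
      (Cert.comp' hP' Computable.snd) hu hu (hne.congr fun σ => by simp)).congr fun σ => by
        rw [SD.W_empty]
    obtain ⟨r, rfl, hr⟩ := Xt.exists_nu (P σ) (N σ) z
    exact ⟨(), r, (Xt.xt_smul_one _ r).symm, hr.le⟩
  · refine ((Cert.of_re' (X := X) (re_ne Computable.id (Computable.const none)) fun _ _ => 0).and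
      (Cert.comp' hP cw)).congr (fun σ a => ?_) fun _ _ _ => by simp
    cases a <;> simp [Xt.xt_pv, hq]
  · refine ((Cert.of_re' (X := X) (re_eq Computable.id (Computable.const none)) fun _ _ => 0).or
      ((Cert.of_re' (X := X) (re_ne Computable.id (Computable.const none)) fun _ _ => 0).and
        (Cert.comp' hP' cw)) (t := fun σ a => f (N σ (wev (κ σ) (a.getD [])))) fun σ x h =>
      h.imp (fun h => ⟨h, Nat.zero_le _⟩) fun h => ⟨h, by simp⟩).congr (fun σ a => ?_)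
      fun _ _ _ => le_rfl
    cases a <;> simp [Xt.xt_pv, hq]

end Crest.Agent.R185
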